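import Crest.Agent.IsingFactor.AsmRule

/-!
# IsingFactor.AsmAux: auxiliary lemmas of WP IF-AsmParams.

* `isingW_lip`: the Ising family of a window has the uniform Lipschitz property with `κ = 4 |W|`.
* `bit_compare`: two bits at the same horizon and mesh, driven by the same noise, differ with small
  probability when the magnetisations along the two Euler schemes are close in `L²`.
-/

set_option autoImplicit false

open MeasureTheory ProbabilityTheory
open Crest.Agent.SRFactor Crest.ProbabilityR.Labels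

namespace Crest.Agent.IsingFactor.AsmAux

/-- A family whose sets have at most `b` elements has the Lipschitz property with `κ = 4 b`. -/
lemma lip_of_card_le {E : Type*} [DecidableEq E] (ν : Family E) (b : ℕ)
    (hb : ∀ B S, S ⊆ B → ν.mass B S ≠ 0 → S.card ≤ b) : ν.Lip (4 * b) := by
  intro B lam lam' e c hc he
  have hc0 : 0 ≤ c := (abs_nonneg _).trans (hc e he)
  have hwt : ∀ (l l' : E → ℝ), (∀ g ∈ B, |l g - l' g| ≤ c) → ∀ S ∈ B.powerset,
      wt ν B l S ≤ Real.exp (b * c) * wt ν B l' S := by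
    intro l l' hl S hS
    unfold wt
    by_cases hm : ν.mass B S = 0
    · simp [hm]
    · have hSB := Finset.mem_powerset.1 hS
      have hcard := hb B S hSB hm
      have h3 : (∑ i ∈ S, l i) ≤ b * c + ∑ i ∈ S, l' i := by
        have h1 : ∑ i ∈ S, (l i - l' i) ≤ ∑ _i ∈ S, c :=
          Finset.sum_le_sum fun i hi => (le_abs_self _).trans (hl i (hSB hi))
        rw [Finset.sum_sub_distrib, Finset.sum_const, nsmul_eq_mul] at h1
        have h2 : (S.card : ℝ) * c ≤ b * c :=
          mul_le_mul_of_nonneg_right (by exact_mod_cast hcard) hc0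
        linarith
      calc ν.mass B S * Real.exp (∑ i ∈ S, l i)
          ≤ ν.mass B S * Real.exp (b * c + ∑ i ∈ S, l' i) :=
            mul_le_mul_of_nonneg_left (Real.exp_le_exp.2 h3) (ν.nonneg _ _)
        _ = Real.exp (b * c) * (ν.mass B S * Real.exp (∑ i ∈ S, l' i)) := by
            rw [Real.exp_add]; ring
  have hz : ∀ (l l' : E → ℝ), (∀ g ∈ B, |l g - l' g| ≤ c) →
      zfun ν B l ≤ Real.exp (b * c) * zfun ν B l' := by
    intro l l' hl
    unfold zfun
    rw [Finset.mul_sum]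
    exact Finset.sum_le_sum (hwt l l' hl)
  have hn : ∀ (l l' : E → ℝ), (∀ g ∈ B, |l g - l' g| ≤ c) →
      numer ν B l e ≤ Real.exp (b * c) * numer ν B l' e := by
    intro l l' hl
    unfold numer
    rw [Finset.mul_sum]
    exact Finset.sum_le_sum fun S hS => hwt l l' hl S (Finset.mem_of_mem_filter S hS)
  have hsymm : ∀ g ∈ B, |lam' g - lam g| ≤ c := fun g hg => by rw [abs_sub_comm]; exact hc g hg
  have hp : ∀ (l l' : E → ℝ), (∀ g ∈ B, |l g - l' g| ≤ c) → (∀ g ∈ B, |l' g - l g| ≤ c) →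
      post ν B l e ≤ Real.exp (2 * (b * c)) * post ν B l' e := by
    intro l l' hl hl'
    have hz1 := zfun_pos ν B l
    have hz2 := zfun_pos ν B l'
    have hE : Real.exp (2 * (b * c)) = Real.exp (b * c) * Real.exp (b * c) := by
      rw [← Real.exp_add]; ring_nf
    have hEpos := Real.exp_pos (b * c)
    have hmul : numer ν B l e * zfun ν B l'
        ≤ (Real.exp (b * c) * numer ν B l' e) * (Real.exp (b * c) * zfun ν B l) :=
      mul_le_mul (hn l l' hl) (hz l' l hl') hz2.le (mul_nonneg hEpos.le (numer_nonneg ν B l' e))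
    unfold post
    rw [hE, div_le_iff₀ hz1]
    calc numer ν B l e = (numer ν B l e * zfun ν B l') / zfun ν B l' := by field_simp
      _ ≤ ((Real.exp (b * c) * numer ν B l' e) * (Real.exp (b * c) * zfun ν B l)) / zfun ν B l' :=
          div_le_div_of_nonneg_right hmul hz2.le
      _ = Real.exp (b * c) * Real.exp (b * c) * (numer ν B l' e / zfun ν B l') * zfun ν B l := by
          ring
  have h1 := hp lam lam' hc hsymm
  have h2 := hp lam' lam hsymm hc
  have p0 := post_nonneg ν B lam e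
  have p1 := post_le_one ν B lam e
  have q0 := post_nonneg ν B lam' e
  have q1 := post_le_one ν B lam' e
  set x : ℝ := 2 * (b * c) with hx
  have hx0 : 0 ≤ x := by positivity
  have hgoal : (4 : ℝ) * b * c = 2 * x := by rw [hx]; ring
  rw [hgoal]
  by_cases hx1 : x ≤ 1
  · have hexp : Real.exp x - 1 ≤ 2 * x := by
      have := Real.abs_exp_sub_one_le (x := x) (by rw [abs_of_nonneg hx0]; exact hx1)
      rw [abs_of_nonneg hx0] at this
      exact (le_abs_self _).trans this
    have hex0 : 0 ≤ Real.exp x - 1 := by linarith [Real.add_one_le_exp x]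
    rw [abs_le]
    constructor
    · nlinarith
    · nlinarith
  · push Not at hx1
    rw [abs_le]
    constructor <;> linarith

variable {V : Type*} [DecidableEq V] {G : SimpleGraph V}

/-- The Ising family of a window has the uniform Lipschitz property. -/
theorem isingW_lip (θ : ℝ) (W : Finset V) : (isingW G θ W).Lip (4 * W.card) := by
  refine lip_of_card_le _ _ fun B S _ hm => ?_
  have hne : (W.powerset.filter (fun S' => S' ∩ B = S)).Nonempty := by
    by_contra hcon
    rw [Finset.not_nonempty_iff_eq_empty] at hcon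
    apply hm
    show (∑ S' ∈ W.powerset.filter (fun S' => S' ∩ B = S), wtS G (clampθ θ) W S') / wtTot G θ W = 0
    rw [hcon]; simp
  obtain ⟨S', hS'⟩ := hne
  obtain ⟨h1, h2⟩ := Finset.mem_filter.1 hS'
  have hsub : S ⊆ W := by
    rw [← h2]
    exact Finset.inter_subset_left.trans (Finset.mem_powerset.1 h1)
  exact Finset.card_le_card hsub

/-! ### Measurability along the Euler scheme -/

lemma measurable_levelNoise (n : ℕ) : Measurable fun ξ : Noise V => levelNoise ξ n :=
  measurable_pi_lambda _ fun j => measurable_pi_lambda _ fun g =>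
    (measurable_pi_apply j).comp ((measurable_pi_apply n).comp (measurable_pi_apply g))

lemma measurable_lamI (θ : ℝ) (W : Finset V) (n k : ℕ) :
    Measurable fun ω : V → unitInterval => lamI G θ W n (xiL ω) k := by
  refine measurable_pi_lambda _ fun g => ?_
  have h1 : Measurable fun ω : V → unitInterval => levelNoise (xiL ω) n :=
    (measurable_levelNoise n).comp measurable_xiL
  exact ((measurable_euler (isingW G θ W) W (hh n) k g).comp h1).sub_const _

lemma measurable_magn_lamI {θ : ℝ} (hθ : GoodTheta θ) {W : Finset V} {v : V} (hv : v ∈ W)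
    (n k : ℕ) :
    Measurable fun ω : V → unitInterval => magn G θ W (lamI G θ W n (xiL ω) k) v := by
  have h2 : (fun ω : V → unitInterval => magn G θ W (lamI G θ W n (xiL ω) k) v)
      = fun ω => 2 * post (isingW G θ W) W (lamI G θ W n (xiL ω) k) v - 1 := by
    funext ω
    rw [post_isingW hθ _ _ hv]
    ring
  rw [h2]
  exact (((measurable_post (isingW G θ W) W v).comp (measurable_lamI θ W n k)).const_mul 2).sub_const 1

lemma stepOf_mul (l n : ℕ) : stepOf (l * hh n) n = l := by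
  unfold stepOf
  rw [mul_div_cancel_right₀ _ (hh_pos n).ne', Nat.floor_natCast]

lemma magT_mul (θ : ℝ) (W : Finset V) (n l : ℕ) (ξ : Noise V) (v : V) :
    magT G θ W n (l * hh n) ξ v = magn G θ W (lamI G θ W n ξ l) v := by
  unfold magT
  rw [stepOf_mul]

/-- The positions differ by the integral of the difference of the magnetisations. -/
lemma abs_pos_sub_le {θ θ' : ℝ} (hθ : GoodTheta θ) (hθ' : GoodTheta θ') {W W' : Finset V} {v : V}
    (hv : v ∈ W) (hv' : v ∈ W') (T n : ℕ) (ξ : Noise V) :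
    |pos (isingW G θ W) W T n ξ v - pos (isingW G θ' W') W' T n ξ v| ≤
      hh n * ∑ l ∈ Finset.range (T * 2 ^ n),
        |magn G θ W (lamI G θ W n ξ l) v - magn G θ' W' (lamI G θ' W' n ξ l) v| / 2 := by
  unfold pos
  rw [euler_eq_sum _ _ _ _ _ hv, euler_eq_sum _ _ _ _ _ hv']
  have h1 : ∀ l, post (isingW G θ W) W
      (fun g => euler (isingW G θ W) W (hh n) (levelNoise ξ n) l g - l * hh n / 2) v
      = (magn G θ W (lamI G θ W n ξ l) v + 1) / 2 := fun l => post_isingW hθ W _ hv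
  have h2 : ∀ l, post (isingW G θ' W') W'
      (fun g => euler (isingW G θ' W') W' (hh n) (levelNoise ξ n) l g - l * hh n / 2) v
      = (magn G θ' W' (lamI G θ' W' n ξ l) v + 1) / 2 := fun l => post_isingW hθ' W' _ hv'
  simp only [h1, h2]
  have h3 : hh n * ∑ l ∈ Finset.range (T * 2 ^ n), (magn G θ W (lamI G θ W n ξ l) v + 1) / 2
        + Real.sqrt (hh n) * ∑ l ∈ Finset.range (T * 2 ^ n), levelNoise ξ n l v
      - (hh n * ∑ l ∈ Finset.range (T * 2 ^ n), (magn G θ' W' (lamI G θ' W' n ξ l) v + 1) / 2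
        + Real.sqrt (hh n) * ∑ l ∈ Finset.range (T * 2 ^ n), levelNoise ξ n l v)
      = hh n * ∑ l ∈ Finset.range (T * 2 ^ n),
        (magn G θ W (lamI G θ W n ξ l) v - magn G θ' W' (lamI G θ' W' n ξ l) v) / 2 := by
    rw [add_sub_add_right_eq_sub, ← mul_sub, ← Finset.sum_sub_distrib]
    congr 1
    refine Finset.sum_congr rfl fun l _ => ?_
    ring
  rw [h3, abs_mul, abs_of_pos (hh_pos n)]
  refine mul_le_mul_of_nonneg_left ?_ (hh_pos n).le
  refine (Finset.abs_sum_le_sum_abs _ _).trans (le_of_eq ?_)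
  refine Finset.sum_congr rfl fun l _ => ?_
  rw [abs_div]
  norm_num

/-! ### From `L²` to `L¹` -/

section L1
variable {Ω : Type*} [MeasurableSpace Ω] {P : Measure Ω} [IsProbabilityMeasure P]

lemma integrable_of_bdd {f : Ω → ℝ} (hf : Measurable f) {C : ℝ} (hC : ∀ ω, |f ω| ≤ C) :
    Integrable f P :=
  Integrable.of_bound hf.aestronglyMeasurable C (Filter.Eventually.of_forall fun ω => by
    simpa [Real.norm_eq_abs] using hC ω)

lemma integral_abs_sub_le {δ : ℝ} (hδ : 0 < δ) {A B C D : Ω → ℝ}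
    (mA : Measurable A) (mB : Measurable B) (mC : Measurable C) (mD : Measurable D)
    (bA : ∀ ω, |A ω| ≤ 1) (bB : ∀ ω, |B ω| ≤ 1) (bC : ∀ ω, |C ω| ≤ 1) (bD : ∀ ω, |D ω| ≤ 1)
    (h1 : ∫ ω, (A ω - B ω) ^ 2 ∂P ≤ δ) (h2 : ∫ ω, (B ω - C ω) ^ 2 ∂P ≤ δ)
    (h3 : ∫ ω, (D ω - C ω) ^ 2 ∂P ≤ δ) :
    ∫ ω, |A ω - D ω| ∂P ≤ 3 * Real.sqrt δ := by
  set s := Real.sqrt δ with hs
  have hspos : 0 < s := Real.sqrt_pos.2 hδ
  have hss : s * s = δ := Real.mul_self_sqrt hδ.le
  have bsq : ∀ {X Y : Ω → ℝ}, (∀ ω, |X ω| ≤ 1) → (∀ ω, |Y ω| ≤ 1) → ∀ ω, |(X ω - Y ω) ^ 2| ≤ 4 := by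
    intro X Y hX hY ω
    have h4 : |X ω - Y ω| ≤ 2 := (abs_sub _ _).trans (by linarith [hX ω, hY ω])
    rw [abs_of_nonneg (sq_nonneg _), ← sq_abs]
    nlinarith [abs_nonneg (X ω - Y ω)]
  have iAB : Integrable (fun ω => (A ω - B ω) ^ 2) P :=
    integrable_of_bdd ((mA.sub mB).pow_const 2) (bsq bA bB)
  have iBC : Integrable (fun ω => (B ω - C ω) ^ 2) P :=
    integrable_of_bdd ((mB.sub mC).pow_const 2) (bsq bB bC)
  have iDC : Integrable (fun ω => (D ω - C ω) ^ 2) P :=
    integrable_of_bdd ((mD.sub mC).pow_const 2) (bsq bD bC)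
  have key : ∀ ω, |A ω - D ω| ≤ ((1 / (3 * s)) * (3 * ((A ω - B ω) ^ 2 + (B ω - C ω) ^ 2 + (D ω - C ω) ^ 2))
      + 3 * s) / 2 := by
    intro ω
    have h5 : (A ω - D ω) ^ 2 ≤ 3 * ((A ω - B ω) ^ 2 + (B ω - C ω) ^ 2 + (D ω - C ω) ^ 2) := by
      nlinarith [sq_nonneg ((A ω - B ω) - (B ω - C ω)), sq_nonneg ((A ω - B ω) + (D ω - C ω)),
        sq_nonneg ((B ω - C ω) + (D ω - C ω))]
    have h6 : |A ω - D ω| ≤ ((1 / (3 * s)) * (A ω - D ω) ^ 2 + 3 * s) / 2 := by
      have h7 : (0 : ℝ) < 3 * s := by positivity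
      have h8 : (1 / (3 * s)) * (A ω - D ω) ^ 2 = (|A ω - D ω|) ^ 2 / (3 * s) := by
        rw [sq_abs]; ring
      rw [h8]
      have h9 : |A ω - D ω| * (2 * (3 * s)) ≤ (|A ω - D ω|) ^ 2 + (3 * s) * (3 * s) := by
        nlinarith [sq_nonneg (|A ω - D ω| - 3 * s)]
      rw [le_div_iff₀ (by norm_num : (0 : ℝ) < 2), ← sub_le_iff_le_add, le_div_iff₀ h7]
      nlinarith
    refine h6.trans ?_
    have h10 : (0 : ℝ) ≤ 1 / (3 * s) := by positivity
    have := mul_le_mul_of_nonneg_left h5 h10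
    linarith
  have hI : Integrable (fun ω => ((1 / (3 * s)) * (3 * ((A ω - B ω) ^ 2 + (B ω - C ω) ^ 2 + (D ω - C ω) ^ 2))
      + 3 * s) / 2) P :=
    (((((iAB.add iBC).add iDC).const_mul 3).const_mul _).add (integrable_const _)).div_const 2
  have hA : Integrable (fun ω => |A ω - D ω|) P :=
    integrable_of_bdd (mA.sub mD).abs (fun ω => by
      rw [abs_abs]
      exact (abs_sub _ _).trans (by linarith [bA ω, bD ω] : |A ω| + |D ω| ≤ 2))
  refine (integral_mono hA hI key).trans ?_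
  have hval : ∫ ω, ((1 / (3 * s)) * (3 * ((A ω - B ω) ^ 2 + (B ω - C ω) ^ 2 + (D ω - C ω) ^ 2))
      + 3 * s) / 2 ∂P = ((1 / (3 * s)) * (3 * ((∫ ω, (A ω - B ω) ^ 2 ∂P) + (∫ ω, (B ω - C ω) ^ 2 ∂P)
        + (∫ ω, (D ω - C ω) ^ 2 ∂P))) + 3 * s) / 2 := by
    have i2 : Integrable (fun ω => (A ω - B ω) ^ 2 + (B ω - C ω) ^ 2) P := iAB.add iBC
    have i3 : Integrable (fun ω => (A ω - B ω) ^ 2 + (B ω - C ω) ^ 2 + (D ω - C ω) ^ 2) P := i2.add iDC
    have i4 : Integrable (fun ω => (1 / (3 * s)) * (3 * ((A ω - B ω) ^ 2 + (B ω - C ω) ^ 2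
        + (D ω - C ω) ^ 2))) P := (i3.const_mul 3).const_mul _
    rw [integral_div, integral_add i4 (integrable_const _), integral_const_mul, integral_const_mul,
      integral_add i2 iDC, integral_add iAB iBC]
    simp
  rw [hval]
  have hsum : (∫ ω, (A ω - B ω) ^ 2 ∂P) + (∫ ω, (B ω - C ω) ^ 2 ∂P) + (∫ ω, (D ω - C ω) ^ 2 ∂P)
      ≤ 3 * (s * s) := by rw [hss]; linarith
  have hfrac : (1 / (3 * s)) * (3 * ((∫ ω, (A ω - B ω) ^ 2 ∂P) + (∫ ω, (B ω - C ω) ^ 2 ∂P)
        + (∫ ω, (D ω - C ω) ^ 2 ∂P))) ≤ 3 * s := by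
    have h10 : (0 : ℝ) ≤ 1 / (3 * s) := by positivity
    calc _ ≤ (1 / (3 * s)) * (3 * (3 * (s * s))) := by
            refine mul_le_mul_of_nonneg_left ?_ h10
            linarith
      _ = 3 * s := by field_simp
  linarith

end L1

/-! ### Comparison of two bits -/

section compare
variable (hξ : IsDyadicNoise (labelMeasure V) (xiL (V := V)) Set.univ)
include hξ

/-- Two bits at the same horizon and mesh, with the same noise. -/
theorem bit_compare {θ θ' : ℝ} (hθ : GoodTheta θ) (hθ' : GoodTheta θ') {W W' : Finset V} {v : V}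
    (hv : v ∈ W) (hv' : v ∈ W') {T : ℕ} (hT : 4 ≤ T) (n : ℕ) {δ : ℝ} (hδ : 0 < δ)
    {M M' : ℝ → V → (V → unitInterval) → ℝ}
    (mM : ∀ r, Measurable (M r v)) (mM' : ∀ r, Measurable (M' r v))
    (bM : ∀ r ω, |M r v ω| ≤ 1) (bM' : ∀ r ω, |M' r v ω| ≤ 1)
    (h1 : ∀ r, Dy n r → r ≤ T → ∫ ω, (magT G θ W n r (xiL ω) v - M r v ω) ^ 2 ∂labelMeasure V ≤ δ)
    (h2 : ∀ r, Dy n r → r ≤ T → ∫ ω, (magT G θ' W' n r (xiL ω) v - M' r v ω) ^ 2 ∂labelMeasure V ≤ δ)
    (h3 : ∀ r, Dy n r → r ≤ T → ∫ ω, (M r v ω - M' r v ω) ^ 2 ∂labelMeasure V ≤ δ) :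
    (labelMeasure V).real {ω | bit (isingW G θ W) W T n (xiL ω) v ≠ bit (isingW G θ' W') W' T n (xiL ω) v}
      ≤ tvB (hh n) (T * 2 ^ n) W.card + 16 / T + (3 / 2) * T * Real.sqrt δ := by
  set ν := isingW G θ W with hν
  set ν' := isingW G θ' W' with hν'
  have hU : ∀ B : Finset V, (B : Set V) ⊆ Set.univ := fun B => Set.subset_univ _
  have hsub : {ω | bit ν W T n (xiL ω) v ≠ bit ν' W' T n (xiL ω) v} ⊆
      {ω | |pos ν W T n (xiL ω) v - (T : ℝ) / 2| ≤ 1} ∪
      {ω | 1 ≤ |pos ν W T n (xiL ω) v - pos ν' W' T n (xiL ω) v|} := by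
    intro ω hω
    simp only [Set.mem_union, Set.mem_ofPred_eq] at hω ⊢
    -- same argument as `bit_ne_subset`, for two families
    simp only [bit, ne_eq, decide_eq_decide] at hω
    by_contra hcon
    push Not at hcon
    obtain ⟨a1, a2⟩ := hcon
    have h3' := abs_lt.1 a2
    apply hω
    rcases lt_abs.1 a1 with h4 | h4
    · constructor
      · intro _; linarith [h3'.1]
      · intro _; linarith
    · constructor
      · intro h5; linarith
      · intro h5; linarith [h3'.2]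
  refine (measureReal_mono hsub).trans ((measureReal_union_le _ _).trans ?_)
  have hnear := near_bound ν hξ (hU W) hT n hv
  -- the second term: Markov
  have hmark : (labelMeasure V).real {ω | 1 ≤ |pos ν W T n (xiL ω) v - pos ν' W' T n (xiL ω) v|}
      ≤ ∫ ω, |pos ν W T n (xiL ω) v - pos ν' W' T n (xiL ω) v| ∂labelMeasure V :=
    markov_real (((integrable_pos ν hξ (hU W) T n v).sub (integrable_pos ν' hξ (hU W') T n v)).abs)
      fun _ => abs_nonneg _
  -- bound on each term of the sum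
  have hterm : ∀ l ∈ Finset.range (T * 2 ^ n),
      ∫ ω, |magn G θ W (lamI G θ W n (xiL ω) l) v - magn G θ' W' (lamI G θ' W' n (xiL ω) l) v|
        ∂labelMeasure V ≤ 3 * Real.sqrt δ := by
    intro l hl
    have hl' : l < T * 2 ^ n := Finset.mem_range.1 hl
    have hDy : Dy n (l * hh n) := ⟨l, rfl⟩
    have hle : (l : ℝ) * hh n ≤ T := by
      have h4 : ((l : ℕ) : ℝ) ≤ ((T * 2 ^ n : ℕ) : ℝ) := by exact_mod_cast hl'.le
      have h5 := mul_le_mul_of_nonneg_right h4 (hh_pos n).le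
      rwa [time_eq] at h5
    have e1 := h1 _ hDy hle
    have e2 := h2 _ hDy hle
    have e3 := h3 _ hDy hle
    simp only [magT_mul] at e1 e2
    exact integral_abs_sub_le hδ (measurable_magn_lamI hθ hv n l) (mM _)
      (mM' _) (measurable_magn_lamI hθ' hv' n l)
      (fun ω => abs_magn_le_one hθ _ _ _) (bM _) (bM' _) (fun ω => abs_magn_le_one hθ' _ _ _)
      e1 e3 e2
  have hint : ∀ l, Integrable (fun ω : V → unitInterval =>
      |magn G θ W (lamI G θ W n (xiL ω) l) v - magn G θ' W' (lamI G θ' W' n (xiL ω) l) v|)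
      (labelMeasure V) := fun l =>
    integrable_of_bdd ((measurable_magn_lamI hθ hv n l).sub (measurable_magn_lamI hθ' hv' n l)).abs
      (fun ω => by
        rw [abs_abs]
        exact (abs_sub _ _).trans (by
          linarith [abs_magn_le_one hθ (G := G) W (lamI G θ W n (xiL ω) l) v,
            abs_magn_le_one hθ' (G := G) W' (lamI G θ' W' n (xiL ω) l) v] : _ ≤ (2 : ℝ)))
  have hsum : ∫ ω, |pos ν W T n (xiL ω) v - pos ν' W' T n (xiL ω) v| ∂labelMeasure V
      ≤ (3 / 2) * T * Real.sqrt δ := by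
    have hI : Integrable (fun ω : V → unitInterval => hh n * ∑ l ∈ Finset.range (T * 2 ^ n),
        |magn G θ W (lamI G θ W n (xiL ω) l) v - magn G θ' W' (lamI G θ' W' n (xiL ω) l) v| / 2)
        (labelMeasure V) :=
      (integrable_finsetSum _ fun l _ => (hint l).div_const 2).const_mul _
    refine (integral_mono (((integrable_pos ν hξ (hU W) T n v).sub
      (integrable_pos ν' hξ (hU W') T n v)).abs) hI
      (fun ω => abs_pos_sub_le hθ hθ' hv hv' T n (xiL ω))).trans ?_
    rw [integral_const_mul, integral_finsetSum _ fun l _ => (hint l).div_const 2]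
    have h6 : ∑ l ∈ Finset.range (T * 2 ^ n), ∫ ω,
        |magn G θ W (lamI G θ W n (xiL ω) l) v - magn G θ' W' (lamI G θ' W' n (xiL ω) l) v| / 2
          ∂labelMeasure V ≤ ((T * 2 ^ n : ℕ) : ℝ) * (3 * Real.sqrt δ / 2) := by
      have h7 : ∀ l ∈ Finset.range (T * 2 ^ n), ∫ ω,
          |magn G θ W (lamI G θ W n (xiL ω) l) v - magn G θ' W' (lamI G θ' W' n (xiL ω) l) v| / 2
            ∂labelMeasure V ≤ 3 * Real.sqrt δ / 2 := by
        intro l hl
        rw [integral_div]
        have := hterm l hl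
        linarith
      refine (Finset.sum_le_sum h7).trans (le_of_eq ?_)
      simp
    calc hh n * _ ≤ hh n * (((T * 2 ^ n : ℕ) : ℝ) * (3 * Real.sqrt δ / 2)) :=
          mul_le_mul_of_nonneg_left h6 (hh_pos n).le
      _ = (((T * 2 ^ n : ℕ) : ℝ) * hh n) * (3 * Real.sqrt δ / 2) := by ring
      _ = (3 / 2) * T * Real.sqrt δ := by rw [time_eq]; ring
  linarith

end compare

end Crest.Agent.IsingFactor.AsmAux
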