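import Crest.Agent.IsingFactor.AsmAux

/-!
# IsingFactor.AsmParams (WP IF-AsmParams): parameters of the rule, Cauchy in probability, law.

Sequence of parameters `(θ_k, R_k, T_k, n_k)`, the same for all `v`; `T_k → ∞`, `θ_k = θ` if `θ < θ_c`, `θ_k ↑ θ_c` if `θ = θ_c`, `R_k, n_k` large.

CAUCHY: `P(Rk (par k) ω v ≠ Rk (par k') ω v) ≤ ε`.  Compare `(θ,W,T,n)` with `(θ',W',T,n')` by the positions:
`|pos - pos'| ≤ h ∑_l |post_l - post'_l|` (the noise cancels) at a common fine mesh, and `post = (magn + 1)/2` (`post_isingW`), `E |magn - magn'|` is small by `wcM` (`magn` of Euler close to `M`) and `critical_cauchy` (`M^θ` close to `M^θ'`),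
for all dyadic `r ≤ T`.  The bit only differs if `|pos - T/2| ≤ T/4` (rare, by `tv_path` and Chebyshev as in `SRFactor.Core.near_bound`) or `|pos - pos'| ≥ T/4`.
Meshes: `mesh_bit`-like via `mesh_compare_L2`.  Horizon change (`T` to `T'`): `SRFactor.Core.horizon_bound` (true law: both equal the spin except with probability `≤ 4/T`).
Given `T_k`, `ε_k`: choose `θ_k ≥ θ₀(T_k, ε_k)` (`critical_cauchy`), `θ_k < θ_c`, `θ_k → θ_c`; then `R_k` from `IsSol.wcM`, `n_k` large: `exists_sol` at each `θ_k`.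

LAW: for `F` finite connected: on a common window `tball c R'` compare with the Euler scheme on this window (same mesh) by `wcM` (the bit can only differ when `|pos - T/2|` is small or positions differ),
then `SRFactor.Core.pattern_bound` for the family `isingW G θ_k (tball c R')`; `(isingW G θ W).mass F S = (isingW G θ F).mass F S` for `F ⊆ W` convex (`isingW_marginal`).
-/

set_option autoImplicit false

open MeasureTheory ProbabilityTheory Filter Topology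
open Crest.Agent.SRFactor Crest.ProbabilityR.Labels

namespace Crest.Agent.IsingFactor

variable {V : Type*} [DecidableEq V] {G : SimpleGraph V} [G.LocallyFinite]

namespace AsmAux

/-- The horizon of index `k`. -/
def Tk (k : ℕ) : ℕ := k + 4

/-- The `L²` accuracy of index `k`. -/
noncomputable def δk (k : ℕ) : ℝ := 1 / ((Tk k : ℝ) ^ 2) ^ 2

lemma Tk_ge (k : ℕ) : 4 ≤ Tk k := by unfold Tk; omega

lemma Tk_pos (k : ℕ) : 0 < Tk k := by unfold Tk; omega

lemma Tk_cast_pos (k : ℕ) : (0 : ℝ) < Tk k := by exact_mod_cast Tk_pos k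

lemma Tk_mono {k k' : ℕ} (h : k ≤ k') : Tk k ≤ Tk k' := by unfold Tk; omega

lemma δk_pos (k : ℕ) : 0 < δk k := by
  have := Tk_cast_pos k
  unfold δk
  positivity

lemma δk_anti {k k' : ℕ} (h : k ≤ k') : δk k' ≤ δk k := by
  have h1 := Tk_cast_pos k
  have h2 : (Tk k : ℝ) ≤ Tk k' := by exact_mod_cast Tk_mono h
  unfold δk
  apply one_div_le_one_div_of_le (by positivity)
  have h3 : (Tk k : ℝ) ^ 2 ≤ (Tk k' : ℝ) ^ 2 := pow_le_pow_left₀ h1.le h2 2
  exact pow_le_pow_left₀ (by positivity) h3 2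

lemma sqrt_δk (k : ℕ) : Real.sqrt (δk k) = 1 / (Tk k : ℝ) ^ 2 := by
  have h1 := Tk_cast_pos k
  unfold δk
  rw [one_div, Real.sqrt_inv, Real.sqrt_sq (by positivity), one_div]

lemma half_pow_le (T : ℕ) (hT : 0 < T) : (1 / 2 : ℝ) ^ T ≤ 1 / T := by
  rw [one_div_pow]
  refine one_div_le_one_div_of_le (by exact_mod_cast hT) ?_
  exact_mod_cast Nat.lt_two_pow_self.le

lemma card_tball_eq {q : ℕ} (hT : G.IsTree) (hreg : G.IsRegularOfDegree (q + 1)) (v v₀ : V)
    (R : ℕ) : (tball G v R).card = (tball G v₀ R).card := by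
  have hx : IsGeo G (fun _ => v₀) 0 := by
    intro i j hi hj
    obtain rfl : i = 0 := by omega
    obtain rfl : j = 0 := by omega
    simp [Nat.dist]
  have hy : IsGeo G (fun _ => v) 0 := by
    intro i j hi hj
    obtain rfl : i = 0 := by omega
    obtain rfl : j = 0 := by omega
    simp [Nat.dist]
  obtain ⟨g, hg⟩ := exists_aut_of_geo hT hreg hx hy
  have h0 : g v₀ = v := hg 0 le_rfl
  rw [← h0, tball_aut, Finset.card_image_of_injective _ g.injective]

/-- Change of mesh in the window of a rule. -/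
lemma site_mesh (hξ : IsDyadicNoise (labelMeasure V) (xiL (V := V)) Set.univ) (θ : ℝ)
    {W : Finset V} {v : V} (hv : v ∈ W) {T : ℕ} (hT : 4 ≤ T) {n m : ℕ} (hnm : n ≤ m)
    (hn : meshOf (4 * (W.card : ℝ)) W.card T ≤ n) :
    (labelMeasure V).real {ω | bit (isingW G θ W) W T n (xiL ω) v ≠ bit (isingW G θ W) W T m (xiL ω) v}
      ≤ 2 * (1 / T) + 16 / T := by
  have hTpos : 0 < T := by omega
  have h1 := mesh_bit (isingW G θ W) (κ := 4 * (W.card : ℝ)) (by positivity) (isingW_lip θ W) hξ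
    (Set.subset_univ _) hT hnm hv
  have h2 := meshOf_spec (4 * (W.card : ℝ)) W.card T hn
  have h3 := half_pow_le T hTpos
  linarith [h2.1, h2.2]

section params

variable {θs : ℕ → ℝ} {Ms : ℕ → ℝ → V → (V → unitInterval) → ℝ}
  {Ns : ℕ → ℝ → V → V → (V → unitInterval) → ℝ} {Rs : ℕ → ℕ}

/-- Two windows of two indices at a common fine mesh. -/
lemma compare_windows (hξ : IsDyadicNoise (labelMeasure V) (xiL (V := V)) Set.univ)
    (hgood : ∀ k, GoodTheta (θs k)) (hsol : ∀ k, IsSol G (θs k) (Ms k) (Ns k))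
    (hC : ∀ k k', k ≤ k' → ∀ (v : V) (t : ℝ), (∃ n, Dy n t) → t ≤ Tk k →
      ∫ ω, (Ms k t v ω - Ms k' t v ω) ^ 2 ∂labelMeasure V ≤ δk k)
    (hRs : ∀ k (W : Finset V) (v : V), Conv G W → tball G v (Rs k) ⊆ W → ∃ n₀, ∀ n ≥ n₀, ∀ r, Dy n r →
      r ≤ Tk k → ∫ ω, (magT G (θs k) W n r (xiL ω) v - Ms k r v ω) ^ 2 ∂labelMeasure V ≤ δk k)
    {k k' : ℕ} (hk : k ≤ k') {W W' : Finset V} {v : V} (hv : v ∈ W) (hv' : v ∈ W')
    (hW : Conv G W) (hW' : Conv G W') (hsub : tball G v (Rs k) ⊆ W) (hsub' : tball G v (Rs k') ⊆ W') :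
    ∀ᶠ m in atTop, (labelMeasure V).real {ω | bit (isingW G (θs k) W) W (Tk k) m (xiL ω) v ≠
        bit (isingW G (θs k') W') W' (Tk k) m (xiL ω) v}
      ≤ tvB (hh m) (Tk k * 2 ^ m) W.card + 16 / (Tk k : ℝ) + (3 / 2) / (Tk k : ℝ) := by
  obtain ⟨n₁, hn₁⟩ := hRs k W v hW hsub
  obtain ⟨n₂, hn₂⟩ := hRs k' W' v hW' hsub'
  filter_upwards [eventually_ge_atTop n₁, eventually_ge_atTop n₂] with m hm₁ hm₂
  have hTT' : (Tk k : ℝ) ≤ Tk k' := by exact_mod_cast Tk_mono hk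
  have key := bit_compare hξ (hgood k) (hgood k') hv hv' (Tk_ge k) m (δk_pos k)
    (M := Ms k) (M' := Ms k') ((hsol k).measM · v) ((hsol k').measM · v) ((hsol k).bdM · v)
    ((hsol k').bdM · v) (fun r hr hrT => hn₁ m hm₁ r hr hrT)
    (fun r hr hrT => (hn₂ m hm₂ r hr (hrT.trans hTT')).trans (δk_anti hk))
    (fun r hr hrT => hC k k' hk v r ⟨m, hr⟩ hrT)
  have hT := Tk_cast_pos k
  have e : (3 / 2 : ℝ) * (Tk k : ℝ) * Real.sqrt (δk k) = (3 / 2) / (Tk k : ℝ) := by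
    rw [sqrt_δk]
    field_simp
  rw [e] at key
  exact key

/-- Rule versus a larger window. -/
lemma rule_vs_window (hξ : IsDyadicNoise (labelMeasure V) (xiL (V := V)) Set.univ)
    (hgood : ∀ k, GoodTheta (θs k)) (hsol : ∀ k, IsSol G (θs k) (Ms k) (Ns k))
    (hC : ∀ k k', k ≤ k' → ∀ (v : V) (t : ℝ), (∃ n, Dy n t) → t ≤ Tk k →
      ∫ ω, (Ms k t v ω - Ms k' t v ω) ^ 2 ∂labelMeasure V ≤ δk k)
    (hRs : ∀ k (W : Finset V) (v : V), Conv G W → tball G v (Rs k) ⊆ W → ∃ n₀, ∀ n ≥ n₀, ∀ r, Dy n r →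
      r ≤ Tk k → ∫ ω, (magT G (θs k) W n r (xiL ω) v - Ms k r v ω) ^ 2 ∂labelMeasure V ≤ δk k)
    (hT : G.IsTree) (k : ℕ) {n : ℕ} {v : V} (hn : meshOf (4 * ((tball G v (Rs k)).card : ℝ))
      (tball G v (Rs k)).card (Tk k) ≤ n) {B : Finset V} (hB : Conv G B)
    (hsub : tball G v (Rs k) ⊆ B) :
    ∀ᶠ m in atTop, (labelMeasure V).real {ω | Rk G (θs k) (Rs k) (Tk k) n ω v ≠
        bit (isingW G (θs k) B) B (Tk k) m (xiL ω) v} ≤ 37 / (Tk k : ℝ) := by
  have hvW : v ∈ tball G v (Rs k) := by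
    rw [mem_tball hT]; simp
  have hT' := Tk_cast_pos k
  have hη : (0 : ℝ) < 1 / (Tk k : ℝ) := by positivity
  filter_upwards [compare_windows hξ hgood hsol hC hRs (le_refl k) hvW (hsub hvW)
      (conv_tball hT v (Rs k)) hB subset_rfl hsub,
    eventually_ge_atTop n,
    (tendsto_tvB (tball G v (Rs k)).card (Tk k)).eventually (gt_mem_nhds hη)] with m h1 h2 h3
  have h4 := site_mesh (G := G) hξ (θs k) hvW (Tk_ge k) h2 hn
  have hsub2 : {ω | Rk G (θs k) (Rs k) (Tk k) n ω v ≠ bit (isingW G (θs k) B) B (Tk k) m (xiL ω) v} ⊆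
      {ω | bit (isingW G (θs k) (tball G v (Rs k))) (tball G v (Rs k)) (Tk k) n (xiL ω) v ≠
        bit (isingW G (θs k) (tball G v (Rs k))) (tball G v (Rs k)) (Tk k) m (xiL ω) v} ∪
      {ω | bit (isingW G (θs k) (tball G v (Rs k))) (tball G v (Rs k)) (Tk k) m (xiL ω) v ≠
        bit (isingW G (θs k) B) B (Tk k) m (xiL ω) v} := by
    intro ω hω
    simp only [Set.mem_union, Set.mem_ofPred_eq] at hω ⊢
    by_contra hcon
    push Not at hcon
    exact hω (hcon.1.trans hcon.2)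
  refine (measureReal_mono hsub2).trans ((measureReal_union_le _ _).trans ?_)
  have e1 : (37 : ℝ) / (Tk k : ℝ) = 37 * (1 / (Tk k : ℝ)) := by ring
  have e2 : (16 : ℝ) / (Tk k : ℝ) = 16 * (1 / (Tk k : ℝ)) := by ring
  have e3 : (3 / 2 : ℝ) / (Tk k : ℝ) = (3 / 2) * (1 / (Tk k : ℝ)) := by ring
  rw [e2] at h1 h4
  rw [e3] at h1
  rw [e1]
  linarith

/-- The Cauchy estimate. -/
lemma cauchy_le (hξ : IsDyadicNoise (labelMeasure V) (xiL (V := V)) Set.univ)
    (hgood : ∀ k, GoodTheta (θs k)) (hsol : ∀ k, IsSol G (θs k) (Ms k) (Ns k))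
    (hC : ∀ k k', k ≤ k' → ∀ (v : V) (t : ℝ), (∃ n, Dy n t) → t ≤ Tk k →
      ∫ ω, (Ms k t v ω - Ms k' t v ω) ^ 2 ∂labelMeasure V ≤ δk k)
    (hRs : ∀ k (W : Finset V) (v : V), Conv G W → tball G v (Rs k) ⊆ W → ∃ n₀, ∀ n ≥ n₀, ∀ r, Dy n r →
      r ≤ Tk k → ∫ ω, (magT G (θs k) W n r (xiL ω) v - Ms k r v ω) ^ 2 ∂labelMeasure V ≤ δk k)
    (hT : G.IsTree) {k k' : ℕ} (hk : k ≤ k') {n n' : ℕ} {v : V}
    (hn : meshOf (4 * ((tball G v (Rs k)).card : ℝ)) (tball G v (Rs k)).card (Tk k) ≤ n)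
    (hn' : meshOf (4 * ((tball G v (Rs k')).card : ℝ)) (tball G v (Rs k')).card (Tk k') ≤ n') :
    (labelMeasure V).real {ω | Rk G (θs k) (Rs k) (Tk k) n ω v ≠ Rk G (θs k') (Rs k') (Tk k') n' ω v}
      ≤ 64 / (Tk k : ℝ) := by
  have hvW : v ∈ tball G v (Rs k) := by
    rw [mem_tball hT]; simp
  have hvW' : v ∈ tball G v (Rs k') := by
    rw [mem_tball hT]; simp
  have hT0 := Tk_cast_pos k
  have hTT' : (Tk k : ℝ) ≤ Tk k' := by exact_mod_cast Tk_mono hk
  have hT1 : (0 : ℝ) < Tk k' := lt_of_lt_of_le hT0 hTT'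
  have hη : (0 : ℝ) < 1 / (Tk k : ℝ) := by positivity
  obtain ⟨m, h1, ⟨h2, h3⟩, h4, h5⟩ :=
    ((compare_windows hξ hgood hsol hC hRs hk hvW hvW'
        (conv_tball hT v (Rs k)) (conv_tball hT v (Rs k')) subset_rfl subset_rfl).and
      (((eventually_ge_atTop n).and (eventually_ge_atTop n')).and
      (((tendsto_tvB (tball G v (Rs k)).card (Tk k)).eventually (gt_mem_nhds hη)).and
      ((tendsto_tvB (tball G v (Rs k')).card (Tk k')).eventually (gt_mem_nhds hη))))).exists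
  have s1 := site_mesh (G := G) hξ (θs k) hvW (Tk_ge k) h2 hn
  have s3 := horizon_bound (isingW G (θs k') (tball G v (Rs k'))) hξ (Set.subset_univ _)
    (Tk_pos k) (Tk_mono hk) m hvW'
  have s4 := site_mesh (G := G) hξ (θs k') hvW' (Tk_ge k') h3 hn'
  have hsub : {ω | Rk G (θs k) (Rs k) (Tk k) n ω v ≠ Rk G (θs k') (Rs k') (Tk k') n' ω v} ⊆
      {ω | bit (isingW G (θs k) (tball G v (Rs k))) (tball G v (Rs k)) (Tk k) n (xiL ω) v ≠
        bit (isingW G (θs k) (tball G v (Rs k))) (tball G v (Rs k)) (Tk k) m (xiL ω) v} ∪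
      {ω | bit (isingW G (θs k) (tball G v (Rs k))) (tball G v (Rs k)) (Tk k) m (xiL ω) v ≠
        bit (isingW G (θs k') (tball G v (Rs k'))) (tball G v (Rs k')) (Tk k) m (xiL ω) v} ∪
      {ω | bit (isingW G (θs k') (tball G v (Rs k'))) (tball G v (Rs k')) (Tk k) m (xiL ω) v ≠
        bit (isingW G (θs k') (tball G v (Rs k'))) (tball G v (Rs k')) (Tk k') m (xiL ω) v} ∪
      {ω | bit (isingW G (θs k') (tball G v (Rs k'))) (tball G v (Rs k')) (Tk k') n' (xiL ω) v ≠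
        bit (isingW G (θs k') (tball G v (Rs k'))) (tball G v (Rs k')) (Tk k') m (xiL ω) v} := by
    intro ω hω
    simp only [Set.mem_union, Set.mem_ofPred_eq] at hω ⊢
    by_contra hcon
    push Not at hcon
    obtain ⟨⟨⟨a1, a2⟩, a3⟩, a4⟩ := hcon
    apply hω
    show bit (isingW G (θs k) (tball G v (Rs k))) (tball G v (Rs k)) (Tk k) n (xiL ω) v =
      bit (isingW G (θs k') (tball G v (Rs k'))) (tball G v (Rs k')) (Tk k') n' (xiL ω) v
    rw [a1, a2, a3, a4]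
  refine (measureReal_mono hsub).trans ?_
  have u1 := measureReal_union_le (μ := labelMeasure V)
    ({ω | bit (isingW G (θs k) (tball G v (Rs k))) (tball G v (Rs k)) (Tk k) n (xiL ω) v ≠
        bit (isingW G (θs k) (tball G v (Rs k))) (tball G v (Rs k)) (Tk k) m (xiL ω) v})
    ({ω | bit (isingW G (θs k) (tball G v (Rs k))) (tball G v (Rs k)) (Tk k) m (xiL ω) v ≠
        bit (isingW G (θs k') (tball G v (Rs k'))) (tball G v (Rs k')) (Tk k) m (xiL ω) v})
  have u2 := measureReal_union_le (μ := labelMeasure V)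
    ({ω | bit (isingW G (θs k) (tball G v (Rs k))) (tball G v (Rs k)) (Tk k) n (xiL ω) v ≠
        bit (isingW G (θs k) (tball G v (Rs k))) (tball G v (Rs k)) (Tk k) m (xiL ω) v} ∪
      {ω | bit (isingW G (θs k) (tball G v (Rs k))) (tball G v (Rs k)) (Tk k) m (xiL ω) v ≠
        bit (isingW G (θs k') (tball G v (Rs k'))) (tball G v (Rs k')) (Tk k) m (xiL ω) v})
    ({ω | bit (isingW G (θs k') (tball G v (Rs k'))) (tball G v (Rs k')) (Tk k) m (xiL ω) v ≠
        bit (isingW G (θs k') (tball G v (Rs k'))) (tball G v (Rs k')) (Tk k') m (xiL ω) v})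
  have u3 := measureReal_union_le (μ := labelMeasure V)
    ({ω | bit (isingW G (θs k) (tball G v (Rs k))) (tball G v (Rs k)) (Tk k) n (xiL ω) v ≠
        bit (isingW G (θs k) (tball G v (Rs k))) (tball G v (Rs k)) (Tk k) m (xiL ω) v} ∪
      {ω | bit (isingW G (θs k) (tball G v (Rs k))) (tball G v (Rs k)) (Tk k) m (xiL ω) v ≠
        bit (isingW G (θs k') (tball G v (Rs k'))) (tball G v (Rs k')) (Tk k) m (xiL ω) v} ∪
      {ω | bit (isingW G (θs k') (tball G v (Rs k'))) (tball G v (Rs k')) (Tk k) m (xiL ω) v ≠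
        bit (isingW G (θs k') (tball G v (Rs k'))) (tball G v (Rs k')) (Tk k') m (xiL ω) v})
    ({ω | bit (isingW G (θs k') (tball G v (Rs k'))) (tball G v (Rs k')) (Tk k') n' (xiL ω) v ≠
        bit (isingW G (θs k') (tball G v (Rs k'))) (tball G v (Rs k')) (Tk k') m (xiL ω) v})
  refine u3.trans ?_
  have i1 : 1 / (Tk k' : ℝ) ≤ 1 / (Tk k : ℝ) := one_div_le_one_div_of_le hT0 hTT'
  have e1 : (64 : ℝ) / (Tk k : ℝ) = 64 * (1 / (Tk k : ℝ)) := by ring
  have e2 : (16 : ℝ) / (Tk k : ℝ) = 16 * (1 / (Tk k : ℝ)) := by ring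
  have e3 : (3 / 2 : ℝ) / (Tk k : ℝ) = (3 / 2) * (1 / (Tk k : ℝ)) := by ring
  have e4 : (16 : ℝ) / (Tk k' : ℝ) = 16 * (1 / (Tk k' : ℝ)) := by ring
  have e5 : (4 : ℝ) / (Tk k : ℝ) = 4 * (1 / (Tk k : ℝ)) := by ring
  have e6 : (4 : ℝ) / (Tk k' : ℝ) = 4 * (1 / (Tk k' : ℝ)) := by ring
  rw [e2, e3] at h1
  rw [e2] at s1
  rw [e5, e6] at s3
  rw [e4] at s4
  rw [e1]
  linarith

/-- The law estimate. -/
lemma law_le (hξ : IsDyadicNoise (labelMeasure V) (xiL (V := V)) Set.univ)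
    (hgood : ∀ k, GoodTheta (θs k)) (hsol : ∀ k, IsSol G (θs k) (Ms k) (Ns k))
    (hC : ∀ k k', k ≤ k' → ∀ (v : V) (t : ℝ), (∃ n, Dy n t) → t ≤ Tk k →
      ∫ ω, (Ms k t v ω - Ms k' t v ω) ^ 2 ∂labelMeasure V ≤ δk k)
    (hRs : ∀ k (W : Finset V) (v : V), Conv G W → tball G v (Rs k) ⊆ W → ∃ n₀, ∀ n ≥ n₀, ∀ r, Dy n r →
      r ≤ Tk k → ∫ ω, (magT G (θs k) W n r (xiL ω) v - Ms k r v ω) ^ 2 ∂labelMeasure V ≤ δk k)
    (hT : G.IsTree) (k n : ℕ)
    (hn : ∀ v : V, meshOf (4 * ((tball G v (Rs k)).card : ℝ)) (tball G v (Rs k)).card (Tk k) ≤ n)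
    {F S : Finset V} (hF : Conv G F) (hne : F.Nonempty) (hS : S ⊆ F) :
    |(labelMeasure V).real {ω | ∀ v ∈ F, (Rk G (θs k) (Rs k) (Tk k) n ω v = true ↔ v ∈ S)}
        - (isingW G (θs k) F).mass F S| ≤ (41 * F.card + 1) / (Tk k : ℝ) := by
  obtain ⟨c, hc⟩ := hne
  set R' := Rs k + F.sup (G.dist c) with hR'
  set B := tball G c R' with hBdef
  have hBconv : Conv G B := conv_tball hT c R'
  have hWB : ∀ v ∈ F, tball G v (Rs k) ⊆ B := by
    intro v hv w hw
    rw [hBdef, mem_tball hT]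
    rw [mem_tball hT] at hw
    have h1 : G.dist c v ≤ F.sup (G.dist c) := Finset.le_sup (f := G.dist c) hv
    have h2 := hT.1.dist_triangle (u := c) (v := v) (w := w)
    omega
  have hFB : F ⊆ B := by
    intro v hv
    refine hWB v hv ?_
    rw [mem_tball hT]; simp
  have hT0 := Tk_cast_pos k
  have hη : (0 : ℝ) < 1 / (Tk k : ℝ) := by positivity
  have hall : ∀ᶠ m in atTop, ∀ v ∈ F, (labelMeasure V).real {ω | Rk G (θs k) (Rs k) (Tk k) n ω v ≠
      bit (isingW G (θs k) B) B (Tk k) m (xiL ω) v} ≤ 37 / (Tk k : ℝ) :=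
    (Finset.eventually_all F).2 fun v hv =>
      rule_vs_window hξ hgood hsol hC hRs hT k (hn v) hBconv (hWB v hv)
  obtain ⟨m, h1, h2⟩ := (hall.and
    ((tendsto_tvB B.card (Tk k)).eventually (gt_mem_nhds hη))).exists
  have hp := pattern_bound (isingW G (θs k) B) hξ (Set.subset_univ _) (Tk_pos k) m hFB hS
  rw [isingW_marginal hT (hgood k) hF hBconv hFB ⟨c, hc⟩ hS] at hp
  set D : Set (V → unitInterval) := ⋃ g ∈ F, {ω | Rk G (θs k) (Rs k) (Tk k) n ω g ≠
      bit (isingW G (θs k) B) B (Tk k) m (xiL ω) g} with hDdef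
  have hDle : (labelMeasure V).real D ≤ F.card * (37 / (Tk k : ℝ)) := by
    refine (measureReal_biUnion_finset_le _ _).trans ?_
    refine (Finset.sum_le_sum h1).trans ?_
    simp
  have h3 : {ω | ∀ v ∈ F, (Rk G (θs k) (Rs k) (Tk k) n ω v = true ↔ v ∈ S)} ⊆
      {ω | ∀ g ∈ F, (bit (isingW G (θs k) B) B (Tk k) m (xiL ω) g = true ↔ g ∈ S)} ∪ D := by
    intro ω hω
    by_cases hD : ω ∈ D
    · exact Or.inr hD
    · refine Or.inl fun g hg => ?_
      simp only [hDdef, Set.mem_iUnion, Set.mem_ofPred_eq, not_exists, not_not] at hD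
      rw [← hD g hg]
      exact hω g hg
  have h4 : {ω | ∀ g ∈ F, (bit (isingW G (θs k) B) B (Tk k) m (xiL ω) g = true ↔ g ∈ S)} ⊆
      {ω | ∀ v ∈ F, (Rk G (θs k) (Rs k) (Tk k) n ω v = true ↔ v ∈ S)} ∪ D := by
    intro ω hω
    by_cases hD : ω ∈ D
    · exact Or.inr hD
    · refine Or.inl fun g hg => ?_
      simp only [hDdef, Set.mem_iUnion, Set.mem_ofPred_eq, not_exists, not_not] at hD
      rw [hD g hg]
      exact hω g hg
  have h5 := (measureReal_mono h3).trans (measureReal_union_le (μ := labelMeasure V) _ _)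
  have h6 := (measureReal_mono h4).trans (measureReal_union_le (μ := labelMeasure V) _ _)
  have hp' := abs_le.1 hp
  have hc1 : (F.card : ℝ) * (4 / (Tk k : ℝ)) = 4 * F.card * (1 / (Tk k : ℝ)) := by ring
  have hc2 : (F.card : ℝ) * (37 / (Tk k : ℝ)) = 37 * F.card * (1 / (Tk k : ℝ)) := by ring
  have hc3 : (41 * (F.card : ℝ) + 1) / (Tk k : ℝ)
      = 41 * F.card * (1 / (Tk k : ℝ)) + 1 / (Tk k : ℝ) := by ring
  rw [hc1] at hp'
  rw [hc2] at hDle
  rw [hc3, abs_le]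
  constructor
  · linarith [hp'.1, hp'.2]
  · linarith [hp'.1, hp'.2]

end params

/-- The assembly of the estimates for an abstract sequence of solutions. -/
theorem params_of_sols {q : ℕ} (hT : G.IsTree) (hreg : G.IsRegularOfDegree (q + 1))
    {θs : ℕ → ℝ} (hgood : ∀ k, GoodTheta (θs k))
    {Ms : ℕ → ℝ → V → (V → unitInterval) → ℝ} {Ns : ℕ → ℝ → V → V → (V → unitInterval) → ℝ}
    (hsol : ∀ k, IsSol G (θs k) (Ms k) (Ns k))
    (hC : ∀ k k', k ≤ k' → ∀ (v : V) (t : ℝ), (∃ n, Dy n t) → t ≤ Tk k →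
      ∫ ω, (Ms k t v ω - Ms k' t v ω) ^ 2 ∂labelMeasure V ≤ δk k) :
    ∃ (Rs Ts ns : ℕ → ℕ),
      (∀ (v : V) (ε : ℝ), 0 < ε → ∃ k₀, ∀ k k', k₀ ≤ k → k₀ ≤ k' →
        labelMeasure V {ω | Rk G (θs k) (Rs k) (Ts k) (ns k) ω v ≠ Rk G (θs k') (Rs k') (Ts k') (ns k') ω v}
          ≤ ENNReal.ofReal ε) ∧
      (∀ (F S : Finset V), Conv G F → F.Nonempty → S ⊆ F →
        Tendsto (fun k => (labelMeasure V).real {ω | ∀ v ∈ F, (Rk G (θs k) (Rs k) (Ts k) (ns k) ω v = true ↔ v ∈ S)}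
            - (isingW G (θs k) F).mass F S) atTop (𝓝 0)) := by
  have : Countable V := countable_of_isTree hT
  have hξ : IsDyadicNoise (labelMeasure V) (xiL (V := V)) Set.univ := isDyadicNoise_xiL
  obtain ⟨v₀⟩ : Nonempty V := hT.1.nonempty
  choose Rs hRs using fun k => (hsol k).wcM (Tk k) (δk k) (δk_pos k)
  have hRs' : ∀ k (W : Finset V) (v : V), Conv G W → tball G v (Rs k) ⊆ W → ∃ n₀, ∀ n ≥ n₀, ∀ r,
      Dy n r → r ≤ Tk k →
      ∫ ω, (magT G (θs k) W n r (xiL ω) v - Ms k r v ω) ^ 2 ∂labelMeasure V ≤ δk k := hRs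
  let ns : ℕ → ℕ := fun k =>
    meshOf (4 * ((tball G v₀ (Rs k)).card : ℝ)) (tball G v₀ (Rs k)).card (Tk k)
  have hns : ∀ (k : ℕ) (v : V),
      meshOf (4 * ((tball G v (Rs k)).card : ℝ)) (tball G v (Rs k)).card (Tk k) ≤ ns k := by
    intro k v
    rw [card_tball_eq hT hreg v v₀ (Rs k)]
  refine ⟨Rs, Tk, ns, ?_, ?_⟩
  · intro v ε hε
    obtain ⟨k₀, hk₀⟩ := exists_nat_gt (64 / ε)
    refine ⟨k₀, ?_⟩
    have hmain : ∀ k k', k₀ ≤ k → k ≤ k' →
        (labelMeasure V).real {ω | Rk G (θs k) (Rs k) (Tk k) (ns k) ω v ≠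
          Rk G (θs k') (Rs k') (Tk k') (ns k') ω v} ≤ ε := by
      intro k k' hk hkk'
      refine (cauchy_le hξ hgood hsol hC hRs' hT hkk' (hns k v) (hns k' v)).trans ?_
      have hT0 := Tk_cast_pos k
      rw [div_le_iff₀ hT0]
      have h1 : (k₀ : ℝ) ≤ Tk k := by
        have : k₀ ≤ Tk k := by unfold Tk; omega
        exact_mod_cast this
      have h2 := (div_lt_iff₀ hε).1 hk₀
      nlinarith
    intro k k' hk hk'
    rw [ENNReal.le_ofReal_iff_toReal_le (measure_ne_top _ _) hε.le]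
    rcases le_total k k' with hkk' | hkk'
    · exact hmain k k' hk hkk'
    · have h := hmain k' k hk' hkk'
      have hset : {ω | Rk G (θs k') (Rs k') (Tk k') (ns k') ω v ≠ Rk G (θs k) (Rs k) (Tk k) (ns k) ω v}
          = {ω | Rk G (θs k) (Rs k) (Tk k) (ns k) ω v ≠ Rk G (θs k') (Rs k') (Tk k') (ns k') ω v} := by
        ext ω
        exact ne_comm
      rw [hset] at h
      exact h
  · intro F S hF hne hS
    have hb : Tendsto (fun k : ℕ => (41 * (F.card : ℝ) + 1) / (Tk k : ℝ)) atTop (𝓝 0) := by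
      have h1 := (tendsto_add_atTop_iff_nat 4).2
        (tendsto_const_div_atTop_nhds_zero_nat (41 * (F.card : ℝ) + 1))
      simpa [Tk] using h1
    refine squeeze_zero_norm (fun k => ?_) hb
    rw [Real.norm_eq_abs]
    exact law_le hξ hgood hsol hC hRs' hT k (ns k) (fun v => hns k v) hF hne hS

end AsmAux

open AsmAux

/-- The parameters of the rule. -/
theorem exists_params {q : ℕ} (hT : G.IsTree) (hreg : G.IsRegularOfDegree (q + 1)) (hq : 2 ≤ q)
    {θ : ℝ} (h0 : 0 ≤ θ) (h1 : θ ^ 2 * q ≤ 1) :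
    ∃ (θs : ℕ → ℝ) (Rs Ts ns : ℕ → ℕ), Tendsto θs atTop (𝓝 θ) ∧ (∀ k, GoodTheta (θs k)) ∧
      (∀ (v : V) (ε : ℝ), 0 < ε → ∃ k₀, ∀ k k', k₀ ≤ k → k₀ ≤ k' →
        labelMeasure V {ω | Rk G (θs k) (Rs k) (Ts k) (ns k) ω v ≠ Rk G (θs k') (Rs k') (Ts k') (ns k') ω v}
          ≤ ENNReal.ofReal ε) ∧
      (∀ (F S : Finset V), Conv G F → F.Nonempty → S ⊆ F →
        Tendsto (fun k => (labelMeasure V).real {ω | ∀ v ∈ F, (Rk G (θs k) (Rs k) (Ts k) (ns k) ω v = true ↔ v ∈ S)}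
            - (isingW G (θs k) F).mass F S) atTop (𝓝 0)) := by
  have hq0 : (0 : ℝ) < q := by
    have : 0 < q := by omega
    exact_mod_cast this
  have hq2 : (2 : ℝ) ≤ q := by exact_mod_cast hq
  have hgoodOf : ∀ {t : ℝ}, 0 ≤ t → t ^ 2 * q ≤ 1 → GoodTheta t := by
    intro t ht0 ht1
    refine ⟨ht0, ?_⟩
    nlinarith [sq_nonneg t]
  rcases lt_or_eq_of_le h1 with hlt | heq
  · -- strict case: the constant sequence
    obtain ⟨M, N, hS⟩ := exists_sol hT hreg hq (hgoodOf h0 h1) hlt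
    obtain ⟨Rs, Ts, ns, hc, hl⟩ := params_of_sols (θs := fun _ => θ) (Ms := fun _ => M)
      (Ns := fun _ => N) hT hreg (fun _ => hgoodOf h0 h1) (fun _ => hS) (by
        intro k k' _ v t _ _
        simp only [sub_self]
        simp only [ne_eq, OfNat.ofNat_ne_zero, not_false_eq_true, zero_pow, integral_zero]
        exact (δk_pos k).le)
    exact ⟨fun _ => θ, Rs, Ts, ns, tendsto_const_nhds, fun _ => hgoodOf h0 h1, hc, hl⟩
  · -- critical case
    have hθc : θ = thetaC q := by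
      unfold thetaC
      have hs : Real.sqrt q * Real.sqrt q = q := Real.mul_self_sqrt hq0.le
      have hspos : 0 < Real.sqrt q := Real.sqrt_pos.2 hq0
      have h2 : (θ * Real.sqrt q) ^ 2 = 1 := by
        rw [mul_pow, sq (Real.sqrt q), hs, heq]
      have h3 : θ * Real.sqrt q = 1 := by
        have h4 : 0 ≤ θ * Real.sqrt q := by positivity
        nlinarith
      field_simp
      linarith
    have hcpos : 0 < thetaC q := by
      unfold thetaC
      have := Real.sqrt_pos.2 hq0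
      positivity
    have hcsq : thetaC q ^ 2 * q = 1 := by rw [← hθc]; exact heq
    choose θ₀ hθ₀pos hθ₀lt hθ₀ using fun k =>
      critical_cauchy (G := G) hT hreg hq (Tk k : ℝ) (δk k) (δk_pos k)
    let θs : ℕ → ℝ := fun k =>
      ((Finset.range (k + 1)).sup' Finset.nonempty_range_add_one θ₀) ⊔
        (thetaC q * (1 - 1 / ((k : ℝ) + 2)))
    have hle : ∀ {j k : ℕ}, j ≤ k → θ₀ j ≤ θs k := by
      intro j k hjk
      refine le_trans ?_ le_sup_left
      exact Finset.le_sup' θ₀ (Finset.mem_range.2 (by omega))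
    have hlow : ∀ k : ℕ, thetaC q * (1 - 1 / ((k : ℝ) + 2)) ≤ θs k := fun k => le_sup_right
    have hlt' : ∀ k, θs k < thetaC q := by
      intro k
      refine sup_lt_iff.2 ⟨(Finset.sup'_lt_iff _).2 fun j _ => hθ₀lt j, ?_⟩
      have : (0 : ℝ) < 1 / ((k : ℝ) + 2) := by positivity
      nlinarith
    have hnn : ∀ k, 0 ≤ θs k := fun k => (hθ₀pos k).le.trans (hle le_rfl)
    have hsq : ∀ k, θs k ^ 2 * q < 1 := by
      intro k
      have h2 : θs k ^ 2 < thetaC q ^ 2 := pow_lt_pow_left₀ (hlt' k) (hnn k) (by norm_num)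
      nlinarith
    have hgood : ∀ k, GoodTheta (θs k) := fun k => hgoodOf (hnn k) (hsq k).le
    choose Ms Ns hsol using fun k => exists_sol (G := G) hT hreg hq (hgood k) (hsq k)
    obtain ⟨Rs, Ts, ns, hc, hl⟩ := params_of_sols hT hreg hgood hsol (by
      intro k k' hkk' v t ht htT
      exact hθ₀ k (hle le_rfl) (hlt' k) (hle hkk') (hlt' k') (hsol k) (hsol k') v t ht htT)
    refine ⟨θs, Rs, Ts, ns, ?_, hgood, hc, hl⟩
    rw [hθc]
    have hlim : Tendsto (fun k : ℕ => thetaC q * (1 - 1 / ((k : ℝ) + 2))) atTop (𝓝 (thetaC q)) := by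
      have h5 : Tendsto (fun k : ℕ => 1 / ((k : ℝ) + 2)) atTop (𝓝 0) := by
        have h6 := (tendsto_add_atTop_iff_nat 2).2 (tendsto_const_div_atTop_nhds_zero_nat (1 : ℝ))
        simpa using h6
      have h7 := (h5.const_sub 1).const_mul (thetaC q)
      simpa using h7
    exact tendsto_of_tendsto_of_tendsto_of_le_of_le hlim tendsto_const_nhds hlow
      (fun k => (hlt' k).le)

end Crest.Agent.IsingFactor
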