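import Crest.Agent.IsingFactor.Closure
import Crest.Agent.SRFactor.Limit

/-!
# IsingFactor.AsmRule (WP IF-AsmRule): the finite rule: bit at a horizon, on a ball around the site.

`Rk θ R T n ω v = bit (isingW G θ (tball G v R)) (tball G v R) T n (xiL ω) v`: the Euler position at horizon `T` above `T/2`.
Equivariance from `tball_aut`, `post` equivariance (`magn_aut`, `post_isingW`), `xiL_comp`.
-/

set_option autoImplicit false

open MeasureTheory ProbabilityTheory
open Crest.Agent.SRFactor Crest.ProbabilityR.Labels

namespace Crest.Agent.IsingFactor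

variable {V : Type*} [DecidableEq V] {G : SimpleGraph V} [G.LocallyFinite]

/-- The finite rule. -/
noncomputable def Rk (G : SimpleGraph V) [G.LocallyFinite] (θ : ℝ) (R T n : ℕ) (ω : V → unitInterval)
    (v : V) : Bool :=
  bit (isingW G θ (tball G v R)) (tball G v R) T n (xiL ω) v

omit [G.LocallyFinite] in
/-- Equivariance of the Euler scheme of an Ising window under an automorphism. -/
theorem euler_isingW_aut {θ : ℝ} (hθ : GoodTheta θ) (g : G ≃g G) (W : Finset V) (h : ℝ)
    (n : ℕ) (ω : V → unitInterval) (k : ℕ) (e : V) :
    euler (isingW G θ (W.image g)) (W.image g) h (levelNoise (xiL ω) n) k (g e)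
      = euler (isingW G θ W) W h (levelNoise (xiL (ω ∘ g)) n) k e := by
  induction k generalizing e with
  | zero => simp
  | succ k ih =>
    by_cases he : e ∈ W
    · have he' : g e ∈ W.image g := Finset.mem_image_of_mem _ he
      rw [euler_succ_of_mem _ _ _ _ _ he', euler_succ_of_mem _ _ _ _ _ he, ih,
        post_isingW hθ _ _ he', post_isingW hθ _ _ he, magn_aut]
      have : (fun i => euler (isingW G θ (W.image g)) (W.image g) h (levelNoise (xiL ω) n) k (g i)
            - (k : ℝ) * h / 2)
          = fun i => euler (isingW G θ W) W h (levelNoise (xiL (ω ∘ g)) n) k i - (k : ℝ) * h / 2 := by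
        funext i
        rw [ih]
      rw [this]
      rfl
    · have he' : g e ∉ W.image g := by
        simpa [Finset.mem_image] using he
      rw [euler_of_not_mem _ _ _ _ _ he', euler_of_not_mem _ _ _ _ _ he]

theorem Rk_comp (hT : G.IsTree) {θ : ℝ} (hθ : GoodTheta θ) (g : G ≃g G) (R T n : ℕ) (ω : V → unitInterval)
    (v : V) : Rk G θ R T n (ω ∘ g) v = Rk G θ R T n ω (g v) := by
  unfold Rk bit pos
  rw [tball_aut g v R, euler_isingW_aut hθ]

lemma measurable_labelN : Measurable labelN :=
  (Classical.choose_spec exists_label_map).1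

lemma measurable_xiL : Measurable (xiL (V := V)) := by
  refine measurable_pi_lambda _ fun e => ?_
  exact measurable_labelN.comp (measurable_pi_apply e)

theorem measurable_Rk (θ : ℝ) (R T n : ℕ) (v : V) :
    Measurable (fun ω : V → unitInterval => Rk G θ R T n ω v) :=
  (measurable_bit _ _ T n v).comp measurable_xiL

end Crest.Agent.IsingFactor
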