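import Crest.Agent.SRFactor.Limit
import Crest.Agent.SRFactor.LabelBasics
import Crest.Prelude.Def_TreeIsing

/-! Abstract last step of S0241: a sequence of measurable, equivariant rules, Cauchy in probability
at each site, whose finite-set laws tend to the Ising weights, has a limit with all the required
properties. Independent of how the rules are built. -/

set_option autoImplicit false

open MeasureTheory ProbabilityTheory Filter Topology
open Crest.ProbabilityR.Labels Crest.ProbabilityR.TreeIsing
open Crest.Agent.SRFactor

universe u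

namespace Crest.Agent.IsingFactor

/-- Measurability of the limit bit, without parameter. -/
lemma measurable_limBit' {Ω : Type*} [MeasurableSpace Ω] (P : Measure Ω) [SFinite P]
    (R : ℕ → Ω → Bool) (hR : ∀ r, Measurable (R r)) : Measurable (limBit P R) := by
  have h := measurable_limBit (Θ := Unit) P (fun _ => R) (fun r => (hR r).comp measurable_snd)
  exact h.comp ((measurable_const (a := ())).prodMk measurable_id)

theorem output_of_rules {V : Type u} (G : SimpleGraph V) (θ : ℝ)
    (R : ℕ → V → (V → unitInterval) → Bool)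
    (hmeas : ∀ r v, Measurable (R r v))
    (hequiv : ∀ r v (g : G ≃g G) (x : V → unitInterval), R r (g v) x = R r v (x ∘ ⇑g))
    (hC : ∀ (v : V) (ε : ℝ), 0 < ε → ∃ r0, ∀ r r', r0 ≤ r → r0 ≤ r' →
      labelMeasure V {x | R r v x ≠ R r' v x} ≤ ENNReal.ofReal ε)
    (hlaw : ∀ (S : Finset V) (η : V → Bool), (G.induce (S : Set V)).Connected →
      Tendsto (fun r => labelMeasure V {x | ∀ v ∈ S, R r v x = η v}) atTop
        (𝓝 (ENNReal.ofReal (isingWeight G θ S η)))) :
    ∃ Φ : (V → unitInterval) → (V → Bool),
      Measurable Φ ∧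
      (∀ (g : G ≃g G) (x : V → unitInterval), Φ (x ∘ ⇑g) = Φ x ∘ ⇑g) ∧
      ∀ (S : Finset V) (η : V → Bool), (G.induce (S : Set V)).Connected →
        (labelMeasure V).map Φ {σ | ∀ v ∈ S, σ v = η v} =
          ENNReal.ofReal (isingWeight G θ S η) := by
  classical
  set P := labelMeasure V with hP
  let Φ : (V → unitInterval) → (V → Bool) := fun x v => limBit P (fun r => R r v) x
  have hΦv : ∀ v, Measurable (fun x => Φ x v) := fun v =>
    measurable_limBit' P (fun r => R r v) (fun r => hmeas r v)
  have hΦ : Measurable Φ := measurable_pi_lambda _ hΦv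
  refine ⟨Φ, hΦ, ?_, ?_⟩
  · intro g x
    funext v
    have := limBit_comp P (fun x : V → unitInterval => x ∘ ⇑g.toEquiv)
      (measurePreserving_comp_perm g.toEquiv) (measurableEmbedding_comp_perm g.toEquiv)
      (fun r => R r v) (fun r => R r (g v)) (fun r ω => hequiv r v g ω) x
    simpa [Φ] using this.symm
  · intro S η hS
    have hset : MeasurableSet {σ : V → Bool | ∀ v ∈ S, σ v = η v} := by
      have : {σ : V → Bool | ∀ v ∈ S, σ v = η v} = ⋂ v ∈ S, {σ : V → Bool | σ v = η v} := by
        ext σ; simp
      rw [this]
      refine Finset.measurableSet_biInter _ fun v _ => ?_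
      have hm : Measurable fun σ : V → Bool => σ v := measurable_pi_apply v
      exact hm (measurableSet_singleton (η v))
    rw [Measure.map_apply hΦ hset]
    -- compare with the rules
    refine tendsto_nhds_unique (f := fun r => P {x | ∀ v ∈ S, R r v x = η v}) (l := atTop) ?_ (hlaw S η hS)
    have hfin : P (Φ ⁻¹' {σ | ∀ v ∈ S, σ v = η v}) ≠ ⊤ := measure_ne_top _ _
    rw [ENNReal.tendsto_nhds hfin]
    intro ε hε
    -- a small real number
    obtain ⟨δ, hδ, hδε⟩ : ∃ δ : ℝ, 0 < δ ∧ (S.card : ENNReal) * ENNReal.ofReal δ ≤ ε := by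
      by_cases hε' : ε = ⊤
      · exact ⟨1, one_pos, by simp [hε']⟩
      · refine ⟨ε.toReal / (S.card + 1), ?_, ?_⟩
        · have : 0 < ε.toReal := ENNReal.toReal_pos hε.ne' hε'
          positivity
        · have h1 : (0 : ℝ) < (S.card : ℝ) + 1 := by positivity
          have h2 : (S.card : ENNReal) * ENNReal.ofReal (ε.toReal / (S.card + 1)) =
              ENNReal.ofReal ((S.card : ℝ) * (ε.toReal / (S.card + 1))) := by
            rw [ENNReal.ofReal_mul (by positivity)]
            simp
          rw [h2]
          refine ENNReal.ofReal_le_of_le_toReal ?_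
          have h3 : (S.card : ℝ) ≤ (S.card : ℝ) + 1 := by linarith
          have h4 : 0 ≤ ε.toReal := ENNReal.toReal_nonneg
          calc (S.card : ℝ) * (ε.toReal / (S.card + 1))
              = ε.toReal * ((S.card : ℝ) / (S.card + 1)) := by ring
            _ ≤ ε.toReal * 1 := by
                refine mul_le_mul_of_nonneg_left ?_ h4
                rw [div_le_one h1]; exact h3
            _ = ε.toReal := mul_one _
    -- closeness at each site
    have hspec : ∀ v ∈ S, ∀ᶠ r in atTop, P {x | Φ x v ≠ R r v x} ≤ ENNReal.ofReal δ := by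
      intro v _
      obtain ⟨r0, hr0⟩ := limBit_spec P (fun r => R r v) (fun r => hmeas r v) (hC v) hδ
      exact eventually_atTop.2 ⟨r0, fun r hr => hr0 r hr⟩
    have hall : ∀ᶠ r in atTop, ∀ v ∈ S, P {x | Φ x v ≠ R r v x} ≤ ENNReal.ofReal δ :=
      (Finset.eventually_all S).2 hspec
    filter_upwards [hall] with r hr
    have hbad : P (⋃ v ∈ S, {x | Φ x v ≠ R r v x}) ≤ ε := by
      refine (measure_biUnion_finset_le _ _).trans ?_
      refine le_trans (Finset.sum_le_sum hr) ?_
      simpa using hδε
    constructor
    · -- lower bound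
      rw [tsub_le_iff_right]
      have hsub : Φ ⁻¹' {σ | ∀ v ∈ S, σ v = η v} ⊆
          {x | ∀ v ∈ S, R r v x = η v} ∪ ⋃ v ∈ S, {x | Φ x v ≠ R r v x} := by
        intro x hx
        by_cases h : ∀ v ∈ S, Φ x v = R r v x
        · left
          intro v hv
          rw [← h v hv]
          exact hx v hv
        · right
          push Not at h
          obtain ⟨v, hv, hne⟩ := h
          simp only [Set.mem_iUnion, Set.mem_ofPred_eq, exists_prop]
          exact ⟨v, hv, hne⟩
      exact (measure_mono hsub).trans ((measure_union_le _ _).trans (add_le_add le_rfl hbad))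
    · have hsub : {x | ∀ v ∈ S, R r v x = η v} ⊆
          Φ ⁻¹' {σ | ∀ v ∈ S, σ v = η v} ∪ ⋃ v ∈ S, {x | Φ x v ≠ R r v x} := by
        intro x hx
        by_cases h : ∀ v ∈ S, Φ x v = R r v x
        · left
          intro v hv
          show Φ x v = η v
          rw [h v hv]
          exact hx v hv
        · right
          push Not at h
          obtain ⟨v, hv, hne⟩ := h
          simp only [Set.mem_iUnion, Set.mem_ofPred_eq, exists_prop]
          exact ⟨v, hv, hne⟩
      exact (measure_mono hsub).trans ((measure_union_le _ _).trans (add_le_add le_rfl hbad))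

end Crest.Agent.IsingFactor
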