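import Crest.Agent.IsingFactor.AsmParams
import Crest.Agent.IsingFactor.Output

/-!
# IsingFactor.Assembly (WP IF-Assembly): from `exists_params` to the statement of S0241.

`Φ ω v = limBit P (fun k ω => Rk … k ω v) ω`; `limBit_spec_core`, `measurable_limBit`/`Measurable` by `measurable_pi`, `limBit_comp` with `τ x = x ∘ g` (`labelMeasure_map_comp`,
measurable embedding: `MeasurableEquiv.piCongrLeft`-like), `Countable V` (`countable_of_isTree`).  Law as in `SRFactor.limit_pattern` (`L` versus `Rk` at a large `k`, union over the finite set `S`).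
`(isingW G θ_k F).mass F T → (isingW G θ F).mass F T = isingWeight G θ F η` (`mass_eq_isingWeight`, the weight is continuous in `θ`; `T = F.filter (η · = true)`),
`conv_of_connected`.  `map Φ {σ | ∀ v ∈ S, σ v = η v}` is `P {ω | ∀ v ∈ S, Φ ω v = η v}`, `isingWeight ≥ 0`.
Pattern to compare with S0255's assembly: `SRFactor.AssemblyGroup`.
-/

set_option autoImplicit false

open MeasureTheory ProbabilityTheory Filter Topology
open Crest.Agent.SRFactor Crest.ProbabilityR.Labels Crest.ProbabilityR.TreeIsing

namespace Crest.Agent.IsingFactor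

variable {V : Type*} {G : SimpleGraph V} [G.LocallyFinite]

/-- `isingWeight` only depends on the values on `S`. -/
lemma isingWeight_congr (θ : ℝ) (S : Finset V) {η η' : V → Bool} (h : ∀ v ∈ S, η v = η' v) :
    isingWeight G θ S η = isingWeight G θ S η' := by
  classical
  unfold isingWeight
  congr 1
  refine Finset.prod_congr rfl fun e he => ?_
  induction e using Sym2.ind with
  | _ a b =>
    have hab : s(a, b) ∈ S.sym2 := (Finset.mem_filter.1 he).1
    have ha : a ∈ S := (Finset.mk_mem_sym2_iff.1 hab).1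
    have hb : b ∈ S := (Finset.mk_mem_sym2_iff.1 hab).2
    simp only [Sym2.map_mk, Sym2.mk_isDiag_iff, h a ha, h b hb]

/-- `isingWeight` is continuous in `θ`. -/
lemma continuous_isingWeight (S : Finset V) (η : V → Bool) :
    Continuous fun θ : ℝ => isingWeight G θ S η := by
  classical
  unfold isingWeight
  refine continuous_const.mul (continuous_finsetProd _ fun e _ => ?_)
  split_ifs
  · exact (continuous_const.add continuous_id).div_const 2
  · exact (continuous_const.sub continuous_id).div_const 2

/-- The final statement in terms of `q`. -/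
theorem assembly {q : ℕ} (hT : G.IsTree) (hreg : G.IsRegularOfDegree (q + 1)) (hq : 2 ≤ q)
    {θ : ℝ} (h0 : 0 ≤ θ) (h1 : θ ^ 2 * q ≤ 1) :
    ∃ Φ : (V → unitInterval) → (V → Bool),
      Measurable Φ ∧
      (∀ (g : G ≃g G) (x : V → unitInterval), Φ (x ∘ ⇑g) = Φ x ∘ ⇑g) ∧
      ∀ (S : Finset V) (η : V → Bool), (G.induce (S : Set V)).Connected →
        (labelMeasure V).map Φ {σ | ∀ v ∈ S, σ v = η v} =
          ENNReal.ofReal (Crest.ProbabilityR.TreeIsing.isingWeight G θ S η) := by
  classical
  obtain ⟨θs, Rs, Ts, ns, hlim, hgood, hC, hL⟩ := exists_params hT hreg hq h0 h1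
  refine output_of_rules G θ (fun k v ω => Rk G (θs k) (Rs k) (Ts k) (ns k) ω v)
    (fun k v => measurable_Rk _ _ _ _ v) (fun k v g x => (Rk_comp hT (hgood k) g _ _ _ x v).symm)
    hC ?_
  intro S η hS
  have hconv : Conv G S := conv_of_connected hT hS
  have hne : S.Nonempty := by
    obtain ⟨⟨x, hx⟩⟩ := hS.nonempty
    exact ⟨x, by simpa using hx⟩
  set T : Finset V := S.filter (fun v => η v = true) with hTdef
  have hTS : T ⊆ S := Finset.filter_subset _ _
  have hη : ∀ v ∈ S, decide (v ∈ T) = η v := by
    intro v hv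
    by_cases hv' : η v = true
    · simp [hTdef, hv, hv']
    · simp [hTdef, hv, hv']
  have hmass : ∀ k, (isingW G (θs k) S).mass S T = isingWeight G (θs k) S η := by
    intro k
    rw [mass_eq_isingWeight hT (hgood k) hconv hne hTS]
    exact isingWeight_congr _ _ hη
  have h2 := hL S T hconv hne hTS
  have h3 : Tendsto (fun k => isingWeight G (θs k) S η) atTop (𝓝 (isingWeight G θ S η)) :=
    (continuous_isingWeight S η).continuousAt.tendsto.comp hlim
  have h4 : Tendsto (fun k => (labelMeasure V).real {ω | ∀ v ∈ S,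
      (Rk G (θs k) (Rs k) (Ts k) (ns k) ω v = true ↔ v ∈ T)}) atTop (𝓝 (isingWeight G θ S η)) := by
    have := h2.add h3
    simp only [zero_add] at this
    refine this.congr fun k => ?_
    rw [hmass k]
    ring
  have hset : ∀ k, {ω | ∀ v ∈ S, Rk G (θs k) (Rs k) (Ts k) (ns k) ω v = η v} =
      {ω | ∀ v ∈ S, (Rk G (θs k) (Rs k) (Ts k) (ns k) ω v = true ↔ v ∈ T)} := by
    intro k
    ext ω
    simp only [Set.mem_ofPred_eq]
    refine forall₂_congr fun v hv => ?_
    have h5 := hη v hv
    have h6 : v ∈ T ↔ η v = true := by simp [hTdef, hv]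
    rw [h6]
    cases Rk G (θs k) (Rs k) (Ts k) (ns k) ω v <;> cases η v <;> simp
  have h5 : Tendsto (fun k => labelMeasure V {ω | ∀ v ∈ S,
      Rk G (θs k) (Rs k) (Ts k) (ns k) ω v = η v}) atTop (𝓝 (ENNReal.ofReal (isingWeight G θ S η))) := by
    have h6 := ENNReal.tendsto_ofReal h4
    refine h6.congr fun k => ?_
    rw [hset k, Measure.real, ENNReal.ofReal_toReal (measure_ne_top _ _)]
  exact h5

end Crest.Agent.IsingFactor
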