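import Crest.Agent.IsingFactor.BoundsX

/-!
# IsingFactor.BoundsCosh (WP IF-BoundsCosh): cosh moments, rare large messages, contraction of the kernel.  See `BoundsX`.
Statements may be ADDED; do not change the ones below without posting on chat (topic S0241), other packages use them.
-/

set_option autoImplicit false

open MeasureTheory ProbabilityTheory Filter Topology

namespace Crest.Agent.IsingFactor

variable {q : ℕ}

namespace BoundsCoshAux

theorem cosh_le_one_add {u : ℝ} (hu : |u| ≤ 1) : Real.cosh u ≤ 1 + 0.55 * u ^ 2 := by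
  have h1 := Real.exp_bound hu (n := 6) (by norm_num)
  have h2 := Real.exp_bound (x := -u) (by simpa using hu) (n := 6) (by norm_num)
  have h1' := (abs_le.1 h1).2
  have h2' := (abs_le.1 h2).2
  simp only [Finset.sum_range_succ, Finset.sum_range_zero, Nat.factorial, abs_neg] at h1' h2'
  have habs : |u| ^ 6 = u ^ 6 := by
    rw [← abs_pow]; exact abs_of_nonneg (by positivity)
  rw [habs] at h1' h2'
  have hu2 : u ^ 2 ≤ 1 := by rw [← sq_abs]; nlinarith [abs_nonneg u]
  have h4 : u ^ 4 ≤ u ^ 2 := by nlinarith [sq_nonneg u]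
  have h6 : u ^ 6 ≤ u ^ 2 := by nlinarith [sq_nonneg u, sq_nonneg (u ^ 2)]
  rw [Real.cosh_eq]
  norm_num at h1' h2'
  have e1 : (-u) ^ 3 = - u ^ 3 := by ring
  have e2 : (-u) ^ 5 = - u ^ 5 := by ring
  have e3 : (-u) ^ 2 = u ^ 2 := by ring
  have e4 : (-u) ^ 4 = u ^ 4 := by ring
  simp only [e1, e2, e3, e4] at h2'
  have h0 := sq_nonneg u
  linarith

theorem integrable_sym {μ : Measure ℝ} (h : SymL μ) {f : ℝ → ℝ} (hf : Measurable f) {C : ℝ}
    (hC : ∀ x, |x| ≤ 1 → |f x| ≤ C) : Integrable f μ := by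
  have := h.prob
  refine Integrable.of_bound hf.aestronglyMeasurable C ?_
  filter_upwards [h.lt_one] with a ha
  rw [Real.norm_eq_abs]
  exact hC a ha.le

theorem measurable_cosh_mul (lam : ℝ) : Measurable (fun a : ℝ => Real.cosh (lam * a)) :=
  (Real.continuous_cosh.comp (continuous_const.mul continuous_id)).measurable

theorem integrable_cosh {μ : Measure ℝ} (h : SymL μ) (lam : ℝ) :
    Integrable (fun a => Real.cosh (lam * a)) μ := by
  refine integrable_sym h (measurable_cosh_mul lam) (C := Real.cosh lam) fun x hx => ?_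
  rw [abs_of_pos (Real.cosh_pos _), Real.cosh_le_cosh, abs_mul]
  have := abs_nonneg lam
  nlinarith

theorem integrable_sq {μ : Measure ℝ} (h : SymL μ) : Integrable (fun a => a ^ 2) μ := by
  refine integrable_sym h (by fun_prop) (C := 1) fun x hx => ?_
  rw [abs_pow]
  exact pow_le_one₀ (abs_nonneg x) hx

theorem coshL_nonneg (lam : ℝ) (μ : Measure ℝ) : 0 ≤ coshL lam μ :=
  integral_nonneg fun _ => (Real.cosh_pos _).le

theorem coshL_mergePow_le {b μ : Measure ℝ} (hb : SymL b) (hμ : SymL μ) (lam : ℝ) (j : ℕ) :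
    coshL lam (mergePow b μ j) ≤ coshL lam b * coshL lam μ ^ j := by
  induction j with
  | zero => simp [mergePow]
  | succ j ih =>
    simp only [mergePow]
    calc coshL lam (mergeL (mergePow b μ j) μ)
        ≤ coshL lam (mergePow b μ j) * coshL lam μ :=
          coshL_mergeL_le (symL_mergePow hb hμ j) hμ lam
      _ ≤ (coshL lam b * coshL lam μ ^ j) * coshL lam μ :=
          mul_le_mul_of_nonneg_right ih (coshL_nonneg _ _)
      _ = coshL lam b * coshL lam μ ^ (j + 1) := by ring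

theorem coshL_A0_le' {t : ℝ} (ht : 0 ≤ t) (ht4 : t ≤ 4) (lam : ℝ) :
    coshL lam (A0 t) ≤ Real.exp (lam ^ 2 * (t / 4)) := by
  refine (coshL_A0_le ht lam).trans ?_
  have h := Real.cosh_le_exp_half_sq (lam * t / 4)
  calc Real.exp (lam ^ 2 * t / 8) * Real.cosh (lam * t / 4)
      ≤ Real.exp (lam ^ 2 * t / 8) * Real.exp ((lam * t / 4) ^ 2 / 2) :=
        mul_le_mul_of_nonneg_left h (Real.exp_pos _).le
    _ = Real.exp (lam ^ 2 * t / 8 + (lam * t / 4) ^ 2 / 2) := (Real.exp_add _ _).symm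
    _ ≤ Real.exp (lam ^ 2 * (t / 4)) := by
        apply Real.exp_le_exp.2
        have h1 : 0 ≤ lam ^ 2 * t := by positivity
        have h2 : lam ^ 2 * t * t ≤ lam ^ 2 * t * 4 := mul_le_mul_of_nonneg_left ht4 h1
        nlinarith

theorem exists_min_pow {x : ℝ} (hx : 0 < x) :
    ∃ K : ℕ, (1 / 2 : ℝ) ^ K ≤ x ∧ K * x ≤ 1 := by
  classical
  have hex : ∃ K : ℕ, (1 / 2 : ℝ) ^ K ≤ x := by
    obtain ⟨K, hK⟩ := exists_pow_lt_of_lt_one hx (by norm_num : (1 / 2 : ℝ) < 1)
    exact ⟨K, hK.le⟩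
  refine ⟨Nat.find hex, Nat.find_spec hex, ?_⟩
  rcases hK : Nat.find hex with _ | K
  · simp
  · have hmin := Nat.find_min hex (m := K) (by omega)
    push Not at hmin
    have h2 : ((K : ℝ) + 1) ≤ 2 ^ K := by
      exact_mod_cast Nat.lt_two_pow_self (n := K)
    have h3 : x * 2 ^ K < 1 := by
      have : (1 / 2 : ℝ) ^ K * 2 ^ K = 1 := by
        rw [← mul_pow]; norm_num
      have hp : (0 : ℝ) < 2 ^ K := by positivity
      nlinarith
    push_cast
    nlinarith

theorem sq_theta_le {θ : ℝ} (hq : 2 ≤ q) (h : CritPar q θ) : θ ^ 2 ≤ 1 / 2 := h.good.sq_le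

theorem theta_pow_two_mul_le {θ : ℝ} (h : CritPar q θ) (K : ℕ) :
    θ ^ (2 * K) ≤ (1 / 2 : ℝ) ^ K := by
  rw [pow_mul]
  exact pow_le_pow_left₀ (sq_nonneg θ) h.good.sq_le K

theorem qθ_le {θ : ℝ} (h : CritPar q θ) : (q : ℝ) * θ ^ 2 ≤ 1 := by
  have := h.up; linarith

theorem qθ_nonneg {θ : ℝ} : 0 ≤ (q : ℝ) * θ ^ 2 := by positivity

theorem geom_le_card {θ : ℝ} (h : CritPar q θ) (K : ℕ) :
    ∑ i ∈ Finset.range K, ((q : ℝ) * θ ^ 2) ^ i ≤ K := by
  calc ∑ i ∈ Finset.range K, ((q : ℝ) * θ ^ 2) ^ i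
      ≤ ∑ _i ∈ Finset.range K, (1 : ℝ) :=
        Finset.sum_le_sum fun i _ => pow_le_one₀ qθ_nonneg (qθ_le h)
    _ = K := by simp

theorem geom_nonneg {θ : ℝ} (K : ℕ) :
    0 ≤ ∑ i ∈ Finset.range K, ((q : ℝ) * θ ^ 2) ^ i :=
  Finset.sum_nonneg fun i _ => pow_nonneg qθ_nonneg i

theorem geom_le_inv {θ : ℝ} (h : CritPar q θ) (K : ℕ) (hγ : 0 < 1 - q * θ ^ 2) :
    ∑ i ∈ Finset.range K, ((q : ℝ) * θ ^ 2) ^ i ≤ 1 / (1 - q * θ ^ 2) := by
  have hlt : (q : ℝ) * θ ^ 2 < 1 := by linarith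
  rw [le_div_iff₀ hγ]
  have := geom_sum_mul_neg ((q : ℝ) * θ ^ 2) K
  have hp : 0 ≤ ((q : ℝ) * θ ^ 2) ^ K := pow_nonneg qθ_nonneg K
  nlinarith

theorem xBar_nonneg {θ t : ℝ} (hθ : GoodTheta θ) (ht : 0 ≤ t) : 0 ≤ xBar θ t q :=
  le_trans (m2L_nonneg _) (xN_le_xBar hθ ht 0)

theorem tauL_pos {t : ℝ} (ht : 0 < t) : 0 < tauL t := by
  have h1 : 0 < min t (1 / 2) := lt_min ht (by norm_num)
  have h2 := tauL_ge h1.le (min_le_right _ _)
  have h3 := tauL_mono h1.le (min_le_left t (1 / 2))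
  linarith

theorem xBar_pos {θ t : ℝ} (hθ : GoodTheta θ) (ht : 0 < t) : 0 < xBar θ t q :=
  lt_of_lt_of_le (tauL_pos ht) (tauL_le_xBar hθ ht.le)

end BoundsCoshAux

open BoundsCoshAux

/-- The cosh bound, `K` iterations. -/
theorem coshL_rhoL_le (hq : 2 ≤ q) {θ t lam : ℝ} (h : CritPar q θ) (ht : 0 ≤ t) (ht4 : t ≤ 4) {K : ℕ}
    (hK : θ ^ K * |lam| ≤ 1) (n : ℕ) :
    coshL lam (rhoL θ t q n) ≤ Real.exp (lam ^ 2 * ((t / 4) * ∑ i ∈ Finset.range K, ((q : ℝ) * θ ^ 2) ^ i
      + 0.55 * xBar θ t q)) := by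
  have hθ := h.good
  have hx0 : 0 ≤ xBar θ t q := xBar_nonneg hθ ht
  induction K generalizing lam n with
  | zero =>
    have hlam : |lam| ≤ 1 := by simpa using hK
    have hs := symL_rhoL (q := q) (n := n) hθ ht
    have := hs.prob
    have h1 : coshL lam (rhoL θ t q n) ≤ ∫ a, (1 + 0.55 * lam ^ 2 * a ^ 2) ∂rhoL θ t q n := by
      refine integral_mono_ae (integrable_cosh hs lam) ?_ ?_
      · exact (integrable_const _).add ((integrable_sq hs).const_mul _)
      · filter_upwards [hs.lt_one] with a ha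
        have hu : |lam * a| ≤ 1 := by
          rw [abs_mul]; nlinarith [abs_nonneg lam, abs_nonneg a]
        have := cosh_le_one_add hu
        calc Real.cosh (lam * a) ≤ 1 + 0.55 * (lam * a) ^ 2 := this
          _ = 1 + 0.55 * lam ^ 2 * a ^ 2 := by ring
    have h2 : ∫ a, (1 + 0.55 * lam ^ 2 * a ^ 2) ∂rhoL θ t q n
        = 1 + 0.55 * lam ^ 2 * xN θ t q n := by
      rw [integral_add (integrable_const _) ((integrable_sq hs).const_mul _), integral_const,
        integral_const_mul]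
      simp [xN, m2L]
    have h3 := xN_le_xBar (q := q) hθ ht n
    have h4 : (1 : ℝ) + 0.55 * lam ^ 2 * xN θ t q n ≤ 1 + 0.55 * lam ^ 2 * xBar θ t q := by
      have : 0 ≤ 0.55 * lam ^ 2 := by positivity
      nlinarith
    have h5 := Real.add_one_le_exp (lam ^ 2 * ((t / 4) * ∑ i ∈ Finset.range 0, ((q : ℝ) * θ ^ 2) ^ i
      + 0.55 * xBar θ t q))
    simp only [Finset.range_zero, Finset.sum_empty, mul_zero, zero_add] at h5 ⊢
    refine (h1.trans (h2.le.trans h4)).trans ?_
    linarith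
  | succ K ih =>
    have hS : ∑ i ∈ Finset.range (K + 1), ((q : ℝ) * θ ^ 2) ^ i
        = 1 + (q : ℝ) * θ ^ 2 * ∑ i ∈ Finset.range K, ((q : ℝ) * θ ^ 2) ^ i := by
      rw [Finset.sum_range_succ', Finset.mul_sum, add_comm]
      simp [pow_succ', mul_comm]
    have hSK := geom_nonneg (q := q) (θ := θ) K
    cases n with
    | zero =>
      refine (coshL_A0_le' ht ht4 lam).trans (Real.exp_le_exp.2 ?_)
      refine mul_le_mul_of_nonneg_left ?_ (sq_nonneg lam)
      rw [hS]
      have h1 : 0 ≤ (q : ℝ) * θ ^ 2 * ∑ i ∈ Finset.range K, ((q : ℝ) * θ ^ 2) ^ i :=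
        mul_nonneg qθ_nonneg hSK
      have h2 : 0 ≤ t / 4 * ((q : ℝ) * θ ^ 2 * ∑ i ∈ Finset.range K, ((q : ℝ) * θ ^ 2) ^ i) :=
        mul_nonneg (by positivity) h1
      nlinarith
    | succ m =>
      have hK' : θ ^ K * |lam * θ| ≤ 1 := by
        rw [abs_mul, abs_of_nonneg hθ.nonneg]
        calc θ ^ K * (|lam| * θ) = θ ^ (K + 1) * |lam| := by ring
          _ ≤ 1 := hK
      have h1 := ih hK' m
      have hs := symL_rhoL (q := q) (n := m) hθ ht
      have hsc := symL_scale (θ := θ) (by rw [abs_of_nonneg hθ.nonneg]; exact hθ.lt_one.le) hs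
      have h2 := coshL_mergePow_le (symL_A0 ht) hsc lam q
      have e : rhoL θ t q (m + 1) = mergePow (A0 t) (scaleL θ (rhoL θ t q m)) q := rfl
      rw [e]
      refine h2.trans ?_
      rw [coshL_scaleL]
      have h3 : coshL lam (A0 t) * coshL (lam * θ) (rhoL θ t q m) ^ q
          ≤ Real.exp (lam ^ 2 * (t / 4)) * (Real.exp ((lam * θ) ^ 2 * ((t / 4) *
              ∑ i ∈ Finset.range K, ((q : ℝ) * θ ^ 2) ^ i + 0.55 * xBar θ t q))) ^ q := by
        refine mul_le_mul (coshL_A0_le' ht ht4 lam) ?_ (pow_nonneg (coshL_nonneg _ _) _)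
          (Real.exp_pos _).le
        exact pow_le_pow_left₀ (coshL_nonneg _ _) h1 q
      refine h3.trans ?_
      rw [← Real.exp_nat_mul, ← Real.exp_add]
      apply Real.exp_le_exp.2
      rw [hS]
      have hle := qθ_le h
      have hnn : 0 ≤ (q : ℝ) * θ ^ 2 := qθ_nonneg
      set S := ∑ i ∈ Finset.range K, ((q : ℝ) * θ ^ 2) ^ i with hSdef
      have hl : 0 ≤ lam ^ 2 := sq_nonneg lam
      have h5 : (q : ℝ) * θ ^ 2 * (0.55 * xBar θ t q) ≤ 0.55 * xBar θ t q := by
        have : 0 ≤ 0.55 * xBar θ t q := by positivity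
        nlinarith
      have e2 : lam ^ 2 * (t / 4) + (q : ℝ) * ((lam * θ) ^ 2 * (t / 4 * S + 0.55 * xBar θ t q))
          = lam ^ 2 * (t / 4 * (1 + (q : ℝ) * θ ^ 2 * S) + (q : ℝ) * θ ^ 2 * (0.55 * xBar θ t q)) := by
        ring
      rw [e2]
      refine mul_le_mul_of_nonneg_left ?_ hl
      linarith

namespace BoundsCoshAux

/-- The key numerical bound: for `t ≤ 1/2`, a number of iterations `K` such that the forcing term is
comparable to `x̄`. -/
theorem exists_K (hq : 2 ≤ q) {θ t : ℝ} (h : CritPar q θ) (ht : 0 < t) (ht2 : t ≤ 1 / 2) :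
    ∃ K : ℕ, (1 / 2 : ℝ) ^ K ≤ xBar θ t q ∧
      (t / 4) * ∑ i ∈ Finset.range K, ((q : ℝ) * θ ^ 2) ^ i ≤ 128 * xBar θ t q := by
  have hθ := h.good
  have hx := xBar_pos (q := q) hθ ht
  obtain ⟨K, hK1, hK2⟩ := exists_min_pow hx
  refine ⟨K, hK1, ?_⟩
  set x := xBar θ t q with hxdef
  have hτ1 := tauL_ge ht.le ht2
  have hτ2 := tauL_le ht.le
  have hτ0 := tauL_pos ht
  set τ := tauL t with hτdef
  have hSK := geom_le_card (q := q) h K
  have hS0 := geom_nonneg (q := q) (θ := θ) K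
  set S := ∑ i ∈ Finset.range K, ((q : ℝ) * θ ^ 2) ^ i with hSdef
  have hK0 : (0 : ℝ) ≤ K := Nat.cast_nonneg K
  -- the bound when `t ≤ 512 x²`
  have hA : t ≤ 512 * x ^ 2 → (t / 4) * S ≤ 128 * x := by
    intro ht5
    have h1 : (t / 4) * S ≤ (t / 4) * K := mul_le_mul_of_nonneg_left hSK (by positivity)
    have h2 : (t / 4) * (K : ℝ) ≤ 128 * x ^ 2 * K :=
      mul_le_mul_of_nonneg_right (by linarith) hK0
    have h3 : 128 * x ^ 2 * (K : ℝ) = 128 * x * (K * x) := by ring
    have h4 : 128 * x * ((K : ℝ) * x) ≤ 128 * x * 1 :=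
      mul_le_mul_of_nonneg_left hK2 (by positivity)
    linarith
  by_cases hγ : 1 - q * θ ^ 2 ≤ Real.sqrt τ
  · have h1 := xBar_ge hq h ht.le hγ
    apply hA
    have h2 : Real.sqrt τ ≤ 8 * x := by linarith
    have h3 : τ ≤ 64 * x ^ 2 := by
      have := Real.sq_sqrt hτ0.le
      have h4 : Real.sqrt τ ^ 2 ≤ (8 * x) ^ 2 :=
        pow_le_pow_left₀ (Real.sqrt_nonneg _) h2 2
      nlinarith
    linarith
  · push Not at hγ
    have hγ0 : 0 < 1 - (q : ℝ) * θ ^ 2 := lt_trans (Real.sqrt_pos.2 hτ0) hγ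
    have h1 := xBar_ge_min hq h ht.le
    rcases min_le_iff.1 h1 with h2 | h2
    · rcases min_le_iff.1 h2 with h3 | h3
      · apply hA
        have h4 : τ / 2 ≤ x ^ 2 := by
          have := Real.sq_sqrt (show 0 ≤ τ / 2 by positivity)
          have h5 := pow_le_pow_left₀ (Real.sqrt_nonneg _) h3 2
          nlinarith
        linarith
      · -- `τ / (4 γ) ≤ x`
        have h4 := geom_le_inv (q := q) h K hγ0
        have h5 : τ ≤ 4 * (1 - (q : ℝ) * θ ^ 2) * x := by
          rw [div_le_iff₀ (by positivity)] at h3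
          linarith
        have h6 : t ≤ 8 * τ := by linarith
        have h7 : (t / 4) * S ≤ (t / 4) * (1 / (1 - (q : ℝ) * θ ^ 2)) :=
          mul_le_mul_of_nonneg_left h4 (by positivity)
        have h8 : (t / 4) * (1 / (1 - (q : ℝ) * θ ^ 2)) ≤ 8 * x := by
          rw [mul_one_div, div_le_iff₀ hγ0]
          nlinarith
        nlinarith
    · -- `1/8 ≤ x`
      have h3 : (t / 4) * S ≤ (t / 4) * K := mul_le_mul_of_nonneg_left hSK (by positivity)
      have h4 : (t / 4) * (K : ℝ) ≤ x * K :=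
        mul_le_mul_of_nonneg_right (by linarith) hK0
      have h5 : x * K ≤ 1 := by rw [mul_comm]; exact hK2
      nlinarith

/-- Pointwise moment bound. -/
theorem pow_le_cosh (p : ℕ) (u : ℝ) : u ^ (2 * p) ≤ (2 * p).factorial * (2 * Real.cosh u) := by
  have h1 : |u| ^ (2 * p) / (2 * p).factorial ≤ Real.exp |u| :=
    Real.pow_div_factorial_le_exp |u| (abs_nonneg u) (2 * p)
  have h2 : Real.exp |u| ≤ 2 * Real.cosh u := by
    rw [← Real.cosh_abs u, Real.cosh_eq]
    have := Real.exp_pos (-|u|)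
    linarith
  have h3 : u ^ (2 * p) = |u| ^ (2 * p) := by
    rw [pow_mul, pow_mul, sq_abs]
  have hf : (0 : ℝ) < (2 * p).factorial := by positivity
  rw [h3]
  rw [div_le_iff₀ hf] at h1
  nlinarith

end BoundsCoshAux

/-- Even moments. -/
theorem moment_le (hq : 2 ≤ q) (p : ℕ) : ∃ C : ℝ, 0 < C ∧ ∀ (θ t : ℝ) (n : ℕ), CritPar q θ → 0 < t →
    ∫ ν, ν ^ (2 * p) ∂rhoL θ t q n ≤ C * xBar θ t q ^ p := by
  refine ⟨16 ^ p + (2 * p).factorial * 2 * Real.exp 129, by positivity, ?_⟩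
  intro θ t n h ht
  have hθ := h.good
  have hs := symL_rhoL (q := q) (n := n) hθ ht.le
  have := hs.prob
  have hx := xBar_pos (q := q) hθ ht
  have hfac : (0 : ℝ) < (2 * p).factorial * 2 * Real.exp 129 := by positivity
  have h16 : (0 : ℝ) < 16 ^ p := by positivity
  have hxp : 0 < xBar θ t q ^ p := pow_pos hx p
  rcases le_total t (1 / 2) with ht2 | ht2
  · -- small `t`
    obtain ⟨K, hK1, hK2⟩ := exists_K hq h ht ht2
    set x := xBar θ t q with hxdef
    set lam := (Real.sqrt x)⁻¹ with hlam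
    have hsq : Real.sqrt x > 0 := Real.sqrt_pos.2 hx
    have hlam0 : 0 < lam := inv_pos.2 hsq
    have hlam2 : lam ^ 2 = 1 / x := by
      rw [hlam, inv_pow, Real.sq_sqrt hx.le, one_div]
    have hK3 : θ ^ K * |lam| ≤ 1 := by
      rw [abs_of_pos hlam0, hlam, ← div_eq_mul_inv, div_le_one hsq]
      apply Real.le_sqrt_of_sq_le
      calc (θ ^ K) ^ 2 = θ ^ (2 * K) := by ring
        _ ≤ (1 / 2 : ℝ) ^ K := theta_pow_two_mul_le h K
        _ ≤ x := hK1
    have hc := coshL_rhoL_le hq h ht.le (by linarith) hK3 n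
    have hc2 : coshL lam (rhoL θ t q n) ≤ Real.exp 129 := by
      refine hc.trans (Real.exp_le_exp.2 ?_)
      rw [hlam2]
      rw [div_mul_eq_mul_div, one_mul, div_le_iff₀ hx]
      rw [← hxdef]
      nlinarith
    have hpt : ∀ᵐ ν ∂rhoL θ t q n, ν ^ (2 * p)
        ≤ x ^ p * ((2 * p).factorial * (2 * Real.cosh (lam * ν))) := by
      refine Eventually.of_forall fun ν => ?_
      have h1 := pow_le_cosh p (lam * ν)
      have h2 : ν ^ (2 * p) = x ^ p * (lam * ν) ^ (2 * p) := by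
        rw [mul_pow, pow_mul lam, hlam2, one_div, inv_pow, ← mul_assoc, mul_inv_cancel₀ hxp.ne',
          one_mul]
      rw [h2]
      exact mul_le_mul_of_nonneg_left h1 hxp.le
    have hi : Integrable (fun ν : ℝ => x ^ p * ((2 * p).factorial * (2 * Real.cosh (lam * ν))))
        (rhoL θ t q n) :=
      (((integrable_cosh hs lam).const_mul 2).const_mul _).const_mul _
    have hi2 : Integrable (fun ν : ℝ => ν ^ (2 * p)) (rhoL θ t q n) := by
      refine integrable_sym hs (by fun_prop) (C := 1) fun y hy => ?_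
      rw [abs_pow]
      exact pow_le_one₀ (abs_nonneg y) hy
    have h3 := integral_mono_ae hi2 hi hpt
    have h4 : ∫ ν, x ^ p * ((2 * p).factorial * (2 * Real.cosh (lam * ν))) ∂rhoL θ t q n
        = x ^ p * ((2 * p).factorial * (2 * coshL lam (rhoL θ t q n))) := by
      rw [integral_const_mul, integral_const_mul, integral_const_mul]
      rfl
    rw [h4] at h3
    refine h3.trans ?_
    have h5 : x ^ p * (((2 * p).factorial : ℝ) * (2 * coshL lam (rhoL θ t q n)))
        ≤ x ^ p * (((2 * p).factorial : ℝ) * (2 * Real.exp 129)) := by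
      refine mul_le_mul_of_nonneg_left ?_ hxp.le
      refine mul_le_mul_of_nonneg_left ?_ (by positivity)
      linarith
    nlinarith
  · -- large `t`
    have h1 : ∫ ν, ν ^ (2 * p) ∂rhoL θ t q n ≤ 1 := by
      have : ∫ ν, ν ^ (2 * p) ∂rhoL θ t q n ≤ ∫ _ν, (1 : ℝ) ∂rhoL θ t q n := by
        refine integral_mono_ae ?_ (integrable_const _) ?_
        · refine integrable_sym hs (by fun_prop) (C := 1) fun y hy => ?_
          rw [abs_pow]
          exact pow_le_one₀ (abs_nonneg y) hy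
        · filter_upwards [hs.lt_one] with a ha
          rw [pow_mul]
          have : a ^ 2 ≤ 1 := by rw [← sq_abs]; nlinarith [abs_nonneg a]
          exact pow_le_one₀ (sq_nonneg a) this
      simpa using this
    have h2 : (1 / 16 : ℝ) ≤ xBar θ t q := by
      have h3 := tauL_ge (t := 1 / 2) (by norm_num) le_rfl
      have h4 := tauL_mono (t := 1 / 2) (by norm_num) ht2
      have h5 := tauL_le_xBar (q := q) hθ ht.le
      linarith
    have h3 : 1 ≤ 16 ^ p * xBar θ t q ^ p := by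
      rw [← mul_pow]
      apply one_le_pow₀
      linarith
    nlinarith

/-- Large messages are super-polynomially rare at small time. -/
theorem bad_le (hq : 2 ≤ q) : ∃ c t₀ : ℝ, 0 < c ∧ 0 < t₀ ∧ ∀ (θ t : ℝ) (n : ℕ), CritPar q θ → 0 < t → t ≤ t₀ →
    (rhoL θ t q n).real {ν | 1 / 4 ≤ |ν|} ≤ 2 * Real.exp (-(c / Real.sqrt t)) := by
  obtain ⟨Cs, hCs, hsqrt⟩ := xBar_le_sqrt (q := q) hq
  set a : ℝ := 1 / (4 + 4.4 * Cs) with ha
  have hden : 0 < 4 + 4.4 * Cs := by linarith
  have ha0 : 0 < a := div_pos one_pos hden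
  have ha1 : a ≤ 1 := by
    rw [ha, div_le_one hden]
    linarith
  have ha2 : a * (1 / 2 + 0.55 * Cs) = 1 / 8 := by
    rw [ha]
    field_simp
    ring
  refine ⟨a / 8, 4, by positivity, by norm_num, ?_⟩
  intro θ t n h ht ht4
  have hθ := h.good
  have hs := symL_rhoL (q := q) (n := n) hθ ht.le
  have := hs.prob
  set s := Real.sqrt t with hsdef
  have hs0 : 0 < s := Real.sqrt_pos.2 ht
  have hs2 : s ^ 2 = t := Real.sq_sqrt ht.le
  obtain ⟨K', hK1, hK2⟩ := exists_min_pow hs0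
  set lam := a / s with hlam
  have hlam0 : 0 < lam := by positivity
  have hK3 : θ ^ (2 * K') * |lam| ≤ 1 := by
    rw [abs_of_pos hlam0, hlam, mul_div_assoc', div_le_one hs0]
    have h1 := theta_pow_two_mul_le h K'
    have h2 : 0 ≤ θ ^ (2 * K') := pow_nonneg h.good.nonneg _
    nlinarith
  have hc := coshL_rhoL_le hq h ht.le ht4 hK3 n
  have hS := geom_le_card (q := q) h (2 * K')
  have hxb := hsqrt θ t h ht.le
  have hexp : lam ^ 2 * ((t / 4) * ∑ i ∈ Finset.range (2 * K'), ((q : ℝ) * θ ^ 2) ^ i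
      + 0.55 * xBar θ t q) ≤ lam / 8 := by
    have h1 : (t / 4) * ∑ i ∈ Finset.range (2 * K'), ((q : ℝ) * θ ^ 2) ^ i ≤ s / 2 := by
      have h2 : (t / 4) * ∑ i ∈ Finset.range (2 * K'), ((q : ℝ) * θ ^ 2) ^ i
          ≤ (t / 4) * ((2 * K' : ℕ) : ℝ) := mul_le_mul_of_nonneg_left hS (by positivity)
      push_cast at h2
      have h3 : t / 4 * (2 * (K' : ℝ)) = s / 2 * (K' * s) := by
        rw [← hs2]; ring
      have h4 : s / 2 * ((K' : ℝ) * s) ≤ s / 2 * 1 :=
        mul_le_mul_of_nonneg_left hK2 (by positivity)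
      linarith
    have h2 : (t / 4) * ∑ i ∈ Finset.range (2 * K'), ((q : ℝ) * θ ^ 2) ^ i
        + 0.55 * xBar θ t q ≤ s * (1 / 2 + 0.55 * Cs) := by
      have : 0.55 * xBar θ t q ≤ 0.55 * (Cs * s) := by
        have := hxb
        nlinarith
      nlinarith
    have hl : 0 ≤ lam ^ 2 := sq_nonneg _
    have h3 := mul_le_mul_of_nonneg_left h2 hl
    refine h3.trans (le_of_eq ?_)
    rw [hlam]
    have : a / s * (a * (1 / 2 + 0.55 * Cs)) = a / s * (1 / 8) := by rw [ha2]
    field_simp at this ⊢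
    nlinarith
  have hc2 : coshL lam (rhoL θ t q n) ≤ Real.exp (lam / 8) := hc.trans (Real.exp_le_exp.2 hexp)
  -- Markov
  have hmeas : MeasurableSet {ν : ℝ | 1 / 4 ≤ |ν|} :=
    measurableSet_le measurable_const (by fun_prop)
  have hpt : ∀ ν : ℝ, ({ν : ℝ | 1 / 4 ≤ |ν|}.indicator (fun _ => (1 : ℝ)) ν)
      ≤ 2 * Real.exp (-(lam / 4)) * Real.cosh (lam * ν) := by
    intro ν
    have hq0 : 0 ≤ 2 * Real.exp (-(lam / 4)) * Real.cosh (lam * ν) := by positivity
    by_cases hν : 1 / 4 ≤ |ν|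
    · rw [Set.indicator_of_mem (by exact hν)]
      have h1 : Real.cosh (lam / 4) ≤ Real.cosh (lam * ν) := by
        rw [Real.cosh_le_cosh, abs_mul, abs_of_pos hlam0, abs_of_pos (by positivity)]
        nlinarith
      have h2 : Real.exp (lam / 4) ≤ 2 * Real.cosh (lam / 4) := by
        rw [Real.cosh_eq]
        have := Real.exp_pos (-(lam / 4))
        linarith
      have h3 : Real.exp (-(lam / 4)) * Real.exp (lam / 4) = 1 := by
        rw [← Real.exp_add]; simp
      have h4 : 0 < Real.exp (-(lam / 4)) := Real.exp_pos _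
      nlinarith
    · rw [Set.indicator_of_notMem (by exact hν)]
      exact hq0
  have hint := integral_mono_of_nonneg (μ := rhoL θ t q n)
    (f := {ν : ℝ | 1 / 4 ≤ |ν|}.indicator (fun _ => (1 : ℝ)))
    (g := fun ν => 2 * Real.exp (-(lam / 4)) * Real.cosh (lam * ν))
    (Eventually.of_forall fun ν => Set.indicator_nonneg (fun _ _ => zero_le_one) ν)
    ((integrable_cosh hs lam).const_mul _) (Eventually.of_forall hpt)
  have e1 : ∫ ν, {ν : ℝ | 1 / 4 ≤ |ν|}.indicator (fun _ => (1 : ℝ)) ν ∂rhoL θ t q n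
      = (rhoL θ t q n).real {ν | 1 / 4 ≤ |ν|} := by
    rw [integral_indicator_const _ hmeas]
    simp
  rw [e1, integral_const_mul] at hint
  refine hint.trans ?_
  have h5 : 2 * Real.exp (-(lam / 4)) * ∫ ν, Real.cosh (lam * ν) ∂rhoL θ t q n
      ≤ 2 * Real.exp (-(lam / 4)) * Real.exp (lam / 8) :=
    mul_le_mul_of_nonneg_left hc2 (by positivity)
  refine h5.trans ?_
  rw [mul_assoc, ← Real.exp_add]
  refine mul_le_mul_of_nonneg_left (Real.exp_le_exp.2 (le_of_eq ?_)) (by norm_num)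
  rw [hlam]
  field_simp
  ring

/-- The contraction of the kernel on powers of `ϱ`, uniform in the incoming message. -/
theorem kerT_rho_le (hq : 2 ≤ q) : ∃ c₂ c' : ℝ, 0 < c₂ ∧ c₂ ≤ 1 ∧ 0 < c' ∧ ∀ (θ t : ℝ) (m p : ℕ) (n : ℝ),
    CritPar q θ → 0 < t → xBar θ t q / 2 ≤ xN θ t q m → |n| ≤ 1 →
    kerT θ t q m (fun x => rhoF θ x ^ p) n ≤ 1 - c₂ * (1 - Real.exp (-(p * c' * xBar θ t q))) := by
  obtain ⟨C₀, hC₀, hmom⟩ := moment_le (q := q) hq 2
  set C : ℝ := max C₀ 1 with hCdef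
  have hC1 : 1 ≤ C := le_max_right _ _
  have hC0 : 0 < C := by linarith
  have hq0 : (0 : ℝ) < q := by
    have : 0 < q := by omega
    exact_mod_cast this
  have hq2 : (2 : ℝ) ≤ q := by exact_mod_cast hq
  refine ⟨(1 / 64) * (1 / (16 * C)), 1 / (32 * q), by positivity, ?_, by positivity, ?_⟩
  · have : 1 / (16 * C) ≤ 1 := by
      rw [div_le_one (by positivity)]; linarith
    nlinarith
  intro θ t m p n h ht hxm hn
  have hθ := h.good
  have hs := symL_rhoL (q := q) (n := m) hθ ht.le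
  have := hs.prob
  have hx := xBar_pos (q := q) hθ ht
  set x := xBar θ t q with hxdef
  have hθ0 : 0 < θ := by
    rcases hθ.nonneg.lt_or_eq with h0 | h0
    · exact h0
    · have := h.low
      rw [← h0] at this
      norm_num at this
  have hsq : 0 < Real.sqrt x := Real.sqrt_pos.2 hx
  have hsq2 : Real.sqrt x ^ 2 = x := Real.sq_sqrt hx.le
  set κ := θ * Real.sqrt x / 2 with hκ
  have hκ0 : 0 ≤ κ := by positivity
  have hκ2 : κ ^ 2 = θ ^ 2 * x / 4 := by
    rw [hκ, div_pow, mul_pow, hsq2]; norm_num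
  set f : ℝ → ℝ := fun y => rhoF θ y ^ p with hf
  have hfm : Measurable f := by
    have : Measurable (fun y : ℝ => rhoF θ y) := by
      unfold rhoF; fun_prop
    exact this.pow_const p
  set e := Real.exp (-(p * (1 / (32 * q)) * x)) with he
  have he0 : 0 < e := Real.exp_pos _
  have he1 : e ≤ 1 := by
    rw [he, Real.exp_le_one_iff]
    have : 0 ≤ (p : ℝ) * (1 / (32 * q)) * x := by positivity
    linarith
  have hδ : 0 ≤ 1 - e := by linarith
  have hker := kerT_le_of_mass (θ := θ) (t := t) (q := q) (m := m) hθ ht.le hfm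
    (fun y hy => pow_nonneg (rhoF_nonneg hθ hy) p)
    (fun y hy => pow_le_one₀ (rhoF_nonneg hθ hy) (rhoF_le_one hθ hy))
    (δ := 1 - e) (κ := κ) hδ hκ0 ?_ hn
  · -- from the kernel bound to the conclusion
    have hmass := mass_Bl_ge (q := q) hθ ht.le hq m hκ0
    -- Paley-Zygmund
    set A : Set ℝ := {ν | κ ≤ |θ * ν|} with hA
    have hAm : MeasurableSet A := measurableSet_le measurable_const (by fun_prop)
    have hPZ : 1 / (16 * C) ≤ (rhoL θ t q m).real A := by
      set P := (rhoL θ t q m).real A with hP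
      set ε := 1 / (4 * C * x) with hε
      have hε0 : 0 < ε := by positivity
      have hpt : ∀ ν : ℝ, ν ^ 2 ≤ x / 4 + (ε / 2) * ν ^ (2 * 2)
          + (1 / (2 * ε)) * A.indicator (fun _ => (1 : ℝ)) ν := by
        intro ν
        have h2 : 0 ≤ (ε / 2) * ν ^ (2 * 2) :=
          mul_nonneg (by linarith) (by rw [pow_mul]; positivity)
        by_cases hν : ν ∈ A
        · rw [Set.indicator_of_mem hν]
          have h3 : 0 ≤ (ε * ν ^ 2 - 1) ^ 2 / (2 * ε) := by positivity
          have h4 : (ε * ν ^ 2 - 1) ^ 2 / (2 * ε)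
              = (ε / 2) * ν ^ (2 * 2) + 1 / (2 * ε) * 1 - ν ^ 2 := by
            field_simp
            ring
          have hx4 : 0 < x / 4 := by positivity
          linarith
        · rw [Set.indicator_of_notMem hν]
          have h3 : |θ * ν| < κ := by simpa [hA] using hν
          have h4 : (θ * ν) ^ 2 < κ ^ 2 := by
            rw [← sq_abs (θ * ν)]
            exact pow_lt_pow_left₀ h3 (abs_nonneg _) (by norm_num)
          rw [hκ2, mul_pow] at h4
          have h5 : ν ^ 2 < x / 4 := by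
            have : 0 < θ ^ 2 := by positivity
            have h6 : θ ^ 2 * ν ^ 2 < θ ^ 2 * (x / 4) := by linarith
            exact lt_of_mul_lt_mul_left h6 this.le
          linarith
      have hi1 := integrable_sq hs
      have hi2 : Integrable (fun ν : ℝ => ν ^ (2 * 2)) (rhoL θ t q m) := by
        refine integrable_sym hs (by fun_prop) (C := 1) fun y hy => ?_
        rw [abs_pow]
        exact pow_le_one₀ (abs_nonneg y) hy
      have hi3 : Integrable (A.indicator (fun _ => (1 : ℝ))) (rhoL θ t q m) :=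
        (integrable_const (1 : ℝ)).indicator hAm
      have i2 : Integrable (fun ν : ℝ => x / 4 + (ε / 2) * ν ^ (2 * 2)
          + (1 / (2 * ε)) * A.indicator (fun _ => (1 : ℝ)) ν) (rhoL θ t q m) :=
        ((integrable_const (x / 4)).add (hi2.const_mul (ε / 2))).add (hi3.const_mul (1 / (2 * ε)))
      have hint := integral_mono hi1 i2 hpt
      have e1 : ∫ ν, (x / 4 + (ε / 2) * ν ^ (2 * 2)
            + (1 / (2 * ε)) * A.indicator (fun _ => (1 : ℝ)) ν) ∂rhoL θ t q m
          = x / 4 + (ε / 2) * ∫ ν, ν ^ (2 * 2) ∂rhoL θ t q m + (1 / (2 * ε)) * P := by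
        have i1 : Integrable (fun ν : ℝ => x / 4 + (ε / 2) * ν ^ (2 * 2)) (rhoL θ t q m) :=
          (integrable_const (x / 4)).add (hi2.const_mul (ε / 2))
        rw [integral_add i1 (hi3.const_mul (1 / (2 * ε))), integral_add (integrable_const (x / 4))
          (hi2.const_mul (ε / 2)), integral_const, integral_const_mul, integral_const_mul,
          integral_indicator_const _ hAm]
        simp [hP]
      have e2 : ∫ ν, ν ^ 2 ∂rhoL θ t q m = xN θ t q m := rfl
      rw [e1, e2] at hint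
      have hm4 := hmom θ t m h ht
      have hm4' : ∫ ν, ν ^ (2 * 2) ∂rhoL θ t q m ≤ C * x ^ 2 := by
        refine hm4.trans ?_
        exact mul_le_mul_of_nonneg_right (le_max_left _ _) (by positivity)
      have h6 : (ε / 2) * ∫ ν, ν ^ (2 * 2) ∂rhoL θ t q m ≤ x / 8 := by
        have h7 : (ε / 2) * ∫ ν, ν ^ (2 * 2) ∂rhoL θ t q m ≤ (ε / 2) * (C * x ^ 2) :=
          mul_le_mul_of_nonneg_left hm4' (by positivity)
        have h8 : (ε / 2) * (C * x ^ 2) = x / 8 := by
          rw [hε]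
          field_simp
          norm_num
        linarith
      have h9 : 1 / (2 * ε) = 2 * C * x := by
        rw [hε]
        field_simp
        norm_num
      rw [h9] at hint
      have h10 : x / 8 ≤ 2 * C * x * P := by linarith
      rw [div_le_iff₀ (by positivity)]
      have h11 : x * 1 ≤ x * (P * (16 * C)) := by nlinarith
      exact le_of_mul_le_mul_left h11 hx
    have hth : (1 / 8 : ℝ) ≤ (1 - θ) / 2 := by
      have := hθ.le_three_quarters
      linarith
    have hP0 : 0 ≤ (rhoL θ t q m).real A := measureReal_nonneg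
    have hB0 : 0 ≤ (Bl θ t q m).real {b | κ ≤ |b|} := measureReal_nonneg
    have hBl : (1 / 8 : ℝ) * (1 / (16 * C)) ≤ (Bl θ t q m).real {b | κ ≤ |b|} := by
      calc (1 / 8 : ℝ) * (1 / (16 * C)) ≤ ((1 - θ) / 2) * (rhoL θ t q m).real A :=
            mul_le_mul hth hPZ (by positivity) (by linarith)
        _ ≤ _ := hmass
    have hfin : (1 / 64) * (1 / (16 * C)) ≤ ((1 - θ) / 2) * (Bl θ t q m).real {b | κ ≤ |b|} := by
      calc (1 / 64 : ℝ) * (1 / (16 * C)) = (1 / 8) * ((1 / 8) * (1 / (16 * C))) := by ring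
        _ ≤ ((1 - θ) / 2) * (Bl θ t q m).real {b | κ ≤ |b|} :=
          mul_le_mul hth hBl (by positivity) (by linarith)
    have : (1 - e) * ((1 / 64) * (1 / (16 * C))) ≤ (1 - e) * ((1 - θ) / 2) * (Bl θ t q m).real {b | κ ≤ |b|} := by
      rw [mul_assoc]
      exact mul_le_mul_of_nonneg_left hfin hδ
    calc kerT θ t q m f n ≤ 1 - (1 - e) * ((1 - θ) / 2) * (Bl θ t q m).real {b | κ ≤ |b|} := hker
      _ ≤ 1 - (1 / 64) * (1 / (16 * C)) * (1 - e) := by nlinarith
  · -- the bound of `f` on large values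
    intro y hy hκy
    have h1 := one_sub_rhoF_ge hθ hy
    have h2 : κ ^ 2 ≤ y ^ 2 := by
      rw [← sq_abs y]
      exact pow_le_pow_left₀ hκ0 hκy 2
    have h3 := h.low
    have hr0 := rhoF_nonneg hθ hy
    have h4 : x / (32 * q) ≤ (1 - θ ^ 2) * y ^ 2 := by
      have h5 : x / (16 * q) ≤ κ ^ 2 := by
        rw [hκ2, div_le_iff₀ (by positivity)]
        have : x * 1 ≤ x * (4 * q * θ ^ 2) := mul_le_mul_of_nonneg_left h3 hx.le
        nlinarith
      have h6 : (1 / 2 : ℝ) ≤ 1 - θ ^ 2 := by have := hθ.sq_le; linarith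
      have h7 : (1 / 2) * (x / (16 * q)) ≤ (1 - θ ^ 2) * y ^ 2 :=
        mul_le_mul h6 (h5.trans h2) (by positivity) (by linarith)
      calc x / (32 * q) = (1 / 2) * (x / (16 * q)) := by field_simp; norm_num
        _ ≤ _ := h7
    have h5 : rhoF θ y ≤ Real.exp (-(x / (32 * q))) := by
      have := Real.add_one_le_exp (-(x / (32 * q)))
      linarith
    have h6 : f y ≤ Real.exp (-(x / (32 * q))) ^ p := pow_le_pow_left₀ hr0 h5 p
    rw [← Real.exp_nat_mul] at h6
    have h7 : (p : ℝ) * -(x / (32 * q)) = -(p * (1 / (32 * q)) * x) := by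
      field_simp
    rw [h7] at h6
    linarith

/-- The same bound for the marginal (`ρ_{m+1}`). -/
theorem integral_rho_pow_le (hq : 2 ≤ q) {c₂ c' : ℝ}
    (hk : ∀ (θ t : ℝ) (m p : ℕ) (n : ℝ),
      CritPar q θ → 0 < t → xBar θ t q / 2 ≤ xN θ t q m → |n| ≤ 1 →
      kerT θ t q m (fun x => rhoF θ x ^ p) n ≤ 1 - c₂ * (1 - Real.exp (-(p * c' * xBar θ t q))))
    {θ t : ℝ} (m p : ℕ) (h : CritPar q θ) (ht : 0 < t) (hm : xBar θ t q / 2 ≤ xN θ t q m) :
    ∫ x, rhoF θ x ^ p ∂rhoL θ t q (m + 1) ≤ 1 - c₂ * (1 - Real.exp (-(p * c' * xBar θ t q))) := by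
  have hθ := h.good
  have hs := symL_rhoL (q := q) (n := m) hθ ht.le
  have := hs.prob
  have hfm : Measurable (fun y : ℝ => rhoF θ y ^ p) := by
    have : Measurable (fun y : ℝ => rhoF θ y) := by
      unfold rhoF; fun_prop
    exact this.pow_const p
  have hq1 : 1 ≤ q := by omega
  rw [integral_rhoL_succ hθ ht.le hq1 m hfm ⟨1, fun y hy => by
    rw [abs_of_nonneg (pow_nonneg (rhoF_nonneg hθ hy) p)]
    exact pow_le_one₀ (rhoF_nonneg hθ hy) (rhoF_le_one hθ hy)⟩]
  set B := 1 - c₂ * (1 - Real.exp (-(p * c' * xBar θ t q))) with hB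
  by_cases hint : Integrable (fun n => kerT θ t q m (fun x => rhoF θ x ^ p) n) (rhoL θ t q m)
  · have h1 : ∫ n, kerT θ t q m (fun x => rhoF θ x ^ p) n ∂rhoL θ t q m
        ≤ ∫ _n, B ∂rhoL θ t q m := by
      refine integral_mono_ae hint (integrable_const _) ?_
      filter_upwards [hs.lt_one] with n hn
      exact hk θ t m p n h ht hm hn.le
    simpa using h1
  · rw [integral_undef hint]
    -- nonnegativity of `B`: the kernel is nonnegative
    have hsB := symL_Bl (q := q) (m := m) hθ ht.le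
    have h0 : 0 ≤ kerT θ t q m (fun x => rhoF θ x ^ p) 0 := by
      unfold kerT
      refine integral_nonneg_of_ae ?_
      filter_upwards [hsB.lt_one] with b hb
      simp only [mul_zero, add_zero, Pi.zero_apply]
      have hmr : |mrg b 0| ≤ 1 := by
        refine abs_mrg_le_one hb.le (by norm_num)
      exact mul_nonneg zero_le_one (pow_nonneg (rhoF_nonneg hθ hmr) p)
    exact h0.trans (hk θ t m p 0 h ht hm (by norm_num))

end Crest.Agent.IsingFactor
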