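import Crest.Agent.IsingFactor.MergeLaw

/-!
# IsingFactor.BoundsX (WP IF-BoundsX): the second moment of the messages.

# IsingFactor.MergeBounds : quantitative bounds on the message laws (WP: MBounds1, MBounds2).

Parameters: `q ≥ 2`, `η = θ²` with `1/(4q) ≤ η ≤ 1/q` (`CritPar`), `γ = 1 - q η`, `τ = tauL t` (the
second moment of `A₀(t)`; `t/8 ≤ τ ≤ t/4` for small `t`), `x_n = xN = m₂(ρ_n)`, `x̄ = xBar = sup x_n`.

PROOFS.
* `x_{n+1} ≤ 1 - (1-τ)(1-η x_n)^q`: iterate `1 - m₂(μ₁⊞μ₂) ≥ (1-α)(1-β)`.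
* `x_{n+1} ≥ τ + qηx_n - 2(qηx_nτ + C(q,2) η² x_n²)`: iterate `m₂ ≥ α+β-2αβ`: with `β = ηx_n`, the `j`-fold
  merge `B_j` of `θρ_n` satisfies `jβ - 2C(j,2)β² ≤ B_j ≤ jβ`.
* Upper bound on `x̄`: from `(1-w)^q ≥ 1 - qw + (q(q-1)/(2e)) w²` for `w = ηx̄ ≤ 1/q`, and `qη ≤ 1`:
  `(1-τ) (q(q-1)/(2e)) η² x̄² ≤ τ`, so `x̄ ≤ C √τ` (using `η ≥ 1/(4q)`; for large `t` use `x̄ ≤ 1`).
* Lower bound: `x̄(γ + 2τ) + x̄² ≥ τ`, so `x̄ ≥ min(√(τ/2), τ/(4γ), 1/8)`.
* Cosh: `Φ_n(λ) = coshL λ ρ_n`, `Φ_{n+1}(λ) ≤ Φ₀(λ) Φ_n(θλ)^q`, `Φ₀(λ) ≤ exp(λ² t/4)` for `t ≤ 4`.  Iterating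
  `K` times with `θ^K |λ| ≤ 1` and `cosh u ≤ 1 + 0.55 u²` (`|u| ≤ 1`):
  `log Φ_n(λ) ≤ λ² ((t/4) S_K + 0.55 x̄)`, `S_K = ∑_{i<K} (qη)^i ≤ min(K, 1/γ)`.
* Moments: take `λ² = 1/x̄`, `K ≈ log(1/√x̄)/log(1/θ)`: `(t/4) S_K / x̄ ≤ C` by the lower bound on `x̄`
  (case `x̄ ≥ τ/(4γ)`: `S_K ≤ 1/γ`; case `x̄ ≥ √(τ/2)`: `√t K ≤ C`; case `x̄ ≥ 1/8`: fine).
  So `∫cosh(ν/√x̄) dρ_n ≤ C₀` and `∫ν^{2p} ≤ (2p)! C₀ x̄^p`.  For `t > 1/2`: `x̄ ≥ τ(1/2) > 0`, trivial.
* Bad event: `λ = a/√t`, `a` small, Markov with `cosh`: the main term `0.55 λ² x̄ ≤ 0.55 C a²/√t`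
  is beaten by `λ/4 = a/(4√t)`, and `λ² t K/4 = a² K/4`, `K ≲ log(1/t)`.
* Kernel: Paley-Zygmund: `ρ_m{ν² ≥ x̄/4} ≥ (x_m - x̄/4)²/y₄ ≥ c` if `x_m ≥ x̄/2`, `y₄ ≤ C x̄²`;
  `kerT_le_of_mass`, `mass_Bl_ge` with `κ = θ √x̄ / 2`; on `|x| ≥ κ`: `ϱ ≤ 1-(1-η)κ² ≤ exp(-c' x̄)`.
Statements may be ADDED; do not change the ones below without posting on chat (topic S0241), other packages use them.
-/

set_option autoImplicit false

open MeasureTheory ProbabilityTheory Filter Topology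

namespace Crest.Agent.IsingFactor

/-- The range of `θ` in the critical analysis. -/
structure CritPar (q : ℕ) (θ : ℝ) : Prop where
  good : GoodTheta θ
  up : θ ^ 2 * q ≤ 1
  low : 1 ≤ 4 * q * θ ^ 2

/-- Second moment of the single site law. -/
noncomputable def tauL (t : ℝ) : ℝ := m2L (A0 t)

/-- Second moment of the message at depth `n`. -/
noncomputable def xN (θ t : ℝ) (q n : ℕ) : ℝ := m2L (rhoL θ t q n)

/-- Limit of the second moments. -/
noncomputable def xBar (θ t : ℝ) (q : ℕ) : ℝ := ⨆ n, xN θ t q n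

namespace BoundsXAux

lemma m2L_le_of_cxLE {μ μ' : Measure ℝ} (h : cxLE μ μ') : m2L μ ≤ m2L μ' :=
  h (fun a => a ^ 2) (by fun_prop) (by intro a; ring)
    ((Even.convexOn_pow (𝕜 := ℝ) even_two).subset (Set.subset_univ _) (convex_Icc _ _))

lemma integrable_exp_mul_gauss (a : ℝ) :
    Integrable (fun y : ℝ => Real.exp (a * y)) (gaussianReal 0 1) :=
  integrable_exp_mul_gaussianReal a

lemma integral_exp_mul_gauss (a : ℝ) :
    ∫ y, Real.exp (a * y) ∂gaussianReal 0 1 = Real.exp (a ^ 2 / 2) := by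
  have h := congrFun (mgf_fun_id_gaussianReal (μ := 0) (v := 1)) a
  simp only [mgf] at h
  rw [h]
  congr 1
  simp

lemma integrable_cosh_gauss (a : ℝ) :
    Integrable (fun y : ℝ => Real.cosh (a * y)) (gaussianReal 0 1) := by
  have h1 := integrable_exp_mul_gauss a
  have h2 := integrable_exp_mul_gauss (-a)
  have : (fun y : ℝ => Real.cosh (a * y)) =
      fun y => (Real.exp (a * y) + Real.exp (-a * y)) / 2 := by
    funext y
    rw [Real.cosh_eq, neg_mul]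
  rw [this]
  exact (h1.add h2).div_const 2

lemma integral_cosh_gauss (a : ℝ) :
    ∫ y, Real.cosh (a * y) ∂gaussianReal 0 1 = Real.exp (a ^ 2 / 2) := by
  have : (fun y : ℝ => Real.cosh (a * y)) =
      fun y => (Real.exp (a * y) + Real.exp (-a * y)) / 2 := by
    funext y
    rw [Real.cosh_eq, neg_mul]
  rw [this, integral_div, integral_add (integrable_exp_mul_gauss a) (integrable_exp_mul_gauss (-a)),
    integral_exp_mul_gauss, integral_exp_mul_gauss]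
  rw [neg_sq]
  ring

/-- One dimensional Cameron-Martin (as `SRFactor.Gauss`). -/
lemma gaussianReal_shift_eq_withDensity' (a : ℝ) :
    gaussianReal a 1 =
      (gaussianReal 0 1).withDensity
        (fun y => ENNReal.ofReal (Real.exp (a * y - a ^ 2 / 2))) := by
  have hm : Measurable (fun y : ℝ => ENNReal.ofReal (Real.exp (a * y - a ^ 2 / 2))) := by
    fun_prop
  rw [gaussianReal_of_var_ne_zero a one_ne_zero, gaussianReal_of_var_ne_zero 0 one_ne_zero]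
  rw [← withDensity_mul _ (measurable_gaussianPDF _ _) hm]
  congr 1
  ext y
  simp only [gaussianPDF_def, Pi.mul_apply]
  rw [← ENNReal.ofReal_mul (gaussianPDFReal_nonneg _ _ _)]
  congr 1
  simp only [gaussianPDFReal_def]
  have he : Real.exp (-(y - a) ^ 2 / (2 * ((1 : NNReal) : ℝ))) =
      Real.exp (-(y - 0) ^ 2 / (2 * ((1 : NNReal) : ℝ))) * Real.exp (a * y - a ^ 2 / 2) := by
    rw [← Real.exp_add]
    congr 1
    norm_num
    ring
  rw [he]; ring

/-- One-dimensional Cameron-Martin, integral form. -/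
lemma integral_shift (a : ℝ) {F : ℝ → ℝ} (hF : Measurable F) :
    ∫ g, F (g + a) ∂gaussianReal 0 1 = ∫ y, Real.exp (a * y - a ^ 2 / 2) * F y ∂gaussianReal 0 1 := by
  have h1 : ∫ g, F (g + a) ∂gaussianReal 0 1 = ∫ y, F y ∂gaussianReal a 1 := by
    have hm := gaussianReal_map_add_const (μ := 0) (v := 1) a
    rw [zero_add] at hm
    rw [← hm, integral_map (by fun_prop) hF.aestronglyMeasurable]
  rw [h1, gaussianReal_shift_eq_withDensity' a,
    integral_withDensity_eq_integral_toReal_smul (by fun_prop)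
      (Filter.Eventually.of_forall fun _ => ENNReal.ofReal_lt_top)]
  refine integral_congr_ae (Filter.Eventually.of_forall fun y => ?_)
  simp only [smul_eq_mul]
  rw [ENNReal.toReal_ofReal (Real.exp_pos _).le]

lemma measurable_tanh : Measurable Real.tanh := by
  have : Real.tanh = fun x => Real.sinh x / Real.cosh x := by
    funext x; exact Real.tanh_eq_sinh_div_cosh x
  rw [this]
  exact Real.measurable_sinh.div Real.measurable_cosh

/-- The function `tanh² x cosh x`. -/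
noncomputable def tc (x : ℝ) : ℝ := Real.tanh x ^ 2 * Real.cosh x

lemma measurable_tc : Measurable tc := by
  unfold tc
  exact (measurable_tanh.pow_const 2).mul Real.measurable_cosh

lemma tc_eq (x : ℝ) : tc x = Real.cosh x - (Real.cosh x)⁻¹ := by
  have hc := Real.cosh_pos x
  have h := Real.cosh_sq x
  unfold tc
  rw [Real.tanh_eq_sinh_div_cosh]
  field_simp
  nlinarith [h]

lemma abs_tanh_lt_one (x : ℝ) : |Real.tanh x| < 1 :=
  abs_lt.2 ⟨Real.neg_one_lt_tanh x, Real.tanh_lt_one x⟩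

lemma tc_nonneg (x : ℝ) : 0 ≤ tc x :=
  mul_nonneg (sq_nonneg _) (Real.cosh_pos x).le

lemma tc_le_cosh (x : ℝ) : tc x ≤ Real.cosh x := by
  have hc := Real.cosh_pos x
  rw [tc_eq]
  have : 0 < (Real.cosh x)⁻¹ := inv_pos.2 hc
  linarith

/-- Tangent line of `1/y`. -/
lemma tc_upper (c x : ℝ) : tc x ≤ (1 + c ^ 2) * Real.cosh x - 2 * c := by
  have hc := Real.cosh_pos x
  rw [tc_eq]
  have h : 2 * c - c ^ 2 * Real.cosh x ≤ (Real.cosh x)⁻¹ := by
    rw [← one_div, le_div_iff₀ hc]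
    nlinarith [sq_nonneg (c * Real.cosh x - 1)]
  nlinarith

lemma cosh_sq_eq (x : ℝ) : Real.cosh x ^ 2 = (1 + Real.cosh (2 * x)) / 2 := by
  rw [Real.cosh_two_mul]
  have := Real.cosh_sq x
  nlinarith

/-- `1/y ≤ 3 - 3 y + y²` for `y ≥ 1` is `(y-1)³ ≥ 0`. -/
lemma tc_lower (x : ℝ) : 4 * Real.cosh x - 3 - (1 + Real.cosh (2 * x)) / 2 ≤ tc x := by
  have hc := Real.one_le_cosh x
  have hc0 := Real.cosh_pos x
  rw [tc_eq, ← cosh_sq_eq]
  have h : (Real.cosh x)⁻¹ ≤ 3 - 3 * Real.cosh x + Real.cosh x ^ 2 := by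
    rw [← one_div, div_le_iff₀ hc0]
    have : 0 ≤ (Real.cosh x - 1) ^ 3 := pow_nonneg (by linarith) 3
    nlinarith
  linarith

lemma integrable_tc (a : ℝ) : Integrable (fun y : ℝ => tc (a * y)) (gaussianReal 0 1) := by
  refine (integrable_cosh_gauss a).mono' ?_ (Filter.Eventually.of_forall fun y => ?_)
  · exact (measurable_tc.comp (by fun_prop)).aestronglyMeasurable
  · rw [Real.norm_eq_abs, abs_of_nonneg (tc_nonneg _)]
    exact tc_le_cosh _

lemma integrable_exp_tanh (a : ℝ) {s : ℝ} :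
    Integrable (fun y : ℝ => Real.exp (a * y - a ^ 2 / 2) * Real.tanh (s * y) ^ 2)
      (gaussianReal 0 1) := by
  refine ((integrable_exp_mul_gauss a).const_mul (Real.exp (-(a ^ 2 / 2)))).mono' ?_ ?_
  · exact ((by fun_prop : Measurable fun y : ℝ => Real.exp (a * y - a ^ 2 / 2)).mul
      ((measurable_tanh.comp (by fun_prop)).pow_const 2)).aestronglyMeasurable
  · refine Filter.Eventually.of_forall fun y => ?_
    rw [Real.norm_eq_abs, abs_mul, abs_of_pos (Real.exp_pos _), abs_pow]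
    have : |Real.tanh (s * y)| ^ 2 ≤ 1 := pow_le_one₀ (abs_nonneg _) (abs_tanh_lt_one _).le
    have e : Real.exp (-(a ^ 2 / 2)) * Real.exp (a * y) = Real.exp (a * y - a ^ 2 / 2) := by
      rw [← Real.exp_add]; congr 1; ring
    rw [e]
    exact mul_le_of_le_one_right (Real.exp_pos _).le this

/-- Main formula for `tauL`. -/
lemma tauL_eq {t : ℝ} (ht : 0 ≤ t) :
    tauL t = Real.exp (-(t / 8)) * ∫ y, tc ((Real.sqrt t / 2) * y) ∂gaussianReal 0 1 := by
  have hs : Real.sqrt t * Real.sqrt t = t := Real.mul_self_sqrt ht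
  set s := Real.sqrt t / 2 with hs_def
  have hss : s ^ 2 = t / 4 := by rw [hs_def]; nlinarith
  have hf : Measurable (fun a : ℝ => a ^ 2) := by fun_prop
  have hb : ∃ C, ∀ x : ℝ, |x| ≤ 1 → |x ^ 2| ≤ C :=
    ⟨1, fun x hx => by rw [abs_pow]; exact pow_le_one₀ (abs_nonneg x) hx⟩
  have h0 := integral_A0 (t := t) hf hb
  have hF : Measurable (fun y : ℝ => Real.tanh (s * y) ^ 2) :=
    (measurable_tanh.comp (by fun_prop)).pow_const 2
  have h1 := integral_shift s hF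
  have h2 := integral_shift (-s) hF
  have e1 : ∀ g : ℝ, (t / 2 + Real.sqrt t * g) / 2 = s * (g + s) := by
    intro g; rw [mul_add, ← sq, hss, hs_def]; ring
  have e2 : ∀ g : ℝ, (-(t / 2) + Real.sqrt t * g) / 2 = s * (g + -s) := by
    intro g; rw [mul_add, mul_neg, ← sq, hss, hs_def]; ring
  simp only [e1, e2] at h0
  unfold tauL m2L
  rw [h0, h1, h2, ← integral_const_mul, ← integral_const_mul,
    ← integral_add ((integrable_exp_tanh s).const_mul _) ((integrable_exp_tanh (-s)).const_mul _),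
    ← integral_const_mul]
  refine integral_congr_ae (Filter.Eventually.of_forall fun y => ?_)
  simp only [tc]
  rw [Real.cosh_eq]
  have e3 : Real.exp (s * y - s ^ 2 / 2) = Real.exp (-(t / 8)) * Real.exp (s * y) := by
    rw [← Real.exp_add, hss]; congr 1; ring
  have e4 : Real.exp (-s * y - (-s) ^ 2 / 2) = Real.exp (-(t / 8)) * Real.exp (-(s * y)) := by
    rw [← Real.exp_add, neg_sq, hss]; congr 1; ring
  rw [e3, e4]
  ring

end BoundsXAux

open BoundsXAux in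
theorem tauL_le {t : ℝ} (ht : 0 ≤ t) : tauL t ≤ t / 4 := by
  have hs : Real.sqrt t * Real.sqrt t = t := Real.mul_self_sqrt ht
  set s := Real.sqrt t / 2 with hs_def
  have hss : s ^ 2 / 2 = t / 8 := by rw [hs_def]; nlinarith
  set c := Real.exp (-(t / 8)) with hc_def
  have hc : 0 < c := Real.exp_pos _
  have hE : ∫ y, Real.cosh (s * y) ∂gaussianReal 0 1 = c⁻¹ := by
    rw [integral_cosh_gauss, hss, hc_def, Real.exp_neg, inv_inv]
  have hle : ∫ y, tc (s * y) ∂gaussianReal 0 1 ≤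
      ∫ y, ((1 + c ^ 2) * Real.cosh (s * y) - 2 * c) ∂gaussianReal 0 1 :=
    integral_mono (integrable_tc s) (((integrable_cosh_gauss s).const_mul _).sub (integrable_const _))
      (fun y => tc_upper c (s * y))
  rw [integral_sub ((integrable_cosh_gauss s).const_mul _) (integrable_const _), integral_const_mul, hE,
    integral_const] at hle
  simp only [probReal_univ, smul_eq_mul, one_mul] at hle
  rw [tauL_eq ht]
  have h1 : c * ∫ y, tc (s * y) ∂gaussianReal 0 1 ≤ c * ((1 + c ^ 2) * c⁻¹ - 2 * c) :=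
    mul_le_mul_of_nonneg_left hle hc.le
  have h2 : c * ((1 + c ^ 2) * c⁻¹ - 2 * c) = 1 - c ^ 2 := by
    field_simp
    ring
  rw [h2] at h1
  have h3 : c ^ 2 = Real.exp (-(t / 4)) := by
    rw [hc_def, ← Real.exp_nat_mul]; congr 1; push_cast; ring
  have h4 : -(t / 4) + 1 ≤ Real.exp (-(t / 4)) := Real.add_one_le_exp _
  linarith

open BoundsXAux in
theorem tauL_ge {t : ℝ} (ht : 0 ≤ t) (ht' : t ≤ 1 / 2) : t / 8 ≤ tauL t := by
  have hs : Real.sqrt t * Real.sqrt t = t := Real.mul_self_sqrt ht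
  set s := Real.sqrt t / 2 with hs_def
  have hss : s ^ 2 / 2 = t / 8 := by rw [hs_def]; nlinarith
  have hss2 : (2 * s) ^ 2 / 2 = t / 2 := by rw [hs_def]; nlinarith
  set c := Real.exp (-(t / 8)) with hc_def
  have hc : 0 < c := Real.exp_pos _
  have hE : ∫ y, Real.cosh (s * y) ∂gaussianReal 0 1 = c⁻¹ := by
    rw [integral_cosh_gauss, hss, hc_def, Real.exp_neg, inv_inv]
  have hE2 : ∫ y, Real.cosh ((2 * s) * y) ∂gaussianReal 0 1 = Real.exp (t / 2) := by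
    rw [integral_cosh_gauss, hss2]
  have hint2 : Integrable (fun y : ℝ => (1 + Real.cosh ((2 * s) * y)) / 2) (gaussianReal 0 1) :=
    ((integrable_const _).add (integrable_cosh_gauss (2 * s))).div_const 2
  have I1 : Integrable (fun y : ℝ => 4 * Real.cosh (s * y)) (gaussianReal 0 1) :=
    (integrable_cosh_gauss s).const_mul 4
  have I2 : Integrable (fun y : ℝ => 4 * Real.cosh (s * y) - 3) (gaussianReal 0 1) :=
    I1.sub (integrable_const _)
  have hle : ∫ y, (4 * Real.cosh (s * y) - 3 - (1 + Real.cosh ((2 * s) * y)) / 2) ∂gaussianReal 0 1 ≤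
      ∫ y, tc (s * y) ∂gaussianReal 0 1 :=
    integral_mono (I2.sub hint2)
      (integrable_tc s) (fun y => by
        have := tc_lower (s * y)
        rw [← mul_assoc] at this
        exact this)
  rw [integral_sub I2 hint2,
    integral_sub I1 (integrable_const _), integral_const_mul, hE,
    integral_const, integral_div, integral_add (integrable_const _) (integrable_cosh_gauss (2 * s)),
    hE2, integral_const] at hle
  simp only [probReal_univ, smul_eq_mul, one_mul] at hle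
  rw [tauL_eq ht]
  have h1 : c * (4 * c⁻¹ - 3 - (1 + Real.exp (t / 2)) / 2) ≤ c * ∫ y, tc (s * y) ∂gaussianReal 0 1 :=
    mul_le_mul_of_nonneg_left hle hc.le
  have h2 : c * (4 * c⁻¹ - 3 - (1 + Real.exp (t / 2)) / 2)
      = 4 - 3 * c - c / 2 - c * Real.exp (t / 2) / 2 := by
    field_simp
    ring
  rw [h2] at h1
  have h3 : c * Real.exp (t / 2) = Real.exp (3 * t / 8) := by
    rw [hc_def, ← Real.exp_add]; congr 1; ring
  have hc_up : c ≤ 1 - t / 8 + (t / 8) ^ 2 := by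
    have hx : |(-(t / 8))| ≤ 1 := by rw [abs_neg, abs_of_nonneg (by positivity)]; linarith
    have := Real.abs_exp_sub_one_sub_id_le hx
    have h' := (abs_le.1 this).2
    rw [neg_sq] at h'
    rw [hc_def]; linarith
  have he_up : Real.exp (3 * t / 8) ≤ 1 + 3 * t / 8 + (3 * t / 8) ^ 2 := by
    have hx : |3 * t / 8| ≤ 1 := by rw [abs_of_nonneg (by positivity)]; linarith
    have := Real.abs_exp_sub_one_sub_id_le hx
    have h' := (abs_le.1 this).2
    linarith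
  have hfin : t / 8 ≤ 4 - 3 * c - c / 2 - c * Real.exp (t / 2) / 2 := by
    rw [h3]
    nlinarith
  linarith

theorem tauL_mono {t t' : ℝ} (ht : 0 ≤ t) (htt' : t ≤ t') : tauL t ≤ tauL t' :=
  BoundsXAux.m2L_le_of_cxLE (cxLE_A0 ht htt')

theorem tauL_le_one {t : ℝ} (ht : 0 ≤ t) : tauL t ≤ 1 :=
  m2L_le_one (symL_A0 ht)

theorem BoundsXAux.m2L_lt_one {μ : Measure ℝ} (h : SymL μ) : m2L μ < 1 := by
  have hp := h.prob
  have hint : Integrable (fun a : ℝ => a ^ 2) μ := by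
    refine Integrable.mono' (integrable_const (1 : ℝ)) (by fun_prop) ?_
    filter_upwards [h.lt_one] with a ha
    rw [Real.norm_eq_abs, abs_pow]
    exact pow_le_one₀ (abs_nonneg a) ha.le
  have hint' : Integrable (fun a : ℝ => 1 - a ^ 2) μ := (integrable_const _).sub hint
  have hnn : 0 ≤ᵐ[μ] fun a : ℝ => 1 - a ^ 2 := by
    filter_upwards [h.lt_one] with a ha
    have : a ^ 2 ≤ 1 := by
      rw [← sq_abs]; exact pow_le_one₀ (abs_nonneg a) ha.le
    simpa using this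
  have hpos : 0 < ∫ a, (1 - a ^ 2) ∂μ := by
    rw [integral_pos_iff_support_of_nonneg_ae hnn hint']
    refine pos_iff_ne_zero.2 fun h0 => ?_
    have h1 : ∀ᵐ a ∂μ, a ∉ Function.support (fun a : ℝ => 1 - a ^ 2) :=
      measure_eq_zero_iff_ae_notMem.1 h0
    obtain ⟨a, ha1, ha2⟩ := (h1.and h.lt_one).exists
    apply ha1
    have : a ^ 2 < 1 := by
      rw [← sq_abs]; exact pow_lt_one₀ (abs_nonneg a) ha2 (by norm_num)
    simp only [Function.mem_support]
    linarith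
  rw [integral_sub (integrable_const _) hint] at hpos
  simpa [m2L] using hpos

theorem tauL_lt_one {t : ℝ} (ht : 0 ≤ t) : tauL t < 1 :=
  BoundsXAux.m2L_lt_one (symL_A0 ht)

section x
variable {q : ℕ} {θ t : ℝ}

theorem xN_mono (hθ : GoodTheta θ) (ht : 0 ≤ t) : Monotone (xN θ t q) := fun _ _ hn =>
  BoundsXAux.m2L_le_of_cxLE (cxLE_rhoL hθ hθ le_rfl ht le_rfl q hn)

theorem xN_le_one (hθ : GoodTheta θ) (ht : 0 ≤ t) (n : ℕ) : xN θ t q n ≤ 1 :=
  m2L_le_one (symL_rhoL hθ ht q n)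

theorem xN_le_xBar (hθ : GoodTheta θ) (ht : 0 ≤ t) (n : ℕ) : xN θ t q n ≤ xBar θ t q :=
  le_ciSup (f := xN θ t q) ⟨1, by rintro _ ⟨m, rfl⟩; exact xN_le_one hθ ht m⟩ n

theorem xBar_le_one (hθ : GoodTheta θ) (ht : 0 ≤ t) : xBar θ t q ≤ 1 :=
  ciSup_le (xN_le_one hθ ht)

theorem tendsto_xN (hθ : GoodTheta θ) (ht : 0 ≤ t) :
    Tendsto (xN θ t q) atTop (𝓝 (xBar θ t q)) :=
  tendsto_atTop_ciSup (xN_mono hθ ht) ⟨1, by rintro _ ⟨m, rfl⟩; exact xN_le_one hθ ht m⟩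

theorem tauL_le_xBar (hθ : GoodTheta θ) (ht : 0 ≤ t) : tauL t ≤ xBar θ t q :=
  xN_le_xBar (n := 0) hθ ht

theorem xBar_mono {θ' t' : ℝ} (hθ : GoodTheta θ) (hθ' : GoodTheta θ') (hθθ' : θ ≤ θ') (ht : 0 ≤ t)
    (htt' : t ≤ t') : xBar θ t q ≤ xBar θ' t' q :=
  ciSup_le fun n =>
    (BoundsXAux.m2L_le_of_cxLE (cxLE_rhoL hθ hθ' hθθ' ht htt' q (le_refl n))).trans
      (xN_le_xBar hθ' (ht.trans htt') n)

theorem BoundsXAux.m2_mergePow_le {b μ : Measure ℝ} (hb : SymL b) (hμ : SymL μ) (j : ℕ) :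
    m2L (mergePow b μ j) ≤ 1 - (1 - m2L b) * (1 - m2L μ) ^ j := by
  induction j with
  | zero => simp [mergePow]
  | succ j ih =>
    have h1 := m2_mergeL_le (symL_mergePow hb hμ j) hμ
    have hβ := m2L_le_one hμ
    have : (1 - m2L b) * (1 - m2L μ) ^ j ≤ 1 - m2L (mergePow b μ j) := by linarith
    have h2 : (1 - m2L b) * (1 - m2L μ) ^ (j + 1) ≤ (1 - m2L (mergePow b μ j)) * (1 - m2L μ) := by
      rw [pow_succ, ← mul_assoc]
      exact mul_le_mul_of_nonneg_right this (by linarith)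
    simp only [mergePow]
    nlinarith

theorem BoundsXAux.m2_mergePow_ge {b μ : Measure ℝ} (hb : SymL b) (hμ : SymL μ)
    (hβ : m2L μ ≤ 1 / 2) (j : ℕ) :
    m2L b + j * m2L μ - 2 * (j * m2L μ * m2L b + (j.choose 2) * m2L μ ^ 2) ≤ m2L (mergePow b μ j) := by
  induction j with
  | zero => simp [mergePow]
  | succ j ih =>
    have h1 := m2_mergeL_ge (symL_mergePow hb hμ j) hμ
    have h0 := m2L_nonneg μ
    have h00 := m2L_nonneg b
    simp only [mergePow]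
    have hc : ((j + 1).choose 2 : ℝ) = j.choose 2 + j := by
      have : (j + 1).choose 2 = j.choose 1 + j.choose 2 := Nat.choose_succ_succ' j 1
      rw [this, Nat.choose_one_right]
      push_cast
      ring
    rw [hc]
    push_cast
    have hc0 : (0 : ℝ) ≤ j.choose 2 := Nat.cast_nonneg _
    have hj0 : (0 : ℝ) ≤ j := Nat.cast_nonneg _
    have h2 : (1 - 2 * m2L μ) * (m2L b + j * m2L μ - 2 * (j * m2L μ * m2L b + (j.choose 2) * m2L μ ^ 2))
        ≤ (1 - 2 * m2L μ) * m2L (mergePow b μ j) :=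
      mul_le_mul_of_nonneg_left ih (by linarith)
    have h3 : 0 ≤ 4 * j * m2L μ ^ 2 * m2L b + 4 * (j.choose 2) * m2L μ ^ 3 := by positivity
    nlinarith

theorem xN_succ_le (hq : 2 ≤ q) (h : CritPar q θ) (ht : 0 ≤ t) (n : ℕ) :
    xN θ t q (n + 1) ≤ 1 - (1 - tauL t) * (1 - θ ^ 2 * xN θ t q n) ^ q := by
  have hθ := h.good
  have hs : SymL (scaleL θ (rhoL θ t q n)) :=
    symL_scale (by rw [abs_of_nonneg hθ.nonneg]; exact hθ.lt_one.le) (symL_rhoL hθ ht q n)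
  have := BoundsXAux.m2_mergePow_le (symL_A0 ht) hs q
  rw [m2_scaleL] at this
  exact this

theorem xN_succ_ge (hq : 2 ≤ q) (h : CritPar q θ) (ht : 0 ≤ t) (n : ℕ) :
    tauL t + q * (θ ^ 2 * xN θ t q n)
        - 2 * (q * (θ ^ 2 * xN θ t q n) * tauL t + (q.choose 2) * (θ ^ 2 * xN θ t q n) ^ 2)
      ≤ xN θ t q (n + 1) := by
  have hθ := h.good
  have hs : SymL (scaleL θ (rhoL θ t q n)) :=
    symL_scale (by rw [abs_of_nonneg hθ.nonneg]; exact hθ.lt_one.le) (symL_rhoL hθ ht q n)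
  have hβ : m2L (scaleL θ (rhoL θ t q n)) ≤ 1 / 2 := by
    rw [m2_scaleL]
    have h1 := xN_le_one (q := q) (n := n) hθ ht
    have h0 : 0 ≤ xN θ t q n := m2L_nonneg _
    have h2 := hθ.sq_le
    have h3 : 0 ≤ θ ^ 2 := sq_nonneg _
    change θ ^ 2 * xN θ t q n ≤ 1 / 2
    nlinarith
  have := BoundsXAux.m2_mergePow_ge (symL_A0 ht) hs hβ q
  rw [m2_scaleL] at this
  exact this

/-- The limit form of the upper recursion. -/
theorem BoundsXAux.xBar_fix_le (hq : 2 ≤ q) (h : CritPar q θ) (ht : 0 ≤ t) :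
    xBar θ t q ≤ 1 - (1 - tauL t) * (1 - θ ^ 2 * xBar θ t q) ^ q := by
  have hlim := tendsto_xN (q := q) h.good ht
  have h1 : Tendsto (fun n => xN θ t q (n + 1)) atTop (𝓝 (xBar θ t q)) :=
    hlim.comp (tendsto_add_atTop_nat 1)
  have h2 : Tendsto (fun n => 1 - (1 - tauL t) * (1 - θ ^ 2 * xN θ t q n) ^ q) atTop
      (𝓝 (1 - (1 - tauL t) * (1 - θ ^ 2 * xBar θ t q) ^ q)) := by
    have hc : Continuous (fun x : ℝ => 1 - (1 - tauL t) * (1 - θ ^ 2 * x) ^ q) := by fun_prop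
    exact hc.continuousAt.tendsto.comp hlim
  exact le_of_tendsto_of_tendsto' h1 h2 (fun n => xN_succ_le hq h ht n)

/-- The limit form of the lower recursion. -/
theorem BoundsXAux.xBar_fix_ge (hq : 2 ≤ q) (h : CritPar q θ) (ht : 0 ≤ t) :
    tauL t + q * (θ ^ 2 * xBar θ t q)
        - 2 * (q * (θ ^ 2 * xBar θ t q) * tauL t + (q.choose 2) * (θ ^ 2 * xBar θ t q) ^ 2)
      ≤ xBar θ t q := by
  have hlim := tendsto_xN (q := q) h.good ht
  have h1 : Tendsto (fun n => xN θ t q (n + 1)) atTop (𝓝 (xBar θ t q)) :=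
    hlim.comp (tendsto_add_atTop_nat 1)
  have h2 : Tendsto (fun n => tauL t + q * (θ ^ 2 * xN θ t q n)
        - 2 * (q * (θ ^ 2 * xN θ t q n) * tauL t + (q.choose 2) * (θ ^ 2 * xN θ t q n) ^ 2)) atTop
      (𝓝 (tauL t + q * (θ ^ 2 * xBar θ t q)
        - 2 * (q * (θ ^ 2 * xBar θ t q) * tauL t + (q.choose 2) * (θ ^ 2 * xBar θ t q) ^ 2))) := by
    have hc : Continuous (fun x : ℝ => tauL t + q * (θ ^ 2 * x)
        - 2 * (q * (θ ^ 2 * x) * tauL t + (q.choose 2) * (θ ^ 2 * x) ^ 2)) := by fun_prop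
    exact hc.continuousAt.tendsto.comp hlim
  exact le_of_tendsto_of_tendsto' h2 h1 (fun n => xN_succ_ge hq h ht n)

theorem BoundsXAux.tauL_nonneg (t : ℝ) : 0 ≤ tauL t := m2L_nonneg _

theorem BoundsXAux.xBar_nonneg (hθ : GoodTheta θ) (ht : 0 ≤ t) : 0 ≤ xBar θ t q :=
  (BoundsXAux.tauL_nonneg t).trans (tauL_le_xBar hθ ht)

/-- `x̄ (γ + 2 τ) + x̄² ≥ τ`. -/
theorem BoundsXAux.xBar_base (hq : 2 ≤ q) (h : CritPar q θ) (ht : 0 ≤ t) :
    tauL t ≤ xBar θ t q * ((1 - q * θ ^ 2) + 2 * tauL t) + xBar θ t q ^ 2 := by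
  have h0 := BoundsXAux.xBar_fix_ge hq h ht
  have hx := BoundsXAux.xBar_nonneg (q := q) h.good ht
  have hτ := BoundsXAux.tauL_nonneg t
  set x := xBar θ t q
  set τ := tauL t
  have hc : ((q.choose 2 : ℕ) : ℝ) = q * (q - 1) / 2 := Nat.cast_choose_two ℝ q
  rw [hc] at h0
  have hη : θ ^ 2 * q ≤ 1 := h.up
  have hη0 : 0 ≤ q * θ ^ 2 := by positivity
  have hq1 : (1 : ℝ) ≤ q := by exact_mod_cast (by omega : 1 ≤ q)
  have hqη : q * θ ^ 2 ≤ 1 := by linarith
  have h1 : q * θ ^ 2 * x * τ ≤ x * τ := by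
    have : 0 ≤ x * τ := mul_nonneg hx hτ
    nlinarith
  have h2 : (q * (q - 1) / 2) * (θ ^ 2 * x) ^ 2 ≤ x ^ 2 / 2 := by
    have h3 : (q * θ ^ 2) ^ 2 ≤ 1 := by nlinarith
    have h4 : 0 ≤ (q : ℝ) * θ ^ 2 * (θ ^ 2) := by positivity
    have h5 : q * (q - 1) * (θ ^ 2) ^ 2 ≤ (q * θ ^ 2) ^ 2 := by nlinarith
    have h6 : (q * (q - 1) / 2) * (θ ^ 2 * x) ^ 2 = (q * (q - 1) * (θ ^ 2) ^ 2) * x ^ 2 / 2 := by ring
    rw [h6]
    have h7 : (q * (q - 1) * (θ ^ 2) ^ 2) * x ^ 2 ≤ 1 * x ^ 2 :=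
      mul_le_mul_of_nonneg_right (h5.trans h3) (sq_nonneg _)
    linarith
  nlinarith

theorem BoundsXAux.one_sub_pow_ge {q : ℕ} (hq : 2 ≤ q) {w : ℝ} (h0 : 0 ≤ w) (h1 : w ≤ 1) :
    1 - q * w + w ^ 2 ≤ (1 - w) ^ q := by
  obtain ⟨r, rfl⟩ : ∃ r, q = r + 2 := ⟨q - 2, by omega⟩
  have hB : 1 - (r + 1 : ℝ) * w ≤ (1 - w) ^ (r + 1) := by
    have := one_add_mul_le_pow (a := -w) (by linarith) (r + 1)
    push_cast at this
    simpa [sub_eq_add_neg, mul_neg] using this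
  have hr : (0 : ℝ) ≤ r := Nat.cast_nonneg r
  have e : (1 - w) ^ (r + 2) = (1 - w) ^ (r + 1) * (1 - w) := pow_succ _ _
  rw [e]
  have h2 : (1 - (r + 1 : ℝ) * w) * (1 - w) ≤ (1 - w) ^ (r + 1) * (1 - w) :=
    mul_le_mul_of_nonneg_right hB (by linarith)
  push_cast
  nlinarith [mul_nonneg hr (sq_nonneg w), sq_nonneg w]

theorem xBar_le_sqrt (hq : 2 ≤ q) : ∃ C : ℝ, 0 < C ∧ ∀ θ t : ℝ, CritPar q θ → 0 ≤ t →
    xBar θ t q ≤ C * Real.sqrt t := by
  have hq0 : (2 : ℝ) ≤ q := by exact_mod_cast hq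
  refine ⟨3 * q, by positivity, ?_⟩
  intro θ t h ht
  have hθ := h.good
  have hx0 := BoundsXAux.xBar_nonneg (q := q) hθ ht
  have hx1 := xBar_le_one (q := q) hθ ht
  have hfix := BoundsXAux.xBar_fix_le hq h ht
  have hτ0 := BoundsXAux.tauL_nonneg t
  have hτ1 := tauL_le ht
  have hsqrt0 := Real.sqrt_nonneg t
  have hss := Real.sq_sqrt ht
  rcases le_or_gt t 2 with ht2 | ht2
  · set x := xBar θ t q with hx_def
    set τ := tauL t with hτ_def
    set w := θ ^ 2 * x with hw_def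
    have hη0 : 0 ≤ θ ^ 2 := sq_nonneg _
    have hη1 := hθ.sq_le
    have hw0 : 0 ≤ w := mul_nonneg hη0 hx0
    have hw1 : w ≤ 1 := by
      have : θ ^ 2 * x ≤ 1 / 2 * 1 := mul_le_mul hη1 hx1 hx0 (by norm_num)
      rw [hw_def]; linarith
    have hP := BoundsXAux.one_sub_pow_ge hq hw0 hw1
    have hτ12 : τ ≤ 1 / 2 := by linarith
    have h1 : (1 - τ) * (1 - q * w + w ^ 2) ≤ (1 - τ) * (1 - w) ^ q :=
      mul_le_mul_of_nonneg_left hP (by linarith)
    have hqw : q * w ≤ x := by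
      have : (θ ^ 2 * q) * x ≤ 1 * x := mul_le_mul_of_nonneg_right h.up hx0
      rw [hw_def]; nlinarith
    have hqw0 : 0 ≤ q * w := by positivity
    have h2 : (1 - τ) * w ^ 2 ≤ τ := by
      have : 0 ≤ τ * (q * w) := mul_nonneg hτ0 hqw0
      nlinarith
    have hw_low : x ≤ 4 * q * w := by
      have : 1 * x ≤ (4 * q * θ ^ 2) * x := mul_le_mul_of_nonneg_right h.low hx0
      rw [hw_def]; nlinarith
    have h3 : w ^ 2 ≤ 2 * τ := by
      have : (1 / 2 : ℝ) * w ^ 2 ≤ (1 - τ) * w ^ 2 :=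
        mul_le_mul_of_nonneg_right (by linarith) (sq_nonneg _)
      linarith
    have h4 : x ^ 2 ≤ (4 * q * w) ^ 2 := pow_le_pow_left₀ hx0 hw_low 2
    have h5 : x ^ 2 ≤ (3 * q * Real.sqrt t) ^ 2 := by
      have e : (3 * (q : ℝ) * Real.sqrt t) ^ 2 = 9 * q ^ 2 * t := by
        rw [mul_pow, hss]; ring
      have e2 : (4 * (q : ℝ) * w) ^ 2 = 16 * q ^ 2 * w ^ 2 := by ring
      rw [e]
      rw [e2] at h4
      have hq2 : (0 : ℝ) ≤ q ^ 2 := sq_nonneg _
      have : q ^ 2 * w ^ 2 ≤ (q : ℝ) ^ 2 * (2 * (t / 4)) :=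
        mul_le_mul_of_nonneg_left (by linarith) hq2
      nlinarith
    exact (pow_le_pow_iff_left₀ hx0 (by positivity) two_ne_zero).1 h5
  · have h1 : 1 ≤ Real.sqrt t := by
      rw [Real.one_le_sqrt]; linarith
    have : 1 * 1 ≤ 3 * (q : ℝ) * Real.sqrt t := by
      have h6 : (1 : ℝ) ≤ 3 * q := by linarith
      exact mul_le_mul h6 h1 (by norm_num) (by positivity)
    linarith

/-- The lower bound in the critical window: if `1 - q θ² ≤ √τ` then `x̄ ≥ √τ / 8`. -/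
theorem xBar_ge (hq : 2 ≤ q) (h : CritPar q θ) (ht : 0 ≤ t) (hγ : 1 - q * θ ^ 2 ≤ Real.sqrt (tauL t)) :
    Real.sqrt (tauL t) / 8 ≤ xBar θ t q := by
  have hbase := BoundsXAux.xBar_base hq h ht
  have hx0 := BoundsXAux.xBar_nonneg (q := q) h.good ht
  have hτ0 := BoundsXAux.tauL_nonneg t
  have hτ1 := tauL_le_one ht
  have hr0 := Real.sqrt_nonneg (tauL t)
  have hrr := Real.sq_sqrt hτ0
  have hr1 : Real.sqrt (tauL t) ≤ 1 := Real.sqrt_le_one.2 hτ1
  by_contra hlt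
  push Not at hlt
  set x := xBar θ t q
  set τ := tauL t
  set r := Real.sqrt τ
  have hr_pos : 0 < r := by linarith
  have hτ_pos : 0 < τ := by rw [← hrr]; positivity
  have h1 : x * (1 - q * θ ^ 2) ≤ r / 8 * r := mul_le_mul hlt.le hγ (by
    have : θ ^ 2 * q ≤ 1 := h.up
    nlinarith) (by positivity)
  have h2 : x * (2 * τ) ≤ r / 8 * (2 * τ) := mul_le_mul_of_nonneg_right hlt.le (by positivity)
  have h3 : r / 8 * (2 * τ) ≤ τ / 4 := by nlinarith
  have h4 : x ^ 2 ≤ (r / 8) ^ 2 := pow_le_pow_left₀ hx0 hlt.le 2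
  nlinarith

/-- The general lower bound. -/
theorem xBar_ge_min (hq : 2 ≤ q) (h : CritPar q θ) (ht : 0 ≤ t) :
    min (min (Real.sqrt (tauL t / 2)) (tauL t / (4 * (1 - q * θ ^ 2)))) (1 / 8) ≤ xBar θ t q := by
  have hbase := BoundsXAux.xBar_base hq h ht
  have hx0 := BoundsXAux.xBar_nonneg (q := q) h.good ht
  have hτ0 := BoundsXAux.tauL_nonneg t
  by_contra hlt
  push Not at hlt
  set x := xBar θ t q
  set τ := tauL t
  have hγ0 : 0 ≤ 1 - q * θ ^ 2 := by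
    have : θ ^ 2 * q ≤ 1 := h.up
    nlinarith
  set γ := 1 - q * θ ^ 2
  have hlt1 : x < Real.sqrt (τ / 2) := lt_of_lt_of_le hlt ((min_le_left _ _).trans (min_le_left _ _))
  have hlt2 : x < τ / (4 * γ) := lt_of_lt_of_le hlt ((min_le_left _ _).trans (min_le_right _ _))
  have hlt3 : x < 1 / 8 := lt_of_lt_of_le hlt (min_le_right _ _)
  have hγ_pos : 0 < γ := by
    rcases hγ0.lt_or_eq with h' | h'
    · exact h'
    · exfalso
      rw [← h'] at hlt2
      simp at hlt2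
      linarith
  have h1 : x ^ 2 < τ / 2 := by
    have := (Real.lt_sqrt hx0).1 hlt1
    exact this
  have h2 : x * γ < τ / 4 := by
    rw [lt_div_iff₀ (by positivity)] at hlt2
    linarith
  have h3 : x * (2 * τ) ≤ τ / 4 := by nlinarith
  nlinarith

end x

end Crest.Agent.IsingFactor
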