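import Crest.Agent.IsingFactor.RealFns

/-!
# IsingFactor.Ode (WP IF-Ode): discrete comparison lemmas (pure real analysis).

`ode_small`: `b_{i+1} ≤ 2 b_i`; `b^{2/p}` concave: `u_{i+1} - u_i ≤ (2/p) b_i^{2/p-1} (b_{i+1} - b_i) ≤ (4/p) h K r_i^{-α}`; `h r_i^{-α} ≤ (r_i^{1-α} - r_{i-1}^{1-α})/(1-α)`.
`ode_large`: `L_i = log(8/b_i)`: `b_{i+1}(1 - u_i) ≤ b_i`, `u_i = h A (1/r_i + 1 + L_{i+1}) ≤ 1/2`, `log(1-u) ≥ -2u`: `L_{i+1} (1 + 2hA) ≥ L_i - 2hA (1/r_i + 1)`; iterate; `h/r_i ≤ log(r_i/r_{i-1})`.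
Statements may be ADDED; do not change the ones below without posting on chat (topic S0241), other packages use them.
-/

set_option autoImplicit false

namespace Crest.Agent.IsingFactor

namespace OdeAux

/-- Tangent line inequality for a concave power. -/
lemma tangent_rpow {x y β : ℝ} (hx : 0 < x) (hy : 0 < y) (h0 : 0 ≤ β) (h1 : β ≤ 1) :
    y ^ β - x ^ β ≤ β * x ^ (β - 1) * (y - x) := by
  have hz : -1 ≤ (y - x) / x := by
    rw [le_div_iff₀ hx]; linarith
  have h := rpow_one_add_le_one_add_mul_self hz h0 h1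
  have e : 1 + (y - x) / x = y / x := by field_simp; ring
  rw [e, Real.div_rpow hy.le hx.le, div_le_iff₀ (Real.rpow_pos_of_pos hx β)] at h
  have e2 : x ^ (β - 1) = x ^ β / x := Real.rpow_sub_one hx.ne' β
  have e3 : (1 + β * ((y - x) / x)) * x ^ β = x ^ β + β * (x ^ β / x) * (y - x) := by
    field_simp
  rw [e2]
  linarith

/-- `h r^{-α}` is at most the increment of `r^{1-α}/(1-α)`. -/
lemma step_le_incr {r r' γ : ℝ} (hr : 0 < r) (hr' : 0 < r') (hγ0 : 0 < γ) (hγ1 : γ ≤ 1) :
    (r' - r) * r' ^ (γ - 1) ≤ (r' ^ γ - r ^ γ) / γ := by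
  have h := tangent_rpow (x := r') (y := r) hr' hr hγ0.le hγ1
  rw [le_div_iff₀ hγ0]
  nlinarith

/-- The sum of the `h r_i^{-α}`. -/
lemma sum_rpow_le {s h γ : ℝ} (hs : 0 < s) (hh : 0 < h) (hγ0 : 0 < γ) (hγ1 : γ ≤ 1) (n : ℕ) :
    ∑ i ∈ Finset.range n, h * (s + i * h) ^ (γ - 1) ≤
      h * s ^ (γ - 1) + (s + n * h) ^ γ / γ := by
  have hpos : ∀ i : ℕ, 0 < s + i * h := fun i => by positivity
  have key : ∀ m : ℕ, ∑ i ∈ Finset.range (m + 1), h * (s + i * h) ^ (γ - 1) ≤
      h * s ^ (γ - 1) + ((s + m * h) ^ γ - s ^ γ) / γ := by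
    intro m
    induction m with
    | zero => simp
    | succ m ih =>
      rw [Finset.sum_range_succ]
      have h2 := step_le_incr (r := s + m * h) (r' := s + (m + 1 : ℕ) * h) (hpos m) (hpos (m + 1))
        hγ0 hγ1
      have e : s + ((m + 1 : ℕ) : ℝ) * h - (s + m * h) = h := by push_cast; ring
      rw [e] at h2
      have e3 : ((s + ((m + 1 : ℕ) : ℝ) * h) ^ γ - s ^ γ) / γ =
          ((s + m * h) ^ γ - s ^ γ) / γ +
            ((s + ((m + 1 : ℕ) : ℝ) * h) ^ γ - (s + m * h) ^ γ) / γ := by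
        field_simp; ring
      rw [e3]
      linarith
  have hnn : ∀ m : ℕ, 0 ≤ (s + m * h) ^ γ / γ := fun m =>
    div_nonneg (Real.rpow_nonneg (hpos m).le _) hγ0.le
  have hmono : (s + (n - 1 : ℕ) * h) ^ γ ≤ (s + n * h) ^ γ := by
    apply Real.rpow_le_rpow (hpos _).le _ hγ0.le
    have : ((n - 1 : ℕ) : ℝ) ≤ n := by exact_mod_cast Nat.sub_le n 1
    nlinarith
  rcases n with _ | m
  · simp only [Finset.range_zero, Finset.sum_empty]
    have h1 : 0 ≤ h * s ^ (γ - 1) := mul_nonneg hh.le (Real.rpow_nonneg hs.le _)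
    have h2 := hnn 0
    linarith
  · have h1 := key m
    have h2 : (s + m * h) ^ γ ≤ (s + (m + 1 : ℕ) * h) ^ γ := by
      apply Real.rpow_le_rpow (hpos _).le _ hγ0.le
      push_cast; nlinarith
    have h3 : 0 ≤ s ^ γ := Real.rpow_nonneg hs.le _
    have h4 : ((s + m * h) ^ γ - s ^ γ) / γ ≤ (s + (m + 1 : ℕ) * h) ^ γ / γ := by
      apply div_le_div_of_nonneg_right _ hγ0.le
      linarith
    linarith

/-- The sum of the `h / r_i`. -/
lemma sum_inv_le {s h : ℝ} (hs : 0 < s) (hh : 0 < h) (n : ℕ) :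
    ∑ i ∈ Finset.range n, h / (s + i * h) ≤ h / s + Real.log ((s + n * h) / s) := by
  have hpos : ∀ i : ℕ, 0 < s + i * h := fun i => by positivity
  have key : ∀ m : ℕ, ∑ i ∈ Finset.range (m + 1), h / (s + i * h) ≤
      h / s + Real.log ((s + m * h) / s) := by
    intro m
    induction m with
    | zero =>
      simp only [Nat.cast_zero, zero_mul, add_zero]
      rw [div_self hs.ne']
      simp
    | succ m ih =>
      rw [Finset.sum_range_succ]
      have hr := hpos m
      have hr' := hpos (m + 1)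
      have h1 : h / (s + ((m + 1 : ℕ) : ℝ) * h) ≤
          Real.log ((s + ((m + 1 : ℕ) : ℝ) * h) / (s + m * h)) := by
        have := Real.one_sub_inv_le_log_of_pos
          (div_pos hr' hr : 0 < (s + ((m + 1 : ℕ) : ℝ) * h) / (s + m * h))
        have e : 1 - ((s + ((m + 1 : ℕ) : ℝ) * h) / (s + m * h))⁻¹ =
            h / (s + ((m + 1 : ℕ) : ℝ) * h) := by
          rw [inv_div]
          field_simp
          push_cast
          ring
        rw [e] at this
        exact this
      have h2 : Real.log ((s + ((m + 1 : ℕ) : ℝ) * h) / s) =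
          Real.log ((s + m * h) / s) +
            Real.log ((s + ((m + 1 : ℕ) : ℝ) * h) / (s + m * h)) := by
        rw [← Real.log_mul (div_pos hr hs).ne' (div_pos hr' hr).ne']
        congr 1
        field_simp
      rw [h2]
      linarith
  have h1plus : ∀ m : ℕ, Real.log ((s + m * h) / s) ≤ Real.log ((s + (m + 1 : ℕ) * h) / s) := by
    intro m
    apply Real.log_le_log (div_pos (hpos m) hs)
    apply div_le_div_of_nonneg_right _ hs.le
    push_cast; nlinarith
  rcases n with _ | m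
  · simp only [Finset.range_zero, Finset.sum_empty, Nat.cast_zero, zero_mul, add_zero]
    rw [div_self hs.ne', Real.log_one]
    positivity
  · have := key m
    have := h1plus m
    linarith

end OdeAux

open OdeAux in
/-- Discrete comparison, small times. -/
theorem ode_small {p : ℕ} (hp : 3 ≤ p) {K s h : ℝ} (hK : 0 < K) (hs : 0 < s) (hh : 0 < h) (N : ℕ)
    (b : ℕ → ℝ) (hb : ∀ i, 0 < b i) (hmono : ∀ i < N, b i ≤ b (i + 1))
    (hstep : ∀ i < N, b (i + 1) - b i ≤
      h * K * (s + i * h) ^ (-(1 / 2 + 1 / (p : ℝ))) * b (i + 1) ^ (1 - 2 / (p : ℝ)))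
    (hsmall : h * K * s ^ (-(1 / 2 + 1 / (p : ℝ))) * b 0 ^ (-(2 / (p : ℝ))) ≤ 1 / 2) :
    b N ^ (2 / (p : ℝ)) ≤ b 0 ^ (2 / (p : ℝ)) + (4 / (p : ℝ)) * K *
      (h * s ^ (-(1 / 2 + 1 / (p : ℝ))) + (s + N * h) ^ (1 / 2 - 1 / (p : ℝ)) / (1 / 2 - 1 / (p : ℝ))) := by
  have hp3 : (3 : ℝ) ≤ p := by exact_mod_cast hp
  have hp0 : (0 : ℝ) < p := by linarith
  set β : ℝ := 2 / (p : ℝ) with hβ
  set α : ℝ := 1 / 2 + 1 / (p : ℝ) with hα
  set γ : ℝ := 1 / 2 - 1 / (p : ℝ) with hγ
  have h1p : 1 / (p : ℝ) ≤ 1 / 3 := by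
    rw [div_le_div_iff₀ hp0 (by norm_num)]; linarith
  have h1p0 : 0 < 1 / (p : ℝ) := by positivity
  have hβe : β = 2 * (1 / (p : ℝ)) := by rw [hβ]; ring
  have hβ0 : 0 < β := by rw [hβe]; linarith
  have hβ1 : β ≤ 1 := by rw [hβe]; linarith
  have hγ0 : 0 < γ := by rw [hγ]; linarith
  have hγ1 : γ ≤ 1 := by rw [hγ]; linarith
  have hαγ : -α = γ - 1 := by rw [hα, hγ]; ring
  have hpos : ∀ i : ℕ, 0 < s + i * h := fun i => by positivity
  -- monotone from `b 0`
  have hb0 : ∀ i ≤ N, b 0 ≤ b i := by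
    intro i
    induction i with
    | zero => intro _; exact le_rfl
    | succ i ih =>
      intro hi
      exact (ih (by omega)).trans (hmono i (by omega))
  -- the increment of `b^β`
  have hinc : ∀ i < N, b (i + 1) ^ β - b i ^ β ≤ (4 / (p : ℝ)) * K *
      (h * (s + i * h) ^ (γ - 1)) := by
    intro i hi
    have hbi := hb i
    have hbi1 := hb (i + 1)
    have hri := hpos i
    -- `b (i+1) ≤ 2 b i`
    have hr_le : (s + i * h) ^ (-α) ≤ s ^ (-α) := by
      apply Real.rpow_le_rpow_of_nonpos hs _ (by rw [hαγ]; linarith)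
      have : (0 : ℝ) ≤ i * h := by positivity
      linarith
    have hb_le : b (i + 1) ^ (-β) ≤ b 0 ^ (-β) :=
      Real.rpow_le_rpow_of_nonpos (hb 0) (hb0 (i + 1) (by omega)) (by linarith)
    have hrα : 0 < (s + i * h) ^ (-α) := Real.rpow_pos_of_pos hri _
    have hsα : 0 < s ^ (-α) := Real.rpow_pos_of_pos hs _
    have hb0β : 0 < b 0 ^ (-β) := Real.rpow_pos_of_pos (hb 0) _
    have hbβ : 0 < b (i + 1) ^ (-β) := Real.rpow_pos_of_pos hbi1 _
    have hHK : 0 < h * K := mul_pos hh hK
    have hsmall' : h * K * (s + i * h) ^ (-α) * b (i + 1) ^ (-β) ≤ 1 / 2 := by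
      refine le_trans ?_ hsmall
      have : (s + i * h) ^ (-α) * b (i + 1) ^ (-β) ≤ s ^ (-α) * b 0 ^ (-β) :=
        mul_le_mul hr_le hb_le hbβ.le hsα.le
      calc h * K * (s + i * h) ^ (-α) * b (i + 1) ^ (-β)
          = h * K * ((s + i * h) ^ (-α) * b (i + 1) ^ (-β)) := by ring
        _ ≤ h * K * (s ^ (-α) * b 0 ^ (-β)) := mul_le_mul_of_nonneg_left this hHK.le
        _ = h * K * s ^ (-α) * b 0 ^ (-β) := by ring
    have hst := hstep i hi
    have e1 : b (i + 1) ^ (1 - β) = b (i + 1) * b (i + 1) ^ (-β) := by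
      rw [sub_eq_add_neg, Real.rpow_add hbi1, Real.rpow_one]
    rw [e1] at hst
    have hdbl : b (i + 1) ≤ 2 * b i := by
      have : h * K * (s + i * h) ^ (-α) * (b (i + 1) * b (i + 1) ^ (-β)) =
          (h * K * (s + i * h) ^ (-α) * b (i + 1) ^ (-β)) * b (i + 1) := by ring
      rw [this] at hst
      nlinarith
    -- tangent line
    have ht := tangent_rpow hbi hbi1 hβ0.le hβ1
    -- `b (i+1)^(1-β) ≤ 2 * b i ^ (1-β)`
    have h1β0 : 0 ≤ 1 - β := by linarith
    have h1β1 : 1 - β ≤ 1 := by linarith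
    have hpow : b (i + 1) ^ (1 - β) ≤ 2 * b i ^ (1 - β) := by
      calc b (i + 1) ^ (1 - β) ≤ (2 * b i) ^ (1 - β) :=
            Real.rpow_le_rpow hbi1.le hdbl h1β0
        _ = 2 ^ (1 - β) * b i ^ (1 - β) := Real.mul_rpow (by norm_num) hbi.le
        _ ≤ 2 * b i ^ (1 - β) := by
            apply mul_le_mul_of_nonneg_right _ (Real.rpow_nonneg hbi.le _)
            calc (2 : ℝ) ^ (1 - β) ≤ 2 ^ (1 : ℝ) :=
                  Real.rpow_le_rpow_of_exponent_le (by norm_num) h1β1
              _ = 2 := Real.rpow_one 2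
    have hst2 : b (i + 1) - b i ≤ h * K * (s + i * h) ^ (-α) * (2 * b i ^ (1 - β)) := by
      have hst' := hstep i hi
      have hc : 0 ≤ h * K * (s + i * h) ^ (-α) := by positivity
      exact hst'.trans (mul_le_mul_of_nonneg_left hpow hc)
    have hβpow : 0 < b i ^ (β - 1) := Real.rpow_pos_of_pos hbi _
    have hprod : b i ^ (β - 1) * b i ^ (1 - β) = 1 := by
      rw [← Real.rpow_add hbi]
      simp
    have hmul : β * b i ^ (β - 1) * (b (i + 1) - b i) ≤
        β * b i ^ (β - 1) * (h * K * (s + i * h) ^ (-α) * (2 * b i ^ (1 - β))) :=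
      mul_le_mul_of_nonneg_left hst2 (by positivity)
    have e2 : β * b i ^ (β - 1) * (h * K * (s + i * h) ^ (-α) * (2 * b i ^ (1 - β))) =
        2 * β * K * (h * (s + i * h) ^ (-α)) * (b i ^ (β - 1) * b i ^ (1 - β)) := by ring
    rw [e2, hprod, mul_one] at hmul
    have e3 : (4 / (p : ℝ)) = 2 * β := by rw [hβe]; ring
    rw [e3, ← hαγ]
    linarith
  -- telescoping
  have htel : b N ^ β - b 0 ^ β ≤ ∑ i ∈ Finset.range N, (4 / (p : ℝ)) * K *
      (h * (s + i * h) ^ (γ - 1)) := by
    have : b N ^ β - b 0 ^ β = ∑ i ∈ Finset.range N, (b (i + 1) ^ β - b i ^ β) :=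
      (Finset.sum_range_sub (fun i => b i ^ β) N).symm
    rw [this]
    exact Finset.sum_le_sum fun i hi => hinc i (Finset.mem_range.1 hi)
  rw [← Finset.mul_sum] at htel
  have hsum := sum_rpow_le hs hh hγ0 hγ1 N
  have hc : 0 ≤ (4 / (p : ℝ)) * K := by positivity
  have hfin := mul_le_mul_of_nonneg_left hsum hc
  rw [hαγ]
  linarith

open OdeAux in
/-- Discrete comparison, all times. NOTE: `hsmall` is stated at `b 0` (the smallest `b`); with
`b N` the statement is false (see chat S0241, helper39). -/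
theorem ode_large {A s h : ℝ} (hA : 0 < A) (hs : 0 < s) (hh : 0 < h) (N : ℕ) (b : ℕ → ℝ)
    (hb : ∀ i ≤ N, 0 < b i ∧ b i ≤ 8) (hmono : ∀ i < N, b i ≤ b (i + 1))
    (hstep : ∀ i < N, b (i + 1) - b i ≤
      h * A * (1 / (s + i * h) + 1 + Real.log (8 / b (i + 1))) * b (i + 1))
    (hsmall : h * A * (1 / s + 1 + Real.log (8 / b 0)) ≤ 1 / 2) :
    Real.exp (-(2 * A * N * h)) * Real.log (8 / b 0)
        - 2 * A * (h / s + Real.log ((s + N * h) / s) + N * h) ≤ Real.log (8 / b N) := by
  have hpos : ∀ i : ℕ, 0 < s + i * h := fun i => by positivity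
  have hhA : 0 < h * A := mul_pos hh hA
  -- `L` is nonneg and nonincreasing
  have hL0 : ∀ i ≤ N, 0 ≤ Real.log (8 / b i) := by
    intro i hi
    obtain ⟨h1, h2⟩ := hb i hi
    apply Real.log_nonneg
    rw [le_div_iff₀ h1]; linarith
  have hb0 : ∀ i ≤ N, b 0 ≤ b i := by
    intro i
    induction i with
    | zero => intro _; exact le_rfl
    | succ i ih =>
      intro hi
      exact (ih (by omega)).trans (hmono i (by omega))
  have hLle : ∀ i ≤ N, Real.log (8 / b i) ≤ Real.log (8 / b 0) := by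
    intro i hi
    have h0 := (hb 0 (by omega)).1
    have h1 := (hb i hi).1
    apply Real.log_le_log (by positivity)
    exact div_le_div_of_nonneg_left (by norm_num) h0 (hb0 i hi)
  -- one step
  have hone : ∀ i < N, Real.exp (-(2 * h * A)) * Real.log (8 / b i)
      - 2 * (h * A) * (1 / (s + i * h) + 1) ≤ Real.log (8 / b (i + 1)) := by
    intro i hi
    obtain ⟨hbi, _⟩ := hb i (by omega)
    obtain ⟨hbi1, _⟩ := hb (i + 1) (by omega)
    have hri := hpos i
    set L' := Real.log (8 / b (i + 1)) with hL'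
    have hL'0 : 0 ≤ L' := hL0 (i + 1) (by omega)
    set u := h * A * (1 / (s + i * h) + 1 + L') with hu
    have hu0 : 0 ≤ u := by positivity
    have hu12 : u ≤ 1 / 2 := by
      refine le_trans ?_ hsmall
      rw [hu]
      apply mul_le_mul_of_nonneg_left _ hhA.le
      have h1 : 1 / (s + i * h) ≤ 1 / s := by
        apply one_div_le_one_div_of_le hs
        have : (0 : ℝ) ≤ i * h := by positivity
        linarith
      have h2 := hLle (i + 1) (by omega)
      linarith
    have hst := hstep i hi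
    have hle : b (i + 1) * (1 - u) ≤ b i := by
      have : h * A * (1 / (s + i * h) + 1 + L') * b (i + 1) = u * b (i + 1) := by rw [hu]
      rw [this] at hst
      linarith
    have h1u : 0 < 1 - u := by linarith
    -- logs
    have hlog : Real.log (8 / b i) ≤ L' + 2 * u := by
      have h1 : Real.log (b (i + 1) * (1 - u)) ≤ Real.log (b i) :=
        Real.log_le_log (mul_pos hbi1 h1u) hle
      rw [Real.log_mul hbi1.ne' h1u.ne'] at h1
      have h2 : -(2 * u) ≤ Real.log (1 - u) := by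
        -- `log x ≥ 1 - 1/x`
        have h3 := Real.one_sub_inv_le_log_of_pos h1u
        have h4 : -(2 * u) ≤ 1 - (1 - u)⁻¹ := by
          have : (1 - u)⁻¹ ≤ 1 + 2 * u := by
            rw [inv_le_iff_one_le_mul₀ h1u]
            nlinarith
          linarith
        linarith
      rw [hL', Real.log_div (by norm_num) hbi.ne', Real.log_div (by norm_num) hbi1.ne']
      linarith
    set κ := 1 + 2 * (h * A) with hκ
    have hκ0 : 0 < κ := by positivity
    have hexp : Real.exp (-(2 * h * A)) * κ ≤ 1 := by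
      have h1 : κ ≤ Real.exp (2 * h * A) := by
        have := Real.add_one_le_exp (2 * h * A)
        rw [hκ]; linarith
      calc Real.exp (-(2 * h * A)) * κ ≤ Real.exp (-(2 * h * A)) * Real.exp (2 * h * A) :=
            mul_le_mul_of_nonneg_left h1 (Real.exp_pos _).le
        _ = 1 := by rw [← Real.exp_add]; simp
    have hE0 : 0 < Real.exp (-(2 * h * A)) := Real.exp_pos _
    have hE1 : Real.exp (-(2 * h * A)) ≤ 1 := by
      apply Real.exp_le_one_iff.2
      have : 0 < h * A := hhA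
      nlinarith
    -- `L_i ≤ κ L' + X`
    set X := 2 * (h * A) * (1 / (s + i * h) + 1) with hX
    have hX0 : 0 ≤ X := by positivity
    have h5 : Real.log (8 / b i) ≤ κ * L' + X := by
      have : 2 * u = 2 * (h * A) * L' + X := by rw [hu, hX]; ring
      rw [hκ]
      linarith
    have h6 : Real.exp (-(2 * h * A)) * Real.log (8 / b i) ≤
        Real.exp (-(2 * h * A)) * (κ * L' + X) := mul_le_mul_of_nonneg_left h5 hE0.le
    have h7 : Real.exp (-(2 * h * A)) * (κ * L' + X) =
        (Real.exp (-(2 * h * A)) * κ) * L' + Real.exp (-(2 * h * A)) * X := by ring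
    have h8 : (Real.exp (-(2 * h * A)) * κ) * L' ≤ 1 * L' :=
      mul_le_mul_of_nonneg_right hexp hL'0
    have h9 : Real.exp (-(2 * h * A)) * X ≤ 1 * X := mul_le_mul_of_nonneg_right hE1 hX0
    linarith
  -- iterate
  have hiter : ∀ n ≤ N, Real.exp (-(2 * A * n * h)) * Real.log (8 / b 0)
      - ∑ i ∈ Finset.range n, 2 * (h * A) * (1 / (s + i * h) + 1) ≤ Real.log (8 / b n) := by
    intro n
    induction n with
    | zero =>
      intro _
      simp
    | succ n ih =>
      intro hn
      have h1 := ih (by omega)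
      have h2 := hone n (by omega)
      rw [Finset.sum_range_succ]
      have hE0 : 0 < Real.exp (-(2 * h * A)) := Real.exp_pos _
      have hE1 : Real.exp (-(2 * h * A)) ≤ 1 := by
        apply Real.exp_le_one_iff.2
        have : 0 < h * A := hhA
        nlinarith
      have h3 := mul_le_mul_of_nonneg_left h1 hE0.le
      have hS : 0 ≤ ∑ i ∈ Finset.range n, 2 * (h * A) * (1 / (s + i * h) + 1) :=
        Finset.sum_nonneg fun i _ => by
          have := hpos i
          positivity
      have e : Real.exp (-(2 * A * ((n + 1 : ℕ) : ℝ) * h)) =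
          Real.exp (-(2 * h * A)) * Real.exp (-(2 * A * n * h)) := by
        rw [← Real.exp_add]
        congr 1
        push_cast
        ring
      rw [e]
      have h4 : Real.exp (-(2 * h * A)) *
          (Real.exp (-(2 * A * n * h)) * Real.log (8 / b 0)
            - ∑ i ∈ Finset.range n, 2 * (h * A) * (1 / (s + i * h) + 1)) =
          Real.exp (-(2 * h * A)) * Real.exp (-(2 * A * n * h)) * Real.log (8 / b 0)
            - Real.exp (-(2 * h * A)) *
              ∑ i ∈ Finset.range n, 2 * (h * A) * (1 / (s + i * h) + 1) := by ring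
      rw [h4] at h3
      have h5 : Real.exp (-(2 * h * A)) *
          ∑ i ∈ Finset.range n, 2 * (h * A) * (1 / (s + i * h) + 1) ≤
          1 * ∑ i ∈ Finset.range n, 2 * (h * A) * (1 / (s + i * h) + 1) :=
        mul_le_mul_of_nonneg_right hE1 hS
      linarith
  have hfin := hiter N le_rfl
  have hsum : ∑ i ∈ Finset.range N, 2 * (h * A) * (1 / (s + i * h) + 1) ≤
      2 * A * (h / s + Real.log ((s + N * h) / s) + N * h) := by
    have e : ∑ i ∈ Finset.range N, 2 * (h * A) * (1 / (s + i * h) + 1) =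
        2 * A * (∑ i ∈ Finset.range N, h / (s + i * h) + N * h) := by
      have : ∀ i ∈ Finset.range N, 2 * (h * A) * (1 / (s + (i : ℝ) * h) + 1) =
          2 * A * (h / (s + i * h)) + 2 * A * h := by
        intro i _
        have := hpos i
        field_simp
      rw [Finset.sum_congr rfl this, Finset.sum_add_distrib, ← Finset.mul_sum]
      simp
      ring
    rw [e]
    have := sum_inv_le hs hh N
    have hA2 : 0 < 2 * A := by positivity
    apply mul_le_mul_of_nonneg_left _ hA2.le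
    linarith
  linarith

end Crest.Agent.IsingFactor
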