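import Crest.Agent.IsingFactor.Tempered
import Crest.Agent.IsingFactor.Ode

/-!
# IsingFactor.ClosureMain (WP IF-ClosureSmall for `small_time_bound`, WP IF-ClosureBig for `critical_cauchy`, in two files if you like).

# IsingFactor.Closure : the closure of the inequalities: `θ ↦ M^θ` is Cauchy at the critical point (WP: Ode, Closure).

Notation: `a(r) = E (M¹_r,v - M²_r,v)²` for two solutions with `θ_i ∈ [θ₀, θ_c)`, `Δ² = (|θ₁-θ_c| + |θ₂-θ_c|)²`.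
`a` is nondecreasing (`pair_mono`), `a(t) ≤ a(s) + (π²/32)(t-s) sup_{[s,t]} H` (`pair_ineq`).

STAGE 1 (small times).  Fix `p ≥ 3`, `(K,c,t₁)` from `tempered_bound`.  Grid `r_i = s₀ + i h`; `b̃_i = a(r_i) + Δ² + δ' + ∑_{i≤j<N} h F_j`
(tail sum of the forcing `F_j` on `[r_j, r_{j+1}]`), `b_i = max_{l≤i} b̃_l`.  `ode_small` gives `b_N^{2/p} ≤ b_0^{2/p} + C_p (r_N)^{1/2 - 1/p} + small`, where
`b_0 ≤ C √s₀ + Δ² + δ' + ∑ h F_j` (`E M² ≤ c x̄ ≤ C √s₀` by `sq_mrg_le`, `alg`).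
The forcing sum: `|psiBar θ₁ r - psiBar θ₂ r| ≤ psiTop(r_{j+1}) - psiBar θ₀ r_j` on `[r_j, r_{j+1}]` where `psiTop r = sup_{θ<θ_c} psiBar θ r`, so
`∑_j h sup|…| ≤ h * 2 + ∑_j h (psiTop r_j - psiBar θ₀ r_j)`: first `h` small, then `θ₀ → θ_c` at the finitely many `r_j`.  The term
`K e^{-c/√r}` contributes at most `t e^{-c/√t} ≤ C_N t^N`.  Result: for every `N` there are `C_N, t_N`: for `t ≤ t_N` dyadic and every `ε`:
`a(t) ≤ C_N t^N + ε` if `θ₀` is close enough to `θ_c`.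

STAGE 2 (all times).  `coherent_bound` with `x̄_i ≥ √τ(r)/8` (`xBar_ge`, valid when `1 - qθ_i² ≤ √τ(t₁)`), `τ(r) ≥ r/8` for `r ≤ 1/2`, `τ(r) ≥ 1/16` after, gives for `r ≥ t₁`:
`H(r) ≤ C₁(1/r + 1 + log(8/b)) b + C₂ Δ² τ(t₁)^{-3/2}`, for any `b ≥ a(r) + Δ²`.
Set `b(r) = a(r) + Δ² + ε₁`.  `ode_large` on a fine grid gives
`log(8/b(T)) ≥ e^{-2AT} log(8/b(t₁)) - 2A (…)`.
-/

set_option autoImplicit false

open MeasureTheory ProbabilityTheory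
open Crest.Agent.SRFactor Crest.ProbabilityR.Labels

namespace Crest.Agent.IsingFactor

namespace ClosureAux

/-! ### The critical parameter -/

theorem thetaC_pos {q : ℕ} (hq : 2 ≤ q) : 0 < thetaC q := by
  unfold thetaC
  have : (0 : ℝ) < q := by exact_mod_cast (by omega : 0 < q)
  positivity

theorem thetaC_sq {q : ℕ} (hq : 2 ≤ q) : thetaC q ^ 2 * q = 1 := by
  unfold thetaC
  have h0 : (0 : ℝ) < q := by exact_mod_cast (by omega : 0 < q)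
  rw [inv_pow, Real.sq_sqrt h0.le]
  field_simp

theorem critPar_of {q : ℕ} (hq : 2 ≤ q) {θ : ℝ} (h0 : thetaC q / 2 ≤ θ) (h1 : θ < thetaC q) :
    CritPar q θ := by
  have hc := thetaC_pos hq
  have hs := thetaC_sq hq
  have hq' : (2 : ℝ) ≤ q := by exact_mod_cast hq
  have hθ0 : 0 ≤ θ := by linarith
  have h2 : θ ^ 2 ≤ thetaC q ^ 2 := by gcongr
  refine ⟨⟨hθ0, ?_⟩, ?_, ?_⟩
  · nlinarith [sq_nonneg (thetaC q)]
  · nlinarith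
  · have h3 : (thetaC q / 2) ^ 2 ≤ θ ^ 2 := by gcongr
    nlinarith

theorem sq_mul_lt {q : ℕ} (hq : 2 ≤ q) {θ : ℝ} (h0 : 0 ≤ θ) (h1 : θ < thetaC q) : θ ^ 2 * q < 1 := by
  have hs := thetaC_sq hq
  have h2 : θ ^ 2 < thetaC q ^ 2 := by gcongr
  have hq0 : (0 : ℝ) < q := by exact_mod_cast (by omega : 0 < q)
  nlinarith

theorem one_sub_le {q : ℕ} (hq : 2 ≤ q) {θ d : ℝ} (h0 : 0 ≤ θ) (h1 : θ < thetaC q)
    (hd : thetaC q - d ≤ θ) : 1 - q * θ ^ 2 ≤ 2 * q * thetaC q * d := by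
  have hs := thetaC_sq hq
  have hq0 : (0 : ℝ) ≤ q := by positivity
  have hc := thetaC_pos hq
  have hd0 : 0 ≤ d := by linarith
  have h2 : (thetaC q - θ) * (thetaC q + θ) ≤ d * (2 * thetaC q) :=
    mul_le_mul (by linarith) (by linarith) (by linarith) hd0
  nlinarith [mul_le_mul_of_nonneg_left h2 hq0]

/-! ### Running maximum -/

/-- The running maximum of a sequence. -/
noncomputable def runMax (f : ℕ → ℝ) : ℕ → ℝ
  | 0 => f 0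
  | i + 1 => max (runMax f i) (f (i + 1))

theorem le_runMax (f : ℕ → ℝ) (i : ℕ) : f i ≤ runMax f i := by
  cases i with
  | zero => exact le_rfl
  | succ i => exact le_max_right _ _

theorem runMax_mono (f : ℕ → ℝ) (i : ℕ) : runMax f i ≤ runMax f (i + 1) := le_max_left _ _

theorem runMax_le (f : ℕ → ℝ) {M : ℝ} (hM : ∀ i, f i ≤ M) (i : ℕ) : runMax f i ≤ M := by
  induction i with
  | zero => exact hM 0
  | succ i ih => exact max_le ih (hM _)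

theorem runMax_ge_zero (f : ℕ → ℝ) (i : ℕ) : f 0 ≤ runMax f i := by
  induction i with
  | zero => exact le_rfl
  | succ i ih => exact ih.trans (runMax_mono f i)

/-! ### Stage 1: the real analysis -/

/-- The pure real form of stage 1: discrete comparison with the forcing in a tail sum. -/
theorem stage1_real {p : ℕ} (hp : 3 ≤ p) {K s h D2 δ' : ℝ} (hK : 0 < K) (hs : 0 < s) (hh : 0 < h)
    (Ng : ℕ) (a F : ℕ → ℝ) (ha0 : ∀ i, 0 ≤ a i) (ha4 : ∀ i, a i ≤ 4)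
    (hF : ∀ i, 0 ≤ F i) (hD : 0 ≤ D2) (hδ : 0 < δ')
    (hT : D2 + δ' + ∑ j ∈ Finset.range Ng, h * F j ≤ 4)
    (hstep : ∀ i < Ng, ∀ β : ℝ, 0 < β → β ≤ 8 → a (i + 1) + D2 ≤ β →
      a (i + 1) ≤ a i + h * K * (s + i * h) ^ (-(1 / 2 + 1 / (p : ℝ))) * β ^ (1 - 2 / (p : ℝ)) + h * F i)
    (hsmall : h * K * s ^ (-(1 / 2 + 1 / (p : ℝ))) * δ' ^ (-(2 / (p : ℝ))) ≤ 1 / 2) :
    a Ng ^ (2 / (p : ℝ)) ≤
      (a 0 + D2 + δ' + ∑ j ∈ Finset.range Ng, h * F j) ^ (2 / (p : ℝ)) + (4 / (p : ℝ)) * K *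
        (h * s ^ (-(1 / 2 + 1 / (p : ℝ))) + (s + Ng * h) ^ (1 / 2 - 1 / (p : ℝ)) / (1 / 2 - 1 / (p : ℝ))) := by
  have hp0 : (0 : ℝ) < p := by exact_mod_cast (by omega : 0 < p)
  have hu : 0 ≤ 2 / (p : ℝ) := by positivity
  set bt : ℕ → ℝ := fun l => a l + D2 + δ' + ∑ j ∈ Finset.Ico l Ng, h * F j with hbt
  set b : ℕ → ℝ := runMax bt with hb_def
  have hterm : ∀ j, 0 ≤ h * F j := fun j => mul_nonneg hh.le (hF j)
  have htail_nn : ∀ l, 0 ≤ ∑ j ∈ Finset.Ico l Ng, h * F j :=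
    fun l => Finset.sum_nonneg fun j _ => hterm j
  have htail_le : ∀ l, ∑ j ∈ Finset.Ico l Ng, h * F j ≤ ∑ j ∈ Finset.range Ng, h * F j := by
    intro l
    refine Finset.sum_le_sum_of_subset_of_nonneg ?_ (fun j _ _ => hterm j)
    intro j hj
    simp only [Finset.mem_Ico, Finset.mem_range] at hj ⊢
    exact hj.2
  have hbt_pos : ∀ l, δ' ≤ bt l := by
    intro l
    simp only [hbt]
    linarith [ha0 l, htail_nn l]
  have hbt_le : ∀ l, bt l ≤ 8 := by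
    intro l
    simp only [hbt]
    linarith [ha4 l, htail_le l]
  have hb_ge : ∀ i, bt i ≤ b i := le_runMax bt
  have hb_pos : ∀ i, 0 < b i := fun i => lt_of_lt_of_le hδ ((hbt_pos i).trans (hb_ge i))
  have hb_le : ∀ i, b i ≤ 8 := runMax_le bt hbt_le
  have hb_mono : ∀ i < Ng, b i ≤ b (i + 1) := fun i _ => runMax_mono bt i
  have hb0 : b 0 = a 0 + D2 + δ' + ∑ j ∈ Finset.range Ng, h * F j := by
    simp only [hb_def, runMax, hbt]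
    rw [Finset.range_eq_Ico]
  have hstepb : ∀ i < Ng, b (i + 1) - b i ≤
      h * K * (s + i * h) ^ (-(1 / 2 + 1 / (p : ℝ))) * b (i + 1) ^ (1 - 2 / (p : ℝ)) := by
    intro i hi
    have hRHS : 0 ≤ h * K * (s + i * h) ^ (-(1 / 2 + 1 / (p : ℝ))) * b (i + 1) ^ (1 - 2 / (p : ℝ)) := by
      have h1 : 0 ≤ s + i * h := by positivity
      have h2 := Real.rpow_nonneg h1 (-(1 / 2 + 1 / (p : ℝ)))
      have h3 := Real.rpow_nonneg (hb_pos (i + 1)).le (1 - 2 / (p : ℝ))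
      positivity
    by_cases hc : bt (i + 1) ≤ b i
    · have hbeq : b (i + 1) = b i := max_eq_left hc
      have h0 : b (i + 1) - b i = 0 := by rw [hbeq]; ring
      rw [h0]
      exact hRHS
    · push Not at hc
      have hb1 : b (i + 1) = bt (i + 1) := max_eq_right hc.le
      have hge : bt i ≤ b i := hb_ge i
      have hsum : ∑ j ∈ Finset.Ico i Ng, h * F j = h * F i + ∑ j ∈ Finset.Ico (i + 1) Ng, h * F j :=
        Finset.sum_eq_sum_Ico_succ_bot hi _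
      have hkey := hstep i hi (b (i + 1)) (hb_pos _) (hb_le _) (by
        have := hb_ge (i + 1)
        simp only [hbt] at this
        linarith [htail_nn (i + 1)])
      have hbt1 : bt (i + 1) - bt i = a (i + 1) - a i - h * F i := by
        simp only [hbt]
        rw [hsum]
        ring
      have : b (i + 1) - b i ≤ bt (i + 1) - bt i := by rw [hb1]; linarith
      linarith
  have hsm : h * K * s ^ (-(1 / 2 + 1 / (p : ℝ))) * b 0 ^ (-(2 / (p : ℝ))) ≤ 1 / 2 := by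
    refine le_trans ?_ hsmall
    have h1 : b 0 ^ (-(2 / (p : ℝ))) ≤ δ' ^ (-(2 / (p : ℝ))) :=
      Real.rpow_le_rpow_of_nonpos hδ ((hbt_pos 0).trans (hb_ge 0)) (by linarith)
    have h2 := Real.rpow_nonneg hs.le (-(1 / 2 + 1 / (p : ℝ)))
    gcongr
  have hode := ode_small hp hK hs hh Ng b hb_pos hb_mono hstepb hsm
  rw [hb0] at hode
  refine le_trans ?_ hode
  refine Real.rpow_le_rpow (ha0 Ng) ?_ hu
  refine le_trans ?_ (hb_ge Ng)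
  simp only [hbt]
  linarith [htail_nn Ng]

/-- `(x + y + z)^w ≤ 3^w (x^w + y^w + z^w)`. -/
theorem add3_pow_le {x y z : ℝ} (hx : 0 ≤ x) (hy : 0 ≤ y) (hz : 0 ≤ z) (w : ℕ) :
    (x + y + z) ^ w ≤ 3 ^ w * (x ^ w + y ^ w + z ^ w) := by
  have hx' := pow_nonneg hx w
  have hy' := pow_nonneg hy w
  have hz' := pow_nonneg hz w
  obtain ⟨m, hm0, hxm, hym, hzm, hmw⟩ : ∃ m : ℝ, 0 ≤ m ∧ x ≤ m ∧ y ≤ m ∧ z ≤ m ∧
      m ^ w ≤ x ^ w + y ^ w + z ^ w := by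
    rcases le_total x y with h1 | h1
    · rcases le_total y z with h2 | h2
      · exact ⟨z, hz, h1.trans h2, h2, le_rfl, by linarith⟩
      · exact ⟨y, hy, h1, le_rfl, h2, by linarith⟩
    · rcases le_total x z with h2 | h2
      · exact ⟨z, hz, h2, h1.trans h2, le_rfl, by linarith⟩
      · exact ⟨x, hx, le_rfl, h1, h2, by linarith⟩
  calc (x + y + z) ^ w ≤ (3 * m) ^ w := by
        apply pow_le_pow_left₀ (by positivity)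
        linarith
    _ = 3 ^ w * m ^ w := by rw [mul_pow]
    _ ≤ 3 ^ w * (x ^ w + y ^ w + z ^ w) := by gcongr

/-- Exponential smallness at small times. -/
theorem exp_neg_le {c t : ℝ} (hc : 0 < c) (ht : 0 < t) (Nn : ℕ) :
    Real.exp (-(c / Real.sqrt t)) ≤ ((2 * Nn).factorial : ℝ) / c ^ (2 * Nn) * t ^ Nn := by
  have hst : 0 < Real.sqrt t := Real.sqrt_pos.2 ht
  have hx : 0 < c / Real.sqrt t := div_pos hc hst
  have h1 := Real.pow_div_factorial_le_exp (x := c / Real.sqrt t) hx.le (2 * Nn)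
  have hf : (0 : ℝ) < ((2 * Nn).factorial : ℝ) := by exact_mod_cast Nat.factorial_pos _
  have hsq : Real.sqrt t ^ (2 * Nn) = t ^ Nn := by
    rw [pow_mul, Real.sq_sqrt ht.le]
  rw [Real.exp_neg, inv_eq_one_div, div_le_iff₀ (Real.exp_pos _)]
  have h2 : ((2 * Nn).factorial : ℝ) / c ^ (2 * Nn) * t ^ Nn *
      ((c / Real.sqrt t) ^ (2 * Nn) / ((2 * Nn).factorial : ℝ)) = 1 := by
    rw [div_pow, hsq]
    have : t ^ Nn ≠ 0 := by positivity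
    field_simp
  rw [← h2]
  gcongr

/-- `1/τ(ρ) ≤ 8/ρ + 16`. -/
theorem inv_tauL_le {ρ : ℝ} (hρ : 0 < ρ) : 1 / tauL ρ ≤ 8 / ρ + 16 := by
  by_cases h : ρ ≤ 1 / 2
  · have h1 := tauL_ge hρ.le h
    have h2 : 0 < ρ / 8 := by positivity
    have h3 : 1 / tauL ρ ≤ 1 / (ρ / 8) := one_div_le_one_div_of_le h2 h1
    have h4 : 1 / (ρ / 8) = 8 / ρ := by field_simp
    linarith
  · push Not at h
    have h1 := tauL_ge (t := 1 / 2) (by norm_num) le_rfl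
    have h2 := tauL_mono (t := 1 / 2) (by norm_num) h.le
    have h3 : (1 : ℝ) / 16 ≤ tauL ρ := by linarith
    have h4 : 1 / tauL ρ ≤ 1 / (1 / 16) := one_div_le_one_div_of_le (by norm_num) h3
    have h5 : 0 < 8 / ρ := by positivity
    norm_num at h4 ⊢
    linarith

theorem pi_sq_div_le : Real.pi ^ 2 / 32 ≤ 1 := by
  have h1 := Real.pi_lt_d2
  have h0 := Real.pi_pos
  nlinarith

end ClosureAux


variable {V : Type*} [DecidableEq V] {G : SimpleGraph V} [G.LocallyFinite]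

namespace ClosureAux

section integrals
variable {θ₁ θ₂ : ℝ} {M₁ M₂ : ℝ → V → (V → unitInterval) → ℝ}
  {N₁ N₂ : ℝ → V → V → (V → unitInterval) → ℝ}

theorem a_nonneg (r : ℝ) (v : V) :
    0 ≤ ∫ ω, (M₁ r v ω - M₂ r v ω) ^ 2 ∂labelMeasure V :=
  integral_nonneg fun _ => sq_nonneg _

theorem a_le_four (hS₁ : IsSol G θ₁ M₁ N₁) (hS₂ : IsSol G θ₂ M₂ N₂) (r : ℝ) (v : V) :
    ∫ ω, (M₁ r v ω - M₂ r v ω) ^ 2 ∂labelMeasure V ≤ 4 := by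
  have h : ∀ ω, (M₁ r v ω - M₂ r v ω) ^ 2 ≤ 4 := by
    intro ω
    have h1 := abs_le.1 (hS₁.bdM r v ω)
    have h2 := abs_le.1 (hS₂.bdM r v ω)
    have : (M₁ r v ω - M₂ r v ω) ^ 2 ≤ 2 ^ 2 := sq_le_sq' (by linarith) (by linarith)
    linarith
  calc ∫ ω, (M₁ r v ω - M₂ r v ω) ^ 2 ∂labelMeasure V
      ≤ ∫ _, (4 : ℝ) ∂labelMeasure V :=
        integral_mono_of_nonneg (Filter.Eventually.of_forall fun _ => sq_nonneg _)
          (integrable_const _) (Filter.Eventually.of_forall h)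
    _ = 4 := by simp

theorem integrable_sq_of {f : (V → unitInterval) → ℝ} (hf : Measurable f) (hb : ∀ ω, |f ω| ≤ 1) :
    Integrable (fun ω => f ω ^ 2) (labelMeasure V) := by
  refine Integrable.of_bound (hf.pow_const 2).aestronglyMeasurable 1
    (Filter.Eventually.of_forall fun ω => ?_)
  rw [Real.norm_eq_abs, abs_pow]
  have := hb ω
  have h0 := abs_nonneg (f ω)
  exact pow_le_one₀ h0 this

/-- `E M² ≤ 128 x̄`. -/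
theorem sq_M_le {q : ℕ} (hT : G.IsTree) (hreg : G.IsRegularOfDegree (q + 1)) (hq : 2 ≤ q) {θ r : ℝ}
    {M : ℝ → V → (V → unitInterval) → ℝ} {N : ℝ → V → V → (V → unitInterval) → ℝ}
    (hθ : CritPar q θ) (hS : IsSol G θ M N) (hr : ∃ n, Dy n r) (v : V) :
    ∫ ω, M r v ω ^ 2 ∂labelMeasure V ≤ 128 * xBar θ r q := by
  obtain ⟨x, hx⟩ : ∃ x, G.Adj v x := by
    have h1 : 0 < G.degree v := by rw [hreg v]; omega
    have h2 : (G.neighborFinset v).Nonempty := by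
      rw [← Finset.card_pos]; exact h1
    obtain ⟨x, hx⟩ := h2
    exact ⟨x, (SimpleGraph.mem_neighborFinset _ _ _).1 hx⟩
  have h1 := sol_x hT hreg hq hθ hS hr hx
  have h2 := sol_x hT hreg hq hθ hS hr hx.symm
  have hle : ∀ᵐ ω ∂labelMeasure V, M r v ω ^ 2 ≤ 64 * (N r v x ω ^ 2 + N r x v ω ^ 2) := by
    filter_upwards [hS.alg r v x hr hx] with ω hω
    rw [hω]
    exact sq_mrg_le hθ.good (hS.bdN _ _ _ _) (hS.bdN _ _ _ _)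
  have hi1 := integrable_sq_of (hS.measN r v x) (hS.bdN r v x)
  have hi2 := integrable_sq_of (hS.measN r x v) (hS.bdN r x v)
  calc ∫ ω, M r v ω ^ 2 ∂labelMeasure V
      ≤ ∫ ω, 64 * (N r v x ω ^ 2 + N r x v ω ^ 2) ∂labelMeasure V :=
        integral_mono_of_nonneg (Filter.Eventually.of_forall fun _ => sq_nonneg _)
          ((hi1.add hi2).const_mul 64) hle
    _ = 64 * (∫ ω, N r v x ω ^ 2 ∂labelMeasure V + ∫ ω, N r x v ω ^ 2 ∂labelMeasure V) := by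
        rw [integral_const_mul, integral_add hi1 hi2]
    _ = 128 * xBar θ r q := by rw [h1, h2]; ring

/-- `a(r) ≤ 512 C √r`. -/
theorem a_le_sqrt {q : ℕ} (hT : G.IsTree) (hreg : G.IsRegularOfDegree (q + 1)) (hq : 2 ≤ q) {r C : ℝ}
    (hC : ∀ θ t : ℝ, CritPar q θ → 0 ≤ t → xBar θ t q ≤ C * Real.sqrt t)
    (hθ₁ : CritPar q θ₁) (hθ₂ : CritPar q θ₂) (hS₁ : IsSol G θ₁ M₁ N₁) (hS₂ : IsSol G θ₂ M₂ N₂)
    (hr : ∃ n, Dy n r) (hr0 : 0 ≤ r) (v : V) :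
    ∫ ω, (M₁ r v ω - M₂ r v ω) ^ 2 ∂labelMeasure V ≤ 512 * C * Real.sqrt r := by
  have h1 := sq_M_le hT hreg hq hθ₁ hS₁ hr v
  have h2 := sq_M_le hT hreg hq hθ₂ hS₂ hr v
  have h3 := hC θ₁ r hθ₁ hr0
  have h4 := hC θ₂ r hθ₂ hr0
  have hi1 := integrable_sq_of (hS₁.measM r v) (hS₁.bdM r v)
  have hi2 := integrable_sq_of (hS₂.measM r v) (hS₂.bdM r v)
  calc ∫ ω, (M₁ r v ω - M₂ r v ω) ^ 2 ∂labelMeasure V
      ≤ ∫ ω, (2 * M₁ r v ω ^ 2 + 2 * M₂ r v ω ^ 2) ∂labelMeasure V := by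
        refine integral_mono_of_nonneg (Filter.Eventually.of_forall fun _ => sq_nonneg _)
          ((hi1.const_mul 2).add (hi2.const_mul 2)) (Filter.Eventually.of_forall fun ω => ?_)
        nlinarith [sq_nonneg (M₁ r v ω + M₂ r v ω)]
    _ = 2 * ∫ ω, M₁ r v ω ^ 2 ∂labelMeasure V + 2 * ∫ ω, M₂ r v ω ^ 2 ∂labelMeasure V := by
        rw [integral_add (hi1.const_mul 2) (hi2.const_mul 2), integral_const_mul, integral_const_mul]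
    _ ≤ 512 * C * Real.sqrt r := by nlinarith

end integrals

/-! ### `psiTop` -/

/-- The supremum of `psiBar` over the parameters below the critical one. -/
noncomputable def psiTop (q : ℕ) (r : ℝ) : ℝ :=
  sSup ((fun θ => psiBar θ r q) '' Set.Ico (thetaC q / 2) (thetaC q))

theorem psiBar_le_psiTop {q : ℕ} (hq : 2 ≤ q) {θ r : ℝ} (hr : 0 ≤ r) (h0 : thetaC q / 2 ≤ θ)
    (h1 : θ < thetaC q) : psiBar θ r q ≤ psiTop q r := by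
  refine le_csSup ⟨2, ?_⟩ ⟨θ, ⟨h0, h1⟩, rfl⟩
  rintro _ ⟨θ', hθ', rfl⟩
  exact (psiBar_nonneg_le hq (critPar_of hq hθ'.1 hθ'.2).good hr).2

theorem psiTop_le_two {q : ℕ} (hq : 2 ≤ q) {r : ℝ} (hr : 0 ≤ r) : psiTop q r ≤ 2 := by
  have hc := thetaC_pos hq
  refine csSup_le ⟨_, ⟨thetaC q / 2, ⟨le_rfl, by linarith⟩, rfl⟩⟩ ?_
  rintro _ ⟨θ', hθ', rfl⟩
  exact (psiBar_nonneg_le hq (critPar_of hq hθ'.1 hθ'.2).good hr).2

theorem psiTop_nonneg {q : ℕ} (hq : 2 ≤ q) {r : ℝ} (hr : 0 ≤ r) : 0 ≤ psiTop q r := by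
  have hc := thetaC_pos hq
  have h1 : thetaC q / 2 < thetaC q := by linarith
  exact (psiBar_nonneg_le hq (critPar_of hq le_rfl h1).good hr).1.trans
    (psiBar_le_psiTop hq hr le_rfl h1)

theorem psiTop_mono {q : ℕ} (hq : 2 ≤ q) {r r' : ℝ} (hr : 0 ≤ r) (hrr' : r ≤ r') :
    psiTop q r ≤ psiTop q r' := by
  have hc := thetaC_pos hq
  refine csSup_le ⟨_, ⟨thetaC q / 2, ⟨le_rfl, by linarith⟩, rfl⟩⟩ ?_
  rintro _ ⟨θ', hθ', rfl⟩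
  have hg := (critPar_of hq hθ'.1 hθ'.2).good
  exact (psiBar_mono hq hg hg le_rfl hr hrr').trans
    (psiBar_le_psiTop hq (hr.trans hrr') hθ'.1 hθ'.2)

/-- A parameter below the critical one achieving `psiTop` up to `η` at finitely many times. -/
theorem exists_theta_all {q : ℕ} (hq : 2 ≤ q) {η : ℝ} (hη : 0 < η) (r : ℕ → ℝ) (hr : ∀ i, 0 ≤ r i)
    (n : ℕ) : ∃ θ, thetaC q / 2 ≤ θ ∧ θ < thetaC q ∧ ∀ i ≤ n, psiTop q (r i) - η ≤ psiBar θ (r i) q := by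
  have hc := thetaC_pos hq
  have hne : ∀ ρ : ℝ, ((fun θ => psiBar θ ρ q) '' Set.Ico (thetaC q / 2) (thetaC q)).Nonempty :=
    fun ρ => ⟨_, ⟨thetaC q / 2, ⟨le_rfl, by linarith⟩, rfl⟩⟩
  have one : ∀ i, ∃ θ, thetaC q / 2 ≤ θ ∧ θ < thetaC q ∧ psiTop q (r i) - η ≤ psiBar θ (r i) q := by
    intro i
    obtain ⟨_, ⟨θ, hθ, rfl⟩, hlt⟩ := exists_lt_of_lt_csSup (hne (r i))
      (show psiTop q (r i) - η < psiTop q (r i) by linarith)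
    exact ⟨θ, hθ.1, hθ.2, hlt.le⟩
  induction n with
  | zero =>
    obtain ⟨θ, h0, h1, h2⟩ := one 0
    refine ⟨θ, h0, h1, fun i hi => ?_⟩
    obtain rfl : i = 0 := by omega
    exact h2
  | succ n ih =>
    obtain ⟨θ, h0, h1, h2⟩ := ih
    obtain ⟨θ', h0', h1', h2'⟩ := one (n + 1)
    refine ⟨max θ θ', le_max_of_le_left h0, max_lt h1 h1', fun i hi => ?_⟩
    have hg := (critPar_of hq h0 h1).good
    have hg' := (critPar_of hq h0' h1').good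
    have hgm := (critPar_of hq (le_max_of_le_left h0) (max_lt h1 h1')).good
    rcases Nat.lt_or_ge i (n + 1) with h | h
    · exact (h2 i (by omega)).trans (psiBar_mono hq hg hgm (le_max_left _ _) (hr i) le_rfl)
    · obtain rfl : i = n + 1 := by omega
      exact h2'.trans (psiBar_mono hq hg' hgm (le_max_right _ _) (hr _) le_rfl)

end ClosureAux


namespace ClosureAux

theorem mul_le_of_le_div_succ {c d h : ℝ} (hc : 0 ≤ c) (hd : 0 ≤ d) (hh : 0 ≤ h)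
    (hle : h ≤ d / (c + 1)) : c * h ≤ d := by
  have h1 : 0 < c + 1 := by linarith
  have h2 : h * (c + 1) ≤ d := (le_div_iff₀ h1).1 hle
  nlinarith

theorem exists_pow_le {ρ : ℝ} (hρ : 0 < ρ) (j₀ : ℕ) : ∃ j : ℕ, j₀ ≤ j ∧ (1 / 2 : ℝ) ^ j ≤ ρ := by
  obtain ⟨j₁, hj₁⟩ := exists_pow_lt_of_lt_one hρ (by norm_num : (1 / 2 : ℝ) < 1)
  refine ⟨max j₀ j₁, le_max_left _ _, le_trans ?_ hj₁.le⟩
  exact pow_le_pow_of_le_one (by norm_num) (by norm_num) (le_max_right _ _)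

/-- Numerology of the exponents. -/
theorem exponents_facts (Nn : ℕ) :
    3 ≤ 4 * Nn + 6 ∧ ((4 * Nn + 6 : ℕ) : ℝ) = 2 * ((2 * Nn + 3 : ℕ) : ℝ) ∧
    (2 : ℝ) / ((4 * Nn + 6 : ℕ) : ℝ) = (((2 * Nn + 3 : ℕ) : ℝ))⁻¹ ∧
    0 < 1 / 2 - 1 / ((4 * Nn + 6 : ℕ) : ℝ) ∧
    (1 / 2 - 1 / ((4 * Nn + 6 : ℕ) : ℝ)) * ((2 * Nn + 3 : ℕ) : ℝ) = ((Nn + 1 : ℕ) : ℝ) := by
  have hN : (0 : ℝ) ≤ Nn := Nat.cast_nonneg Nn
  refine ⟨by omega, by push_cast; ring, ?_, ?_, ?_⟩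
  · push_cast
    have : (0 : ℝ) < 2 * Nn + 3 := by positivity
    field_simp
    ring
  · push_cast
    have h6 : (6 : ℝ) ≤ 4 * Nn + 6 := by linarith
    have : 1 / (4 * (Nn : ℝ) + 6) ≤ 1 / 6 := one_div_le_one_div_of_le (by norm_num) h6
    linarith
  · push_cast
    have : (0 : ℝ) < 4 * Nn + 6 := by positivity
    field_simp
    ring

theorem eps4_exists {ε : ℝ} (hε : 0 < ε) {w : ℕ} (hw : w ≠ 0) :
    ∃ ε₄ : ℝ, 0 < ε₄ ∧ ε₄ ≤ 1 ∧ 3 ^ w * ε₄ ^ w ≤ ε := by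
  refine ⟨min 1 ((ε / 3 ^ w) ^ ((w : ℝ)⁻¹)), lt_min one_pos (Real.rpow_pos_of_pos (by positivity) _),
    min_le_left _ _, ?_⟩
  have hpos : 0 < min 1 ((ε / 3 ^ w) ^ ((w : ℝ)⁻¹)) :=
    lt_min one_pos (Real.rpow_pos_of_pos (by positivity) _)
  have h2 := pow_le_pow_left₀ hpos.le (min_le_right 1 ((ε / 3 ^ w) ^ ((w : ℝ)⁻¹))) w
  rw [Real.rpow_inv_natCast_pow (by positivity) hw] at h2
  have h3 : (0 : ℝ) < 3 ^ w := by positivity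
  calc 3 ^ w * (min 1 ((ε / 3 ^ w) ^ ((w : ℝ)⁻¹))) ^ w ≤ 3 ^ w * (ε / 3 ^ w) := by gcongr
    _ = ε := by field_simp

theorem e0_exists {ε₄ : ℝ} (h0 : 0 < ε₄) (h1 : ε₄ ≤ 1) {w : ℕ} (hw : w ≠ 0) :
    ∃ e₀ : ℝ, 0 < e₀ ∧ e₀ ≤ 1 ∧ e₀ ^ ((w : ℝ)⁻¹) = ε₄ / 2 := by
  refine ⟨(ε₄ / 2) ^ w, by positivity, pow_le_one₀ (by positivity) (by linarith), ?_⟩
  exact Real.pow_rpow_inv_natCast (by positivity) hw

/-- Choice of the starting time. -/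
theorem start_exists {e₀ Cx t : ℝ} (he₀ : 0 < e₀) (hCx : 0 < Cx) (ht0 : 0 < t) (ht1 : t ≤ 1) :
    ∃ (j : ℕ) (s₀ : ℝ), s₀ = t * (1 / 2) ^ j ∧ 0 < s₀ ∧ s₀ ≤ t ∧ 512 * Cx * Real.sqrt s₀ ≤ e₀ / 4 := by
  obtain ⟨j, _, hj2⟩ := exists_pow_le (ρ := (e₀ / (2048 * Cx)) ^ 2) (by positivity) 1
  refine ⟨j, _, rfl, by positivity, ?_, ?_⟩
  · have : (1 / 2 : ℝ) ^ j ≤ 1 := pow_le_one₀ (by norm_num) (by norm_num)
    nlinarith
  · have h1 : t * (1 / 2) ^ j ≤ (e₀ / (2048 * Cx)) ^ 2 := by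
      have : (0 : ℝ) < (1 / 2) ^ j := by positivity
      nlinarith
    have h2 : Real.sqrt (t * (1 / 2) ^ j) ≤ e₀ / (2048 * Cx) := by
      rw [← Real.sqrt_sq (show 0 ≤ e₀ / (2048 * Cx) by positivity)]
      exact Real.sqrt_le_sqrt h1
    have h3 : 512 * Cx * Real.sqrt (t * (1 / 2) ^ j) ≤ 512 * Cx * (e₀ / (2048 * Cx)) := by gcongr
    have h4 : 512 * Cx * (e₀ / (2048 * Cx)) = e₀ / 4 := by field_simp; ring
    linarith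

/-- Choice of the mesh. -/
theorem mesh_exists {c₁ c₂ c₃ d₁ d₂ d₃ t : ℝ} (hc₁ : 0 ≤ c₁) (hc₂ : 0 ≤ c₂) (hc₃ : 0 ≤ c₃)
    (hd₁ : 0 < d₁) (hd₂ : 0 < d₂) (hd₃ : 0 < d₃) (ht0 : 0 < t) (ht1 : t ≤ 1) (j : ℕ) :
    ∃ (j' : ℕ) (h : ℝ), j ≤ j' ∧ h = t * (1 / 2) ^ j' ∧ 0 < h ∧ c₁ * h ≤ d₁ ∧ c₂ * h ≤ d₂ ∧ c₃ * h ≤ d₃ := by
  obtain ⟨j', hj'j, hj'2⟩ := exists_pow_le
    (ρ := min (d₁ / (c₁ + 1)) (min (d₂ / (c₂ + 1)) (d₃ / (c₃ + 1))))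
    (lt_min (by positivity) (lt_min (by positivity) (by positivity))) j
  have hpos : 0 < t * (1 / 2) ^ j' := by positivity
  have hle : t * (1 / 2) ^ j' ≤ (1 / 2) ^ j' := by
    have : (0 : ℝ) < (1 / 2) ^ j' := by positivity
    nlinarith
  exact ⟨j', _, hj'j, rfl, hpos,
    mul_le_of_le_div_succ hc₁ hd₁.le hpos.le (hle.trans (hj'2.trans (min_le_left _ _))),
    mul_le_of_le_div_succ hc₂ hd₂.le hpos.le
      (hle.trans (hj'2.trans ((min_le_right _ _).trans (min_le_left _ _)))),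
    mul_le_of_le_div_succ hc₃ hd₃.le hpos.le
      (hle.trans (hj'2.trans ((min_le_right _ _).trans (min_le_right _ _))))⟩

/-- The grid between `t (1/2)^j` and `t`. -/
theorem grid_facts {t : ℝ} (htd : ∃ n, Dy n t) {j j' : ℕ} (hjj : j ≤ j') :
    ∃ Ng : ℕ, (Ng : ℝ) * (t * (1 / 2) ^ j') = t - t * (1 / 2) ^ j ∧
      ∀ i : ℕ, ∃ n, Dy n (t * (1 / 2) ^ j + i * (t * (1 / 2) ^ j')) := by
  have hsplit : (1 / 2 : ℝ) ^ j' = (1 / 2) ^ (j' - j) * (1 / 2) ^ j := by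
    rw [← pow_add]; congr 1; omega
  have h21 : (2 : ℝ) ^ (j' - j) * (1 / 2) ^ (j' - j) = 1 := by
    rw [← mul_pow]; norm_num
  have h22 : (2 : ℝ) ^ j' * (1 / 2) ^ j' = 1 := by
    rw [← mul_pow]; norm_num
  have hsJ : t * (1 / 2) ^ j = (2 ^ (j' - j) : ℝ) * (t * (1 / 2) ^ j') := by
    rw [hsplit]
    calc t * (1 / 2) ^ j = t * (1 / 2) ^ j * ((2 : ℝ) ^ (j' - j) * (1 / 2) ^ (j' - j)) := by rw [h21, mul_one]
      _ = _ := by ring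
  have htJ : t = (2 ^ j' : ℝ) * (t * (1 / 2) ^ j') := by
    calc t = t * ((2 : ℝ) ^ j' * (1 / 2) ^ j') := by rw [h22, mul_one]
      _ = _ := by ring
  obtain ⟨Ng, hNg⟩ : ∃ Ng : ℕ, Ng + 2 ^ (j' - j) = 2 ^ j' :=
    ⟨2 ^ j' - 2 ^ (j' - j), Nat.sub_add_cancel (Nat.pow_le_pow_right (by norm_num) (by omega))⟩
  refine ⟨Ng, ?_, ?_⟩
  · have h3 : ((Ng + 2 ^ (j' - j) : ℕ) : ℝ) = ((2 ^ j' : ℕ) : ℝ) := by rw [hNg]
    push_cast at h3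
    have h4 : (2 : ℝ) ^ j' = (Ng : ℝ) + 2 ^ (j' - j) := h3.symm
    rw [hsJ]
    nth_rewrite 2 [htJ]
    rw [h4]
    ring
  · intro i
    obtain ⟨n, k, hk⟩ := htd
    refine ⟨n + j', (2 ^ (j' - j) + i) * k, ?_⟩
    have hhh : t * (1 / 2) ^ j' = k * hh (n + j') := by
      rw [hk]
      unfold hh
      rw [pow_add]
      ring
    rw [hsJ, hhh]
    push_cast
    ring

theorem eps3_exists {e₀ G₀ : ℝ} (he₀ : 0 < e₀) (hG₀ : 0 < G₀) : ∃ ε₃ : ℝ, 0 < ε₃ ∧ G₀ * ε₃ ≤ e₀ / 16 := by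
  refine ⟨e₀ / (16 * G₀ + 1), by positivity, ?_⟩
  have h1 : 0 < 16 * G₀ + 1 := by positivity
  rw [← mul_div_assoc, div_le_iff₀ h1]
  nlinarith

theorem delta_exists {e₀ G₀ τs qc : ℝ} (he₀ : 0 < e₀) (hG₀ : 0 < G₀) (hτs : 0 < τs) (hqc : 0 ≤ qc) :
    ∃ δb : ℝ, 0 < δb ∧ δb ≤ 1 ∧ δb ^ 2 ≤ e₀ / 8 ∧ G₀ * δb ≤ e₀ / 16 ∧ qc * δb ≤ τs := by
  refine ⟨min 1 (min (e₀ / 8) (min (e₀ / (16 * G₀ + 1)) (τs / (qc + 1)))),
    lt_min one_pos (lt_min (by positivity) (lt_min (by positivity) (by positivity))), min_le_left _ _, ?_, ?_, ?_⟩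
  all_goals
    have h0 : 0 < min 1 (min (e₀ / 8) (min (e₀ / (16 * G₀ + 1)) (τs / (qc + 1)))) :=
      lt_min one_pos (lt_min (by positivity) (lt_min (by positivity) (by positivity)))
    generalize hd : min 1 (min (e₀ / 8) (min (e₀ / (16 * G₀ + 1)) (τs / (qc + 1)))) = d at *
    have h1 : d ≤ 1 := by rw [← hd]; exact min_le_left _ _
    have h2 : d ≤ e₀ / 8 := by rw [← hd]; exact (min_le_right _ _).trans (min_le_left _ _)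
    have h3 : d ≤ e₀ / (16 * G₀ + 1) := by
      rw [← hd]; exact (min_le_right _ _).trans ((min_le_right _ _).trans (min_le_left _ _))
    have h4 : d ≤ τs / (qc + 1) := by
      rw [← hd]; exact (min_le_right _ _).trans ((min_le_right _ _).trans (min_le_right _ _))
  · nlinarith
  · have h5 : 0 < 16 * G₀ + 1 := by positivity
    have h6 : d * (16 * G₀ + 1) ≤ e₀ := (le_div_iff₀ h5).1 h3
    nlinarith
  · have h5 : 0 < qc + 1 := by linarith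
    have h6 : d * (qc + 1) ≤ τs := (le_div_iff₀ h5).1 h4
    nlinarith

/-- Total forcing (pure real). -/
theorem forcing_sum {G₀ K E h ε₃ δb e₀ t c₁ : ℝ} (Ng : ℕ) (P : ℕ → ℝ)
    (hP0 : 0 ≤ P 0) (hPN : P Ng ≤ 2) (hG₀ : 0 < G₀) (hK : 0 < K) (hE : 0 < E) (hh : 0 < h)
    (hc₁ : c₁ = 2 * G₀) (h1 : c₁ * h ≤ e₀ / 8) (hε : G₀ * ε₃ ≤ e₀ / 16) (hδ : G₀ * δb ≤ e₀ / 16)
    (hε₃ : 0 ≤ ε₃) (hδb : 0 ≤ δb) (hNgt : (Ng : ℝ) * h ≤ t) (ht : t ≤ 1) :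
    ∑ j ∈ Finset.range Ng, h * (G₀ * (P (j + 1) - P j + ε₃ + δb) + K * E) ≤ e₀ / 4 + t * K * E := by
  have h1' : ∀ j, h * (G₀ * (P (j + 1) - P j + ε₃ + δb) + K * E) =
      h * G₀ * (P (j + 1) - P j) + (h * G₀ * (ε₃ + δb) + h * (K * E)) := by
    intro j; ring
  have h2 : ∑ j ∈ Finset.range Ng, h * (G₀ * (P (j + 1) - P j + ε₃ + δb) + K * E) =
      h * G₀ * (P Ng - P 0) + Ng * (h * G₀ * (ε₃ + δb) + h * (K * E)) := by
    simp only [h1']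
    rw [Finset.sum_add_distrib, ← Finset.mul_sum, Finset.sum_range_sub, Finset.sum_const,
      Finset.card_range, nsmul_eq_mul]
  rw [h2]
  have h3 : h * G₀ * (P Ng - P 0) ≤ h * G₀ * 2 :=
    mul_le_mul_of_nonneg_left (by linarith only [hP0, hPN]) (by positivity)
  have h6 : 0 ≤ (Ng : ℝ) * h := by positivity
  have h5 : (Ng * h) * (G₀ * ε₃ + G₀ * δb) ≤ 1 * (e₀ / 8) :=
    mul_le_mul (by linarith only [hNgt, ht]) (by linarith only [hε, hδ]) (by positivity) (by norm_num)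
  have h7 : (Ng * h) * (K * E) ≤ t * (K * E) :=
    mul_le_mul_of_nonneg_right hNgt (by positivity)
  have h8 : (Ng : ℝ) * (h * G₀ * (ε₃ + δb) + h * (K * E)) =
      (Ng * h) * (G₀ * ε₃ + G₀ * δb) + (Ng * h) * (K * E) := by ring
  have h9 : h * G₀ * 2 = c₁ * h := by rw [hc₁]; ring
  have h10 : t * (K * E) = t * K * E := by ring
  rw [h8]
  linarith only [h3, h5, h7, h9, h10, h1]

/-- Final real step of stage 1. -/
theorem final_pow {w Nn : ℕ} (hw : w ≠ 0) {a X ε₄ Et Dc t β u K' h' : ℝ}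
    (hu : u = (w : ℝ)⁻¹) (hu0 : 0 ≤ u) (hu1 : u ≤ 1) (ha0 : 0 ≤ a) (hX0 : 0 ≤ X) {e₀ : ℝ} (he₀ : 0 < e₀)
    (he₀u : e₀ ^ u = ε₄ / 2) (hEt : 0 ≤ Et) (hX : X ≤ e₀ + Et) (ht0 : 0 < t) (hβw : β * w = ((Nn + 1 : ℕ) : ℝ))
    (hε₄ : 0 < ε₄) (hDc : 0 < Dc) (hc2 : K' * h' ≤ ε₄ / 2)
    (hmain : a ^ u ≤ X ^ u + (K' * h' + Dc * t ^ β)) :
    a ≤ 3 ^ w * (ε₄ ^ w + Et + Dc ^ w * t ^ (Nn + 1)) := by
  have hXu : X ^ u ≤ ε₄ / 2 + Et ^ u := by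
    calc X ^ u ≤ (e₀ + Et) ^ u := Real.rpow_le_rpow hX0 hX hu0
      _ ≤ e₀ ^ u + Et ^ u := Real.rpow_add_le_add_rpow he₀.le hEt hu0 hu1
      _ = _ := by rw [he₀u]
  have hau : a ^ u ≤ ε₄ + Et ^ u + Dc * t ^ β := by linarith
  have haNg : a = (a ^ u) ^ w := by
    rw [hu]
    exact (Real.rpow_inv_natCast_pow ha0 hw).symm
  have hEtu : (Et ^ u) ^ w = Et := by
    rw [hu]
    exact Real.rpow_inv_natCast_pow hEt hw
  have htβ : 0 < t ^ β := Real.rpow_pos_of_pos ht0 _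
  have htβw : (t ^ β) ^ w = t ^ (Nn + 1) := by
    rw [← Real.rpow_natCast, ← Real.rpow_mul ht0.le, hβw, Real.rpow_natCast]
  have hEtu0 : 0 ≤ Et ^ u := Real.rpow_nonneg hEt _
  rw [haNg]
  calc (a ^ u) ^ w ≤ (ε₄ + Et ^ u + Dc * t ^ β) ^ w :=
        pow_le_pow_left₀ (Real.rpow_nonneg ha0 _) hau w
    _ ≤ 3 ^ w * (ε₄ ^ w + (Et ^ u) ^ w + (Dc * t ^ β) ^ w) :=
        add3_pow_le hε₄.le hEtu0 (by positivity) w
    _ = _ := by rw [hEtu, mul_pow, htβw]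

theorem final_bound {w Nn : ℕ} {a ε₄ Et Dc t K E Gc ε : ℝ} (hK : 0 < K) (hGc : 0 < Gc) (hDc : 0 < Dc)
    (ht0 : 0 < t) (ht1 : t ≤ 1) (hEt_def : Et = t * K * E) (hE : E ≤ Gc * t ^ Nn)
    (hε₄w : 3 ^ w * ε₄ ^ w ≤ ε) (ha : a ≤ 3 ^ w * (ε₄ ^ w + Et + Dc ^ w * t ^ (Nn + 1))) :
    a ≤ (3 ^ w * (K * Gc + Dc ^ w) + 1) * t ^ Nn + ε := by
  have htw : 0 < t ^ Nn := by positivity
  have hEtb : Et ≤ K * Gc * t ^ Nn := by
    rw [hEt_def]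
    have h2 : t * K * E ≤ 1 * K * (Gc * t ^ Nn) := by
      have h0 : 0 ≤ Gc * t ^ Nn := by positivity
      by_cases hEs : E ≤ 0
      · have : t * K * E ≤ 0 := mul_nonpos_of_nonneg_of_nonpos (by positivity) hEs
        have : 0 ≤ 1 * K * (Gc * t ^ Nn) := by positivity
        linarith
      · push Not at hEs
        gcongr
    calc t * K * E ≤ 1 * K * (Gc * t ^ Nn) := h2
      _ = K * Gc * t ^ Nn := by ring
  have hpowb : Dc ^ w * t ^ (Nn + 1) ≤ Dc ^ w * t ^ Nn := by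
    have h2 : t ^ (Nn + 1) ≤ t ^ Nn := pow_le_pow_of_le_one ht0.le ht1 (by omega)
    gcongr
  have h3w : (0 : ℝ) < 3 ^ w := by positivity
  calc a ≤ 3 ^ w * (ε₄ ^ w + Et + Dc ^ w * t ^ (Nn + 1)) := ha
    _ ≤ 3 ^ w * (ε₄ ^ w + K * Gc * t ^ Nn + Dc ^ w * t ^ Nn) := by gcongr
    _ = 3 ^ w * ε₄ ^ w + 3 ^ w * (K * Gc + Dc ^ w) * t ^ Nn := by ring
    _ ≤ ε + (3 ^ w * (K * Gc + Dc ^ w) + 1) * t ^ Nn := by nlinarith
    _ = _ := by ring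

end ClosureAux

namespace ClosureAux

section steps
variable {q : ℕ} {θ₁ θ₂ : ℝ} {M₁ M₂ : ℝ → V → (V → unitInterval) → ℝ}
  {N₁ N₂ : ℝ → V → V → (V → unitInterval) → ℝ}

/-- One step of stage 1. -/
theorem step_small (hT : G.IsTree) (hreg : G.IsRegularOfDegree (q + 1)) (hq : 2 ≤ q) {p : ℕ}
    {K c t₁ : ℝ} (hK : 0 < K) (hc : 0 < c) (hg₁ : GoodTheta θ₁) (hg₂ : GoodTheta θ₂)
    (hq₁ : θ₁ ^ 2 * q < 1) (hq₂ : θ₂ ^ 2 * q < 1) (hS₁ : IsSol G θ₁ M₁ N₁) (hS₂ : IsSol G θ₂ M₂ N₂) (v : V)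
    (htemp : ∀ {r a : ℝ}, (∃ n, Dy n r) → 0 < r → r ≤ t₁ → 1 - q * θ₁ ^ 2 ≤ Real.sqrt (tauL r) →
      1 - q * θ₂ ^ 2 ≤ Real.sqrt (tauL r) →
      ∫ ω, (M₁ r v ω - M₂ r v ω) ^ 2 ∂labelMeasure V + (|θ₁ - thetaC q| + |θ₂ - thetaC q|) ^ 2 ≤ a →
      0 < a → a ≤ 8 →
      ∀ R : ℕ, ∑ u ∈ tball G v R,
        ∫ ω, (covPath G θ₁ (fun w => M₁ r w ω) (fun y x => N₁ r y x ω) v u
          - covPath G θ₂ (fun w => M₂ r w ω) (fun y x => N₂ r y x ω) v u) ^ 2 ∂labelMeasure V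
      ≤ K * r ^ (-(1 / 2 + 1 / (p : ℝ))) * a ^ (1 - 2 / (p : ℝ))
        + K * r ^ (-(3 / 2 : ℝ)) * (|psiBar θ₁ r q - psiBar θ₂ r q| + |θ₁ - thetaC q| + |θ₂ - thetaC q|)
        + K * Real.exp (-(c / Real.sqrt r)))
    {s₀ r₁ r₂ t U δb β' : ℝ} (hs₀ : 0 < s₀) (hr₁ : s₀ ≤ r₁) (hr₁₂ : r₁ ≤ r₂) (hr₂ : r₂ ≤ t) (ht₁ : t ≤ t₁)
    (hd₁ : ∃ n, Dy n r₁) (hd₂ : ∃ n, Dy n r₂)
    (hγ₁ : ∀ ρ, s₀ ≤ ρ → 1 - q * θ₁ ^ 2 ≤ Real.sqrt (tauL ρ))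
    (hγ₂ : ∀ ρ, s₀ ≤ ρ → 1 - q * θ₂ ^ 2 ≤ Real.sqrt (tauL ρ))
    (hDb : |θ₁ - thetaC q| + |θ₂ - thetaC q| ≤ δb)
    (hU : ∀ ρ, r₁ ≤ ρ → ρ ≤ r₂ → |psiBar θ₁ ρ q - psiBar θ₂ ρ q| ≤ U)
    (hβ'0 : 0 < β') (hβ'8 : β' ≤ 8)
    (hβ'le : ∫ ω, (M₁ r₂ v ω - M₂ r₂ v ω) ^ 2 ∂labelMeasure V + (|θ₁ - thetaC q| + |θ₂ - thetaC q|) ^ 2 ≤ β') :
    ∫ ω, (M₁ r₂ v ω - M₂ r₂ v ω) ^ 2 ∂labelMeasure V ≤ ∫ ω, (M₁ r₁ v ω - M₂ r₁ v ω) ^ 2 ∂labelMeasure V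
      + (r₂ - r₁) * (K * r₁ ^ (-(1 / 2 + 1 / (p : ℝ))) * β' ^ (1 - 2 / (p : ℝ)))
      + (r₂ - r₁) * (K * s₀ ^ (-(3 / 2 : ℝ)) * (U + δb) + K * Real.exp (-(c / Real.sqrt t))) := by
  have hr₁pos : 0 < r₁ := lt_of_lt_of_le hs₀ hr₁
  have hβ'pow : 0 ≤ β' ^ (1 - 2 / (p : ℝ)) := (Real.rpow_pos_of_pos hβ'0 _).le
  have hU0 : 0 ≤ U := (abs_nonneg _).trans (hU r₁ le_rfl hr₁₂)
  have hδb0 : 0 ≤ δb := by
    have : 0 ≤ |θ₁ - thetaC q| + |θ₂ - thetaC q| := by positivity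
    linarith
  have hB : ∀ ρ, (∃ n, Dy n ρ) → r₁ ≤ ρ → ρ ≤ r₂ → ∀ R : ℕ,
      ∑ u ∈ tball G v R,
        ∫ ω, (covPath G θ₁ (fun w => M₁ ρ w ω) (fun y x => N₁ ρ y x ω) v u
          - covPath G θ₂ (fun w => M₂ ρ w ω) (fun y x => N₂ ρ y x ω) v u) ^ 2 ∂labelMeasure V
      ≤ K * r₁ ^ (-(1 / 2 + 1 / (p : ℝ))) * β' ^ (1 - 2 / (p : ℝ))
        + (K * s₀ ^ (-(3 / 2 : ℝ)) * (U + δb) + K * Real.exp (-(c / Real.sqrt t))) := by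
    intro ρ hρd hρ1 hρ2 R
    have hρpos : 0 < ρ := lt_of_lt_of_le hr₁pos hρ1
    have hρs : s₀ ≤ ρ := hr₁.trans hρ1
    have hρt : ρ ≤ t := hρ2.trans hr₂
    have hle : ∫ ω, (M₁ ρ v ω - M₂ ρ v ω) ^ 2 ∂labelMeasure V
        + (|θ₁ - thetaC q| + |θ₂ - thetaC q|) ^ 2 ≤ β' := by
      have hm := pair_mono hT hreg hq hg₁ hg₂ hq₁ hq₂ hS₁ hS₂ v hρd hd₂ hρ2
      linarith
    have hbound := htemp hρd hρpos (hρt.trans ht₁) (hγ₁ ρ hρs) (hγ₂ ρ hρs) hle hβ'0 hβ'8 R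
    refine hbound.trans ?_
    have t1 : ρ ^ (-(1 / 2 + 1 / (p : ℝ))) ≤ r₁ ^ (-(1 / 2 + 1 / (p : ℝ))) :=
      Real.rpow_le_rpow_of_nonpos hr₁pos hρ1 (by
        have : 0 ≤ 1 / 2 + 1 / (p : ℝ) := by positivity
        linarith)
    have t2 : ρ ^ (-(3 / 2 : ℝ)) ≤ s₀ ^ (-(3 / 2 : ℝ)) :=
      Real.rpow_le_rpow_of_nonpos hs₀ hρs (by norm_num)
    have t2' : 0 ≤ ρ ^ (-(3 / 2 : ℝ)) := (Real.rpow_pos_of_pos hρpos _).le
    have t3 := hU ρ hρ1 hρ2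
    have t4 : Real.exp (-(c / Real.sqrt ρ)) ≤ Real.exp (-(c / Real.sqrt t)) := by
      apply Real.exp_le_exp.2
      have h3 : Real.sqrt ρ ≤ Real.sqrt t := Real.sqrt_le_sqrt hρt
      have h4 : 0 < Real.sqrt ρ := Real.sqrt_pos.2 hρpos
      have : c / Real.sqrt t ≤ c / Real.sqrt ρ := div_le_div_of_nonneg_left hc.le h4 h3
      linarith
    have t5 : K * ρ ^ (-(1 / 2 + 1 / (p : ℝ))) * β' ^ (1 - 2 / (p : ℝ))
        ≤ K * r₁ ^ (-(1 / 2 + 1 / (p : ℝ))) * β' ^ (1 - 2 / (p : ℝ)) := by gcongr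
    have t6 : K * ρ ^ (-(3 / 2 : ℝ)) * (|psiBar θ₁ ρ q - psiBar θ₂ ρ q| + |θ₁ - thetaC q| + |θ₂ - thetaC q|)
        ≤ K * s₀ ^ (-(3 / 2 : ℝ)) * (U + δb) := by
      apply mul_le_mul (mul_le_mul_of_nonneg_left t2 hK.le) (by linarith) (by positivity)
      have := (Real.rpow_pos_of_pos hs₀ (-(3 / 2 : ℝ))).le
      positivity
    have t7 : K * Real.exp (-(c / Real.sqrt ρ)) ≤ K * Real.exp (-(c / Real.sqrt t)) :=
      mul_le_mul_of_nonneg_left t4 hK.le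
    linarith
  have key := pair_ineq hT hreg hq hg₁ hg₂ hq₁ hq₂ hS₁ hS₂ v hd₁ hd₂ hr₁₂ hB
  have hBnn : 0 ≤ K * r₁ ^ (-(1 / 2 + 1 / (p : ℝ))) * β' ^ (1 - 2 / (p : ℝ))
      + (K * s₀ ^ (-(3 / 2 : ℝ)) * (U + δb) + K * Real.exp (-(c / Real.sqrt t))) := by
    have h3 := (Real.rpow_pos_of_pos hr₁pos (-(1 / 2 + 1 / (p : ℝ)))).le
    have h4 := (Real.rpow_pos_of_pos hs₀ (-(3 / 2 : ℝ))).le
    have h5 := Real.exp_pos (-(c / Real.sqrt t))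
    positivity
  have hpi := pi_sq_div_le
  have hκ : Real.pi ^ 2 / 32 * (r₂ - r₁) * (K * r₁ ^ (-(1 / 2 + 1 / (p : ℝ))) * β' ^ (1 - 2 / (p : ℝ))
      + (K * s₀ ^ (-(3 / 2 : ℝ)) * (U + δb) + K * Real.exp (-(c / Real.sqrt t))))
      ≤ 1 * (r₂ - r₁) * (K * r₁ ^ (-(1 / 2 + 1 / (p : ℝ))) * β' ^ (1 - 2 / (p : ℝ))
      + (K * s₀ ^ (-(3 / 2 : ℝ)) * (U + δb) + K * Real.exp (-(c / Real.sqrt t)))) := by
    have : 0 ≤ r₂ - r₁ := by linarith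
    gcongr
  linarith

/-- Bound of `|ψ₁ - ψ₂|` on a grid cell. -/
theorem psi_diff_le (hq : 2 ≤ q) {θs ε₃ r₁ r₂ ρ : ℝ} (hr₁ : 0 ≤ r₁) (hρ1 : r₁ ≤ ρ) (hρ2 : ρ ≤ r₂)
    (hθs0 : thetaC q / 2 ≤ θs) (hθs1 : θs < thetaC q)
    (h₁ : θs ≤ θ₁) (h₂ : θs ≤ θ₂) (h₁' : θ₁ < thetaC q) (h₂' : θ₂ < thetaC q)
    (hP : psiTop q r₁ - ε₃ ≤ psiBar θs r₁ q) :
    |psiBar θ₁ ρ q - psiBar θ₂ ρ q| ≤ psiTop q r₂ - psiTop q r₁ + ε₃ := by
  have hρ0 : 0 ≤ ρ := hr₁.trans hρ1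
  have hs := (critPar_of hq hθs0 hθs1).good
  have hup : ∀ θ : ℝ, thetaC q / 2 ≤ θ → θ < thetaC q → psiBar θ ρ q ≤ psiTop q r₂ :=
    fun θ h0 h1 => (psiBar_le_psiTop hq hρ0 h0 h1).trans (psiTop_mono hq hρ0 hρ2)
  have hlow : ∀ θ : ℝ, thetaC q / 2 ≤ θ → θ < thetaC q → θs ≤ θ →
      psiTop q r₁ - ε₃ ≤ psiBar θ ρ q := by
    intro θ h0 h1 h2
    exact hP.trans (psiBar_mono hq hs (critPar_of hq h0 h1).good h2 hr₁ hρ1)
  have a1 := hup θ₁ (hθs0.trans h₁) h₁'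
  have a2 := hup θ₂ (hθs0.trans h₂) h₂'
  have a3 := hlow θ₁ (hθs0.trans h₁) h₁' h₁
  have a4 := hlow θ₂ (hθs0.trans h₂) h₂' h₂
  rw [abs_le]
  constructor <;> linarith

/-- The hypothesis on `1 - q θ²`. -/
theorem gamma_ok (hq : 2 ≤ q) {θ δb s₀ τs qc : ℝ} (h0 : 0 ≤ θ) (hlt : θ < thetaC q)
    (hd : thetaC q - δb / 2 ≤ θ) (hs₀ : 0 ≤ s₀) (hτs : τs = Real.sqrt (tauL s₀)) (hqc : qc = q * thetaC q)
    (hqδ : qc * δb ≤ τs) : ∀ ρ : ℝ, s₀ ≤ ρ → 1 - q * θ ^ 2 ≤ Real.sqrt (tauL ρ) := by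
  intro ρ hρ
  have h3 := one_sub_le hq h0 hlt hd
  have h4 : 2 * (q : ℝ) * thetaC q * (δb / 2) = qc * δb := by rw [hqc]; ring
  have h5 : Real.sqrt (tauL s₀) ≤ Real.sqrt (tauL ρ) := Real.sqrt_le_sqrt (tauL_mono hs₀ hρ)
  rw [← hτs] at h5
  linarith

theorem abs_sub_thetaC_le {θ δb : ℝ} {q : ℕ} (h1 : thetaC q - δb / 2 ≤ θ) (h2 : θ < thetaC q) (hδ : 0 < δb) :
    |θ - thetaC q| ≤ δb / 2 := by
  rw [abs_le]; constructor <;> linarith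

end steps

end ClosureAux

end Crest.Agent.IsingFactor
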