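import Crest.Agent.IsingFactor.ClosureAux

/-!
# IsingFactor.ClosureMain (WP IF-ClosureMain): `small_time_bound` and `critical_cauchy`.

The real-variable lemmas and the one-step lemmas are in `ClosureAux`.
Statements may be ADDED; do not change the ones below without posting on chat (topic S0241), other packages use them.
-/

set_option autoImplicit false

open MeasureTheory ProbabilityTheory
open Crest.Agent.SRFactor Crest.ProbabilityR.Labels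

namespace Crest.Agent.IsingFactor

variable {V : Type*} [DecidableEq V] {G : SimpleGraph V} [G.LocallyFinite]

namespace ClosureAux

section pair
variable {q : ℕ} {θ₁ θ₂ : ℝ} {M₁ M₂ : ℝ → V → (V → unitInterval) → ℝ}
  {N₁ N₂ : ℝ → V → V → (V → unitInterval) → ℝ}

/-- Stage 1 for one pair of solutions. -/
theorem pair_small (hT : G.IsTree) (hreg : G.IsRegularOfDegree (q + 1)) (hq : 2 ≤ q) {p : ℕ} (hp : 3 ≤ p)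
    {K c t₁ Cx : ℝ} (hK : 0 < K) (hc : 0 < c) (hcrit₁ : CritPar q θ₁) (hcrit₂ : CritPar q θ₂)
    (h1' : θ₁ < thetaC q) (h2' : θ₂ < thetaC q)
    (hS₁ : IsSol G θ₁ M₁ N₁) (hS₂ : IsSol G θ₂ M₂ N₂) (v : V)
    (htemp : ∀ {r a : ℝ}, (∃ n, Dy n r) → 0 < r → r ≤ t₁ → 1 - q * θ₁ ^ 2 ≤ Real.sqrt (tauL r) →
      1 - q * θ₂ ^ 2 ≤ Real.sqrt (tauL r) →
      ∫ ω, (M₁ r v ω - M₂ r v ω) ^ 2 ∂labelMeasure V + (|θ₁ - thetaC q| + |θ₂ - thetaC q|) ^ 2 ≤ a →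
      0 < a → a ≤ 8 →
      ∀ R : ℕ, ∑ u ∈ tball G v R,
        ∫ ω, (covPath G θ₁ (fun w => M₁ r w ω) (fun y x => N₁ r y x ω) v u
          - covPath G θ₂ (fun w => M₂ r w ω) (fun y x => N₂ r y x ω) v u) ^ 2 ∂labelMeasure V
      ≤ K * r ^ (-(1 / 2 + 1 / (p : ℝ))) * a ^ (1 - 2 / (p : ℝ))
        + K * r ^ (-(3 / 2 : ℝ)) * (|psiBar θ₁ r q - psiBar θ₂ r q| + |θ₁ - thetaC q| + |θ₂ - thetaC q|)
        + K * Real.exp (-(c / Real.sqrt r)))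
    (hx : ∀ θ t : ℝ, CritPar q θ → 0 ≤ t → xBar θ t q ≤ Cx * Real.sqrt t)
    {s₀ h t e₀ δb ε₃ δ' θs : ℝ} {Ng : ℕ} (hs₀ : 0 < s₀) (hh0 : 0 < h) (hend : s₀ + Ng * h = t)
    (ht₁ : t ≤ t₁) (ht1 : t ≤ 1) (hgrdy : ∀ i : ℕ, ∃ m, Dy m (s₀ + i * h))
    (hγ₁ : ∀ ρ, s₀ ≤ ρ → 1 - q * θ₁ ^ 2 ≤ Real.sqrt (tauL ρ))
    (hγ₂ : ∀ ρ, s₀ ≤ ρ → 1 - q * θ₂ ^ 2 ≤ Real.sqrt (tauL ρ))
    (hDb : |θ₁ - thetaC q| + |θ₂ - thetaC q| ≤ δb)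
    (hθs0 : thetaC q / 2 ≤ θs) (hθs1 : θs < thetaC q) (hθ₁s : θs ≤ θ₁) (hθ₂s : θs ≤ θ₂)
    (hP : ∀ i ≤ Ng, psiTop q (s₀ + i * h) - ε₃ ≤ psiBar θs (s₀ + i * h) q)
    (he₀ : 0 < e₀) (he₀1 : e₀ ≤ 1) (hε₃ : 0 < ε₃) (hδ'_def : δ' = e₀ / 8)
    (hc₁ : 2 * (K * s₀ ^ (-(3 / 2 : ℝ))) * h ≤ e₀ / 8)
    (hGε : K * s₀ ^ (-(3 / 2 : ℝ)) * ε₃ ≤ e₀ / 16) (hGδ : K * s₀ ^ (-(3 / 2 : ℝ)) * δb ≤ e₀ / 16)
    (hδsq : δb ^ 2 ≤ e₀ / 8)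
    (hsmall : h * K * s₀ ^ (-(1 / 2 + 1 / (p : ℝ))) * δ' ^ (-(2 / (p : ℝ))) ≤ 1 / 2)
    (hEt : t * K * Real.exp (-(c / Real.sqrt t)) ≤ 1)
    (hs₀x : 512 * Cx * Real.sqrt s₀ ≤ e₀ / 4) :
    ∃ X : ℝ, 0 ≤ X ∧ X ≤ e₀ + t * K * Real.exp (-(c / Real.sqrt t)) ∧
      (∫ ω, (M₁ t v ω - M₂ t v ω) ^ 2 ∂labelMeasure V) ^ (2 / (p : ℝ)) ≤
        X ^ (2 / (p : ℝ)) + (4 / (p : ℝ)) * K *
          (h * s₀ ^ (-(1 / 2 + 1 / (p : ℝ))) + t ^ (1 / 2 - 1 / (p : ℝ)) / (1 / 2 - 1 / (p : ℝ))) := by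
  have hg₁ := hcrit₁.good
  have hg₂ := hcrit₂.good
  have hq₁ := sq_mul_lt hq hg₁.nonneg h1'
  have hq₂ := sq_mul_lt hq hg₂.nonneg h2'
  have hgrpos : ∀ i : ℕ, 0 < s₀ + i * h := fun i => by positivity
  have hgrstep : ∀ i : ℕ, s₀ + ((i + 1 : ℕ) : ℝ) * h = s₀ + i * h + h := fun i => by
    push_cast; ring
  have hgrle : ∀ i : ℕ, i ≤ Ng → s₀ + i * h ≤ t := by
    intro i hi
    rw [← hend]
    have h1 : (i : ℝ) ≤ Ng := by exact_mod_cast hi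
    have h2 : (i : ℝ) * h ≤ Ng * h := mul_le_mul_of_nonneg_right h1 hh0.le
    linarith only [h2]
  obtain ⟨a, ha⟩ : ∃ a : ℕ → ℝ, ∀ i, a i =
      ∫ ω, (M₁ (s₀ + i * h) v ω - M₂ (s₀ + i * h) v ω) ^ 2 ∂labelMeasure V := ⟨_, fun _ => rfl⟩
  obtain ⟨Pt, hPt⟩ : ∃ Pt : ℕ → ℝ, ∀ j, Pt j = psiTop q (s₀ + j * h) := ⟨_, fun _ => rfl⟩
  obtain ⟨G₀, hG₀⟩ : ∃ G₀ : ℝ, G₀ = K * s₀ ^ (-(3 / 2 : ℝ)) := ⟨_, rfl⟩
  have hG₀0 : 0 < G₀ := by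
    rw [hG₀]
    exact mul_pos hK (Real.rpow_pos_of_pos hs₀ _)
  obtain ⟨E, hE⟩ : ∃ E : ℝ, E = Real.exp (-(c / Real.sqrt t)) := ⟨_, rfl⟩
  have hE0 : 0 < E := by rw [hE]; exact Real.exp_pos _
  obtain ⟨F, hF_def⟩ : ∃ F : ℕ → ℝ, ∀ j, F j = G₀ * (Pt (j + 1) - Pt j + ε₃ + δb) + K * E :=
    ⟨_, fun _ => rfl⟩
  obtain ⟨D2, hD2⟩ : ∃ D2 : ℝ, D2 = (|θ₁ - thetaC q| + |θ₂ - thetaC q|) ^ 2 := ⟨_, rfl⟩
  have hD20 : 0 ≤ D2 := by rw [hD2]; exact sq_nonneg _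
  have hsum0 : 0 ≤ |θ₁ - thetaC q| + |θ₂ - thetaC q| := add_nonneg (abs_nonneg _) (abs_nonneg _)
  have hδb0 : 0 ≤ δb := hsum0.trans hDb
  have hD2le : D2 ≤ e₀ / 8 := by
    rw [hD2]
    exact (pow_le_pow_left₀ hsum0 hDb 2).trans hδsq
  have hδ' : 0 < δ' := by rw [hδ'_def]; positivity
  have ha0 : ∀ i, 0 ≤ a i := fun i => by rw [ha]; exact a_nonneg _ _
  have ha4 : ∀ i, a i ≤ 4 := fun i => by rw [ha]; exact a_le_four hS₁ hS₂ _ _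
  have hPmono : ∀ j, Pt j ≤ Pt (j + 1) := by
    intro j
    rw [hPt, hPt, hgrstep]
    exact psiTop_mono hq (hgrpos j).le (by linarith only [hh0])
  have hF : ∀ j, 0 ≤ F j := by
    intro j
    rw [hF_def]
    have h1 : 0 ≤ Pt (j + 1) - Pt j + ε₃ + δb := by linarith only [hPmono j, hε₃, hδb0]
    positivity
  have hNgt : (Ng : ℝ) * h ≤ t := by linarith only [hend, hs₀]
  have hsum : ∑ j ∈ Finset.range Ng, h * F j ≤ e₀ / 4 + t * K * E := by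
    simp only [hF_def]
    refine forcing_sum Ng Pt ?_ ?_ hG₀0 hK hE0 hh0 rfl ?_ (by rw [hG₀]; exact hGε)
      (by rw [hG₀]; exact hGδ) hε₃.le hδb0 hNgt ht1
    · rw [hPt]; exact psiTop_nonneg hq (hgrpos 0).le
    · rw [hPt]; exact psiTop_le_two hq (hgrpos Ng).le
    · rw [hG₀]; exact hc₁
  have hsum0' : 0 ≤ ∑ j ∈ Finset.range Ng, h * F j :=
    Finset.sum_nonneg fun j _ => mul_nonneg hh0.le (hF j)
  have hEtE : t * K * E ≤ 1 := by rw [hE]; exact hEt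
  have hTT : D2 + δ' + ∑ j ∈ Finset.range Ng, h * F j ≤ 4 := by
    rw [hδ'_def]
    linarith only [hD2le, hsum, hEtE, he₀1]
  have hstep : ∀ i < Ng, ∀ β' : ℝ, 0 < β' → β' ≤ 8 → a (i + 1) + D2 ≤ β' →
      a (i + 1) ≤ a i + h * K * (s₀ + i * h) ^ (-(1 / 2 + 1 / (p : ℝ))) * β' ^ (1 - 2 / (p : ℝ)) + h * F i := by
    intro i hi β' hβ'0 hβ'8 hβ'le
    have hrs : s₀ ≤ s₀ + i * h := by
      have h0 : 0 ≤ (i : ℝ) * h := by positivity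
      linarith only [h0]
    have hst : s₀ + i * h ≤ s₀ + ((i + 1 : ℕ) : ℝ) * h := by rw [hgrstep]; linarith only [hh0]
    have hrt : s₀ + ((i + 1 : ℕ) : ℝ) * h ≤ t := hgrle (i + 1) (by omega)
    have hdiff : s₀ + ((i + 1 : ℕ) : ℝ) * h - (s₀ + i * h) = h := by rw [hgrstep]; ring
    have hle' : ∫ ω, (M₁ (s₀ + ((i + 1 : ℕ) : ℝ) * h) v ω - M₂ (s₀ + ((i + 1 : ℕ) : ℝ) * h) v ω) ^ 2 ∂labelMeasure V
        + (|θ₁ - thetaC q| + |θ₂ - thetaC q|) ^ 2 ≤ β' := by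
      rw [← ha (i + 1), ← hD2]
      exact hβ'le
    have key := step_small hT hreg hq hK hc hg₁ hg₂ hq₁ hq₂ hS₁ hS₂ v htemp hs₀ hrs hst hrt ht₁
      (hgrdy i) (hgrdy (i + 1)) hγ₁ hγ₂ hDb
      (fun ρ hρ1 hρ2 => psi_diff_le hq (hgrpos i).le hρ1 hρ2 hθs0 hθs1 hθ₁s hθ₂s h1' h2' (hP i (by omega)))
      hβ'0 hβ'8 hle'
    rw [hdiff, ← ha (i + 1), ← ha i, ← hG₀, ← hE, ← hPt, ← hPt] at key
    rw [hF_def]
    refine key.trans (le_of_eq ?_)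
    ring
  have hmain := stage1_real hp hK hs₀ hh0 Ng a F ha0 ha4 hF hD20 hδ' hTT hstep hsmall
  rw [hend, ha Ng, hend] at hmain
  have hs₀d : ∃ n, Dy n s₀ := by
    have h1 := hgrdy 0
    rwa [show s₀ + ((0 : ℕ) : ℝ) * h = s₀ by simp] at h1
  have ha00 : a 0 ≤ e₀ / 4 := by
    have h1 := a_le_sqrt hT hreg hq hx hcrit₁ hcrit₂ hS₁ hS₂ hs₀d hs₀.le v
    rw [ha 0, show s₀ + ((0 : ℕ) : ℝ) * h = s₀ by simp]
    exact h1.trans hs₀x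
  refine ⟨a 0 + D2 + δ' + ∑ j ∈ Finset.range Ng, h * F j, ?_, ?_, hmain⟩
  · linarith only [ha0 0, hD20, hδ', hsum0']
  · rw [← hE, hδ'_def]
    linarith only [ha00, hD2le, hsum, he₀]

end pair

/-- Stage 1, for fixed time and accuracy. -/
theorem small_core {q : ℕ} (hT : G.IsTree) (hreg : G.IsRegularOfDegree (q + 1)) (hq : 2 ≤ q)
    {Nn p w : ℕ} (hp : 3 ≤ p) (hw : w ≠ 0) (hu : (2 : ℝ) / (p : ℝ) = (w : ℝ)⁻¹)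
    (hβ : 0 < 1 / 2 - 1 / (p : ℝ)) (hβw : (1 / 2 - 1 / (p : ℝ)) * (w : ℝ) = ((Nn + 1 : ℕ) : ℝ))
    {K c t₁ Cx : ℝ} (hK : 0 < K) (hc : 0 < c) (hCx : 0 < Cx)
    (htemp : ∀ {θ₁ θ₂ r a : ℝ} {M₁ M₂ : ℝ → V → (V → unitInterval) → ℝ}
      {N₁ N₂ : ℝ → V → V → (V → unitInterval) → ℝ}, CritPar q θ₁ → CritPar q θ₂ →
      IsSol G θ₁ M₁ N₁ → IsSol G θ₂ M₂ N₂ → (∃ n, Dy n r) → 0 < r → r ≤ t₁ →
      1 - q * θ₁ ^ 2 ≤ Real.sqrt (tauL r) → 1 - q * θ₂ ^ 2 ≤ Real.sqrt (tauL r) →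
      ∀ (v : V), ∫ ω, (M₁ r v ω - M₂ r v ω) ^ 2 ∂labelMeasure V + (|θ₁ - thetaC q| + |θ₂ - thetaC q|) ^ 2 ≤ a →
      0 < a → a ≤ 8 →
      ∀ R : ℕ, ∑ u ∈ tball G v R,
        ∫ ω, (covPath G θ₁ (fun w => M₁ r w ω) (fun y x => N₁ r y x ω) v u
          - covPath G θ₂ (fun w => M₂ r w ω) (fun y x => N₂ r y x ω) v u) ^ 2 ∂labelMeasure V
      ≤ K * r ^ (-(1 / 2 + 1 / (p : ℝ))) * a ^ (1 - 2 / (p : ℝ))
        + K * r ^ (-(3 / 2 : ℝ)) * (|psiBar θ₁ r q - psiBar θ₂ r q| + |θ₁ - thetaC q| + |θ₂ - thetaC q|)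
        + K * Real.exp (-(c / Real.sqrt r)))
    (hx : ∀ θ t : ℝ, CritPar q θ → 0 ≤ t → xBar θ t q ≤ Cx * Real.sqrt t)
    {t ε : ℝ} (htd : ∃ n, Dy n t) (ht0 : 0 < t) (ht₁ : t ≤ t₁) (ht2 : t ≤ 1 / 2) (ht3 : t * K ≤ 1)
    (hε : 0 < ε) :
    ∃ θ₀ : ℝ, 0 < θ₀ ∧ θ₀ < thetaC q ∧ ∀ {θ₁ θ₂ : ℝ} {M₁ M₂ : ℝ → V → (V → unitInterval) → ℝ}
        {N₁ N₂ : ℝ → V → V → (V → unitInterval) → ℝ}, θ₀ ≤ θ₁ → θ₁ < thetaC q → θ₀ ≤ θ₂ → θ₂ < thetaC q →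
        IsSol G θ₁ M₁ N₁ → IsSol G θ₂ M₂ N₂ → ∀ v : V,
        ∫ ω, (M₁ t v ω - M₂ t v ω) ^ 2 ∂labelMeasure V ≤
          (3 ^ w * (K * (((2 * Nn).factorial : ℝ) / c ^ (2 * Nn))
            + ((4 / (p : ℝ)) * K / (1 / 2 - 1 / (p : ℝ))) ^ w) + 1) * t ^ Nn + ε := by
  have htone : t ≤ 1 := ht2.trans (by norm_num)
  have hp0 : (0 : ℝ) < p := by exact_mod_cast (by omega : 0 < p)
  obtain ⟨ε₄, hε₄, hε₄1, hε₄w⟩ := eps4_exists hε hw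
  obtain ⟨e₀, he₀, he₀1, he₀u⟩ := e0_exists hε₄ hε₄1 hw
  obtain ⟨j, s₀, hs₀_def, hs₀, hs₀t, hs₀x⟩ := start_exists he₀ hCx ht0 htone
  obtain ⟨G₀, hG₀⟩ : ∃ G₀ : ℝ, G₀ = K * s₀ ^ (-(3 / 2 : ℝ)) := ⟨_, rfl⟩
  have hG₀0 : 0 < G₀ := by
    rw [hG₀]
    exact mul_pos hK (Real.rpow_pos_of_pos hs₀ _)
  obtain ⟨δ', hδ'_def⟩ : ∃ δ' : ℝ, δ' = e₀ / 8 := ⟨_, rfl⟩
  have hδ' : 0 < δ' := by rw [hδ'_def]; positivity
  have hsα : 0 < s₀ ^ (-(1 / 2 + 1 / (p : ℝ))) := Real.rpow_pos_of_pos hs₀ _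
  have hδu : 0 < δ' ^ (-(2 / (p : ℝ))) := Real.rpow_pos_of_pos hδ' _
  have hc₁0 : 0 ≤ 2 * G₀ := by positivity
  have hc₂0 : 0 ≤ (4 / (p : ℝ)) * K * s₀ ^ (-(1 / 2 + 1 / (p : ℝ))) := by positivity
  have hc₃0 : 0 ≤ K * s₀ ^ (-(1 / 2 + 1 / (p : ℝ))) * δ' ^ (-(2 / (p : ℝ))) := by positivity
  obtain ⟨j', h, hjj, hh_def, hh0, hh1, hh2, hh3⟩ := mesh_exists hc₁0 hc₂0 hc₃0
    (show 0 < e₀ / 8 by positivity) (show 0 < ε₄ / 2 by positivity) (show (0 : ℝ) < 1 / 2 by norm_num)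
    ht0 htone j
  obtain ⟨Ng, hNgh, hgrdy⟩ := grid_facts htd hjj
  rw [← hh_def, ← hs₀_def] at hNgh
  have hgrdy' : ∀ i : ℕ, ∃ m, Dy m (s₀ + i * h) := by
    intro i
    have := hgrdy i
    rwa [← hh_def, ← hs₀_def] at this
  have hend : s₀ + Ng * h = t := by rw [hNgh]; ring
  obtain ⟨ε₃, hε₃, hGε₃⟩ := eps3_exists he₀ hG₀0
  have hs₀half : s₀ ≤ 1 / 2 := hs₀t.trans ht2
  have hτ₀ : 0 < tauL s₀ := lt_of_lt_of_le (by positivity) (tauL_ge hs₀.le hs₀half)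
  obtain ⟨τs, hτs_def⟩ : ∃ τs : ℝ, τs = Real.sqrt (tauL s₀) := ⟨_, rfl⟩
  have hτs : 0 < τs := by rw [hτs_def]; exact Real.sqrt_pos.2 hτ₀
  have hθc := thetaC_pos hq
  obtain ⟨qc, hqc_def⟩ : ∃ qc : ℝ, qc = q * thetaC q := ⟨_, rfl⟩
  have hqc : 0 ≤ qc := by rw [hqc_def]; positivity
  obtain ⟨δb, hδb, hδb1, hδbsq, hGδb, hqδb⟩ := delta_exists he₀ hG₀0 hτs hqc
  have hgrpos : ∀ i : ℕ, 0 ≤ s₀ + i * h := fun i => by positivity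
  obtain ⟨θs, hθs0, hθs1, hθsP⟩ := exists_theta_all hq hε₃ (fun i : ℕ => s₀ + i * h) hgrpos Ng
  obtain ⟨E, hE⟩ : ∃ E : ℝ, E = Real.exp (-(c / Real.sqrt t)) := ⟨_, rfl⟩
  have hE0 : 0 < E := by rw [hE]; exact Real.exp_pos _
  have hE1 : E ≤ 1 := by
    rw [hE, Real.exp_le_one_iff]
    have h0 : 0 ≤ c / Real.sqrt t := by positivity
    linarith only [h0]
  have hEt : t * K * E ≤ 1 := by
    have h1 : t * K * E ≤ t * K * 1 := mul_le_mul_of_nonneg_left hE1 (by positivity)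
    linarith only [h1, ht3]
  refine ⟨max θs (max (thetaC q - δb / 2) (thetaC q / 2)), ?_, ?_, ?_⟩
  · exact lt_of_lt_of_le (by positivity) (le_max_of_le_right (le_max_right _ _))
  · exact max_lt hθs1 (max_lt (by linarith only [hδb]) (by linarith only [hθc]))
  intro θ₁ θ₂ M₁ M₂ N₁ N₂ h1 h1' h2 h2' hS₁ hS₂ v
  have hθ₁s : θs ≤ θ₁ := (le_max_left _ _).trans h1
  have hθ₂s : θs ≤ θ₂ := (le_max_left _ _).trans h2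
  have hθ₁d : thetaC q - δb / 2 ≤ θ₁ := (le_max_of_le_right (le_max_left _ _)).trans h1
  have hθ₂d : thetaC q - δb / 2 ≤ θ₂ := (le_max_of_le_right (le_max_left _ _)).trans h2
  have hθ₁h : thetaC q / 2 ≤ θ₁ := (le_max_of_le_right (le_max_right _ _)).trans h1
  have hθ₂h : thetaC q / 2 ≤ θ₂ := (le_max_of_le_right (le_max_right _ _)).trans h2
  have hcrit₁ := critPar_of hq hθ₁h h1'
  have hcrit₂ := critPar_of hq hθ₂h h2'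
  have hg₁ := hcrit₁.good
  have hg₂ := hcrit₂.good
  have hD₁ := abs_sub_thetaC_le hθ₁d h1' hδb
  have hD₂ := abs_sub_thetaC_le hθ₂d h2' hδb
  have hDb : |θ₁ - thetaC q| + |θ₂ - thetaC q| ≤ δb := by linarith only [hD₁, hD₂]
  have hγ₁ := gamma_ok hq hg₁.nonneg h1' hθ₁d hs₀.le hτs_def hqc_def hqδb
  have hγ₂ := gamma_ok hq hg₂.nonneg h2' hθ₂d hs₀.le hτs_def hqc_def hqδb
  obtain ⟨X, hX0, hX, hmain⟩ := pair_small hT hreg hq hp hK hc hcrit₁ hcrit₂ h1' h2' hS₁ hS₂ v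
    (fun hd hpos hr γ₁ γ₂ hle h0 h8 R => htemp hcrit₁ hcrit₂ hS₁ hS₂ hd hpos hr γ₁ γ₂ v hle h0 h8 R)
    hx hs₀ hh0 hend ht₁ htone hgrdy' hγ₁ hγ₂ hDb hθs0 hθs1 hθ₁s hθ₂s (fun i hi => hθsP i hi)
    he₀ he₀1 hε₃ hδ'_def (by rw [← hG₀]; exact hh1) (by rw [← hG₀]; exact hGε₃)
    (by rw [← hG₀]; exact hGδb) hδbsq
    (by
      have h3 : h * K * s₀ ^ (-(1 / 2 + 1 / (p : ℝ))) * δ' ^ (-(2 / (p : ℝ)))
          = K * s₀ ^ (-(1 / 2 + 1 / (p : ℝ))) * δ' ^ (-(2 / (p : ℝ))) * h := by ring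
      rw [h3]; exact hh3)
    (by rw [← hE]; exact hEt) hs₀x
  rw [← hE] at hX
  have ha0 : 0 ≤ ∫ ω, (M₁ t v ω - M₂ t v ω) ^ 2 ∂labelMeasure V := a_nonneg _ _
  obtain ⟨Dc, hDc_def⟩ : ∃ Dc : ℝ, Dc = (4 / (p : ℝ)) * K / (1 / 2 - 1 / (p : ℝ)) := ⟨_, rfl⟩
  have hDc : 0 < Dc := by rw [hDc_def]; positivity
  have hsplit : (4 / (p : ℝ)) * K * (h * s₀ ^ (-(1 / 2 + 1 / (p : ℝ))) + t ^ (1 / 2 - 1 / (p : ℝ)) / (1 / 2 - 1 / (p : ℝ)))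
      = ((4 / (p : ℝ)) * K * s₀ ^ (-(1 / 2 + 1 / (p : ℝ)))) * h + Dc * t ^ (1 / 2 - 1 / (p : ℝ)) := by
    rw [hDc_def]; ring
  rw [hsplit] at hmain
  have hu0 : (0 : ℝ) ≤ 2 / (p : ℝ) := by positivity
  have hu1 : (2 : ℝ) / (p : ℝ) ≤ 1 := by
    rw [div_le_one hp0]
    exact_mod_cast (by omega : 2 ≤ p)
  have hEtnn : 0 ≤ t * K * E := by positivity
  have hfinal := final_pow (Nn := Nn) hw hu hu0 hu1 ha0 hX0 he₀ (by rw [hu]; exact he₀u) hEtnn hX ht0 hβw hε₄ hDc hh2 hmain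
  obtain ⟨Gc, hGc_def⟩ : ∃ Gc : ℝ, Gc = ((2 * Nn).factorial : ℝ) / c ^ (2 * Nn) := ⟨_, rfl⟩
  have hGc : 0 < Gc := by
    rw [hGc_def]
    have h3 : (0 : ℝ) < ((2 * Nn).factorial : ℝ) := by exact_mod_cast Nat.factorial_pos _
    positivity
  have hE2 : E ≤ Gc * t ^ Nn := by
    rw [hE, hGc_def]
    exact exp_neg_le hc ht0 Nn
  rw [← hGc_def, ← hDc_def]
  exact final_bound hK hGc hDc ht0 htone rfl hE2 hε₄w hfinal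

end ClosureAux

open ClosureAux in
/-- Stage 1 as a statement. -/
theorem small_time_bound {q : ℕ} (hT : G.IsTree) (hreg : G.IsRegularOfDegree (q + 1)) (hq : 2 ≤ q)
    (Nn : ℕ) : ∃ CN tN : ℝ, 0 < CN ∧ 0 < tN ∧ ∀ (t : ℝ), (∃ n, Dy n t) → 0 < t → t ≤ tN → ∀ ε : ℝ, 0 < ε →
      ∃ θ₀ : ℝ, 0 < θ₀ ∧ θ₀ < thetaC q ∧ ∀ {θ₁ θ₂ : ℝ} {M₁ M₂ : ℝ → V → (V → unitInterval) → ℝ}
        {N₁ N₂ : ℝ → V → V → (V → unitInterval) → ℝ}, θ₀ ≤ θ₁ → θ₁ < thetaC q → θ₀ ≤ θ₂ → θ₂ < thetaC q →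
        IsSol G θ₁ M₁ N₁ → IsSol G θ₂ M₂ N₂ → ∀ v : V,
        ∫ ω, (M₁ t v ω - M₂ t v ω) ^ 2 ∂labelMeasure V ≤ CN * t ^ Nn + ε := by
  classical
  obtain ⟨hp, hpw, hu, hβ, hβw⟩ := exponents_facts Nn
  obtain ⟨p, hp_def⟩ : ∃ p : ℕ, p = 4 * Nn + 6 := ⟨_, rfl⟩
  obtain ⟨w, hw_def⟩ : ∃ w : ℕ, w = 2 * Nn + 3 := ⟨_, rfl⟩
  rw [← hp_def] at hp hpw hu hβ hβw
  rw [← hw_def] at hpw hu hβw
  have hw : w ≠ 0 := by omega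
  have hp0 : (0 : ℝ) < p := by exact_mod_cast (by omega : 0 < p)
  obtain ⟨K, c, t₁, hK, hc, ht₁, htemp⟩ := tempered_bound (G := G) hT hreg hq p hp
  obtain ⟨Cx, hCx, hx⟩ := xBar_le_sqrt (q := q) hq
  have hDc : 0 < (4 / (p : ℝ)) * K / (1 / 2 - 1 / (p : ℝ)) := by positivity
  have hGc : 0 < ((2 * Nn).factorial : ℝ) / c ^ (2 * Nn) := by
    have h3 : (0 : ℝ) < ((2 * Nn).factorial : ℝ) := by exact_mod_cast Nat.factorial_pos _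
    positivity
  refine ⟨3 ^ w * (K * (((2 * Nn).factorial : ℝ) / c ^ (2 * Nn))
            + ((4 / (p : ℝ)) * K / (1 / 2 - 1 / (p : ℝ))) ^ w) + 1, min t₁ (min (1 / 2) (1 / K)),
    by positivity, by positivity, ?_⟩
  · intro t htd ht0 htle ε hε
    have ht1 : t ≤ t₁ := htle.trans (min_le_left _ _)
    have ht2 : t ≤ 1 / 2 := htle.trans ((min_le_right _ _).trans (min_le_left _ _))
    have ht3 : t * K ≤ 1 := by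
      have h3 : t ≤ 1 / K := htle.trans ((min_le_right _ _).trans (min_le_right _ _))
      rwa [le_div_iff₀ hK] at h3
    exact small_core hT hreg hq hp hw hu hβ hβw hK hc hCx htemp hx htd ht0 ht1 ht2 ht3 hε

namespace ClosureAux

theorem inv_sq_le {x τ ρ r : ℝ} (hτ : 0 < τ) (hτρ : 1 / τ ≤ 8 / ρ + 16) (hx : Real.sqrt τ / 8 ≤ x)
    (hr : 0 < r) (hrρ : r ≤ ρ) : 1 / x ^ 2 ≤ 512 * (1 / r) + 1024 := by
  have hs : 0 < Real.sqrt τ / 8 := by have := Real.sqrt_pos.2 hτ; positivity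
  have hx0 : 0 < x := lt_of_lt_of_le hs hx
  have h1 : τ / 64 ≤ x ^ 2 := by
    have h2 : (Real.sqrt τ / 8) ^ 2 ≤ x ^ 2 := pow_le_pow_left₀ hs.le hx 2
    have h3 : (Real.sqrt τ / 8) ^ 2 = τ / 64 := by
      rw [div_pow, Real.sq_sqrt hτ.le]; norm_num
    linarith
  have h2 : 1 / x ^ 2 ≤ 1 / (τ / 64) := one_div_le_one_div_of_le (by positivity) h1
  have h3 : 1 / (τ / 64) = 64 * (1 / τ) := by field_simp
  have hρ : 0 < ρ := lt_of_lt_of_le hr hrρ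
  have h4 : 8 / ρ ≤ 8 * (1 / r) := by
    rw [div_eq_mul_one_div]
    have : 1 / ρ ≤ 1 / r := one_div_le_one_div_of_le hr hrρ
    linarith
  rw [h3] at h2
  linarith

/-- Choice of the first time. -/
theorem t1_exists {X tN : ℝ} (htN : 0 < tN) :
    ∃ (m : ℕ) (t₁ Λ : ℝ), t₁ = (1 / 2) ^ m ∧ 0 < t₁ ∧ t₁ ≤ tN ∧ t₁ ≤ 1 / 2 ∧ Λ = Real.log (1 / t₁) ∧
      0 ≤ Λ ∧ X ≤ Λ := by
  have hlog2 : 0 < Real.log 2 := Real.log_pos (by norm_num)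
  obtain ⟨m₂, hm₂⟩ := exists_nat_ge (X / Real.log 2)
  rw [div_le_iff₀ hlog2] at hm₂
  obtain ⟨m, hmm₂, hm⟩ := exists_pow_le (ρ := min tN (1 / 2)) (lt_min htN (by norm_num)) m₂
  have hΛm : Real.log (1 / (1 / 2) ^ m) = m * Real.log 2 := by
    rw [one_div, ← inv_pow, Real.log_pow]
    norm_num
  refine ⟨m, _, _, rfl, by positivity, hm.trans (min_le_left _ _), hm.trans (min_le_right _ _), rfl, ?_, ?_⟩
  · rw [hΛm]; positivity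
  · rw [hΛm]
    have h1 : (m₂ : ℝ) ≤ m := by exact_mod_cast hmm₂
    have h2 : (m₂ : ℝ) * Real.log 2 ≤ m * Real.log 2 := mul_le_mul_of_nonneg_right h1 hlog2.le
    linarith only [h2, hm₂]

/-- Choice of the closeness to the critical point. -/
theorem delta2_exists {ε₁ Z w qc : ℝ} (hε₁ : 0 < ε₁) (hZ : 0 ≤ Z) (hw : 0 < w) (hqc : 0 ≤ qc) :
    ∃ δb : ℝ, 0 < δb ∧ δb ≤ 1 ∧ δb ≤ ε₁ ∧ Z * δb ≤ ε₁ ∧ qc * δb ≤ 8 * w := by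
  have hpos : 0 < min 1 (min (min ε₁ (ε₁ / (Z + 1))) (8 * w / (qc + 1))) :=
    lt_min one_pos (lt_min (lt_min hε₁ (by positivity)) (by positivity))
  refine ⟨_, hpos, min_le_left _ _, (min_le_right _ _).trans ((min_le_left _ _).trans (min_le_left _ _)), ?_, ?_⟩
  · exact mul_le_of_le_div_succ hZ hε₁.le hpos.le
      ((min_le_right _ _).trans ((min_le_left _ _).trans (min_le_right _ _)))
  · exact mul_le_of_le_div_succ hqc (by positivity) hpos.le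
      ((min_le_right _ _).trans (min_le_right _ _))

/-- Choice of the mesh for large times. -/
theorem mesh2_exists {t₁ Y : ℝ} (ht₁ : 0 < t₁) (hY : 0 ≤ Y) (m : ℕ) :
    ∃ (m' : ℕ) (h : ℝ), m ≤ m' ∧ h = (1 / 2) ^ m' ∧ 0 < h ∧ h ≤ t₁ ∧ Y * h ≤ 1 / 2 := by
  obtain ⟨m', hm'm, hm'⟩ := exists_pow_le (ρ := min t₁ ((1 / 2) / (Y + 1)))
    (lt_min ht₁ (by positivity)) m
  exact ⟨m', _, hm'm, rfl, by positivity, hm'.trans (min_le_left _ _),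
    mul_le_of_le_div_succ hY (by norm_num) (by positivity) (hm'.trans (min_le_right _ _))⟩

/-- The grid between `(1/2)^m` and `Tn`. -/
theorem grid2_facts {m m' Tn : ℕ} (hmm : m ≤ m') (hTn1 : 1 ≤ Tn) :
    ∃ Ng : ℕ, (Ng : ℝ) * (1 / 2) ^ m' = (Tn : ℝ) - (1 / 2) ^ m ∧
      ∀ i : ℕ, ∃ n, Dy n ((1 / 2) ^ m + (i : ℝ) * (1 / 2) ^ m') := by
  have hsplit : (1 / 2 : ℝ) ^ m' = (1 / 2) ^ (m' - m) * (1 / 2) ^ m := by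
    rw [← pow_add]; congr 1; omega
  have h21 : (2 : ℝ) ^ (m' - m) * (1 / 2) ^ (m' - m) = 1 := by
    rw [← mul_pow]; norm_num
  have h22 : (2 : ℝ) ^ m' * (1 / 2) ^ m' = 1 := by
    rw [← mul_pow]; norm_num
  have hsJ : (1 / 2 : ℝ) ^ m = (2 ^ (m' - m) : ℝ) * (1 / 2) ^ m' := by
    rw [hsplit]
    calc (1 / 2 : ℝ) ^ m = (1 / 2) ^ m * ((2 : ℝ) ^ (m' - m) * (1 / 2) ^ (m' - m)) := by rw [h21, mul_one]
      _ = _ := by ring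
  have hTJ : (Tn : ℝ) = (Tn * 2 ^ m' : ℝ) * (1 / 2) ^ m' := by
    calc (Tn : ℝ) = Tn * ((2 : ℝ) ^ m' * (1 / 2) ^ m') := by rw [h22, mul_one]
      _ = _ := by ring
  obtain ⟨Ng, hNg⟩ : ∃ Ng : ℕ, Ng + 2 ^ (m' - m) = Tn * 2 ^ m' := by
    refine ⟨Tn * 2 ^ m' - 2 ^ (m' - m), Nat.sub_add_cancel ?_⟩
    calc 2 ^ (m' - m) ≤ 2 ^ m' := Nat.pow_le_pow_right (by norm_num) (by omega)
      _ ≤ Tn * 2 ^ m' := Nat.le_mul_of_pos_left _ (by omega)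
  refine ⟨Ng, ?_, ?_⟩
  · have h1 : ((Ng + 2 ^ (m' - m) : ℕ) : ℝ) = ((Tn * 2 ^ m' : ℕ) : ℝ) := by rw [hNg]
    push_cast at h1
    rw [hsJ]
    nth_rewrite 1 [hTJ]
    rw [← h1]
    ring
  · intro i
    refine ⟨m', 2 ^ (m' - m) + i, ?_⟩
    have hhm : hh m' = (1 / 2) ^ m' := rfl
    rw [hhm, hsJ]
    push_cast
    ring

/-- `b₀ ≤ 2 C t^N` in logarithmic form. -/
theorem log_b0 {CN t₁ b0 : ℝ} {Nn : ℕ} (hCN : 0 < CN) (ht₁ : 0 < t₁) (hb0 : 0 < b0)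
    (h : b0 ≤ 2 * (CN * t₁ ^ Nn)) :
    Real.log (4 / CN) + Nn * Real.log (1 / t₁) ≤ Real.log (8 / b0) := by
  have he : 0 < CN * t₁ ^ Nn := by positivity
  have h3 : (4 / CN) * (1 / t₁) ^ Nn ≤ 8 / b0 := by
    have h4 : 4 / (CN * t₁ ^ Nn) ≤ 8 / b0 := by
      rw [div_le_div_iff₀ he hb0]
      linarith only [h]
    have h5 : (4 / CN) * (1 / t₁) ^ Nn = 4 / (CN * t₁ ^ Nn) := by
      rw [one_div_pow]
      field_simp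
    rwa [h5]
  have h6 : Real.log ((4 / CN) * (1 / t₁) ^ Nn) = Real.log (4 / CN) + Nn * Real.log (1 / t₁) := by
    rw [Real.log_mul (by positivity) (by positivity), Real.log_pow]
  rw [← h6]
  exact Real.log_le_log (by positivity) h3

/-- The final arithmetic of stage 2. -/
theorem big_final {A h t₁ Tn Ee CN Nn Λ X ε bN b0 Ngh : ℝ}
    (hA : 0 < A) (hEe_def : Ee = Real.exp (-(2 * A * Tn))) (hNn : 1 + 2 * A ≤ Ee * Nn)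
    (hX_def : X = Real.log (8 / ε) + 2 * A * (1 + Real.log Tn + Tn) - Ee * Real.log (4 / CN))
    (hΛX : X ≤ Λ) (hΛ0 : 0 ≤ Λ) (hb0log : Real.log (4 / CN) + Nn * Λ ≤ Real.log (8 / b0))
    (hlog0 : 0 ≤ Real.log (8 / b0)) (hht1 : h / t₁ ≤ 1) (hNgT : Ngh ≤ Tn)
    (hlogT : Real.log ((t₁ + Ngh) / t₁) = Real.log Tn + Λ)
    (hode : Real.exp (-(2 * A * Ngh)) * Real.log (8 / b0)
      - 2 * A * (h / t₁ + Real.log ((t₁ + Ngh) / t₁) + Ngh) ≤ Real.log (8 / bN))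
    (hε : 0 < ε) (hbN : 0 < bN) : bN ≤ ε := by
  have hEe0 : 0 < Ee := by rw [hEe_def]; exact Real.exp_pos _
  have hE1 : Ee * Real.log (8 / b0) ≤ Real.exp (-(2 * A * Ngh)) * Real.log (8 / b0) := by
    apply mul_le_mul_of_nonneg_right _ hlog0
    rw [hEe_def]
    apply Real.exp_le_exp.2
    have h3 := mul_le_mul_of_nonneg_left hNgT (by positivity : 0 ≤ 2 * A)
    linarith only [h3]
  rw [hlogT] at hode
  have h3 : Ee * (Real.log (4 / CN) + Nn * Λ) ≤ Ee * Real.log (8 / b0) :=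
    mul_le_mul_of_nonneg_left hb0log hEe0.le
  have h4 : (1 + 2 * A) * Λ ≤ Ee * Nn * Λ := mul_le_mul_of_nonneg_right hNn hΛ0
  have h5 : 2 * A * (h / t₁ + (Real.log Tn + Λ) + Ngh) ≤ 2 * A * (1 + Real.log Tn + Λ + Tn) := by
    have h6 : h / t₁ + (Real.log Tn + Λ) + Ngh ≤ 1 + Real.log Tn + Λ + Tn := by
      linarith only [hht1, hNgT]
    exact mul_le_mul_of_nonneg_left h6 (by positivity)
  rw [hX_def] at hΛX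
  have hfinal : Real.log (8 / ε) ≤ Real.log (8 / bN) := by
    linarith only [hE1, hode, h3, h4, h5, hΛX]
  have h7 := (Real.log_le_log_iff (by positivity) (by positivity)).1 hfinal
  rw [div_le_div_iff₀ hε hbN] at h7
  linarith only [h7]

section pairbig
variable {q : ℕ} {θ₁ θ₂ : ℝ} {M₁ M₂ : ℝ → V → (V → unitInterval) → ℝ}
  {N₁ N₂ : ℝ → V → V → (V → unitInterval) → ℝ}

/-- One step of stage 2. -/
theorem step_big (hT : G.IsTree) (hreg : G.IsRegularOfDegree (q + 1)) (hq : 2 ≤ q)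
    {C₁ C₂ A Z w t₁ ε₁ D2 β r₁ r₂ : ℝ} (hC₁ : 0 < C₁) (hC₂ : 0 < C₂) (hA_def : A = 2049 * C₁ + 1)
    (hZ_def : Z = C₂ * (2 * (1 / w ^ 3))) (hcrit₁ : CritPar q θ₁) (hcrit₂ : CritPar q θ₂)
    (hq₁ : θ₁ ^ 2 * q < 1) (hq₂ : θ₂ ^ 2 * q < 1)
    (hS₁ : IsSol G θ₁ M₁ N₁) (hS₂ : IsSol G θ₂ M₂ N₂) (v : V)
    (hcoh : ∀ {r a : ℝ}, (∃ n, Dy n r) → 0 < r →
      ∫ ω, (M₁ r v ω - M₂ r v ω) ^ 2 ∂labelMeasure V + (θ₁ - θ₂) ^ 2 ≤ a → 0 < a → a ≤ 8 →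
      ∀ R : ℕ, ∑ u ∈ tball G v R,
        ∫ ω, (covPath G θ₁ (fun w => M₁ r w ω) (fun y x => N₁ r y x ω) v u
          - covPath G θ₂ (fun w => M₂ r w ω) (fun y x => N₂ r y x ω) v u) ^ 2 ∂labelMeasure V
      ≤ C₁ * (1 / xBar θ₁ r q ^ 2 + 1 / xBar θ₂ r q ^ 2 + 1 + Real.log (8 / a)) * a
        + C₂ * (θ₁ - θ₂) ^ 2 * (1 / xBar θ₁ r q ^ 3 + 1 / xBar θ₂ r q ^ 3))
    (hw : 0 < w) (hw_def : w = Real.sqrt (tauL t₁) / 8) (ht₁ : 0 < t₁) (hτ₁ : 0 < tauL t₁)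
    (hγ₁ : ∀ ρ, t₁ ≤ ρ → 1 - q * θ₁ ^ 2 ≤ Real.sqrt (tauL ρ))
    (hγ₂ : ∀ ρ, t₁ ≤ ρ → 1 - q * θ₂ ^ 2 ≤ Real.sqrt (tauL ρ))
    (hr₁ : t₁ ≤ r₁) (hr₁₂ : r₁ ≤ r₂) (hd₁ : ∃ n, Dy n r₁) (hd₂ : ∃ n, Dy n r₂)
    (hθdiff : (θ₁ - θ₂) ^ 2 ≤ D2) (hD20 : 0 ≤ D2) (hZD : Z * D2 ≤ ε₁) (hε₁β : ε₁ ≤ β)
    (hβpos : 0 < β) (hβ8 : β ≤ 8)
    (hβ : ∫ ω, (M₁ r₂ v ω - M₂ r₂ v ω) ^ 2 ∂labelMeasure V + D2 ≤ β) (hL : 0 ≤ Real.log (8 / β)) :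
    ∫ ω, (M₁ r₂ v ω - M₂ r₂ v ω) ^ 2 ∂labelMeasure V ≤ ∫ ω, (M₁ r₁ v ω - M₂ r₁ v ω) ^ 2 ∂labelMeasure V
      + (r₂ - r₁) * (A * (1 / r₁ + 1 + Real.log (8 / β)) * β) := by
  have hg₁ := hcrit₁.good
  have hg₂ := hcrit₂.good
  have hA : 0 < A := by rw [hA_def]; positivity
  have hr₁pos : 0 < r₁ := lt_of_lt_of_le ht₁ hr₁
  have hu : 0 < 1 / r₁ := one_div_pos.2 hr₁pos
  have hB : ∀ ρ, (∃ n, Dy n ρ) → r₁ ≤ ρ → ρ ≤ r₂ → ∀ R : ℕ,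
      ∑ u ∈ tball G v R,
        ∫ ω, (covPath G θ₁ (fun w => M₁ ρ w ω) (fun y x => N₁ ρ y x ω) v u
          - covPath G θ₂ (fun w => M₂ ρ w ω) (fun y x => N₂ ρ y x ω) v u) ^ 2 ∂labelMeasure V
      ≤ A * (1 / r₁ + 1 + Real.log (8 / β)) * β := by
    intro ρ hρd hρ1 hρ2 R
    have hρpos : 0 < ρ := lt_of_lt_of_le hr₁pos hρ1
    have hρs : t₁ ≤ ρ := hr₁.trans hρ1
    have hle : ∫ ω, (M₁ ρ v ω - M₂ ρ v ω) ^ 2 ∂labelMeasure V + (θ₁ - θ₂) ^ 2 ≤ β := by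
      have hm := pair_mono hT hreg hq hg₁ hg₂ hq₁ hq₂ hS₁ hS₂ v hρd hd₂ hρ2
      linarith only [hm, hβ, hθdiff]
    have hbound := hcoh hρd hρpos hle hβpos hβ8 R
    refine hbound.trans ?_
    have hτρ : 0 < tauL ρ := lt_of_lt_of_le hτ₁ (tauL_mono ht₁.le hρs)
    have hinv := inv_tauL_le hρpos
    have hx₁ := xBar_ge hq hcrit₁ hρpos.le (hγ₁ ρ hρs)
    have hx₂ := xBar_ge hq hcrit₂ hρpos.le (hγ₂ ρ hρs)
    have hwρ : w ≤ Real.sqrt (tauL ρ) / 8 := by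
      rw [hw_def]
      have h3 := Real.sqrt_le_sqrt (tauL_mono ht₁.le hρs)
      linarith only [h3]
    have hs₁ := inv_sq_le hτρ hinv hx₁ hr₁pos hρ1
    have hs₂ := inv_sq_le hτρ hinv hx₂ hr₁pos hρ1
    have hw₁ : w ≤ xBar θ₁ ρ q := hwρ.trans hx₁
    have hw₂ : w ≤ xBar θ₂ ρ q := hwρ.trans hx₂
    have hc₁ : 1 / xBar θ₁ ρ q ^ 3 ≤ 1 / w ^ 3 :=
      one_div_le_one_div_of_le (by positivity) (pow_le_pow_left₀ hw.le hw₁ 3)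
    have hc₂ : 1 / xBar θ₂ ρ q ^ 3 ≤ 1 / w ^ 3 :=
      one_div_le_one_div_of_le (by positivity) (pow_le_pow_left₀ hw.le hw₂ 3)
    have hp1 : C₁ * (1 / xBar θ₁ ρ q ^ 2 + 1 / xBar θ₂ ρ q ^ 2 + 1 + Real.log (8 / β)) * β
        ≤ C₁ * (1024 * (1 / r₁) + 2049 + Real.log (8 / β)) * β := by
      apply mul_le_mul_of_nonneg_right _ hβpos.le
      apply mul_le_mul_of_nonneg_left _ hC₁.le
      linarith only [hs₁, hs₂]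
    have hp2 : C₂ * (θ₁ - θ₂) ^ 2 * (1 / xBar θ₁ ρ q ^ 3 + 1 / xBar θ₂ ρ q ^ 3) ≤ β := by
      have hx10 : 0 < xBar θ₁ ρ q := lt_of_lt_of_le hw hw₁
      have hx20 : 0 < xBar θ₂ ρ q := lt_of_lt_of_le hw hw₂
      have h3 : C₂ * (θ₁ - θ₂) ^ 2 * (1 / xBar θ₁ ρ q ^ 3 + 1 / xBar θ₂ ρ q ^ 3)
          ≤ C₂ * D2 * (2 * (1 / w ^ 3)) := by
        apply mul_le_mul (mul_le_mul_of_nonneg_left hθdiff hC₂.le) (by linarith only [hc₁, hc₂])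
          (by positivity) (by positivity)
      have h4 : C₂ * D2 * (2 * (1 / w ^ 3)) = Z * D2 := by rw [hZ_def]; ring
      linarith only [h3, h4, hZD, hε₁β]
    have hp3 : C₁ * (1024 * (1 / r₁) + 2049 + Real.log (8 / β)) + 1
        ≤ A * (1 / r₁ + 1 + Real.log (8 / β)) := by
      rw [hA_def]
      have h3 := mul_pos hC₁ hu
      have h4 := mul_nonneg hC₁.le hL
      linarith only [h3, h4, hu, hL]
    have hp4 := mul_le_mul_of_nonneg_right hp3 hβpos.le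
    linarith only [hp1, hp2, hp4]
  have key := pair_ineq hT hreg hq hg₁ hg₂ hq₁ hq₂ hS₁ hS₂ v hd₁ hd₂ hr₁₂ hB
  have hBnn : 0 ≤ A * (1 / r₁ + 1 + Real.log (8 / β)) * β := by positivity
  have hpi := pi_sq_div_le
  have hκ : Real.pi ^ 2 / 32 * (r₂ - r₁) * (A * (1 / r₁ + 1 + Real.log (8 / β)) * β)
      ≤ 1 * (r₂ - r₁) * (A * (1 / r₁ + 1 + Real.log (8 / β)) * β) :=
    mul_le_mul_of_nonneg_right (mul_le_mul_of_nonneg_right hpi (by linarith only [hr₁₂])) hBnn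
  linarith only [key, hκ]

/-- Stage 2 for one pair of solutions. -/
theorem pair_big (hT : G.IsTree) (hreg : G.IsRegularOfDegree (q + 1)) (hq : 2 ≤ q)
    {C₁ C₂ A Z w t₁ ε₁ D2 h : ℝ} {Ng : ℕ} (hC₁ : 0 < C₁) (hC₂ : 0 < C₂) (hA_def : A = 2049 * C₁ + 1)
    (hZ_def : Z = C₂ * (2 * (1 / w ^ 3))) (hcrit₁ : CritPar q θ₁) (hcrit₂ : CritPar q θ₂)
    (hq₁ : θ₁ ^ 2 * q < 1) (hq₂ : θ₂ ^ 2 * q < 1)
    (hS₁ : IsSol G θ₁ M₁ N₁) (hS₂ : IsSol G θ₂ M₂ N₂) (v : V)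
    (hcoh : ∀ {r a : ℝ}, (∃ n, Dy n r) → 0 < r →
      ∫ ω, (M₁ r v ω - M₂ r v ω) ^ 2 ∂labelMeasure V + (θ₁ - θ₂) ^ 2 ≤ a → 0 < a → a ≤ 8 →
      ∀ R : ℕ, ∑ u ∈ tball G v R,
        ∫ ω, (covPath G θ₁ (fun w => M₁ r w ω) (fun y x => N₁ r y x ω) v u
          - covPath G θ₂ (fun w => M₂ r w ω) (fun y x => N₂ r y x ω) v u) ^ 2 ∂labelMeasure V
      ≤ C₁ * (1 / xBar θ₁ r q ^ 2 + 1 / xBar θ₂ r q ^ 2 + 1 + Real.log (8 / a)) * a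
        + C₂ * (θ₁ - θ₂) ^ 2 * (1 / xBar θ₁ r q ^ 3 + 1 / xBar θ₂ r q ^ 3))
    (hw : 0 < w) (hw_def : w = Real.sqrt (tauL t₁) / 8) (ht₁ : 0 < t₁) (hτ₁ : 0 < tauL t₁)
    (hγ₁ : ∀ ρ, t₁ ≤ ρ → 1 - q * θ₁ ^ 2 ≤ Real.sqrt (tauL ρ))
    (hγ₂ : ∀ ρ, t₁ ≤ ρ → 1 - q * θ₂ ^ 2 ≤ Real.sqrt (tauL ρ))
    (hh0 : 0 < h) (hgrdy : ∀ i : ℕ, ∃ n, Dy n (t₁ + i * h))
    (hθdiff : (θ₁ - θ₂) ^ 2 ≤ D2) (hD20 : 0 ≤ D2) (hD21 : D2 ≤ 1) (hZD : Z * D2 ≤ ε₁) (hε₁ : 0 < ε₁)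
    (hε₁1 : ε₁ ≤ 1) (hsmall : A * (1 / t₁ + 1 + Real.log (8 / ε₁)) * h ≤ 1 / 2) :
    0 < ∫ ω, (M₁ t₁ v ω - M₂ t₁ v ω) ^ 2 ∂labelMeasure V + D2 + ε₁ ∧
    0 < ∫ ω, (M₁ (t₁ + Ng * h) v ω - M₂ (t₁ + Ng * h) v ω) ^ 2 ∂labelMeasure V + D2 + ε₁ ∧
    0 ≤ Real.log (8 / (∫ ω, (M₁ t₁ v ω - M₂ t₁ v ω) ^ 2 ∂labelMeasure V + D2 + ε₁)) ∧
    Real.exp (-(2 * A * (Ng * h))) * Real.log (8 / (∫ ω, (M₁ t₁ v ω - M₂ t₁ v ω) ^ 2 ∂labelMeasure V + D2 + ε₁))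
      - 2 * A * (h / t₁ + Real.log ((t₁ + Ng * h) / t₁) + Ng * h)
      ≤ Real.log (8 / (∫ ω, (M₁ (t₁ + Ng * h) v ω - M₂ (t₁ + Ng * h) v ω) ^ 2 ∂labelMeasure V + D2 + ε₁)) := by
  have hg₁ := hcrit₁.good
  have hg₂ := hcrit₂.good
  have hA : 0 < A := by rw [hA_def]; positivity
  have hgrpos : ∀ i : ℕ, 0 < t₁ + i * h := fun i => by positivity
  have hgrstep : ∀ i : ℕ, t₁ + ((i + 1 : ℕ) : ℝ) * h = t₁ + i * h + h := fun i => by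
    push_cast; ring
  have h00 : t₁ + ((0 : ℕ) : ℝ) * h = t₁ := by simp
  obtain ⟨a, ha⟩ : ∃ a : ℕ → ℝ, ∀ i, a i =
      ∫ ω, (M₁ (t₁ + i * h) v ω - M₂ (t₁ + i * h) v ω) ^ 2 ∂labelMeasure V := ⟨_, fun _ => rfl⟩
  have ha0 : ∀ i, 0 ≤ a i := fun i => by rw [ha]; exact a_nonneg _ _
  have ha4 : ∀ i, a i ≤ 4 := fun i => by rw [ha]; exact a_le_four hS₁ hS₂ _ _
  obtain ⟨b, hbv⟩ : ∃ b : ℕ → ℝ, ∀ i, b i = a i + D2 + ε₁ := ⟨_, fun _ => rfl⟩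
  have hbε : ∀ i, ε₁ ≤ b i := fun i => by rw [hbv]; linarith only [ha0 i, hD20]
  have hbpos : ∀ i, 0 < b i := fun i => lt_of_lt_of_le hε₁ (hbε i)
  have hb8 : ∀ i, b i ≤ 8 := fun i => by rw [hbv]; linarith only [ha4 i, hD21, hε₁1]
  have hlogb : ∀ i, 0 ≤ Real.log (8 / b i) := by
    intro i
    apply Real.log_nonneg
    rw [le_div_iff₀ (hbpos i)]
    linarith only [hb8 i]
  have hmono : ∀ i < Ng, b i ≤ b (i + 1) := by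
    intro i _
    rw [hbv, hbv, ha, ha]
    have h3 := pair_mono hT hreg hq hg₁ hg₂ hq₁ hq₂ hS₁ hS₂ v (hgrdy i) (hgrdy (i + 1))
      (by rw [hgrstep]; linarith only [hh0])
    linarith only [h3]
  have hstep : ∀ i < Ng, b (i + 1) - b i ≤
      h * A * (1 / (t₁ + i * h) + 1 + Real.log (8 / b (i + 1))) * b (i + 1) := by
    intro i _
    have hrs : t₁ ≤ t₁ + i * h := by
      have h0 : 0 ≤ (i : ℝ) * h := by positivity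
      linarith only [h0]
    have hst : t₁ + i * h ≤ t₁ + ((i + 1 : ℕ) : ℝ) * h := by rw [hgrstep]; linarith only [hh0]
    have hdiff : t₁ + ((i + 1 : ℕ) : ℝ) * h - (t₁ + i * h) = h := by rw [hgrstep]; ring
    have hβ : ∫ ω, (M₁ (t₁ + ((i + 1 : ℕ) : ℝ) * h) v ω - M₂ (t₁ + ((i + 1 : ℕ) : ℝ) * h) v ω) ^ 2 ∂labelMeasure V
        + D2 ≤ b (i + 1) := by
      rw [hbv, ha]
      linarith only [hε₁]
    have key := step_big hT hreg hq hC₁ hC₂ hA_def hZ_def hcrit₁ hcrit₂ hq₁ hq₂ hS₁ hS₂ v hcoh hw hw_def ht₁ hτ₁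
      hγ₁ hγ₂ hrs hst (hgrdy i) (hgrdy (i + 1)) hθdiff hD20 hZD (hbε (i + 1)) (hbpos (i + 1)) (hb8 (i + 1))
      hβ (hlogb (i + 1))
    rw [hdiff, ← ha (i + 1), ← ha i] at key
    have h5 : b (i + 1) - b i = a (i + 1) - a i := by rw [hbv, hbv]; ring
    rw [h5]
    have h6 : h * (A * (1 / (t₁ + i * h) + 1 + Real.log (8 / b (i + 1))) * b (i + 1))
        = h * A * (1 / (t₁ + i * h) + 1 + Real.log (8 / b (i + 1))) * b (i + 1) := by ring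
    linarith only [key, h6]
  have hsmallc : h * A * (1 / t₁ + 1 + Real.log (8 / b 0)) ≤ 1 / 2 := by
    have h3 : Real.log (8 / b 0) ≤ Real.log (8 / ε₁) := by
      apply Real.log_le_log (by have := hbpos 0; positivity)
      exact div_le_div_of_nonneg_left (by norm_num) hε₁ (hbε 0)
    have h4 : A * (1 / t₁ + 1 + Real.log (8 / b 0)) ≤ A * (1 / t₁ + 1 + Real.log (8 / ε₁)) :=
      mul_le_mul_of_nonneg_left (by linarith only [h3]) hA.le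
    have h5 : h * A * (1 / t₁ + 1 + Real.log (8 / b 0)) = (A * (1 / t₁ + 1 + Real.log (8 / b 0))) * h := by ring
    rw [h5]
    exact (mul_le_mul_of_nonneg_right h4 hh0.le).trans hsmall
  have hode := ode_large hA ht₁ hh0 Ng b (fun i _ => ⟨hbpos i, hb8 i⟩) hmono hstep hsmallc
  have hb0 : b 0 = ∫ ω, (M₁ t₁ v ω - M₂ t₁ v ω) ^ 2 ∂labelMeasure V + D2 + ε₁ := by
    rw [hbv, ha, h00]
  have hbN : b Ng = ∫ ω, (M₁ (t₁ + Ng * h) v ω - M₂ (t₁ + Ng * h) v ω) ^ 2 ∂labelMeasure V + D2 + ε₁ := by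
    rw [hbv, ha]
  have h2A : 2 * A * (Ng : ℝ) * h = 2 * A * (Ng * h) := by ring
  rw [hb0, hbN, h2A] at hode
  rw [← hb0, ← hbN] at hode ⊢
  exact ⟨hbpos 0, hbpos Ng, hlogb 0, hode⟩

end pairbig

end ClosureAux

open ClosureAux in
/-- Main theorem of the critical analysis: solutions near the critical point are Cauchy. -/
theorem critical_cauchy {q : ℕ} (hT : G.IsTree) (hreg : G.IsRegularOfDegree (q + 1)) (hq : 2 ≤ q)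
    (T ε : ℝ) (hε : 0 < ε) : ∃ θ₀ : ℝ, 0 < θ₀ ∧ θ₀ < thetaC q ∧
      ∀ {θ₁ θ₂ : ℝ} {M₁ M₂ : ℝ → V → (V → unitInterval) → ℝ}
        {N₁ N₂ : ℝ → V → V → (V → unitInterval) → ℝ}, θ₀ ≤ θ₁ → θ₁ < thetaC q → θ₀ ≤ θ₂ → θ₂ < thetaC q →
        IsSol G θ₁ M₁ N₁ → IsSol G θ₂ M₂ N₂ → ∀ (v : V) (t : ℝ), (∃ n, Dy n t) → t ≤ T →
        ∫ ω, (M₁ t v ω - M₂ t v ω) ^ 2 ∂labelMeasure V ≤ ε := by
  classical
  obtain ⟨C₁, C₂, hC₁, hC₂, hcoh⟩ := coherent_bound (G := G) hT hreg hq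
  obtain ⟨Tn, hTn1, hTn⟩ : ∃ Tn : ℕ, 1 ≤ Tn ∧ T ≤ Tn :=
    ⟨max 1 ⌈T⌉₊, le_max_left _ _, (Nat.le_ceil T).trans (by exact_mod_cast le_max_right _ _)⟩
  have hTnR : (1 : ℝ) ≤ Tn := by exact_mod_cast hTn1
  obtain ⟨A, hA_def⟩ : ∃ A : ℝ, A = 2049 * C₁ + 1 := ⟨_, rfl⟩
  have hA : 0 < A := by rw [hA_def]; positivity
  obtain ⟨Ee, hEe_def⟩ : ∃ Ee : ℝ, Ee = Real.exp (-(2 * A * Tn)) := ⟨_, rfl⟩
  have hEe : 0 < Ee := by rw [hEe_def]; exact Real.exp_pos _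
  obtain ⟨Nn, hNn⟩ : ∃ Nn : ℕ, 1 + 2 * A ≤ Ee * Nn := by
    obtain ⟨Nn, h1⟩ := exists_nat_ge ((1 + 2 * A) / Ee)
    rw [div_le_iff₀ hEe] at h1
    exact ⟨Nn, by linarith only [h1]⟩
  obtain ⟨CN, tN, hCN, htN, hsm⟩ := small_time_bound (G := G) hT hreg hq Nn
  obtain ⟨X, hX_def⟩ : ∃ X : ℝ, X = Real.log (8 / ε) + 2 * A * (1 + Real.log Tn + Tn) - Ee * Real.log (4 / CN) :=
    ⟨_, rfl⟩
  obtain ⟨m, t₁, Λ, ht₁_def, ht₁, ht₁N, ht₁2, hΛ_def, hΛ0, hΛX⟩ := t1_exists (X := X) htN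
  have ht₁d : ∃ n, Dy n t₁ := ⟨m, 1, by rw [ht₁_def]; simp [hh]⟩
  obtain ⟨e, he_def⟩ : ∃ e : ℝ, e = CN * t₁ ^ Nn := ⟨_, rfl⟩
  have he : 0 < e := by rw [he_def]; positivity
  obtain ⟨θ₀₁, hθ₀₁, hθ₀₁c, hθ₀₁S⟩ := hsm t₁ ht₁d ht₁ ht₁N (e / 4) (by positivity)
  have hτ₁ : 0 < tauL t₁ := lt_of_lt_of_le (by positivity) (tauL_ge ht₁.le ht₁2)
  obtain ⟨w, hw_def⟩ : ∃ w : ℝ, w = Real.sqrt (tauL t₁) / 8 := ⟨_, rfl⟩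
  have hw : 0 < w := by
    rw [hw_def]
    have := Real.sqrt_pos.2 hτ₁
    positivity
  obtain ⟨Z, hZ_def⟩ : ∃ Z : ℝ, Z = C₂ * (2 * (1 / w ^ 3)) := ⟨_, rfl⟩
  have hZ : 0 ≤ Z := by rw [hZ_def]; positivity
  obtain ⟨ε₁, hε₁_def⟩ : ∃ ε₁ : ℝ, ε₁ = min (e / 4) 1 := ⟨_, rfl⟩
  have hε₁ : 0 < ε₁ := by rw [hε₁_def]; exact lt_min (by positivity) one_pos
  have hε₁e : ε₁ ≤ e / 4 := by rw [hε₁_def]; exact min_le_left _ _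
  have hε₁1 : ε₁ ≤ 1 := by rw [hε₁_def]; exact min_le_right _ _
  have hθc := thetaC_pos hq
  obtain ⟨qc, hqc_def⟩ : ∃ qc : ℝ, qc = q * thetaC q := ⟨_, rfl⟩
  have hqc : 0 ≤ qc := by rw [hqc_def]; positivity
  obtain ⟨δb, hδb, hδb1, hδb2, hδb3, hqδb⟩ := delta2_exists hε₁ hZ hw hqc
  have hlogε₁ : 0 ≤ Real.log (8 / ε₁) := by
    apply Real.log_nonneg
    rw [le_div_iff₀ hε₁]
    linarith only [hε₁1]
  have hY : 0 ≤ A * (1 / t₁ + 1 + Real.log (8 / ε₁)) := by positivity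
  obtain ⟨m', h, hm'm, hh_def, hh0, hht, hhY⟩ := mesh2_exists ht₁ hY m
  obtain ⟨Ng, hNgh, hgrdy⟩ := grid2_facts (Tn := Tn) hm'm hTn1
  rw [← hh_def, ← ht₁_def] at hNgh
  have hgrdy' : ∀ i : ℕ, ∃ n, Dy n (t₁ + i * h) := by
    intro i
    have := hgrdy i
    rwa [← hh_def, ← ht₁_def] at this
  have hend : t₁ + Ng * h = Tn := by rw [hNgh]; ring
  have hTnd : ∃ n, Dy n (Tn : ℝ) := ⟨0, Tn, by simp [hh]⟩
  have hlogT : Real.log ((t₁ + Ng * h) / t₁) = Real.log Tn + Λ := by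
    rw [hend, div_eq_mul_one_div, Real.log_mul (by positivity) (by positivity), hΛ_def]
  have hht1 : h / t₁ ≤ 1 := by rw [div_le_one ht₁]; exact hht
  have hNgT : (Ng : ℝ) * h ≤ Tn := by rw [hNgh]; linarith only [ht₁]
  refine ⟨max θ₀₁ (max (thetaC q - δb / 2) (thetaC q / 2)), ?_, ?_, ?_⟩
  · exact lt_of_lt_of_le (by positivity) (le_max_of_le_right (le_max_right _ _))
  · exact max_lt hθ₀₁c (max_lt (by linarith only [hδb]) (by linarith only [hθc]))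
  intro θ₁ θ₂ M₁ M₂ N₁ N₂ h1 h1' h2 h2' hS₁ hS₂ v t htd htT
  have hθ₁s : θ₀₁ ≤ θ₁ := (le_max_left _ _).trans h1
  have hθ₂s : θ₀₁ ≤ θ₂ := (le_max_left _ _).trans h2
  have hθ₁d : thetaC q - δb / 2 ≤ θ₁ := (le_max_of_le_right (le_max_left _ _)).trans h1
  have hθ₂d : thetaC q - δb / 2 ≤ θ₂ := (le_max_of_le_right (le_max_left _ _)).trans h2
  have hθ₁h : thetaC q / 2 ≤ θ₁ := (le_max_of_le_right (le_max_right _ _)).trans h1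
  have hθ₂h : thetaC q / 2 ≤ θ₂ := (le_max_of_le_right (le_max_right _ _)).trans h2
  have hcrit₁ := critPar_of hq hθ₁h h1'
  have hcrit₂ := critPar_of hq hθ₂h h2'
  have hg₁ := hcrit₁.good
  have hg₂ := hcrit₂.good
  have hq₁ := sq_mul_lt hq hg₁.nonneg h1'
  have hq₂ := sq_mul_lt hq hg₂.nonneg h2'
  have hD₁ := abs_sub_thetaC_le hθ₁d h1' hδb
  have hD₂ := abs_sub_thetaC_le hθ₂d h2' hδb
  have hDb : |θ₁ - thetaC q| + |θ₂ - thetaC q| ≤ δb := by linarith only [hD₁, hD₂]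
  have hDb0 : 0 ≤ |θ₁ - thetaC q| + |θ₂ - thetaC q| := add_nonneg (abs_nonneg _) (abs_nonneg _)
  obtain ⟨D2, hD2_def⟩ : ∃ D2 : ℝ, D2 = (|θ₁ - thetaC q| + |θ₂ - thetaC q|) ^ 2 := ⟨_, rfl⟩
  have hD20 : 0 ≤ D2 := by rw [hD2_def]; positivity
  have hD2le : D2 ≤ δb := by
    rw [hD2_def]
    have h3 : (|θ₁ - thetaC q| + |θ₂ - thetaC q|) ^ 2 ≤ δb ^ 2 := pow_le_pow_left₀ hDb0 hDb 2
    have h4 : δb ^ 2 ≤ δb := by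
      rw [sq]
      calc δb * δb ≤ δb * 1 := mul_le_mul_of_nonneg_left hδb1 hδb.le
        _ = δb := mul_one _
    exact h3.trans h4
  have hθdiff : (θ₁ - θ₂) ^ 2 ≤ D2 := by
    rw [hD2_def]
    have h3 : |θ₁ - θ₂| ≤ |θ₁ - thetaC q| + |θ₂ - thetaC q| := by
      have h4 := abs_sub_le θ₁ (thetaC q) θ₂
      rwa [abs_sub_comm (thetaC q) θ₂] at h4
    rw [← sq_abs (θ₁ - θ₂)]
    exact pow_le_pow_left₀ (abs_nonneg _) h3 2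
  have hZD : Z * D2 ≤ ε₁ := (mul_le_mul_of_nonneg_left hD2le hZ).trans hδb3
  have hτw : 8 * w = Real.sqrt (tauL t₁) := by rw [hw_def]; ring
  have hγ₁ := gamma_ok hq hg₁.nonneg h1' hθ₁d ht₁.le hτw.symm.symm hqc_def hqδb
  have hγ₂ := gamma_ok hq hg₂.nonneg h2' hθ₂d ht₁.le hτw.symm.symm hqc_def hqδb
  obtain ⟨hb0p, hbNp, hlog0, hode⟩ := pair_big (Ng := Ng) hT hreg hq hC₁ hC₂ hA_def hZ_def hcrit₁ hcrit₂ hq₁ hq₂ hS₁ hS₂ v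
    (fun hd hpos hle h0 h8 R => hcoh hcrit₁ hcrit₂ hS₁ hS₂ hd hpos v hle h0 h8 R)
    hw hw_def ht₁ hτ₁ hγ₁ hγ₂ hh0 hgrdy' hθdiff hD20 (hD2le.trans hδb1) hZD hε₁ hε₁1 hhY
  have hb0 : ∫ ω, (M₁ t₁ v ω - M₂ t₁ v ω) ^ 2 ∂labelMeasure V + D2 + ε₁ ≤ 2 * (CN * t₁ ^ Nn) := by
    have h3 := hθ₀₁S hθ₁s h1' hθ₂s h2' hS₁ hS₂ v
    rw [← he_def] at h3 ⊢
    linarith only [h3, hD2le, hδb2, hε₁e, he]
  have hlogb0 := log_b0 hCN ht₁ hb0p hb0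
  rw [← hΛ_def] at hlogb0
  have hfinal := big_final hA hEe_def hNn hX_def hΛX hΛ0 hlogb0 hlog0 hht1 hNgT hlogT hode hε hbNp
  have hm := pair_mono hT hreg hq hg₁ hg₂ hq₁ hq₂ hS₁ hS₂ v htd hTnd (htT.trans hTn)
  rw [hend] at hfinal
  linarith only [hm, hfinal, hD20, hε₁]

end Crest.Agent.IsingFactor
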