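import Crest.Agent.IsingFactor.CohPath

/-!
# IsingFactor.CohDet: deterministic combinatorics for the coherent bound (spheres, path splitting,
pathwise bounds of the terms).
-/

set_option autoImplicit false
set_option linter.unusedSectionVars false
set_option linter.unusedVariables false

open MeasureTheory ProbabilityTheory
open Crest.Agent.SRFactor Crest.ProbabilityR.Labels

namespace Crest.Agent.IsingFactor

variable {V : Type*} [DecidableEq V] {G : SimpleGraph V}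

/-- Product of `ϱ` along the geodesic from `a` to `b`, messages directed towards `a`. -/
noncomputable def prodR (G : SimpleGraph V) (θ : ℝ) (ν : V → V → ℝ) (a b : V) : ℝ :=
  ∏ j ∈ Finset.range (G.dist a b), rhoF θ (ν (pathV G a b (j + 1)) (pathV G a b j))

/-- The term of `b` in the sum `Ξ` rooted at `a`. -/
noncomputable def tmR (G : SimpleGraph V) (q : ℕ) (θ : ℝ) (ν : V → V → ℝ) (a b : V) : ℝ :=
  (1 / (q : ℝ)) ^ G.dist a b * prodR G θ ν a b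

theorem prodR_nonneg {θ : ℝ} (hθ : GoodTheta θ) {ν : V → V → ℝ} (hν : ∀ a b, |ν a b| ≤ 1) (a b : V) :
    0 ≤ prodR G θ ν a b := Finset.prod_nonneg fun _ _ => rhoF_nonneg hθ (hν _ _)

theorem prodR_le_one {θ : ℝ} (hθ : GoodTheta θ) {ν : V → V → ℝ} (hν : ∀ a b, |ν a b| ≤ 1) (a b : V) :
    prodR G θ ν a b ≤ 1 :=
  Finset.prod_le_one (fun _ _ => rhoF_nonneg hθ (hν _ _)) (fun _ _ => rhoF_le_one hθ (hν _ _))

theorem tmR_nonneg {q : ℕ} {θ : ℝ} (hθ : GoodTheta θ) {ν : V → V → ℝ} (hν : ∀ a b, |ν a b| ≤ 1) (a b : V) :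
    0 ≤ tmR G q θ ν a b := mul_nonneg (by positivity) (prodR_nonneg hθ hν a b)

theorem covPath_eq_prodR (θ : ℝ) (m : V → ℝ) (ν : V → V → ℝ) (v u : V) :
    covPath G θ m ν v u = (1 - m v ^ 2) * (θ ^ G.dist v u * prodR G θ ν v u) := by
  unfold covPath prodR
  congr 1
  have := prod_Gf_eq θ (fun j => ν (pathV G v u (j + 1)) (pathV G v u j)) (Finset.range (G.dist v u))
  rw [Finset.card_range] at this
  exact this

section geo
variable (hT : G.IsTree)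
include hT

omit [DecidableEq V] in
theorem isGeo_mono {x : ℕ → V} {k i : ℕ} (h : IsGeo G x k) (hi : i ≤ k) : IsGeo G x i :=
  fun a b ha hb => h a b (ha.trans hi) (hb.trans hi)

omit [DecidableEq V] hT in
theorem isGeo_shift {x : ℕ → V} {k s l : ℕ} (h : IsGeo G x k) (hl : s + l ≤ k) :
    IsGeo G (fun i => x (s + i)) l := by
  intro a b ha hb
  have := h (s + a) (s + b) (by omega) (by omega)
  rw [this]
  simp only [Nat.dist]
  omega

/-- Splitting of the geodesic from `a` (on the `v` side) to `b` (on the `w` side) of the edge `v w`. -/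
theorem path_split {v w a b : V} (hvw : G.Adj v w) (ha : G.dist a v < G.dist a w)
    (hb : G.dist b w < G.dist b v) :
    G.dist a b = G.dist a v + 1 + G.dist w b ∧
    (∀ i ≤ G.dist a v, pathV G a b i = pathV G a v i) ∧
    (∀ i ≤ G.dist w b, pathV G a b (G.dist a v + 1 + i) = pathV G w b i) := by
  have hd : G.dist a b = G.dist a v + 1 + G.dist w b := dist_across hT hvw ha hb
  have hgeo := isGeo_pathV hT a b
  have hself : G.dist w w < G.dist w v := by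
    rw [SimpleGraph.dist_self, tdc w v, tdist_one hT hvw]; omega
  have hself' : G.dist v v < G.dist v w := by
    rw [SimpleGraph.dist_self, tdist_one hT hvw]; omega
  have hvb : G.dist v b = 1 + G.dist w b := by
    have := dist_across hT hvw hself' hb
    rw [SimpleGraph.dist_self] at this
    omega
  have haw : G.dist a w = G.dist a v + 1 := by
    have := dist_across hT hvw ha hself
    rw [SimpleGraph.dist_self] at this
    omega
  -- p j = v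
  have hpv : pathV G a b (G.dist a v) = v := by
    obtain ⟨j, hj, hjv⟩ := (dist_add_eq_iff_mem_path hT (v := a) (u := b) (w := v)).1 (by omega)
    have h1 := hgeo 0 j (by omega) hj
    have h2 : G.dist a v = j := by
      have h3 : G.dist (pathV G a b 0) (pathV G a b j) = G.dist a v := by
        rw [← hjv]; rfl
      rw [← h3, h1]; simp [Nat.dist]
    rw [h2, ← hjv]
  have hpw : pathV G a b (G.dist a v + 1) = w := by
    obtain ⟨j, hj, hjv⟩ := (dist_add_eq_iff_mem_path hT (v := a) (u := b) (w := w)).1 (by omega)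
    have h1 := hgeo 0 j (by omega) hj
    have h2 : G.dist a w = j := by
      have h3 : G.dist (pathV G a b 0) (pathV G a b j) = G.dist a w := by
        rw [← hjv]; rfl
      rw [← h3, h1]; simp [Nat.dist]
    rw [← haw, h2, ← hjv]
  refine ⟨hd, ?_, ?_⟩
  · intro i hi
    have h1 : IsGeo G (pathV G a b) (G.dist a v) := isGeo_mono hT hgeo (by omega)
    have h2 := isGeo_eq_pathV hT h1 hi
    rw [h2, hpv]; rfl
  · intro i hi
    have h1 : IsGeo G (fun i => pathV G a b (G.dist a v + 1 + i)) (G.dist w b) :=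
      isGeo_shift hgeo (by omega)
    have h2 := isGeo_eq_pathV hT h1 hi
    have h3 : pathV G a b (G.dist a v + 1 + G.dist w b) = b := by
      rw [← hd]; exact pathV_end hT a b
    simp only [add_zero, hpw, h3] at h2
    exact h2

/-- Peeling the first step of `prodR`. -/
theorem prodR_first {θ : ℝ} {ν : V → V → ℝ} {v w b : V} (hvw : G.Adj v w)
    (hb : G.dist b w < G.dist b v) :
    G.dist v b = 1 + G.dist w b ∧ prodR G θ ν v b = prodR G θ ν w b * rhoF θ (ν w v) := by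
  have hself' : G.dist v v < G.dist v w := by
    rw [SimpleGraph.dist_self, tdist_one hT hvw]; omega
  obtain ⟨h1, _, h3⟩ := path_split hT hvw hself' hb
  rw [SimpleGraph.dist_self] at h1 h3
  simp only [zero_add] at h1 h3
  refine ⟨by omega, ?_⟩
  unfold prodR
  rw [h1, add_comm 1, Finset.prod_range_succ']
  congr 1
  · refine Finset.prod_congr rfl fun i hi => ?_
    have hi' : i < G.dist w b := Finset.mem_range.1 hi
    have e1 := h3 (i + 1) (by omega)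
    have e2 := h3 i (by omega)
    rw [show i + 1 + 1 = 1 + (i + 1) by omega, e1, show i + 1 = 1 + i by omega, e2]
  · have e1 := h3 0 (by omega)
    simp only [add_zero] at e1
    rw [zero_add, e1]
    rfl

end geo

section spheres
variable [G.LocallyFinite]

/-- The sphere of radius `k` around `v`. -/
noncomputable def Sph (G : SimpleGraph V) [G.LocallyFinite] (v : V) (k : ℕ) : Finset V :=
  (tball G v k).filter (fun w => G.dist v w = k)

/-- The vertices at depth `k` in `T(y → x)`. -/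
noncomputable def Sd (G : SimpleGraph V) [G.LocallyFinite] (y x : V) (k : ℕ) : Finset V :=
  (tsub G y x k).filter (fun w => G.dist y w = k)

variable (hT : G.IsTree)
include hT

theorem mem_Sph {v u : V} {k : ℕ} : u ∈ Sph G v k ↔ G.dist v u = k := by
  simp only [Sph, Finset.mem_filter, mem_tball hT]
  constructor
  · exact fun h => h.2
  · exact fun h => ⟨h.le, h⟩

theorem mem_Sd {y x u : V} {k : ℕ} : u ∈ Sd G y x k ↔ G.dist y u = k ∧ G.dist u y < G.dist u x := by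
  simp only [Sd, Finset.mem_filter, mem_tsub hT]
  constructor
  · exact fun h => ⟨h.2, h.1.2⟩
  · exact fun h => ⟨⟨h.1.le, h.2⟩, h.1⟩

theorem sum_tball_eq (v : V) (R : ℕ) (f : V → ℝ) :
    ∑ u ∈ tball G v R, f u = ∑ k ∈ Finset.range (R + 1), ∑ u ∈ Sph G v k, f u := by
  rw [← Finset.sum_fiberwise_of_maps_to (g := fun a => G.dist v a) (t := Finset.range (R + 1))]
  · refine Finset.sum_congr rfl fun k hk => ?_
    have hk' : k ≤ R := by have := Finset.mem_range.1 hk; omega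
    refine Finset.sum_congr ?_ fun _ _ => rfl
    ext u
    simp only [Finset.mem_filter, mem_tball hT, mem_Sph hT]
    constructor
    · exact fun h => h.2
    · exact fun h => ⟨h ▸ hk', h⟩
  · intro u hu
    have := (mem_tball hT).1 hu
    exact Finset.mem_range.2 (by omega)

theorem sum_tsub_eq (y x : V) (R : ℕ) (f : V → ℝ) :
    ∑ u ∈ tsub G y x R, f u = ∑ k ∈ Finset.range (R + 1), ∑ u ∈ Sd G y x k, f u := by
  rw [← Finset.sum_fiberwise_of_maps_to (g := fun a => G.dist y a) (t := Finset.range (R + 1))]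
  · refine Finset.sum_congr rfl fun k hk => ?_
    have hk' : k ≤ R := by have := Finset.mem_range.1 hk; omega
    refine Finset.sum_congr ?_ fun _ _ => rfl
    ext u
    simp only [Finset.mem_filter, mem_tsub hT, mem_Sd hT]
    constructor
    · exact fun h => ⟨h.2, h.1.2⟩
    · exact fun h => ⟨⟨h.1 ▸ hk', h.2⟩, h.1⟩
  · intro u hu
    have := ((mem_tsub hT).1 hu).1
    exact Finset.mem_range.2 (by omega)

/-- The sum over the ball of the `Ξ`-terms rooted at `v` is at most the two `Ξ`'s of an edge. -/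
theorem sum_tball_tmR_le {q : ℕ} (hreg : G.IsRegularOfDegree (q + 1)) (hq : 2 ≤ q) {θ : ℝ}
    (hθ : GoodTheta θ) {ν : V → V → ℝ} (hν : ∀ a b, |ν a b| ≤ 1) {v w : V} (hvw : G.Adj v w) (R : ℕ) :
    ∑ u ∈ tball G v R, tmR G q θ ν v u ≤ xiK G q θ ν R v w + xiK G q θ ν R w v := by
  have e1 : xiK G q θ ν R v w = ∑ u ∈ tsub G v w R, tmR G q θ ν v u := xiK_expand hT hreg ν R hvw
  have e2 : xiK G q θ ν R w v = ∑ u ∈ tsub G w v R, tmR G q θ ν w u := xiK_expand hT hreg ν R hvw.symm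
  rw [e1, e2, ← Finset.sum_filter_add_sum_filter_not (tball G v R) (fun u => G.dist u v < G.dist u w)]
  refine add_le_add (le_of_eq rfl) ?_
  have hq0 : (0 : ℝ) < q := by exact_mod_cast (by omega : 0 < q)
  have hq1 : (1 / (q : ℝ)) ≤ 1 := by
    rw [div_le_one hq0]; exact_mod_cast (by omega : 1 ≤ q)
  have hsub : (tball G v R).filter (fun u => ¬ G.dist u v < G.dist u w) ⊆ tsub G w v R := by
    intro u hu
    obtain ⟨h1, h2⟩ := Finset.mem_filter.1 hu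
    have h3 := (mem_tball hT).1 h1
    have h4 := dist_adj_cases hT hvw u
    have h5 : G.dist u w < G.dist u v := by omega
    refine (mem_tsub hT).2 ⟨?_, h5⟩
    rw [tdc w u]
    rw [tdc v u] at h3
    omega
  refine le_trans ?_ (Finset.sum_le_sum_of_subset_of_nonneg hsub fun u _ _ => tmR_nonneg hθ hν _ _)
  refine Finset.sum_le_sum fun u hu => ?_
  obtain ⟨h1, h2⟩ := Finset.mem_filter.1 hu
  have h4 := dist_adj_cases hT hvw u
  have h5 : G.dist u w < G.dist u v := by omega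
  obtain ⟨h6, h7⟩ := prodR_first (θ := θ) (ν := ν) hT hvw h5
  unfold tmR
  rw [h7, h6, pow_add, pow_one]
  have h8 := prodR_nonneg (G := G) hθ hν w u
  have h9 := rhoF_nonneg hθ (hν w v)
  have h10 := rhoF_le_one hθ (hν w v)
  have h11 : (0 : ℝ) ≤ (1 / (q : ℝ)) ^ G.dist w u := by positivity
  have h12 : (0 : ℝ) ≤ 1 / (q : ℝ) := by positivity
  calc 1 / (q : ℝ) * (1 / (q : ℝ)) ^ G.dist w u * (prodR G θ ν w u * rhoF θ (ν w v))
      = (1 / (q : ℝ) * rhoF θ (ν w v)) * ((1 / (q : ℝ)) ^ G.dist w u * prodR G θ ν w u) := by ring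
    _ ≤ 1 * ((1 / (q : ℝ)) ^ G.dist w u * prodR G θ ν w u) := by
        refine mul_le_mul_of_nonneg_right ?_ (mul_nonneg h11 h8)
        nlinarith
    _ = _ := one_mul _

end spheres

/-! ### The three terms of `path_ineq` -/

/-- The weight `W_j` of `path_ineq` in coordinates. -/
noncomputable def WF (θ₁ θ₂ : ℝ) (j k : ℕ) (m₂ n₁ n₂ : ℕ → ℝ) : ℝ :=
  ((1 - m₂ 0 ^ 2) * ∏ i ∈ Finset.range j, Gf θ₂ (n₂ i)) * ∏ i ∈ Finset.Ioo j k, Gf θ₁ (n₁ i)

/-- The `j`-th term of the second sum of `path_ineq` in coordinates. -/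
noncomputable def T2F (θ₁ θ₂ : ℝ) (j k : ℕ) (m₂ n₁ n₂ : ℕ → ℝ) : ℝ :=
  WF θ₁ θ₂ j k m₂ n₁ n₂ * (n₁ j - n₂ j) ^ 2

theorem WF_congr {θ₁ θ₂ : ℝ} {j k : ℕ} (hj : j < k) {m₂ m₂' n₁ n₁' n₂ n₂' : ℕ → ℝ} (h0 : m₂ 0 = m₂' 0)
    (h1 : ∀ i < k, n₁ i = n₁' i) (h2 : ∀ i < k, n₂ i = n₂' i) :
    WF θ₁ θ₂ j k m₂ n₁ n₂ = WF θ₁ θ₂ j k m₂' n₁' n₂' := by
  unfold WF
  rw [h0, Finset.prod_congr rfl (fun i hi => by
      rw [h2 i (by have := Finset.mem_range.1 hi; omega)]),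
    Finset.prod_congr (s₁ := Finset.Ioo j k) rfl (fun i hi => by
      rw [h1 i (Finset.mem_Ioo.1 hi).2])]

theorem T2F_congr {θ₁ θ₂ : ℝ} {j k : ℕ} (hj : j < k) {m₂ m₂' n₁ n₁' n₂ n₂' : ℕ → ℝ} (h0 : m₂ 0 = m₂' 0)
    (h1 : ∀ i < k, n₁ i = n₁' i) (h2 : ∀ i < k, n₂ i = n₂' i) :
    T2F θ₁ θ₂ j k m₂ n₁ n₂ = T2F θ₁ θ₂ j k m₂' n₁' n₂' := by
  unfold T2F
  rw [WF_congr hj h0 h1 h2, h1 j hj, h2 j hj]

theorem WF_nonneg {θ₁ θ₂ : ℝ} (h₁ : GoodTheta θ₁) (h₂ : GoodTheta θ₂) {j k : ℕ} {m₂ n₁ n₂ : ℕ → ℝ}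
    (hm : |m₂ 0| ≤ 1) (hn₁ : ∀ i, |n₁ i| ≤ 1) (hn₂ : ∀ i, |n₂ i| ≤ 1) :
    0 ≤ WF θ₁ θ₂ j k m₂ n₁ n₂ := by
  refine mul_nonneg (mul_nonneg ?_ (Finset.prod_nonneg fun i _ => Gf_nonneg h₂ (hn₂ i)))
    (Finset.prod_nonneg fun i _ => Gf_nonneg h₁ (hn₁ i))
  have := sq_le_one_iff_abs_le_one (m₂ 0) |>.2 hm
  linarith

theorem WF_le {θ₁ θ₂ θb : ℝ} (h₁ : GoodTheta θ₁) (h₂ : GoodTheta θ₂) (hb₁ : θ₁ ≤ θb) (hb₂ : θ₂ ≤ θb)
    {j k : ℕ} (hj : j < k) {m₂ n₁ n₂ : ℕ → ℝ}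
    (hm : |m₂ 0| ≤ 1) (hn₁ : ∀ i, |n₁ i| ≤ 1) (hn₂ : ∀ i, |n₂ i| ≤ 1) :
    WF θ₁ θ₂ j k m₂ n₁ n₂ ≤ θb ^ (k - 1) *
      ((∏ i ∈ Finset.range j, rhoF θ₂ (n₂ i)) * ∏ i ∈ Finset.Ioo j k, rhoF θ₁ (n₁ i)) := by
  have hθb : 0 ≤ θb := h₁.nonneg.trans hb₁
  have e1 := prod_Gf_eq θ₂ n₂ (Finset.range j)
  have e2 := prod_Gf_eq θ₁ n₁ (Finset.Ioo j k)
  rw [Finset.card_range] at e1
  rw [card_Ioo_nat hj] at e2
  have hP := prod_rhoF_nonneg h₂ hn₂ (Finset.range j)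
  have hB := prod_rhoF_nonneg h₁ hn₁ (Finset.Ioo j k)
  have hpow : θ₂ ^ j * θ₁ ^ (k - 1 - j) ≤ θb ^ (k - 1) := by
    have : θb ^ (k - 1) = θb ^ j * θb ^ (k - 1 - j) := by
      rw [← pow_add]; congr 1; omega
    rw [this]
    exact mul_le_mul (pow_le_pow_left₀ h₂.nonneg hb₂ _) (pow_le_pow_left₀ h₁.nonneg hb₁ _)
      (pow_nonneg h₁.nonneg _) (pow_nonneg hθb _)
  unfold WF
  rw [e1, e2]
  have hPB := mul_nonneg hP hB
  have hV : 1 - m₂ 0 ^ 2 ≤ 1 := by nlinarith [sq_nonneg (m₂ 0)]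
  have hV0 : 0 ≤ 1 - m₂ 0 ^ 2 := by
    have := sq_le_one_iff_abs_le_one (m₂ 0) |>.2 hm
    linarith
  calc (1 - m₂ 0 ^ 2) * (θ₂ ^ j * ∏ i ∈ Finset.range j, rhoF θ₂ (n₂ i)) * (θ₁ ^ (k - 1 - j) * ∏ i ∈ Finset.Ioo j k, rhoF θ₁ (n₁ i))
      = (1 - m₂ 0 ^ 2) * ((θ₂ ^ j * θ₁ ^ (k - 1 - j)) * ((∏ i ∈ Finset.range j, rhoF θ₂ (n₂ i)) * ∏ i ∈ Finset.Ioo j k, rhoF θ₁ (n₁ i))) := by ring
    _ ≤ 1 * (θb ^ (k - 1) * ((∏ i ∈ Finset.range j, rhoF θ₂ (n₂ i)) * ∏ i ∈ Finset.Ioo j k, rhoF θ₁ (n₁ i))) := by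
        refine mul_le_mul hV (mul_le_mul_of_nonneg_right hpow hPB) ?_ zero_le_one
        exact mul_nonneg (mul_nonneg (pow_nonneg h₂.nonneg _) (pow_nonneg h₁.nonneg _)) hPB
    _ = _ := one_mul _

/-- Reindexing of the products over `Ioo j (j + 1 + l)`. -/
theorem prod_Ioo_shift (f : ℕ → ℝ) (j l : ℕ) :
    ∏ i ∈ Finset.Ioo j (j + 1 + l), f i = ∏ i ∈ Finset.range l, f (j + 1 + i) := by
  have h : Finset.Ioo j (j + 1 + l) = Finset.Ico (j + 1) (j + 1 + l) := by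
    ext x; simp only [Finset.mem_Ioo, Finset.mem_Ico]; omega
  rw [h, Finset.prod_Ico_eq_prod_range]
  simp

section pathwise
variable (hT : G.IsTree)
include hT

/-- Recentering: the pathwise bound of a term of the second sum. -/
theorem T2_pathwise {q : ℕ} (hq0 : 0 < q) {θ₁ θ₂ θb : ℝ} (h₁ : GoodTheta θ₁) (h₂ : GoodTheta θ₂)
    (hb₁ : θ₁ ≤ θb) (hb₂ : θ₂ ≤ θb) (hbq : θb ^ 2 * q ≤ 1) {v w a b : V} (hvw : G.Adj v w)
    (ha : G.dist a v < G.dist a w) (hb : G.dist b w < G.dist b v) (m₂ : V → ℝ) (hm₂ : ∀ x, |m₂ x| ≤ 1)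
    {ν₁ ν₂ : V → V → ℝ} (hν₁ : ∀ a b, |ν₁ a b| ≤ 1) (hν₂ : ∀ a b, |ν₂ a b| ≤ 1)
    (hsym : covPath G θ₂ m₂ ν₂ a v = covPath G θ₂ m₂ ν₂ v a) :
    θb ^ (G.dist a b - 1) * T2F θ₁ θ₂ (G.dist a v) (G.dist a b) (fun i => m₂ (pathV G a b i))
        (fun i => ν₁ (pathV G a b (i + 1)) (pathV G a b i))
        (fun i => ν₂ (pathV G a b (i + 1)) (pathV G a b i))
      ≤ (ν₁ w v - ν₂ w v) ^ 2 * (tmR G q θ₂ ν₂ v a * tmR G q θ₁ ν₁ w b) := by
  obtain ⟨hk, hp1, hp2⟩ := path_split hT hvw ha hb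
  have hθb : 0 ≤ θb := h₁.nonneg.trans hb₁
  set j := G.dist a v with hj
  set l := G.dist w b with hl
  have hjend : pathV G a b j = v := by
    rw [hp1 j le_rfl, hj]; exact pathV_end hT a v
  have hjend' : pathV G a b (j + 1) = w := by
    have := hp2 0 (by omega)
    simp only [add_zero] at this
    rw [this]; rfl
  have hdva : G.dist v a = j := tdc v a
  -- the covariance part
  have E1 : (1 - m₂ (pathV G a b 0) ^ 2) * ∏ i ∈ Finset.range j,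
      Gf θ₂ (ν₂ (pathV G a b (i + 1)) (pathV G a b i)) = covPath G θ₂ m₂ ν₂ a v := by
    unfold covPath
    rw [← hj]
    congr 1
    refine Finset.prod_congr rfl fun i hi => ?_
    have hi' := Finset.mem_range.1 hi
    rw [hp1 (i + 1) (by omega), hp1 i (by omega)]
  have hqpos : (0 : ℝ) < q := by exact_mod_cast hq0
  have hbθ : ∀ {θ : ℝ}, GoodTheta θ → θ ≤ θb → θb * θ ≤ 1 / (q : ℝ) := by
    intro θ hθ hle
    rw [le_div_iff₀ hqpos]
    nlinarith [hθ.nonneg, mul_le_mul_of_nonneg_left hle hθb,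
      mul_le_mul_of_nonneg_right (mul_le_mul_of_nonneg_left hle hθb) hqpos.le]
  have hP := prodR_nonneg (G := G) h₂ hν₂ v a
  have hQ := prodR_nonneg (G := G) h₁ hν₁ w b
  have hV1 : 1 - m₂ v ^ 2 ≤ 1 := by nlinarith [sq_nonneg (m₂ v)]
  have hV0 : 0 ≤ 1 - m₂ v ^ 2 := by
    have := sq_le_one_iff_abs_le_one (m₂ v) |>.2 (hm₂ v)
    linarith
  have hA : covPath G θ₂ m₂ ν₂ a v ≤ θ₂ ^ j * prodR G θ₂ ν₂ v a := by
    rw [hsym, covPath_eq_prodR, hdva]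
    have : 0 ≤ θ₂ ^ j * prodR G θ₂ ν₂ v a := mul_nonneg (pow_nonneg h₂.nonneg _) hP
    nlinarith
  have hA0 : 0 ≤ covPath G θ₂ m₂ ν₂ a v := by
    rw [hsym, covPath_eq_prodR, hdva]
    exact mul_nonneg hV0 (mul_nonneg (pow_nonneg h₂.nonneg _) hP)
  -- the suffix part
  have E3 : ∏ i ∈ Finset.Ioo j (G.dist a b), Gf θ₁ (ν₁ (pathV G a b (i + 1)) (pathV G a b i))
      = θ₁ ^ l * prodR G θ₁ ν₁ w b := by
    rw [hk, prod_Ioo_shift]
    have : ∏ i ∈ Finset.range l, Gf θ₁ (ν₁ (pathV G a b (j + 1 + i + 1)) (pathV G a b (j + 1 + i)))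
        = ∏ i ∈ Finset.range l, Gf θ₁ (ν₁ (pathV G w b (i + 1)) (pathV G w b i)) := by
      refine Finset.prod_congr rfl fun i hi => ?_
      have hi' := Finset.mem_range.1 hi
      rw [hp2 i (by omega), show j + 1 + i + 1 = j + 1 + (i + 1) by omega, hp2 (i + 1) (by omega)]
    rw [this, prod_Gf_eq, Finset.card_range]
    rfl
  have hk1 : G.dist a b - 1 = j + l := by omega
  unfold T2F WF
  beta_reduce
  rw [E1, E3, hk1, hjend, hjend', pow_add]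
  unfold tmR
  rw [hdva, ← hl]
  set Δ := (ν₁ w v - ν₂ w v) ^ 2 with hΔ
  have hΔ0 : 0 ≤ Δ := sq_nonneg _
  set P := prodR G θ₂ ν₂ v a
  set Q := prodR G θ₁ ν₁ w b
  have h3 : (θb * θ₂) ^ j ≤ (1 / (q : ℝ)) ^ j :=
    pow_le_pow_left₀ (mul_nonneg hθb h₂.nonneg) (hbθ h₂ hb₂) _
  have h4 : (θb * θ₁) ^ l ≤ (1 / (q : ℝ)) ^ l :=
    pow_le_pow_left₀ (mul_nonneg hθb h₁.nonneg) (hbθ h₁ hb₁) _
  have h5 : 0 ≤ (θb * θ₂) ^ j := pow_nonneg (mul_nonneg hθb h₂.nonneg) _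
  have h6 : 0 ≤ (θb * θ₁) ^ l := pow_nonneg (mul_nonneg hθb h₁.nonneg) _
  have h7 : 0 ≤ θ₁ ^ l * Q := mul_nonneg (pow_nonneg h₁.nonneg _) hQ
  calc θb ^ j * θb ^ l * (covPath G θ₂ m₂ ν₂ a v * (θ₁ ^ l * Q) * Δ)
      ≤ θb ^ j * θb ^ l * ((θ₂ ^ j * P) * (θ₁ ^ l * Q) * Δ) := by
        refine mul_le_mul_of_nonneg_left ?_ (mul_nonneg (pow_nonneg hθb _) (pow_nonneg hθb _))
        exact mul_le_mul_of_nonneg_right (mul_le_mul_of_nonneg_right hA h7) hΔ0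
    _ = Δ * (((θb * θ₂) ^ j * P) * ((θb * θ₁) ^ l * Q)) := by
        rw [mul_pow, mul_pow]; ring
    _ ≤ _ := by
        refine mul_le_mul_of_nonneg_left ?_ hΔ0
        exact mul_le_mul (mul_le_mul_of_nonneg_right h3 hP) (mul_le_mul_of_nonneg_right h4 hQ)
          (mul_nonneg h6 hQ) (mul_nonneg (by positivity) hP)

omit hT in
/-- The pathwise bound of the first term. -/
theorem T1_pathwise {q : ℕ} (hq0 : 0 < q) {θ₁ : ℝ} (h₁ : GoodTheta θ₁) (hq₁ : θ₁ ^ 2 * q ≤ 1)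
    {m₁ m₂ : ℝ} (hm₁ : |m₁| ≤ 1) (hm₂ : |m₂| ≤ 1)
    {ν₁ : V → V → ℝ} (hν₁ : ∀ a b, |ν₁ a b| ≤ 1) (v u : V) :
    3 * ((1 - m₁ ^ 2) - (1 - m₂ ^ 2)) ^ 2 * (∏ j ∈ Finset.range (G.dist v u),
        Gf θ₁ (ν₁ (pathV G v u (j + 1)) (pathV G v u j))) ^ 2
      ≤ 12 * (m₁ - m₂) ^ 2 * tmR G q θ₁ ν₁ v u := by
  have hqpos : (0 : ℝ) < q := by exact_mod_cast hq0
  have e := prod_Gf_eq θ₁ (fun j => ν₁ (pathV G v u (j + 1)) (pathV G v u j)) (Finset.range (G.dist v u))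
  rw [Finset.card_range] at e
  rw [e]
  change 3 * ((1 - m₁ ^ 2) - (1 - m₂ ^ 2)) ^ 2 * (θ₁ ^ G.dist v u * prodR G θ₁ ν₁ v u) ^ 2 ≤ _
  unfold tmR
  have hP := prodR_nonneg (G := G) h₁ hν₁ v u
  have hP1 := prodR_le_one (G := G) h₁ hν₁ v u
  have h1 : ((1 - m₁ ^ 2) - (1 - m₂ ^ 2)) ^ 2 ≤ 4 * (m₁ - m₂) ^ 2 := by
    have h2 : ((1 - m₁ ^ 2) - (1 - m₂ ^ 2)) ^ 2 = (m₁ - m₂) ^ 2 * (m₁ + m₂) ^ 2 := by ring
    have h3 : (m₁ + m₂) ^ 2 ≤ 4 := by
      have := abs_le.1 hm₁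
      have := abs_le.1 hm₂
      nlinarith
    rw [h2]
    nlinarith [sq_nonneg (m₁ - m₂)]
  have h2 : (θ₁ ^ G.dist v u * prodR G θ₁ ν₁ v u) ^ 2 ≤ (1 / (q : ℝ)) ^ G.dist v u * prodR G θ₁ ν₁ v u := by
    rw [mul_pow, ← pow_mul, mul_comm (G.dist v u) 2, pow_mul]
    have h3 : (θ₁ ^ 2) ^ G.dist v u ≤ (1 / (q : ℝ)) ^ G.dist v u := by
      refine pow_le_pow_left₀ (sq_nonneg _) ?_ _
      rw [le_div_iff₀ hqpos]; exact hq₁
    have h4 : prodR G θ₁ ν₁ v u ^ 2 ≤ prodR G θ₁ ν₁ v u := by nlinarith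
    exact mul_le_mul h3 h4 (sq_nonneg _) (by positivity)
  have h5 : 0 ≤ (θ₁ ^ G.dist v u * prodR G θ₁ ν₁ v u) ^ 2 := sq_nonneg _
  have h6 : 0 ≤ (m₁ - m₂) ^ 2 := sq_nonneg _
  calc 3 * ((1 - m₁ ^ 2) - (1 - m₂ ^ 2)) ^ 2 * (θ₁ ^ G.dist v u * prodR G θ₁ ν₁ v u) ^ 2
      ≤ 3 * (4 * (m₁ - m₂) ^ 2) * ((1 / (q : ℝ)) ^ G.dist v u * prodR G θ₁ ν₁ v u) := by
        refine mul_le_mul (by linarith) h2 h5 (by positivity)
    _ = _ := by ring

end pathwise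

end Crest.Agent.IsingFactor
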