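import Crest.Agent.IsingFactor.CohDet

/-!
# IsingFactor.CohInt: integrated bounds for the coherent bound: the bounded-measurable calculus and
the finite sums.
-/

set_option autoImplicit false
set_option linter.unusedSectionVars false
set_option linter.unusedVariables false

open MeasureTheory ProbabilityTheory
open Crest.Agent.SRFactor Crest.ProbabilityR.Labels

namespace Crest.Agent.IsingFactor

/-! ### Bounded measurable functions -/

section BM
variable {Ω : Type*} [MeasurableSpace Ω]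

/-- Bounded measurable functions. -/
structure BM (f : Ω → ℝ) : Prop where
  meas : Measurable f
  bdd : ∃ C : ℝ, ∀ ω, |f ω| ≤ C

namespace BM

theorem const (c : ℝ) : BM (fun _ : Ω => c) := ⟨measurable_const, |c|, fun _ => le_rfl⟩

theorem add {f g : Ω → ℝ} (hf : BM f) (hg : BM g) : BM (fun ω => f ω + g ω) := by
  obtain ⟨C, hC⟩ := hf.bdd
  obtain ⟨D, hD⟩ := hg.bdd
  exact ⟨hf.meas.add hg.meas, C + D, fun ω => (abs_add_le _ _).trans (add_le_add (hC ω) (hD ω))⟩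

theorem sub {f g : Ω → ℝ} (hf : BM f) (hg : BM g) : BM (fun ω => f ω - g ω) := by
  obtain ⟨C, hC⟩ := hf.bdd
  obtain ⟨D, hD⟩ := hg.bdd
  exact ⟨hf.meas.sub hg.meas, C + D, fun ω => (abs_sub _ _).trans (add_le_add (hC ω) (hD ω))⟩

theorem mul {f g : Ω → ℝ} (hf : BM f) (hg : BM g) : BM (fun ω => f ω * g ω) := by
  obtain ⟨C, hC⟩ := hf.bdd
  obtain ⟨D, hD⟩ := hg.bdd
  refine ⟨hf.meas.mul hg.meas, C * D, fun ω => ?_⟩
  rw [abs_mul]
  exact mul_le_mul (hC ω) (hD ω) (abs_nonneg _) ((abs_nonneg _).trans (hC ω))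

theorem pow {f : Ω → ℝ} (hf : BM f) (n : ℕ) : BM (fun ω => f ω ^ n) := by
  induction n with
  | zero => simpa using const (Ω := Ω) 1
  | succ n ih => simpa [pow_succ] using ih.mul hf

theorem sum {ι : Type*} (s : Finset ι) {f : ι → Ω → ℝ} (hf : ∀ i ∈ s, BM (f i)) :
    BM (fun ω => ∑ i ∈ s, f i ω) := by
  classical
  induction s using Finset.induction_on with
  | empty => simpa using const (Ω := Ω) 0
  | insert a s ha ih =>
    simp only [Finset.sum_insert ha]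
    exact (hf a (Finset.mem_insert_self _ _)).add
      (ih fun i hi => hf i (Finset.mem_insert_of_mem hi))

theorem prod {ι : Type*} (s : Finset ι) {f : ι → Ω → ℝ} (hf : ∀ i ∈ s, BM (f i)) :
    BM (fun ω => ∏ i ∈ s, f i ω) := by
  classical
  induction s using Finset.induction_on with
  | empty => simpa using const (Ω := Ω) 1
  | insert a s ha ih =>
    simp only [Finset.prod_insert ha]
    exact (hf a (Finset.mem_insert_self _ _)).mul
      (ih fun i hi => hf i (Finset.mem_insert_of_mem hi))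

theorem integrable {f : Ω → ℝ} (hf : BM f) (μ : Measure Ω) [IsFiniteMeasure μ] : Integrable f μ := by
  obtain ⟨C, hC⟩ := hf.bdd
  exact Integrable.of_bound hf.meas.aestronglyMeasurable C (Filter.Eventually.of_forall hC)

theorem rhoF {θ : ℝ} (hθ : GoodTheta θ) {f : Ω → ℝ} (hf : Measurable f) (h1 : ∀ ω, |f ω| ≤ 1) :
    BM (fun ω => rhoF θ (f ω)) := by
  refine ⟨?_, 1, fun ω => ?_⟩
  · unfold IsingFactor.rhoF
    exact ((measurable_const.sub (hf.pow_const 2))).div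
      (measurable_const.sub (measurable_const.mul (hf.pow_const 2)))
  · rw [abs_of_nonneg (rhoF_nonneg hθ (h1 ω))]
    exact rhoF_le_one hθ (h1 ω)

theorem Gf {θ : ℝ} (hθ : GoodTheta θ) {f : Ω → ℝ} (hf : Measurable f) (h1 : ∀ ω, |f ω| ≤ 1) :
    BM (fun ω => Gf θ (f ω)) := by
  simp only [Gf_eq]
  exact (const θ).mul (rhoF hθ hf h1)

end BM

/-- Cauchy-Schwarz in a geometric form. -/
theorem integral_cs_geom {μ : Measure Ω} [IsFiniteMeasure μ] {P B : Ω → ℝ} (hP : BM P) (hB : BM B) {s : ℝ}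
    (hs : 0 < s) {j l : ℕ} (h1 : ∫ ω, P ω ^ 4 ∂μ ≤ (s ^ 2) ^ j) (h2 : ∫ ω, B ω ^ 4 ∂μ ≤ (s ^ 2) ^ l) :
    ∫ ω, P ω ^ 2 * B ω ^ 2 ∂μ ≤ s ^ (j + l) := by
  have hi1 := (hP.pow 4).integrable μ
  have hi2 := (hB.pow 4).integrable μ
  have hi3 := ((hP.pow 2).mul (hB.pow 2)).integrable μ
  have hsj : 0 < s ^ j := pow_pos hs _
  have hsl : 0 < s ^ l := pow_pos hs _
  have key : ∫ ω, 2 * (s ^ j * s ^ l) * (P ω ^ 2 * B ω ^ 2) ∂μ ≤
      ∫ ω, (s ^ l) ^ 2 * P ω ^ 4 + (s ^ j) ^ 2 * B ω ^ 4 ∂μ := by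
    refine integral_mono (hi3.const_mul _) ((hi1.const_mul _).add (hi2.const_mul _)) fun ω => ?_
    simp only
    nlinarith [sq_nonneg (s ^ l * P ω ^ 2 - s ^ j * B ω ^ 2)]
  rw [integral_const_mul, integral_add (hi1.const_mul _) (hi2.const_mul _), integral_const_mul,
    integral_const_mul] at key
  have e1 : (s ^ 2) ^ j = (s ^ j) ^ 2 := by rw [← pow_mul, ← pow_mul, mul_comm]
  have e2 : (s ^ 2) ^ l = (s ^ l) ^ 2 := by rw [← pow_mul, ← pow_mul, mul_comm]
  rw [e1] at h1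
  rw [e2] at h2
  have h3 : (s ^ l) ^ 2 * ∫ ω, P ω ^ 4 ∂μ ≤ (s ^ l) ^ 2 * (s ^ j) ^ 2 :=
    mul_le_mul_of_nonneg_left h1 (sq_nonneg _)
  have h4 : (s ^ j) ^ 2 * ∫ ω, B ω ^ 4 ∂μ ≤ (s ^ j) ^ 2 * (s ^ l) ^ 2 :=
    mul_le_mul_of_nonneg_left h2 (sq_nonneg _)
  have hpos : 0 < 2 * (s ^ j * s ^ l) := by positivity
  rw [pow_add]
  have h5 : 2 * (s ^ j * s ^ l) * ∫ ω, P ω ^ 2 * B ω ^ 2 ∂μ ≤ 2 * (s ^ j * s ^ l) * (s ^ j * s ^ l) := by
    nlinarith
  exact le_of_mul_le_mul_left h5 hpos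

end BM

/-! ### Finite sums -/

theorem sum_conv_le (a b : ℕ → ℝ) (ha : ∀ i, 0 ≤ a i) (hb : ∀ i, 0 ≤ b i) (R : ℕ) :
    ∑ k ∈ Finset.range (R + 1), ∑ j ∈ Finset.range k, a j * b (k - 1 - j) ≤
      (∑ j ∈ Finset.range (R + 1), a j) * ∑ l ∈ Finset.range (R + 1), b l := by
  have hswap : ∑ k ∈ Finset.range (R + 1), ∑ j ∈ Finset.range k, a j * b (k - 1 - j) =
      ∑ j ∈ Finset.range (R + 1), ∑ k ∈ Finset.Ico (j + 1) (R + 1), a j * b (k - 1 - j) := by
    refine Finset.sum_comm' fun k j => ?_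
    simp only [Finset.mem_range, Finset.mem_Ico]
    omega
  rw [hswap, Finset.sum_mul]
  refine Finset.sum_le_sum fun j hj => ?_
  rw [← Finset.mul_sum]
  refine mul_le_mul_of_nonneg_left ?_ (ha j)
  rw [Finset.sum_Ico_eq_sum_range]
  have h1 : ∑ i ∈ Finset.range (R + 1 - (j + 1)), b (j + 1 + i - 1 - j) =
      ∑ i ∈ Finset.range (R + 1 - (j + 1)), b i := by
    refine Finset.sum_congr rfl fun i _ => ?_
    congr 1; omega
  rw [h1]
  refine Finset.sum_le_sum_of_subset_of_nonneg ?_ fun i _ _ => hb i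
  intro i hi
  simp only [Finset.mem_range] at hi ⊢
  omega

/-- The series `∑ (i+1)² s^i`. -/
theorem sum_sq_geom_le {s : ℝ} (hs : 0 ≤ s) (hs1 : s < 1) (R : ℕ) :
    ∑ i ∈ Finset.range R, ((i : ℝ) + 1) ^ 2 * s ^ i ≤ 2 / (1 - s) ^ 3 := by
  have hn : ‖s‖ < 1 := by rwa [Real.norm_of_nonneg hs]
  have hsum := summable_choose_mul_geometric_of_norm_lt_one 2 hn
  have htsum := tsum_choose_mul_geometric_of_norm_lt_one 2 hn
  have h1 : ∀ i : ℕ, ((i : ℝ) + 1) ^ 2 * s ^ i ≤ 2 * (((i + 2).choose 2 : ℕ) * s ^ i) := by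
    intro i
    have h2 : (((i + 2).choose 2 : ℕ) : ℝ) = ((i : ℝ) + 2) * ((i : ℝ) + 1) / 2 := by
      rw [Nat.cast_choose_two]; push_cast; ring
    rw [h2]
    have h3 : 0 ≤ s ^ i := pow_nonneg hs _
    have h4 : (0 : ℝ) ≤ i := Nat.cast_nonneg i
    nlinarith [mul_nonneg h4 h3]
  calc ∑ i ∈ Finset.range R, ((i : ℝ) + 1) ^ 2 * s ^ i
      ≤ ∑ i ∈ Finset.range R, 2 * (((i + 2).choose 2 : ℕ) * s ^ i) := Finset.sum_le_sum fun i _ => h1 i
    _ = 2 * ∑ i ∈ Finset.range R, (((i + 2).choose 2 : ℕ) * s ^ i) := by rw [Finset.mul_sum]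
    _ ≤ 2 * ∑' i : ℕ, (((i + 2).choose 2 : ℕ) * s ^ i) := by
        refine mul_le_mul_of_nonneg_left ?_ (by norm_num)
        refine hsum.sum_le_tsum _ fun i _ => ?_
        have : 0 ≤ s ^ i := pow_nonneg hs _
        positivity
    _ = 2 / (1 - s) ^ 3 := by
        rw [htsum]; ring

/-- The elementary bound on the exponential. -/
theorem one_sub_exp_ge {c x : ℝ} (hc : 0 < c) (hx : 0 ≤ x) (hx1 : x ≤ 1) :
    c / (1 + c) * x ≤ 1 - Real.exp (-(c * x)) := by
  have hy : 0 ≤ c * x := mul_nonneg hc.le hx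
  have h1 : 1 + c * x ≤ Real.exp (c * x) := by linarith [Real.add_one_le_exp (c * x)]
  have h2 : Real.exp (-(c * x)) ≤ 1 / (1 + c * x) := by
    rw [Real.exp_neg, inv_eq_one_div]
    exact one_div_le_one_div_of_le (by linarith) h1
  have h3 : c / (1 + c) * x ≤ 1 - 1 / (1 + c * x) := by
    have h4 : 1 - 1 / (1 + c * x) = c * x / (1 + c * x) := by
      field_simp; ring
    rw [h4, div_mul_eq_mul_div, div_le_div_iff₀ (by linarith) (by linarith)]
    nlinarith [mul_nonneg (mul_nonneg hc.le hx) (sub_nonneg.2 hx1)]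
  linarith

/-- Control of the logarithmic factor. -/
theorem min_log_bound {x a K : ℝ} (hx : 0 ≤ x) (ha : 0 < a) (ha8 : a ≤ 8) (hK : 1 ≤ K) :
    (x + 1 + Real.log (4 / min (K * a) 4)) * min (K * a) 4 ≤ K * ((x + 1 + Real.log (8 / a)) * a) := by
  set a' := min (K * a) 4 with ha'
  have hKa : 0 < K * a := by positivity
  have h0 : 0 < a' := lt_min hKa (by norm_num)
  have h1 : a' ≤ K * a := min_le_left _ _
  have h2 : a' ≤ 4 := min_le_right _ _
  have hlog : Real.log (4 / a') ≤ Real.log (8 / a) := by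
    refine Real.log_le_log (by positivity) ?_
    rw [div_le_div_iff₀ h0 ha]
    have : a ≤ 2 * a' := by
      rw [ha']
      rcases min_cases (K * a) 4 with ⟨h, _⟩ | ⟨h, _⟩
      · rw [h]; nlinarith
      · rw [h]; linarith
    linarith
  have hlog0 : 0 ≤ Real.log (4 / a') := Real.log_nonneg (by rw [le_div_iff₀ h0]; linarith)
  have h3 : x + 1 + Real.log (4 / a') ≤ x + 1 + Real.log (8 / a) := by linarith
  have h4 : 0 ≤ x + 1 + Real.log (4 / a') := by linarith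
  calc (x + 1 + Real.log (4 / a')) * a' ≤ (x + 1 + Real.log (8 / a)) * (K * a) :=
        mul_le_mul h3 h1 h0.le (by linarith)
    _ = _ := by ring

end Crest.Agent.IsingFactor
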