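import Crest.Agent.IsingFactor.CohSum

/-!
# IsingFactor.CohMain (WP IF-CohMain): the coherent bound.  See `CohPath`.
Statements may be ADDED; do not change the ones below without posting on chat (topic S0241), other packages use them.
-/

set_option autoImplicit false
set_option linter.unusedSectionVars false
set_option linter.unusedVariables false

open MeasureTheory ProbabilityTheory
open Crest.Agent.SRFactor Crest.ProbabilityR.Labels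

namespace Crest.Agent.IsingFactor

variable {V : Type*} [DecidableEq V] {G : SimpleGraph V} [G.LocallyFinite]

/-- The pathwise bound for two solutions. -/
theorem cov_pointwise {q : ℕ} (hq0 : 0 < q) {θ₁ θ₂ θb r : ℝ} {M₁ M₂ : ℝ → V → (V → unitInterval) → ℝ}
    {N₁ N₂ : ℝ → V → V → (V → unitInterval) → ℝ} (h₁ : GoodTheta θ₁) (h₂ : GoodTheta θ₂)
    (hq₁ : θ₁ ^ 2 * q ≤ 1) (hb₁ : θ₁ ≤ θb) (hb₂ : θ₂ ≤ θb) (hS₁ : IsSol G θ₁ M₁ N₁) (hS₂ : IsSol G θ₂ M₂ N₂)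
    (v u : V) (ω : V → unitInterval) :
    (covPath G θ₁ (fun w => M₁ r w ω) (fun y x => N₁ r y x ω) v u
        - covPath G θ₂ (fun w => M₂ r w ω) (fun y x => N₂ r y x ω) v u) ^ 2 ≤
      12 * (M₁ r v ω - M₂ r v ω) ^ 2 * tmR G q θ₁ (fun y x => N₁ r y x ω) v u
      + 96 * (θb ^ (G.dist v u - 1) * ∑ j ∈ Finset.range (G.dist v u),
          T2P θ₁ θ₂ r M₂ N₁ N₂ j (G.dist v u) (pathV G v u) ω)
      + 243 * (θ₁ - θ₂) ^ 2 * (∑ j ∈ Finset.range (G.dist v u),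
          WP θ₁ θ₂ r M₂ N₁ N₂ j (G.dist v u) (pathV G v u) ω) ^ 2 := by
  have hV : ∀ {m : ℝ}, |m| ≤ 1 → 0 ≤ 1 - m ^ 2 ∧ 1 - m ^ 2 ≤ 1 := by
    intro m hm
    have := sq_le_one_iff_abs_le_one m |>.2 hm
    exact ⟨by linarith, by nlinarith [sq_nonneg m]⟩
  have h := path_ineq' h₁ h₂ hb₁ hb₂ (G.dist v u) (1 - M₁ r v ω ^ 2) (1 - M₂ r v ω ^ 2)
    (hV (hS₁.bdM r v ω)).1 (hV (hS₁.bdM r v ω)).2 (hV (hS₂.bdM r v ω)).1 (hV (hS₂.bdM r v ω)).2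
    (fun j => N₁ r (pathV G v u (j + 1)) (pathV G v u j) ω)
    (fun j => N₂ r (pathV G v u (j + 1)) (pathV G v u j) ω)
    (fun j => hS₁.bdN r _ _ ω) (fun j => hS₂.bdN r _ _ ω)
  have h1 := T1_pathwise (G := G) hq0 h₁ hq₁ (hS₁.bdM r v ω) (hS₂.bdM r v ω)
    (ν₁ := fun y x => N₁ r y x ω) (fun a b => hS₁.bdN r a b ω) v u
  refine h.trans ?_
  refine add_le_add (add_le_add h1 (le_of_eq ?_)) (le_of_eq rfl)
  rw [mul_assoc]
  rfl

/-- Invariance of the vertex difference. -/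
theorem vertex_inv {q : ℕ} (hT : G.IsTree) (hreg : G.IsRegularOfDegree (q + 1)) {θ₁ θ₂ r : ℝ}
    {M₁ M₂ : ℝ → V → (V → unitInterval) → ℝ} {N₁ N₂ : ℝ → V → V → (V → unitInterval) → ℝ}
    (hS₁ : IsSol G θ₁ M₁ N₁) (hS₂ : IsSol G θ₂ M₂ N₂) (v w : V) :
    ∫ ω, (M₁ r w ω - M₂ r w ω) ^ 2 ∂labelMeasure V = ∫ ω, (M₁ r v ω - M₂ r v ω) ^ 2 ∂labelMeasure V := by
  have hgeo : ∀ z : V, IsGeo G (fun _ => z) 0 := by
    intro z i j hi hj
    have hi0 : i = 0 := by omega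
    have hj0 : j = 0 := by omega
    subst hi0; subst hj0
    simp [Nat.dist]
  obtain ⟨g, hg⟩ := exists_aut_of_geo hT hreg (hgeo v) (hgeo w)
  have hgv : g v = w := hg 0 le_rfl
  have h := sol_pair_invariant hT hreg hS₁ hS₂ g r (ι := Unit) (fun _ => v) (fun _ => v) (fun _ => v)
    (fun _ => v) (fun _ => v) (fun _ => v) (fun m₁ m₂ _ _ => (m₁ () - m₂ ()) ^ 2)
  simpa only [hgv] using h

/-- The second moment of the difference of the messages. -/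
theorem msg_diff_le {q : ℕ} (hT : G.IsTree) (hreg : G.IsRegularOfDegree (q + 1)) {θ₁ θ₂ r : ℝ}
    {M₁ M₂ : ℝ → V → (V → unitInterval) → ℝ} {N₁ N₂ : ℝ → V → V → (V → unitInterval) → ℝ}
    (h₁ : GoodTheta θ₁) (h₂ : GoodTheta θ₂) (hS₁ : IsSol G θ₁ M₁ N₁) (hS₂ : IsSol G θ₂ M₂ N₂)
    (hr : ∃ n, Dy n r) {v w : V} (hvw : G.Adj v w) :
    ∫ ω, (N₁ r w v ω - N₂ r w v ω) ^ 2 ∂labelMeasure V ≤
      240000 * (∫ ω, (M₁ r v ω - M₂ r v ω) ^ 2 ∂labelMeasure V + (θ₁ - θ₂) ^ 2) := by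
  have hBMv := ((BM_M hS₁ r v).sub (BM_M hS₂ r v)).pow 2
  have hBMw := ((BM_M hS₁ r w).sub (BM_M hS₂ r w)).pow 2
  have hae : (fun ω => (N₁ r w v ω - N₂ r w v ω) ^ 2) ≤ᵐ[labelMeasure V]
      fun ω => 120000 * ((M₁ r w ω - M₂ r w ω) ^ 2 + (M₁ r v ω - M₂ r v ω) ^ 2 + (θ₁ - θ₂) ^ 2) := by
    filter_upwards [hS₁.alg r w v hr hvw.symm, hS₁.alg r v w hr hvw, hS₂.alg r w v hr hvw.symm,
      hS₂.alg r v w hr hvw] with ω e1 e2 e3 e4
    have hl := msg_lip (a := N₁ r w v ω) (b := N₁ r v w ω) (a' := N₂ r w v ω) (b' := N₂ r v w ω) h₁ h₂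
      (hS₁.bdN r _ _ ω) (hS₁.bdN r _ _ ω) (hS₂.bdN r _ _ ω) (hS₂.bdN r _ _ ω)
    rw [← e1, ← e2, ← e3, ← e4] at hl
    have h5 : |N₁ r w v ω - N₂ r w v ω| ≤ 200 * (|M₁ r w ω - M₂ r w ω| + |M₁ r v ω - M₂ r v ω| + |θ₁ - θ₂|) := by
      have := abs_nonneg (N₁ r v w ω - N₂ r v w ω)
      linarith
    have h6 : (N₁ r w v ω - N₂ r w v ω) ^ 2 ≤
        (200 * (|M₁ r w ω - M₂ r w ω| + |M₁ r v ω - M₂ r v ω| + |θ₁ - θ₂|)) ^ 2 := by
      rw [← sq_abs (N₁ r w v ω - N₂ r w v ω)]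
      exact pow_le_pow_left₀ (abs_nonneg _) h5 2
    refine h6.trans ?_
    have e5 := sq_abs (M₁ r w ω - M₂ r w ω)
    have e6 := sq_abs (M₁ r v ω - M₂ r v ω)
    have e7 := sq_abs (θ₁ - θ₂)
    rw [← e5, ← e6, ← e7]
    nlinarith [sq_nonneg (|M₁ r w ω - M₂ r w ω| - |M₁ r v ω - M₂ r v ω|),
      sq_nonneg (|M₁ r w ω - M₂ r w ω| - |θ₁ - θ₂|), sq_nonneg (|M₁ r v ω - M₂ r v ω| - |θ₁ - θ₂|)]
  have hi := integral_mono_ae (((BM_N hS₁ r w v).sub (BM_N hS₂ r w v)).pow 2 |>.integrable _)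
    (((BM.const _).mul ((hBMw.add hBMv).add (BM.const _))).integrable (labelMeasure V)) hae
  refine hi.trans ?_
  rw [integral_const_mul, integral_add ((hBMw.add hBMv).integrable _) (integrable_const _),
    integral_add (hBMw.integrable _) (hBMv.integrable _), vertex_inv hT hreg hS₁ hS₂ v w,
    integral_const]
  have h1 : (labelMeasure V).real Set.univ = 1 := by simp
  rw [h1, one_smul]
  nlinarith [sq_nonneg (θ₁ - θ₂)]

set_option maxHeartbeats 2000000 in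
/-- Final form of the coherent bound. `a` is an upper bound of `E ΔM² + Δθ²`. -/
theorem coherent_bound {q : ℕ} (hT : G.IsTree) (hreg : G.IsRegularOfDegree (q + 1)) (hq : 2 ≤ q) :
    ∃ C₁ C₂ : ℝ, 0 < C₁ ∧ 0 < C₂ ∧ ∀ {θ₁ θ₂ r a : ℝ} {M₁ M₂ : ℝ → V → (V → unitInterval) → ℝ}
      {N₁ N₂ : ℝ → V → V → (V → unitInterval) → ℝ}, CritPar q θ₁ → CritPar q θ₂ →
      IsSol G θ₁ M₁ N₁ → IsSol G θ₂ M₂ N₂ → (∃ n, Dy n r) → 0 < r →
      ∀ (v : V), ∫ ω, (M₁ r v ω - M₂ r v ω) ^ 2 ∂labelMeasure V + (θ₁ - θ₂) ^ 2 ≤ a → 0 < a → a ≤ 8 →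
      ∀ R : ℕ, ∑ u ∈ tball G v R,
        ∫ ω, (covPath G θ₁ (fun w => M₁ r w ω) (fun y x => N₁ r y x ω) v u
          - covPath G θ₂ (fun w => M₂ r w ω) (fun y x => N₂ r y x ω) v u) ^ 2 ∂labelMeasure V
      ≤ C₁ * (1 / xBar θ₁ r q ^ 2 + 1 / xBar θ₂ r q ^ 2 + 1 + Real.log (8 / a)) * a
        + C₂ * (θ₁ - θ₂) ^ 2 * (1 / xBar θ₁ r q ^ 3 + 1 / xBar θ₂ r q ^ 3) := by
  obtain ⟨Cw, hCw, hW⟩ := sol_xi_weighted (V := V) (G := G) hT hreg hq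
  obtain ⟨c₂, c', hc₂, hc₂1, hc', hch⟩ := sol_chain (V := V) (G := G) hT hreg hq
  have hq0 : 0 < q := by omega
  have hqR : (0 : ℝ) < q := by exact_mod_cast hq0
  set c₅ : ℝ := c₂ * ((4 * c') / (1 + 4 * c')) with hc₅
  have hc₅pos : 0 < c₅ := by positivity
  refine ⟨24 * Cw + 23040000 * (q + 1) * Cw, 243 * (q + 1) * (16 / c₅ ^ 3), by positivity, by positivity, ?_⟩
  intro θ₁ θ₂ r a M₁ M₂ N₁ N₂ hc₁ hc₂' hS₁ hS₂ hr hr0 v ha ha0 ha8 R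
  have h₁ := hc₁.good
  have h₂ := hc₂'.good
  set θb := max θ₁ θ₂ with hθb
  have hb₁ : θ₁ ≤ θb := le_max_left _ _
  have hb₂ : θ₂ ≤ θb := le_max_right _ _
  have hbq : θb ^ 2 * q ≤ 1 := by
    rcases max_cases θ₁ θ₂ with ⟨h, _⟩ | ⟨h, _⟩
    · rw [hθb, h]; exact hc₁.up
    · rw [hθb, h]; exact hc₂'.up
  -- a neighbour
  obtain ⟨w, hvw⟩ : ∃ w, G.Adj v w := by
    have : 0 < G.degree v := by rw [hreg.degree_eq v]; omega
    exact (G.degree_pos_iff_exists_adj v).1 this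
  -- the second moments
  set x₁ := xBar θ₁ r q with hx₁
  set x₂ := xBar θ₂ r q with hx₂
  have htau : 0 < tauL r := by
    rcases le_total r (1 / 2) with h | h
    · have := tauL_ge hr0.le h; linarith
    · have h3 := tauL_ge (t := 1 / 2) (by norm_num) le_rfl
      have h4 := tauL_mono (t := 1 / 2) (t' := r) (by norm_num) h
      linarith
  have hx₁0 : 0 < x₁ := lt_of_lt_of_le htau (tauL_le_xBar h₁ hr0.le)
  have hx₂0 : 0 < x₂ := lt_of_lt_of_le htau (tauL_le_xBar h₂ hr0.le)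
  have hx₁1 : x₁ ≤ 1 := xBar_le_one h₁ hr0.le
  have hx₂1 : x₂ ≤ 1 := xBar_le_one h₂ hr0.le
  -- the chain constants
  set ρ₁ := 1 - c₂ * (1 - Real.exp (-(((4 : ℕ) : ℝ) * c' * x₁))) with hρ₁
  set ρ₂ := 1 - c₂ * (1 - Real.exp (-(((4 : ℕ) : ℝ) * c' * x₂))) with hρ₂
  have hρ_facts : ∀ {x : ℝ}, 0 < x → x ≤ 1 → 0 < 1 - c₂ * (1 - Real.exp (-(((4 : ℕ) : ℝ) * c' * x))) ∧
      c₅ * x ≤ c₂ * (1 - Real.exp (-(((4 : ℕ) : ℝ) * c' * x))) := by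
    intro x hx hx1
    have he : 0 < Real.exp (-(((4 : ℕ) : ℝ) * c' * x)) := Real.exp_pos _
    have he1 : Real.exp (-(((4 : ℕ) : ℝ) * c' * x)) < 1 := by
      rw [Real.exp_lt_one_iff]
      have : 0 < ((4 : ℕ) : ℝ) * c' * x := by positivity
      linarith
    constructor
    · nlinarith
    · have h3 := one_sub_exp_ge (c := 4 * c') (x := x) (by positivity) hx.le hx1
      rw [hc₅, mul_assoc]
      refine mul_le_mul_of_nonneg_left ?_ hc₂.le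
      have e : ((4 : ℕ) : ℝ) * c' * x = 4 * c' * x := by norm_num
      rw [e]
      exact h3
  obtain ⟨hρ₁0, hρ₁c⟩ := hρ_facts hx₁0 hx₁1
  obtain ⟨hρ₂0, hρ₂c⟩ := hρ_facts hx₂0 hx₂1
  set ρ := max ρ₁ ρ₂ with hρ
  have hρ0 : 0 < ρ := lt_max_of_lt_left hρ₁0
  set s := Real.sqrt ρ with hs
  have hs0 : 0 < s := Real.sqrt_pos.2 hρ0
  have hs2 : s ^ 2 = ρ := Real.sq_sqrt hρ0.le
  set x₀ := min x₁ x₂ with hx₀
  have hx₀0 : 0 < x₀ := lt_min hx₁0 hx₂0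
  have hρ1 : c₅ * x₀ ≤ 1 - ρ := by
    have h3 : c₅ * x₀ ≤ c₅ * x₁ := mul_le_mul_of_nonneg_left (min_le_left _ _) hc₅pos.le
    have h4 : c₅ * x₀ ≤ c₅ * x₂ := mul_le_mul_of_nonneg_left (min_le_right _ _) hc₅pos.le
    rcases max_cases ρ₁ ρ₂ with ⟨h, _⟩ | ⟨h, _⟩
    · rw [hρ, h, hρ₁]; linarith
    · rw [hρ, h, hρ₂]; linarith
  have hc₅x₀ : 0 < c₅ * x₀ := by positivity
  have hρlt : ρ < 1 := by linarith
  have hs1 : s < 1 := by
    rw [hs, Real.sqrt_lt' one_pos]; simpa using hρlt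
  have hsgap : c₅ * x₀ / 2 ≤ 1 - s := by
    nlinarith
  have hch₁ : ∀ (x : ℕ → V) (k : ℕ), IsGeo G x k →
      ∫ ω, ∏ j ∈ Finset.range k, rhoF θ₁ (N₁ r (x (j + 1)) (x j) ω) ^ 4 ∂labelMeasure V ≤ (s ^ 2) ^ k := by
    intro x k hx
    refine (hch hc₁ hS₁ hr hr0 4 x k hx).trans ?_
    rw [hs2]
    exact pow_le_pow_left₀ hρ₁0.le (le_max_left _ _) _
  have hch₂ : ∀ (x : ℕ → V) (k : ℕ), IsGeo G x k →
      ∫ ω, ∏ j ∈ Finset.range k, rhoF θ₂ (N₂ r (x (j + 1)) (x j) ω) ^ 4 ∂labelMeasure V ≤ (s ^ 2) ^ k := by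
    intro x k hx
    refine (hch hc₂' hS₂ hr hr0 4 x k hx).trans ?_
    rw [hs2]
    exact pow_le_pow_left₀ hρ₂0.le (le_max_right _ _) _
  -- the differences
  set D : (V → unitInterval) → ℝ := fun ω => (M₁ r v ω - M₂ r v ω) ^ 2 with hD
  have hDBM : BM D := ((BM_M hS₁ r v).sub (BM_M hS₂ r v)).pow 2
  have hD0 : ∀ ω, 0 ≤ D ω := fun ω => sq_nonneg _
  have hD4 : ∀ ω, D ω ≤ 4 := by
    intro ω
    have h3 := abs_le.1 (hS₁.bdM r v ω)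
    have h4 := abs_le.1 (hS₂.bdM r v ω)
    simp only [hD]
    nlinarith
  set E : (V → unitInterval) → ℝ := fun ω => (N₁ r w v ω - N₂ r w v ω) ^ 2 with hE
  have hEBM : BM E := ((BM_N hS₁ r w v).sub (BM_N hS₂ r w v)).pow 2
  have hE0 : ∀ ω, 0 ≤ E ω := fun ω => sq_nonneg _
  have hE4 : ∀ ω, E ω ≤ 4 := by
    intro ω
    have h3 := abs_le.1 (hS₁.bdN r w v ω)
    have h4 := abs_le.1 (hS₂.bdN r w v ω)
    simp only [hE]
    nlinarith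
  have hint4 : ∀ {f : (V → unitInterval) → ℝ}, BM f → (∀ ω, f ω ≤ 4) → ∫ ω, f ω ∂labelMeasure V ≤ 4 := by
    intro f hf h4
    have := integral_mono (hf.integrable (labelMeasure V)) (integrable_const (4 : ℝ)) h4
    have h1 : (labelMeasure V).real Set.univ = 1 := by simp
    rwa [integral_const, h1, one_smul] at this
  have hθ2 : 0 ≤ (θ₁ - θ₂) ^ 2 := sq_nonneg _
  have hDa : ∫ ω, D ω ∂labelMeasure V ≤ a := by linarith
  have hEa : ∫ ω, E ω ∂labelMeasure V ≤ 240000 * a := by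
    have h3 := msg_diff_le hT hreg h₁ h₂ hS₁ hS₂ hr hvw
    exact h3.trans (mul_le_mul_of_nonneg_left ha (by norm_num))
  -- the weighted bounds
  set L := Real.log (8 / a) with hL
  have hL0 : 0 ≤ L := Real.log_nonneg (by rw [le_div_iff₀ ha0]; linarith)
  have hweight : ∀ {θ : ℝ} {M : ℝ → V → (V → unitInterval) → ℝ} {N : ℝ → V → V → (V → unitInterval) → ℝ}
      (hc : CritPar q θ) (hS : IsSol G θ M N) {y x : V} (hyx : G.Adj y x)
      {F : (V → unitInterval) → ℝ} (hFBM : BM F) (hF0 : ∀ ω, 0 ≤ F ω) (hF4 : ∀ ω, F ω ≤ 4) {K : ℝ} (hK : 1 ≤ K)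
      (hFa : ∫ ω, F ω ∂labelMeasure V ≤ K * a),
      ∫ ω, F ω * xiS G q θ N r R y x ω ^ 2 ∂labelMeasure V ≤
        Cw * (K * ((1 / xBar θ r q ^ 2 + 1 + L) * a)) := by
    intro θ M N hc hS y x hyx F hFBM hF0 hF4 K hK hFa
    have hKa : 0 < K * a := by positivity
    have h3 := hW hc hS hr hr0 R hyx F (min (K * a) 4) hFBM.meas hF0 hF4
      (le_min hFa (hint4 hFBM hF4)) (lt_min hKa (by norm_num)) (min_le_right _ _)
    have hxnn : 0 ≤ 1 / xBar θ r q ^ 2 := by positivity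
    have h4 := min_log_bound hxnn ha0 ha8 hK
    calc ∫ ω, F ω * xiS G q θ N r R y x ω ^ 2 ∂labelMeasure V
        ≤ Cw * (1 / xBar θ r q ^ 2 + 1 + Real.log (4 / min (K * a) 4)) * min (K * a) 4 := h3
      _ = Cw * ((1 / xBar θ r q ^ 2 + 1 + Real.log (4 / min (K * a) 4)) * min (K * a) 4) := by ring
      _ ≤ _ := mul_le_mul_of_nonneg_left h4 hCw.le
  set B := (1 / x₁ ^ 2 + 1 / x₂ ^ 2 + 1 + L) * a with hB
  have hB₁ : (1 / x₁ ^ 2 + 1 + L) * a ≤ B := by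
    have : 0 ≤ 1 / x₂ ^ 2 := by positivity
    rw [hB]; exact mul_le_mul_of_nonneg_right (by linarith) ha0.le
  have hB₂ : (1 / x₂ ^ 2 + 1 + L) * a ≤ B := by
    have : 0 ≤ 1 / x₁ ^ 2 := by positivity
    rw [hB]; exact mul_le_mul_of_nonneg_right (by linarith) ha0.le
  -- the first term
  have hT1 : ∑ u ∈ tball G v R, ∫ ω, 12 * (M₁ r v ω - M₂ r v ω) ^ 2 * tmR G q θ₁ (fun y x => N₁ r y x ω) v u ∂labelMeasure V
      ≤ 24 * Cw * B := by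
    have h3 : ∀ u, ∫ ω, 12 * (M₁ r v ω - M₂ r v ω) ^ 2 * tmR G q θ₁ (fun y x => N₁ r y x ω) v u ∂labelMeasure V
        = 12 * ∫ ω, D ω * tmR G q θ₁ (fun y x => N₁ r y x ω) v u ∂labelMeasure V := by
      intro u
      rw [← integral_const_mul]
      refine integral_congr_ae (Filter.Eventually.of_forall fun ω => ?_)
      simp only [hD]
      ring
    simp only [h3]
    rw [← Finset.mul_sum]
    have h4 := T1_sum_le (r := r) hT hreg hq h₁ hS₁ hDBM hD0 hvw R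
    have h5 := hweight hc₁ hS₁ hvw hDBM hD0 hD4 (K := 1) le_rfl (by simpa using hDa)
    have h6 := hweight hc₁ hS₁ hvw.symm hDBM hD0 hD4 (K := 1) le_rfl (by simpa using hDa)
    rw [one_mul] at h5 h6
    have h7 : Cw * ((1 / x₁ ^ 2 + 1 + L) * a) ≤ Cw * B := mul_le_mul_of_nonneg_left hB₁ hCw.le
    linarith
  -- the second term
  have hT2 : ∑ u ∈ tball G v R, ∑ j ∈ Finset.range (G.dist v u), (θb ^ (G.dist v u - 1) *
        ∫ ω, T2P θ₁ θ₂ r M₂ N₁ N₂ j (G.dist v u) (pathV G v u) ω ∂labelMeasure V)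
      ≤ (q + 1) * (240000 * Cw * B) := by
    refine (T2_sum_le hT hreg hq h₁ h₂ hS₁ hS₂ hr hb₁ hb₂ hbq hvw R).trans ?_
    refine mul_le_mul_of_nonneg_left ?_ (by positivity)
    have hξ₂ := BM_xi h₂ hS₂ r q R v w
    have hξ₁ := BM_xi h₁ hS₁ r q R w v
    have h3 : ∫ ω, E ω * (xiS G q θ₂ N₂ r R v w ω * xiS G q θ₁ N₁ r R w v ω) ∂labelMeasure V ≤
        ∫ ω, (1 / 2) * (E ω * xiS G q θ₂ N₂ r R v w ω ^ 2) + (1 / 2) * (E ω * xiS G q θ₁ N₁ r R w v ω ^ 2) ∂labelMeasure V := by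
      refine integral_mono ((hEBM.mul (hξ₂.mul hξ₁)).integrable _)
        ((((BM.const _).mul (hEBM.mul (hξ₂.pow 2))).add ((BM.const _).mul (hEBM.mul (hξ₁.pow 2)))).integrable _) fun ω => ?_
      simp only
      nlinarith [hE0 ω, mul_nonneg (hE0 ω) (sq_nonneg (xiS G q θ₂ N₂ r R v w ω - xiS G q θ₁ N₁ r R w v ω))]
    rw [integral_add (((BM.const _).mul (hEBM.mul (hξ₂.pow 2))).integrable _)
      (((BM.const _).mul (hEBM.mul (hξ₁.pow 2))).integrable _), integral_const_mul, integral_const_mul] at h3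
    have h4 := hweight hc₂' hS₂ hvw hEBM hE0 hE4 (K := 240000) (by norm_num) hEa
    have h5 := hweight hc₁ hS₁ hvw.symm hEBM hE0 hE4 (K := 240000) (by norm_num) hEa
    have h7 : Cw * (240000 * ((1 / x₂ ^ 2 + 1 + L) * a)) ≤ 240000 * Cw * B := by
      have := mul_le_mul_of_nonneg_left hB₂ (by positivity : 0 ≤ 240000 * Cw)
      linarith
    have h8 : Cw * (240000 * ((1 / x₁ ^ 2 + 1 + L) * a)) ≤ 240000 * Cw * B := by
      have := mul_le_mul_of_nonneg_left hB₁ (by positivity : 0 ≤ 240000 * Cw)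
      linarith
    linarith
  -- the third term
  have hT3 := T3_sum_le (r := r) (M₂ := M₂) hT hreg hq h₁ h₂ hS₁ hS₂ hb₁ hb₂ hbq hs0 hs1 hch₁ hch₂ v R
  have hgap3 : 2 / (1 - s) ^ 3 ≤ (16 / c₅ ^ 3) * (1 / x₁ ^ 3 + 1 / x₂ ^ 3) := by
    have h3 : (c₅ * x₀ / 2) ^ 3 ≤ (1 - s) ^ 3 := pow_le_pow_left₀ (by positivity) hsgap 3
    have h4 : 2 / (1 - s) ^ 3 ≤ 2 / (c₅ * x₀ / 2) ^ 3 :=
      div_le_div_of_nonneg_left (by norm_num) (by positivity) h3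
    refine h4.trans ?_
    have h5 : 2 / (c₅ * x₀ / 2) ^ 3 = (16 / c₅ ^ 3) * (1 / x₀ ^ 3) := by
      field_simp
      ring
    rw [h5]
    refine mul_le_mul_of_nonneg_left ?_ (by positivity)
    have h6 : 0 < 1 / x₁ ^ 3 := by positivity
    have h7 : 0 < 1 / x₂ ^ 3 := by positivity
    rcases min_cases x₁ x₂ with ⟨h, _⟩ | ⟨h, _⟩
    · rw [hx₀, h]; linarith
    · rw [hx₀, h]; linarith
  -- the integrated pointwise bound
  have hu : ∀ u, ∫ ω, (covPath G θ₁ (fun w => M₁ r w ω) (fun y x => N₁ r y x ω) v u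
          - covPath G θ₂ (fun w => M₂ r w ω) (fun y x => N₂ r y x ω) v u) ^ 2 ∂labelMeasure V ≤
      ∫ ω, 12 * (M₁ r v ω - M₂ r v ω) ^ 2 * tmR G q θ₁ (fun y x => N₁ r y x ω) v u ∂labelMeasure V
      + 96 * ∑ j ∈ Finset.range (G.dist v u), (θb ^ (G.dist v u - 1) *
        ∫ ω, T2P θ₁ θ₂ r M₂ N₁ N₂ j (G.dist v u) (pathV G v u) ω ∂labelMeasure V)
      + 243 * (θ₁ - θ₂) ^ 2 * ∫ ω, (∑ j ∈ Finset.range (G.dist v u),
        WP θ₁ θ₂ r M₂ N₁ N₂ j (G.dist v u) (pathV G v u) ω) ^ 2 ∂labelMeasure V := by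
    intro u
    have hBM1 : BM (fun ω => 12 * (M₁ r v ω - M₂ r v ω) ^ 2 * tmR G q θ₁ (fun y x => N₁ r y x ω) v u) :=
      ((BM.const 12).mul hDBM).mul (BM_tmR h₁ hS₁ r q v u)
    have hBMT2 : ∀ j, BM (T2P θ₁ θ₂ r M₂ N₁ N₂ j (G.dist v u) (pathV G v u)) := fun j =>
      BM_T2P h₁ h₂ hS₁ hS₂ r j _ _
    have hBMW : ∀ j, BM (WP θ₁ θ₂ r M₂ N₁ N₂ j (G.dist v u) (pathV G v u)) := fun j =>
      BM_WP h₁ h₂ hS₁ hS₂ r j _ _
    have hBM2 : BM (fun ω => 96 * (θb ^ (G.dist v u - 1) * ∑ j ∈ Finset.range (G.dist v u),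
        T2P θ₁ θ₂ r M₂ N₁ N₂ j (G.dist v u) (pathV G v u) ω)) :=
      (BM.const _).mul ((BM.const _).mul (BM.sum _ fun j _ => hBMT2 j))
    have hBM3 : BM (fun ω => 243 * (θ₁ - θ₂) ^ 2 * (∑ j ∈ Finset.range (G.dist v u),
        WP θ₁ θ₂ r M₂ N₁ N₂ j (G.dist v u) (pathV G v u) ω) ^ 2) :=
      (BM.const _).mul ((BM.sum _ fun j _ => hBMW j).pow 2)
    have hBMcov : BM (fun ω => (covPath G θ₁ (fun w => M₁ r w ω) (fun y x => N₁ r y x ω) v u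
          - covPath G θ₂ (fun w => M₂ r w ω) (fun y x => N₂ r y x ω) v u) ^ 2) := by
      refine BM.pow (BM.sub ?_ ?_) 2
      · exact ((BM.const 1).sub ((BM_M hS₁ r v).pow 2)).mul (BM.prod _ fun _ _ => BM_Gf h₁ hS₁ r _ _)
      · exact ((BM.const 1).sub ((BM_M hS₂ r v).pow 2)).mul (BM.prod _ fun _ _ => BM_Gf h₂ hS₂ r _ _)
    have hmono := integral_mono (hBMcov.integrable (labelMeasure V))
      (((hBM1.add hBM2).add hBM3).integrable (labelMeasure V))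
      (fun ω => cov_pointwise hq0 h₁ h₂ hc₁.up hb₁ hb₂ hS₁ hS₂ v u ω)
    refine hmono.trans (le_of_eq ?_)
    rw [integral_add ((hBM1.add hBM2).integrable _) (hBM3.integrable _),
      integral_add (hBM1.integrable _) (hBM2.integrable _), integral_const_mul, integral_const_mul,
      integral_const_mul, integral_finsetSum _ fun j _ => (hBMT2 j).integrable _, Finset.mul_sum]
  calc ∑ u ∈ tball G v R, ∫ ω, (covPath G θ₁ (fun w => M₁ r w ω) (fun y x => N₁ r y x ω) v u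
          - covPath G θ₂ (fun w => M₂ r w ω) (fun y x => N₂ r y x ω) v u) ^ 2 ∂labelMeasure V
      ≤ ∑ u ∈ tball G v R, (∫ ω, 12 * (M₁ r v ω - M₂ r v ω) ^ 2 * tmR G q θ₁ (fun y x => N₁ r y x ω) v u ∂labelMeasure V
      + 96 * ∑ j ∈ Finset.range (G.dist v u), (θb ^ (G.dist v u - 1) *
        ∫ ω, T2P θ₁ θ₂ r M₂ N₁ N₂ j (G.dist v u) (pathV G v u) ω ∂labelMeasure V)
      + 243 * (θ₁ - θ₂) ^ 2 * ∫ ω, (∑ j ∈ Finset.range (G.dist v u),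
        WP θ₁ θ₂ r M₂ N₁ N₂ j (G.dist v u) (pathV G v u) ω) ^ 2 ∂labelMeasure V) :=
        Finset.sum_le_sum fun u _ => hu u
    _ = ∑ u ∈ tball G v R, ∫ ω, 12 * (M₁ r v ω - M₂ r v ω) ^ 2 * tmR G q θ₁ (fun y x => N₁ r y x ω) v u ∂labelMeasure V
      + 96 * ∑ u ∈ tball G v R, ∑ j ∈ Finset.range (G.dist v u), (θb ^ (G.dist v u - 1) *
        ∫ ω, T2P θ₁ θ₂ r M₂ N₁ N₂ j (G.dist v u) (pathV G v u) ω ∂labelMeasure V)
      + 243 * (θ₁ - θ₂) ^ 2 * ∑ u ∈ tball G v R, ∫ ω, (∑ j ∈ Finset.range (G.dist v u),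
        WP θ₁ θ₂ r M₂ N₁ N₂ j (G.dist v u) (pathV G v u) ω) ^ 2 ∂labelMeasure V := by
        rw [Finset.sum_add_distrib, Finset.sum_add_distrib, Finset.mul_sum, Finset.mul_sum]
    _ ≤ 24 * Cw * B + 96 * ((q + 1) * (240000 * Cw * B))
      + 243 * (θ₁ - θ₂) ^ 2 * ((q + 1) * ((16 / c₅ ^ 3) * (1 / x₁ ^ 3 + 1 / x₂ ^ 3))) := by
        refine add_le_add (add_le_add hT1 (mul_le_mul_of_nonneg_left hT2 (by norm_num))) ?_
        refine mul_le_mul_of_nonneg_left (hT3.trans ?_) (by positivity)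
        exact mul_le_mul_of_nonneg_left hgap3 (by positivity)
    _ = (24 * Cw + 23040000 * (q + 1) * Cw) * B
      + 243 * (q + 1) * (16 / c₅ ^ 3) * (θ₁ - θ₂) ^ 2 * (1 / x₁ ^ 3 + 1 / x₂ ^ 3) := by ring
    _ = _ := by rw [hB]; ring

end Crest.Agent.IsingFactor

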