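import Crest.Agent.IsingFactor.RealFns

set_option autoImplicit false

namespace Crest.Agent.IsingFactor

/-- Telescoping product identity. -/
theorem prod_sub_prod_tele (a b : ℕ → ℝ) (k : ℕ) :
    ∏ j ∈ Finset.range k, a j - ∏ j ∈ Finset.range k, b j =
      ∑ j ∈ Finset.range k, (∏ i ∈ Finset.range j, b i) * (a j - b j) * ∏ i ∈ Finset.Ioo j k, a i := by
  induction k with
  | zero => simp
  | succ k ih =>
    rw [Finset.prod_range_succ, Finset.prod_range_succ, Finset.sum_range_succ]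
    have h1 : ∏ i ∈ Finset.Ioo k (k + 1), a i = 1 := by
      have : Finset.Ioo k (k + 1) = ∅ := by ext x; simp
      rw [this]; simp
    have h2 : ∀ j ∈ Finset.range k, ∏ i ∈ Finset.Ioo j (k + 1), a i =
        (∏ i ∈ Finset.Ioo j k, a i) * a k := by
      intro j hj
      have hj' : j < k := Finset.mem_range.1 hj
      have : Finset.Ioo j (k + 1) = insert k (Finset.Ioo j k) := by
        ext x; simp only [Finset.mem_Ioo, Finset.mem_insert]; omega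
      rw [this, Finset.prod_insert (by simp), mul_comm]
    rw [h1, mul_one, Finset.sum_congr rfl (fun j hj => by rw [h2 j hj])]
    have h3 : ∑ j ∈ Finset.range k, (∏ i ∈ Finset.range j, b i) * (a j - b j) *
        ((∏ i ∈ Finset.Ioo j k, a i) * a k) =
        (∑ j ∈ Finset.range k, (∏ i ∈ Finset.range j, b i) * (a j - b j) *
        ∏ i ∈ Finset.Ioo j k, a i) * a k := by
      rw [Finset.sum_mul]; exact Finset.sum_congr rfl (fun _ _ => by ring)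
    rw [h3, ← ih]; ring

/-- Telescoping with a suffix product. -/
theorem sum_suffix_tele (ρ : ℕ → ℝ) (k : ℕ) :
    ∑ j ∈ Finset.range k, (1 - ρ j) * ∏ i ∈ Finset.Ioo j k, ρ i = 1 - ∏ j ∈ Finset.range k, ρ j := by
  have := prod_sub_prod_tele ρ (fun _ => 1) k
  simp only [Finset.prod_const_one, one_mul] at this
  have h : ∑ j ∈ Finset.range k, (1 - ρ j) * ∏ i ∈ Finset.Ioo j k, ρ i =
      - ∑ j ∈ Finset.range k, (ρ j - 1) * ∏ i ∈ Finset.Ioo j k, ρ i := by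
    rw [← Finset.sum_neg_distrib]; exact Finset.sum_congr rfl (fun _ _ => by ring)
  rw [h, ← this]; ring

/-- Telescoping with a prefix product. -/
theorem sum_prefix_tele (ρ : ℕ → ℝ) (k : ℕ) :
    ∑ j ∈ Finset.range k, (∏ i ∈ Finset.range j, ρ i) * (1 - ρ j) = 1 - ∏ j ∈ Finset.range k, ρ j := by
  have := prod_sub_prod_tele (fun _ => 1) ρ k
  simpa using this.symm

theorem prod_Gf_eq (θ : ℝ) (n : ℕ → ℝ) (s : Finset ℕ) :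
    ∏ i ∈ s, Gf θ (n i) = θ ^ s.card * ∏ i ∈ s, rhoF θ (n i) := by
  simp only [Gf_eq, Finset.prod_mul_distrib, Finset.prod_const]

theorem prod_rhoF_nonneg {θ : ℝ} (hθ : GoodTheta θ) {n : ℕ → ℝ} (hn : ∀ j, |n j| ≤ 1) (s : Finset ℕ) :
    0 ≤ ∏ i ∈ s, rhoF θ (n i) := Finset.prod_nonneg fun i _ => rhoF_nonneg hθ (hn i)

theorem prod_rhoF_le_one {θ : ℝ} (hθ : GoodTheta θ) {n : ℕ → ℝ} (hn : ∀ j, |n j| ≤ 1) (s : Finset ℕ) :
    ∏ i ∈ s, rhoF θ (n i) ≤ 1 :=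
  Finset.prod_le_one (fun i _ => rhoF_nonneg hθ (hn i)) (fun i _ => rhoF_le_one hθ (hn i))

theorem sq_le_two_mul_one_sub_rhoF {θ ν : ℝ} (hθ : GoodTheta θ) (hν : |ν| ≤ 1) :
    ν ^ 2 ≤ 2 * (1 - rhoF θ ν) := by
  have h := one_sub_rhoF_ge hθ hν
  have h1 : 0 ≤ ν ^ 2 := sq_nonneg _
  nlinarith [hθ.sq_le]

theorem card_Ioo_nat {j k : ℕ} (hj : j < k) : (Finset.Ioo j k).card = k - 1 - j := by
  rw [Nat.card_Ioo]; omega

/-- The pure real inequality along a path. `V₁ = 1 - m₁²`; `n i j` the `j`th message of solution `i`. -/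
theorem path_ineq' {θ₁ θ₂ θb : ℝ} (h₁ : GoodTheta θ₁) (h₂ : GoodTheta θ₂) (hb₁ : θ₁ ≤ θb) (hb₂ : θ₂ ≤ θb)
    (k : ℕ) (V₁ V₂ : ℝ) (h01 : 0 ≤ V₁) (h11 : V₁ ≤ 1) (h02 : 0 ≤ V₂) (h12 : V₂ ≤ 1)
    (n₁ n₂ : ℕ → ℝ) (hn₁ : ∀ j, |n₁ j| ≤ 1) (hn₂ : ∀ j, |n₂ j| ≤ 1) :
    (V₁ * ∏ j ∈ Finset.range k, Gf θ₁ (n₁ j) - V₂ * ∏ j ∈ Finset.range k, Gf θ₂ (n₂ j)) ^ 2 ≤
      3 * (V₁ - V₂) ^ 2 * (∏ j ∈ Finset.range k, Gf θ₁ (n₁ j)) ^ 2
      + 96 * θb ^ (k - 1) * ∑ j ∈ Finset.range k,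
          (V₂ * ∏ i ∈ Finset.range j, Gf θ₂ (n₂ i)) * (∏ i ∈ Finset.Ioo j k, Gf θ₁ (n₁ i)) * (n₁ j - n₂ j) ^ 2
      + 243 * (θ₁ - θ₂) ^ 2 * (∑ j ∈ Finset.range k,
          (V₂ * ∏ i ∈ Finset.range j, Gf θ₂ (n₂ i)) * (∏ i ∈ Finset.Ioo j k, Gf θ₁ (n₁ i))) ^ 2 := by
  set W : ℕ → ℝ := fun j => (V₂ * ∏ i ∈ Finset.range j, Gf θ₂ (n₂ i)) * (∏ i ∈ Finset.Ioo j k, Gf θ₁ (n₁ i))
    with hW
  have hθb : 0 ≤ θb := h₁.nonneg.trans hb₁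
  have hG1 : ∀ s : Finset ℕ, 0 ≤ ∏ i ∈ s, Gf θ₁ (n₁ i) := fun s =>
    Finset.prod_nonneg fun i _ => Gf_nonneg h₁ (hn₁ i)
  have hG2 : ∀ s : Finset ℕ, 0 ≤ ∏ i ∈ s, Gf θ₂ (n₂ i) := fun s =>
    Finset.prod_nonneg fun i _ => Gf_nonneg h₂ (hn₂ i)
  have hW0 : ∀ j, 0 ≤ W j := fun j => mul_nonneg (mul_nonneg h02 (hG2 _)) (hG1 _)
  -- bound on the weights
  have hWle : ∀ j ∈ Finset.range k, W j ≤ θb ^ (k - 1) *
      ((∏ i ∈ Finset.range j, rhoF θ₂ (n₂ i)) * ∏ i ∈ Finset.Ioo j k, rhoF θ₁ (n₁ i)) := by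
    intro j hj
    have hj' : j < k := Finset.mem_range.1 hj
    have e1 := prod_Gf_eq θ₂ n₂ (Finset.range j)
    have e2 := prod_Gf_eq θ₁ n₁ (Finset.Ioo j k)
    rw [Finset.card_range] at e1
    rw [card_Ioo_nat hj'] at e2
    have hP := prod_rhoF_nonneg h₂ hn₂ (Finset.range j)
    have hB := prod_rhoF_nonneg h₁ hn₁ (Finset.Ioo j k)
    have hpow : θ₂ ^ j * θ₁ ^ (k - 1 - j) ≤ θb ^ (k - 1) := by
      have : θb ^ (k - 1) = θb ^ j * θb ^ (k - 1 - j) := by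
        rw [← pow_add]; congr 1; omega
      rw [this]
      exact mul_le_mul (pow_le_pow_left₀ h₂.nonneg hb₂ _) (pow_le_pow_left₀ h₁.nonneg hb₁ _)
        (pow_nonneg h₁.nonneg _) (pow_nonneg hθb _)
    simp only [hW]
    rw [e1, e2]
    have hPB := mul_nonneg hP hB
    calc V₂ * (θ₂ ^ j * ∏ i ∈ Finset.range j, rhoF θ₂ (n₂ i)) * (θ₁ ^ (k - 1 - j) * ∏ i ∈ Finset.Ioo j k, rhoF θ₁ (n₁ i))
        = V₂ * ((θ₂ ^ j * θ₁ ^ (k - 1 - j)) * ((∏ i ∈ Finset.range j, rhoF θ₂ (n₂ i)) * ∏ i ∈ Finset.Ioo j k, rhoF θ₁ (n₁ i))) := by ring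
      _ ≤ 1 * (θb ^ (k - 1) * ((∏ i ∈ Finset.range j, rhoF θ₂ (n₂ i)) * ∏ i ∈ Finset.Ioo j k, rhoF θ₁ (n₁ i))) := by
          refine mul_le_mul h12 (mul_le_mul_of_nonneg_right hpow hPB) ?_ zero_le_one
          exact mul_nonneg (mul_nonneg (pow_nonneg h₂.nonneg _) (pow_nonneg h₁.nonneg _)) hPB
      _ = _ := one_mul _
  -- the key telescoping bound
  have hkey : ∑ j ∈ Finset.range k, W j * (|n₁ j| + |n₂ j|) ^ 2 ≤ 8 * θb ^ (k - 1) := by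
    have hb : ∀ j ∈ Finset.range k, W j * (|n₁ j| + |n₂ j|) ^ 2 ≤ θb ^ (k - 1) *
        (4 * ((1 - rhoF θ₁ (n₁ j)) * ∏ i ∈ Finset.Ioo j k, rhoF θ₁ (n₁ i))
         + 4 * ((∏ i ∈ Finset.range j, rhoF θ₂ (n₂ i)) * (1 - rhoF θ₂ (n₂ j)))) := by
      intro j hj
      have hP := prod_rhoF_nonneg h₂ hn₂ (Finset.range j)
      have hP1 := prod_rhoF_le_one h₂ hn₂ (Finset.range j)
      have hB := prod_rhoF_nonneg h₁ hn₁ (Finset.Ioo j k)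
      have hB1 := prod_rhoF_le_one h₁ hn₁ (Finset.Ioo j k)
      have hs1 := sq_le_two_mul_one_sub_rhoF h₁ (hn₁ j)
      have hs2 := sq_le_two_mul_one_sub_rhoF h₂ (hn₂ j)
      have hsq : (|n₁ j| + |n₂ j|) ^ 2 ≤ 4 * (1 - rhoF θ₁ (n₁ j)) + 4 * (1 - rhoF θ₂ (n₂ j)) := by
        have h3 : (|n₁ j| + |n₂ j|) ^ 2 ≤ 2 * (n₁ j) ^ 2 + 2 * (n₂ j) ^ 2 := by
          have h4 := sq_abs (n₁ j)
          have h5 := sq_abs (n₂ j)
          nlinarith [sq_nonneg (|n₁ j| - |n₂ j|)]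
        linarith
      have hr1 : 0 ≤ 1 - rhoF θ₁ (n₁ j) := by linarith [rhoF_le_one h₁ (hn₁ j)]
      have hr2 : 0 ≤ 1 - rhoF θ₂ (n₂ j) := by linarith [rhoF_le_one h₂ (hn₂ j)]
      set P := ∏ i ∈ Finset.range j, rhoF θ₂ (n₂ i)
      set B := ∏ i ∈ Finset.Ioo j k, rhoF θ₁ (n₁ i)
      calc W j * (|n₁ j| + |n₂ j|) ^ 2
          ≤ (θb ^ (k - 1) * (P * B)) * (4 * (1 - rhoF θ₁ (n₁ j)) + 4 * (1 - rhoF θ₂ (n₂ j))) := by
            exact mul_le_mul (hWle j hj) hsq (sq_nonneg _) (mul_nonneg (pow_nonneg hθb _) (mul_nonneg hP hB))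
        _ = θb ^ (k - 1) * (P * B * (4 * (1 - rhoF θ₁ (n₁ j)) + 4 * (1 - rhoF θ₂ (n₂ j)))) := by ring
        _ ≤ _ := by
            refine mul_le_mul_of_nonneg_left ?_ (pow_nonneg hθb _)
            have e1 : P * B * (1 - rhoF θ₁ (n₁ j)) ≤ (1 - rhoF θ₁ (n₁ j)) * B := by
              have : P * (B * (1 - rhoF θ₁ (n₁ j))) ≤ 1 * (B * (1 - rhoF θ₁ (n₁ j))) :=
                mul_le_mul_of_nonneg_right hP1 (mul_nonneg hB hr1)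
              nlinarith
            have e2 : P * B * (1 - rhoF θ₂ (n₂ j)) ≤ P * (1 - rhoF θ₂ (n₂ j)) := by
              have : B * (P * (1 - rhoF θ₂ (n₂ j))) ≤ 1 * (P * (1 - rhoF θ₂ (n₂ j))) :=
                mul_le_mul_of_nonneg_right hB1 (mul_nonneg hP hr2)
              nlinarith
            nlinarith
    refine (Finset.sum_le_sum hb).trans ?_
    rw [← Finset.mul_sum, Finset.sum_add_distrib, ← Finset.mul_sum, ← Finset.mul_sum,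
      sum_suffix_tele, sum_prefix_tele]
    have h3 := prod_rhoF_nonneg h₁ hn₁ (Finset.range k)
    have h4 := prod_rhoF_nonneg h₂ hn₂ (Finset.range k)
    have h5 := pow_nonneg hθb (k - 1)
    nlinarith
  -- Cauchy-Schwarz
  have hCS : (∑ j ∈ Finset.range k, W j * (|n₁ j| + |n₂ j|) * |n₁ j - n₂ j|) ^ 2 ≤
      (∑ j ∈ Finset.range k, W j * (|n₁ j| + |n₂ j|) ^ 2) * ∑ j ∈ Finset.range k, W j * (n₁ j - n₂ j) ^ 2 := by
    refine Finset.sum_sq_le_sum_mul_sum_of_sq_le_mul _ (fun j _ => mul_nonneg (hW0 j) (sq_nonneg _))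
      (fun j _ => mul_nonneg (hW0 j) (sq_nonneg _)) (fun j _ => le_of_eq ?_)
    have := sq_abs (n₁ j - n₂ j)
    rw [mul_pow, mul_pow, this]; ring
  -- the identity
  have hid : V₁ * ∏ j ∈ Finset.range k, Gf θ₁ (n₁ j) - V₂ * ∏ j ∈ Finset.range k, Gf θ₂ (n₂ j) =
      (V₁ - V₂) * ∏ j ∈ Finset.range k, Gf θ₁ (n₁ j)
        + ∑ j ∈ Finset.range k, W j * (Gf θ₁ (n₁ j) - Gf θ₂ (n₂ j)) := by
    have := prod_sub_prod_tele (fun j => Gf θ₁ (n₁ j)) (fun j => Gf θ₂ (n₂ j)) k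
    have h2 : ∑ j ∈ Finset.range k, W j * (Gf θ₁ (n₁ j) - Gf θ₂ (n₂ j)) =
        V₂ * (∏ j ∈ Finset.range k, Gf θ₁ (n₁ j) - ∏ j ∈ Finset.range k, Gf θ₂ (n₂ j)) := by
      rw [this, Finset.mul_sum]
      refine Finset.sum_congr rfl fun j _ => ?_
      simp only [hW]; ring
    rw [h2]; ring
  set A := (V₁ - V₂) * ∏ j ∈ Finset.range k, Gf θ₁ (n₁ j) with hA
  set B := ∑ j ∈ Finset.range k, W j * (|n₁ j| + |n₂ j|) * |n₁ j - n₂ j| with hB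
  set C := ∑ j ∈ Finset.range k, W j with hC
  have hS : |∑ j ∈ Finset.range k, W j * (Gf θ₁ (n₁ j) - Gf θ₂ (n₂ j))| ≤ 2 * B + 9 * |θ₁ - θ₂| * C := by
    refine (Finset.abs_sum_le_sum_abs _ _).trans ?_
    rw [hB, hC, Finset.mul_sum, Finset.mul_sum, ← Finset.sum_add_distrib]
    refine Finset.sum_le_sum fun j _ => ?_
    rw [abs_mul, abs_of_nonneg (hW0 j)]
    have := Gf_sub_le h₁ h₂ (hn₁ j) (hn₂ j)
    have h3 := mul_le_mul_of_nonneg_left this (hW0 j)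
    nlinarith
  have hB0 : 0 ≤ B := Finset.sum_nonneg fun j _ => mul_nonneg (mul_nonneg (hW0 j) (by positivity)) (abs_nonneg _)
  have hC0 : 0 ≤ C := Finset.sum_nonneg fun j _ => hW0 j
  rw [hid]
  have hmain : (A + ∑ j ∈ Finset.range k, W j * (Gf θ₁ (n₁ j) - Gf θ₂ (n₂ j))) ^ 2 ≤
      3 * A ^ 2 + 3 * (2 * B) ^ 2 + 3 * (9 * |θ₁ - θ₂| * C) ^ 2 := by
    set S := ∑ j ∈ Finset.range k, W j * (Gf θ₁ (n₁ j) - Gf θ₂ (n₂ j))
    have h1 : S ^ 2 ≤ (2 * B + 9 * |θ₁ - θ₂| * C) ^ 2 := sq_le_sq' (by linarith [abs_le.1 hS]) (abs_le.1 hS).2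
    have h2 : (A + S) ^ 2 ≤ 3 * A ^ 2 + (3 / 2) * S ^ 2 := by nlinarith [sq_nonneg (2 * A - S)]
    have h3 : (2 * B + 9 * |θ₁ - θ₂| * C) ^ 2 ≤ 2 * (2 * B) ^ 2 + 2 * (9 * |θ₁ - θ₂| * C) ^ 2 := by
      nlinarith [sq_nonneg (2 * B - 9 * |θ₁ - θ₂| * C)]
    linarith
  refine hmain.trans ?_
  have hA2 : A ^ 2 = (V₁ - V₂) ^ 2 * (∏ j ∈ Finset.range k, Gf θ₁ (n₁ j)) ^ 2 := by rw [hA, mul_pow]
  have hB2 : B ^ 2 ≤ (8 * θb ^ (k - 1)) * ∑ j ∈ Finset.range k, W j * (n₁ j - n₂ j) ^ 2 :=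
    hCS.trans (mul_le_mul_of_nonneg_right hkey (Finset.sum_nonneg fun j _ => mul_nonneg (hW0 j) (sq_nonneg _)))
  have hC2 : (9 * |θ₁ - θ₂| * C) ^ 2 = 81 * (θ₁ - θ₂) ^ 2 * C ^ 2 := by
    rw [mul_pow, mul_pow, sq_abs]; ring
  rw [hC2, hA2]
  nlinarith

end Crest.Agent.IsingFactor
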