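import Crest.Agent.IsingFactor.SolStatic
import Crest.Agent.IsingFactor.CohTele

/-!
# IsingFactor.CohPath (WP IF-CohPath): pathwise inequalities.

# IsingFactor.Coherent : `H(r) ≲ (1/x̄² + 1 + log(1/a)) a` (WP: Coh1, Coh2).

`H_R = ∑_{u ∈ B(v,R)} E (C¹(v,u) - C²(v,u))²`, `C^i = covPath` of solution `i`.

PATHWISE (`path_ineq`): along a geodesic, messages towards `v`: `C^i = V^i ∏_{j<k} G^i_j`.
`C¹ - C² = (V¹ - V²) ∏ G¹ + ∑_j P_j B_j (G¹_j - G²_j)`, `P_j = V² ∏_{i<j} G²_i`, `B_j = ∏_{i>j} G¹_i`.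
`|G¹_j - G²_j| ≤ 2 (|n¹_j| + |n²_j|) |Δn_j| + 9 |Δθ|` (`Gf_sub_le`).  Cauchy-Schwarz with weights `W_j = P_j B_j`
and the TELESCOPING: `n_j² ≤ 2 (1 - ϱ_j)`, so `∑_j (∏_{i>j} ϱ¹_i) (n¹_j)² ≤ 2 ∑_j (∏_{i>j} ϱ¹_i - ∏_{i≥j} ϱ¹_i) ≤ 2`, and
symmetrically for `n²` with `∏_{i<j} ϱ²_i`: `∑_j W_j (|n¹_j| + |n²_j|)² ≤ 8 θ̄^{k-1}`, `θ̄ = max θ_i`: no factor `k`.
Result: `(C¹ - C²)² ≤ 3 (ΔV)² (∏ G¹)² + 96 θ̄^{k-1} ∑_j W_j Δn_j² + 243 Δθ² (∑_j W_j)²`.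

RECENTERING.  `θ̄^{j} P_j ≤ q^{-j} ∏ ϱ²(messages towards x_j)`: first use `covPath` symmetric
(`covPath_symm`: from `V_a G(ν_{b→a}) = V_b G(ν_{a→b})`, algebra), then `V ≤ 1`, `θ̄² ≤ 1/q`.
`θ̄^{k-1-j} B_j ≤ q^{-(k-1-j)} ∏ ϱ¹`.  So `∑_u θ̄^{k-1} W_j Δn_j²` reorganises, for each directed edge `(y → x)` with
`x` at distance `j` from `v` and `y` further, as `Δn²_{y→x} [q^{-j} ∏ϱ²(x_i → x)] Ξ¹_{y→x}`.

MASS TRANSPORT.  By `sol_pair_invariant` + `exists_aut_of_geo`: `E[Δn²_{y→x} A(v,x) Ξ¹_{y→x}]` only depends on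
`j = d(v,x)`, there are `(q+1) q^j` such directed edges from `v` (count), and the same value is attained for each of
the `q^j` points `v'` at depth `j` in `T(x₀ → y₀)`, so the sum over the edges at level `j` equals
`(q+1) E[Δn²_{y₀→x₀} Ξ¹_{y₀→x₀} ∑_{v' at depth j} A(v',x₀)]`.  Summing over `j`:
`H ≲ (q+1) E[Δn² Ξ²_{x₀→y₀} Ξ¹_{y₀→x₀}] + vertex + forcing`.  Then `Δn² ≲ ΔM_{x₀}² + ΔM_{y₀}² + Δθ²` (`msg_lip`, `alg`),
`Ξ² Ξ¹ ≤ ½ (Ξ²)² + ½ (Ξ¹)²`, `sol_xi_weighted`.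
VERTEX: `∑_u (ΔV_v)² (∏G¹)² ≤ 4 ΔM_v² (1 + (1/q) ∑_{w ~ v} ϱ(N_{w→v}) Ξ¹_{w→v})`.
FORCING: `E (∑_j W_j)² ≤ k ∑_j E W_j²`, `E W_j² ≤ θ̄^{2(k-1)} √(E ∏_{i<j} ϱ⁴ E ∏_{i>j} ϱ⁴)` (`sol_chain`, after recentering the
prefix); `∑_k (q+1) q^{k-1} k² θ̄^{2k-2} (1 - c x̄)^{(k-1)/2} ≲ 1/x̄³`.
Statements may be ADDED; do not change the ones below without posting on chat (topic S0241), other packages use them.
-/

set_option autoImplicit false

open MeasureTheory ProbabilityTheory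
open Crest.Agent.SRFactor Crest.ProbabilityR.Labels

namespace Crest.Agent.IsingFactor

variable {V : Type*} [DecidableEq V] {G : SimpleGraph V} [G.LocallyFinite]

/-- The pure real inequality along a path. `V₁ = 1 - m₁²`; `n i j` the `j`th message of solution `i`. -/
theorem path_ineq {θ₁ θ₂ θb : ℝ} (h₁ : GoodTheta θ₁) (h₂ : GoodTheta θ₂) (hb₁ : θ₁ ≤ θb) (hb₂ : θ₂ ≤ θb)
    (k : ℕ) (V₁ V₂ : ℝ) (h01 : 0 ≤ V₁) (h11 : V₁ ≤ 1) (h02 : 0 ≤ V₂) (h12 : V₂ ≤ 1)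
    (n₁ n₂ : ℕ → ℝ) (hn₁ : ∀ j, |n₁ j| ≤ 1) (hn₂ : ∀ j, |n₂ j| ≤ 1) :
    (V₁ * ∏ j ∈ Finset.range k, Gf θ₁ (n₁ j) - V₂ * ∏ j ∈ Finset.range k, Gf θ₂ (n₂ j)) ^ 2 ≤
      3 * (V₁ - V₂) ^ 2 * (∏ j ∈ Finset.range k, Gf θ₁ (n₁ j)) ^ 2
      + 96 * θb ^ (k - 1) * ∑ j ∈ Finset.range k,
          (V₂ * ∏ i ∈ Finset.range j, Gf θ₂ (n₂ i)) * (∏ i ∈ Finset.Ioo j k, Gf θ₁ (n₁ i)) * (n₁ j - n₂ j) ^ 2
      + 243 * (θ₁ - θ₂) ^ 2 * (∑ j ∈ Finset.range k,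
          (V₂ * ∏ i ∈ Finset.range j, Gf θ₂ (n₂ i)) * (∏ i ∈ Finset.Ioo j k, Gf θ₁ (n₁ i))) ^ 2 :=
  path_ineq' h₁ h₂ hb₁ hb₂ k V₁ V₂ h01 h11 h02 h12 n₁ n₂ hn₁ hn₂

/-- The edge identity behind the symmetry of `covPath`. -/
theorem edge_symm (θ a b : ℝ) (hθ : GoodTheta θ) (ha : |a| ≤ 1) (hb : |b| ≤ 1) :
    (1 - mrg a (θ * b) ^ 2) * Gf θ b = (1 - mrg b (θ * a) ^ 2) * Gf θ a := by
  have ha2 : a ^ 2 ≤ 1 := by rw [← sq_abs]; nlinarith [abs_nonneg a]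
  have hb2 : b ^ 2 ≤ 1 := by rw [← sq_abs]; nlinarith [abs_nonneg b]
  have hθ2 := hθ.sq_le
  have hθ0 := hθ.nonneg
  have hθ1 := hθ.lt_one
  have habs : ∀ {x : ℝ}, |x| ≤ 1 → |θ * x| < 1 := by
    intro x hx
    rw [abs_mul, abs_of_nonneg hθ0]
    nlinarith [abs_nonneg x]
  have d1 : 0 < 1 + a * (θ * b) := one_add_mul_pos ha (habs hb)
  have d2 : 0 < 1 + b * (θ * a) := one_add_mul_pos hb (habs ha)
  have eA : 1 + b * (θ * a) = 1 + a * (θ * b) := by ring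
  have hD1 : 0 < 1 - θ ^ 2 * b ^ 2 := by nlinarith [sq_nonneg b]
  have hD2 : 0 < 1 - θ ^ 2 * a ^ 2 := by nlinarith [sq_nonneg a]
  have e1 : (1 - mrg a (θ * b) ^ 2) * Gf θ b = θ * (1 - a ^ 2) * (1 - b ^ 2) / (1 + a * (θ * b)) ^ 2 := by
    rw [one_sub_mrg_sq d1.ne', mul_pow θ b]
    unfold Gf
    have h1 := hD1.ne'
    have h2 := d1.ne'
    field_simp
  have e2 : (1 - mrg b (θ * a) ^ 2) * Gf θ a = θ * (1 - a ^ 2) * (1 - b ^ 2) / (1 + a * (θ * b)) ^ 2 := by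
    rw [one_sub_mrg_sq d2.ne', mul_pow θ a, eA]
    unfold Gf
    have h1 := hD2.ne'
    have h2 := d1.ne'
    field_simp
  rw [e1, e2]

omit [G.LocallyFinite] in
/-- The reversed geodesic. -/
theorem pathV_swap (hT : G.IsTree) (v u : V) {j : ℕ} (hj : j ≤ G.dist v u) :
    pathV G u v j = pathV G v u (G.dist v u - j) := by
  set d := G.dist v u with hd
  set y : ℕ → V := fun i => pathV G v u (d - i) with hy
  have hgeo : IsGeo G y d := by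
    intro a b ha hb
    have := isGeo_pathV hT v u (d - a) (d - b) (Nat.sub_le _ _) (Nat.sub_le _ _)
    simp only [hy]
    rw [this]
    simp only [Nat.dist]
    omega
  have h0 : y 0 = u := by simp only [hy, Nat.sub_zero]; exact pathV_end hT v u
  have hdd : y d = v := by simp only [hy, Nat.sub_self]; exact pathV_zero v u
  have := isGeo_eq_pathV hT hgeo hj
  rw [h0, hdd] at this
  exact this.symm

/-- For a solution, `covPath` is symmetric almost surely. -/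
theorem covPath_symm (hT : G.IsTree) {θ r : ℝ} {M : ℝ → V → (V → unitInterval) → ℝ}
    {N : ℝ → V → V → (V → unitInterval) → ℝ} (hθ : GoodTheta θ) (hS : IsSol G θ M N) (hr : ∃ n, Dy n r)
    (v u : V) : ∀ᵐ ω ∂labelMeasure V,
      covPath G θ (fun w => M r w ω) (fun y x => N r y x ω) v u =
      covPath G θ (fun w => M r w ω) (fun y x => N r y x ω) u v := by
  set d := G.dist v u with hd
  set x : ℕ → V := pathV G v u with hx
  have hadj : ∀ j, j < d → G.Adj (x j) (x (j + 1)) := fun j hj => adj_pathV hT hj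
  have hev : ∀ᵐ ω ∂labelMeasure V, ∀ j ∈ Finset.range d,
      M r (x j) ω = mrg (N r (x j) (x (j + 1)) ω) (θ * N r (x (j + 1)) (x j) ω) ∧
      M r (x (j + 1)) ω = mrg (N r (x (j + 1)) (x j) ω) (θ * N r (x j) (x (j + 1)) ω) := by
    rw [Filter.eventually_all_finset]
    intro j hj
    have hj' := Finset.mem_range.1 hj
    filter_upwards [hS.alg r (x j) (x (j + 1)) hr (hadj j hj'),
      hS.alg r (x (j + 1)) (x j) hr (hadj j hj').symm] with ω h1 h2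
    exact ⟨h1, h2⟩
  filter_upwards [hev] with ω hω
  have hV : ∀ k, k ≤ d →
      (1 - M r (x 0) ω ^ 2) * ∏ j ∈ Finset.range k, Gf θ (N r (x (j + 1)) (x j) ω) =
      (1 - M r (x k) ω ^ 2) * ∏ j ∈ Finset.range k, Gf θ (N r (x j) (x (j + 1)) ω) := by
    intro k
    induction k with
    | zero => intro _; simp
    | succ k ih =>
      intro hk
      have hk' : k < d := hk
      obtain ⟨h1, h2⟩ := hω k (Finset.mem_range.2 hk')
      have hs := edge_symm θ (N r (x k) (x (k + 1)) ω) (N r (x (k + 1)) (x k) ω) hθ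
        (hS.bdN _ _ _ _) (hS.bdN _ _ _ _)
      rw [← h1, ← h2] at hs
      rw [Finset.prod_range_succ, Finset.prod_range_succ, ← mul_assoc, ih hk'.le]
      calc (1 - M r (x k) ω ^ 2) * (∏ j ∈ Finset.range k, Gf θ (N r (x j) (x (j + 1)) ω)) *
            Gf θ (N r (x (k + 1)) (x k) ω)
          = ((1 - M r (x k) ω ^ 2) * Gf θ (N r (x (k + 1)) (x k) ω)) *
            ∏ j ∈ Finset.range k, Gf θ (N r (x j) (x (j + 1)) ω) := by ring
        _ = _ := by rw [hs]; ring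
  have hfin := hV d le_rfl
  have hx0 : x 0 = v := pathV_zero v u
  have hxd : x d = u := pathV_end hT v u
  rw [hx0, hxd] at hfin
  unfold covPath
  rw [← hd, G.dist_comm, ← hd]
  have hrev : ∏ j ∈ Finset.range d, Gf θ (N r (pathV G u v (j + 1)) (pathV G u v j) ω) =
      ∏ j ∈ Finset.range d, Gf θ (N r (x j) (x (j + 1)) ω) := by
    rw [← Finset.prod_range_reflect]
    refine Finset.prod_congr rfl fun j hj => ?_
    have hj' := Finset.mem_range.1 hj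
    have e1 : pathV G u v (d - 1 - j + 1) = x j := by
      rw [pathV_swap hT v u (by rw [← hd]; omega), ← hd]
      congr 1
      omega
    have e2 : pathV G u v (d - 1 - j) = x (j + 1) := by
      rw [pathV_swap hT v u (by rw [← hd]; omega), ← hd]
      congr 1
      omega
    rw [e1, e2]
  rw [hrev]
  exact hfin

end Crest.Agent.IsingFactor
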