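import Crest.Agent.IsingFactor.CohInt
import Crest.Agent.SRFactor.LabelBasics

/-!
# IsingFactor.CohSum: the terms for solutions; mass transport.
-/

set_option autoImplicit false
set_option linter.unusedSectionVars false
set_option linter.unusedVariables false

open MeasureTheory ProbabilityTheory
open Crest.Agent.SRFactor Crest.ProbabilityR.Labels

namespace Crest.Agent.IsingFactor

variable {V : Type*} [DecidableEq V] {G : SimpleGraph V} [G.LocallyFinite]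

/-- The weight `W_j` along the sequence `x`, for two solutions. -/
noncomputable def WP (θ₁ θ₂ r : ℝ) (M₂ : ℝ → V → (V → unitInterval) → ℝ)
    (N₁ N₂ : ℝ → V → V → (V → unitInterval) → ℝ) (j k : ℕ) (x : ℕ → V) (ω : V → unitInterval) : ℝ :=
  WF θ₁ θ₂ j k (fun i => M₂ r (x i) ω) (fun i => N₁ r (x (i + 1)) (x i) ω)
    (fun i => N₂ r (x (i + 1)) (x i) ω)

/-- The term `W_j Δ_j²` along the sequence `x`, for two solutions. -/
noncomputable def T2P (θ₁ θ₂ r : ℝ) (M₂ : ℝ → V → (V → unitInterval) → ℝ)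
    (N₁ N₂ : ℝ → V → V → (V → unitInterval) → ℝ) (j k : ℕ) (x : ℕ → V) (ω : V → unitInterval) : ℝ :=
  T2F θ₁ θ₂ j k (fun i => M₂ r (x i) ω) (fun i => N₁ r (x (i + 1)) (x i) ω)
    (fun i => N₂ r (x (i + 1)) (x i) ω)

section bm
variable {θ θ' θ₁ θ₂ r : ℝ} {M M₁ M₂ : ℝ → V → (V → unitInterval) → ℝ}
  {N N₁ N₂ : ℝ → V → V → (V → unitInterval) → ℝ}

theorem BM_N (hS : IsSol G θ M N) (r : ℝ) (y x : V) : BM (N r y x) :=
  ⟨hS.measN r y x, 1, hS.bdN r y x⟩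

theorem BM_M (hS : IsSol G θ M N) (r : ℝ) (v : V) : BM (M r v) :=
  ⟨hS.measM r v, 1, hS.bdM r v⟩

theorem BM_rho (hθ : GoodTheta θ') (hS : IsSol G θ M N) (r : ℝ) (y x : V) :
    BM (fun ω => rhoF θ' (N r y x ω)) :=
  BM.rhoF hθ (hS.measN r y x) (hS.bdN r y x)

theorem BM_Gf (hθ : GoodTheta θ') (hS : IsSol G θ M N) (r : ℝ) (y x : V) :
    BM (fun ω => Gf θ' (N r y x ω)) :=
  BM.Gf hθ (hS.measN r y x) (hS.bdN r y x)

theorem BM_prodR (hθ : GoodTheta θ) (hS : IsSol G θ M N) (r : ℝ) (a b : V) :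
    BM (fun ω => prodR G θ (fun y x => N r y x ω) a b) :=
  BM.prod _ fun _ _ => BM_rho hθ hS r _ _

theorem BM_tmR (hθ : GoodTheta θ) (hS : IsSol G θ M N) (r : ℝ) (q : ℕ) (a b : V) :
    BM (fun ω => tmR G q θ (fun y x => N r y x ω) a b) :=
  (BM.const _).mul (BM_prodR hθ hS r a b)

theorem BM_xi (hθ : GoodTheta θ) (hS : IsSol G θ M N) (r : ℝ) (q K : ℕ) (y x : V) :
    BM (fun ω => xiS G q θ N r K y x ω) := by
  induction K generalizing y x with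
  | zero => exact BM.const 1
  | succ K ih =>
    have : (fun ω => xiS G q θ N r (K + 1) y x ω) = fun ω => 1 + (1 / (q : ℝ)) *
        ∑ s ∈ childF G y x, rhoF θ (N r s y ω) * xiS G q θ N r K s y ω := rfl
    rw [this]
    exact (BM.const 1).add ((BM.const _).mul (BM.sum _ fun s _ => (BM_rho hθ hS r s y).mul (ih s y)))

theorem BM_WP (h₁ : GoodTheta θ₁) (h₂ : GoodTheta θ₂) (hS₁ : IsSol G θ₁ M₁ N₁) (hS₂ : IsSol G θ₂ M₂ N₂)
    (r : ℝ) (j k : ℕ) (x : ℕ → V) : BM (WP θ₁ θ₂ r M₂ N₁ N₂ j k x) := by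
  unfold WP WF
  beta_reduce
  exact (((BM.const 1).sub ((BM_M hS₂ r _).pow 2)).mul (BM.prod _ fun _ _ => BM_Gf h₂ hS₂ r _ _)).mul
    (BM.prod _ fun _ _ => BM_Gf h₁ hS₁ r _ _)

theorem BM_T2P (h₁ : GoodTheta θ₁) (h₂ : GoodTheta θ₂) (hS₁ : IsSol G θ₁ M₁ N₁) (hS₂ : IsSol G θ₂ M₂ N₂)
    (r : ℝ) (j k : ℕ) (x : ℕ → V) : BM (T2P θ₁ θ₂ r M₂ N₁ N₂ j k x) :=
  (BM_WP h₁ h₂ hS₁ hS₂ r j k x).mul (((BM_N hS₁ r _ _).sub (BM_N hS₂ r _ _)).pow 2)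

end bm

section inv
variable {θ₁ θ₂ r : ℝ} {M₁ M₂ : ℝ → V → (V → unitInterval) → ℝ}
  {N₁ N₂ : ℝ → V → V → (V → unitInterval) → ℝ} {q : ℕ}

/-- Invariance of the integral of `T2P` over geodesics of the same length. -/
theorem T2P_inv (hT : G.IsTree) (hreg : G.IsRegularOfDegree (q + 1)) (hS₁ : IsSol G θ₁ M₁ N₁)
    (hS₂ : IsSol G θ₂ M₂ N₂) {j k : ℕ} (hj : j < k) {x x' : ℕ → V} (hx : IsGeo G x k) (hx' : IsGeo G x' k) :
    ∫ ω, T2P θ₁ θ₂ r M₂ N₁ N₂ j k x ω ∂labelMeasure V = ∫ ω, T2P θ₁ θ₂ r M₂ N₁ N₂ j k x' ω ∂labelMeasure V := by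
  obtain ⟨g, hg⟩ := exists_aut_of_geo hT hreg hx hx'
  have h := sol_pair_invariant hT hreg hS₁ hS₂ g r (ι := ℕ) x x (fun i => x (i + 1)) x (fun i => x (i + 1)) x
    (fun _ m₂ n₁ n₂ => T2F θ₁ θ₂ j k m₂ n₁ n₂)
  refine Eq.trans ?_ (Eq.trans h.symm ?_) <;> try rfl
  refine integral_congr_ae (Filter.Eventually.of_forall fun ω => ?_)
  refine T2F_congr hj ?_ ?_ ?_
  · simp only [hg 0 (Nat.zero_le _)]
  · intro i hi
    simp only [hg i hi.le, hg (i + 1) hi]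
  · intro i hi
    simp only [hg i hi.le, hg (i + 1) hi]

end inv

section level
variable {θ₁ θ₂ θb r : ℝ} {M₁ M₂ : ℝ → V → (V → unitInterval) → ℝ}
  {N₁ N₂ : ℝ → V → V → (V → unitInterval) → ℝ} {q : ℕ}

/-- The `Ξ` terms at depth `j` on the `v`-side, second solution. -/
noncomputable def s2 (G : SimpleGraph V) [G.LocallyFinite] (q : ℕ) (θ r : ℝ)
    (N : ℝ → V → V → (V → unitInterval) → ℝ) (y x : V) (j : ℕ) (ω : V → unitInterval) : ℝ :=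
  ∑ a ∈ Sd G y x j, tmR G q θ (fun c d => N r c d ω) y a

theorem BM_s2 {θ : ℝ} {M : ℝ → V → (V → unitInterval) → ℝ} {N : ℝ → V → V → (V → unitInterval) → ℝ}
    (hθ : GoodTheta θ) (hS : IsSol G θ M N) (r : ℝ) (q : ℕ) (y x : V) (j : ℕ) :
    BM (s2 G q θ r N y x j) :=
  BM.sum _ fun _ _ => BM_tmR hθ hS r q _ _

theorem s2_nonneg {θ : ℝ} {M : ℝ → V → (V → unitInterval) → ℝ} {N : ℝ → V → V → (V → unitInterval) → ℝ}
    (hθ : GoodTheta θ) (hS : IsSol G θ M N) (r : ℝ) (q : ℕ) (y x : V) (j : ℕ) (ω : V → unitInterval) :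
    0 ≤ s2 G q θ r N y x j ω :=
  Finset.sum_nonneg fun _ _ => tmR_nonneg hθ (fun c d => hS.bdN r c d ω) _ _

theorem sum_s2_eq (hT : G.IsTree) (hreg : G.IsRegularOfDegree (q + 1)) {θ : ℝ}
    {N : ℝ → V → V → (V → unitInterval) → ℝ} {y x : V} (hyx : G.Adj y x) (R : ℕ) (ω : V → unitInterval) :
    ∑ j ∈ Finset.range (R + 1), s2 G q θ r N y x j ω = xiS G q θ N r R y x ω := by
  have e1 : xiS G q θ N r R y x ω = ∑ u ∈ tsub G y x R, tmR G q θ (fun c d => N r c d ω) y u :=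
    xiK_expand hT hreg _ R hyx
  rw [e1, sum_tsub_eq hT]
  rfl

/-- One level of the mass transport. -/
theorem T2_level (hT : G.IsTree) (hreg : G.IsRegularOfDegree (q + 1)) (hq : 2 ≤ q)
    (h₁ : GoodTheta θ₁) (h₂ : GoodTheta θ₂) (hS₁ : IsSol G θ₁ M₁ N₁) (hS₂ : IsSol G θ₂ M₂ N₂)
    (hr : ∃ n, Dy n r) (hb₁ : θ₁ ≤ θb) (hb₂ : θ₂ ≤ θb) (hbq : θb ^ 2 * q ≤ 1) {v w : V} (hvw : G.Adj v w)
    {j k : ℕ} (hj : j < k) :
    ∑ u ∈ Sph G v k, (θb ^ (k - 1) * ∫ ω, T2P θ₁ θ₂ r M₂ N₁ N₂ j k (pathV G v u) ω ∂labelMeasure V)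
      ≤ (q + 1) * ∫ ω, (N₁ r w v ω - N₂ r w v ω) ^ 2 *
          (s2 G q θ₂ r N₂ v w j ω * s2 G q θ₁ r N₁ w v (k - 1 - j) ω) ∂labelMeasure V := by
  set l := k - 1 - j with hl
  have hkl : k = j + 1 + l := by omega
  have hq0 : 0 < q := by omega
  have hθb : 0 ≤ θb := h₁.nonneg.trans hb₁
  -- cardinalities
  have hcardS : (Sph G v k).card = (q + 1) * q ^ (k - 1) := by
    have := card_sphere hT hreg v k
    rw [if_neg (by omega)] at this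
    exact this
  have hcarda : (Sd G v w j).card = q ^ j := card_sphere_side hT hreg hvw j
  have hcardb : (Sd G w v l).card = q ^ l := card_sphere_side hT hreg hvw.symm l
  -- a reference vertex
  have hne : (Sph G v k).Nonempty := by
    rw [← Finset.card_pos, hcardS]; positivity
  obtain ⟨u₀, hu₀⟩ := hne
  have hgeoS : ∀ u ∈ Sph G v k, IsGeo G (pathV G v u) k := by
    intro u hu
    have := isGeo_pathV hT v u
    rwa [(mem_Sph hT).1 hu] at this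
  set τ := ∫ ω, T2P θ₁ θ₂ r M₂ N₁ N₂ j k (pathV G v u₀) ω ∂labelMeasure V with hτ
  have hA : ∀ u ∈ Sph G v k, ∫ ω, T2P θ₁ θ₂ r M₂ N₁ N₂ j k (pathV G v u) ω ∂labelMeasure V = τ :=
    fun u hu => T2P_inv hT hreg hS₁ hS₂ hj (hgeoS u hu) (hgeoS u₀ hu₀)
  have hdab : ∀ a ∈ Sd G v w j, ∀ b ∈ Sd G w v l, G.dist a b = k := by
    intro a ha b hb
    obtain ⟨ha1, ha2⟩ := (mem_Sd hT).1 ha
    obtain ⟨hb1, hb2⟩ := (mem_Sd hT).1 hb
    have := (path_split hT hvw ha2 hb2).1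
    rw [tdc a v, ha1, hb1] at this
    omega
  have hB : ∀ a ∈ Sd G v w j, ∀ b ∈ Sd G w v l,
      ∫ ω, T2P θ₁ θ₂ r M₂ N₁ N₂ j k (pathV G a b) ω ∂labelMeasure V = τ := by
    intro a ha b hb
    have hg := isGeo_pathV hT a b
    rw [hdab a ha b hb] at hg
    exact T2P_inv hT hreg hS₁ hS₂ hj hg (hgeoS u₀ hu₀)
  -- the pathwise bound
  have hpw : ∀ a ∈ Sd G v w j, ∀ b ∈ Sd G w v l,
      θb ^ (k - 1) * ∫ ω, T2P θ₁ θ₂ r M₂ N₁ N₂ j k (pathV G a b) ω ∂labelMeasure V ≤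
      ∫ ω, (N₁ r w v ω - N₂ r w v ω) ^ 2 * (tmR G q θ₂ (fun c d => N₂ r c d ω) v a *
        tmR G q θ₁ (fun c d => N₁ r c d ω) w b) ∂labelMeasure V := by
    intro a ha b hb
    obtain ⟨ha1, ha2⟩ := (mem_Sd hT).1 ha
    obtain ⟨hb1, hb2⟩ := (mem_Sd hT).1 hb
    rw [← integral_const_mul]
    refine integral_mono_ae (((BM.const _).mul (BM_T2P h₁ h₂ hS₁ hS₂ r j k _)).integrable _)
      ((((BM_N hS₁ r w v).sub (BM_N hS₂ r w v)).pow 2 |>.mul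
        ((BM_tmR h₂ hS₂ r q v a).mul (BM_tmR h₁ hS₁ r q w b))).integrable _) ?_
    filter_upwards [covPath_symm hT h₂ hS₂ hr a v] with ω hω
    have := T2_pathwise hT hq0 h₁ h₂ hb₁ hb₂ hbq hvw ha2 hb2 (fun c => M₂ r c ω)
      (fun c => hS₂.bdM r c ω) (fun c d => hS₁.bdN r c d ω) (fun c d => hS₂.bdN r c d ω) hω
    rw [hdab a ha b hb, tdc a v, ha1] at this
    exact this
  -- the conclusion
  have hcalc : ∑ u ∈ Sph G v k, (θb ^ (k - 1) * ∫ ω, T2P θ₁ θ₂ r M₂ N₁ N₂ j k (pathV G v u) ω ∂labelMeasure V)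
      = (q + 1) * ∑ a ∈ Sd G v w j, ∑ b ∈ Sd G w v l,
        (θb ^ (k - 1) * ∫ ω, T2P θ₁ θ₂ r M₂ N₁ N₂ j k (pathV G a b) ω ∂labelMeasure V) := by
    rw [Finset.sum_congr rfl (fun u hu => by rw [hA u hu]),
      Finset.sum_congr rfl (fun a ha => Finset.sum_congr rfl (fun b hb => by rw [hB a ha b hb]))]
    simp only [Finset.sum_const, nsmul_eq_mul, hcardS, hcarda, hcardb]
    have : k - 1 = j + l := by omega
    rw [this, pow_add]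
    push_cast
    ring
  rw [hcalc]
  refine mul_le_mul_of_nonneg_left ?_ (by positivity)
  refine (Finset.sum_le_sum fun a ha => Finset.sum_le_sum fun b hb => hpw a ha b hb).trans (le_of_eq ?_)
  have hBMab : ∀ a b, BM (fun ω => (N₁ r w v ω - N₂ r w v ω) ^ 2 * (tmR G q θ₂ (fun c d => N₂ r c d ω) v a *
      tmR G q θ₁ (fun c d => N₁ r c d ω) w b)) := fun a b =>
    ((BM_N hS₁ r w v).sub (BM_N hS₂ r w v)).pow 2 |>.mul
      ((BM_tmR h₂ hS₂ r q v a).mul (BM_tmR h₁ hS₁ r q w b))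
  have hinner : ∀ a ∈ Sd G v w j, ∑ b ∈ Sd G w v l, ∫ ω, (N₁ r w v ω - N₂ r w v ω) ^ 2 *
      (tmR G q θ₂ (fun c d => N₂ r c d ω) v a * tmR G q θ₁ (fun c d => N₁ r c d ω) w b) ∂labelMeasure V =
      ∫ ω, ∑ b ∈ Sd G w v l, (N₁ r w v ω - N₂ r w v ω) ^ 2 *
      (tmR G q θ₂ (fun c d => N₂ r c d ω) v a * tmR G q θ₁ (fun c d => N₁ r c d ω) w b) ∂labelMeasure V :=
    fun a _ => (integral_finsetSum _ fun b _ => (hBMab a b).integrable _).symm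
  rw [Finset.sum_congr rfl hinner, ← integral_finsetSum _ fun a _ =>
    (BM.sum _ fun b _ => hBMab a b).integrable _]
  refine integral_congr_ae (Filter.Eventually.of_forall fun ω => ?_)
  simp only [s2]
  rw [Finset.sum_mul_sum, Finset.mul_sum]
  refine Finset.sum_congr rfl fun a _ => ?_
  rw [Finset.mul_sum]

/-- The mass transport: the second term of `path_ineq`, summed over the ball. -/
theorem T2_sum_le (hT : G.IsTree) (hreg : G.IsRegularOfDegree (q + 1)) (hq : 2 ≤ q)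
    (h₁ : GoodTheta θ₁) (h₂ : GoodTheta θ₂) (hS₁ : IsSol G θ₁ M₁ N₁) (hS₂ : IsSol G θ₂ M₂ N₂)
    (hr : ∃ n, Dy n r) (hb₁ : θ₁ ≤ θb) (hb₂ : θ₂ ≤ θb) (hbq : θb ^ 2 * q ≤ 1) {v w : V} (hvw : G.Adj v w)
    (R : ℕ) :
    ∑ u ∈ tball G v R, ∑ j ∈ Finset.range (G.dist v u), (θb ^ (G.dist v u - 1) *
        ∫ ω, T2P θ₁ θ₂ r M₂ N₁ N₂ j (G.dist v u) (pathV G v u) ω ∂labelMeasure V)
      ≤ (q + 1) * ∫ ω, (N₁ r w v ω - N₂ r w v ω) ^ 2 *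
          (xiS G q θ₂ N₂ r R v w ω * xiS G q θ₁ N₁ r R w v ω) ∂labelMeasure V := by
  rw [sum_tball_eq hT v R]
  have step : ∀ k ∈ Finset.range (R + 1), ∑ u ∈ Sph G v k, ∑ j ∈ Finset.range (G.dist v u),
      (θb ^ (G.dist v u - 1) * ∫ ω, T2P θ₁ θ₂ r M₂ N₁ N₂ j (G.dist v u) (pathV G v u) ω ∂labelMeasure V)
      = ∑ j ∈ Finset.range k, ∑ u ∈ Sph G v k,
      (θb ^ (k - 1) * ∫ ω, T2P θ₁ θ₂ r M₂ N₁ N₂ j k (pathV G v u) ω ∂labelMeasure V) := by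
    intro k _
    rw [Finset.sum_congr rfl (fun u hu => by rw [(mem_Sph hT).1 hu])]
    exact Finset.sum_comm
  rw [Finset.sum_congr rfl step]
  set Δ : (V → unitInterval) → ℝ := fun ω => (N₁ r w v ω - N₂ r w v ω) ^ 2 with hΔ
  have hΔBM : BM Δ := ((BM_N hS₁ r w v).sub (BM_N hS₂ r w v)).pow 2
  have hΔ0 : ∀ ω, 0 ≤ Δ ω := fun ω => sq_nonneg _
  have hBMjk : ∀ k j, BM (fun ω => Δ ω * (s2 G q θ₂ r N₂ v w j ω * s2 G q θ₁ r N₁ w v (k - 1 - j) ω)) :=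
    fun k j => hΔBM.mul ((BM_s2 h₂ hS₂ r q v w j).mul (BM_s2 h₁ hS₁ r q w v _))
  calc ∑ k ∈ Finset.range (R + 1), ∑ j ∈ Finset.range k, ∑ u ∈ Sph G v k,
        (θb ^ (k - 1) * ∫ ω, T2P θ₁ θ₂ r M₂ N₁ N₂ j k (pathV G v u) ω ∂labelMeasure V)
      ≤ ∑ k ∈ Finset.range (R + 1), ∑ j ∈ Finset.range k, ((q : ℝ) + 1) * ∫ ω, Δ ω *
          (s2 G q θ₂ r N₂ v w j ω * s2 G q θ₁ r N₁ w v (k - 1 - j) ω) ∂labelMeasure V :=
        Finset.sum_le_sum fun k _ => Finset.sum_le_sum fun j hj =>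
          T2_level hT hreg hq h₁ h₂ hS₁ hS₂ hr hb₁ hb₂ hbq hvw (Finset.mem_range.1 hj)
    _ = ((q : ℝ) + 1) * ∫ ω, ∑ k ∈ Finset.range (R + 1), ∑ j ∈ Finset.range k, Δ ω *
          (s2 G q θ₂ r N₂ v w j ω * s2 G q θ₁ r N₁ w v (k - 1 - j) ω) ∂labelMeasure V := by
        rw [integral_finsetSum _ fun k _ => (BM.sum _ fun j _ => hBMjk k j).integrable _, Finset.mul_sum]
        refine Finset.sum_congr rfl fun k _ => ?_
        rw [integral_finsetSum _ fun j _ => (hBMjk k j).integrable _, Finset.mul_sum]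
    _ ≤ ((q : ℝ) + 1) * ∫ ω, Δ ω * (xiS G q θ₂ N₂ r R v w ω * xiS G q θ₁ N₁ r R w v ω) ∂labelMeasure V := by
        refine mul_le_mul_of_nonneg_left ?_ (by positivity)
        refine integral_mono ((BM.sum _ fun k _ => BM.sum _ fun j _ => hBMjk k j).integrable _)
          ((hΔBM.mul ((BM_xi h₂ hS₂ r q R v w).mul (BM_xi h₁ hS₁ r q R w v))).integrable _) fun ω => ?_
        simp only
        rw [← sum_s2_eq hT hreg hvw R ω, ← sum_s2_eq hT hreg hvw.symm R ω]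
        have := sum_conv_le (fun j => s2 G q θ₂ r N₂ v w j ω) (fun j => s2 G q θ₁ r N₁ w v j ω)
          (fun j => s2_nonneg h₂ hS₂ r q v w j ω) (fun j => s2_nonneg h₁ hS₁ r q w v j ω) R
        have h2 := mul_le_mul_of_nonneg_left this (hΔ0 ω)
        refine le_trans (le_of_eq ?_) h2
        rw [Finset.mul_sum]
        refine Finset.sum_congr rfl fun k _ => ?_
        rw [Finset.mul_sum]

end level

section T3
variable {θ₁ θ₂ θb r : ℝ} {M₁ M₂ : ℝ → V → (V → unitInterval) → ℝ}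
  {N₁ N₂ : ℝ → V → V → (V → unitInterval) → ℝ} {q : ℕ}

/-- The third term of `path_ineq`, for one geodesic. -/
theorem T3_single (hT : G.IsTree) (h₁ : GoodTheta θ₁) (h₂ : GoodTheta θ₂) (hS₁ : IsSol G θ₁ M₁ N₁)
    (hS₂ : IsSol G θ₂ M₂ N₂) (hb₁ : θ₁ ≤ θb) (hb₂ : θ₂ ≤ θb) {s : ℝ} (hs : 0 < s)
    (hch₁ : ∀ (x : ℕ → V) (k : ℕ), IsGeo G x k →
      ∫ ω, ∏ j ∈ Finset.range k, rhoF θ₁ (N₁ r (x (j + 1)) (x j) ω) ^ 4 ∂labelMeasure V ≤ (s ^ 2) ^ k)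
    (hch₂ : ∀ (x : ℕ → V) (k : ℕ), IsGeo G x k →
      ∫ ω, ∏ j ∈ Finset.range k, rhoF θ₂ (N₂ r (x (j + 1)) (x j) ω) ^ 4 ∂labelMeasure V ≤ (s ^ 2) ^ k)
    {x : ℕ → V} {k : ℕ} (hx : IsGeo G x k) :
    ∫ ω, (∑ j ∈ Finset.range k, WP θ₁ θ₂ r M₂ N₁ N₂ j k x ω) ^ 2 ∂labelMeasure V
      ≤ k * (k * ((θb ^ (k - 1)) ^ 2 * s ^ (k - 1))) := by
  have hθb : 0 ≤ θb := h₁.nonneg.trans hb₁
  have hBMW : ∀ j, BM (WP θ₁ θ₂ r M₂ N₁ N₂ j k x) := fun j => BM_WP h₁ h₂ hS₁ hS₂ r j k x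
  have hterm : ∀ j ∈ Finset.range k, ∫ ω, WP θ₁ θ₂ r M₂ N₁ N₂ j k x ω ^ 2 ∂labelMeasure V
      ≤ (θb ^ (k - 1)) ^ 2 * s ^ (k - 1) := by
    intro j hj
    have hj' : j < k := Finset.mem_range.1 hj
    obtain ⟨l, hl⟩ : ∃ l, k = j + 1 + l := ⟨k - 1 - j, by omega⟩
    set P : (V → unitInterval) → ℝ := fun ω => ∏ i ∈ Finset.range j, rhoF θ₂ (N₂ r (x (i + 1)) (x i) ω) with hP
    set B : (V → unitInterval) → ℝ := fun ω => ∏ i ∈ Finset.Ioo j k, rhoF θ₁ (N₁ r (x (i + 1)) (x i) ω) with hB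
    have hPBM : BM P := BM.prod _ fun _ _ => BM_rho h₂ hS₂ r _ _
    have hBBM : BM B := BM.prod _ fun _ _ => BM_rho h₁ hS₁ r _ _
    have hP4 : ∫ ω, P ω ^ 4 ∂labelMeasure V ≤ (s ^ 2) ^ j := by
      simp only [hP, ← Finset.prod_pow]
      exact hch₂ x j (isGeo_mono hT hx (by omega))
    have hB4 : ∫ ω, B ω ^ 4 ∂labelMeasure V ≤ (s ^ 2) ^ l := by
      have hBeq : ∀ ω, B ω ^ 4 = ∏ i ∈ Finset.range l,
          rhoF θ₁ (N₁ r (x (j + 1 + (i + 1))) (x (j + 1 + i)) ω) ^ 4 := by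
        intro ω
        simp only [hB]
        rw [hl, prod_Ioo_shift, ← Finset.prod_pow]
        rfl
      simp only [hBeq]
      exact hch₁ (fun i => x (j + 1 + i)) l (isGeo_shift hx (by omega))
    have hcs := integral_cs_geom hPBM hBBM hs hP4 hB4
    have hkl : k - 1 = j + l := by omega
    rw [← hkl] at hcs
    have hle : ∀ ω, WP θ₁ θ₂ r M₂ N₁ N₂ j k x ω ^ 2 ≤ (θb ^ (k - 1)) ^ 2 * (P ω ^ 2 * B ω ^ 2) := by
      intro ω
      have h0 := WF_nonneg (j := j) (k := k) (m₂ := fun i => M₂ r (x i) ω)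
        (n₁ := fun i => N₁ r (x (i + 1)) (x i) ω) (n₂ := fun i => N₂ r (x (i + 1)) (x i) ω) h₁ h₂
        (hS₂.bdM r _ ω) (fun i => hS₁.bdN r _ _ ω) (fun i => hS₂.bdN r _ _ ω)
      have h1 := WF_le (j := j) (k := k) (m₂ := fun i => M₂ r (x i) ω)
        (n₁ := fun i => N₁ r (x (i + 1)) (x i) ω) (n₂ := fun i => N₂ r (x (i + 1)) (x i) ω) h₁ h₂ hb₁ hb₂ hj'
        (hS₂.bdM r _ ω) (fun i => hS₁.bdN r _ _ ω) (fun i => hS₂.bdN r _ _ ω)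
      have h2 := pow_le_pow_left₀ h0 h1 2
      refine h2.trans (le_of_eq ?_)
      simp only [hP, hB]
      ring
    calc ∫ ω, WP θ₁ θ₂ r M₂ N₁ N₂ j k x ω ^ 2 ∂labelMeasure V
        ≤ ∫ ω, (θb ^ (k - 1)) ^ 2 * (P ω ^ 2 * B ω ^ 2) ∂labelMeasure V :=
          integral_mono (((hBMW j).pow 2).integrable _)
            (((BM.const _).mul ((hPBM.pow 2).mul (hBBM.pow 2))).integrable _) hle
      _ = (θb ^ (k - 1)) ^ 2 * ∫ ω, P ω ^ 2 * B ω ^ 2 ∂labelMeasure V := integral_const_mul _ _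
      _ ≤ _ := mul_le_mul_of_nonneg_left hcs (sq_nonneg _)
  have hpt : ∀ ω, (∑ j ∈ Finset.range k, WP θ₁ θ₂ r M₂ N₁ N₂ j k x ω) ^ 2 ≤
      (k : ℝ) * ∑ j ∈ Finset.range k, WP θ₁ θ₂ r M₂ N₁ N₂ j k x ω ^ 2 := by
    intro ω
    have := sq_sum_le_card_mul_sum_sq (s := Finset.range k) (f := fun j => WP θ₁ θ₂ r M₂ N₁ N₂ j k x ω)
    simpa using this
  calc ∫ ω, (∑ j ∈ Finset.range k, WP θ₁ θ₂ r M₂ N₁ N₂ j k x ω) ^ 2 ∂labelMeasure V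
      ≤ ∫ ω, (k : ℝ) * ∑ j ∈ Finset.range k, WP θ₁ θ₂ r M₂ N₁ N₂ j k x ω ^ 2 ∂labelMeasure V :=
        integral_mono (((BM.sum _ fun j _ => hBMW j).pow 2).integrable _)
          (((BM.const _).mul (BM.sum _ fun j _ => (hBMW j).pow 2)).integrable _) hpt
    _ = (k : ℝ) * ∑ j ∈ Finset.range k, ∫ ω, WP θ₁ θ₂ r M₂ N₁ N₂ j k x ω ^ 2 ∂labelMeasure V := by
        rw [integral_const_mul, integral_finsetSum _ fun j _ => ((hBMW j).pow 2).integrable _]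
    _ ≤ (k : ℝ) * ∑ j ∈ Finset.range k, ((θb ^ (k - 1)) ^ 2 * s ^ (k - 1)) :=
        mul_le_mul_of_nonneg_left (Finset.sum_le_sum hterm) (Nat.cast_nonneg _)
    _ = _ := by simp

/-- The third term of `path_ineq`, summed over the ball. -/
theorem T3_sum_le (hT : G.IsTree) (hreg : G.IsRegularOfDegree (q + 1)) (hq : 2 ≤ q)
    (h₁ : GoodTheta θ₁) (h₂ : GoodTheta θ₂) (hS₁ : IsSol G θ₁ M₁ N₁)
    (hS₂ : IsSol G θ₂ M₂ N₂) (hb₁ : θ₁ ≤ θb) (hb₂ : θ₂ ≤ θb) (hbq : θb ^ 2 * q ≤ 1) {s : ℝ} (hs : 0 < s)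
    (hs1 : s < 1)
    (hch₁ : ∀ (x : ℕ → V) (k : ℕ), IsGeo G x k →
      ∫ ω, ∏ j ∈ Finset.range k, rhoF θ₁ (N₁ r (x (j + 1)) (x j) ω) ^ 4 ∂labelMeasure V ≤ (s ^ 2) ^ k)
    (hch₂ : ∀ (x : ℕ → V) (k : ℕ), IsGeo G x k →
      ∫ ω, ∏ j ∈ Finset.range k, rhoF θ₂ (N₂ r (x (j + 1)) (x j) ω) ^ 4 ∂labelMeasure V ≤ (s ^ 2) ^ k)
    (v : V) (R : ℕ) :
    ∑ u ∈ tball G v R, ∫ ω, (∑ j ∈ Finset.range (G.dist v u),
        WP θ₁ θ₂ r M₂ N₁ N₂ j (G.dist v u) (pathV G v u) ω) ^ 2 ∂labelMeasure V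
      ≤ (q + 1) * (2 / (1 - s) ^ 3) := by
  have hθb : 0 ≤ θb := h₁.nonneg.trans hb₁
  rw [sum_tball_eq hT v R]
  have hlevel : ∀ k ∈ Finset.range (R + 1), ∑ u ∈ Sph G v k, ∫ ω, (∑ j ∈ Finset.range (G.dist v u),
        WP θ₁ θ₂ r M₂ N₁ N₂ j (G.dist v u) (pathV G v u) ω) ^ 2 ∂labelMeasure V
      ≤ ((Sph G v k).card : ℝ) * (k * (k * ((θb ^ (k - 1)) ^ 2 * s ^ (k - 1)))) := by
    intro k _
    rw [← nsmul_eq_mul]
    refine Finset.sum_le_card_nsmul _ _ _ fun u hu => ?_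
    have hd := (mem_Sph hT).1 hu
    have hg := isGeo_pathV hT v u
    rw [hd] at hg ⊢
    exact T3_single hT h₁ h₂ hS₁ hS₂ hb₁ hb₂ hs hch₁ hch₂ hg
  refine (Finset.sum_le_sum hlevel).trans ?_
  rw [Finset.sum_range_succ']
  have hcard : ∀ i : ℕ, ((Sph G v (i + 1)).card : ℝ) = (q + 1) * q ^ i := by
    intro i
    have := card_sphere hT hreg v (i + 1)
    rw [if_neg (by omega)] at this
    have h2 : (Sph G v (i + 1)).card = (q + 1) * q ^ i := this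
    rw [h2]; push_cast; ring
  have hterm : ∀ i ∈ Finset.range R, ((Sph G v (i + 1)).card : ℝ) * (((i + 1 : ℕ) : ℝ) * (((i + 1 : ℕ) : ℝ) *
      ((θb ^ (i + 1 - 1)) ^ 2 * s ^ (i + 1 - 1)))) ≤ (q + 1) * (((i : ℝ) + 1) ^ 2 * s ^ i) := by
    intro i _
    rw [hcard i]
    simp only [Nat.add_sub_cancel]
    push_cast
    have h1 : (q : ℝ) ^ i * (θb ^ i) ^ 2 ≤ 1 := by
      rw [← pow_mul, mul_comm i 2, pow_mul, ← mul_pow]
      refine pow_le_one₀ (by positivity) ?_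
      linarith
    have h2 : 0 ≤ ((i : ℝ) + 1) ^ 2 * s ^ i := by positivity
    calc ((q : ℝ) + 1) * (q : ℝ) ^ i * (((i : ℝ) + 1) * (((i : ℝ) + 1) * ((θb ^ i) ^ 2 * s ^ i)))
        = ((q : ℝ) + 1) * (((i : ℝ) + 1) ^ 2 * s ^ i) * ((q : ℝ) ^ i * (θb ^ i) ^ 2) := by ring
      _ ≤ ((q : ℝ) + 1) * (((i : ℝ) + 1) ^ 2 * s ^ i) * 1 :=
          mul_le_mul_of_nonneg_left h1 (by positivity)
      _ = _ := mul_one _
  have h0 : ((Sph G v 0).card : ℝ) * (((0 : ℕ) : ℝ) * (((0 : ℕ) : ℝ) * ((θb ^ (0 - 1)) ^ 2 * s ^ (0 - 1)))) = 0 := by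
    simp
  rw [h0, add_zero]
  refine (Finset.sum_le_sum hterm).trans ?_
  rw [← Finset.mul_sum]
  exact mul_le_mul_of_nonneg_left (sum_sq_geom_le hs.le hs1 R) (by positivity)

/-- The first term of `path_ineq`, summed over the ball. -/
theorem T1_sum_le (hT : G.IsTree) (hreg : G.IsRegularOfDegree (q + 1)) (hq : 2 ≤ q)
    (h₁ : GoodTheta θ₁) (hS₁ : IsSol G θ₁ M₁ N₁) {D : (V → unitInterval) → ℝ} (hD : BM D)
    (hD0 : ∀ ω, 0 ≤ D ω) {v w : V} (hvw : G.Adj v w) (R : ℕ) :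
    ∑ u ∈ tball G v R, ∫ ω, D ω * tmR G q θ₁ (fun y x => N₁ r y x ω) v u ∂labelMeasure V
      ≤ ∫ ω, D ω * xiS G q θ₁ N₁ r R v w ω ^ 2 ∂labelMeasure V
        + ∫ ω, D ω * xiS G q θ₁ N₁ r R w v ω ^ 2 ∂labelMeasure V := by
  have hBM : ∀ u, BM (fun ω => D ω * tmR G q θ₁ (fun y x => N₁ r y x ω) v u) := fun u =>
    hD.mul (BM_tmR h₁ hS₁ r q v u)
  rw [← integral_finsetSum _ fun u _ => (hBM u).integrable _,
    ← integral_add ((hD.mul ((BM_xi h₁ hS₁ r q R v w).pow 2)).integrable _)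
      ((hD.mul ((BM_xi h₁ hS₁ r q R w v).pow 2)).integrable _)]
  refine integral_mono ((BM.sum _ fun u _ => hBM u).integrable _)
    (((hD.mul ((BM_xi h₁ hS₁ r q R v w).pow 2)).add
      (hD.mul ((BM_xi h₁ hS₁ r q R w v).pow 2))).integrable _) fun ω => ?_
  simp only
  rw [← Finset.mul_sum, ← mul_add]
  refine mul_le_mul_of_nonneg_left ?_ (hD0 ω)
  have hν : ∀ a b, |(fun y x => N₁ r y x ω) a b| ≤ 1 := fun a b => hS₁.bdN r a b ω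
  have h1 := sum_tball_tmR_le hT hreg hq h₁ hν hvw R
  have h2 : 1 ≤ xiK G q θ₁ (fun y x => N₁ r y x ω) R v w := xiK_ge_one hT h₁ hν R v w
  have h3 : 1 ≤ xiK G q θ₁ (fun y x => N₁ r y x ω) R w v := xiK_ge_one hT h₁ hν R w v
  refine h1.trans ?_
  change xiK G q θ₁ (fun y x => N₁ r y x ω) R v w + xiK G q θ₁ (fun y x => N₁ r y x ω) R w v ≤
    xiK G q θ₁ (fun y x => N₁ r y x ω) R v w ^ 2 + xiK G q θ₁ (fun y x => N₁ r y x ω) R w v ^ 2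
  nlinarith

end T3

end Crest.Agent.IsingFactor
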