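import Crest.Agent.SRFactor.Defs
import Crest.Prelude.Def_TreeIsing

/-!
# IsingFactor: definitions for the proof of S0241 (free Ising on `T_{q+1}` is a factor of iid for
`tanh β ≤ q^{-1/2}`, including the critical point).  Blueprint: `results.approach` of row S0241 and
`Crest/Agent/IsingFactor/BLUEPRINT.md`.

Conventions.
* Hidden set `S ⊆ W` (spin `σ_v = +1` iff `v ∈ S`), `sgnS S v = σ_v`.
* Gibbs weights `wtS`: product over edges inside `W` of `1 ± θ`.  Tilt `exp (∑_{i ∈ S} lam i)`, so
  the Ising field is `h = lam / 2`.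
* Z-time `t` of `SRFactor`: `Z = t x + W_t`, `lam = Z - t/2 = (t/2) σ + W_t`, Ising time `τ = t/4`.
* `magn` = magnetisation `⟨σ_v⟩`, `covS` = spin covariance, `msg` = cavity message.
-/

set_option autoImplicit false

open MeasureTheory ProbabilityTheory
open Crest.Agent.SRFactor

namespace Crest.Agent.IsingFactor

/-! ### Real functions -/

/-- The merge `a ⊕ b = (a + b) / (1 + a b)` (`tanh` of the sum of the `atanh`s). -/
noncomputable def mrg (a b : ℝ) : ℝ := (a + b) / (1 + a * b)

/-- `G_θ(ν) = θ (1 - ν²) / (1 - θ² ν²)`: the correlation factor of an edge. -/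
noncomputable def Gf (θ ν : ℝ) : ℝ := θ * (1 - ν ^ 2) / (1 - θ ^ 2 * ν ^ 2)

/-- `ϱ_θ(ν) = (1 - ν²) / (1 - θ² ν²) = exp (-ℓ_θ(ν))`; `Gf θ ν = θ * rhoF θ ν`. -/
noncomputable def rhoF (θ ν : ℝ) : ℝ := (1 - ν ^ 2) / (1 - θ ^ 2 * ν ^ 2)

/-- The parameter clamped to `[0,1]` (so that `isingW` is a `Family` for every real `θ`). -/
noncomputable def clampθ (θ : ℝ) : ℝ := max 0 (min θ 1)

variable {V : Type*} [DecidableEq V] (G : SimpleGraph V)

/-! ### Gibbs measure on a finite window -/

open scoped Classical in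
/-- The edges of `G` inside `W`. -/
noncomputable def edgesIn (W : Finset V) : Finset (Sym2 V) := W.sym2.filter (fun e => e ∈ G.edgeSet)

/-- Spin of `v` in the configuration `S`. -/
def sgnS (S : Finset V) (v : V) : ℝ := if v ∈ S then 1 else -1

/-- The factor `1 ± θ` of an edge in the configuration `S`. -/
noncomputable def edgeWt (θ : ℝ) (S : Finset V) (e : Sym2 V) : ℝ :=
  if (Sym2.map (fun v => decide (v ∈ S)) e).IsDiag then 1 + θ else 1 - θ

/-- Ising weight (unnormalised, no field) of `S` on `W`. -/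
noncomputable def wtS (θ : ℝ) (W S : Finset V) : ℝ := ∏ e ∈ edgesIn G W, edgeWt θ S e

/-- Partition function with tilt `lam`. -/
noncomputable def Zf (θ : ℝ) (W : Finset V) (lam : V → ℝ) : ℝ :=
  ∑ S ∈ W.powerset, wtS G θ W S * Real.exp (∑ i ∈ S, lam i)

/-- Gibbs average of `f` on `W` with tilt `lam`. -/
noncomputable def gAvg (θ : ℝ) (W : Finset V) (lam : V → ℝ) (f : Finset V → ℝ) : ℝ :=
  (∑ S ∈ W.powerset, wtS G θ W S * Real.exp (∑ i ∈ S, lam i) * f S) / Zf G θ W lam

/-- Magnetisation of `v` in the window `W` with tilt `lam`. -/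
noncomputable def magn (θ : ℝ) (W : Finset V) (lam : V → ℝ) (v : V) : ℝ :=
  gAvg G θ W lam (fun S => sgnS S v)

/-- Spin covariance of `v,u` in the window `W` with tilt `lam`.  It vanishes when `u ∉ W`. -/
noncomputable def covS (θ : ℝ) (W : Finset V) (lam : V → ℝ) (v u : V) : ℝ :=
  gAvg G θ W lam (fun S => sgnS S v * sgnS S u) - magn G θ W lam v * magn G θ W lam u

/-- The part of `W` on the `y` side of the edge `{y, x}`: vertices closer to `y` than to `x`. -/
noncomputable def sideF (W : Finset V) (y x : V) : Finset V := W.filter (fun w => G.dist w y < G.dist w x)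

/-- The cavity message `ν_{y → x}` in the window `W`: magnetisation of `y` in `sideF W y x`. -/
noncomputable def msg (θ : ℝ) (W : Finset V) (lam : V → ℝ) (y x : V) : ℝ :=
  magn G θ (sideF G W y x) lam y

/-- Geodesically convex windows (for a tree: connected sets). -/
def Conv (W : Finset V) : Prop :=
  ∀ a ∈ W, ∀ b ∈ W, ∀ w, G.dist a w + G.dist w b = G.dist a b → w ∈ W

/-! ### Balls, subtrees, paths -/

section balls
variable [G.LocallyFinite]

/-- The ball of radius `r` around `c`. -/
noncomputable def tball (c : V) : ℕ → Finset V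
  | 0 => {c}
  | r + 1 => tball c r ∪ (tball c r).biUnion (fun w => G.neighborFinset w)

/-- `T_n(y → x)`: the depth `n` subtree rooted at `y`, away from its neighbour `x`. -/
noncomputable def tsub (y x : V) (n : ℕ) : Finset V := sideF G (tball G y n) y x

end balls

open scoped Classical in
/-- The neighbour of `w` one step closer to `u` (`w` itself if there is none). -/
noncomputable def stepTo (u w : V) : V :=
  if h : ∃ w', G.Adj w w' ∧ G.dist w' u + 1 = G.dist w u then h.choose else w

/-- The vertices of the geodesic from `v` to `u`: `pathV v u 0 = v`, `pathV v u (dist v u) = u`. -/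
noncomputable def pathV (v u : V) (j : ℕ) : V := (stepTo G u)^[j] v

/-- The covariance formula: `(1 - m_v²) ∏_j G_θ(ν_{x_{j+1} → x_j})` along the geodesic from `v` to
`u`, for given magnetisations `m` and messages `ν`. -/
noncomputable def covPath (θ : ℝ) (m : V → ℝ) (ν : V → V → ℝ) (v u : V) : ℝ :=
  (1 - m v ^ 2) * ∏ j ∈ Finset.range (G.dist v u), Gf θ (ν (pathV G v u (j + 1)) (pathV G v u j))

/-! ### The Ising `Family` of a window -/

lemma edgeWt_nonneg_clamp (θ : ℝ) (S : Finset V) (e : Sym2 V) : 0 ≤ edgeWt (clampθ θ) S e := by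
  have h0 : 0 ≤ clampθ θ := le_max_left _ _
  have h1 : clampθ θ ≤ 1 := max_le zero_le_one (min_le_right _ _)
  unfold edgeWt
  split_ifs <;> linarith

lemma wtS_nonneg_clamp (θ : ℝ) (W S : Finset V) : 0 ≤ wtS G (clampθ θ) W S :=
  Finset.prod_nonneg fun e _ => edgeWt_nonneg_clamp θ S e

lemma wtS_self_pos_clamp (θ : ℝ) (W : Finset V) : 0 < wtS G (clampθ θ) W W := by
  have h0 : 0 ≤ clampθ θ := le_max_left _ _
  refine Finset.prod_pos fun e he => ?_
  have hew : e ∈ W.sym2 := by
    simp only [edgesIn, Finset.mem_filter] at he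
    exact he.1
  induction e using Sym2.ind with
  | _ a b =>
    have ha : a ∈ W := (Finset.mk_mem_sym2_iff.1 hew).1
    have hb : b ∈ W := (Finset.mk_mem_sym2_iff.1 hew).2
    have : (Sym2.map (fun v => decide (v ∈ W)) s(a, b)).IsDiag := by
      simp [ha, hb]
    unfold edgeWt
    rw [if_pos this]
    linarith

/-- The normalising constant of `wtS`. -/
noncomputable def wtTot (θ : ℝ) (W : Finset V) : ℝ := ∑ S ∈ W.powerset, wtS G (clampθ θ) W S

lemma wtTot_pos (θ : ℝ) (W : Finset V) : 0 < wtTot G θ W :=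
  Finset.sum_pos' (fun S _ => wtS_nonneg_clamp G θ W S)
    ⟨W, Finset.mem_powerset.2 subset_rfl, wtS_self_pos_clamp G θ W⟩

/-- The free Ising measure of the window `W` as a `Family` on `V`: the random set `S ⊆ W` has law
`wtS / wtTot`, and `mass A T` is the probability that `S ∩ A = T`.  (Total in `θ` through
`clampθ`; for `0 ≤ θ ≤ 1` it is the Ising measure with parameter `θ`.) -/
noncomputable def isingW (θ : ℝ) (W : Finset V) : Family V where
  mass A T := (∑ S ∈ W.powerset.filter (fun S => S ∩ A = T), wtS G (clampθ θ) W S) / wtTot G θ W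
  nonneg A T := div_nonneg (Finset.sum_nonneg fun S _ => wtS_nonneg_clamp G θ W S)
    (wtTot_pos G θ W).le
  sum_one A := by
    rw [← Finset.sum_div, div_eq_one_iff_eq (wtTot_pos G θ W).ne']
    exact Finset.sum_fiberwise_of_maps_to
      (fun S _ => Finset.mem_powerset.2 Finset.inter_subset_right) _
  consistent A B hAB T _ := by
    rw [← Finset.sum_div]
    congr 1
    have hmap : ∀ S ∈ W.powerset.filter (fun S => S ∩ A = T), S ∩ B ∈
        B.powerset.filter (fun S' => S' ∩ A = T) := by
      intro S hS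
      have h2 := (Finset.mem_filter.1 hS).2
      refine Finset.mem_filter.2 ⟨Finset.mem_powerset.2 Finset.inter_subset_right, ?_⟩
      rw [Finset.inter_assoc, Finset.inter_eq_right.2 hAB, h2]
    rw [← Finset.sum_fiberwise_of_maps_to hmap]
    refine Finset.sum_congr rfl fun S' hS' => ?_
    refine Finset.sum_congr ?_ fun _ _ => rfl
    ext S
    simp only [Finset.mem_filter, Finset.mem_powerset]
    constructor
    · rintro ⟨⟨h1, _⟩, h3⟩; exact ⟨h1, h3⟩
    · rintro ⟨h1, h3⟩
      refine ⟨⟨h1, ?_⟩, h3⟩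
      have h4 := (Finset.mem_filter.1 hS').2
      rw [← h3, Finset.inter_assoc, Finset.inter_eq_right.2 hAB] at h4
      exact h4

/-! ### Euler scheme and planted expectation -/

/-- The Euler scheme of `SRFactor` for the Ising window `W`, mesh level `n`. -/
noncomputable def eulerI (θ : ℝ) (W : Finset V) (n : ℕ) (ξ : Noise V) (k : ℕ) : V → ℝ :=
  euler (isingW G θ W) W (hh n) (levelNoise ξ n) k

/-- The tilt at step `k` of the Euler scheme. -/
noncomputable def lamI (θ : ℝ) (W : Finset V) (n : ℕ) (ξ : Noise V) (k : ℕ) : V → ℝ :=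
  fun g => eulerI G θ W n ξ k g - k * hh n / 2

/-- The step number of time `r` at mesh level `n`. -/
noncomputable def stepOf (r : ℝ) (n : ℕ) : ℕ := ⌊r / hh n⌋₊

/-- `r` is a time of the mesh of level `n`. -/
def Dy (n : ℕ) (r : ℝ) : Prop := ∃ k : ℕ, r = k * hh n

/-- Magnetisation at time `r` (a time of the mesh `n`) of the Euler scheme on `W`. -/
noncomputable def magT (θ : ℝ) (W : Finset V) (n : ℕ) (r : ℝ) (ξ : Noise V) (v : V) : ℝ :=
  magn G θ W (lamI G θ W n ξ (stepOf r n)) v

/-- Message at time `r` of the Euler scheme on `W`. -/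
noncomputable def msgT (θ : ℝ) (W : Finset V) (n : ℕ) (r : ℝ) (ξ : Noise V) (y x : V) : ℝ :=
  msg G θ W (lamI G θ W n ξ (stepOf r n)) y x

/-- Covariance at time `r` of the Euler scheme on `W`. -/
noncomputable def covT (θ : ℝ) (W : Finset V) (n : ℕ) (r : ℝ) (ξ : Noise V) (v u : V) : ℝ :=
  covS G θ W (lamI G θ W n ξ (stepOf r n)) v u

/-- The planted expectation: hidden set with the Ising law of `W`, tilt `lam = Zt - t/2`. -/
noncomputable def plE (θ : ℝ) (W : Finset V) (t : ℝ) (F : (V → ℝ) → ℝ) : ℝ :=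
  ∑ S ∈ W.powerset, (isingW G θ W).mass W S *
    ∫ g, F (fun i => Zt W t S g i - t / 2) ∂gaussVec W

end Crest.Agent.IsingFactor
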