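import Crest.Agent.IsingFactor.GibbsSplit

/-!
# IsingFactor.GibbsDeriv (WP IF-GibbsDeriv): derivative of the magnetisation; equivariance under automorphisms.
Statements may be ADDED; do not change the ones below without posting on chat (topic S0241), other packages use them.
-/

set_option autoImplicit false
set_option linter.unusedSectionVars false

open Crest.Agent.SRFactor

namespace Crest.Agent.IsingFactor

variable {V : Type*} [DecidableEq V] {G : SimpleGraph V}

namespace GibbsDerivAux

section deriv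

variable {E : Type*} [NormedAddCommGroup E] [NormedSpace ℝ E]

lemma hasFDerivAt_tiltExp {lamx : E → V → ℝ} {L : V → E →L[ℝ] ℝ} {x : E}
    (h : ∀ i, HasFDerivAt (fun x => lamx x i) (L i) x) (S : Finset V) :
    HasFDerivAt (fun x => Real.exp (∑ i ∈ S, lamx x i))
      (Real.exp (∑ i ∈ S, lamx x i) • ∑ i ∈ S, L i) x :=
  (HasFDerivAt.fun_sum fun i _ => h i).exp

lemma hasFDerivAt_gNum {θ : ℝ} (W : Finset V) {lamx : E → V → ℝ} {L : V → E →L[ℝ] ℝ} {x : E}
    (h : ∀ i, HasFDerivAt (fun x => lamx x i) (L i) x) (f : Finset V → ℝ) :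
    HasFDerivAt (fun x => gNum G θ W (lamx x) f)
      (∑ S ∈ W.powerset, (wtS G θ W S * f S) •
        (Real.exp (∑ i ∈ S, lamx x i) • ∑ i ∈ S, L i)) x := by
  unfold gNum tw
  refine HasFDerivAt.fun_sum fun S _ => ?_
  have h1 := (hasFDerivAt_tiltExp h S).const_mul (wtS G θ W S * f S)
  refine h1.congr_of_eventuallyEq (Filter.Eventually.of_forall fun y => ?_)
  ring

lemma sum_mem_eq {S W : Finset V} (hS : S ⊆ W) (D : V → ℝ) :
    ∑ i ∈ S, D i = ∑ u ∈ W, D u * ((1 + sgnS S u) / 2) := by
  have h1 : ∀ u ∈ W, D u * ((1 + sgnS S u) / 2) = if u ∈ S then D u else 0 := by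
    intro u _
    unfold sgnS
    split_ifs <;> norm_num
  rw [Finset.sum_congr rfl h1, Finset.sum_ite_mem, Finset.inter_eq_right.2 hS]

/-- Action of the derivative of `gNum`. -/
lemma deriv_gNum_apply (θ : ℝ) (W : Finset V) (lam : V → ℝ) (D : V → ℝ) (f : Finset V → ℝ) :
    ∑ S ∈ W.powerset, wtS G θ W S * f S * (Real.exp (∑ i ∈ S, lam i) * ∑ i ∈ S, D i) =
      ∑ u ∈ W, D u * ((gNum G θ W lam f + gNum G θ W lam (fun S => f S * sgnS S u)) / 2) := by
  have h1 : ∀ S ∈ W.powerset,
      wtS G θ W S * f S * (Real.exp (∑ i ∈ S, lam i) * ∑ i ∈ S, D i) =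
        ∑ u ∈ W, D u * ((tw G θ W lam S * f S + tw G θ W lam S * (f S * sgnS S u)) / 2) := by
    intro S hS
    rw [sum_mem_eq (Finset.mem_powerset.1 hS) D, Finset.mul_sum, Finset.mul_sum]
    refine Finset.sum_congr rfl fun u _ => ?_
    unfold tw
    ring
  rw [Finset.sum_congr rfl h1, Finset.sum_comm]
  refine Finset.sum_congr rfl fun u _ => ?_
  rw [← Finset.mul_sum, ← Finset.sum_div, Finset.sum_add_distrib]
  rfl

end deriv

end GibbsDerivAux

open GibbsDerivAux in
/-- The general chain rule for the magnetisation. -/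
theorem hasFDerivAt_magn_gen {θ : ℝ} (hθ : GoodTheta θ) (W : Finset V) {E : Type*}
    [NormedAddCommGroup E] [NormedSpace ℝ E] {lamx : E → V → ℝ} {L : V → E →L[ℝ] ℝ} {x : E}
    (h : ∀ i, HasFDerivAt (fun x => lamx x i) (L i) x) (v : V) :
    HasFDerivAt (fun x => magn G θ W (lamx x) v)
      (∑ u ∈ W, (covS G θ W (lamx x) v u / 2) • L u) x := by
  have hZ := hasFDerivAt_gNum (G := G) (θ := θ) W h (fun _ => (1 : ℝ))
  have hN := hasFDerivAt_gNum (G := G) (θ := θ) W h (fun S => sgnS S v)
  set lam := lamx x with hlam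
  have hZpos : 0 < gNum G θ W lam (fun _ => (1 : ℝ)) := by
    rw [← Zf_eq]
    exact Zf_pos hθ W lam
  have hinv := (hasDerivAt_inv hZpos.ne').comp_hasFDerivAt x hZ
  have hmul := hN.mul hinv
  have hfun : (fun x => magn G θ W (lamx x) v) =
      fun x => gNum G θ W (lamx x) (fun S => sgnS S v) *
        (Inv.inv ∘ fun x => gNum G θ W (lamx x) (fun _ => (1 : ℝ))) x := by
    funext y
    show gAvg G θ W (lamx y) (fun S => sgnS S v) = _
    rw [gAvg_eq, Zf_eq]
    rfl
  rw [hfun]
  refine hmul.congr_fderiv ?_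
  refine ContinuousLinearMap.ext fun y => ?_
  set D : V → ℝ := fun i => L i y with hD
  have hN' : (∑ S ∈ W.powerset, (wtS G θ W S * sgnS S v) •
        (Real.exp (∑ i ∈ S, lam i) • ∑ i ∈ S, L i)) y =
      ∑ u ∈ W, D u * ((gNum G θ W lam (fun S => sgnS S v) +
        gNum G θ W lam (fun S => sgnS S v * sgnS S u)) / 2) := by
    rw [← deriv_gNum_apply]
    simp [_root_.sum_apply, hD]
  have hZ' : (∑ S ∈ W.powerset, (wtS G θ W S * (1 : ℝ)) •
        (Real.exp (∑ i ∈ S, lam i) • ∑ i ∈ S, L i)) y =
      ∑ u ∈ W, D u * ((gNum G θ W lam (fun _ => (1 : ℝ)) +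
        gNum G θ W lam (fun S => sgnS S u)) / 2) := by
    have := deriv_gNum_apply (G := G) θ W lam D (fun _ => (1 : ℝ))
    simp only [one_mul] at this
    rw [← this]
    simp [_root_.sum_apply, hD]
  set Z := gNum G θ W lam (fun _ => (1 : ℝ)) with hZdef
  set N := gNum G θ W lam (fun S => sgnS S v) with hNdef
  have hcov : ∀ u, covS G θ W lam v u =
      gNum G θ W lam (fun S => sgnS S v * sgnS S u) / Z -
        (N / Z) * (gNum G θ W lam (fun S => sgnS S u) / Z) := by
    intro u
    show gAvg G θ W lam _ - gAvg G θ W lam _ * gAvg G θ W lam _ = _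
    rw [gAvg_eq, gAvg_eq, gAvg_eq, Zf_eq]
  simp only [ContinuousLinearMap.add_apply, ContinuousLinearMap.smul_apply, smul_eq_mul]
  rw [hN', hZ', ContinuousLinearMap.sum_apply]
  simp only [ContinuousLinearMap.smul_apply, smul_eq_mul, Function.comp]
  rw [Finset.mul_sum, Finset.mul_sum, Finset.mul_sum, ← Finset.sum_add_distrib]
  refine Finset.sum_congr rfl fun u _ => ?_
  rw [hcov u]
  have hZne : Z ≠ 0 := hZpos.ne'
  have hAlg : ∀ A B Du : ℝ, N * (-(Z ^ 2)⁻¹ * (Du * ((Z + A) / 2))) + Z⁻¹ * (Du * ((N + B) / 2)) =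
      (B / Z - N / Z * (A / Z)) / 2 * Du := by
    intro A B Du
    field_simp
    ring
  exact hAlg _ _ _

/-- Joint smoothness, in the form needed for Poincare: as a function of a vector `g` on a finite
index type entering the tilt linearly. -/
theorem hasFDerivAt_magn_comp {θ : ℝ} (hθ : GoodTheta θ) (W : Finset V) {ι : Type*} [Fintype ι]
    (base : V → ℝ) (c : ι → V → ℝ) (x : ι → ℝ) (v : V) :
    HasFDerivAt (fun x : ι → ℝ => magn G θ W (fun i => base i + ∑ l, x l * c l i) v)
      (∑ l, (∑ u ∈ W, c l u * (covS G θ W (fun i => base i + ∑ l, x l * c l i) v u / 2)) •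
        (ContinuousLinearMap.proj l : (ι → ℝ) →L[ℝ] ℝ)) x := by
  have h : ∀ i, HasFDerivAt (fun x : ι → ℝ => base i + ∑ l, x l * c l i)
      (∑ l, c l i • (ContinuousLinearMap.proj l : (ι → ℝ) →L[ℝ] ℝ)) x := by
    intro i
    refine HasFDerivAt.const_add _ ?_
    refine HasFDerivAt.fun_sum fun l _ => ?_
    have h1 := ((ContinuousLinearMap.proj l : (ι → ℝ) →L[ℝ] ℝ).hasFDerivAt (x := x)).mul_const (c l i)
    exact h1
  refine (hasFDerivAt_magn_gen hθ W h v).congr_fderiv ?_
  refine ContinuousLinearMap.ext fun y => ?_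
  simp only [ContinuousLinearMap.sum_apply, ContinuousLinearMap.smul_apply, smul_eq_mul,
    ContinuousLinearMap.proj_apply, Finset.mul_sum, Finset.sum_mul]
  rw [Finset.sum_comm]
  refine Finset.sum_congr rfl fun l _ => Finset.sum_congr rfl fun u _ => ?_
  ring

/-- The covariance vanishes outside the window. -/
theorem covS_of_notMem {θ : ℝ} (hθ : GoodTheta θ) {W : Finset V} (lam : V → ℝ) (v : V) {u : V}
    (hu : u ∉ W) : covS G θ W lam v u = 0 := by
  have hs : ∀ S ∈ W.powerset, sgnS S u = -1 := by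
    intro S hS
    have : u ∉ S := fun h => hu (Finset.mem_powerset.1 hS h)
    simp [sgnS, this]
  have hz := Zf_pos (G := G) hθ W lam
  have h1 : gAvg G θ W lam (fun S => sgnS S v * sgnS S u) = - magn G θ W lam v := by
    show _ = - gAvg G θ W lam _
    rw [gAvg_eq, gAvg_eq, ← neg_div]
    congr 1
    unfold gNum
    rw [← Finset.sum_neg_distrib]
    refine Finset.sum_congr rfl fun S hS => ?_
    show tw G θ W lam S * (sgnS S v * sgnS S u) = -(tw G θ W lam S * sgnS S v)
    rw [hs S hS]
    ring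
  have h2 : magn G θ W lam u = -1 := by
    show gAvg G θ W lam _ = _
    rw [gAvg_eq]
    have : gNum G θ W lam (fun S => sgnS S u) = - Zf G θ W lam := by
      rw [Zf_eq]
      unfold gNum
      rw [← Finset.sum_neg_distrib]
      refine Finset.sum_congr rfl fun S hS => ?_
      show tw G θ W lam S * sgnS S u = -(tw G θ W lam S * 1)
      rw [hs S hS]
      ring
    rw [this, neg_div, div_self hz.ne']
  unfold covS
  rw [h1, h2]
  ring

/-- The derivative of the magnetisation in a coordinate of the tilt. -/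
theorem hasDerivAt_magn {θ : ℝ} (hθ : GoodTheta θ) (W : Finset V) (lam : V → ℝ) (v u : V) :
    HasDerivAt (fun s : ℝ => magn G θ W (Function.update lam u (lam u + s)) v)
      (covS G θ W lam v u / 2) 0 := by
  classical
  have h : ∀ i, HasFDerivAt (fun s : ℝ => Function.update lam u (lam u + s) i)
      (if i = u then (ContinuousLinearMap.id ℝ ℝ) else 0) (0 : ℝ) := by
    intro i
    by_cases hi : i = u
    · subst hi
      simp only [Function.update_self, if_true]
      exact (hasFDerivAt_id (0 : ℝ)).const_add _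
    · simp only [Function.update_of_ne hi, hi, if_false]
      exact hasFDerivAt_const _ _
  have h1 := (hasFDerivAt_magn_gen (G := G) hθ W h v).hasDerivAt
  have hl : Function.update lam u (lam u + (0 : ℝ)) = lam := by simp
  convert h1 using 1
  rw [hl]
  simp only [ContinuousLinearMap.sum_apply, ContinuousLinearMap.smul_apply, smul_eq_mul]
  by_cases hu : u ∈ W
  · rw [Finset.sum_eq_single u]
    · simp
    · intro b _ hb
      simp [hb]
    · intro h2
      exact absurd hu h2
  · rw [covS_of_notMem hθ lam v hu, Finset.sum_eq_zero]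
    · simp
    · intro b hb
      have : b ≠ u := fun h2 => hu (h2 ▸ hb)
      simp [this]

/-! ### Equivariance -/

section aut
variable (g : G ≃g G)

lemma sgnS_image (S : Finset V) (v : V) : sgnS (S.image g) (g v) = sgnS S v := by
  unfold sgnS
  simp only [g.injective.mem_finset_image]

lemma edgeWt_image (θ : ℝ) (S : Finset V) (e : Sym2 V) :
    edgeWt θ (S.image g) (Sym2.map g e) = edgeWt θ S e := by
  induction e using Sym2.ind with
  | _ a b =>
    rw [Sym2.map_mk, edgeWt_mk, edgeWt_mk, sgnS_image, sgnS_image]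

lemma wtS_image (θ : ℝ) (W S : Finset V) : wtS G θ (W.image g) (S.image g) = wtS G θ W S := by
  unfold wtS
  symm
  refine Finset.prod_bij (fun e _ => Sym2.map g e) ?_ ?_ ?_ ?_
  · intro e he
    induction e using Sym2.ind with
    | _ a b =>
      simp only [edgesIn, Finset.mem_filter, Finset.mk_mem_sym2_iff, SimpleGraph.mem_edgeSet] at he
      simp only [edgesIn, Sym2.map_mk, Finset.mem_filter, Finset.mk_mem_sym2_iff,
        SimpleGraph.mem_edgeSet]
      exact ⟨⟨Finset.mem_image_of_mem _ he.1.1, Finset.mem_image_of_mem _ he.1.2⟩,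
        g.map_adj_iff.2 he.2⟩
  · intro e₁ _ e₂ _ h
    exact Sym2.map.injective g.injective h
  · intro e he
    induction e using Sym2.ind with
    | _ a b =>
      simp only [edgesIn, Finset.mem_filter, Finset.mk_mem_sym2_iff, SimpleGraph.mem_edgeSet,
        Finset.mem_image] at he
      obtain ⟨⟨⟨a', ha', rfl⟩, ⟨b', hb', rfl⟩⟩, hadj⟩ := he
      refine ⟨s(a', b'), ?_, by simp⟩
      simp only [edgesIn, Finset.mem_filter, Finset.mk_mem_sym2_iff, SimpleGraph.mem_edgeSet]
      exact ⟨⟨ha', hb'⟩, g.map_adj_iff.1 hadj⟩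
  · intro e _
    exact (edgeWt_image g θ S e).symm

lemma sum_image_tilt (S : Finset V) (lam : V → ℝ) :
    ∑ i ∈ S.image g, lam i = ∑ i ∈ S, lam (g i) :=
  Finset.sum_image fun _ _ _ _ h => g.injective h

/-- Sums over the configurations of an image window. -/
lemma sum_powerset_image {W : Finset V} (F : Finset V → ℝ) :
    ∑ S ∈ (W.image g).powerset, F S = ∑ S ∈ W.powerset, F (S.image g) := by
  symm
  refine Finset.sum_bij (fun S _ => S.image g) ?_ ?_ ?_ ?_
  · intro S hS
    exact Finset.mem_powerset.2 (Finset.image_subset_image (Finset.mem_powerset.1 hS))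
  · intro S₁ _ S₂ _ h
    exact Finset.image_injective g.injective h
  · intro S hS
    have hS' := Finset.mem_powerset.1 hS
    refine ⟨S.image g.symm, Finset.mem_powerset.2 ?_, ?_⟩
    · intro a ha
      obtain ⟨b, hb, rfl⟩ := Finset.mem_image.1 ha
      obtain ⟨c, hc, rfl⟩ := Finset.mem_image.1 (hS' hb)
      simpa using hc
    · rw [Finset.image_image]
      have : (g : V → V) ∘ (g.symm : V → V) = id := by
        funext a
        simp
      rw [this, Finset.image_id]
  · intro S _
    rfl

lemma Zf_image (θ : ℝ) (W : Finset V) (lam : V → ℝ) :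
    Zf G θ (W.image g) lam = Zf G θ W (fun i => lam (g i)) := by
  unfold Zf
  rw [sum_powerset_image g]
  refine Finset.sum_congr rfl fun S _ => ?_
  rw [wtS_image, sum_image_tilt]

lemma gAvg_image (θ : ℝ) (W : Finset V) (lam : V → ℝ) (f : Finset V → ℝ) :
    gAvg G θ (W.image g) lam f = gAvg G θ W (fun i => lam (g i)) (fun S => f (S.image g)) := by
  unfold gAvg
  rw [Zf_image, sum_powerset_image g]
  congr 1
  refine Finset.sum_congr rfl fun S _ => ?_
  rw [wtS_image, sum_image_tilt]

end aut

/-- Equivariance under automorphisms. -/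
theorem magn_aut {θ : ℝ} (g : G ≃g G) (W : Finset V) (lam : V → ℝ) (v : V) :
    magn G θ (W.image g) lam (g v) = magn G θ W (fun i => lam (g i)) v := by
  unfold magn
  rw [gAvg_image]
  simp only [sgnS_image]

theorem covS_aut {θ : ℝ} (g : G ≃g G) (W : Finset V) (lam : V → ℝ) (v u : V) :
    covS G θ (W.image g) lam (g v) (g u) = covS G θ W (fun i => lam (g i)) v u := by
  unfold covS
  rw [magn_aut, magn_aut, gAvg_image]
  simp only [sgnS_image]

theorem msg_aut (hT : G.IsTree) {θ : ℝ} (g : G ≃g G) (W : Finset V) (lam : V → ℝ) (y x : V) :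
    msg G θ (W.image g) lam (g y) (g x) = msg G θ W (fun i => lam (g i)) y x := by
  unfold msg
  have h : sideF G (W.image g) (g y) (g x) = (sideF G W y x).image g := by
    simp only [sideF, Finset.filter_image, dist_aut]
  rw [h, magn_aut]

end Crest.Agent.IsingFactor
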