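import Crest.Agent.IsingFactor.GibbsSplit

/-!
# IsingFactor.GibbsPath (WP IF-GibbsPath): product formula for the covariance, marginal consistency.

`covS_eq_covPath`: induction on `dist v u`.  With `x₁ = stepTo u v`, split `W` at the edge `{v, x₁}`, `B = sideF W x₁ v`: `covS_split` gives
`covS W v u = (1 - m_v²) G(ν) (covS B x₁ u / (1 - ν²))`, `ν = magn B x₁ = msg W x₁ v`, and the messages further on the path are the same in `B` and `W` (`msg_sideF`).
`isingW_marginal`: by `mass_split` sum over the configurations on `B`; `∑_{S_B} mass_B S_B (1 + θ σ_a σ_b) = 1` since `∑ mass_B S_B σ_b = 0` (flip);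
peel `W` down to `A` one leaf at a time (or by one `EdgeSplit` per edge leaving `A`).
`mass_eq_isingWeight`: `wtTot G θ W = 2 ^ |W|` and `|edges| = |W| - 1` (induct with `wtTot_split`, or prune a leaf).
Statements may be ADDED; do not change the ones below without posting on chat (topic S0241), other packages use them.
-/

set_option autoImplicit false

open Crest.Agent.SRFactor

namespace Crest.Agent.IsingFactor

variable {V : Type*} [DecidableEq V] {G : SimpleGraph V}

theorem edgeSplit_side (hT : G.IsTree) {W : Finset V} (hW : Conv G W) {a b : V} (ha : a ∈ W)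
    (hb : b ∈ W) (hab : G.Adj a b) : EdgeSplit G W (sideF G W a b) (sideF G W b a) a b := by
  refine ⟨?_, ?_, ?_, ?_, hab, ?_⟩
  · ext w
    simp only [sideF, Finset.mem_union, Finset.mem_filter]
    constructor
    · intro hw
      rcases dist_adj_cases hT hab w with h | h
      · right; exact ⟨hw, by omega⟩
      · left; exact ⟨hw, by omega⟩
    · rintro (h | h) <;> exact h.1
  · rw [Finset.disjoint_left]
    intro w h1 h2
    simp only [sideF, Finset.mem_filter] at h1 h2
    omega
  · simp only [sideF, Finset.mem_filter]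
    refine ⟨ha, ?_⟩
    rw [SimpleGraph.dist_self, SimpleGraph.dist_eq_one_iff_adj.2 hab]
    omega
  · simp only [sideF, Finset.mem_filter]
    refine ⟨hb, ?_⟩
    rw [SimpleGraph.dist_self, SimpleGraph.dist_eq_one_iff_adj.2 hab.symm]
    omega
  · intro x hx y hy hxy
    simp only [sideF, Finset.mem_filter] at hx hy
    exact adj_across hT hab hx.2 hy.2 hxy

namespace GibbsPathAux

/-- A convex set and a proper convex superset are joined by an edge. -/
lemma exists_crossing (hT : G.IsTree) {A W : Finset V} (hW : Conv G W) (hAW : A ⊆ W)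
    (hne : A.Nonempty) (hAW' : A ≠ W) :
    ∃ a b, a ∈ A ∧ b ∈ W ∧ b ∉ A ∧ G.Adj a b := by
  classical
  obtain ⟨a₀, ha₀⟩ := hne
  obtain ⟨w, hw, hwA⟩ : ∃ w ∈ W, w ∉ A := by
    by_contra h
    push Not at h
    exact hAW' (Finset.Subset.antisymm hAW h)
  have hex : ∃ j, pathV G a₀ w j ∉ A := ⟨G.dist a₀ w, by rw [pathV_end hT]; exact hwA⟩
  have hjle : Nat.find hex ≤ G.dist a₀ w := Nat.find_min' hex (by rw [pathV_end hT]; exact hwA)
  have hjpos : Nat.find hex ≠ 0 := by
    intro h0
    have h1 := Nat.find_spec hex
    rw [h0, pathV_zero] at h1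
    exact h1 ha₀
  obtain ⟨j, hj⟩ := Nat.exists_eq_succ_of_ne_zero hjpos
  have hb : pathV G a₀ w (j + 1) ∉ A := by
    have h1 := Nat.find_spec hex
    rwa [hj] at h1
  have ha : pathV G a₀ w j ∈ A := by
    have h1 : ¬ (pathV G a₀ w j ∉ A) := Nat.find_min hex (by omega)
    simpa using h1
  refine ⟨_, _, ha, ?_, hb, adj_pathV hT (j := j) (by omega)⟩
  refine hW a₀ (hAW ha₀) w hw _ ?_
  exact (dist_add_eq_iff_mem_path hT).2 ⟨j + 1, by omega, rfl⟩

lemma gAvg_neg (θ : ℝ) (W : Finset V) (lam : V → ℝ) (f : Finset V → ℝ) :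
    gAvg G θ W lam (fun S => - f S) = - gAvg G θ W lam f := by
  unfold gAvg
  rw [← neg_div, ← Finset.sum_neg_distrib]
  congr 1
  exact Finset.sum_congr rfl fun S _ => by ring

lemma sgnS_of_notMem_subset {W S : Finset V} {u : V} (hu : u ∉ W) (hS : S ⊆ W) : sgnS S u = -1 := by
  unfold sgnS
  rw [if_neg (fun h => hu (hS h))]

/-- Marginal over one side of an edge split. -/
lemma mass_marg_split {θ : ℝ} (hθ : GoodTheta θ) {W A B : Finset V} {a b : V}
    (hs : EdgeSplit G W A B a b) {T : Finset V} (hT : T ⊆ A) :
    (isingW G θ W).mass A T = (isingW G θ A).mass A T := by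
  have hAW : A ⊆ W := by rw [hs.union]; exact Finset.subset_union_left
  have h1 := (isingW G θ W).consistent A W hAW T hT
  have h2 : ∑ S' ∈ W.powerset.filter (fun S' => S' ∩ A = T), (isingW G θ W).mass W S'
      = ∑ SB ∈ B.powerset, (isingW G θ W).mass W (T ∪ SB) := by
    symm
    refine Finset.sum_nbij' (fun SB => T ∪ SB) (fun S => S ∩ B) ?_ ?_ ?_ ?_ ?_
    · intro SB hSB
      have hSB' := Finset.mem_powerset.1 hSB
      refine Finset.mem_filter.2 ⟨Finset.mem_powerset.2 ?_, hs.inter_left hT hSB'⟩
      rw [hs.union]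
      exact Finset.union_subset_union hT hSB'
    · intro S _
      exact Finset.mem_powerset.2 Finset.inter_subset_right
    · intro SB hSB
      exact hs.inter_right hT (Finset.mem_powerset.1 hSB)
    · intro S hS
      obtain ⟨hS1, hS2⟩ := Finset.mem_filter.1 hS
      have hS1' := Finset.mem_powerset.1 hS1
      show T ∪ (S ∩ B) = S
      rw [← hS2, ← Finset.inter_union_distrib_left, ← hs.union]
      exact Finset.inter_eq_left.2 hS1'
    · intro _ _
      rfl
  have h3 : ∀ SB ∈ B.powerset, (isingW G θ W).mass W (T ∪ SB) =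
      (isingW G θ A).mass A T * ((isingW G θ B).mass B SB
        + θ * sgnS T a * ((isingW G θ B).mass B SB * sgnS SB b)) := by
    intro SB hSB
    rw [mass_split hθ hs hT (Finset.mem_powerset.1 hSB)]
    ring
  have h4 : ∑ SB ∈ B.powerset, (isingW G θ B).mass B SB * sgnS SB b = 0 := by
    have hz := magn_zero (G := G) hθ B hs.hb
    have hZ := Zf_pos (G := G) hθ B (fun _ => 0)
    unfold magn gAvg at hz
    have hnum : ∑ S ∈ B.powerset, wtS G θ B S * Real.exp (∑ i ∈ S, (fun _ : V => (0 : ℝ)) i) * sgnS S b = 0 := by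
      rcases div_eq_zero_iff.1 hz with h | h
      · exact h
      · exact absurd h hZ.ne'
    have : ∀ S ∈ B.powerset, (isingW G θ B).mass B S * sgnS S b =
        (wtS G θ B S * Real.exp (∑ i ∈ S, (fun _ : V => (0 : ℝ)) i) * sgnS S b) / wtTot G θ B := by
      intro S hS
      rw [mass_self hθ (Finset.mem_powerset.1 hS)]
      simp
      ring
    rw [Finset.sum_congr rfl this, ← Finset.sum_div, hnum, zero_div]
  rw [h1, h2, Finset.sum_congr rfl h3, ← Finset.mul_sum, Finset.sum_add_distrib, ← Finset.mul_sum, h4,
    (isingW G θ B).sum_one B]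
  ring

end GibbsPathAux

/-- Marginal consistency of the windows (prune leaves, or use `mass_split` and sum over `S_B`). -/
theorem isingW_marginal (hT : G.IsTree) {θ : ℝ} (hθ : GoodTheta θ) {A W : Finset V} (hA : Conv G A)
    (hW : Conv G W) (hAW : A ⊆ W) (hne : A.Nonempty) {T : Finset V} (hT' : T ⊆ A) :
    (isingW G θ W).mass A T = (isingW G θ A).mass A T := by
  classical
  induction' hn : W.card using Nat.strong_induction_on with n ih generalizing W
  by_cases hAW' : A = W
  · subst hAW'
    rfl
  obtain ⟨a, b, ha, hb, hbA, hab⟩ := GibbsPathAux.exists_crossing hT hW hAW hne hAW'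
  have hs := edgeSplit_side hT hW (hAW ha) hb hab
  have hAA' : A ⊆ sideF G W a b := by
    intro x hx
    refine Finset.mem_filter.2 ⟨hAW hx, ?_⟩
    by_contra hlt
    rcases dist_adj_cases hT hab x with h | h
    · have h1 : G.dist x b + G.dist b a = G.dist x a := by
        rw [SimpleGraph.dist_eq_one_iff_adj.2 hab.symm]
        omega
      exact hbA (hA x hx a ha b h1)
    · omega
  have hconv' := conv_sideF hT hW hab
  have hlt : (sideF G W a b).card < W.card := by
    refine Finset.card_lt_card ⟨Finset.filter_subset _ _, fun h => ?_⟩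
    have h1 := h hb
    simp only [sideF, Finset.mem_filter] at h1
    rw [SimpleGraph.dist_self, SimpleGraph.dist_eq_one_iff_adj.2 hab.symm] at h1
    omega
  calc (isingW G θ W).mass A T
      = ∑ S' ∈ (sideF G W a b).powerset.filter (fun S' => S' ∩ A = T),
          (isingW G θ W).mass (sideF G W a b) S' :=
        (isingW G θ W).consistent A _ hAA' T hT'
    _ = ∑ S' ∈ (sideF G W a b).powerset.filter (fun S' => S' ∩ A = T),
          (isingW G θ (sideF G W a b)).mass (sideF G W a b) S' := by
        refine Finset.sum_congr rfl fun S' hS' => ?_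
        exact GibbsPathAux.mass_marg_split hθ hs
          (Finset.mem_powerset.1 (Finset.mem_filter.1 hS').1)
    _ = (isingW G θ (sideF G W a b)).mass A T :=
        ((isingW G θ (sideF G W a b)).consistent A _ hAA' T hT').symm
    _ = (isingW G θ A).mass A T := by
        rw [← hn] at ih
        exact ih _ hlt hconv' hAA' rfl

namespace GibbsPathAux

/-- The total weight of a connected window. -/
lemma wtTot_eq_pow (hT : G.IsTree) {θ : ℝ} (hθ : GoodTheta θ) {W : Finset V} (hW : Conv G W)
    (hne : W.Nonempty) : wtTot G θ W = 2 ^ ((edgesIn G W).card + 1) := by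
  classical
  induction' hn : W.card using Nat.strong_induction_on with n ih generalizing W
  obtain ⟨v, hv⟩ := hne
  by_cases hWv : W = {v}
  · subst hWv
    unfold wtTot wtS
    rw [edgesIn_singleton]
    simp [Finset.sum_const, Finset.card_powerset]
  · have hsub : ({v} : Finset V) ⊆ W := Finset.singleton_subset_iff.2 hv
    obtain ⟨a, b, ha, hb, _, hab⟩ := exists_crossing hT hW hsub (Finset.singleton_nonempty v)
      (fun h => hWv h.symm)
    have ha' : a ∈ W := hsub ha
    have hs := edgeSplit_side hT hW ha' hb hab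
    have hcA := conv_sideF hT hW hab
    have hcB := conv_sideF hT hW hab.symm
    have hltA : (sideF G W a b).card < W.card := by
      refine Finset.card_lt_card ⟨Finset.filter_subset _ _, fun h => ?_⟩
      have h1 := h hb
      simp only [sideF, Finset.mem_filter] at h1
      rw [SimpleGraph.dist_self, SimpleGraph.dist_eq_one_iff_adj.2 hab.symm] at h1
      omega
    have hltB : (sideF G W b a).card < W.card := by
      refine Finset.card_lt_card ⟨Finset.filter_subset _ _, fun h => ?_⟩
      have h1 := h ha'
      simp only [sideF, Finset.mem_filter] at h1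
      rw [SimpleGraph.dist_self, SimpleGraph.dist_eq_one_iff_adj.2 hab] at h1
      omega
    rw [← hn] at ih
    have hA := ih _ hltA hcA ⟨a, hs.ha⟩ rfl
    have hB := ih _ hltB hcB ⟨b, hs.hb⟩ rfl
    have hcard : (edgesIn G W).card =
        (edgesIn G (sideF G W a b)).card + (edgesIn G (sideF G W b a)).card + 1 := by
      rw [hs.edgesIn_eq, Finset.card_insert_of_notMem, Finset.card_union_of_disjoint]
      · rw [Finset.disjoint_left]
        intro e h1 h2
        induction e using Sym2.ind with
        | _ x y =>
          have hx1 := (mem_edgesIn.1 h1).1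
          have hx2 := (mem_edgesIn.1 h2).1
          exact (Finset.disjoint_left.1 hs.disj) hx1 hx2
      · intro h
        rcases Finset.mem_union.1 h with h | h
        · exact (Finset.disjoint_left.1 hs.disj) (mem_edgesIn.1 h).2.1 hs.hb
        · exact (Finset.disjoint_left.1 hs.disj) hs.ha (mem_edgesIn.1 h).1
    rw [wtTot_split hθ hs, hA, hB, hcard, ← pow_add]
    congr 1
    omega

end GibbsPathAux

/-- For connected windows the mass is the `isingWeight` of the Prelude. -/
theorem mass_eq_isingWeight (hT : G.IsTree) {θ : ℝ} (hθ : GoodTheta θ) {W : Finset V} (hW : Conv G W)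
    (hne : W.Nonempty) {T : Finset V} (hT' : T ⊆ W) :
    (isingW G θ W).mass W T =
      Crest.ProbabilityR.TreeIsing.isingWeight G θ W (fun v => decide (v ∈ T)) := by
  classical
  rw [mass_self hθ hT', GibbsPathAux.wtTot_eq_pow hT hθ hW hne]
  unfold Crest.ProbabilityR.TreeIsing.isingWeight wtS edgesIn
  have hprod : ∀ e : Sym2 V,
      (if (Sym2.map (fun v => decide (v ∈ T)) e).IsDiag then (1 + θ) / 2 else (1 - θ) / 2)
        = edgeWt θ T e / 2 := by
    intro e
    unfold edgeWt
    split_ifs <;> rfl
  simp_rw [hprod]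
  rw [Finset.prod_div_distrib, Finset.prod_const]
  rw [pow_succ]
  field_simp

/-- The product formula for the covariance along a geodesic. -/
theorem msg_sideF (hT : G.IsTree) {θ : ℝ} {W : Finset V} (lam : V → ℝ) {a b y x : V} (hab : G.Adj a b)
    (hyx : G.Adj y x) (hy : G.dist y b < G.dist y a) (hx : G.dist x b < G.dist x a)
    (hd : G.dist y b = G.dist x b + 1) :
    msg G θ (sideF G W b a) lam y x = msg G θ W lam y x := by
  unfold msg
  rw [sideF_sideF hT hab hyx hy hx hd]

/-- The product formula for the covariance along a geodesic. -/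
theorem covS_eq_covPath (hT : G.IsTree) {θ : ℝ} (hθ : GoodTheta θ) {W : Finset V} (hW : Conv G W)
    (lam : V → ℝ) {v u : V} (hv : v ∈ W) (hu : u ∈ W) :
    covS G θ W lam v u = covPath G θ (magn G θ W lam) (msg G θ W lam) v u := by
  induction' hn : G.dist v u with n ih generalizing W v
  · have hvu : v = u := hT.connected.dist_eq_zero_iff.1 hn
    subst hvu
    unfold covPath covS
    rw [hn, Finset.prod_range_zero, mul_one]
    have h1 : gAvg G θ W lam (fun S => sgnS S v * sgnS S v) = 1 := by
      have : gAvg G θ W lam (fun S => sgnS S v * sgnS S v) = gAvg G θ W lam (fun _ => (1 : ℝ)) :=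
        gAvg_congr (fun S _ => sgnS_mul_self S v)
      rw [this]
      exact gAvg_const hθ W lam 1
    rw [h1]
    ring
  · have hne : v ≠ u := by
      rintro rfl
      simp at hn
    obtain ⟨hadj, hd⟩ := stepTo_spec hT hne
    have hxW : stepTo G u v ∈ W := by
      refine hW v hv u hu _ ?_
      rw [SimpleGraph.dist_eq_one_iff_adj.2 hadj]
      omega
    have hs := edgeSplit_side hT hW hv hxW hadj
    have hB := conv_sideF hT hW hadj.symm
    have huB : u ∈ sideF G W (stepTo G u v) v := by
      refine Finset.mem_filter.2 ⟨hu, ?_⟩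
      rw [SimpleGraph.dist_comm (u := u) (v := stepTo G u v), SimpleGraph.dist_comm (u := u) (v := v)]
      omega
    have key := covS_split hθ hs lam huB
    have IH := ih hB hs.hb huB (by omega)
    have hν := abs_magn_lt_one (G := G) hθ (sideF G W (stepTo G u v) v) lam hs.hb
    have hν2 : 1 - magn G θ (sideF G W (stepTo G u v) v) lam (stepTo G u v) ^ 2 ≠ 0 := by
      have := (abs_lt.1 hν)
      nlinarith [this.1, this.2]
    -- messages along the path
    have hgeo := isGeo_pathV hT v u
    have hn' : G.dist v u = n + 1 := hn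
    have hpath : ∀ j ∈ Finset.range n,
        Gf θ (msg G θ (sideF G W (stepTo G u v) v) lam (pathV G (stepTo G u v) u (j + 1))
          (pathV G (stepTo G u v) u j))
        = Gf θ (msg G θ W lam (pathV G v u (j + 1 + 1)) (pathV G v u (j + 1))) := by
      intro j hj
      have hj' := Finset.mem_range.1 hj
      rw [← pathV_succ', ← pathV_succ']
      have e1 : pathV G v u 1 = stepTo G u v := rfl
      have d1 : G.dist (pathV G v u (j + 1 + 1)) (stepTo G u v) = j + 1 := by
        have h := hgeo (j + 1 + 1) 1 (by omega) (by omega)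
        rw [e1] at h
        rw [h, Nat.dist]
        omega
      have d2 : G.dist (pathV G v u (j + 1 + 1)) v = j + 2 := by
        have h := hgeo (j + 1 + 1) 0 (by omega) (by omega)
        rw [pathV_zero] at h
        rw [h, Nat.dist]
        omega
      have d3 : G.dist (pathV G v u (j + 1)) (stepTo G u v) = j := by
        have h := hgeo (j + 1) 1 (by omega) (by omega)
        rw [e1] at h
        rw [h, Nat.dist]
        omega
      have d4 : G.dist (pathV G v u (j + 1)) v = j + 1 := by
        have h := hgeo (j + 1) 0 (by omega) (by omega)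
        rw [pathV_zero] at h
        rw [h, Nat.dist]
        omega
      have hadj2 : G.Adj (pathV G v u (j + 1 + 1)) (pathV G v u (j + 1)) :=
        (adj_pathV hT (by omega)).symm
      rw [msg_sideF hT lam hadj hadj2 (by omega) (by omega) (by omega)]
    have hdist : G.dist (stepTo G u v) u = n := by omega
    have IH' : covS G θ (sideF G W (stepTo G u v) v) lam (stepTo G u v) u =
        (1 - magn G θ (sideF G W (stepTo G u v) v) lam (stepTo G u v) ^ 2) *
          ∏ j ∈ Finset.range n, Gf θ (msg G θ W lam (pathV G v u (j + 1 + 1)) (pathV G v u (j + 1))) := by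
      rw [IH]
      unfold covPath
      rw [hdist, Finset.prod_congr rfl hpath]
    unfold covPath
    rw [hn', Finset.prod_range_succ']
    rw [IH'] at key
    have e1 : pathV G v u (0 + 1) = stepTo G u v := rfl
    have e0 : pathV G v u 0 = v := rfl
    rw [e1, e0]
    have hmsg : msg G θ W lam (stepTo G u v) v =
        magn G θ (sideF G W (stepTo G u v) v) lam (stepTo G u v) := rfl
    rw [hmsg]
    apply mul_right_cancel₀ hν2
    rw [key]
    ring

theorem covS_of_notMem {θ : ℝ} (hθ : GoodTheta θ) {W : Finset V} (lam : V → ℝ) {v u : V} (hu : u ∉ W) :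
    covS G θ W lam v u = 0 := by
  unfold covS
  have h1 : gAvg G θ W lam (fun S => sgnS S v * sgnS S u) = - gAvg G θ W lam (fun S => sgnS S v) := by
    rw [← GibbsPathAux.gAvg_neg]
    refine gAvg_congr fun S hS => ?_
    rw [GibbsPathAux.sgnS_of_notMem_subset hu (Finset.mem_powerset.1 hS)]
    ring
  have h2 : magn G θ W lam u = -1 := by
    unfold magn
    have : gAvg G θ W lam (fun S => sgnS S u) = gAvg G θ W lam (fun _ => (-1 : ℝ)) :=
      gAvg_congr fun S hS => GibbsPathAux.sgnS_of_notMem_subset hu (Finset.mem_powerset.1 hS)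
    rw [this]
    exact gAvg_const hθ W lam (-1)
  rw [h1, h2]
  unfold magn
  ring

theorem abs_covS_le_pow (hT : G.IsTree) {θ : ℝ} (hθ : GoodTheta θ) {W : Finset V} (hW : Conv G W)
    (lam : V → ℝ) {v : V} (hv : v ∈ W) (u : V) :
    |covS G θ W lam v u| ≤ θ ^ G.dist v u := by
  by_cases hu : u ∈ W
  · rw [covS_eq_covPath hT hθ hW lam hv hu]
    unfold covPath
    rw [abs_mul, Finset.abs_prod]
    have h1 : |1 - magn G θ W lam v ^ 2| ≤ 1 := by
      have h := abs_magn_le_one (G := G) hθ W lam v
      have h2 := abs_le.1 h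
      rw [abs_le]
      constructor <;> nlinarith [h2.1, h2.2, sq_nonneg (magn G θ W lam v)]
    have h3 : ∏ j ∈ Finset.range (G.dist v u),
        |Gf θ (msg G θ W lam (pathV G v u (j + 1)) (pathV G v u j))| ≤ θ ^ G.dist v u := by
      calc ∏ j ∈ Finset.range (G.dist v u), |Gf θ (msg G θ W lam (pathV G v u (j + 1)) (pathV G v u j))|
          ≤ ∏ _j ∈ Finset.range (G.dist v u), θ :=
            Finset.prod_le_prod (fun _ _ => abs_nonneg _)
              (fun j _ => abs_Gf_le hθ (abs_msg_le_one hθ W lam _ _))
        _ = θ ^ G.dist v u := by simp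
    calc _ ≤ 1 * θ ^ G.dist v u :=
          mul_le_mul h1 h3 (Finset.prod_nonneg fun _ _ => abs_nonneg _) zero_le_one
      _ = _ := one_mul _
  · rw [covS_of_notMem hθ lam hu, abs_zero]
    exact pow_nonneg hθ.nonneg _

/-- Magnetisation in terms of the two messages of an edge. -/
theorem magn_eq_mrg_msg (hT : G.IsTree) {θ : ℝ} (hθ : GoodTheta θ) {W : Finset V} (hW : Conv G W)
    (lam : V → ℝ) {y x : V} (hy : y ∈ W) (hx : x ∈ W) (hyx : G.Adj y x) :
    magn G θ W lam y = mrg (msg G θ W lam y x) (θ * msg G θ W lam x y) :=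
  magn_split_left hθ (edgeSplit_side hT hW hy hx hyx) lam

end Crest.Agent.IsingFactor
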