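import Crest.Agent.IsingFactor.Defs

/-!
# IsingFactor.RealFns : elementary inequalities on `mrg`, `Gf`, `rhoF` (WP: RealFns).
Statements may be ADDED; do not change the ones below without posting on chat (topic S0241).
-/

set_option autoImplicit false

namespace Crest.Agent.IsingFactor

/-- Blanket constant: all `θ` in the proof satisfy `0 ≤ θ`, `θ ^ 2 ≤ 1/2` (`q ≥ 2`). -/
structure GoodTheta (θ : ℝ) : Prop where
  nonneg : 0 ≤ θ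
  sq_le : θ ^ 2 ≤ 1 / 2

theorem GoodTheta.lt_one {θ : ℝ} (h : GoodTheta θ) : θ < 1 := by
  nlinarith [h.nonneg, h.sq_le]

theorem GoodTheta.le_three_quarters {θ : ℝ} (h : GoodTheta θ) : θ ≤ 3 / 4 := by
  nlinarith [h.nonneg, h.sq_le]

/-! ### `mrg` -/

theorem one_add_mul_pos {a b : ℝ} (ha : |a| ≤ 1) (hb : |b| < 1) : 0 < 1 + a * b := by
  have h1 : |a * b| < 1 := by
    rw [abs_mul]
    nlinarith [abs_nonneg a, abs_nonneg b]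
  have h2 := (abs_lt.1 h1).1
  linarith

theorem one_sub_mrg_sq {a b : ℝ} (hd : 1 + a * b ≠ 0) :
    1 - (mrg a b) ^ 2 = (1 - a ^ 2) * (1 - b ^ 2) / (1 + a * b) ^ 2 := by
  unfold mrg
  field_simp
  ring

theorem abs_mrg_le_one {a b : ℝ} (ha : |a| ≤ 1) (hb : |b| < 1) : |mrg a b| ≤ 1 := by
  have hd := one_add_mul_pos ha hb
  have h := one_sub_mrg_sq (a := a) (b := b) hd.ne'
  have ha2 : a ^ 2 ≤ 1 := by rw [← sq_abs]; nlinarith [abs_nonneg a]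
  have hb2 : b ^ 2 ≤ 1 := by rw [← sq_abs]; nlinarith [abs_nonneg b]
  have h0 : 0 ≤ (1 - a ^ 2) * (1 - b ^ 2) / (1 + a * b) ^ 2 :=
    div_nonneg (mul_nonneg (by linarith) (by linarith)) (sq_nonneg _)
  rw [← h] at h0
  exact (sq_le_one_iff_abs_le_one _).1 (by linarith)

theorem abs_mrg_lt_one {a b : ℝ} (ha : |a| < 1) (hb : |b| < 1) : |mrg a b| < 1 := by
  have hd := one_add_mul_pos ha.le hb
  have h := one_sub_mrg_sq (a := a) (b := b) hd.ne'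
  have ha2 : a ^ 2 < 1 := by rw [← sq_abs]; nlinarith [abs_nonneg a]
  have hb2 : b ^ 2 < 1 := by rw [← sq_abs]; nlinarith [abs_nonneg b]
  have h0 : 0 < (1 - a ^ 2) * (1 - b ^ 2) / (1 + a * b) ^ 2 :=
    div_pos (mul_pos (by linarith) (by linarith)) (pow_pos hd 2)
  rw [← h] at h0
  exact (sq_lt_one_iff_abs_lt_one _).1 (by linarith)

theorem mrg_comm (a b : ℝ) : mrg a b = mrg b a := by
  unfold mrg
  rw [add_comm a b, mul_comm a b]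

theorem mrg_neg (a b : ℝ) : mrg (-a) (-b) = - mrg a b := by
  unfold mrg
  rw [neg_mul_neg, ← neg_add, neg_div]

/-- Weights compose: `(1 + a b) (1 + (a ⊕ b) c) = 1 + a b + a c + b c`. -/
theorem mrg_weight {a b c : ℝ} (hd : 1 + a * b ≠ 0) :
    (1 + a * b) * (1 + mrg a b * c) = 1 + a * b + a * c + b * c := by
  unfold mrg
  field_simp
  ring

theorem mrg_assoc {a b c : ℝ} (hd : 1 + a * b ≠ 0) (hd' : 1 + b * c ≠ 0)
    (hd'' : 1 + a * b + a * c + b * c ≠ 0) : mrg (mrg a b) c = mrg a (mrg b c) := by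
  have h1 : mrg (mrg a b) c = (a + b + c + a * b * c) / (1 + a * b + a * c + b * c) := by
    have hw := mrg_weight (a := a) (b := b) (c := c) hd
    have hD : 1 + mrg a b * c ≠ 0 := by
      intro h0
      rw [h0, mul_zero] at hw
      exact hd'' hw.symm
    rw [mrg]
    rw [eq_div_iff hd'', div_mul_eq_mul_div, div_eq_iff hD]
    unfold mrg at hw ⊢
    field_simp
    ring
  have h2 : mrg a (mrg b c) = (a + b + c + a * b * c) / (1 + a * b + a * c + b * c) := by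
    rw [mrg_comm a, mrg_comm b c]
    have hw := mrg_weight (a := c) (b := b) (c := a) (by rwa [mul_comm c b])
    have hne : 1 + c * b ≠ 0 := by rwa [mul_comm c b]
    have hD : 1 + mrg c b * a ≠ 0 := by
      intro h0
      rw [h0, mul_zero] at hw
      apply hd''
      linear_combination -hw
    rw [mrg]
    rw [eq_div_iff hd'', div_mul_eq_mul_div, div_eq_iff hD]
    unfold mrg at hw ⊢
    field_simp
    ring
  rw [h1, h2]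

/-- `|a ⊕ b| ≥ |b|` when `a, b` have the same sign (`a b ≥ 0`). -/
theorem abs_mrg_ge {a b : ℝ} (ha : |a| < 1) (hb : |b| < 1) (hab : 0 ≤ a * b) :
    |b| ≤ |mrg a b| := by
  have hd : 0 < 1 + a * b := by linarith
  unfold mrg
  rw [abs_div, abs_of_pos hd, le_div_iff₀ hd]
  have hb1 : b ^ 2 < 1 := by rw [← sq_abs]; nlinarith [abs_nonneg b]
  have hb0 := abs_nonneg b
  have key : (b * (1 + a * b)) ^ 2 ≤ (a + b) ^ 2 := by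
    have e : (a + b) ^ 2 - (b * (1 + a * b)) ^ 2 = a ^ 2 * (1 - b ^ 4) + 2 * (a * b) * (1 - b ^ 2) := by ring
    have h4 : 0 ≤ 1 - b ^ 4 := by nlinarith [sq_nonneg b]
    have : 0 ≤ a ^ 2 * (1 - b ^ 4) + 2 * (a * b) * (1 - b ^ 2) := by
      have := mul_nonneg (sq_nonneg a) h4
      have := mul_nonneg hab (by linarith : (0 : ℝ) ≤ 1 - b ^ 2)
      linarith
    linarith
  have := sq_le_sq.1 key
  rw [abs_mul, abs_of_pos hd] at this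
  exact this

/-- A crude bound for the magnetisation in terms of its two messages. -/
theorem sq_mrg_le {θ a b : ℝ} (hθ : GoodTheta θ) (ha : |a| ≤ 1) (hb : |b| ≤ 1) :
    (mrg a (θ * b)) ^ 2 ≤ 64 * (a ^ 2 + b ^ 2) := by
  have hθ1 := hθ.le_three_quarters
  have hθ0 := hθ.nonneg
  have hab : |a * (θ * b)| ≤ 3 / 4 := by
    rw [abs_mul, abs_mul, abs_of_nonneg hθ0]
    have : |a| * (θ * |b|) ≤ 1 * (θ * 1) := by
      gcongr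
    linarith
  have hD : 1 / 4 ≤ 1 + a * (θ * b) := by
    have := (abs_le.1 hab).1
    linarith
  have hb2 : b ^ 2 ≤ 1 := by rw [← sq_abs]; nlinarith [abs_nonneg b]
  unfold mrg
  rw [div_pow, div_le_iff₀ (by positivity)]
  have h1 : (a + θ * b) ^ 2 ≤ 2 * (a ^ 2 + b ^ 2) := by
    have : θ ^ 2 * b ^ 2 ≤ b ^ 2 := by nlinarith [sq_nonneg b, hθ.sq_le]
    nlinarith [sq_nonneg (a - θ * b)]
  have h2 : (1 / 4 : ℝ) ^ 2 ≤ (1 + a * (θ * b)) ^ 2 := by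
    gcongr
  have h3 : 0 ≤ a ^ 2 + b ^ 2 := by positivity
  nlinarith

/-! ### `rhoF`, `Gf` -/

theorem Gf_eq (θ ν : ℝ) : Gf θ ν = θ * rhoF θ ν := by
  unfold Gf rhoF; ring

theorem rhoF_nonneg {θ ν : ℝ} (hθ : GoodTheta θ) (hν : |ν| ≤ 1) : 0 ≤ rhoF θ ν := by
  have hν2 : ν ^ 2 ≤ 1 := by rw [← sq_abs]; nlinarith [abs_nonneg ν]
  have hD : 0 < 1 - θ ^ 2 * ν ^ 2 := by nlinarith [hθ.sq_le, sq_nonneg ν]
  exact div_nonneg (by linarith) hD.le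

theorem rhoF_le_one {θ ν : ℝ} (hθ : GoodTheta θ) (hν : |ν| ≤ 1) : rhoF θ ν ≤ 1 := by
  have hν2 : ν ^ 2 ≤ 1 := by rw [← sq_abs]; nlinarith [abs_nonneg ν]
  have hD : 0 < 1 - θ ^ 2 * ν ^ 2 := by nlinarith [hθ.sq_le, sq_nonneg ν]
  rw [rhoF, div_le_one hD]
  nlinarith [hθ.sq_le, sq_nonneg ν]

/-- `1 - ϱ ≥ (1 - θ²) ν²`. -/
theorem one_sub_rhoF_ge {θ ν : ℝ} (hθ : GoodTheta θ) (hν : |ν| ≤ 1) :
    (1 - θ ^ 2) * ν ^ 2 ≤ 1 - rhoF θ ν := by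
  have hν2 : ν ^ 2 ≤ 1 := by rw [← sq_abs]; nlinarith [abs_nonneg ν]
  have hD : 0 < 1 - θ ^ 2 * ν ^ 2 := by nlinarith [hθ.sq_le, sq_nonneg ν]
  have e : 1 - rhoF θ ν = (1 - θ ^ 2) * ν ^ 2 / (1 - θ ^ 2 * ν ^ 2) := by
    unfold rhoF
    rw [eq_div_iff hD.ne', sub_mul, div_mul_cancel₀ _ hD.ne']
    ring
  rw [e, le_div_iff₀ hD]
  have h0 : 0 ≤ (1 - θ ^ 2) * ν ^ 2 := mul_nonneg (by nlinarith [hθ.sq_le]) (sq_nonneg ν)
  have : 0 ≤ θ ^ 2 * ν ^ 2 := by positivity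
  nlinarith

/-- `1 - ϱ ≤ ν²`. -/
theorem one_sub_rhoF_le {θ ν : ℝ} (hθ : GoodTheta θ) (hν : |ν| ≤ 1) :
    1 - rhoF θ ν ≤ ν ^ 2 := by
  have hν2 : ν ^ 2 ≤ 1 := by rw [← sq_abs]; nlinarith [abs_nonneg ν]
  have hD : 0 < 1 - θ ^ 2 * ν ^ 2 := by nlinarith [hθ.sq_le, sq_nonneg ν]
  have e : 1 - rhoF θ ν = (1 - θ ^ 2) * ν ^ 2 / (1 - θ ^ 2 * ν ^ 2) := by
    unfold rhoF
    rw [eq_div_iff hD.ne', sub_mul, div_mul_cancel₀ _ hD.ne']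
    ring
  rw [e, div_le_iff₀ hD]
  have h0 : 0 ≤ ν ^ 2 := sq_nonneg ν
  have h1 : 0 ≤ θ ^ 2 := sq_nonneg θ
  nlinarith [mul_nonneg h0 (mul_nonneg h1 (sub_nonneg.2 hν2))]

theorem rhoF_even (θ ν : ℝ) : rhoF θ (-ν) = rhoF θ ν := by
  unfold rhoF; ring_nf

/-- Lipschitz in `ν`, with the vanishing factor `|ν| + |ν'|`. -/
theorem rhoF_sub_le {θ ν ν' : ℝ} (hθ : GoodTheta θ) (hν : |ν| ≤ 1) (hν' : |ν'| ≤ 1) :
    |rhoF θ ν - rhoF θ ν'| ≤ 2 * (|ν| + |ν'|) * |ν - ν'| := by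
  have hν2 : ν ^ 2 ≤ 1 := by rw [← sq_abs]; nlinarith [abs_nonneg ν]
  have hν2' : ν' ^ 2 ≤ 1 := by rw [← sq_abs]; nlinarith [abs_nonneg ν']
  have hθ2 := hθ.sq_le
  have hθ3 : 0 ≤ θ ^ 2 := sq_nonneg θ
  have hD : 1 - θ ^ 2 ≤ 1 - θ ^ 2 * ν ^ 2 := by nlinarith [sq_nonneg ν]
  have hD' : 1 / 2 ≤ 1 - θ ^ 2 * ν' ^ 2 := by nlinarith [sq_nonneg ν']
  have hD0 : 0 < 1 - θ ^ 2 * ν ^ 2 := by linarith
  have hD0' : 0 < 1 - θ ^ 2 * ν' ^ 2 := by linarith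
  have e : rhoF θ ν - rhoF θ ν' =
      (1 - θ ^ 2) * ((ν' - ν) * (ν' + ν)) / ((1 - θ ^ 2 * ν ^ 2) * (1 - θ ^ 2 * ν' ^ 2)) := by
    unfold rhoF
    rw [div_sub_div _ _ hD0.ne' hD0'.ne']
    congr 1
    ring
  rw [e, abs_div, abs_mul, abs_mul, abs_of_pos (by linarith : 0 < 1 - θ ^ 2),
    abs_of_pos (mul_pos hD0 hD0'), div_le_iff₀ (mul_pos hD0 hD0')]
  have h1 : |ν' - ν| = |ν - ν'| := abs_sub_comm _ _
  have h2 : |ν' + ν| ≤ |ν| + |ν'| := by rw [add_comm]; exact abs_add_le _ _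
  rw [h1]
  set X := |ν - ν'| with hX
  have hX0 : 0 ≤ X := abs_nonneg _
  set Y := |ν| + |ν'| with hY
  have hY0 : 0 ≤ Y := by positivity
  have h3 : (1 - θ ^ 2) * (X * |ν' + ν|) ≤ (1 - θ ^ 2) * (X * Y) := by
    have : 0 ≤ 1 - θ ^ 2 := by linarith
    gcongr
  have h4 : (1 - θ ^ 2) * (X * Y) ≤ 2 * Y * X * ((1 - θ ^ 2 * ν ^ 2) * (1 - θ ^ 2 * ν' ^ 2)) := by
    have h5 : 0 ≤ X * Y := mul_nonneg hX0 hY0
    have h6 : (1 - θ ^ 2) * 1 ≤ (1 - θ ^ 2 * ν ^ 2) * (2 * (1 - θ ^ 2 * ν' ^ 2)) := by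
      apply mul_le_mul hD (by linarith) (by norm_num) hD0.le
    nlinarith [mul_le_mul_of_nonneg_right h6 h5]
  linarith

/-- Lipschitz in `θ`. -/
theorem rhoF_sub_theta_le {θ₁ θ₂ ν : ℝ} (h₁ : GoodTheta θ₁) (h₂ : GoodTheta θ₂) (hν : |ν| ≤ 1) :
    |rhoF θ₁ ν - rhoF θ₂ ν| ≤ 8 * ν ^ 2 * |θ₁ - θ₂| := by
  have hν2 : ν ^ 2 ≤ 1 := by rw [← sq_abs]; nlinarith [abs_nonneg ν]
  have h10 := h₁.nonneg
  have h20 := h₂.nonneg
  have h13 := h₁.le_three_quarters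
  have h23 := h₂.le_three_quarters
  have hν0 : 0 ≤ ν ^ 2 := sq_nonneg ν
  have hD1 : 1 / 2 ≤ 1 - θ₁ ^ 2 * ν ^ 2 := by nlinarith [h₁.sq_le]
  have hD2 : 1 / 2 ≤ 1 - θ₂ ^ 2 * ν ^ 2 := by nlinarith [h₂.sq_le]
  have hD10 : 0 < 1 - θ₁ ^ 2 * ν ^ 2 := by linarith
  have hD20 : 0 < 1 - θ₂ ^ 2 * ν ^ 2 := by linarith
  have e : rhoF θ₁ ν - rhoF θ₂ ν =
      (1 - ν ^ 2) * ν ^ 2 * ((θ₁ - θ₂) * (θ₁ + θ₂)) / ((1 - θ₁ ^ 2 * ν ^ 2) * (1 - θ₂ ^ 2 * ν ^ 2)) := by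
    unfold rhoF
    rw [div_sub_div _ _ hD10.ne' hD20.ne']
    congr 1
    ring
  have hP : 0 < (1 - θ₁ ^ 2 * ν ^ 2) * (1 - θ₂ ^ 2 * ν ^ 2) := mul_pos hD10 hD20
  rw [e, abs_div, abs_mul, abs_mul, abs_mul, abs_of_pos hP, abs_of_nonneg (by linarith : 0 ≤ 1 - ν ^ 2),
    abs_of_nonneg hν0, abs_of_nonneg (by linarith : 0 ≤ θ₁ + θ₂), div_le_iff₀ hP]
  have hP2 : 1 / 4 ≤ (1 - θ₁ ^ 2 * ν ^ 2) * (1 - θ₂ ^ 2 * ν ^ 2) := by nlinarith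
  set X := |θ₁ - θ₂| with hX
  have hX0 : 0 ≤ X := abs_nonneg _
  have h5 : (1 - ν ^ 2) * ν ^ 2 * (X * (θ₁ + θ₂)) ≤ ν ^ 2 * (X * 2) := by
    have h6 : X * (θ₁ + θ₂) ≤ X * 2 := by gcongr; linarith
    have h7 : (1 - ν ^ 2) * ν ^ 2 ≤ ν ^ 2 := by nlinarith
    have h8 : 0 ≤ X * (θ₁ + θ₂) := mul_nonneg hX0 (by linarith)
    calc (1 - ν ^ 2) * ν ^ 2 * (X * (θ₁ + θ₂)) ≤ ν ^ 2 * (X * (θ₁ + θ₂)) := by gcongr
      _ ≤ ν ^ 2 * (X * 2) := by gcongr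
  have h9 : 0 ≤ ν ^ 2 * X := mul_nonneg hν0 hX0
  nlinarith [mul_le_mul_of_nonneg_left hP2 h9]

/-- The combined bound for `Gf`. -/
theorem Gf_sub_le {θ₁ θ₂ ν ν' : ℝ} (h₁ : GoodTheta θ₁) (h₂ : GoodTheta θ₂) (hν : |ν| ≤ 1)
    (hν' : |ν'| ≤ 1) :
    |Gf θ₁ ν - Gf θ₂ ν'| ≤ 2 * (|ν| + |ν'|) * |ν - ν'| + 9 * |θ₁ - θ₂| := by
  have e : Gf θ₁ ν - Gf θ₂ ν' = θ₁ * (rhoF θ₁ ν - rhoF θ₁ ν') + θ₁ * (rhoF θ₁ ν' - rhoF θ₂ ν') +
      (θ₁ - θ₂) * rhoF θ₂ ν' := by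
    rw [Gf_eq, Gf_eq]
    ring
  have h10 := h₁.nonneg
  have h13 := h₁.le_three_quarters
  have a1 := rhoF_sub_le h₁ hν hν'
  have a2 := rhoF_sub_theta_le h₁ h₂ hν'
  have a3 := rhoF_nonneg h₂ hν'
  have a4 := rhoF_le_one h₂ hν'
  have hν2' : ν' ^ 2 ≤ 1 := by rw [← sq_abs]; nlinarith [abs_nonneg ν']
  rw [e]
  have t1 : |θ₁ * (rhoF θ₁ ν - rhoF θ₁ ν')| ≤ 2 * (|ν| + |ν'|) * |ν - ν'| := by
    rw [abs_mul, abs_of_nonneg h10]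
    have : θ₁ * |rhoF θ₁ ν - rhoF θ₁ ν'| ≤ 1 * |rhoF θ₁ ν - rhoF θ₁ ν'| := by
      gcongr
      linarith
    linarith
  have t2 : |θ₁ * (rhoF θ₁ ν' - rhoF θ₂ ν')| ≤ 8 * |θ₁ - θ₂| := by
    rw [abs_mul, abs_of_nonneg h10]
    have h3 : 8 * ν' ^ 2 * |θ₁ - θ₂| ≤ 8 * 1 * |θ₁ - θ₂| := by gcongr
    have : θ₁ * |rhoF θ₁ ν' - rhoF θ₂ ν'| ≤ 1 * |rhoF θ₁ ν' - rhoF θ₂ ν'| := by
      gcongr
      linarith
    linarith
  have t3 : |(θ₁ - θ₂) * rhoF θ₂ ν'| ≤ |θ₁ - θ₂| := by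
    rw [abs_mul, abs_of_nonneg a3]
    nlinarith [abs_nonneg (θ₁ - θ₂)]
  calc _ ≤ |θ₁ * (rhoF θ₁ ν - rhoF θ₁ ν')| + |θ₁ * (rhoF θ₁ ν' - rhoF θ₂ ν')| +
        |(θ₁ - θ₂) * rhoF θ₂ ν'| := abs_add_three _ _ _
    _ ≤ _ := by linarith

theorem abs_Gf_le {θ ν : ℝ} (hθ : GoodTheta θ) (hν : |ν| ≤ 1) : |Gf θ ν| ≤ θ := by
  rw [Gf_eq, abs_mul, abs_of_nonneg hθ.nonneg, abs_of_nonneg (rhoF_nonneg hθ hν)]
  nlinarith [hθ.nonneg, rhoF_le_one hθ hν]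

theorem Gf_nonneg {θ ν : ℝ} (hθ : GoodTheta θ) (hν : |ν| ≤ 1) : 0 ≤ Gf θ ν := by
  rw [Gf_eq]
  exact mul_nonneg hθ.nonneg (rhoF_nonneg hθ hν)

/-! ### The map from messages to magnetisations has a Lipschitz inverse -/

theorem aux_low {A B C E X Y κ p q : ℝ} (hp : A * X - B * Y ≤ p) (hq : E * Y - C * X ≤ q)
    (h1 : κ ≤ A - C) (h2 : κ ≤ E - B) (hX : 0 ≤ X) (hY : 0 ≤ Y) : κ * (X + Y) ≤ p + q := by
  nlinarith [mul_le_mul_of_nonneg_right h1 hX, mul_le_mul_of_nonneg_right h2 hY]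

theorem aux_end {κ K D S W : ℝ} (hD0 : 0 < D) (hDle : D ≤ K) (hK : K ≤ 49 * κ)
    (low : κ * W ≤ S) (hW : 0 ≤ W) : W ≤ 49 * (S / D) := by
  rw [show 49 * (S / D) = 49 * S / D by ring, le_div_iff₀ hD0]
  calc W * D ≤ W * (49 * κ) := by
        apply mul_le_mul_of_nonneg_left (hDle.trans hK) hW
    _ = 49 * (κ * W) := by ring
    _ ≤ 49 * S := by linarith

/-- The exact difference formula for a common `θ`. -/
theorem mrg_sub_formula {θ a b a' b' : ℝ} (hD : 1 + a * (θ * b) ≠ 0) (hD' : 1 + a' * (θ * b') ≠ 0) :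
    mrg a (θ * b) - mrg a' (θ * b') =
      ((1 - θ ^ 2 * (b * b')) * (a - a') + θ * (1 - a * a') * (b - b')) /
        ((1 + a * (θ * b)) * (1 + a' * (θ * b'))) := by
  unfold mrg
  rw [div_sub_div _ _ hD hD']
  congr 1
  ring

/-- Same `θ`: the Lipschitz inverse, with constant `49 ≥ (1+θ)²/(1-θ)²`. -/
theorem msg_lip_same {θ a b a' b' : ℝ} (h : GoodTheta θ)
    (ha : |a| ≤ 1) (hb : |b| ≤ 1) (ha' : |a'| ≤ 1) (hb' : |b'| ≤ 1) :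
    |a - a'| + |b - b'| ≤
      49 * (|mrg a (θ * b) - mrg a' (θ * b')| + |mrg b (θ * a) - mrg b' (θ * a')|) := by
  have hθ0 := h.nonneg
  have hθ1 := h.le_three_quarters
  -- bounds on products
  have bd : ∀ x y : ℝ, |x| ≤ 1 → |y| ≤ 1 → -1 ≤ x * y ∧ x * y ≤ 1 := by
    intro x y hx hy
    have : |x * y| ≤ 1 := by
      rw [abs_mul]
      nlinarith [abs_nonneg x, abs_nonneg y]
    exact abs_le.1 this
  obtain ⟨l1, u1⟩ := bd a b ha hb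
  obtain ⟨l2, u2⟩ := bd a' b' ha' hb'
  obtain ⟨l3, u3⟩ := bd a a' ha ha'
  obtain ⟨l4, u4⟩ := bd b b' hb hb'
  have hD : 1 / 4 ≤ 1 + θ * (a * b) := by nlinarith
  have hD' : 1 / 4 ≤ 1 + θ * (a' * b') := by nlinarith
  have hDu : 1 + θ * (a * b) ≤ 1 + θ := by nlinarith
  have hDu' : 1 + θ * (a' * b') ≤ 1 + θ := by nlinarith
  have e1 : 1 + a * (θ * b) = 1 + θ * (a * b) := by ring
  have e2 : 1 + a' * (θ * b') = 1 + θ * (a' * b') := by ring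
  have e3 : 1 + b * (θ * a) = 1 + θ * (a * b) := by ring
  have e4 : 1 + b' * (θ * a') = 1 + θ * (a' * b') := by ring
  have hne : 1 + θ * (a * b) ≠ 0 := by linarith
  have hne' : 1 + θ * (a' * b') ≠ 0 := by linarith
  have F := mrg_sub_formula (θ := θ) (a := a) (b := b) (a' := a') (b' := b')
    (by rw [e1]; exact hne) (by rw [e2]; exact hne')
  have G := mrg_sub_formula (θ := θ) (a := b) (b := a) (a' := b') (b' := a')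
    (by rw [e3]; exact hne) (by rw [e4]; exact hne')
  rw [e1, e2] at F
  rw [e3, e4] at G
  set D := (1 + θ * (a * b)) * (1 + θ * (a' * b')) with hDdef
  have hD0 : 0 < D := mul_pos (by linarith) (by linarith)
  have hDle : D ≤ (1 + θ) ^ 2 := by
    rw [hDdef, sq]
    apply mul_le_mul hDu hDu' (by linarith) (by linarith)
  set P := (1 - θ ^ 2 * (b * b')) * (a - a') + θ * (1 - a * a') * (b - b') with hP
  set Q := (1 - θ ^ 2 * (a * a')) * (b - b') + θ * (1 - b * b') * (a - a') with hQ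
  rw [F, G, abs_div, abs_div, abs_of_pos hD0]
  -- lower bound for |P| + |Q|
  have hA : 0 ≤ 1 - θ ^ 2 * (b * b') := by nlinarith [h.sq_le, sq_nonneg θ]
  have hE : 0 ≤ 1 - θ ^ 2 * (a * a') := by nlinarith [h.sq_le, sq_nonneg θ]
  have hB : 0 ≤ θ * (1 - a * a') := mul_nonneg hθ0 (by linarith)
  have hC : 0 ≤ θ * (1 - b * b') := mul_nonneg hθ0 (by linarith)
  have lowP : (1 - θ ^ 2 * (b * b')) * |a - a'| - θ * (1 - a * a') * |b - b'| ≤ |P| := by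
    have := abs_sub_abs_le_abs_sub ((1 - θ ^ 2 * (b * b')) * (a - a')) (-(θ * (1 - a * a') * (b - b')))
    rw [abs_neg, abs_mul, abs_mul, abs_of_nonneg hA, abs_of_nonneg hB, sub_neg_eq_add] at this
    exact this
  have lowQ : (1 - θ ^ 2 * (a * a')) * |b - b'| - θ * (1 - b * b') * |a - a'| ≤ |Q| := by
    have := abs_sub_abs_le_abs_sub ((1 - θ ^ 2 * (a * a')) * (b - b')) (-(θ * (1 - b * b') * (a - a')))
    rw [abs_neg, abs_mul, abs_mul, abs_of_nonneg hE, abs_of_nonneg hC, sub_neg_eq_add] at this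
    exact this
  have col1 : (1 - θ) ^ 2 ≤ (1 - θ ^ 2 * (b * b')) - θ * (1 - b * b') := by
    have h9 := mul_nonneg (mul_nonneg hθ0 (by linarith : 0 ≤ 1 - θ)) (by linarith : 0 ≤ 1 + b * b')
    have e9 : (1 - θ ^ 2 * (b * b')) - θ * (1 - b * b') - (1 - θ) ^ 2 =
        θ * (1 - θ) * (1 + b * b') := by ring
    linarith
  have col2 : (1 - θ) ^ 2 ≤ (1 - θ ^ 2 * (a * a')) - θ * (1 - a * a') := by
    have h9 := mul_nonneg (mul_nonneg hθ0 (by linarith : 0 ≤ 1 - θ)) (by linarith : 0 ≤ 1 + a * a')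
    have e9 : (1 - θ ^ 2 * (a * a')) - θ * (1 - a * a') - (1 - θ) ^ 2 =
        θ * (1 - θ) * (1 + a * a') := by ring
    linarith
  have hX := abs_nonneg (a - a')
  have hY := abs_nonneg (b - b')
  have low : (1 - θ) ^ 2 * (|a - a'| + |b - b'|) ≤ |P| + |Q| :=
    aux_low lowP lowQ col1 col2 hX hY
  have hθ4 : 0 < 1 - θ := by linarith
  have h49 : (1 + θ) ^ 2 ≤ 49 * (1 - θ) ^ 2 := by nlinarith
  have hsum : |P| / D + |Q| / D = (|P| + |Q|) / D := by ring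
  rw [hsum]
  exact aux_end hD0 hDle h49 low (by positivity)

/-- Changing `θ` at fixed arguments moves `mrg a (θ b)` by at most `2 |θ₁ - θ₂|`. -/
theorem mrg_sub_theta_le {θ₁ θ₂ a b : ℝ} (h₁ : GoodTheta θ₁) (h₂ : GoodTheta θ₂)
    (ha : |a| ≤ 1) (hb : |b| ≤ 1) :
    |mrg a (θ₁ * b) - mrg a (θ₂ * b)| ≤ 2 * |θ₁ - θ₂| := by
  have h10 := h₁.nonneg
  have h20 := h₂.nonneg
  have h13 := h₁.le_three_quarters
  have h23 := h₂.le_three_quarters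
  have ht : |a * b| ≤ |a| := by
    rw [abs_mul]
    nlinarith [abs_nonneg a, abs_nonneg b]
  obtain ⟨t1, t2⟩ := abs_le.1 ht
  set u := |a| with hu
  have hu0 : 0 ≤ u := abs_nonneg a
  have hu2 : a ^ 2 = u ^ 2 := (sq_abs a).symm
  have hD1 : 1 - θ₁ * u ≤ 1 + θ₁ * (a * b) := by nlinarith
  have hD2 : 1 - θ₂ * u ≤ 1 + θ₂ * (a * b) := by nlinarith
  have hL1 : 0 < 1 - θ₁ * u := by nlinarith
  have hL2 : 0 < 1 - θ₂ * u := by nlinarith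
  have hP1 : 0 < 1 + θ₁ * (a * b) := by linarith
  have hP2 : 0 < 1 + θ₂ * (a * b) := by linarith
  have e1 : 1 + a * (θ₁ * b) = 1 + θ₁ * (a * b) := by ring
  have e2 : 1 + a * (θ₂ * b) = 1 + θ₂ * (a * b) := by ring
  have e : mrg a (θ₁ * b) - mrg a (θ₂ * b) =
      (θ₁ - θ₂) * (b * (1 - a ^ 2)) / ((1 + θ₁ * (a * b)) * (1 + θ₂ * (a * b))) := by
    unfold mrg
    rw [e1, e2, div_sub_div _ _ hP1.ne' hP2.ne']
    congr 1
    ring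
  have hP : 0 < (1 + θ₁ * (a * b)) * (1 + θ₂ * (a * b)) := mul_pos hP1 hP2
  have ha2 : a ^ 2 ≤ 1 := by rw [← sq_abs]; nlinarith [abs_nonneg a]
  rw [e, abs_div, abs_mul, abs_mul, abs_of_pos hP, abs_of_nonneg (by linarith : 0 ≤ 1 - a ^ 2),
    div_le_iff₀ hP]
  have key : 1 - a ^ 2 ≤ 2 * ((1 + θ₁ * (a * b)) * (1 + θ₂ * (a * b))) := by
    have h5 : (1 - θ₁ * u) * (1 - θ₂ * u) ≤ (1 + θ₁ * (a * b)) * (1 + θ₂ * (a * b)) :=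
      mul_le_mul hD1 hD2 hL2.le hP1.le
    have h6 : 1 - u ^ 2 ≤ 2 * ((1 - θ₁ * u) * (1 - θ₂ * u)) := by
      have h7 : 0 ≤ u ^ 2 * (1 - θ₁ ^ 2 - θ₂ ^ 2) :=
        mul_nonneg (sq_nonneg u) (by linarith [h₁.sq_le, h₂.sq_le])
      nlinarith [sq_nonneg (1 - (θ₁ + θ₂) * u)]
    rw [hu2]
    linarith
  have hX := abs_nonneg (θ₁ - θ₂)
  have h8 : |b| * (1 - a ^ 2) ≤ 1 - a ^ 2 := by nlinarith [abs_nonneg b]
  calc |θ₁ - θ₂| * (|b| * (1 - a ^ 2)) ≤ |θ₁ - θ₂| * (1 - a ^ 2) := by gcongr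
    _ ≤ |θ₁ - θ₂| * (2 * ((1 + θ₁ * (a * b)) * (1 + θ₂ * (a * b)))) := by gcongr
    _ = _ := by ring

/-- Blueprint: for fixed `θ` the Jacobian of `(ν₁, ν₂) ↦ (ν₁ ⊕ θν₂, ν₂ ⊕ θν₁)` has diagonal entries
`≥ (1-θ)/(1+θ)` and off-diagonal/diagonal `≤ θ` in each column; apply the mean value theorem on the
segment to `s₁ m_a + s₂ m_b`, `s_i = sign Δν_i`.  The `θ` dependence is crude.
The constant `200` is generous (`(1+θ)/(1-θ)² ≤ 20` for `θ ≤ 1/√2`). -/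
theorem msg_lip {θ₁ θ₂ a b a' b' : ℝ} (h₁ : GoodTheta θ₁) (h₂ : GoodTheta θ₂)
    (ha : |a| ≤ 1) (hb : |b| ≤ 1) (ha' : |a'| ≤ 1) (hb' : |b'| ≤ 1) :
    |a - a'| + |b - b'| ≤
      200 * (|mrg a (θ₁ * b) - mrg a' (θ₂ * b')| + |mrg b (θ₁ * a) - mrg b' (θ₂ * a')|
        + |θ₁ - θ₂|) := by
  have key1 := msg_lip_same h₁ ha hb ha' hb'
  have s1 := mrg_sub_theta_le h₁ h₂ ha' hb'
  have s2 := mrg_sub_theta_le h₁ h₂ hb' ha'
  have t1 : |mrg a (θ₁ * b) - mrg a' (θ₁ * b')| ≤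
      |mrg a (θ₁ * b) - mrg a' (θ₂ * b')| + 2 * |θ₁ - θ₂| := by
    have := abs_sub_le (mrg a (θ₁ * b)) (mrg a' (θ₂ * b')) (mrg a' (θ₁ * b'))
    rw [abs_sub_comm (mrg a' (θ₂ * b'))] at this
    linarith
  have t2 : |mrg b (θ₁ * a) - mrg b' (θ₁ * a')| ≤
      |mrg b (θ₁ * a) - mrg b' (θ₂ * a')| + 2 * |θ₁ - θ₂| := by
    have := abs_sub_le (mrg b (θ₁ * a)) (mrg b' (θ₂ * a')) (mrg b' (θ₁ * a'))
    rw [abs_sub_comm (mrg b' (θ₂ * a'))] at this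
    linarith
  have h0 := abs_nonneg (θ₁ - θ₂)
  have h3 := abs_nonneg (mrg a (θ₁ * b) - mrg a' (θ₂ * b'))
  have h4 := abs_nonneg (mrg b (θ₁ * a) - mrg b' (θ₂ * a'))
  linarith

end Crest.Agent.IsingFactor
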