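import Crest.Agent.IsingFactor.Tree
import Crest.Agent.IsingFactor.RealFns
import Crest.Agent.SRFactor.PostBasic

/-!
# IsingFactor.GibbsSplit (WP IF-GibbsSplit): algebra of the Gibbs measure, the edge split.

The master fact is the EDGE SPLIT: if `W = A ⊔ B` with exactly one edge `{a,b}` between `A` and `B`,
then the configurations on `W` are pairs `(S_A, S_B)`, `wtS W (S_A ∪ S_B) = wtS A S_A * wtS B S_B *
(1 + θ σ_a σ_b)`, whence `Zf W = Zf A * Zf B * (1 + θ m_a m_b)`, etc.  All the rest is algebra.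
Statements may be ADDED; do not change the ones below without posting on chat (topic S0241), other packages use them.
-/

set_option autoImplicit false

open Crest.Agent.SRFactor

namespace Crest.Agent.IsingFactor

variable {V : Type*} [DecidableEq V] {G : SimpleGraph V}

/-- `W` is split by the single edge `{a, b}` into `A` and `B`. -/
structure EdgeSplit (G : SimpleGraph V) (W A B : Finset V) (a b : V) : Prop where
  union : W = A ∪ B
  disj : Disjoint A B
  ha : a ∈ A
  hb : b ∈ B
  adj : G.Adj a b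
  only : ∀ x ∈ A, ∀ y ∈ B, G.Adj x y → x = a ∧ y = b

/-! ### Basic facts on spins and weights -/

lemma sgnS_mul_self (S : Finset V) (v : V) : sgnS S v * sgnS S v = 1 := by
  unfold sgnS; split_ifs <;> norm_num

lemma abs_sgnS (S : Finset V) (v : V) : |sgnS S v| = 1 := by
  unfold sgnS; split_ifs <;> simp

lemma sgnS_eq_two_mul_sub (S : Finset V) (v : V) :
    (if v ∈ S then (1 : ℝ) else 0) = (1 + sgnS S v) / 2 := by
  unfold sgnS; split_ifs <;> norm_num

lemma edgeWt_mk (θ : ℝ) (S : Finset V) (a b : V) :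
    edgeWt θ S s(a, b) = 1 + θ * (sgnS S a * sgnS S b) := by
  unfold edgeWt sgnS
  by_cases ha : a ∈ S <;> by_cases hb : b ∈ S <;> simp [ha, hb] <;> ring

lemma edgeWt_pos {θ : ℝ} (hθ : GoodTheta θ) (S : Finset V) (e : Sym2 V) : 0 < edgeWt θ S e := by
  have h1 := hθ.lt_one
  have h0 := hθ.nonneg
  unfold edgeWt
  split_ifs <;> linarith

lemma wtS_pos {θ : ℝ} (hθ : GoodTheta θ) (W S : Finset V) : 0 < wtS G θ W S :=
  Finset.prod_pos fun e _ => edgeWt_pos hθ S e

/-- The tilted weight. -/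
noncomputable def tw (G : SimpleGraph V) (θ : ℝ) (W : Finset V) (lam : V → ℝ) (S : Finset V) : ℝ :=
  wtS G θ W S * Real.exp (∑ i ∈ S, lam i)

lemma tw_pos {θ : ℝ} (hθ : GoodTheta θ) (W : Finset V) (lam : V → ℝ) (S : Finset V) :
    0 < tw G θ W lam S :=
  mul_pos (wtS_pos hθ W S) (Real.exp_pos _)

/-- Numerator of the Gibbs average. -/
noncomputable def gNum (G : SimpleGraph V) (θ : ℝ) (W : Finset V) (lam : V → ℝ) (f : Finset V → ℝ) :
    ℝ := ∑ S ∈ W.powerset, tw G θ W lam S * f S

lemma gAvg_eq (θ : ℝ) (W : Finset V) (lam : V → ℝ) (f : Finset V → ℝ) :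
    gAvg G θ W lam f = gNum G θ W lam f / Zf G θ W lam := rfl

lemma Zf_eq (θ : ℝ) (W : Finset V) (lam : V → ℝ) :
    Zf G θ W lam = gNum G θ W lam (fun _ => 1) := by
  unfold Zf gNum tw
  exact Finset.sum_congr rfl fun S _ => by ring

section
variable {θ : ℝ} (hθ : GoodTheta θ) (W : Finset V) (lam : V → ℝ)
include hθ

theorem Zf_pos : 0 < Zf G θ W lam := by
  unfold Zf
  refine Finset.sum_pos (fun S _ => ?_) ⟨∅, by simp⟩
  exact mul_pos (wtS_pos hθ W S) (Real.exp_pos _)

lemma gAvg_const (c : ℝ) : gAvg G θ W lam (fun _ => c) = c := by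
  have hz := Zf_pos (G := G) hθ W lam
  rw [gAvg_eq]
  have : gNum G θ W lam (fun _ => c) = c * Zf G θ W lam := by
    rw [Zf_eq]
    unfold gNum
    rw [Finset.mul_sum]
    exact Finset.sum_congr rfl fun S _ => by ring
  rw [this]
  field_simp

lemma gAvg_mono {f g : Finset V → ℝ} (hfg : ∀ S ∈ W.powerset, f S ≤ g S) :
    gAvg G θ W lam f ≤ gAvg G θ W lam g := by
  rw [gAvg_eq, gAvg_eq]
  refine div_le_div_of_nonneg_right ?_ (Zf_pos hθ W lam).le
  exact Finset.sum_le_sum fun S hS => mul_le_mul_of_nonneg_left (hfg S hS) (tw_pos hθ W lam S).le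

lemma abs_gAvg_le {f : Finset V → ℝ} {c : ℝ} (hf : ∀ S ∈ W.powerset, |f S| ≤ c) :
    |gAvg G θ W lam f| ≤ c := by
  rw [abs_le]
  constructor
  · have := gAvg_mono (G := G) hθ W lam (f := fun _ => -c) (g := f)
      fun S hS => (abs_le.1 (hf S hS)).1
    rwa [gAvg_const hθ] at this
  · have := gAvg_mono (G := G) hθ W lam (f := f) (g := fun _ => c)
      fun S hS => (abs_le.1 (hf S hS)).2
    rwa [gAvg_const hθ] at this

theorem abs_magn_le_one (v : V) : |magn G θ W lam v| ≤ 1 :=
  abs_gAvg_le hθ W lam fun S _ => (abs_sgnS S v).le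

theorem abs_magn_lt_one {v : V} (hv : v ∈ W) : |magn G θ W lam v| < 1 := by
  have hz := Zf_pos (G := G) hθ W lam
  have hZ : gNum G θ W lam (fun _ => 1) = Zf G θ W lam := (Zf_eq θ W lam).symm
  have hm : magn G θ W lam v = gNum G θ W lam (fun S => sgnS S v) / Zf G θ W lam := rfl
  have hplus : 0 < 1 + magn G θ W lam v := by
    have h1 : 1 + magn G θ W lam v = gNum G θ W lam (fun S => 1 + sgnS S v) / Zf G θ W lam := by
      have : gNum G θ W lam (fun S => 1 + sgnS S v) =
          gNum G θ W lam (fun _ => 1) + gNum G θ W lam (fun S => sgnS S v) := by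
        unfold gNum
        rw [← Finset.sum_add_distrib]
        exact Finset.sum_congr rfl fun S _ => by ring
      rw [this, hZ, hm, add_div, div_self hz.ne']
    rw [h1]
    refine div_pos ?_ hz
    refine Finset.sum_pos' (fun S _ => ?_) ⟨{v}, by simpa using hv, ?_⟩
    · refine mul_nonneg (tw_pos hθ W lam S).le ?_
      show 0 ≤ 1 + sgnS S v
      unfold sgnS; split_ifs <;> norm_num
    · refine mul_pos (tw_pos hθ W lam _) ?_
      show 0 < 1 + sgnS {v} v
      norm_num [sgnS]
  have hminus : 0 < 1 - magn G θ W lam v := by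
    have h1 : 1 - magn G θ W lam v = gNum G θ W lam (fun S => 1 - sgnS S v) / Zf G θ W lam := by
      have : gNum G θ W lam (fun S => 1 - sgnS S v) =
          gNum G θ W lam (fun _ => 1) - gNum G θ W lam (fun S => sgnS S v) := by
        unfold gNum
        rw [← Finset.sum_sub_distrib]
        exact Finset.sum_congr rfl fun S _ => by ring
      rw [this, hZ, hm, sub_div, div_self hz.ne']
    rw [h1]
    refine div_pos ?_ hz
    refine Finset.sum_pos' (fun S _ => ?_) ⟨∅, by simp, ?_⟩
    · refine mul_nonneg (tw_pos hθ W lam S).le ?_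
      show 0 ≤ 1 - sgnS S v
      unfold sgnS; split_ifs <;> norm_num
    · refine mul_pos (tw_pos hθ W lam _) ?_
      show 0 < 1 - sgnS ∅ v
      norm_num [sgnS]
  rw [abs_lt]; constructor <;> linarith

theorem abs_msg_le_one (y x : V) : |msg G θ W lam y x| ≤ 1 :=
  abs_magn_le_one hθ _ lam y

/-- Cauchy-Schwarz for the covariance. -/
lemma covS_sq_le (v u : V) :
    covS G θ W lam v u ^ 2 ≤ (1 - magn G θ W lam v ^ 2) * (1 - magn G θ W lam u ^ 2) := by
  have hz := Zf_pos (G := G) hθ W lam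
  set mv := magn G θ W lam v with hmv
  set mu := magn G θ W lam u with hmu
  set Z := Zf G θ W lam with hZ
  have hsumZ : ∑ S ∈ W.powerset, tw G θ W lam S = Z := by
    rw [hZ, Zf_eq]; unfold gNum; simp
  have hsumv : ∑ S ∈ W.powerset, tw G θ W lam S * sgnS S v = mv * Z := by
    have : mv = gNum G θ W lam (fun S => sgnS S v) / Z := rfl
    rw [this, div_mul_cancel₀ _ hz.ne']; rfl
  have hsumu : ∑ S ∈ W.powerset, tw G θ W lam S * sgnS S u = mu * Z := by
    have : mu = gNum G θ W lam (fun S => sgnS S u) / Z := rfl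
    rw [this, div_mul_cancel₀ _ hz.ne']; rfl
  have hsumvu : ∑ S ∈ W.powerset, tw G θ W lam S * (sgnS S v * sgnS S u) =
      (covS G θ W lam v u + mv * mu) * Z := by
    have : covS G θ W lam v u + mv * mu = gNum G θ W lam (fun S => sgnS S v * sgnS S u) / Z := by
      unfold covS; rw [sub_add_cancel]; rfl
    rw [this, div_mul_cancel₀ _ hz.ne']; rfl
  -- the three sums
  have h1 : ∑ S ∈ W.powerset, tw G θ W lam S * ((sgnS S v - mv) * (sgnS S u - mu)) =
      covS G θ W lam v u * Z := by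
    have : ∀ S, tw G θ W lam S * ((sgnS S v - mv) * (sgnS S u - mu)) =
        tw G θ W lam S * (sgnS S v * sgnS S u) - mu * (tw G θ W lam S * sgnS S v)
          - mv * (tw G θ W lam S * sgnS S u) + mv * mu * tw G θ W lam S := fun S => by ring
    simp only [this]
    rw [Finset.sum_add_distrib, Finset.sum_sub_distrib, Finset.sum_sub_distrib, ← Finset.mul_sum,
      ← Finset.mul_sum, ← Finset.mul_sum, hsumvu, hsumv, hsumu, hsumZ]
    ring
  have h2 : ∀ w, w = v ∨ w = u → ∀ m, m = magn G θ W lam w →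
      ∑ S ∈ W.powerset, tw G θ W lam S * (sgnS S w - m) ^ 2 = (1 - m ^ 2) * Z := by
    intro w _ m hm
    have hsum : ∑ S ∈ W.powerset, tw G θ W lam S * sgnS S w = m * Z := by
      have : m = gNum G θ W lam (fun S => sgnS S w) / Z := hm
      rw [this, div_mul_cancel₀ _ hz.ne']; rfl
    have : ∀ S, tw G θ W lam S * (sgnS S w - m) ^ 2 =
        (1 + m ^ 2) * tw G θ W lam S - 2 * m * (tw G θ W lam S * sgnS S w) := fun S => by
      have hs : sgnS S w ^ 2 = 1 := by rw [sq, sgnS_mul_self]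
      calc tw G θ W lam S * (sgnS S w - m) ^ 2
          = tw G θ W lam S * sgnS S w ^ 2 - 2 * m * (tw G θ W lam S * sgnS S w)
            + m ^ 2 * tw G θ W lam S := by ring
        _ = _ := by rw [hs]; ring
    simp only [this]
    rw [Finset.sum_sub_distrib, ← Finset.mul_sum, ← Finset.mul_sum, hsum, hsumZ]
    ring
  have hCS := Finset.sum_sq_le_sum_mul_sum_of_sq_le_mul W.powerset
    (r := fun S => tw G θ W lam S * ((sgnS S v - mv) * (sgnS S u - mu)))
    (f := fun S => tw G θ W lam S * (sgnS S v - mv) ^ 2)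
    (g := fun S => tw G θ W lam S * (sgnS S u - mu) ^ 2)
    (fun S _ => mul_nonneg (tw_pos hθ W lam S).le (sq_nonneg _))
    (fun S _ => mul_nonneg (tw_pos hθ W lam S).le (sq_nonneg _))
    (fun S _ => le_of_eq (by ring))
  rw [h1, h2 v (Or.inl rfl) mv hmv, h2 u (Or.inr rfl) mu hmu] at hCS
  have hZ2 : 0 < Z ^ 2 := by positivity
  have : (covS G θ W lam v u) ^ 2 * Z ^ 2 ≤ ((1 - mv ^ 2) * (1 - mu ^ 2)) * Z ^ 2 := by
    nlinarith
  exact le_of_mul_le_mul_right this hZ2

theorem abs_covS_le_one (v u : V) : |covS G θ W lam v u| ≤ 1 := by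
  have h := covS_sq_le (G := G) hθ W lam v u
  have h1 := abs_le.1 (abs_magn_le_one (G := G) hθ W lam v)
  have h2 := abs_le.1 (abs_magn_le_one (G := G) hθ W lam u)
  have h3 : 0 ≤ 1 - magn G θ W lam v ^ 2 := by nlinarith
  have h4 : 0 ≤ 1 - magn G θ W lam u ^ 2 := by nlinarith
  have h5 : (1 - magn G θ W lam v ^ 2) * (1 - magn G θ W lam u ^ 2) ≤ 1 := by
    have : 0 ≤ magn G θ W lam v ^ 2 := sq_nonneg _
    have : 0 ≤ magn G θ W lam u ^ 2 := sq_nonneg _
    nlinarith
  have : covS G θ W lam v u ^ 2 ≤ 1 ^ 2 := by linarith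
  exact abs_le_of_sq_le_sq this zero_le_one

end

lemma wtS_congr {θ : ℝ} {W S S' : Finset V} (h : ∀ v ∈ W, v ∈ S ↔ v ∈ S') :
    wtS G θ W S = wtS G θ W S' := by
  unfold wtS
  refine Finset.prod_congr rfl fun e he => ?_
  induction e using Sym2.ind with
  | _ x y =>
    have hx : x ∈ W := by
      classical
      have := (Finset.mem_filter.1 he).1
      exact (Finset.mk_mem_sym2_iff.1 this).1
    have hy : y ∈ W := by
      classical
      have := (Finset.mem_filter.1 he).1
      exact (Finset.mk_mem_sym2_iff.1 this).2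
    simp [edgeWt, h x hx, h y hy]


lemma gNum_congr_lam {θ : ℝ} {W : Finset V} {lam lam' : V → ℝ} (h : ∀ i ∈ W, lam i = lam' i)
    (f : Finset V → ℝ) : gNum G θ W lam f = gNum G θ W lam' f := by
  unfold gNum tw
  refine Finset.sum_congr rfl fun S hS => ?_
  have : ∑ i ∈ S, lam i = ∑ i ∈ S, lam' i :=
    Finset.sum_congr rfl fun i hi => h i (Finset.mem_powerset.1 hS hi)
  rw [this]

lemma gAvg_congr_lam {θ : ℝ} {W : Finset V} {lam lam' : V → ℝ} (h : ∀ i ∈ W, lam i = lam' i)
    (f : Finset V → ℝ) : gAvg G θ W lam f = gAvg G θ W lam' f := by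
  rw [gAvg_eq, gAvg_eq, Zf_eq, Zf_eq, gNum_congr_lam h, gNum_congr_lam h]

lemma gAvg_congr {θ : ℝ} {W : Finset V} {lam : V → ℝ} {f g : Finset V → ℝ}
    (h : ∀ S ∈ W.powerset, f S = g S) : gAvg G θ W lam f = gAvg G θ W lam g := by
  rw [gAvg_eq, gAvg_eq]
  congr 1
  exact Finset.sum_congr rfl fun S hS => by rw [h S hS]

theorem magn_congr {θ : ℝ} {W : Finset V} {lam lam' : V → ℝ} (h : ∀ i ∈ W, lam i = lam' i) (v : V) :
    magn G θ W lam v = magn G θ W lam' v :=
  gAvg_congr_lam h _

theorem covS_congr {θ : ℝ} {W : Finset V} {lam lam' : V → ℝ} (h : ∀ i ∈ W, lam i = lam' i) (v u : V) :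
    covS G θ W lam v u = covS G θ W lam' v u := by
  unfold covS
  rw [gAvg_congr_lam h, magn_congr h, magn_congr h]

theorem msg_congr {θ : ℝ} {W : Finset V} {lam lam' : V → ℝ} {y x : V}
    (h : ∀ i ∈ sideF G W y x, lam i = lam' i) :
    msg G θ W lam y x = msg G θ W lam' y x :=
  magn_congr h y

lemma mem_edgesIn {W : Finset V} {x y : V} : s(x, y) ∈ edgesIn G W ↔ x ∈ W ∧ y ∈ W ∧ G.Adj x y := by
  classical
  simp only [edgesIn, Finset.mem_filter, Finset.mk_mem_sym2_iff, SimpleGraph.mem_edgeSet, and_assoc]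

lemma edgesIn_singleton (v : V) : edgesIn G {v} = ∅ := by
  classical
  rw [Finset.eq_empty_iff_forall_notMem]
  intro e he
  induction e using Sym2.ind with
  | _ x y =>
    obtain ⟨hx, hy, hxy⟩ := mem_edgesIn.1 he
    rw [Finset.mem_singleton] at hx hy
    subst hx; subst hy
    exact G.irrefl hxy

/-- A single site: `magn = tanh (lam / 2)`. -/
theorem magn_singleton (θ : ℝ) (lam : V → ℝ) (v : V) :
    magn G θ {v} lam v = Real.tanh (lam v / 2) := by
  have hpow : ∀ F : Finset V → ℝ, ∑ S ∈ ({v} : Finset V).powerset, F S = F ∅ + F {v} := by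
    intro F
    have : ({v} : Finset V) = insert v ∅ := by simp
    rw [this, Finset.sum_powerset_insert (by simp)]
    simp
  have hw : ∀ S, wtS G θ {v} S = 1 := by
    intro S
    unfold wtS
    rw [edgesIn_singleton]
    simp
  unfold magn gAvg Zf
  rw [hpow, hpow]
  simp only [hw, one_mul, Finset.sum_empty, Real.exp_zero, Finset.sum_singleton]
  have e1 : sgnS (∅ : Finset V) v = -1 := by simp [sgnS]
  have e2 : sgnS ({v} : Finset V) v = 1 := by simp [sgnS]
  rw [e1, e2, Real.tanh_eq_sinh_div_cosh, Real.sinh_eq, Real.cosh_eq]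
  set u := Real.exp (lam v / 2) with hu
  have hu0 : 0 < u := Real.exp_pos _
  have h1 : Real.exp (lam v) = u ^ 2 := by
    rw [hu, ← Real.exp_nat_mul]; congr 1; push_cast; ring
  have h2 : Real.exp (-(lam v / 2)) = u⁻¹ := by rw [hu, Real.exp_neg]
  rw [h1, h2]
  field_simp
  ring

/-! ### Flip symmetry -/

lemma sgnS_sdiff {W S : Finset V} {v : V} (hv : v ∈ W) : sgnS (W \ S) v = - sgnS S v := by
  unfold sgnS
  by_cases h : v ∈ S <;> simp [h, hv]

lemma wtS_sdiff {θ : ℝ} (W S : Finset V) : wtS G θ W (W \ S) = wtS G θ W S := by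
  unfold wtS
  refine Finset.prod_congr rfl fun e he => ?_
  induction e using Sym2.ind with
  | _ x y =>
    obtain ⟨hx, hy, _⟩ := mem_edgesIn.1 he
    rw [edgeWt_mk, edgeWt_mk, sgnS_sdiff hx, sgnS_sdiff hy]
    ring

lemma tw_neg_sdiff {θ : ℝ} {W S : Finset V} (hS : S ⊆ W) (lam : V → ℝ) :
    tw G θ W (fun i => - lam i) (W \ S) = tw G θ W lam S * Real.exp (- ∑ i ∈ W, lam i) := by
  unfold tw
  rw [wtS_sdiff, mul_assoc, ← Real.exp_add]
  congr 2
  rw [Finset.sum_neg_distrib, ← Finset.sum_sdiff hS]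
  ring

lemma gNum_neg {θ : ℝ} (W : Finset V) (lam : V → ℝ) (F : Finset V → ℝ) :
    gNum G θ W (fun i => - lam i) F =
      Real.exp (- ∑ i ∈ W, lam i) * gNum G θ W lam (fun S => F (W \ S)) := by
  unfold gNum
  rw [Finset.mul_sum]
  refine Finset.sum_nbij' (fun S => W \ S) (fun S => W \ S) ?_ ?_ ?_ ?_ ?_
  · intro S _; simp
  · intro S _; simp
  · intro S hS; exact Finset.sdiff_sdiff_eq_self (Finset.mem_powerset.1 hS)
  · intro S hS; exact Finset.sdiff_sdiff_eq_self (Finset.mem_powerset.1 hS)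
  · intro S hS
    have hS' := Finset.mem_powerset.1 hS
    have hS'' : W \ S ⊆ W := Finset.sdiff_subset
    have := tw_neg_sdiff (G := G) (θ := θ) hS'' lam
    rw [Finset.sdiff_sdiff_eq_self hS'] at this
    simp only
    rw [this]
    ring_nf
    rw [Finset.sdiff_sdiff_eq_self hS']

/-- Flip symmetry of the Gibbs measure. -/
theorem magn_neg {θ : ℝ} (hθ : GoodTheta θ) (W : Finset V) (lam : V → ℝ) {v : V} (hv : v ∈ W) :
    magn G θ W (fun i => - lam i) v = - magn G θ W lam v := by
  have hz := Zf_pos (G := G) hθ W lam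
  have hc : 0 < Real.exp (- ∑ i ∈ W, lam i) := Real.exp_pos _
  unfold magn
  rw [gAvg_eq, gAvg_eq, Zf_eq, gNum_neg, gNum_neg, ← Zf_eq]
  have h1 : gNum G θ W lam (fun S => sgnS (W \ S) v) = - gNum G θ W lam (fun S => sgnS S v) := by
    unfold gNum
    rw [← Finset.sum_neg_distrib]
    refine Finset.sum_congr rfl fun S _ => ?_
    simp only
    rw [sgnS_sdiff hv]; ring
  rw [h1]
  field_simp

lemma magn_zero {θ : ℝ} (hθ : GoodTheta θ) (W : Finset V) {v : V} (hv : v ∈ W) :
    magn G θ W (fun _ => 0) v = 0 := by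
  have := magn_neg (G := G) hθ W (fun _ => 0) hv
  simp only [neg_zero] at this
  linarith

/-! ### The edge split -/

lemma sum_powerset_union' {β : Type*} [AddCommMonoid β] {A₁ A₂ : Finset V} (hd : Disjoint A₁ A₂)
    (F : Finset V → β) :
    ∑ S ∈ (A₁ ∪ A₂).powerset, F S = ∑ S₁ ∈ A₁.powerset, ∑ S₂ ∈ A₂.powerset, F (S₁ ∪ S₂) := by
  rw [← Finset.sum_product']
  refine Finset.sum_nbij' (fun S => (S ∩ A₁, S ∩ A₂)) (fun p => p.1 ∪ p.2) ?_ ?_ ?_ ?_ ?_
  · intro S _
    simp [Finset.inter_subset_right]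
  · intro p hp
    simp only [Finset.mem_product, Finset.mem_powerset] at hp ⊢
    exact Finset.union_subset_union hp.1 hp.2
  · intro S hS
    simp only [Finset.mem_powerset] at hS
    simp only
    rw [← Finset.inter_union_distrib_left]
    exact Finset.inter_eq_left.2 hS
  · rintro ⟨S₁, S₂⟩ hp
    simp only [Finset.mem_product, Finset.mem_powerset] at hp
    have h1 : (S₁ ∪ S₂) ∩ A₁ = S₁ := by
      rw [Finset.union_inter_distrib_right, Finset.inter_eq_left.2 hp.1]
      have : S₂ ∩ A₁ = ∅ := Finset.disjoint_iff_inter_eq_empty.1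
        (Finset.disjoint_of_subset_left hp.2 hd.symm)
      rw [this, Finset.union_empty]
    have h2 : (S₁ ∪ S₂) ∩ A₂ = S₂ := by
      rw [Finset.union_inter_distrib_right, Finset.inter_eq_left.2 hp.2]
      have : S₁ ∩ A₂ = ∅ := Finset.disjoint_iff_inter_eq_empty.1
        (Finset.disjoint_of_subset_left hp.1 hd)
      rw [this, Finset.empty_union]
    simp [h1, h2]
  · intro S hS
    simp only [Finset.mem_powerset] at hS
    simp only
    rw [← Finset.inter_union_distrib_left, Finset.inter_eq_left.2 hS]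

section splitaux
variable {W A B : Finset V} {a b : V} (hs : EdgeSplit G W A B a b)
include hs

lemma EdgeSplit.edgesIn_eq :
    edgesIn G W = insert s(a, b) (edgesIn G A ∪ edgesIn G B) := by
  classical
  ext e
  induction e using Sym2.ind with
  | _ x y =>
    rw [Finset.mem_insert, Finset.mem_union, mem_edgesIn, mem_edgesIn, mem_edgesIn, hs.union,
      Finset.mem_union, Finset.mem_union]
    constructor
    · rintro ⟨hx, hy, hxy⟩
      rcases hx with hx | hx <;> rcases hy with hy | hy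
      · exact Or.inr (Or.inl ⟨hx, hy, hxy⟩)
      · obtain ⟨rfl, rfl⟩ := hs.only x hx y hy hxy
        exact Or.inl rfl
      · obtain ⟨rfl, rfl⟩ := hs.only y hy x hx hxy.symm
        exact Or.inl Sym2.eq_swap
      · exact Or.inr (Or.inr ⟨hx, hy, hxy⟩)
    · rintro (h | ⟨hx, hy, hxy⟩ | ⟨hx, hy, hxy⟩)
      · have h' : (x = a ∧ y = b) ∨ (x = b ∧ y = a) := by simpa using h
        rcases h' with ⟨rfl, rfl⟩ | ⟨rfl, rfl⟩
        · exact ⟨Or.inl hs.ha, Or.inr hs.hb, hs.adj⟩
        · exact ⟨Or.inr hs.hb, Or.inl hs.ha, hs.adj.symm⟩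
      · exact ⟨Or.inl hx, Or.inl hy, hxy⟩
      · exact ⟨Or.inr hx, Or.inr hy, hxy⟩

lemma EdgeSplit.wtS_eq {θ : ℝ} {SA SB : Finset V} (hSA : SA ⊆ A) (hSB : SB ⊆ B) :
    wtS G θ W (SA ∪ SB) = wtS G θ A SA * wtS G θ B SB * (1 + θ * (sgnS SA a * sgnS SB b)) := by
  classical
  have hd := hs.disj
  have hA : ∀ v ∈ A, v ∈ SA ∪ SB ↔ v ∈ SA := by
    intro v hv
    have : v ∉ SB := fun h => Finset.disjoint_left.1 hd hv (hSB h)
    simp [this]
  have hB : ∀ v ∈ B, v ∈ SA ∪ SB ↔ v ∈ SB := by
    intro v hv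
    have : v ∉ SA := fun h => Finset.disjoint_left.1 hd (hSA h) hv
    simp [this]
  have hnot1 : s(a, b) ∉ edgesIn G A := by
    intro h
    exact Finset.disjoint_left.1 hd (mem_edgesIn.1 h).2.1 hs.hb
  have hnot2 : s(a, b) ∉ edgesIn G B := by
    intro h
    exact Finset.disjoint_left.1 hd hs.ha (mem_edgesIn.1 h).1
  have hded : Disjoint (edgesIn G A) (edgesIn G B) := by
    rw [Finset.disjoint_left]
    intro e he1 he2
    induction e using Sym2.ind with
    | _ x y => exact Finset.disjoint_left.1 hd (mem_edgesIn.1 he1).1 (mem_edgesIn.1 he2).1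
  have e1 : ∏ e ∈ edgesIn G A, edgeWt θ (SA ∪ SB) e = wtS G θ A SA := wtS_congr (G := G) hA
  have e2 : ∏ e ∈ edgesIn G B, edgeWt θ (SA ∪ SB) e = wtS G θ B SB := wtS_congr (G := G) hB
  have e3 : sgnS (SA ∪ SB) a = sgnS SA a := by
    unfold sgnS; simp only [hA a hs.ha]
  have e4 : sgnS (SA ∪ SB) b = sgnS SB b := by
    unfold sgnS; simp only [hB b hs.hb]
  conv_lhs => unfold wtS
  rw [hs.edgesIn_eq, Finset.prod_insert (by simp [hnot1, hnot2]), Finset.prod_union hded, e1, e2,
    edgeWt_mk, e3, e4]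
  ring

lemma EdgeSplit.tw_eq {θ : ℝ} (lam : V → ℝ) {SA SB : Finset V} (hSA : SA ⊆ A) (hSB : SB ⊆ B) :
    tw G θ W lam (SA ∪ SB) =
      tw G θ A lam SA * tw G θ B lam SB * (1 + θ * (sgnS SA a * sgnS SB b)) := by
  unfold tw
  rw [hs.wtS_eq hSA hSB, Finset.sum_union (Finset.disjoint_of_subset_left hSA
    (Finset.disjoint_of_subset_right hSB hs.disj)), Real.exp_add]
  ring

lemma EdgeSplit.inter_left {SA SB : Finset V} (hSA : SA ⊆ A) (hSB : SB ⊆ B) :
    (SA ∪ SB) ∩ A = SA := by
  rw [Finset.union_inter_distrib_right, Finset.inter_eq_left.2 hSA]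
  have : SB ∩ A = ∅ := Finset.disjoint_iff_inter_eq_empty.1
    (Finset.disjoint_of_subset_left hSB hs.disj.symm)
  rw [this, Finset.union_empty]

lemma EdgeSplit.inter_right {SA SB : Finset V} (hSA : SA ⊆ A) (hSB : SB ⊆ B) :
    (SA ∪ SB) ∩ B = SB := by
  rw [Finset.union_inter_distrib_right, Finset.inter_eq_left.2 hSB]
  have : SA ∩ B = ∅ := Finset.disjoint_iff_inter_eq_empty.1
    (Finset.disjoint_of_subset_left hSA hs.disj)
  rw [this, Finset.empty_union]

/-- The master formula for the numerators. -/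
lemma EdgeSplit.gNum_eq {θ : ℝ} (lam : V → ℝ) (f g : Finset V → ℝ) :
    gNum G θ W lam (fun S => f (S ∩ A) * g (S ∩ B)) =
      gNum G θ A lam f * gNum G θ B lam g +
      θ * (gNum G θ A lam (fun S => sgnS S a * f S) * gNum G θ B lam (fun S => sgnS S b * g S)) := by
  unfold gNum
  rw [hs.union, sum_powerset_union' hs.disj, Finset.sum_mul_sum, Finset.sum_mul_sum, Finset.mul_sum,
    ← Finset.sum_add_distrib, ← hs.union]
  refine Finset.sum_congr rfl fun SA hSA => ?_
  rw [Finset.mul_sum, ← Finset.sum_add_distrib]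
  refine Finset.sum_congr rfl fun SB hSB => ?_
  have hSA' := Finset.mem_powerset.1 hSA
  have hSB' := Finset.mem_powerset.1 hSB
  rw [hs.tw_eq lam hSA' hSB']
  simp only
  rw [hs.inter_left hSA' hSB', hs.inter_right hSA' hSB']
  ring

/-- The split with the roles of the two sides exchanged. -/
lemma EdgeSplit.symm : EdgeSplit G W B A b a where
  union := by rw [hs.union, Finset.union_comm]
  disj := hs.disj.symm
  ha := hs.hb
  hb := hs.ha
  adj := hs.adj.symm
  only x hx y hy hxy := by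
    obtain ⟨h1, h2⟩ := hs.only y hy x hx hxy.symm
    exact ⟨h2, h1⟩

end splitaux

lemma sgnS_inter_of_mem {A S : Finset V} {v : V} (hv : v ∈ A) : sgnS (S ∩ A) v = sgnS S v := by
  unfold sgnS
  simp [hv]


/-! ### The `Family` of a window -/

lemma clampθ_eq {θ : ℝ} (hθ : GoodTheta θ) : clampθ θ = θ := by
  unfold clampθ
  rw [min_eq_left hθ.lt_one.le, max_eq_right hθ.nonneg]

lemma wtTot_eq_Zf {θ : ℝ} (hθ : GoodTheta θ) (W : Finset V) :
    wtTot G θ W = Zf G θ W (fun _ => 0) := by
  unfold wtTot Zf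
  rw [clampθ_eq hθ]
  simp

lemma mass_self {θ : ℝ} (hθ : GoodTheta θ) {W S : Finset V} (hS : S ⊆ W) :
    (isingW G θ W).mass W S = wtS G θ W S / wtTot G θ W := by
  show (∑ S' ∈ W.powerset.filter (fun S' => S' ∩ W = S), wtS G (clampθ θ) W S') / wtTot G θ W = _
  have : W.powerset.filter (fun S' => S' ∩ W = S) = {S} := by
    ext T
    simp only [Finset.mem_filter, Finset.mem_powerset, Finset.mem_singleton]
    constructor
    · rintro ⟨h1, h2⟩
      rw [← h2, Finset.inter_eq_left.2 h1]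
    · rintro rfl
      exact ⟨hS, Finset.inter_eq_left.2 hS⟩
  rw [this, Finset.sum_singleton, clampθ_eq hθ]

section split
variable {θ : ℝ} (hθ : GoodTheta θ) {W A B : Finset V} {a b : V} (hs : EdgeSplit G W A B a b)
  (lam : V → ℝ)
include hθ hs

theorem Zf_split : Zf G θ W lam = Zf G θ A lam * Zf G θ B lam *
      (1 + θ * magn G θ A lam a * magn G θ B lam b) := by
  have hA := Zf_pos (G := G) hθ A lam
  have hB := Zf_pos (G := G) hθ B lam
  have h := hs.gNum_eq (θ := θ) lam (fun _ => 1) (fun _ => 1)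
  simp only [mul_one] at h
  rw [Zf_eq, Zf_eq, Zf_eq, h]
  rw [← Zf_eq, ← Zf_eq]
  have e1 : gNum G θ A lam (fun S => sgnS S a) = magn G θ A lam a * Zf G θ A lam := by
    unfold magn; rw [gAvg_eq, div_mul_cancel₀ _ hA.ne']
  have e2 : gNum G θ B lam (fun S => sgnS S b) = magn G θ B lam b * Zf G θ B lam := by
    unfold magn; rw [gAvg_eq, div_mul_cancel₀ _ hB.ne']
  rw [e1, e2]
  ring

theorem one_add_split_pos : 0 < 1 + θ * magn G θ A lam a * magn G θ B lam b := by
  have h1 := abs_magn_le_one (G := G) hθ A lam a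
  have h2 := abs_magn_le_one (G := G) hθ B lam b
  have h3 : |magn G θ A lam a * magn G θ B lam b| ≤ 1 := by
    rw [abs_mul]; exact mul_le_one₀ h1 (abs_nonneg _) h2
  have h4 := (abs_le.1 h3).1
  have h5 := hθ.lt_one
  have h6 := hθ.nonneg
  nlinarith

/-- The master identity. -/
theorem gAvg_split (f g : Finset V → ℝ) :
    gAvg G θ W lam (fun S => f (S ∩ A) * g (S ∩ B)) =
      (gAvg G θ A lam f * gAvg G θ B lam g
        + θ * gAvg G θ A lam (fun S => sgnS S a * f S) * gAvg G θ B lam (fun S => sgnS S b * g S))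
        / (1 + θ * magn G θ A lam a * magn G θ B lam b) := by
  have hA := Zf_pos (G := G) hθ A lam
  have hB := Zf_pos (G := G) hθ B lam
  have hD := one_add_split_pos (G := G) hθ hs lam
  rw [gAvg_eq, hs.gNum_eq, Zf_split hθ hs lam]
  simp only [gAvg_eq]
  field_simp


theorem magn_split_left : magn G θ W lam a = mrg (magn G θ A lam a) (θ * magn G θ B lam b) := by
  have hD := one_add_split_pos (G := G) hθ hs lam
  have h := gAvg_split (G := G) hθ hs lam (fun S => sgnS S a) (fun _ => 1)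
  simp only [mul_one] at h
  have h1 : gAvg G θ W lam (fun S => sgnS (S ∩ A) a) = magn G θ W lam a :=
    gAvg_congr fun S _ => sgnS_inter_of_mem hs.ha
  rw [h1] at h
  have e1 : gAvg G θ A lam (fun S => sgnS S a * sgnS S a) = 1 := by
    have : (fun S => sgnS S a * sgnS S a) = fun _ : Finset V => (1 : ℝ) := by
      funext S; exact sgnS_mul_self S a
    rw [this, gAvg_const hθ]
  have e2 : gAvg G θ B lam (fun _ => 1) = 1 := gAvg_const hθ B lam 1
  rw [h, e1, e2]
  have e3 : gAvg G θ A lam (fun S => sgnS S a) = magn G θ A lam a := rfl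
  have e4 : gAvg G θ B lam (fun S => sgnS S b) = magn G θ B lam b := rfl
  rw [e3, e4]
  unfold mrg
  have : 1 + magn G θ A lam a * (θ * magn G θ B lam b) =
      1 + θ * magn G θ A lam a * magn G θ B lam b := by ring
  rw [this]
  ring

theorem magn_split_right : magn G θ W lam b = mrg (magn G θ B lam b) (θ * magn G θ A lam a) :=
  magn_split_left hθ (EdgeSplit.symm hs) lam

/-- The covariance across the edge. -/
theorem covS_split {u : V} (hu : u ∈ B) :
    covS G θ W lam a u * (1 - magn G θ B lam b ^ 2) =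
      (1 - magn G θ W lam a ^ 2) * Gf θ (magn G θ B lam b) * covS G θ B lam b u := by
  have hD := one_add_split_pos (G := G) hθ hs lam
  set α := magn G θ A lam a with hα
  set β := magn G θ B lam b with hβ
  set D := 1 + θ * α * β with hDdef
  set m := magn G θ B lam u with hm
  set c := gAvg G θ B lam (fun S => sgnS S b * sgnS S u) with hc
  have hcov : covS G θ B lam b u = c - β * m := rfl
  have e1 : gAvg G θ A lam (fun S => sgnS S a * sgnS S a) = 1 := by
    have : (fun S => sgnS S a * sgnS S a) = fun _ : Finset V => (1 : ℝ) := by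
      funext S; exact sgnS_mul_self S a
    rw [this, gAvg_const hθ]
  -- `E[s_a s_u]`
  have h1 : gAvg G θ W lam (fun S => sgnS S a * sgnS S u) = (α * m + θ * c) / D := by
    have h := gAvg_split (G := G) hθ hs lam (fun S => sgnS S a) (fun S => sgnS S u)
    have h' : gAvg G θ W lam (fun S => sgnS (S ∩ A) a * sgnS (S ∩ B) u) =
        gAvg G θ W lam (fun S => sgnS S a * sgnS S u) :=
      gAvg_congr fun S _ => by rw [sgnS_inter_of_mem hs.ha, sgnS_inter_of_mem hu]
    rw [h'] at h
    rw [h, e1]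
    show (α * m + θ * 1 * c) / D = (α * m + θ * c) / D
    rw [mul_one]
  -- `E[s_u]`
  have h2 : magn G θ W lam u = (m + θ * α * c) / D := by
    have h := gAvg_split (G := G) hθ hs lam (fun _ => 1) (fun S => sgnS S u)
    simp only [one_mul, mul_one] at h
    have h' : gAvg G θ W lam (fun S => sgnS (S ∩ B) u) = magn G θ W lam u :=
      gAvg_congr fun S _ => sgnS_inter_of_mem hu
    rw [h'] at h
    rw [h, gAvg_const hθ]
    simp only [one_mul]
    show (m + θ * α * c) / D = (m + θ * α * c) / D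
    rfl
  have h3 : magn G θ W lam a = (α + θ * β) / D := by
    rw [magn_split_left hθ hs lam]
    unfold mrg
    have : 1 + α * (θ * β) = D := by rw [hDdef]; ring
    rw [this]
  have hβ1 : |β| ≤ 1 := abs_magn_le_one hθ B lam b
  have hβ2 : β ^ 2 ≤ 1 := by
    have := abs_le.1 hβ1; nlinarith
  have hθ2 : θ ^ 2 ≤ 1 / 2 := hθ.sq_le
  have hden : 0 < 1 - θ ^ 2 * β ^ 2 := by nlinarith [sq_nonneg β, sq_nonneg θ]
  have hcovW : covS G θ W lam a u = θ * (1 - α ^ 2) * (c - β * m) / D ^ 2 := by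
    unfold covS
    rw [h1, h2, h3]
    have : magn G θ W lam a = (α + θ * β) / D := h3
    field_simp
    ring
  rw [hcovW, h3, hcov]
  unfold Gf
  field_simp
  ring

/-- The normalising constants multiply (at `lam = 0` the magnetisations vanish). -/
theorem wtTot_split : wtTot G θ W = wtTot G θ A * wtTot G θ B := by
  rw [wtTot_eq_Zf hθ, wtTot_eq_Zf hθ, wtTot_eq_Zf hθ, Zf_split hθ hs,
    magn_zero hθ A hs.ha, magn_zero hθ B hs.hb]
  ring

/-- The Ising mass of a pair of configurations. -/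
theorem mass_split {SA SB : Finset V} (hSA : SA ⊆ A) (hSB : SB ⊆ B) :
    (isingW G θ W).mass W (SA ∪ SB) =
      (isingW G θ A).mass A SA * (isingW G θ B).mass B SB * (1 + θ * sgnS SA a * sgnS SB b) := by
  have hW : SA ∪ SB ⊆ W := by
    rw [hs.union]; exact Finset.union_subset_union hSA hSB
  rw [mass_self hθ hW, mass_self hθ hSA, mass_self hθ hSB, hs.wtS_eq hSA hSB, wtTot_split hθ hs]
  have h1 := wtTot_pos G θ A
  have h2 := wtTot_pos G θ B
  field_simp

end split

/-- The posterior of the `Family` is the Gibbs average. -/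
theorem post_isingW {θ : ℝ} (hθ : GoodTheta θ) (W : Finset V) (lam : V → ℝ) {v : V} (hv : v ∈ W) :
    post (isingW G θ W) W lam v = (magn G θ W lam v + 1) / 2 := by
  have hZ := Zf_pos (G := G) hθ W lam
  have ht := wtTot_pos G θ W
  have hwt : ∀ S ∈ W.powerset, wt (isingW G θ W) W lam S = tw G θ W lam S / wtTot G θ W := by
    intro S hS
    unfold wt tw
    rw [mass_self hθ (Finset.mem_powerset.1 hS)]
    ring
  have hz : zfun (isingW G θ W) W lam = Zf G θ W lam / wtTot G θ W := by
    unfold zfun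
    rw [Finset.sum_congr rfl hwt, ← Finset.sum_div, Zf_eq]
    congr 1
    unfold gNum
    exact Finset.sum_congr rfl fun S _ => by simp
  have hn : numer (isingW G θ W) W lam v =
      gNum G θ W lam (fun S => (1 + sgnS S v) / 2) / wtTot G θ W := by
    unfold numer
    rw [Finset.sum_filter, Finset.sum_congr rfl (g := fun S => tw G θ W lam S * ((1 + sgnS S v) / 2) / wtTot G θ W),
      ← Finset.sum_div]
    · rfl
    · intro S hS
      rw [← sgnS_eq_two_mul_sub, mul_ite, mul_one, mul_zero, ite_div, zero_div, hwt S hS]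
  have hg : gNum G θ W lam (fun S => (1 + sgnS S v) / 2) =
      ((magn G θ W lam v + 1) / 2) * Zf G θ W lam := by
    have hm : gNum G θ W lam (fun S => sgnS S v) = magn G θ W lam v * Zf G θ W lam := by
      unfold magn; rw [gAvg_eq, div_mul_cancel₀ _ hZ.ne']
    have hsplit : gNum G θ W lam (fun S => (1 + sgnS S v) / 2) =
        (gNum G θ W lam (fun _ => 1) + gNum G θ W lam (fun S => sgnS S v)) / 2 := by
      unfold gNum
      rw [← Finset.sum_add_distrib, Finset.sum_div]
      exact Finset.sum_congr rfl fun S _ => by ring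
    rw [hsplit, hm, ← Zf_eq]
    ring
  unfold post
  rw [hn, hz, hg]
  field_simp

end Crest.Agent.IsingFactor
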