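import Crest.Agent.IsingFactor.TreeAutCore

/-!
# Temperedness of invariant edge fields on a regular tree (elementary Haagerup)

`f : V → V → H` is an undirected edge field with values in a real inner product space
(typically `L²` of the label space), invariant under graph automorphisms.
If it has finite range (inner products vanish at large distance), or is a limit of such fields,
then the correlation at edge distance `ℓ` is at most `(√q+1) (ℓ+1) q^{-ℓ/2}` times the variance,
`q = d-1`.  Consequently the sum of `f` along a geodesic with `k` edges has squared norm at most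
`K k ‖f‖²`.

Proof: self-improving Cauchy-Schwarz against forward cone sums (Backhausz-Szegedy-Virag style, in
the elementary form: `A_{n+1} = q A_n + q (q-1) q^{2n} c(2n+1)`).
-/

set_option autoImplicit false

namespace Crest.Agent.IsingFactor.Haagerup

open SimpleGraph Finset
open scoped RealInnerProductSpace

variable {V : Type*} {G : SimpleGraph V}

/-- A non-backtracking walk `p 0, …, p n` given as a sequence. -/
def NB (G : SimpleGraph V) (n : ℕ) (p : ℕ → V) : Prop :=
  (∀ i < n, G.Adj (p i) (p (i + 1))) ∧ ∀ i, i + 1 < n → p i ≠ p (i + 2)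

lemma NB.dist (hT : G.IsTree) {n : ℕ} {p : ℕ → V} (h : NB G n p) :
    ∀ i ≤ n, G.dist (p 0) (p i) = i := by
  intro i
  induction' i using Nat.strong_induction_on with i ih
  intro hi
  match i, ih, hi with
  | 0, _, _ => simp
  | 1, _, hi => exact dist_eq_one_iff_adj.mpr (h.1 0 (by omega))
  | i + 2, ih, hi =>
    have h1 := ih (i + 1) (by omega) (by omega)
    have h0 := ih i (by omega) (by omega)
    have hadj : G.Adj (p (i + 1)) (p (i + 2)) := h.1 (i + 1) (by omega)
    rcases hT.dist_eq_dist_add_one_of_adj (p 0) hadj with h2 | h2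
    · exfalso
      have hne := h.2 i (by omega)
      have e1 : TreeAut.par hT (p 0) (p (i + 1)) = p (i + 2) :=
        TreeAut.par_eq hT hadj.symm h2
      have e2 : TreeAut.par hT (p 0) (p (i + 1)) = p i :=
        TreeAut.par_eq hT (h.1 i (by omega)) (by omega)
      exact hne (e2.symm.trans e1)
    · omega

/-- Automorphism between non-backtracking walks of the same length. -/
lemma exists_aut_of_NB [G.LocallyFinite] {d : ℕ} (hT : G.IsTree) (hreg : G.IsRegularOfDegree d)
    {n : ℕ} {p p' : ℕ → V} (h : NB G n p) (h' : NB G n p') :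
    ∃ φ : G ≃g G, ∀ i ≤ n, φ (p i) = p' i :=
  TreeAut.exists_aut_of_geodesic hT hreg n p p' h.1 h'.1 (NB.dist hT h) (NB.dist hT h')

lemma NB.extend {n : ℕ} {p : ℕ → V} (h : NB G n p) {z : V} (hz : G.Adj (p n) z)
    (hz' : ∀ m, n = m + 1 → p m ≠ z) :
    NB G (n + 1) (Function.update p (n + 1) z) := by
  have key : ∀ i ≤ n, Function.update p (n + 1) z i = p i := fun i hi =>
    Function.update_of_ne (by omega) _ _
  have top : Function.update p (n + 1) z (n + 1) = z := Function.update_self _ _ _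
  constructor
  · intro i hi
    rcases Nat.lt_succ_iff_lt_or_eq.mp hi with hi | rfl
    · rw [key i (by omega), key (i + 1) (by omega)]
      exact h.1 i hi
    · rw [key i le_rfl, top]
      exact hz
  · intro i hi
    by_cases h2 : i + 2 = n + 1
    · have : n = (i) + 1 := by omega
      subst this
      rw [key i (by omega), top]
      exact hz' i rfl
    · rw [key i (by omega), key (i + 2) (by omega)]
      exact h.2 i (by omega)

/-- Prepend a vertex. -/
def cons (z : V) (p : ℕ → V) : ℕ → V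
  | 0 => z
  | i + 1 => p i

lemma NB.cons {n : ℕ} {p : ℕ → V} (h : NB G n p) {z : V} (hz : G.Adj z (p 0))
    (hz' : 0 < n → z ≠ p 1) : NB G (n + 1) (cons z p) := by
  constructor
  · intro i hi
    cases i with
    | zero => exact hz
    | succ i => exact h.1 i (by omega)
  · intro i hi
    cases i with
    | zero => exact hz' (by omega)
    | succ i => exact h.2 i (by omega)

lemma NB.shift {n s : ℕ} {p : ℕ → V} (h : NB G (n + s) p) : NB G n (fun i => p (i + s)) := by
  constructor
  · intro i hi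
    have := h.1 (i + s) (by omega)
    simpa [add_right_comm] using this
  · intro i hi
    have := h.2 (i + s) (by omega)
    simpa [add_right_comm] using this

lemma NB.mono {n m : ℕ} {p : ℕ → V} (h : NB G n p) (hm : m ≤ n) : NB G m p :=
  ⟨fun i hi => h.1 i (by omega), fun i hi => h.2 i (by omega)⟩

section Numeric

/-- Numerical core of the self-improving argument, with a separate variance `v`. -/
theorem numeric_core' (q : ℕ) (hq : 2 ≤ q) (c : ℕ → ℝ) (N : ℕ) (hN : ∀ n, N ≤ n → c n = 0)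
    (v : ℝ) (h0 : 0 ≤ v)
    (hCS : ∀ n, (q : ℝ) ^ n * c n ^ 2 ≤
      v * (v + ((q : ℝ) - 1) * ∑ j ∈ range n, (q : ℝ) ^ j * c (2 * j + 1))) :
    ∀ n, |c n| * (Real.sqrt q) ^ n ≤ (Real.sqrt q + 1) * v * (n + 1) := by
  classical
  have hq0 : (0 : ℝ) < q := by positivity
  set s := Real.sqrt q with hs
  have hs0 : 0 < s := Real.sqrt_pos.mpr hq0
  have hs2 : s ^ 2 = q := Real.sq_sqrt hq0.le
  set x : ℕ → ℝ := fun n => |c n| * s ^ n / (n + 1) with hx
  have hx0 : ∀ n, 0 ≤ x n := fun n => by positivity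
  -- the sup
  obtain ⟨M, hM⟩ : ∃ M, ∀ n, x n ≤ x M := by
    obtain ⟨M, -, hM⟩ := Finset.exists_max_image (range (N + 1)) x ⟨0, by simp⟩
    refine ⟨M, fun n => ?_⟩
    by_cases hn : n < N + 1
    · exact hM n (by simpa using hn)
    · have : x n = 0 := by simp [hx, hN n (by omega)]
      rw [this]
      exact hx0 M
  set b := x M with hb
  have hb0 : 0 ≤ b := hx0 M
  have hsum : ∀ n, ∑ j ∈ range n, (q : ℝ) ^ j * c (2 * j + 1) ≤ b / s * (n * (n + 1)) := by
    intro n
    induction' n with n ih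
    · simp
    · rw [Finset.sum_range_succ]
      have h1 : (q : ℝ) ^ n * c (2 * n + 1) ≤ b / s * (2 * n + 2) := by
        have h2 := hM (2 * n + 1)
        have h3 : x (2 * n + 1) = |c (2 * n + 1)| * s ^ (2 * n + 1) / (2 * n + 2) := by
          simp only [hx]
          push_cast
          ring_nf
        rw [h3, div_le_iff₀ (by positivity)] at h2
        have h4 : s ^ (2 * n + 1) = (q : ℝ) ^ n * s := by
          rw [pow_succ, pow_mul, hs2]
        rw [h4] at h2
        have h5 : (q : ℝ) ^ n * c (2 * n + 1) ≤ (q : ℝ) ^ n * |c (2 * n + 1)| :=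
          mul_le_mul_of_nonneg_left (le_abs_self _) (by positivity)
        have h6 : (q : ℝ) ^ n * |c (2 * n + 1)| * s ≤ b * (2 * n + 2) := by
          calc (q : ℝ) ^ n * |c (2 * n + 1)| * s = |c (2 * n + 1)| * ((q : ℝ) ^ n * s) := by ring
            _ ≤ _ := h2
        calc (q : ℝ) ^ n * c (2 * n + 1) ≤ (q : ℝ) ^ n * |c (2 * n + 1)| := h5
          _ = ((q : ℝ) ^ n * |c (2 * n + 1)| * s) / s := by field_simp
          _ ≤ (b * (2 * n + 2)) / s := by gcongr
          _ = b / s * (2 * n + 2) := by ring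
      calc _ ≤ b / s * (n * (n + 1)) + b / s * (2 * n + 2) := add_le_add ih h1
        _ = b / s * (((n + 1 : ℕ) : ℝ) * (((n + 1 : ℕ) : ℝ) + 1)) := by push_cast; ring
  -- key inequality
  have key : ∀ n, x n ^ 2 ≤ v ^ 2 + s * v * b := by
    intro n
    have h1 := hCS n
    have hq1 : (0 : ℝ) ≤ (q : ℝ) - 1 := by
      have : (2 : ℝ) ≤ q := by exact_mod_cast hq
      linarith
    have h2 : ((q : ℝ) - 1) * ∑ j ∈ range n, (q : ℝ) ^ j * c (2 * j + 1)
        ≤ s * b * (n * (n + 1)) := by
      calc _ ≤ ((q : ℝ) - 1) * (b / s * (n * (n + 1))) :=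
            mul_le_mul_of_nonneg_left (hsum n) hq1
        _ ≤ (q : ℝ) * (b / s * (n * (n + 1))) := by
            apply mul_le_mul_of_nonneg_right (by linarith)
            positivity
        _ = s * b * (n * (n + 1)) := by
            rw [← hs2]; field_simp
    have h3 : (q : ℝ) ^ n * c n ^ 2 ≤ v * (v + s * b * (n * (n + 1))) :=
      h1.trans (mul_le_mul_of_nonneg_left (by linarith) h0)
    have h4 : x n ^ 2 = (q : ℝ) ^ n * c n ^ 2 / (n + 1) ^ 2 := by
      simp only [hx]
      rw [div_pow, mul_pow, sq_abs, ← pow_mul, mul_comm n 2, pow_mul, hs2]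
      ring
    rw [h4, div_le_iff₀ (by positivity)]
    have hn : (1 : ℝ) ≤ (n + 1) ^ 2 := by
      have : (0 : ℝ) ≤ n := Nat.cast_nonneg n
      nlinarith
    have h5 : (n : ℝ) * (n + 1) ≤ (n + 1) ^ 2 := by
      have : (0 : ℝ) ≤ n := Nat.cast_nonneg n
      nlinarith
    have h6 : 0 ≤ v * (s * b) := by positivity
    calc (q : ℝ) ^ n * c n ^ 2 ≤ v * (v + s * b * (n * (n + 1))) := h3
      _ = v ^ 2 + v * (s * b) * (n * (n + 1)) := by ring
      _ ≤ v ^ 2 * (n + 1) ^ 2 + v * (s * b) * (n + 1) ^ 2 := by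
          apply add_le_add
          · nlinarith [sq_nonneg v]
          · exact mul_le_mul_of_nonneg_left h5 h6
      _ = (v ^ 2 + s * v * b) * (n + 1) ^ 2 := by ring
  have hbbound : b ≤ (s + 1) * v := by
    have h1 := key M
    by_contra hcon
    push Not at hcon
    have h2 : 0 ≤ v := h0
    have h3 : (s + 1) * v < b := hcon
    have h4 : v ≤ (s + 1) * v := by nlinarith
    have h5 : v ^ 2 ≤ v * b * 1 := by nlinarith
    nlinarith
  intro n
  have h1 : x n ≤ (s + 1) * v := (hM n).trans hbbound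
  have h2 : (0 : ℝ) < (n : ℝ) + 1 := by positivity
  simp only [hx] at h1
  rwa [div_le_iff₀ h2] at h1

/-- Numerical core of the self-improving argument. -/
theorem numeric_core (q : ℕ) (hq : 2 ≤ q) (c : ℕ → ℝ) (N : ℕ) (hN : ∀ n, N ≤ n → c n = 0)
    (h0 : 0 ≤ c 0)
    (hCS : ∀ n, (q : ℝ) ^ n * c n ^ 2 ≤
      c 0 * (c 0 + ((q : ℝ) - 1) * ∑ j ∈ range n, (q : ℝ) ^ j * c (2 * j + 1))) :
    ∀ n, |c n| * (Real.sqrt q) ^ n ≤ (Real.sqrt q + 1) * c 0 * (n + 1) :=
  numeric_core' q hq c N hN (c 0) h0 hCS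

end Numeric

section Field

variable [G.LocallyFinite] {d : ℕ}
variable {H : Type*} [NormedAddCommGroup H] [InnerProductSpace ℝ H] (f : V → V → H)

/-- Automorphism invariance of the two-point function of a field. -/
def Invariant (G : SimpleGraph V) (f : V → V → H) : Prop :=
  ∀ (φ : G ≃g G) (a b x y : V), G.Adj a b → G.Adj x y →
    ⟪f (φ a) (φ b), f (φ x) (φ y)⟫ = ⟪f a b, f x y⟫

/-- Undirected: the field does not depend on the orientation of the edge. -/
def Symm (G : SimpleGraph V) (f : V → V → H) : Prop :=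
  ∀ a b, G.Adj a b → f a b = f b a

lemma NB_exists (hT : G.IsTree) (hreg : G.IsRegularOfDegree d) (hd : 2 ≤ d) (n : ℕ) :
    ∃ p, NB G n p := by
  classical
  induction' n with n ih
  · obtain ⟨v⟩ := hT.connected.nonempty
    exact ⟨fun _ => v, by simp [NB]⟩
  · obtain ⟨p, hp⟩ := ih
    -- pick a neighbour of `p n` other than the previous vertex
    have hdeg : 2 ≤ (G.neighborFinset (p n)).card := by
      rw [card_neighborFinset_eq_degree, hreg (p n)]
      exact hd
    obtain ⟨z, hz, hz'⟩ : ∃ z ∈ G.neighborFinset (p n), ∀ m, n = m + 1 → p m ≠ z := by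
      by_cases hn : ∃ m, n = m + 1
      · obtain ⟨m, rfl⟩ := hn
        have : 0 < ((G.neighborFinset (p (m + 1))).erase (p m)).card := by
          have := Finset.pred_card_le_card_erase (s := G.neighborFinset (p (m + 1))) (a := p m)
          omega
        obtain ⟨z, hz⟩ := Finset.card_pos.mp this
        refine ⟨z, (Finset.mem_erase.mp hz).2, ?_⟩
        intro m' hm'
        have : m' = m := by omega
        subst this
        exact (Finset.mem_erase.mp hz).1.symm
      · have : 0 < (G.neighborFinset (p n)).card := by omega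
        obtain ⟨z, hz⟩ := Finset.card_pos.mp this
        exact ⟨z, hz, fun m hm => absurd ⟨m, hm⟩ hn⟩
    exact ⟨_, hp.extend (by simpa using hz) hz'⟩

variable {f}

/-- The correlation at distance `ℓ`. -/
noncomputable def corr (hT : G.IsTree) (hreg : G.IsRegularOfDegree d) (hd : 2 ≤ d)
    (f : V → V → H) (ℓ : ℕ) : ℝ :=
  let p := (NB_exists hT hreg hd (ℓ + 1)).choose
  ⟪f (p 0) (p 1), f (p ℓ) (p (ℓ + 1))⟫

lemma corr_eq (hT : G.IsTree) (hreg : G.IsRegularOfDegree d) (hd : 2 ≤ d) (hf : Invariant G f)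
    {ℓ : ℕ} {p : ℕ → V} (hp : NB G (ℓ + 1) p) :
    ⟪f (p 0) (p 1), f (p ℓ) (p (ℓ + 1))⟫ = corr hT hreg hd f ℓ := by
  obtain ⟨φ, hφ⟩ := exists_aut_of_NB hT hreg hp (NB_exists hT hreg hd (ℓ + 1)).choose_spec
  have := hf φ (p 0) (p 1) (p ℓ) (p (ℓ + 1)) (hp.1 0 (by omega)) (hp.1 ℓ (by omega))
  rw [hφ 0 (by omega), hφ 1 (by omega), hφ ℓ (by omega), hφ (ℓ + 1) (by omega)] at this
  exact this.symm

/-- The forward neighbours of the oriented edge `(a,b)`. -/
noncomputable def kids (G : SimpleGraph V) [G.LocallyFinite] (a b : V) : Finset V :=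
  haveI := Classical.decEq V
  (G.neighborFinset b).erase a

omit [G.LocallyFinite] in
lemma mem_kids [G.LocallyFinite] {a b z : V} : z ∈ kids G a b ↔ z ≠ a ∧ G.Adj b z := by
  classical
  simp [kids]

/-- Forward cone sums: `cone n a b` sums `f` over the edges at forward distance `n` from `(a,b)`. -/
noncomputable def cone (G : SimpleGraph V) [G.LocallyFinite] (f : V → V → H) : ℕ → V → V → H
  | 0, a, b => f a b
  | n + 1, a, b => ∑ z ∈ kids G a b, cone G f n b z

lemma card_children (hreg : G.IsRegularOfDegree d) {a b : V} (h : G.Adj a b) :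
    (kids G a b).card = d - 1 := by
  classical
  unfold kids
  rw [Finset.card_erase_of_mem (by simpa using h.symm), card_neighborFinset_eq_degree, hreg b]

lemma inner_f_cone (hT : G.IsTree) (hreg : G.IsRegularOfDegree d) (hd : 2 ≤ d)
    (hf : Invariant G f) (n : ℕ) :
    ∀ (ℓ : ℕ) (p : ℕ → V), NB G (ℓ + 1) p →
      ⟪f (p 0) (p 1), cone G f n (p ℓ) (p (ℓ + 1))⟫ =
        ((d : ℝ) - 1) ^ n * corr hT hreg hd f (ℓ + n) := by
  classical
  induction' n with n ih
  · intro ℓ p hp
    simp [cone, corr_eq hT hreg hd hf hp]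
  · intro ℓ p hp
    have hadj := hp.1 ℓ (by omega)
    simp only [cone]
    rw [inner_sum]
    have hterm : ∀ z ∈ kids G (p ℓ) (p (ℓ + 1)),
        ⟪f (p 0) (p 1), cone G f n (p (ℓ + 1)) z⟫ =
          ((d : ℝ) - 1) ^ n * corr hT hreg hd f (ℓ + (n + 1)) := by
      intro z hz
      have hz1 : G.Adj (p (ℓ + 1)) z := (mem_kids.mp hz).2
      have hz2 : z ≠ p ℓ := (mem_kids.mp hz).1
      have hp' := hp.extend hz1 (fun m hm => by
        have : m = ℓ := by omega
        subst this
        exact hz2.symm)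
      have := ih (ℓ + 1) _ hp'
      have e0 : Function.update p (ℓ + 1 + 1) z 0 = p 0 := Function.update_of_ne (by omega) _ _
      have e1 : Function.update p (ℓ + 1 + 1) z 1 = p 1 := Function.update_of_ne (by omega) _ _
      have e2 : Function.update p (ℓ + 1 + 1) z (ℓ + 1) = p (ℓ + 1) :=
        Function.update_of_ne (by omega) _ _
      have e3 : Function.update p (ℓ + 1 + 1) z (ℓ + 1 + 1) = z := Function.update_self _ _ _
      rw [e0, e1, e2, e3] at this
      rw [this]
      congr 2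
      omega
    rw [Finset.sum_congr rfl hterm, Finset.sum_const, card_children hreg hadj, nsmul_eq_mul]
    have hd1 : ((d - 1 : ℕ) : ℝ) = (d : ℝ) - 1 := by
      rw [Nat.cast_sub (by omega)]; simp
    rw [hd1]
    ring

lemma inner_cone_cone (hT : G.IsTree) (hreg : G.IsRegularOfDegree d) (hd : 2 ≤ d)
    (hf : Invariant G f) (hs : Symm G f) (n m : ℕ) :
    ∀ (ℓ : ℕ) (p : ℕ → V), NB G (ℓ + 1) p →
      ⟪cone G f m (p 1) (p 0), cone G f n (p ℓ) (p (ℓ + 1))⟫ =
        ((d : ℝ) - 1) ^ (n + m) * corr hT hreg hd f (ℓ + n + m) := by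
  classical
  induction' m with m ih
  · intro ℓ p hp
    simp only [cone]
    rw [hs (p 1) (p 0) (hp.1 0 (by omega)).symm, inner_f_cone hT hreg hd hf n ℓ p hp]
    simp
  · intro ℓ p hp
    have hadj := (hp.1 0 (by omega)).symm
    simp only [cone]
    rw [sum_inner]
    have hterm : ∀ z ∈ kids G (p 1) (p 0),
        ⟪cone G f m (p 0) z, cone G f n (p ℓ) (p (ℓ + 1))⟫ =
          ((d : ℝ) - 1) ^ (n + m) * corr hT hreg hd f (ℓ + n + (m + 1)) := by
      intro z hz
      have hz1 : G.Adj (p 0) z := (mem_kids.mp hz).2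
      have hz2 : z ≠ p 1 := (mem_kids.mp hz).1
      have hp' := hp.cons hz1.symm (fun _ => hz2)
      have := ih (ℓ + 1) _ hp'
      have e0 : cons z p 0 = z := rfl
      have e1 : cons z p 1 = p 0 := rfl
      have e2 : cons z p (ℓ + 1) = p ℓ := rfl
      have e3 : cons z p (ℓ + 1 + 1) = p (ℓ + 1) := rfl
      rw [e0, e1, e2, e3] at this
      rw [this]
      congr 2
      omega
    rw [Finset.sum_congr rfl hterm, Finset.sum_const, card_children hreg hadj, nsmul_eq_mul]
    have hd1 : ((d - 1 : ℕ) : ℝ) = (d : ℝ) - 1 := by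
      rw [Nat.cast_sub (by omega)]; simp
    rw [hd1]
    ring

/-- Closed form for the squared norm of a cone sum. -/
lemma norm_cone_sq (hT : G.IsTree) (hreg : G.IsRegularOfDegree d) (hd : 2 ≤ d)
    (hf : Invariant G f) (hs : Symm G f) (n : ℕ) :
    ∀ a b, G.Adj a b → ⟪cone G f n a b, cone G f n a b⟫ =
      ((d : ℝ) - 1) ^ n * (corr hT hreg hd f 0 + ((d : ℝ) - 1 - 1) *
        ∑ j ∈ range n, ((d : ℝ) - 1) ^ j * corr hT hreg hd f (2 * j + 1)) := by
  classical
  have hd1 : ((d - 1 : ℕ) : ℝ) = (d : ℝ) - 1 := by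
    rw [Nat.cast_sub (by omega)]; simp
  induction' n with n ih
  · intro a b hab
    simp only [cone, pow_zero, one_mul, range_zero, sum_empty, mul_zero, add_zero]
    have hp : NB G 1 (fun i => if i = 0 then a else b) := by
      constructor
      · intro i hi
        have : i = 0 := by omega
        subst this
        simpa using hab
      · intro i hi
        omega
    have := corr_eq hT hreg hd hf (ℓ := 0) hp
    simpa using this
  · intro a b hab
    simp only [cone]
    rw [sum_inner]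
    set S := kids G a b with hS
    have hpair : ∀ z ∈ S, ∑ z' ∈ S, ⟪cone G f n b z, cone G f n b z'⟫ =
        ⟪cone G f n b z, cone G f n b z⟫ +
          ((d : ℝ) - 1 - 1) * (((d : ℝ) - 1) ^ (n + n) * corr hT hreg hd f (2 * n + 1)) := by
      intro z hz
      rw [← Finset.add_sum_erase S _ hz]
      congr 1
      have hcross : ∀ z' ∈ S.erase z, ⟪cone G f n b z, cone G f n b z'⟫ =
          ((d : ℝ) - 1) ^ (n + n) * corr hT hreg hd f (2 * n + 1) := by
        intro z' hz'
        have hz'1 := Finset.mem_erase.mp hz'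
        have hz'2 := mem_kids.mp hz'1.2
        have hzb : G.Adj b z := (mem_kids.mp hz).2
        have hz'b : G.Adj b z' := hz'2.2
        -- the walk `z, b, z'`
        have hp : NB G 2 (fun i => if i = 0 then z else if i = 1 then b else z') := by
          constructor
          · intro i hi
            match i, hi with
            | 0, _ => simpa using hzb.symm
            | 1, _ => simpa using hz'b
          · intro i hi
            have : i = 0 := by omega
            subst this
            simpa using hz'1.1.symm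
        have := inner_cone_cone hT hreg hd hf hs n n 1 _ hp
        simp only [one_ne_zero, if_false, if_true, zero_add, Nat.reduceAdd, OfNat.ofNat_ne_zero,
          OfNat.ofNat_ne_one] at this
        rw [this]
        congr 2
        omega
      rw [Finset.sum_congr rfl hcross, Finset.sum_const, nsmul_eq_mul]
      have hcard : (S.erase z).card = d - 2 := by
        rw [Finset.card_erase_of_mem hz, hS, card_children hreg hab]
        omega
      rw [hcard]
      have h2 : ((d - 2 : ℕ) : ℝ) = (d : ℝ) - 1 - 1 := by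
        rw [Nat.cast_sub hd]; push_cast; ring
      rw [h2]
    have hdiag : ∀ z ∈ S, ⟪cone G f n b z, cone G f n b z⟫ =
        ((d : ℝ) - 1) ^ n * (corr hT hreg hd f 0 + ((d : ℝ) - 1 - 1) *
          ∑ j ∈ range n, ((d : ℝ) - 1) ^ j * corr hT hreg hd f (2 * j + 1)) := by
      intro z hz
      exact ih b z (mem_kids.mp hz).2
    have hsumm : ∑ x ∈ S, ⟪cone G f n b x, ∑ z ∈ S, cone G f n b z⟫ =
        ∑ x ∈ S, ∑ z ∈ S, ⟪cone G f n b x, cone G f n b z⟫ := by
      apply Finset.sum_congr rfl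
      intro x _
      rw [inner_sum]
    rw [hsumm]
    rw [Finset.sum_congr rfl (fun z hz => by rw [hpair z hz, hdiag z hz])]
    rw [Finset.sum_const, hS, card_children hreg hab, nsmul_eq_mul, hd1, Finset.sum_range_succ]
    have hq : ((d : ℝ) - 1) ^ (n + n) = ((d : ℝ) - 1) ^ n * ((d : ℝ) - 1) ^ n := pow_add _ _ _
    rw [hq, pow_succ]
    ring

/-- Finite range: correlations vanish at large distance. -/
def FiniteRange (G : SimpleGraph V) (f : V → V → H) : Prop :=
  ∃ N : ℕ, ∀ ℓ, N ≤ ℓ → ∀ p, NB G (ℓ + 1) p → ⟪f (p 0) (p 1), f (p ℓ) (p (ℓ + 1))⟫ = 0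

lemma corr_zero_nonneg (hT : G.IsTree) (hreg : G.IsRegularOfDegree d) (hd : 2 ≤ d)
    (hf : Invariant G f) : 0 ≤ corr hT hreg hd f 0 := by
  obtain ⟨p, hp⟩ := NB_exists hT hreg hd (0 + 1)
  rw [← corr_eq hT hreg hd hf hp]
  exact real_inner_self_nonneg

/-- The tempered bound for finite-range invariant undirected fields. -/
theorem corr_bound_of_finiteRange (hT : G.IsTree) (hreg : G.IsRegularOfDegree d) (hd : 3 ≤ d)
    (hf : Invariant G f) (hs : Symm G f) (hfr : FiniteRange G f) (ℓ : ℕ) :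
    |corr hT hreg (by omega) f ℓ| * (Real.sqrt ((d : ℝ) - 1)) ^ ℓ ≤
      (Real.sqrt ((d : ℝ) - 1) + 1) * corr hT hreg (by omega) f 0 * (ℓ + 1) := by
  have hd2 : 2 ≤ d := by omega
  have hd1 : ((d - 1 : ℕ) : ℝ) = (d : ℝ) - 1 := by
    rw [Nat.cast_sub (by omega)]; simp
  obtain ⟨N, hN⟩ := hfr
  have h := numeric_core (d - 1) (by omega) (corr hT hreg hd2 f) N
    (fun n hn => by
      obtain ⟨p, hp⟩ := NB_exists hT hreg hd2 (n + 1)
      rw [← corr_eq hT hreg hd2 hf hp]
      exact hN n hn p hp)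
    (corr_zero_nonneg hT hreg hd2 hf)
    (fun n => by
      rw [hd1]
      obtain ⟨p, hp⟩ := NB_exists hT hreg hd2 (0 + 1)
      have hab := hp.1 0 (by omega)
      have h0 := inner_f_cone hT hreg hd2 hf n 0 p hp
      simp only [zero_add] at h0
      have h1 := norm_cone_sq hT hreg hd2 hf hs n (p 0) (p 1) hab
      have h2 : ⟪f (p 0) (p 1), f (p 0) (p 1)⟫ = corr hT hreg hd2 f 0 := corr_eq hT hreg hd2 hf hp
      have hCS := real_inner_mul_inner_self_le (f (p 0) (p 1)) (cone G f n (p 0) (p 1))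
      rw [h0, h1, h2] at hCS
      have hq : (0 : ℝ) < (d : ℝ) - 1 := by
        have : (3 : ℝ) ≤ d := by exact_mod_cast hd
        linarith
      have hqn : (0 : ℝ) < ((d : ℝ) - 1) ^ n := by positivity
      have : ((d : ℝ) - 1) ^ n * (((d : ℝ) - 1) ^ n * corr hT hreg hd2 f n ^ 2) ≤
          ((d : ℝ) - 1) ^ n * (corr hT hreg hd2 f 0 * (corr hT hreg hd2 f 0 +
            ((d : ℝ) - 1 - 1) * ∑ j ∈ range n, ((d : ℝ) - 1) ^ j *
              corr hT hreg hd2 f (2 * j + 1))) := by
        calc _ = ((d : ℝ) - 1) ^ n * corr hT hreg hd2 f n *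
              (((d : ℝ) - 1) ^ n * corr hT hreg hd2 f n) := by ring
          _ ≤ _ := hCS
          _ = _ := by ring
      exact le_of_mul_le_mul_left this hqn) ℓ
  rwa [hd1] at h

/-- The bound passes to limits of finite-range invariant fields. -/
theorem corr_bound_of_tendsto (hT : G.IsTree) (hreg : G.IsRegularOfDegree d) (hd : 3 ≤ d)
    (hf : Invariant G f) (g : ℕ → V → V → H) (hg : ∀ k, Invariant G (g k)) (hgs : ∀ k, Symm G (g k))
    (hgf : ∀ k, FiniteRange G (g k))
    (hlim : ∀ a b, G.Adj a b → Filter.Tendsto (fun k => g k a b) Filter.atTop (nhds (f a b)))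
    (ℓ : ℕ) :
    |corr hT hreg (by omega) f ℓ| * (Real.sqrt ((d : ℝ) - 1)) ^ ℓ ≤
      (Real.sqrt ((d : ℝ) - 1) + 1) * corr hT hreg (by omega) f 0 * (ℓ + 1) := by
  have hd2 : 2 ≤ d := by omega
  have hcorr : ∀ n, Filter.Tendsto (fun k => corr hT hreg hd2 (g k) n) Filter.atTop
      (nhds (corr hT hreg hd2 f n)) := by
    intro n
    obtain ⟨p, hp⟩ := NB_exists hT hreg hd2 (n + 1)
    have h1 : ∀ k, corr hT hreg hd2 (g k) n = ⟪g k (p 0) (p 1), g k (p n) (p (n + 1))⟫ :=
      fun k => (corr_eq hT hreg hd2 (hg k) hp).symm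
    rw [← corr_eq hT hreg hd2 hf hp]
    simp only [h1]
    exact (hlim _ _ (hp.1 0 (by omega))).inner (hlim _ _ (hp.1 n (by omega)))
  have h1 := ((hcorr ℓ).abs.mul_const ((Real.sqrt ((d : ℝ) - 1)) ^ ℓ))
  have h2 := (((hcorr 0).const_mul (Real.sqrt ((d : ℝ) - 1) + 1)).mul_const ((ℓ : ℝ) + 1))
  exact le_of_tendsto_of_tendsto' h1 h2
    (fun k => corr_bound_of_finiteRange hT hreg hd (hg k) (hgs k) (hgf k) ℓ)

/-- Summation constant for `(r+1) x^r`. -/
lemma sum_range_succ_mul_pow_le {x : ℝ} (hx0 : 0 ≤ x) (hx1 : x < 1) (n : ℕ) :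
    ∑ r ∈ range n, ((r : ℝ) + 1) * x ^ r ≤ 1 / (1 - x) ^ 2 := by
  have hpos : 0 < 1 - x := by linarith
  have key : ∀ n : ℕ, ∑ r ∈ range n, ((r : ℝ) + 1) * x ^ r =
      (1 - ((n : ℝ) + 1) * x ^ n + n * x ^ (n + 1)) / (1 - x) ^ 2 := by
    intro n
    induction' n with n ih
    · simp
    · rw [Finset.sum_range_succ, ih]
      field_simp
      push_cast
      ring
  rw [key]
  apply div_le_div_of_nonneg_right _ (by positivity)
  have h1 : (n : ℝ) * x ^ (n + 1) ≤ ((n : ℝ) + 1) * x ^ n := by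
    rw [pow_succ]
    have h2 : 0 ≤ x ^ n := by positivity
    have h3 : (0 : ℝ) ≤ n := Nat.cast_nonneg n
    nlinarith [mul_nonneg h3 h2, mul_nonneg (mul_nonneg h3 h2) (sub_nonneg.mpr hx1.le)]
  linarith

/-- The path-variance constant. -/
noncomputable def pathConst (d : ℕ) : ℝ :=
  1 + 2 * (Real.sqrt ((d : ℝ) - 1) + 1) / (1 - (Real.sqrt ((d : ℝ) - 1))⁻¹) ^ 2

/-- Path variance: if the correlations satisfy the tempered bound, the field summed over a
geodesic with `k` edges has squared norm at most `pathConst d * k * corr 0`. -/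
theorem path_sum_bound (hT : G.IsTree) (hreg : G.IsRegularOfDegree d) (hd : 3 ≤ d)
    (hf : Invariant G f)
    (hbound : ∀ ℓ, |corr hT hreg (by omega) f ℓ| * (Real.sqrt ((d : ℝ) - 1)) ^ ℓ ≤
      (Real.sqrt ((d : ℝ) - 1) + 1) * corr hT hreg (by omega) f 0 * (ℓ + 1))
    (k : ℕ) (p : ℕ → V) (hp : NB G k p) :
    ⟪∑ i ∈ range k, f (p i) (p (i + 1)), ∑ i ∈ range k, f (p i) (p (i + 1))⟫ ≤
      pathConst d * k * corr hT hreg (by omega) f 0 := by
  classical
  have hd2 : 2 ≤ d := by omega
  set c := corr hT hreg hd2 f with hc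
  have hc0 : 0 ≤ c 0 := corr_zero_nonneg hT hreg hd2 hf
  set s := Real.sqrt ((d : ℝ) - 1) with hs
  have hdr : (3 : ℝ) ≤ d := by exact_mod_cast hd
  have hs1 : 1 < s := by
    rw [hs]
    apply Real.lt_sqrt_of_sq_lt
    linarith
  have hs0 : 0 < s := by linarith
  set x := s⁻¹ with hx
  have hx0 : 0 ≤ x := by positivity
  have hx1 : x < 1 := inv_lt_one_of_one_lt₀ hs1
  -- pair correlations along the path
  have hpair : ∀ i j, i < k → j < k → i ≤ j →
      ⟪f (p i) (p (i + 1)), f (p j) (p (j + 1))⟫ = c (j - i) := by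
    intro i j hi hj hij
    have hn : NB G (j - i + 1 + i) p := hp.mono (by omega)
    have hq := NB.shift hn
    have := corr_eq hT hreg hd2 hf hq
    simp only [zero_add] at this
    rw [show (1 + i) = i + 1 by ring, show j - i + i = j by omega,
      show j - i + 1 + i = j + 1 by omega] at this
    exact this
  have hcbound : ∀ r, |c r| ≤ (s + 1) * c 0 * ((r + 1) * x ^ r) := by
    intro r
    have h1 := hbound r
    have hsr : 0 < s ^ r := by positivity
    have : |c r| = |c r| * s ^ r * x ^ r := by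
      rw [hx, inv_pow]; field_simp
    rw [this]
    calc |c r| * s ^ r * x ^ r ≤ (s + 1) * c 0 * (r + 1) * x ^ r :=
          mul_le_mul_of_nonneg_right h1 (by positivity)
      _ = _ := by ring
  -- expand the square
  rw [sum_inner]
  simp_rw [inner_sum]
  have hrow : ∀ i ∈ range k, ∑ j ∈ range k, ⟪f (p i) (p (i + 1)), f (p j) (p (j + 1))⟫ ≤
      pathConst d * c 0 := by
    intro i hi
    have hi' := Finset.mem_range.mp hi
    have hel : ∀ j ∈ range k, ⟪f (p i) (p (i + 1)), f (p j) (p (j + 1))⟫ ≤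
        |c (Nat.dist i j)| := by
      intro j hj
      have hj' := Finset.mem_range.mp hj
      rcases le_total i j with hij | hij
      · rw [hpair i j hi' hj' hij]
        have : Nat.dist i j = j - i := by
          simp [Nat.dist, Nat.sub_eq_zero_of_le hij]
        rw [this]
        exact le_abs_self _
      · rw [real_inner_comm, hpair j i hj' hi' hij]
        have : Nat.dist i j = i - j := by
          simp [Nat.dist, Nat.sub_eq_zero_of_le hij]
        rw [this]
        exact le_abs_self _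
    refine (Finset.sum_le_sum hel).trans ?_
    -- split by side
    set bd : ℕ → ℝ := fun r => (s + 1) * c 0 * (((r : ℝ) + 1) * x ^ r) with hbd
    have hbd0 : ∀ r, 0 ≤ bd r := fun r =>
      mul_nonneg (mul_nonneg (by linarith) hc0) (by positivity)
    set B0 := (s + 1) * c 0 * (1 / (1 - x) ^ 2) with hB0
    have hgeom : ∀ m, ∑ r ∈ range m, bd r ≤ B0 := by
      intro m
      simp only [hbd, hB0]
      rw [← Finset.mul_sum]
      exact mul_le_mul_of_nonneg_left (sum_range_succ_mul_pow_le hx0 hx1 m)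
        (mul_nonneg (by linarith) hc0)
    have hsplit : ∑ j ∈ range k, |c (Nat.dist i j)| ≤ B0 + B0 := by
      rw [← Finset.sum_range_add_sum_Ico _ (show i + 1 ≤ k by omega)]
      apply add_le_add
      · have h1 : ∑ j ∈ range (i + 1), |c (Nat.dist i j)| ≤ ∑ j ∈ range (i + 1), bd (i + 1 - 1 - j) := by
          apply Finset.sum_le_sum
          intro j hj
          have hj' := Finset.mem_range.mp hj
          have : Nat.dist i j = i + 1 - 1 - j := by
            simp only [Nat.dist]
            omega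
          rw [this]
          exact hcbound _
        refine h1.trans ?_
        rw [Finset.sum_range_reflect]
        exact hgeom _
      · rw [Finset.sum_Ico_eq_sum_range]
        have h1 : ∑ r ∈ range (k - (i + 1)), |c (Nat.dist i (i + 1 + r))| ≤
            ∑ r ∈ range (k - (i + 1)), bd (r + 1) := by
          apply Finset.sum_le_sum
          intro r _
          have : Nat.dist i (i + 1 + r) = r + 1 := by
            simp only [Nat.dist]
            omega
          rw [this]
          exact hcbound _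
        refine h1.trans ?_
        have h2 := hgeom (k - (i + 1) + 1)
        rw [Finset.sum_range_succ'] at h2
        have := hbd0 0
        linarith
    have hconst : B0 + B0 ≤ pathConst d * c 0 := by
      unfold pathConst
      rw [← hs, ← hx]
      have : (1 + 2 * (s + 1) / (1 - x) ^ 2) * c 0 = c 0 + (B0 + B0) := by
        simp only [hB0]
        ring
      rw [this]
      linarith
    exact hsplit.trans hconst
  calc _ ≤ ∑ i ∈ range k, pathConst d * c 0 := Finset.sum_le_sum hrow
    _ = pathConst d * k * c 0 := by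
      rw [Finset.sum_const, Finset.card_range, nsmul_eq_mul]; ring

end Field

section Directed

/-! ### Directed edge fields

`Z a b` is a field on oriented edges (no symmetry assumed).  Orientation convention:
`A(n+1) = ⟪Z x₀ x₁, Z x_{n+1} x_n⟫` (the two darts point towards each other along the geodesic),
`B(n+1) = ⟪Z x₁ x₀, Z x_{n+1} x_n⟫` (same direction). -/

variable [G.LocallyFinite] {q : ℕ}
variable {H : Type*} [NormedAddCommGroup H] [InnerProductSpace ℝ H] {Z : V → V → H}

/-- Oriented cone sums: `coneD n a b` sums the darts pointing back towards `(a,b)` at forward depth `n`. -/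
noncomputable def coneD (G : SimpleGraph V) [G.LocallyFinite] (Z : V → V → H) : ℕ → V → V → H
  | 0, a, b => Z b a
  | n + 1, a, b => ∑ z ∈ kids G a b, coneD G Z n b z

/-- `⟪W p₀ p₁, Z p_{n+1} p_n⟫` for a non-backtracking `p`, as a function of `n`. -/
noncomputable def corrW (hT : G.IsTree) (hreg : G.IsRegularOfDegree (q + 1)) (hq : 2 ≤ q)
    (W Z : V → V → H) (n : ℕ) : ℝ :=
  let p := (NB_exists (d := q + 1) hT hreg (by omega) (n + 1)).choose
  ⟪W (p 0) (p 1), Z (p (n + 1)) (p n)⟫

/-- Joint invariance of two fields. -/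
def Invariant2 (G : SimpleGraph V) (W Z : V → V → H) : Prop :=
  ∀ (φ : G ≃g G) (a b x y : V), G.Adj a b → G.Adj x y →
    ⟪W (φ a) (φ b), Z (φ x) (φ y)⟫ = ⟪W a b, Z x y⟫

variable {W : V → V → H}

lemma corrW_eq (hT : G.IsTree) (hreg : G.IsRegularOfDegree (q + 1)) (hq : 2 ≤ q)
    (hf : Invariant2 G W Z) {n : ℕ} {p : ℕ → V} (hp : NB G (n + 1) p) :
    ⟪W (p 0) (p 1), Z (p (n + 1)) (p n)⟫ = corrW hT hreg hq W Z n := by
  obtain ⟨φ, hφ⟩ := exists_aut_of_NB hT hreg hp
    (NB_exists (d := q + 1) hT hreg (by omega) (n + 1)).choose_spec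
  have := hf φ (p 0) (p 1) (p (n + 1)) (p n) (hp.1 0 (by omega)) (hp.1 n (by omega)).symm
  rw [hφ 0 (by omega), hφ 1 (by omega), hφ n (by omega), hφ (n + 1) (by omega)] at this
  exact this.symm

lemma card_kids (hreg : G.IsRegularOfDegree (q + 1)) {a b : V} (h : G.Adj a b) :
    (kids G a b).card = q := by
  have := card_children (d := q + 1) hreg h
  simpa using this

lemma inner_W_coneD (hT : G.IsTree) (hreg : G.IsRegularOfDegree (q + 1)) (hq : 2 ≤ q)
    (hf : Invariant2 G W Z) (n : ℕ) :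
    ∀ (ℓ : ℕ) (p : ℕ → V), NB G (ℓ + 1) p →
      ⟪W (p 0) (p 1), coneD G Z n (p ℓ) (p (ℓ + 1))⟫ =
        (q : ℝ) ^ n * corrW hT hreg hq W Z (ℓ + n) := by
  classical
  induction' n with n ih
  · intro ℓ p hp
    simp [coneD, corrW_eq hT hreg hq hf hp]
  · intro ℓ p hp
    have hadj := hp.1 ℓ (by omega)
    simp only [coneD]
    rw [inner_sum]
    have hterm : ∀ z ∈ kids G (p ℓ) (p (ℓ + 1)),
        ⟪W (p 0) (p 1), coneD G Z n (p (ℓ + 1)) z⟫ =
          (q : ℝ) ^ n * corrW hT hreg hq W Z (ℓ + (n + 1)) := by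
      intro z hz
      have hz1 : G.Adj (p (ℓ + 1)) z := (mem_kids.mp hz).2
      have hz2 : z ≠ p ℓ := (mem_kids.mp hz).1
      have hp' := hp.extend hz1 (fun m hm => by
        have : m = ℓ := by omega
        subst this
        exact hz2.symm)
      have := ih (ℓ + 1) _ hp'
      have e0 : Function.update p (ℓ + 1 + 1) z 0 = p 0 := Function.update_of_ne (by omega) _ _
      have e1 : Function.update p (ℓ + 1 + 1) z 1 = p 1 := Function.update_of_ne (by omega) _ _
      have e2 : Function.update p (ℓ + 1 + 1) z (ℓ + 1) = p (ℓ + 1) :=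
        Function.update_of_ne (by omega) _ _
      have e3 : Function.update p (ℓ + 1 + 1) z (ℓ + 1 + 1) = z := Function.update_self _ _ _
      rw [e0, e1, e2, e3] at this
      rw [this]
      congr 2
      omega
    rw [Finset.sum_congr rfl hterm, Finset.sum_const, card_kids hreg hadj, nsmul_eq_mul]
    ring

lemma inner_coneD_coneD (hT : G.IsTree) (hreg : G.IsRegularOfDegree (q + 1)) (hq : 2 ≤ q)
    (hf : Invariant G Z) (n m : ℕ) :
    ∀ (ℓ : ℕ) (p : ℕ → V), NB G (ℓ + 1) p →
      ⟪coneD G Z m (p 1) (p 0), coneD G Z n (p ℓ) (p (ℓ + 1))⟫ =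
        (q : ℝ) ^ (n + m) * corrW hT hreg hq Z Z (ℓ + n + m) := by
  classical
  have hf2 : Invariant2 G Z Z := hf
  induction' m with m ih
  · intro ℓ p hp
    simp only [coneD]
    rw [inner_W_coneD hT hreg hq hf2 n ℓ p hp]
    simp
  · intro ℓ p hp
    have hadj := (hp.1 0 (by omega)).symm
    simp only [coneD]
    rw [sum_inner]
    have hterm : ∀ z ∈ kids G (p 1) (p 0),
        ⟪coneD G Z m (p 0) z, coneD G Z n (p ℓ) (p (ℓ + 1))⟫ =
          (q : ℝ) ^ (n + m) * corrW hT hreg hq Z Z (ℓ + n + (m + 1)) := by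
      intro z hz
      have hz1 : G.Adj (p 0) z := (mem_kids.mp hz).2
      have hz2 : z ≠ p 1 := (mem_kids.mp hz).1
      have hp' := hp.cons hz1.symm (fun _ => hz2)
      have := ih (ℓ + 1) _ hp'
      have e0 : cons z p 0 = z := rfl
      have e1 : cons z p 1 = p 0 := rfl
      have e2 : cons z p (ℓ + 1) = p ℓ := rfl
      have e3 : cons z p (ℓ + 1 + 1) = p (ℓ + 1) := rfl
      rw [e0, e1, e2, e3] at this
      rw [this]
      congr 2
      omega
    rw [Finset.sum_congr rfl hterm, Finset.sum_const, card_kids hreg hadj, nsmul_eq_mul]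
    ring

/-- The variance of a dart does not depend on the dart. -/
lemma inner_self_eq_of_adj (hT : G.IsTree) (hreg : G.IsRegularOfDegree (q + 1))
    (hf : Invariant G Z) {a b c e : V} (hab : G.Adj a b) (hce : G.Adj c e) :
    ⟪Z a b, Z a b⟫ = ⟪Z c e, Z c e⟫ := by
  have hp : NB G 1 (fun i => if i = 0 then a else b) := by
    constructor
    · intro i hi
      have : i = 0 := by omega
      subst this
      simpa using hab
    · intro i hi
      omega
  have hp' : NB G 1 (fun i => if i = 0 then c else e) := by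
    constructor
    · intro i hi
      have : i = 0 := by omega
      subst this
      simpa using hce
    · intro i hi
      omega
  obtain ⟨φ, hφ⟩ := exists_aut_of_NB hT hreg hp hp'
  have h0 := hφ 0 (by omega)
  have h1 := hφ 1 (by omega)
  simp only [if_true, one_ne_zero, if_false] at h0 h1
  have := hf φ a b a b hab hab
  rw [h0, h1] at this
  exact this.symm

/-- Closed form for the squared norm of an oriented cone sum. -/
lemma norm_coneD_sq (hT : G.IsTree) (hreg : G.IsRegularOfDegree (q + 1)) (hq : 2 ≤ q)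
    (hf : Invariant G Z) {a₀ b₀ : V} (h₀ : G.Adj a₀ b₀) (n : ℕ) :
    ∀ a b, G.Adj a b → ⟪coneD G Z n a b, coneD G Z n a b⟫ =
      (q : ℝ) ^ n * (⟪Z a₀ b₀, Z a₀ b₀⟫ + ((q : ℝ) - 1) *
        ∑ j ∈ range n, (q : ℝ) ^ j * corrW hT hreg hq Z Z (2 * j + 1)) := by
  classical
  induction' n with n ih
  · intro a b hab
    simp only [coneD, pow_zero, one_mul, range_zero, sum_empty, mul_zero, add_zero]
    exact inner_self_eq_of_adj hT hreg hf hab.symm h₀
  · intro a b hab
    simp only [coneD]
    rw [sum_inner]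
    set S := kids G a b with hS
    have hpair : ∀ z ∈ S, ∑ z' ∈ S, ⟪coneD G Z n b z, coneD G Z n b z'⟫ =
        ⟪coneD G Z n b z, coneD G Z n b z⟫ +
          ((q : ℝ) - 1) * ((q : ℝ) ^ (n + n) * corrW hT hreg hq Z Z (2 * n + 1)) := by
      intro z hz
      rw [← Finset.add_sum_erase S _ hz]
      congr 1
      have hcross : ∀ z' ∈ S.erase z, ⟪coneD G Z n b z, coneD G Z n b z'⟫ =
          (q : ℝ) ^ (n + n) * corrW hT hreg hq Z Z (2 * n + 1) := by
        intro z' hz'
        have hz'1 := Finset.mem_erase.mp hz'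
        have hz'2 := mem_kids.mp hz'1.2
        have hzb : G.Adj b z := (mem_kids.mp hz).2
        have hz'b : G.Adj b z' := hz'2.2
        -- the walk `z, b, z'`
        have hp : NB G 2 (fun i => if i = 0 then z else if i = 1 then b else z') := by
          constructor
          · intro i hi
            match i, hi with
            | 0, _ => simpa using hzb.symm
            | 1, _ => simpa using hz'b
          · intro i hi
            have : i = 0 := by omega
            subst this
            simpa using hz'1.1.symm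
        have := inner_coneD_coneD hT hreg hq hf n n 1 _ hp
        simp only [one_ne_zero, if_false, if_true, zero_add, Nat.reduceAdd, OfNat.ofNat_ne_zero,
          OfNat.ofNat_ne_one] at this
        rw [this]
        congr 2
        omega
      rw [Finset.sum_congr rfl hcross, Finset.sum_const, nsmul_eq_mul]
      have hcard : (S.erase z).card = q - 1 := by
        rw [Finset.card_erase_of_mem hz, hS, card_kids hreg hab]
      rw [hcard]
      have h2 : ((q - 1 : ℕ) : ℝ) = (q : ℝ) - 1 := by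
        rw [Nat.cast_sub (by omega)]; simp
      rw [h2]
    have hdiag : ∀ z ∈ S, ⟪coneD G Z n b z, coneD G Z n b z⟫ =
        (q : ℝ) ^ n * (⟪Z a₀ b₀, Z a₀ b₀⟫ + ((q : ℝ) - 1) *
          ∑ j ∈ range n, (q : ℝ) ^ j * corrW hT hreg hq Z Z (2 * j + 1)) := by
      intro z hz
      exact ih b z (mem_kids.mp hz).2
    have hsumm : ∑ x ∈ S, ⟪coneD G Z n b x, ∑ z ∈ S, coneD G Z n b z⟫ =
        ∑ x ∈ S, ∑ z ∈ S, ⟪coneD G Z n b x, coneD G Z n b z⟫ := by
      apply Finset.sum_congr rfl
      intro x _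
      rw [inner_sum]
    rw [hsumm]
    rw [Finset.sum_congr rfl (fun z hz => by rw [hpair z hz, hdiag z hz])]
    rw [Finset.sum_const, hS, card_kids hreg hab, nsmul_eq_mul, Finset.sum_range_succ]
    have hq' : (q : ℝ) ^ (n + n) = (q : ℝ) ^ n * (q : ℝ) ^ n := pow_add _ _ _
    rw [hq', pow_succ]
    ring

/-- Main directed bound.  `Z` invariant with vanishing far correlations: for a non-backtracking
`p`, both `A` and `B` correlations are at most `(q+2) v (n+1) q^{-n/2}`. -/
theorem directed_bound (hT : G.IsTree) (hreg : G.IsRegularOfDegree (q + 1)) (hq : 2 ≤ q)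
    (hf : Invariant G Z)
    {N : ℕ} (hN : ∀ n, N ≤ n → ∀ p, NB G (n + 1) p → ⟪Z (p 0) (p 1), Z (p (n + 1)) (p n)⟫ = 0)
    {n : ℕ} {p : ℕ → V} (hp : NB G (n + 1) p) :
    |⟪Z (p 1) (p 0), Z (p (n + 1)) (p n)⟫| * (Real.sqrt q) ^ n ≤
      (q + 2) * ⟪Z (p 1) (p 0), Z (p 1) (p 0)⟫ * (n + 1) := by
  classical
  have hq0 : (0 : ℝ) < q := by positivity
  have hq2 : (2 : ℝ) ≤ q := by exact_mod_cast hq
  set s := Real.sqrt q with hs
  have hs0 : 0 < s := Real.sqrt_pos.mpr hq0
  have hs2 : s ^ 2 = q := Real.sq_sqrt hq0.le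
  have hs1 : s ≤ q := by nlinarith
  have hadj : G.Adj (p 1) (p 0) := (hp.1 0 (by omega)).symm
  set v := ⟪Z (p 1) (p 0), Z (p 1) (p 0)⟫ with hv
  have hv0 : 0 ≤ v := real_inner_self_nonneg
  have hf2 : Invariant2 G Z Z := hf
  set A := corrW hT hreg hq Z Z with hA
  -- the cone norm in terms of A
  have hnorm : ∀ m a b, G.Adj a b → ⟪coneD G Z m a b, coneD G Z m a b⟫ =
      (q : ℝ) ^ m * (v + ((q : ℝ) - 1) * ∑ j ∈ range m, (q : ℝ) ^ j * A (2 * j + 1)) :=
    fun m => norm_coneD_sq hT hreg hq hf hadj m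
  -- Cauchy-Schwarz for A
  have hCSA : ∀ m, (q : ℝ) ^ m * A m ^ 2 ≤
      v * (v + ((q : ℝ) - 1) * ∑ j ∈ range m, (q : ℝ) ^ j * A (2 * j + 1)) := by
    intro m
    obtain ⟨r, hr⟩ := NB_exists (d := q + 1) hT hreg (by omega) (0 + 1)
    have hab := hr.1 0 (by omega)
    have h0 := inner_W_coneD hT hreg hq hf2 m 0 r hr
    simp only [zero_add] at h0
    have h1 := hnorm m (r 0) (r 1) hab
    have h2 : ⟪Z (r 0) (r 1), Z (r 0) (r 1)⟫ = v := inner_self_eq_of_adj hT hreg hf hab hadj
    have hCS := real_inner_mul_inner_self_le (Z (r 0) (r 1)) (coneD G Z m (r 0) (r 1))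
    rw [h0, h1, h2] at hCS
    have hqn : (0 : ℝ) < (q : ℝ) ^ m := by positivity
    have : (q : ℝ) ^ m * ((q : ℝ) ^ m * A m ^ 2) ≤ (q : ℝ) ^ m *
        (v * (v + ((q : ℝ) - 1) * ∑ j ∈ range m, (q : ℝ) ^ j * A (2 * j + 1))) := by
      calc _ = (q : ℝ) ^ m * A m * ((q : ℝ) ^ m * A m) := by ring
        _ ≤ _ := hCS
        _ = _ := by ring
    exact le_of_mul_le_mul_left this hqn
  have hAzero : ∀ m, N ≤ m → A m = 0 := by
    intro m hm
    obtain ⟨r, hr⟩ := NB_exists (d := q + 1) hT hreg (by omega) (m + 1)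
    rw [hA, ← corrW_eq hT hreg hq hf2 hr]
    exact hN m hm r hr
  have hbound := numeric_core' q hq A N hAzero v hv0 hCSA
  -- bound for the cone norm
  have hsumA : ∀ m, ((q : ℝ) - 1) * ∑ j ∈ range m, (q : ℝ) ^ j * A (2 * j + 1) ≤
      q * (s + 1) * v * ((m : ℝ) * (m + 1)) / s := by
    intro m
    have h1 : ∑ j ∈ range m, (q : ℝ) ^ j * A (2 * j + 1) ≤
        (s + 1) * v / s * ((m : ℝ) * (m + 1)) := by
      induction' m with m ih
      · simp
      · rw [Finset.sum_range_succ]
        have h2 := hbound (2 * m + 1)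
        have h4 : s ^ (2 * m + 1) = (q : ℝ) ^ m * s := by
          rw [pow_succ, pow_mul, hs2]
        rw [h4] at h2
        have h3 : (q : ℝ) ^ m * A (2 * m + 1) ≤ (s + 1) * v / s * (2 * m + 2) := by
          rw [div_mul_eq_mul_div, le_div_iff₀ hs0]
          calc (q : ℝ) ^ m * A (2 * m + 1) * s ≤ |A (2 * m + 1)| * ((q : ℝ) ^ m * s) := by
                have := le_abs_self (A (2 * m + 1))
                have h5 : 0 ≤ (q : ℝ) ^ m * s := by positivity
                nlinarith
            _ ≤ (s + 1) * v * (((2 * m + 1 : ℕ) : ℝ) + 1) := h2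
            _ = (s + 1) * v * (2 * m + 2) := by push_cast; ring
        calc _ ≤ (s + 1) * v / s * ((m : ℝ) * (m + 1)) + (s + 1) * v / s * (2 * m + 2) :=
              add_le_add ih h3
          _ = _ := by push_cast; ring
    have hq1 : (0 : ℝ) ≤ (q : ℝ) - 1 := by linarith
    calc _ ≤ ((q : ℝ) - 1) * ((s + 1) * v / s * ((m : ℝ) * (m + 1))) :=
          mul_le_mul_of_nonneg_left h1 hq1
      _ ≤ (q : ℝ) * ((s + 1) * v / s * ((m : ℝ) * (m + 1))) := by
          apply mul_le_mul_of_nonneg_right (by linarith)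
          positivity
      _ = _ := by ring
  -- Cauchy-Schwarz for B
  have hW : Invariant2 G (fun a b => Z b a) Z := by
    intro φ a b x y hab hxy
    exact hf φ b a x y hab.symm hxy
  have hB : ⟪Z (p 1) (p 0), coneD G Z n (p 0) (p 1)⟫ =
      (q : ℝ) ^ n * ⟪Z (p 1) (p 0), Z (p (n + 1)) (p n)⟫ := by
    have h0 := inner_W_coneD (W := fun a b => Z b a) hT hreg hq hW n 0
      (fun i => p i) (hp.mono (by omega))
    simp only [zero_add] at h0
    rw [h0, corrW_eq hT hreg hq hW hp]
  have hCS := real_inner_mul_inner_self_le (Z (p 1) (p 0)) (coneD G Z n (p 0) (p 1))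
  rw [hB, hnorm n _ _ (hp.1 0 (by omega))] at hCS
  set B := ⟪Z (p 1) (p 0), Z (p (n + 1)) (p n)⟫ with hBdef
  have hqn : (0 : ℝ) < (q : ℝ) ^ n := by positivity
  have h2 : (q : ℝ) ^ n * B ^ 2 ≤
      v * (v + ((q : ℝ) - 1) * ∑ j ∈ range n, (q : ℝ) ^ j * A (2 * j + 1)) := by
    have : (q : ℝ) ^ n * ((q : ℝ) ^ n * B ^ 2) ≤ (q : ℝ) ^ n *
        (v * (v + ((q : ℝ) - 1) * ∑ j ∈ range n, (q : ℝ) ^ j * A (2 * j + 1))) := by
      calc _ = (q : ℝ) ^ n * B * ((q : ℝ) ^ n * B) := by ring
        _ ≤ _ := hCS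
        _ = _ := by ring
    exact le_of_mul_le_mul_left this hqn
  have h3 : ((q : ℝ) + 2) ^ 2 * v ^ 2 * ((n : ℝ) + 1) ^ 2 ≥ (q : ℝ) ^ n * B ^ 2 := by
    refine le_trans h2 ?_
    have h4 := hsumA n
    have h5 : q * (s + 1) * v * ((n : ℝ) * (n + 1)) / s = s * (s + 1) * v * ((n : ℝ) * (n + 1)) := by
      rw [← hs2]; field_simp
    rw [h5] at h4
    have hn0 : (0 : ℝ) ≤ n := Nat.cast_nonneg n
    have h6 : v * (v + ((q : ℝ) - 1) * ∑ j ∈ range n, (q : ℝ) ^ j * A (2 * j + 1)) ≤
        v * (v + s * (s + 1) * v * ((n : ℝ) * (n + 1))) :=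
      mul_le_mul_of_nonneg_left (by linarith) hv0
    refine h6.trans ?_
    have h7 : v * (v + s * (s + 1) * v * ((n : ℝ) * (n + 1))) =
        v ^ 2 * (1 + s * (s + 1) * ((n : ℝ) * (n + 1))) := by ring
    rw [h7]
    have h8 : 1 + s * (s + 1) * ((n : ℝ) * (n + 1)) ≤ ((q : ℝ) + 2) ^ 2 * ((n : ℝ) + 1) ^ 2 := by
      have h9 : s * (s + 1) ≤ (q : ℝ) + s := by nlinarith
      have h10 : (n : ℝ) * (n + 1) ≤ ((n : ℝ) + 1) ^ 2 := by nlinarith
      have h11 : (1 : ℝ) ≤ ((n : ℝ) + 1) ^ 2 := by nlinarith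
      have h12 : s * (s + 1) * ((n : ℝ) * (n + 1)) ≤ ((q : ℝ) + s) * ((n : ℝ) + 1) ^ 2 := by
        apply mul_le_mul h9 h10 (by positivity) (by positivity)
      have h13 : 1 + ((q : ℝ) + s) ≤ ((q : ℝ) + 2) ^ 2 := by nlinarith
      nlinarith
    calc _ ≤ v ^ 2 * (((q : ℝ) + 2) ^ 2 * ((n : ℝ) + 1) ^ 2) :=
          mul_le_mul_of_nonneg_left h8 (by positivity)
      _ = _ := by ring
  -- square root
  have h14 : (|B| * s ^ n) ^ 2 ≤ (((q : ℝ) + 2) * v * ((n : ℝ) + 1)) ^ 2 := by
    have h15 : (|B| * s ^ n) ^ 2 = (q : ℝ) ^ n * B ^ 2 := by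
      rw [mul_pow, sq_abs, ← pow_mul, mul_comm n 2, pow_mul, hs2]
      ring
    rw [h15]
    calc _ ≤ ((q : ℝ) + 2) ^ 2 * v ^ 2 * ((n : ℝ) + 1) ^ 2 := h3
      _ = _ := by ring
  exact (abs_le_of_sq_le_sq' h14 (by positivity)).2

end Directed

open MeasureTheory in
/-- The directed bound for bounded real fields on a probability space (integral form). -/
theorem directed_bound_integral [G.LocallyFinite] {q : ℕ} (hT : G.IsTree)
    (hreg : G.IsRegularOfDegree (q + 1)) (hq : 2 ≤ q) {Ω : Type*} [MeasurableSpace Ω]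
    (P : Measure Ω) [IsProbabilityMeasure P] (Z : V → V → Ω → ℝ) (hm : ∀ a b, Measurable (Z a b))
    {B : ℝ} (hb : ∀ a b ω, |Z a b ω| ≤ B)
    (hinv : ∀ (g : G ≃g G) (a b c d : V),
      ∫ ω, Z (g a) (g b) ω * Z (g c) (g d) ω ∂P = ∫ ω, Z a b ω * Z c d ω ∂P)
    {R : ℕ} (hfr : ∀ a b c d, G.Adj a b → G.Adj c d → R < G.dist a c → ∫ ω, Z a b ω * Z c d ω ∂P = 0)
    {n : ℕ} {p : ℕ → V} (hp : NB G (n + 1) p) :
    |∫ ω, Z (p 1) (p 0) ω * Z (p (n + 1)) (p n) ω ∂P| * (Real.sqrt q) ^ n ≤
      (q + 2) * (∫ ω, Z (p 1) (p 0) ω ^ 2 ∂P) * (n + 1) := by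
  have hmem : ∀ a b, MemLp (Z a b) 2 P := fun a b =>
    MemLp.of_bound (hm a b).aestronglyMeasurable B
      (Filter.Eventually.of_forall fun ω => by simpa using hb a b ω)
  let ZL : V → V → Lp ℝ 2 P := fun a b => (hmem a b).toLp _
  have hinner : ∀ a b c d, ⟪ZL a b, ZL c d⟫ = ∫ ω, Z a b ω * Z c d ω ∂P := by
    intro a b c d
    rw [L2.inner_def]
    apply integral_congr_ae
    filter_upwards [(hmem a b).coeFn_toLp, (hmem c d).coeFn_toLp] with ω h1 h2
    simp only [ZL, h1, h2]
    simp [mul_comm]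
  have hinvL : Invariant G ZL := by
    intro φ a b x y _ _
    rw [hinner, hinner]
    exact hinv φ a b x y
  have hN : ∀ m, R ≤ m → ∀ r, NB G (m + 1) r → ⟪ZL (r 0) (r 1), ZL (r (m + 1)) (r m)⟫ = 0 := by
    intro m hm' r hr
    rw [hinner]
    refine hfr _ _ _ _ (hr.1 0 (by omega)) (hr.1 m (by omega)).symm ?_
    rw [NB.dist hT hr (m + 1) le_rfl]
    omega
  have := directed_bound hT hreg hq hinvL hN hp
  rw [hinner, hinner] at this
  simpa [sq] using this

end Crest.Agent.IsingFactor.Haagerup
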