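import Crest.Agent.IsingFactor.MergeDefs
import Crest.Agent.SRFactor.Gauss

/-!
# IsingFactor.MergeConvex (WP IF-MergeConvex): the convex order under merging; see `MergeDefs`.
Statements may be ADDED; do not change the ones below without posting on chat (topic S0241), other packages use them.
-/

set_option autoImplicit false

open MeasureTheory ProbabilityTheory
open scoped ENNReal

namespace Crest.Agent.IsingFactor

theorem cxLE_refl (μ : Measure ℝ) : cxLE μ μ := fun _ _ _ _ => le_rfl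

theorem cxLE_trans {μ μ' μ'' : Measure ℝ} (h : cxLE μ μ') (h' : cxLE μ' μ'') : cxLE μ μ'' :=
  fun g h1 h2 h3 => (h g h1 h2 h3).trans (h' g h1 h2 h3)

/-- Perspective convexity: the real-variable core. -/
theorem convex_perspective_mrg {g : ℝ → ℝ} (hg : ConvexOn ℝ (Set.Icc (-1) 1) g) {b : ℝ} (hb : |b| < 1) :
    ConvexOn ℝ (Set.Icc (-1) 1) (fun a => (1 + a * b) * g (mrg a b)) := by
  refine ⟨convex_Icc _ _, ?_⟩
  intro x hx y hy s t hs ht hst
  have hx' : |x| ≤ 1 := abs_le.2 hx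
  have hy' : |y| ≤ 1 := abs_le.2 hy
  have hz : s • x + t • y ∈ Set.Icc (-1 : ℝ) 1 := (convex_Icc _ _) hx hy hs ht hst
  simp only [smul_eq_mul] at hz ⊢
  have wx := one_add_mul_pos hx' hb
  have wy := one_add_mul_pos hy' hb
  have wz := one_add_mul_pos (abs_le.2 hz) hb
  set z := s * x + t * y with hzdef
  have hw : 1 + z * b = s * (1 + x * b) + t * (1 + y * b) := by
    have : s = 1 - t := by linarith
    subst this
    simp only [hzdef]
    ring
  set u := s * (1 + x * b) / (1 + z * b) with hu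
  set v := t * (1 + y * b) / (1 + z * b) with hv
  have hu0 : 0 ≤ u := div_nonneg (mul_nonneg hs wx.le) wz.le
  have hv0 : 0 ≤ v := div_nonneg (mul_nonneg ht wy.le) wz.le
  have huv : u + v = 1 := by
    rw [hu, hv, ← add_div, ← hw, div_self wz.ne']
  have hmx : mrg x b ∈ Set.Icc (-1 : ℝ) 1 := abs_le.1 (abs_mrg_le_one hx' hb)
  have hmy : mrg y b ∈ Set.Icc (-1 : ℝ) 1 := abs_le.1 (abs_mrg_le_one hy' hb)
  have hmz : mrg z b = u * mrg x b + v * mrg y b := by
    have e1 : u * mrg x b = s * (x + b) / (1 + z * b) := by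
      simp only [hu, mrg]
      field_simp
    have e2 : v * mrg y b = t * (y + b) / (1 + z * b) := by
      simp only [hv, mrg]
      field_simp
    rw [e1, e2, ← add_div]
    simp only [mrg]
    congr 1
    have : s = 1 - t := by linarith
    subst this
    simp only [hzdef]
    ring
  have hconv := hg.2 hmx hmy hu0 hv0 huv
  simp only [smul_eq_mul] at hconv
  rw [← hmz] at hconv
  calc (1 + z * b) * g (mrg z b)
      ≤ (1 + z * b) * (u * g (mrg x b) + v * g (mrg y b)) :=
        mul_le_mul_of_nonneg_left hconv wz.le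
    _ = s * ((1 + x * b) * g (mrg x b)) + t * ((1 + y * b) * g (mrg y b)) := by
        simp only [hu, hv]
        field_simp

/-! ### Auxiliary integration lemmas -/

namespace CxAux

section aux

lemma measurable_mrg_uncurry : Measurable (fun p : ℝ × ℝ => mrg p.1 p.2) := by
  unfold mrg
  fun_prop

lemma measurable_mrg_left (b : ℝ) : Measurable (fun a : ℝ => mrg a b) :=
  measurable_mrg_uncurry.comp (measurable_id.prodMk measurable_const)

lemma measurable_mrg_right (a : ℝ) : Measurable (fun b : ℝ => mrg a b) :=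
  measurable_mrg_uncurry.comp (measurable_const.prodMk measurable_id)

lemma exists_bound_of_cont {g : ℝ → ℝ} (hg : Continuous g) :
    ∃ C, 0 ≤ C ∧ ∀ x, |x| ≤ 1 → |g x| ≤ C := by
  obtain ⟨C, hC⟩ := (isCompact_Icc (a := (-1 : ℝ)) (b := 1)).exists_bound_of_continuousOn
    hg.continuousOn
  refine ⟨max C 0, le_max_right _ _, fun x hx => ?_⟩
  have := hC x (abs_le.1 hx)
  rw [Real.norm_eq_abs] at this
  exact this.trans (le_max_left _ _)

/-- The integrand of the merge. -/
noncomputable def Fg (g : ℝ → ℝ) (a b : ℝ) : ℝ := g (mrg a b) * (1 + a * b)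

lemma Fg_comm (g : ℝ → ℝ) (a b : ℝ) : Fg g a b = Fg g b a := by
  simp only [Fg, mrg_comm a b, mul_comm a b]

lemma measurable_Fg {g : ℝ → ℝ} (hg : Continuous g) :
    Measurable (fun p : ℝ × ℝ => Fg g p.1 p.2) := by
  unfold Fg
  refine (hg.measurable.comp measurable_mrg_uncurry).mul ?_
  fun_prop

lemma abs_Fg_le {g : ℝ → ℝ} {C : ℝ} (hC : ∀ x, |x| ≤ 1 → |g x| ≤ C) {a b : ℝ} (ha : |a| ≤ 1)
    (hb : |b| < 1) : |Fg g a b| ≤ C * 2 := by
  unfold Fg
  rw [abs_mul]
  have h1 := hC _ (abs_mrg_le_one ha hb)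
  have h2 : |1 + a * b| ≤ 2 := by
    have : |a * b| ≤ 1 := by
      rw [abs_mul]
      nlinarith [abs_nonneg a, abs_nonneg b]
    calc |1 + a * b| ≤ |1| + |a * b| := abs_add_le _ _
      _ ≤ 2 := by rw [abs_one]; linarith
  exact mul_le_mul h1 h2 (abs_nonneg _) ((abs_nonneg _).trans h1)

lemma ae_prod_lt {μ₁ μ₂ : Measure ℝ} [SFinite μ₁] [SFinite μ₂] (h₁ : ∀ᵐ a ∂μ₁, |a| < 1)
    (h₂ : ∀ᵐ b ∂μ₂, |b| < 1) : ∀ᵐ p ∂μ₁.prod μ₂, |p.1| < 1 ∧ |p.2| < 1 := by
  filter_upwards [Measure.quasiMeasurePreserving_fst.ae h₁,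
    Measure.quasiMeasurePreserving_snd.ae h₂] with p h1 h2
  exact ⟨h1, h2⟩

lemma integrable_Fg {g : ℝ → ℝ} (hg : Continuous g) {μ₁ μ₂ : Measure ℝ} (h₁ : SymL μ₁) (h₂ : SymL μ₂) :
    Integrable (fun p : ℝ × ℝ => Fg g p.1 p.2) (μ₁.prod μ₂) := by
  have := h₁.prob
  have := h₂.prob
  obtain ⟨C, _, hC⟩ := exists_bound_of_cont hg
  refine Integrable.of_bound (measurable_Fg hg).aestronglyMeasurable (C * 2) ?_
  filter_upwards [ae_prod_lt h₁.lt_one h₂.lt_one] with p hp
  rw [Real.norm_eq_abs]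
  exact abs_Fg_le hC hp.1.le hp.2

lemma integrable_Fg_neg {g : ℝ → ℝ} (hg : Continuous g) {μ₁ μ₂ : Measure ℝ} (h₁ : SymL μ₁)
    (h₂ : SymL μ₂) :
    Integrable (fun p : ℝ × ℝ => Fg g p.1 (-p.2)) (μ₁.prod μ₂) := by
  have := h₁.prob
  have := h₂.prob
  obtain ⟨C, _, hC⟩ := exists_bound_of_cont hg
  refine Integrable.of_bound ?_ (C * 2) ?_
  · exact ((measurable_Fg hg).comp (measurable_fst.prodMk measurable_snd.neg)).aestronglyMeasurable
  · filter_upwards [ae_prod_lt h₁.lt_one h₂.lt_one] with p hp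
    rw [Real.norm_eq_abs]
    exact abs_Fg_le hC hp.1.le (by rw [abs_neg]; exact hp.2)

lemma integral_even {μ : Measure ℝ} (h : SymL μ) {G : ℝ → ℝ} (hG : Measurable G) :
    ∫ b, G b ∂μ = ∫ b, G (-b) ∂μ := by
  conv_lhs => rw [← h.even]
  exact integral_map measurable_neg.aemeasurable hG.aestronglyMeasurable

/-- The merge integral as a double integral. -/
lemma integral_mergeL_Fg {g : ℝ → ℝ} (hg : Continuous g) {μ₁ μ₂ : Measure ℝ} (h₁ : SymL μ₁)
    (h₂ : SymL μ₂) : ∫ x, g x ∂mergeL μ₁ μ₂ = ∫ a, ∫ b, Fg g a b ∂μ₂ ∂μ₁ := by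
  obtain ⟨C, _, hC⟩ := exists_bound_of_cont hg
  exact integral_mergeL h₁ h₂ hg.measurable ⟨C, hC⟩

/-- Merge integrals are symmetric. -/
lemma integral_mergeL_comm {g : ℝ → ℝ} (hg : Continuous g) {μ₁ μ₂ : Measure ℝ} (h₁ : SymL μ₁)
    (h₂ : SymL μ₂) : ∫ x, g x ∂mergeL μ₁ μ₂ = ∫ x, g x ∂mergeL μ₂ μ₁ := by
  have := h₁.prob
  have := h₂.prob
  rw [integral_mergeL_Fg hg h₁ h₂, integral_mergeL_Fg hg h₂ h₁,
    integral_integral_swap (f := fun a b => Fg g a b) (integrable_Fg hg h₁ h₂)]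
  simp_rw [Fg_comm g]

/-- Symmetrisation in the second variable, after exchanging the order. -/
lemma integral_mergeL_sym {g : ℝ → ℝ} (hg : Continuous g) {μ₁ μ₂ : Measure ℝ} (h₁ : SymL μ₁)
    (h₂ : SymL μ₂) :
    ∫ x, g x ∂mergeL μ₁ μ₂ = ∫ b, ∫ a, (Fg g a b + Fg g a (-b)) / 2 ∂μ₁ ∂μ₂ := by
  have := h₁.prob
  have := h₂.prob
  have hI := integrable_Fg hg h₁ h₂
  have hI' := integrable_Fg_neg hg h₁ h₂
  have hI2 : Integrable (fun p : ℝ × ℝ => (Fg g p.1 p.2 + Fg g p.1 (-p.2)) / 2) (μ₁.prod μ₂) :=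
    (hI.add hI').div_const 2
  rw [integral_mergeL_Fg hg h₁ h₂]
  rw [← integral_integral_swap (f := fun a b => (Fg g a b + Fg g a (-b)) / 2) hI2]
  refine integral_congr_ae ?_
  have hae := hI.prod_right_ae
  have hae' := hI'.prod_right_ae
  filter_upwards [hae, hae'] with a ha ha'
  have hm : Measurable (fun b : ℝ => Fg g a b) :=
    (measurable_Fg hg).comp (measurable_const.prodMk measurable_id)
  have he : ∫ b, Fg g a b ∂μ₂ = ∫ b, Fg g a (-b) ∂μ₂ := integral_even h₂ hm
  rw [integral_div, integral_add ha ha', ← he]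
  ring

end aux

/-! ### Test functions on `[-1,1]` -/

section test

/-- The clamp to `[-1,1]`. -/
noncomputable def clampU (a : ℝ) : ℝ := max (-1) (min a 1)

lemma continuous_clampU : Continuous clampU := by
  unfold clampU
  fun_prop

lemma clampU_mem (a : ℝ) : clampU a ∈ Set.Icc (-1 : ℝ) 1 := by
  unfold clampU
  constructor
  · exact le_max_left _ _
  · exact max_le (by norm_num) (min_le_right _ _)

lemma clampU_of_mem {a : ℝ} (h : a ∈ Set.Icc (-1 : ℝ) 1) : clampU a = a := by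
  unfold clampU
  rw [min_eq_left h.2, max_eq_right h.1]

lemma clampU_neg (a : ℝ) : clampU (-a) = - clampU a := by
  unfold clampU
  rcases le_total a 1 with h | h
  · rcases le_total (-1) a with h' | h'
    · rw [min_eq_left h, max_eq_right h', min_eq_left (by linarith), max_eq_right (by linarith)]
    · rw [min_eq_left h, max_eq_left h', min_eq_right (by linarith), max_eq_right (by linarith)]
      norm_num
  · rw [min_eq_right h, min_eq_left (by linarith), max_eq_left (by linarith),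
      max_eq_right (by norm_num)]

/-- The convex order tested on functions only defined on `[-1,1]`. -/
lemma cxLE_test {μ μ' : Measure ℝ} (h : cxLE μ μ') (hμ : SymL μ) (hμ' : SymL μ') {ψ : ℝ → ℝ}
    (hc : ContinuousOn ψ (Set.Icc (-1) 1)) (he : ∀ a ∈ Set.Icc (-1 : ℝ) 1, ψ (-a) = ψ a)
    (hcv : ConvexOn ℝ (Set.Icc (-1) 1) ψ) : ∫ a, ψ a ∂μ ≤ ∫ a, ψ a ∂μ' := by
  have key := h (fun a => ψ (clampU a)) (hc.comp_continuous continuous_clampU clampU_mem)
    (fun a => by
      simp only [clampU_neg]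
      exact he _ (clampU_mem a))
    (by
      refine ⟨hcv.1, fun x hx y hy s t hs ht hst => ?_⟩
      have hm := hcv.1 hx hy hs ht hst
      simp only [clampU_of_mem hx, clampU_of_mem hy, clampU_of_mem hm]
      exact hcv.2 hx hy hs ht hst)
  have h1 : ∀ {ν : Measure ℝ}, SymL ν → ∫ a, ψ (clampU a) ∂ν = ∫ a, ψ a ∂ν := by
    intro ν hν
    refine integral_congr_ae ?_
    filter_upwards [hν.lt_one] with a ha
    rw [clampU_of_mem (abs_le.1 ha.le)]
  rwa [h1 hμ, h1 hμ'] at key

/-- An even convex function is monotone in the absolute value. -/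
lemma even_convex_mono {g : ℝ → ℝ} (he : ∀ a, g (-a) = g a) (hg : ConvexOn ℝ (Set.Icc (-1) 1) g)
    {x y : ℝ} (hxy : |x| ≤ |y|) (hy : |y| ≤ 1) : g x ≤ g y := by
  rcases eq_or_ne y 0 with rfl | hy0
  · rw [abs_zero] at hxy
    have : x = 0 := abs_nonpos_iff.1 hxy
    rw [this]
  have hypos : 0 < |y| := abs_pos.2 hy0
  have hr : |x / y| ≤ 1 := by
    rw [abs_div]
    exact (div_le_one hypos).2 hxy
  obtain ⟨hr1, hr2⟩ := abs_le.1 hr
  have hym := abs_le.1 hy
  have hconv := hg.2 (show y ∈ Set.Icc (-1 : ℝ) 1 from hym)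
    (show -y ∈ Set.Icc (-1 : ℝ) 1 from by constructor <;> linarith [hym.1, hym.2])
    (show 0 ≤ (1 + x / y) / 2 by linarith) (show 0 ≤ (1 - x / y) / 2 by linarith) (by ring)
  simp only [smul_eq_mul, he y] at hconv
  have hpt : (1 + x / y) / 2 * y + (1 - x / y) / 2 * -y = x := by
    field_simp
    ring
  rw [hpt] at hconv
  calc g x ≤ (1 + x / y) / 2 * g y + (1 - x / y) / 2 * g y := hconv
    _ = g y := by ring

end test

end CxAux

open CxAux

/-! ### The merge -/

section merge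

lemma continuousOn_persp {g : ℝ → ℝ} (hg : Continuous g) {b : ℝ} (hb : |b| < 1) :
    ContinuousOn (fun a => (1 + a * b) * g (mrg a b)) (Set.Icc (-1) 1) := by
  refine ContinuousOn.mul (by fun_prop) (hg.comp_continuousOn ?_)
  unfold mrg
  refine ContinuousOn.div (by fun_prop) (by fun_prop) (fun a ha => ?_)
  exact (one_add_mul_pos (abs_le.2 ha) hb).ne'

/-- For fixed `b` the symmetrised integrand is an admissible test function. -/
lemma cxLE_Fg_sym {g : ℝ → ℝ} (hg : Continuous g) (he : ∀ a, g (-a) = g a)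
    (hcv : ConvexOn ℝ (Set.Icc (-1) 1) g) {μ μ' : Measure ℝ} (h : cxLE μ μ') (hμ : SymL μ)
    (hμ' : SymL μ') {b : ℝ} (hb : |b| < 1) :
    ∫ a, (Fg g a b + Fg g a (-b)) / 2 ∂μ ≤ ∫ a, (Fg g a b + Fg g a (-b)) / 2 ∂μ' := by
  have hb' : |(-b)| < 1 := by rwa [abs_neg]
  have hform : ∀ a, (Fg g a b + Fg g a (-b)) / 2 =
      (1 / 2 : ℝ) * ((1 + a * b) * g (mrg a b)) + (1 / 2 : ℝ) * ((1 + a * -b) * g (mrg a (-b))) := by
    intro a
    simp only [Fg]
    ring
  simp_rw [hform]
  refine cxLE_test h hμ hμ' ?_ ?_ ?_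
  · exact (continuousOn_const.mul (continuousOn_persp hg hb)).add
      (continuousOn_const.mul (continuousOn_persp hg hb'))
  · intro a _
    have h1 : mrg (-a) b = - mrg a (-b) := by
      have := mrg_neg a (-b)
      rwa [neg_neg] at this
    have h2 : mrg (-a) (-b) = - mrg a b := mrg_neg a b
    simp only [h1, h2, he]
    ring
  · have c1 := (convex_perspective_mrg hcv hb).smul (c := (1 / 2 : ℝ)) (by norm_num)
    have c2 := (convex_perspective_mrg hcv hb').smul (c := (1 / 2 : ℝ)) (by norm_num)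
    refine (c1.add c2).congr (fun a _ => ?_)
    simp only [Pi.add_apply, smul_eq_mul]

/-- Monotonicity in the first argument of the merge. -/
lemma cxLE_mergeL_first {μ₁ μ₁' μ₂ : Measure ℝ} (h₁ : SymL μ₁) (h₁' : SymL μ₁') (h₂ : SymL μ₂)
    (h : cxLE μ₁ μ₁') : cxLE (mergeL μ₁ μ₂) (mergeL μ₁' μ₂) := by
  intro g hg he hcv
  have := h₁.prob
  have := h₁'.prob
  have := h₂.prob
  rw [integral_mergeL_sym hg h₁ h₂, integral_mergeL_sym hg h₁' h₂]
  have hI : ∀ {ν : Measure ℝ}, SymL ν → Integrable (fun b : ℝ => ∫ a, (Fg g a b + Fg g a (-b)) / 2 ∂ν) μ₂ := by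
    intro ν hν
    have := hν.prob
    have hP := ((integrable_Fg hg hν h₂).add (integrable_Fg_neg hg hν h₂)).div_const 2
    exact hP.integral_prod_right
  refine integral_mono_ae (hI h₁) (hI h₁') ?_
  filter_upwards [h₂.lt_one] with b hb
  exact cxLE_Fg_sym hg he hcv h h₁ h₁' hb

theorem cxLE_mergeL {μ₁ μ₁' μ₂ μ₂' : Measure ℝ} (h₁ : SymL μ₁) (h₁' : SymL μ₁') (h₂ : SymL μ₂)
    (h₂' : SymL μ₂') (h : cxLE μ₁ μ₁') (h' : cxLE μ₂ μ₂') : cxLE (mergeL μ₁ μ₂) (mergeL μ₁' μ₂') := by
  refine cxLE_trans (cxLE_mergeL_first h₁ h₁' h₂ h) ?_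
  intro g hg he hcv
  rw [integral_mergeL_comm hg h₁' h₂, integral_mergeL_comm hg h₁' h₂']
  exact cxLE_mergeL_first h₂ h₂' h₁' h' g hg he hcv

/-- Merging adds information. -/
theorem cxLE_mergeL_left {μ₁ μ₂ : Measure ℝ} (h₁ : SymL μ₁) (h₂ : SymL μ₂) :
    cxLE μ₁ (mergeL μ₁ μ₂) := by
  intro g hg he hcv
  have := h₁.prob
  have := h₂.prob
  rw [integral_mergeL_Fg hg h₁ h₂]
  obtain ⟨C, _, hC⟩ := exists_bound_of_cont hg
  have hI := integrable_Fg hg h₁ h₂
  have hIg : Integrable g μ₁ := by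
    refine Integrable.of_bound hg.measurable.aestronglyMeasurable C ?_
    filter_upwards [h₁.lt_one] with a ha
    rw [Real.norm_eq_abs]
    exact hC a ha.le
  refine integral_mono_ae hIg hI.integral_prod_left ?_
  filter_upwards [h₁.lt_one, hI.prod_right_ae,
    (integrable_Fg_neg hg h₁ h₂).prod_right_ae] with a ha hi hi'
  have hm : Measurable (fun b : ℝ => Fg g a b) :=
    (measurable_Fg hg).comp (measurable_const.prodMk measurable_id)
  have he' : ∫ b, Fg g a b ∂μ₂ = ∫ b, Fg g a (-b) ∂μ₂ := integral_even h₂ hm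
  have hsplit : ∫ b, Fg g a b ∂μ₂ = ∫ b, (Fg g a b + Fg g a (-b)) / 2 ∂μ₂ := by
    rw [integral_div, integral_add hi hi', ← he']
    ring
  rw [hsplit]
  have hconst : g a = ∫ _b, g a ∂μ₂ := by simp
  rw [hconst]
  refine integral_mono_ae (integrable_const _) ((hi.add hi').div_const 2) ?_
  filter_upwards [h₂.lt_one] with b hb
  -- convexity in `b`
  have hP := convex_perspective_mrg hcv ha
  have hbm : b ∈ Set.Icc (-1 : ℝ) 1 := abs_le.1 hb.le
  have hbm' : -b ∈ Set.Icc (-1 : ℝ) 1 := ⟨by linarith [hbm.2], by linarith [hbm.1]⟩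
  have hc := hP.2 hbm hbm' (show (0 : ℝ) ≤ 1 / 2 by norm_num) (show (0 : ℝ) ≤ 1 / 2 by norm_num)
    (by norm_num)
  simp only [smul_eq_mul] at hc
  have hzero : (1 / 2 : ℝ) * b + (1 / 2) * -b = 0 := by ring
  rw [hzero] at hc
  have hm0 : mrg 0 a = a := by simp [mrg]
  simp only [zero_mul, add_zero, one_mul, hm0] at hc
  simp only [Fg, mrg_comm a b, mrg_comm a (-b)]
  have e1 : a * b = b * a := mul_comm _ _
  have e2 : a * -b = -b * a := mul_comm _ _
  rw [e1, e2]
  linarith

theorem cxLE_scaleL {θ θ' : ℝ} (h0 : 0 ≤ θ) (hθ : θ ≤ θ') (h1 : θ' ≤ 1) {μ μ' : Measure ℝ}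
    (hμ : SymL μ) (hμ' : SymL μ') (h : cxLE μ μ') : cxLE (scaleL θ μ) (scaleL θ' μ') := by
  intro g hg he hcv
  have := hμ'.prob
  rw [integral_scaleL hg.measurable, integral_scaleL hg.measurable]
  have hθ1 : θ ≤ 1 := hθ.trans h1
  have hmul : ∀ {c x : ℝ}, 0 ≤ c → c ≤ 1 → x ∈ Set.Icc (-1 : ℝ) 1 → c * x ∈ Set.Icc (-1 : ℝ) 1 := by
    intro c x hc0 hc1 hx
    constructor <;> nlinarith [hx.1, hx.2]
  have step1 : ∫ a, g (θ * a) ∂μ ≤ ∫ a, g (θ * a) ∂μ' := by
    refine cxLE_test h hμ hμ' ?_ ?_ ?_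
    · exact hg.continuousOn.comp (by fun_prop) (fun x _ => Set.mem_univ _) |>.mono (Set.subset_univ _)
    · intro a _
      rw [mul_neg, he]
    · refine ⟨convex_Icc _ _, fun x hx y hy s t hs ht hst => ?_⟩
      have hc := hcv.2 (hmul h0 hθ1 hx) (hmul h0 hθ1 hy) hs ht hst
      simp only [smul_eq_mul] at hc ⊢
      have : θ * (s * x + t * y) = s * (θ * x) + t * (θ * y) := by ring
      rwa [this]
  refine step1.trans ?_
  obtain ⟨C, _, hC⟩ := exists_bound_of_cont hg
  have hI : ∀ c : ℝ, 0 ≤ c → c ≤ 1 → Integrable (fun a => g (c * a)) μ' := by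
    intro c hc0 hc1
    refine Integrable.of_bound (hg.measurable.comp (measurable_const.mul measurable_id)).aestronglyMeasurable C ?_
    filter_upwards [hμ'.lt_one] with a ha
    rw [Real.norm_eq_abs]
    exact hC _ (abs_le.2 (hmul hc0 hc1 (abs_le.1 ha.le)))
  refine integral_mono_ae (hI θ h0 hθ1) (hI θ' (h0.trans hθ) h1) ?_
  filter_upwards [hμ'.lt_one] with a ha
  refine even_convex_mono he hcv ?_ (abs_le.2 (hmul (h0.trans hθ) h1 (abs_le.1 ha.le)))
  rw [abs_mul, abs_mul, abs_of_nonneg h0, abs_of_nonneg (h0.trans hθ)]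
  exact mul_le_mul_of_nonneg_right hθ (abs_nonneg _)

end merge

/-! ### Fields add -/

namespace CxAux

section fields

lemma continuous_tanh_aux : Continuous Real.tanh := by
  have h : Real.tanh = fun x => Real.sinh x / Real.cosh x := funext Real.tanh_eq_sinh_div_cosh
  rw [h]
  exact Real.continuous_sinh.div Real.continuous_cosh (fun x => (Real.cosh_pos x).ne')

lemma measurable_tanh_aux : Measurable Real.tanh := continuous_tanh_aux.measurable

/-- The law of `A₀(t)` as a cosh-tilted image of a standard Gaussian, for lower integrals. -/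
lemma lintegral_A0 {t : ℝ} (ht : 0 ≤ t) {f : ℝ → ℝ≥0∞} (hf : Measurable f) :
    ∫⁻ x, f x ∂A0 t = ENNReal.ofReal (Real.exp (-(t / 8))) *
      ∫⁻ y, f (Real.tanh (Real.sqrt t / 2 * y)) * ENNReal.ofReal (Real.cosh (Real.sqrt t / 2 * y))
        ∂gaussianReal 0 1 := by
  set a := Real.sqrt t / 2 with ha
  have ha2 : a ^ 2 = t / 4 := by
    rw [ha, div_pow, Real.sq_sqrt ht]
    norm_num
  have hs : Real.sqrt t = 2 * a := by rw [ha]; ring
  have hmt : Measurable (fun y : ℝ => f (Real.tanh (a * y))) := by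
    refine hf.comp ?_
    exact measurable_tanh_aux.comp (measurable_const.mul measurable_id)
  -- Cameron-Martin for each branch
  have hshift : ∀ c : ℝ, ∫⁻ g, f (Real.tanh (a * (g + c))) ∂gaussianReal 0 1 =
      ∫⁻ y, f (Real.tanh (a * y)) * ENNReal.ofReal (Real.exp (c * y - c ^ 2 / 2)) ∂gaussianReal 0 1 := by
    intro c
    have h1 : (gaussianReal 0 1).map (fun x => x + c) = gaussianReal c 1 := by
      have := gaussianReal_map_add_const (μ := 0) (v := 1) c
      simpa using this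
    have h2 : ∫⁻ g, f (Real.tanh (a * (g + c))) ∂gaussianReal 0 1 =
        ∫⁻ y, f (Real.tanh (a * y)) ∂((gaussianReal 0 1).map (fun x => x + c)) := by
      rw [lintegral_map hmt (by fun_prop)]
    rw [h2, h1, Crest.Agent.SRFactor.gaussianReal_shift_eq_withDensity c,
      lintegral_withDensity_eq_lintegral_mul _ (by fun_prop) hmt]
    refine lintegral_congr (fun y => ?_)
    simp only [Pi.mul_apply]
    rw [mul_comm]
  have hA : ∫⁻ x, f x ∂A0 t = (1 / 2) * ∫⁻ g, f (Real.tanh ((t / 2 + Real.sqrt t * g) / 2)) ∂gaussianReal 0 1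
      + (1 / 2) * ∫⁻ g, f (Real.tanh ((-(t / 2) + Real.sqrt t * g) / 2)) ∂gaussianReal 0 1 := by
    unfold A0
    have m1 : Measurable (fun g : ℝ => Real.tanh ((t / 2 + Real.sqrt t * g) / 2)) :=
      measurable_tanh_aux.comp (by fun_prop)
    have m2 : Measurable (fun g : ℝ => Real.tanh ((-(t / 2) + Real.sqrt t * g) / 2)) :=
      measurable_tanh_aux.comp (by fun_prop)
    rw [lintegral_add_measure, lintegral_smul_measure, lintegral_smul_measure,
      lintegral_map hf m1, lintegral_map hf m2]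
    simp only [smul_eq_mul]
  have hb1 : ∀ g : ℝ, (t / 2 + Real.sqrt t * g) / 2 = a * (g + a) := by
    intro g
    rw [hs]
    nlinarith [ha2]
  have hb2 : ∀ g : ℝ, (-(t / 2) + Real.sqrt t * g) / 2 = a * (g + -a) := by
    intro g
    rw [hs]
    nlinarith [ha2]
  simp_rw [hb1, hb2] at hA
  rw [hA, hshift a, hshift (-a)]
  rw [← lintegral_const_mul' _ _ (by norm_num), ← lintegral_const_mul' _ _ (by norm_num),
    ← lintegral_const_mul' _ _ (by exact ENNReal.ofReal_ne_top),
    ← lintegral_add_left (by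
      refine Measurable.const_mul ?_ _
      exact hmt.mul (by fun_prop))]
  refine lintegral_congr (fun y => ?_)
  have hE : ENNReal.ofReal (Real.exp (-(t / 8))) * (f (Real.tanh (a * y)) * ENNReal.ofReal (Real.cosh (a * y))) =
      f (Real.tanh (a * y)) * (ENNReal.ofReal (Real.exp (-(t / 8))) * ENNReal.ofReal (Real.cosh (a * y))) := by
    ring
  rw [hE, ← ENNReal.ofReal_mul (Real.exp_nonneg _)]
  have hval : Real.exp (-(t / 8)) * Real.cosh (a * y) =
      (1 / 2) * Real.exp (a * y - a ^ 2 / 2) + (1 / 2) * Real.exp (-a * y - (-a) ^ 2 / 2) := by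
    rw [Real.cosh_eq, ha2]
    have e1 : a * y - t / 4 / 2 = a * y + -(t / 8) := by ring
    have e2 : -a * y - (-a) ^ 2 / 2 = -(a * y) + -(t / 8) := by
      have : (-a) ^ 2 = t / 4 := by rw [neg_sq, ha2]
      rw [this]
      ring
    rw [e1, e2, Real.exp_add, Real.exp_add]
    ring
  rw [hval, ENNReal.ofReal_add (by positivity) (by positivity),
    ENNReal.ofReal_mul (by norm_num), ENNReal.ofReal_mul (by norm_num)]
  have h12 : ENNReal.ofReal (1 / 2 : ℝ) = 1 / 2 := by
    rw [ENNReal.ofReal_div_of_pos (by norm_num)]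
    simp
  rw [h12]
  ring

lemma mrg_tanh (u v : ℝ) : mrg (Real.tanh u) (Real.tanh v) = Real.tanh (u + v) := by
  unfold mrg
  rw [Real.tanh_eq_sinh_div_cosh, Real.tanh_eq_sinh_div_cosh, Real.tanh_eq_sinh_div_cosh,
    Real.sinh_add, Real.cosh_add]
  have hu := (Real.cosh_pos u).ne'
  have hv := (Real.cosh_pos v).ne'
  have huv : Real.cosh u * Real.cosh v + Real.sinh u * Real.sinh v ≠ 0 := by
    rw [← Real.cosh_add]
    exact (Real.cosh_pos _).ne'
  have h1 : 1 + Real.sinh u / Real.cosh u * (Real.sinh v / Real.cosh v) ≠ 0 := by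
    have : 1 + Real.sinh u / Real.cosh u * (Real.sinh v / Real.cosh v) =
        (Real.cosh u * Real.cosh v + Real.sinh u * Real.sinh v) / (Real.cosh u * Real.cosh v) := by
      field_simp
    rw [this]
    exact div_ne_zero huv (mul_ne_zero hu hv)
  field_simp

lemma one_add_tanh_mul (u v : ℝ) :
    (1 + Real.tanh u * Real.tanh v) * (Real.cosh u * Real.cosh v) = Real.cosh (u + v) := by
  rw [Real.tanh_eq_sinh_div_cosh, Real.tanh_eq_sinh_div_cosh, Real.cosh_add]
  have hu := (Real.cosh_pos u).ne'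
  have hv := (Real.cosh_pos v).ne'
  field_simp

/-- Lower integral under a merge. -/
lemma lintegral_mergeL {μ₁ μ₂ : Measure ℝ} [SFinite μ₁] [SFinite μ₂] {f : ℝ → ℝ≥0∞} (hf : Measurable f) :
    ∫⁻ x, f x ∂mergeL μ₁ μ₂ =
      ∫⁻ a, ∫⁻ b, f (mrg a b) * ENNReal.ofReal (1 + a * b) ∂μ₂ ∂μ₁ := by
  unfold mergeL
  have hd : Measurable (fun p : ℝ × ℝ => ENNReal.ofReal (1 + p.1 * p.2)) := by fun_prop
  rw [lintegral_map hf measurable_mrg_uncurry]
  have hfm : Measurable (fun p : ℝ × ℝ => f (mrg p.1 p.2)) := hf.comp measurable_mrg_uncurry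
  rw [lintegral_withDensity_eq_lintegral_mul _ hd hfm]
  rw [lintegral_prod _ ((hd.mul hfm).aemeasurable)]
  refine lintegral_congr (fun a => lintegral_congr (fun b => ?_))
  simp only [Pi.mul_apply]
  rw [mul_comm]

/-- Two independent Gaussians combine. -/
lemma gaussian_combine (a b : ℝ) :
    ((gaussianReal 0 1).prod (gaussianReal 0 1)).map (fun p : ℝ × ℝ => a * p.1 + b * p.2) =
      (gaussianReal 0 1).map (fun w => Real.sqrt (a ^ 2 + b ^ 2) * w) := by
  have h1 := gaussianReal_conv_gaussianReal (m₁ := 0) (m₂ := 0)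
    (v₁ := (⟨a ^ 2, sq_nonneg _⟩ : NNReal)) (v₂ := (⟨b ^ 2, sq_nonneg _⟩ : NNReal))
  rw [add_zero] at h1
  have ha : (gaussianReal 0 1).map (a * ·) = gaussianReal 0 ⟨a ^ 2, sq_nonneg _⟩ := by
    rw [gaussianReal_map_const_mul]
    congr 1
    · simp
    · simp; rfl
  have hb : (gaussianReal 0 1).map (b * ·) = gaussianReal 0 ⟨b ^ 2, sq_nonneg _⟩ := by
    rw [gaussianReal_map_const_mul]
    congr 1
    · simp
    · simp; rfl
  have hc : (gaussianReal 0 1).map (fun w => Real.sqrt (a ^ 2 + b ^ 2) * w) =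
      gaussianReal 0 (⟨a ^ 2, sq_nonneg _⟩ + ⟨b ^ 2, sq_nonneg _⟩ : NNReal) := by
    rw [gaussianReal_map_const_mul]
    congr 1
    · simp
    · ext
      simp only [NNReal.coe_mk, mul_one]
      exact Real.sq_sqrt (by positivity)
  rw [hc, ← h1, ← ha, ← hb, Measure.conv,
    Measure.map_prod_map _ _ (f := fun x => a * x) (g := fun x => b * x)
      (by fun_prop) (by fun_prop),
    Measure.map_map (by fun_prop) (by fun_prop)]
  rfl

end fields

end CxAux

open CxAux

section fields2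

/-- Fields add: `A₀(t+s) = A₀(t) ⊞ A₀(s)` (Gaussian convolution; in the form
`∫ f dA₀(t) = e^{-t/8} ∫ f(tanh u) cosh u dN(0,t/4)(u)`). -/
theorem A0_add {t s : ℝ} (ht : 0 ≤ t) (hs : 0 ≤ s) : A0 (t + s) = mergeL (A0 t) (A0 s) := by
  have := (symL_A0 ht).prob
  have := (symL_A0 hs).prob
  refine Measure.ext_of_lintegral _ (fun f hf => ?_)
  set a := Real.sqrt t / 2 with ha
  set b := Real.sqrt s / 2 with hb
  have ha2 : a ^ 2 = t / 4 := by
    rw [ha, div_pow, Real.sq_sqrt ht]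
    norm_num
  have hb2 : b ^ 2 = s / 4 := by
    rw [hb, div_pow, Real.sq_sqrt hs]
    norm_num
  have hc : Real.sqrt (t + s) / 2 = Real.sqrt (a ^ 2 + b ^ 2) := by
    rw [ha2, hb2]
    have : t / 4 + s / 4 = (t + s) / 2 ^ 2 := by ring
    rw [this, Real.sqrt_div (by positivity), Real.sqrt_sq (by norm_num)]
  -- the integrand
  set Ψ : ℝ → ℝ≥0∞ := fun u => f (Real.tanh u) * ENNReal.ofReal (Real.cosh u) with hΨ
  have hΨm : Measurable Ψ := by
    refine Measurable.mul (hf.comp measurable_tanh_aux) ?_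
    exact ENNReal.measurable_ofReal.comp Real.continuous_cosh.measurable
  have hE : ENNReal.ofReal (Real.exp (-((t + s) / 8))) =
      ENNReal.ofReal (Real.exp (-(t / 8))) * ENNReal.ofReal (Real.exp (-(s / 8))) := by
    rw [← ENNReal.ofReal_mul (Real.exp_nonneg _), ← Real.exp_add]
    congr 2
    ring
  rw [lintegral_A0 (add_nonneg ht hs) hf, lintegral_mergeL hf, hc, hE]
  -- left side
  have hL : ∫⁻ y, f (Real.tanh (Real.sqrt (a ^ 2 + b ^ 2) * y)) *
        ENNReal.ofReal (Real.cosh (Real.sqrt (a ^ 2 + b ^ 2) * y)) ∂gaussianReal 0 1 =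
      ∫⁻ y, ∫⁻ z, Ψ (a * y + b * z) ∂gaussianReal 0 1 ∂gaussianReal 0 1 := by
    have h1 : ∫⁻ y, f (Real.tanh (Real.sqrt (a ^ 2 + b ^ 2) * y)) *
        ENNReal.ofReal (Real.cosh (Real.sqrt (a ^ 2 + b ^ 2) * y)) ∂gaussianReal 0 1 =
        ∫⁻ w, Ψ w ∂((gaussianReal 0 1).map (fun w => Real.sqrt (a ^ 2 + b ^ 2) * w)) := by
      rw [lintegral_map hΨm (by fun_prop)]
    rw [h1, ← gaussian_combine a b, lintegral_map hΨm (by fun_prop),
      lintegral_prod _ (by
        exact (hΨm.comp (by fun_prop)).aemeasurable)]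
  rw [hL]
  -- right side: the outer and inner laws
  have hinner : ∀ x : ℝ, ∫⁻ y, f (mrg x y) * ENNReal.ofReal (1 + x * y) ∂A0 s =
      ENNReal.ofReal (Real.exp (-(s / 8))) *
        ∫⁻ z, f (mrg x (Real.tanh (b * z))) * ENNReal.ofReal (1 + x * Real.tanh (b * z)) *
          ENNReal.ofReal (Real.cosh (b * z)) ∂gaussianReal 0 1 := by
    intro x
    have hm : Measurable (fun y : ℝ => f (mrg x y) * ENNReal.ofReal (1 + x * y)) := by
      refine (hf.comp (measurable_mrg_right x)).mul ?_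
      fun_prop
    exact lintegral_A0 hs hm
  simp_rw [hinner]
  have hmeasO : Measurable (fun x : ℝ => ∫⁻ z, f (mrg x (Real.tanh (b * z))) *
      ENNReal.ofReal (1 + x * Real.tanh (b * z)) * ENNReal.ofReal (Real.cosh (b * z)) ∂gaussianReal 0 1) := by
    refine Measurable.lintegral_prod_right' (f := fun p : ℝ × ℝ => f (mrg p.1 (Real.tanh (b * p.2))) *
      ENNReal.ofReal (1 + p.1 * Real.tanh (b * p.2)) * ENNReal.ofReal (Real.cosh (b * p.2))) ?_
    refine Measurable.mul (Measurable.mul ?_ ?_) ?_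
    · have hTT : Measurable (fun p : ℝ × ℝ => (p.1, Real.tanh (b * p.2))) :=
        measurable_fst.prodMk (measurable_tanh_aux.comp (measurable_const.mul measurable_snd))
      exact hf.comp (measurable_mrg_uncurry.comp hTT)
    · refine ENNReal.measurable_ofReal.comp (measurable_const.add (measurable_fst.mul ?_))
      exact measurable_tanh_aux.comp (measurable_const.mul measurable_snd)
    · exact ENNReal.measurable_ofReal.comp
        (Real.continuous_cosh.measurable.comp (measurable_const.mul measurable_snd))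
  rw [lintegral_const_mul _ hmeasO, lintegral_A0 ht hmeasO]
  have hfinal : ∀ y z : ℝ, f (mrg (Real.tanh (a * y)) (Real.tanh (b * z))) *
      ENNReal.ofReal (1 + Real.tanh (a * y) * Real.tanh (b * z)) * ENNReal.ofReal (Real.cosh (b * z)) *
        ENNReal.ofReal (Real.cosh (a * y)) = Ψ (a * y + b * z) := by
    intro y z
    simp only [hΨ]
    rw [mrg_tanh, mul_assoc, mul_assoc, ← one_add_tanh_mul]
    have h1 : 0 ≤ 1 + Real.tanh (a * y) * Real.tanh (b * z) := by
      have hlt := Real.abs_tanh_lt_one (a * y)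
      have hlt' := Real.abs_tanh_lt_one (b * z)
      exact (one_add_mul_pos hlt.le hlt').le
    rw [ENNReal.ofReal_mul h1, ENNReal.ofReal_mul (Real.cosh_pos _).le]
    ring_nf
  have hmeasI : Measurable (fun y : ℝ => ∫⁻ z, f (mrg (Real.tanh (a * y)) (Real.tanh (b * z))) *
      ENNReal.ofReal (1 + Real.tanh (a * y) * Real.tanh (b * z)) * ENNReal.ofReal (Real.cosh (b * z)) ∂gaussianReal 0 1) :=
    hmeasO.comp (measurable_tanh_aux.comp (measurable_const.mul measurable_id))
  calc ENNReal.ofReal (Real.exp (-(t / 8))) * ENNReal.ofReal (Real.exp (-(s / 8))) *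
        ∫⁻ y, ∫⁻ z, Ψ (a * y + b * z) ∂gaussianReal 0 1 ∂gaussianReal 0 1
      = ENNReal.ofReal (Real.exp (-(s / 8))) * (ENNReal.ofReal (Real.exp (-(t / 8))) *
        ∫⁻ y, ∫⁻ z, Ψ (a * y + b * z) ∂gaussianReal 0 1 ∂gaussianReal 0 1) := by ring
    _ = _ := by
        congr 2
        refine lintegral_congr (fun y => ?_)
        have hcosh : Measurable (fun z : ℝ => f (mrg (Real.tanh (a * y)) (Real.tanh (b * z))) *
            ENNReal.ofReal (1 + Real.tanh (a * y) * Real.tanh (b * z)) *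
            ENNReal.ofReal (Real.cosh (b * z))) := by
          have hT : Measurable (fun z : ℝ => Real.tanh (b * z)) :=
            measurable_tanh_aux.comp (measurable_const.mul measurable_id)
          refine Measurable.mul (Measurable.mul ?_ ?_) ?_
          · exact hf.comp ((measurable_mrg_right _).comp hT)
          · exact ENNReal.measurable_ofReal.comp (measurable_const.add (measurable_const.mul hT))
          · exact ENNReal.measurable_ofReal.comp
              (Real.continuous_cosh.measurable.comp (measurable_const.mul measurable_id))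
        rw [← lintegral_mul_const _ hcosh]
        exact (lintegral_congr (fun z => hfinal y z)).symm

theorem cxLE_A0 {t t' : ℝ} (ht : 0 ≤ t) (htt' : t ≤ t') : cxLE (A0 t) (A0 t') := by
  have hs : 0 ≤ t' - t := by linarith
  have h : t' = t + (t' - t) := by ring
  rw [h, A0_add ht hs]
  exact cxLE_mergeL_left (symL_A0 ht) (symL_A0 hs)

end fields2

/-! ### The message laws -/

section rho

theorem cxLE_mergePow {b b' μ μ' : Measure ℝ} (hb : SymL b) (hb' : SymL b') (hμ : SymL μ) (hμ' : SymL μ')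
    (h : cxLE b b') (h' : cxLE μ μ') (j : ℕ) : cxLE (mergePow b μ j) (mergePow b' μ' j) := by
  induction j with
  | zero => exact h
  | succ j ih =>
    exact cxLE_mergeL (symL_mergePow hb hμ j) (symL_mergePow hb' hμ' j) hμ hμ' ih h'

theorem cxLE_mergePow_left {b μ : Measure ℝ} (hb : SymL b) (hμ : SymL μ) (j : ℕ) :
    cxLE b (mergePow b μ j) := by
  induction j with
  | zero => exact cxLE_refl _
  | succ j ih => exact cxLE_trans ih (cxLE_mergeL_left (symL_mergePow hb hμ j) hμ)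

lemma CxAux.goodTheta_abs_le_one {θ : ℝ} (h : GoodTheta θ) : |θ| ≤ 1 := by
  rw [abs_of_nonneg h.nonneg]
  exact h.lt_one.le

/-- Monotone in the parameters at fixed depth. -/
theorem cxLE_rhoL_params {θ θ' t t' : ℝ} (hθ : GoodTheta θ) (hθ' : GoodTheta θ') (hθθ' : θ ≤ θ')
    (ht : 0 ≤ t) (htt' : t ≤ t') (q n : ℕ) : cxLE (rhoL θ t q n) (rhoL θ' t' q n) := by
  have ht' : 0 ≤ t' := ht.trans htt'
  induction n with
  | zero => exact cxLE_A0 ht htt'
  | succ n ih =>
    exact cxLE_mergePow (symL_A0 ht) (symL_A0 ht')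
      (symL_scale (goodTheta_abs_le_one hθ) (symL_rhoL hθ ht q n))
      (symL_scale (goodTheta_abs_le_one hθ') (symL_rhoL hθ' ht' q n))
      (cxLE_A0 ht htt')
      (cxLE_scaleL hθ.nonneg hθθ' hθ'.lt_one.le (symL_rhoL hθ ht q n) (symL_rhoL hθ' ht' q n) ih) q

/-- Monotone in the depth. -/
theorem cxLE_rhoL_succ {θ t : ℝ} (hθ : GoodTheta θ) (ht : 0 ≤ t) (q n : ℕ) :
    cxLE (rhoL θ t q n) (rhoL θ t q (n + 1)) := by
  induction n with
  | zero =>
    exact cxLE_mergePow_left (symL_A0 ht) (symL_scale (goodTheta_abs_le_one hθ) (symL_rhoL hθ ht q 0)) q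
  | succ n ih =>
    exact cxLE_mergePow (symL_A0 ht) (symL_A0 ht)
      (symL_scale (goodTheta_abs_le_one hθ) (symL_rhoL hθ ht q n))
      (symL_scale (goodTheta_abs_le_one hθ) (symL_rhoL hθ ht q (n + 1)))
      (cxLE_refl _)
      (cxLE_scaleL hθ.nonneg le_rfl hθ.lt_one.le (symL_rhoL hθ ht q n) (symL_rhoL hθ ht q (n + 1)) ih) q

/-- The message laws are monotone in the convex order in depth, `θ` and time. -/
theorem cxLE_rhoL {θ θ' t t' : ℝ} (hθ : GoodTheta θ) (hθ' : GoodTheta θ') (hθθ' : θ ≤ θ')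
    (ht : 0 ≤ t) (htt' : t ≤ t') (q : ℕ) {n n' : ℕ} (hn : n ≤ n') :
    cxLE (rhoL θ t q n) (rhoL θ' t' q n') := by
  refine cxLE_trans (cxLE_rhoL_params hθ hθ' hθθ' ht htt' q n) ?_
  induction n', hn using Nat.le_induction with
  | base => exact cxLE_refl _
  | succ m _ ih => exact cxLE_trans ih (cxLE_rhoL_succ hθ' (ht.trans htt') q m)

end rho

end Crest.Agent.IsingFactor
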