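import Crest.Agent.IsingFactor.RealFns

/-!
# IsingFactor.MergeDefs (WP IF-MergeDefs): symmetric laws and merging: definitions and structure.

# IsingFactor.MergeLaw : calculus of symmetric laws under merging (WP: Merge1, Merge2).

A symmetric law `μ` on `(-1,1)` is the law of the (posterior-mean-valued) soft observation of a spin.
`mergeL μ₁ μ₂` is the law of `a ⊕ b` under the weight `(1 + a b) dμ₁(a) dμ₂(b)`: this is how soft
observations of the same spin combine.  The message law satisfies `ρ_{n+1} = A₀ ⊞ (θ ρ_n)^{⊞ q}`.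

KEY INEQUALITIES (all elementary):
* `1 - m₂(μ₁ ⊞ μ₂) = E [(1-A)(1-B)/(1-AB)]`, `A = a²`, `B = b²` (symmetrise `b → -b`), hence
  `α + β - 2αβ ≤ m₂(μ₁ ⊞ μ₂) ≤ α + β - αβ`.
* Perspective convexity: for convex `g` and `|b|<1`, `a ↦ (1 + a b) g (a ⊕ b)` is convex on `[-1,1]`
  (perspective of `g` composed with the affine map `a ↦ (a + b, 1 + a b)`).  So for even convex `g`,
  `g̃_b(a) = ½ ∑_± (1 ± a b) g (a ⊕ ±b)` is even and convex in `a` with `g̃_b(0) = g(b)`.  Hence the
  convex order `cxLE` is preserved by merging, and `μ₂ ≤_cx μ₁ ⊞ μ₂`.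
* Cosh domination: `½ ∑_± (1 ± a b) cosh (λ (a ⊕ ±b)) ≤ ½ ∑_± cosh (λ (a ± b))`.  Proof: wlog `c = ab ≥ 0`.
  With `x₁ = |a ⊕ b| ≥ x₂ = |a ⊕ -b|`: `f(w,x) = cosh(λ w x) - w cosh(λ x)` is increasing in `x ≥ 0` for
  `w ≥ 1`, so `f(1+c,x₁) + f(1-c,x₂) ≥ f(1+c,x₂) + f(1-c,x₂) = cosh(λ(1+c)x₂) + cosh(λ(1-c)x₂)
  - 2 cosh(λ x₂) ≥ 0`.  Consequently `∫cosh(λ x) d(μ₁ ⊞ μ₂) ≤ ∫cosh(λ a) dμ₁ * ∫cosh(λ b) dμ₂`.
* Mass: for `a b ≥ 0`, `|a ⊕ b| ≥ |b|`; weight `≥ 1 - β` when `|b| ≤ β`; evenness of `μ₁` gives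
  `(μ₁ ⊞ μ₂){|x| ≥ κ} ≥ ((1-β)/2) μ₂{|b| ≥ κ}`.
Statements may be ADDED; do not change the ones below without posting on chat (topic S0241), other packages use them.
-/

set_option autoImplicit false

open MeasureTheory ProbabilityTheory
open scoped ENNReal

namespace Crest.Agent.IsingFactor

/-- Symmetric laws on `(-1,1)`. -/
structure SymL (μ : Measure ℝ) : Prop where
  prob : IsProbabilityMeasure μ
  lt_one : ∀ᵐ a ∂μ, |a| < 1
  even : μ.map (fun a => -a) = μ

/-- The merge of two laws. -/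
noncomputable def mergeL (μ₁ μ₂ : Measure ℝ) : Measure ℝ :=
  ((μ₁.prod μ₂).withDensity (fun p => ENNReal.ofReal (1 + p.1 * p.2))).map (fun p => mrg p.1 p.2)

/-- The law of `θ a`. -/
noncomputable def scaleL (θ : ℝ) (μ : Measure ℝ) : Measure ℝ := μ.map (fun a => θ * a)

/-- The law of `tanh (lam / 2)` for a single site at Z-time `t`: `lam = ± t / 2 + √t g`. -/
noncomputable def A0 (t : ℝ) : Measure ℝ :=
  (1 / 2 : ℝ≥0∞) • (gaussianReal 0 1).map (fun g => Real.tanh ((t / 2 + Real.sqrt t * g) / 2))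
    + (1 / 2 : ℝ≥0∞) • (gaussianReal 0 1).map (fun g => Real.tanh ((-(t / 2) + Real.sqrt t * g) / 2))

/-- `b ⊞ μ ⊞ ⋯ ⊞ μ` with `j` copies of `μ`. -/
noncomputable def mergePow (b μ : Measure ℝ) : ℕ → Measure ℝ
  | 0 => b
  | j + 1 => mergeL (mergePow b μ j) μ

/-- The law of the message at the root of the `q`-ary tree of depth `n`. -/
noncomputable def rhoL (θ t : ℝ) (q : ℕ) : ℕ → Measure ℝ
  | 0 => A0 t
  | n + 1 => mergePow (A0 t) (scaleL θ (rhoL θ t q n)) q

/-- The law of the merge of the field and of `q - 1` side branches of depth `m`. -/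
noncomputable def Bl (θ t : ℝ) (q m : ℕ) : Measure ℝ :=
  mergePow (A0 t) (scaleL θ (rhoL θ t q m)) (q - 1)

/-- The Markov kernel along a path: given the incoming message `n` from the next vertex. -/
noncomputable def kerT (θ t : ℝ) (q m : ℕ) (f : ℝ → ℝ) (n : ℝ) : ℝ :=
  ∫ b, (1 + b * (θ * n)) * f (mrg b (θ * n)) ∂Bl θ t q m

/-- Second moment. -/
noncomputable def m2L (μ : Measure ℝ) : ℝ := ∫ a, a ^ 2 ∂μ

/-- `E cosh (lam a)`. -/
noncomputable def coshL (lam : ℝ) (μ : Measure ℝ) : ℝ := ∫ a, Real.cosh (lam * a) ∂μ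

/-- The convex order for even functions. -/
def cxLE (μ μ' : Measure ℝ) : Prop :=
  ∀ g : ℝ → ℝ, Continuous g → (∀ a, g (-a) = g a) → ConvexOn ℝ (Set.Icc (-1) 1) g →
    ∫ a, g a ∂μ ≤ ∫ a, g a ∂μ'

/-! ### Helper lemmas (helper81) -/

theorem continuous_tanh_real : Continuous Real.tanh := by
  have : Real.tanh = fun x => Real.sinh x / Real.cosh x := by
    funext x
    exact Real.tanh_eq_sinh_div_cosh x
  rw [this]
  exact Real.continuous_sinh.div Real.continuous_cosh (fun x => (Real.cosh_pos x).ne')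

theorem measurable_mrg_pair : Measurable (fun p : ℝ × ℝ => mrg p.1 p.2) := by
  unfold mrg
  exact (measurable_fst.add measurable_snd).div
    (measurable_const.add (measurable_fst.mul measurable_snd))

/-- The mean of a symmetric law is zero. -/
theorem SymL.integral_id {μ : Measure ℝ} (h : SymL μ) : ∫ a, a ∂μ = 0 := by
  have h1 : ∫ a, a ∂(μ.map (fun a : ℝ => -a)) = ∫ a, -a ∂μ :=
    integral_map measurable_neg.aemeasurable measurable_id.aestronglyMeasurable
  rw [h.even, integral_neg] at h1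
  linarith

/-- Bounded measurable functions are integrable under a symmetric law. -/
theorem SymL.integrable_of_bound {μ : Measure ℝ} (h : SymL μ) {f : ℝ → ℝ} (hf : Measurable f)
    {C : ℝ} (hC : ∀ x, |x| < 1 → |f x| ≤ C) : Integrable f μ := by
  have := h.prob
  refine Integrable.of_bound hf.aestronglyMeasurable C ?_
  filter_upwards [h.lt_one] with a ha
  simpa [Real.norm_eq_abs] using hC a ha

theorem SymL.integrable_id {μ : Measure ℝ} (h : SymL μ) : Integrable (fun a : ℝ => a) μ :=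
  h.integrable_of_bound measurable_id (C := 1) (fun _ hx => hx.le)

theorem ae_prod_abs_lt {μ₁ μ₂ : Measure ℝ} (h₁ : SymL μ₁) (h₂ : SymL μ₂) :
    ∀ᵐ p ∂(μ₁.prod μ₂), |p.1| < 1 ∧ |p.2| < 1 := by
  have := h₁.prob
  have := h₂.prob
  exact (Measure.quasiMeasurePreserving_fst.ae h₁.lt_one).and
    (Measure.quasiMeasurePreserving_snd.ae h₂.lt_one)

/-- Bounded measurable functions are integrable under a product of symmetric laws. -/
theorem integrable_prod_of_bound {μ₁ μ₂ : Measure ℝ} (h₁ : SymL μ₁) (h₂ : SymL μ₂)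
    {F : ℝ × ℝ → ℝ} (hF : Measurable F) {C : ℝ}
    (hC : ∀ p : ℝ × ℝ, |p.1| < 1 → |p.2| < 1 → |F p| ≤ C) : Integrable F (μ₁.prod μ₂) := by
  have := h₁.prob
  have := h₂.prob
  refine Integrable.of_bound hF.aestronglyMeasurable C ?_
  filter_upwards [ae_prod_abs_lt h₁ h₂] with p hp
  simpa [Real.norm_eq_abs] using hC p hp.1 hp.2

/-- The density of the merge. -/
noncomputable def mergeDens (p : ℝ × ℝ) : ℝ≥0∞ := ENNReal.ofReal (1 + p.1 * p.2)

theorem measurable_mergeDens : Measurable mergeDens :=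
  (measurable_const.add (measurable_fst.mul measurable_snd)).ennreal_ofReal

theorem mergeL_total {μ₁ μ₂ : Measure ℝ} (h₁ : SymL μ₁) (h₂ : SymL μ₂) :
    ((μ₁.prod μ₂).withDensity mergeDens) Set.univ = 1 := by
  have := h₁.prob
  have := h₂.prob
  rw [withDensity_apply _ MeasurableSet.univ, Measure.restrict_univ]
  have hint : Integrable (fun p : ℝ × ℝ => 1 + p.1 * p.2) (μ₁.prod μ₂) :=
    integrable_prod_of_bound h₁ h₂ (C := 2)
      (measurable_const.add (measurable_fst.mul measurable_snd)) (fun p h1 h2 => by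
        have : |p.1 * p.2| ≤ 1 := by
          rw [abs_mul]; nlinarith [abs_nonneg p.1, abs_nonneg p.2]
        calc |1 + p.1 * p.2| ≤ |(1 : ℝ)| + |p.1 * p.2| := abs_add_le _ _
          _ ≤ 2 := by rw [abs_one]; linarith)
  have hnn : 0 ≤ᵐ[μ₁.prod μ₂] (fun p : ℝ × ℝ => 1 + p.1 * p.2) := by
    filter_upwards [ae_prod_abs_lt h₁ h₂] with p hp
    exact (one_add_mul_pos hp.1.le hp.2).le
  have := ofReal_integral_eq_lintegral_ofReal hint hnn
  unfold mergeDens
  rw [← this]
  have h3 : ∫ p : ℝ × ℝ, (1 + p.1 * p.2) ∂(μ₁.prod μ₂) = 1 := by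
    have hm : Integrable (fun p : ℝ × ℝ => p.1 * p.2) (μ₁.prod μ₂) :=
      integrable_prod_of_bound h₁ h₂ (C := 1) (measurable_fst.mul measurable_snd) (fun p h1 h2 => by
        rw [abs_mul]; nlinarith [abs_nonneg p.1, abs_nonneg p.2])
    rw [integral_add (integrable_const 1) hm, integral_const]
    have h4 : ∫ p : ℝ × ℝ, p.1 * p.2 ∂(μ₁.prod μ₂) = (∫ a, a ∂μ₁) * ∫ b, b ∂μ₂ :=
      integral_prod_mul (fun a : ℝ => a) (fun b : ℝ => b)
    rw [h4, h₁.integral_id]
    simp
  rw [h3]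
  simp

theorem mergeL_eq (μ₁ μ₂ : Measure ℝ) :
    mergeL μ₁ μ₂ = ((μ₁.prod μ₂).withDensity mergeDens).map (fun p => mrg p.1 p.2) := rfl

theorem symL_A0 {t : ℝ} (ht : 0 ≤ t) : SymL (A0 t) := by
  have hm : ∀ s : ℝ, Measurable (fun g : ℝ => Real.tanh ((s + Real.sqrt t * g) / 2)) := by
    intro s
    exact (continuous_tanh_real.comp (by fun_prop)).measurable
  refine ⟨⟨?_⟩, ?_, ?_⟩
  · unfold A0
    have := Measure.isProbabilityMeasure_map (μ := gaussianReal 0 1) (hm (t / 2)).aemeasurable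
    have := Measure.isProbabilityMeasure_map (μ := gaussianReal 0 1) (hm (-(t / 2))).aemeasurable
    simp only [Measure.add_apply, Measure.smul_apply, measure_univ, smul_eq_mul, mul_one]
    exact ENNReal.add_halves 1
  · have hS : MeasurableSet {a : ℝ | ¬ |a| < 1} :=
      (measurableSet_lt continuous_abs.measurable measurable_const).compl
    rw [ae_iff]
    unfold A0
    simp only [Measure.add_apply, Measure.smul_apply, smul_eq_mul]
    rw [Measure.map_apply (hm (t / 2)) hS, Measure.map_apply (hm (-(t / 2))) hS]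
    have e : ∀ s : ℝ, (fun g : ℝ => Real.tanh ((s + Real.sqrt t * g) / 2)) ⁻¹' {a : ℝ | ¬ |a| < 1}
        = ∅ := by
      intro s
      ext g
      simp [Real.abs_tanh_lt_one]
    rw [e, e]
    simp
  · unfold A0
    rw [Measure.map_add _ _ measurable_neg, Measure.map_smul, Measure.map_smul,
      Measure.map_map measurable_neg (hm (t / 2)), Measure.map_map measurable_neg (hm (-(t / 2)))]
    have hγ : (gaussianReal 0 1).map (fun x : ℝ => -x) = gaussianReal 0 1 := by
      rw [gaussianReal_map_neg]; simp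
    have e1 : ((fun a : ℝ => -a) ∘ fun g => Real.tanh ((t / 2 + Real.sqrt t * g) / 2))
        = (fun g => Real.tanh ((-(t / 2) + Real.sqrt t * g) / 2)) ∘ (fun x : ℝ => -x) := by
      funext g
      simp only [Function.comp]
      rw [← Real.tanh_neg]
      congr 1
      ring
    have e2 : ((fun a : ℝ => -a) ∘ fun g => Real.tanh ((-(t / 2) + Real.sqrt t * g) / 2))
        = (fun g => Real.tanh ((t / 2 + Real.sqrt t * g) / 2)) ∘ (fun x : ℝ => -x) := by
      funext g
      simp only [Function.comp]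
      rw [← Real.tanh_neg]
      congr 1
      ring
    rw [e1, e2, ← Measure.map_map (hm (-(t / 2))) measurable_neg,
      ← Measure.map_map (hm (t / 2)) measurable_neg, hγ, add_comm]

theorem symL_scale {θ : ℝ} (hθ : |θ| ≤ 1) {μ : Measure ℝ} (hμ : SymL μ) : SymL (scaleL θ μ) := by
  have hm : Measurable (fun a : ℝ => θ * a) := measurable_const.mul measurable_id
  refine ⟨?_, ?_, ?_⟩
  · have := hμ.prob
    exact Measure.isProbabilityMeasure_map hm.aemeasurable
  · have hS : MeasurableSet {a : ℝ | |a| < 1} :=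
      measurableSet_lt continuous_abs.measurable measurable_const
    unfold scaleL
    rw [ae_map_iff hm.aemeasurable hS]
    filter_upwards [hμ.lt_one] with a ha
    rw [abs_mul]
    nlinarith [abs_nonneg a, abs_nonneg θ]
  · unfold scaleL
    rw [Measure.map_map measurable_neg hm]
    have e : ((fun a : ℝ => -a) ∘ fun a => θ * a) = (fun a => θ * a) ∘ (fun a : ℝ => -a) := by
      funext a
      simp
    rw [e, ← Measure.map_map hm measurable_neg, hμ.even]

theorem symL_mergeL {μ₁ μ₂ : Measure ℝ} (h₁ : SymL μ₁) (h₂ : SymL μ₂) : SymL (mergeL μ₁ μ₂) := by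
  have := h₁.prob
  have := h₂.prob
  refine ⟨?_, ?_, ?_⟩
  · have : IsProbabilityMeasure ((μ₁.prod μ₂).withDensity mergeDens) :=
      ⟨mergeL_total h₁ h₂⟩
    rw [mergeL_eq]
    exact Measure.isProbabilityMeasure_map measurable_mrg_pair.aemeasurable
  · have hS : MeasurableSet {a : ℝ | |a| < 1} :=
      measurableSet_lt continuous_abs.measurable measurable_const
    rw [mergeL_eq, ae_map_iff measurable_mrg_pair.aemeasurable hS]
    apply (withDensity_absolutelyContinuous (μ₁.prod μ₂) mergeDens).ae_le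
    filter_upwards [ae_prod_abs_lt h₁ h₂] with p hp
    exact abs_mrg_lt_one hp.1 hp.2
  · rw [mergeL_eq, Measure.map_map measurable_neg measurable_mrg_pair]
    have hnn : Measurable (fun p : ℝ × ℝ => ((-p.1, -p.2) : ℝ × ℝ)) :=
      measurable_fst.neg.prodMk measurable_snd.neg
    have e : ((fun a : ℝ => -a) ∘ fun p : ℝ × ℝ => mrg p.1 p.2)
        = (fun p : ℝ × ℝ => mrg p.1 p.2) ∘ (fun p : ℝ × ℝ => ((-p.1, -p.2) : ℝ × ℝ)) := by
      funext p
      simp [mrg_neg]
    rw [e, ← Measure.map_map measurable_mrg_pair hnn]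
    congr 1
    have hprod : (μ₁.prod μ₂).map (fun p : ℝ × ℝ => ((-p.1, -p.2) : ℝ × ℝ)) = μ₁.prod μ₂ := by
      have := Measure.map_prod_map μ₁ μ₂ (f := fun a : ℝ => -a) (g := fun a : ℝ => -a)
        measurable_neg measurable_neg
      rw [h₁.even, h₂.even] at this
      exact this.symm
    ext s hs
    rw [Measure.map_apply hnn hs, withDensity_apply _ (hnn hs), withDensity_apply _ hs]
    have hdens : ∀ p : ℝ × ℝ, mergeDens ((-p.1, -p.2) : ℝ × ℝ) = mergeDens p := by
      intro p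
      simp [mergeDens]
    conv_rhs => rw [← hprod]
    rw [setLIntegral_map hs measurable_mergeDens hnn]
    simp only [hdens]

theorem symL_mergePow {b μ : Measure ℝ} (hb : SymL b) (hμ : SymL μ) (j : ℕ) :
    SymL (mergePow b μ j) := by
  induction j with
  | zero => exact hb
  | succ j ih => exact symL_mergeL ih hμ

theorem GoodTheta.abs_le_one {θ : ℝ} (hθ : GoodTheta θ) : |θ| ≤ 1 := by
  rw [abs_of_nonneg hθ.nonneg]
  exact hθ.lt_one.le

theorem symL_rhoL {θ t : ℝ} (hθ : GoodTheta θ) (ht : 0 ≤ t) (q n : ℕ) : SymL (rhoL θ t q n) := by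
  induction n with
  | zero => exact symL_A0 ht
  | succ n ih => exact symL_mergePow (symL_A0 ht) (symL_scale hθ.abs_le_one ih) q

theorem symL_Bl {θ t : ℝ} (hθ : GoodTheta θ) (ht : 0 ≤ t) (q m : ℕ) : SymL (Bl θ t q m) :=
  symL_mergePow (symL_A0 ht) (symL_scale hθ.abs_le_one (symL_rhoL hθ ht q m)) _

/-- The integration formula. -/
theorem integral_mergeL {μ₁ μ₂ : Measure ℝ} (h₁ : SymL μ₁) (h₂ : SymL μ₂) {f : ℝ → ℝ}
    (hf : Measurable f) (hb : ∃ C, ∀ x, |x| ≤ 1 → |f x| ≤ C) :
    ∫ x, f x ∂mergeL μ₁ μ₂ = ∫ a, ∫ b, f (mrg a b) * (1 + a * b) ∂μ₂ ∂μ₁ := by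
  have := h₁.prob
  have := h₂.prob
  obtain ⟨C, hC⟩ := hb
  rw [mergeL_eq, integral_map measurable_mrg_pair.aemeasurable hf.aestronglyMeasurable,
    integral_withDensity_eq_integral_toReal_smul measurable_mergeDens
      (Filter.Eventually.of_forall fun p => ENNReal.ofReal_lt_top)]
  have hae : (fun p : ℝ × ℝ => (mergeDens p).toReal • f (mrg p.1 p.2))
      =ᵐ[μ₁.prod μ₂] (fun p : ℝ × ℝ => f (mrg p.1 p.2) * (1 + p.1 * p.2)) := by
    filter_upwards [ae_prod_abs_lt h₁ h₂] with p hp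
    have : 0 ≤ 1 + p.1 * p.2 := (one_add_mul_pos hp.1.le hp.2).le
    simp only [mergeDens, smul_eq_mul, ENNReal.toReal_ofReal this]
    ring
  rw [integral_congr_ae hae]
  have hint : Integrable (fun p : ℝ × ℝ => f (mrg p.1 p.2) * (1 + p.1 * p.2)) (μ₁.prod μ₂) := by
    refine integrable_prod_of_bound h₁ h₂ (C := |C| * 2)
      ((hf.comp measurable_mrg_pair).mul
        (measurable_const.add (measurable_fst.mul measurable_snd))) ?_
    intro p h1 h2
    have hm : |mrg p.1 p.2| ≤ 1 := abs_mrg_le_one h1.le h2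
    have h3 : |p.1 * p.2| ≤ 1 := by
      rw [abs_mul]; nlinarith [abs_nonneg p.1, abs_nonneg p.2]
    have h4 : |1 + p.1 * p.2| ≤ 2 := by
      calc |1 + p.1 * p.2| ≤ |(1 : ℝ)| + |p.1 * p.2| := abs_add_le _ _
        _ ≤ 2 := by rw [abs_one]; linarith
    rw [abs_mul]
    exact mul_le_mul ((hC _ hm).trans (le_abs_self C)) h4 (abs_nonneg _) (abs_nonneg _)
  exact integral_prod _ hint

theorem integral_scaleL {θ : ℝ} {μ : Measure ℝ} {f : ℝ → ℝ} (hf : Measurable f) :
    ∫ x, f x ∂scaleL θ μ = ∫ a, f (θ * a) ∂μ :=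
  integral_map (measurable_const.mul measurable_id).aemeasurable hf.aestronglyMeasurable

theorem integral_A0 {t : ℝ} {f : ℝ → ℝ} (hf : Measurable f) (hb : ∃ C, ∀ x, |x| ≤ 1 → |f x| ≤ C) :
    ∫ x, f x ∂A0 t = (1 / 2) * ∫ g, f (Real.tanh ((t / 2 + Real.sqrt t * g) / 2)) ∂gaussianReal 0 1
      + (1 / 2) * ∫ g, f (Real.tanh ((-(t / 2) + Real.sqrt t * g) / 2)) ∂gaussianReal 0 1 := by
  obtain ⟨C, hC⟩ := hb
  have hm : ∀ s : ℝ, Measurable (fun g : ℝ => Real.tanh ((s + Real.sqrt t * g) / 2)) := by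
    intro s
    exact (continuous_tanh_real.comp (by fun_prop)).measurable
  have hint : ∀ s : ℝ, Integrable f ((gaussianReal 0 1).map
      (fun g => Real.tanh ((s + Real.sqrt t * g) / 2))) := by
    intro s
    have := Measure.isProbabilityMeasure_map (μ := gaussianReal 0 1) (hm s).aemeasurable
    refine Integrable.of_bound hf.aestronglyMeasurable C ?_
    have hS : MeasurableSet {x : ℝ | ‖f x‖ ≤ C} :=
      measurableSet_le hf.norm measurable_const
    rw [ae_map_iff (hm s).aemeasurable hS]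
    exact Filter.Eventually.of_forall fun g => by
      simpa [Real.norm_eq_abs] using hC _ (Real.abs_tanh_lt_one _).le
  unfold A0
  rw [integral_add_measure ((hint _).smul_measure (by simp)) ((hint _).smul_measure (by simp)),
    integral_smul_measure, integral_smul_measure,
    integral_map (hm _).aemeasurable hf.aestronglyMeasurable,
    integral_map (hm _).aemeasurable hf.aestronglyMeasurable]
  simp

theorem rhoL_succ_eq {θ t : ℝ} {q : ℕ} (hq : 1 ≤ q) (n : ℕ) :
    rhoL θ t q (n + 1) = mergeL (Bl θ t q n) (scaleL θ (rhoL θ t q n)) := by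
  obtain ⟨r, rfl⟩ : ∃ r, q = r + 1 := ⟨q - 1, by omega⟩
  simp [rhoL, Bl, mergePow]

/-- Stationarity form of the recursion. -/
theorem integral_rhoL_succ {θ t : ℝ} (hθ : GoodTheta θ) (ht : 0 ≤ t) {q : ℕ} (hq : 1 ≤ q) (m : ℕ)
    {f : ℝ → ℝ} (hf : Measurable f) (hb : ∃ C, ∀ x, |x| ≤ 1 → |f x| ≤ C) :
    ∫ x, f x ∂rhoL θ t q (m + 1) = ∫ n, kerT θ t q m f n ∂rhoL θ t q m := by
  have hB := symL_Bl hθ ht q m
  have hR := symL_rhoL hθ ht q m
  have hS := symL_scale hθ.abs_le_one hR
  have := hB.prob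
  have := hR.prob
  obtain ⟨C, hC⟩ := id hb
  rw [rhoL_succ_eq hq, integral_mergeL hB hS hf hb]
  have h1 : ∀ b : ℝ, ∫ x, f (mrg b x) * (1 + b * x) ∂scaleL θ (rhoL θ t q m)
      = ∫ n, f (mrg b (θ * n)) * (1 + b * (θ * n)) ∂rhoL θ t q m := by
    intro b
    refine integral_scaleL (f := fun x => f (mrg b x) * (1 + b * x)) ?_
    have hm : Measurable (fun x : ℝ => mrg b x) := by
      unfold mrg
      exact (measurable_const.add measurable_id).div
        (measurable_const.add (measurable_const.mul measurable_id))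
    exact (hf.comp hm).mul (measurable_const.add (measurable_const.mul measurable_id))
  simp_rw [h1]
  have hθ1 := hθ.abs_le_one
  have hint : Integrable (fun p : ℝ × ℝ => f (mrg p.1 (θ * p.2)) * (1 + p.1 * (θ * p.2)))
      ((Bl θ t q m).prod (rhoL θ t q m)) := by
    have hmeas : Measurable (fun p : ℝ × ℝ => mrg p.1 (θ * p.2)) := by
      unfold mrg
      exact (measurable_fst.add (measurable_const.mul measurable_snd)).div
        (measurable_const.add (measurable_fst.mul (measurable_const.mul measurable_snd)))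
    refine integrable_prod_of_bound hB hR (C := |C| * 2)
      ((hf.comp hmeas).mul
        (measurable_const.add (measurable_fst.mul (measurable_const.mul measurable_snd)))) ?_
    intro p h1 h2
    have h5 : |θ * p.2| < 1 := by
      rw [abs_mul]; nlinarith [abs_nonneg p.2, abs_nonneg θ]
    have hm : |mrg p.1 (θ * p.2)| ≤ 1 := abs_mrg_le_one h1.le h5
    have h3 : |p.1 * (θ * p.2)| ≤ 1 := by
      rw [abs_mul]; nlinarith [abs_nonneg p.1, abs_nonneg (θ * p.2)]
    have h4 : |1 + p.1 * (θ * p.2)| ≤ 2 := by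
      calc |1 + p.1 * (θ * p.2)| ≤ |(1 : ℝ)| + |p.1 * (θ * p.2)| := abs_add_le _ _
        _ ≤ 2 := by rw [abs_one]; linarith
    rw [abs_mul]
    exact mul_le_mul ((hC _ hm).trans (le_abs_self C)) h4 (abs_nonneg _) (abs_nonneg _)
  rw [← integral_prod _ hint, integral_prod_symm _ hint]
  refine integral_congr_ae (Filter.Eventually.of_forall fun n => ?_)
  simp only [kerT]
  refine integral_congr_ae (Filter.Eventually.of_forall fun b => ?_)
  simp only
  ring

/-- The kernel is Markov. -/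
theorem kerT_one {θ t : ℝ} (hθ : GoodTheta θ) (ht : 0 ≤ t) (q m : ℕ) (n : ℝ) :
    kerT θ t q m (fun _ => 1) n = 1 := by
  have hB := symL_Bl hθ ht q m
  have := hB.prob
  simp only [kerT, mul_one]
  rw [integral_add (integrable_const 1) (hB.integrable_id.mul_const _)]
  rw [integral_const, integral_mul_const, hB.integral_id]
  simp

theorem m2_scaleL (θ : ℝ) (μ : Measure ℝ) : m2L (scaleL θ μ) = θ ^ 2 * m2L μ := by
  unfold m2L
  rw [integral_scaleL (f := fun a => a ^ 2) (by fun_prop)]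
  simp_rw [mul_pow]
  exact integral_const_mul _ _

theorem m2L_nonneg (μ : Measure ℝ) : 0 ≤ m2L μ :=
  integral_nonneg fun _ => sq_nonneg _

theorem m2L_le_one {μ : Measure ℝ} (h : SymL μ) : m2L μ ≤ 1 := by
  have := h.prob
  have : ∫ a, a ^ 2 ∂μ ≤ ∫ _a, (1 : ℝ) ∂μ := by
    refine integral_mono_of_nonneg (Filter.Eventually.of_forall fun a => sq_nonneg a)
      (integrable_const 1) ?_
    filter_upwards [h.lt_one] with a ha
    exact (sq_lt_one_iff_abs_lt_one a).2 ha |>.le
  simpa [m2L] using this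

theorem coshL_scaleL (lam θ : ℝ) (μ : Measure ℝ) : coshL lam (scaleL θ μ) = coshL (lam * θ) μ := by
  unfold coshL
  rw [integral_scaleL (f := fun a => Real.cosh (lam * a))
    (Real.continuous_cosh.comp (by fun_prop)).measurable]
  simp_rw [mul_assoc]

end Crest.Agent.IsingFactor
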