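import Crest.Agent.IsingFactor.MergeDefs

/-!
# IsingFactor.MergeMass (WP IF-MergeMass): mass of large values under merging; see `MergeDefs`.
Statements may be ADDED; do not change the ones below without posting on chat (topic S0241), other packages use them.
-/

set_option autoImplicit false

open MeasureTheory ProbabilityTheory
open scoped ENNReal

namespace Crest.Agent.IsingFactor

/-- Symmetrisation of an integral against a symmetric law: upper bound. -/
theorem SymL.two_mul_integral_le {μ : Measure ℝ} (h : SymL μ) {Φ g : ℝ → ℝ} (hi : Integrable Φ μ)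
    (hg : Integrable g μ) (hle : ∀ᵐ a ∂μ, Φ a + Φ (-a) ≤ g a) : 2 * ∫ a, Φ a ∂μ ≤ ∫ a, g a ∂μ := by
  have hmp : MeasurePreserving (fun a : ℝ => -a) μ μ := ⟨measurable_neg, h.even⟩
  have hn : Integrable (fun a => Φ (-a)) μ := hmp.integrable_comp_of_integrable hi
  have h1 : ∫ a, Φ (-a) ∂μ = ∫ a, Φ a ∂μ := by
    have h2 : ∫ a, Φ a ∂(μ.map (fun a : ℝ => -a)) = ∫ a, Φ (-a) ∂μ :=
      (MeasurableEquiv.neg ℝ).measurableEmbedding.integral_map Φ
    rw [← h2, h.even]
  have h3 : ∫ a, (Φ a + Φ (-a)) ∂μ ≤ ∫ a, g a ∂μ := integral_mono_ae (hi.add hn) hg hle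
  rw [integral_add hi hn, h1] at h3
  linarith

/-- Symmetrisation of an integral against a symmetric law: lower bound. -/
theorem SymL.le_two_mul_integral {μ : Measure ℝ} (h : SymL μ) {Φ g : ℝ → ℝ} (hi : Integrable Φ μ)
    (hg : Integrable g μ) (hle : ∀ᵐ a ∂μ, g a ≤ Φ a + Φ (-a)) : ∫ a, g a ∂μ ≤ 2 * ∫ a, Φ a ∂μ := by
  have h1 := h.two_mul_integral_le (Φ := fun a => -Φ a) (g := fun a => -g a) hi.neg hg.neg
    (by filter_upwards [hle] with a ha; linarith)
  rw [integral_neg, integral_neg] at h1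
  linarith

theorem measurableSet_abs_ge (κ : ℝ) : MeasurableSet {x : ℝ | κ ≤ |x|} :=
  measurableSet_le measurable_const continuous_abs.measurable

theorem measurable_mrg_left (c : ℝ) : Measurable (fun b : ℝ => mrg b c) := by
  unfold mrg
  exact (measurable_id.add measurable_const).div
    (measurable_const.add (measurable_id.mul measurable_const))

theorem measurable_mrg_right (c : ℝ) : Measurable (fun b : ℝ => mrg c b) := by
  unfold mrg
  exact (measurable_const.add measurable_id).div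
    (measurable_const.add (measurable_const.mul measurable_id))

theorem abs_one_add_mul_le_two {a b : ℝ} (ha : |a| ≤ 1) (hb : |b| ≤ 1) : |1 + a * b| ≤ 2 := by
  have h3 : |a * b| ≤ 1 := by
    rw [abs_mul]; nlinarith [abs_nonneg a, abs_nonneg b]
  calc |1 + a * b| ≤ |(1 : ℝ)| + |a * b| := abs_add_le _ _
    _ ≤ 2 := by rw [abs_one]; linarith

/-- Mass of large values in a merge. -/
theorem mass_mergeL_ge {μ₁ μ₂ : Measure ℝ} (h₁ : SymL μ₁) (h₂ : SymL μ₂) {β κ : ℝ} (hβ : β < 1)
    (hκ : 0 ≤ κ) (hb : ∀ᵐ b ∂μ₂, |b| ≤ β) :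
    ((1 - β) / 2) * μ₂.real {b | κ ≤ |b|} ≤ (mergeL μ₁ μ₂).real {x | κ ≤ |x|} := by
  have := h₁.prob
  have := h₂.prob
  have hS := measurableSet_abs_ge κ
  have hβ0 : 0 ≤ β := by
    obtain ⟨b, hb⟩ := hb.exists
    exact (abs_nonneg b).trans hb
  set f : ℝ → ℝ := {x : ℝ | κ ≤ |x|}.indicator (fun _ => 1) with hf
  have hfm : Measurable f := measurable_const.indicator hS
  have hf01 : ∀ x, 0 ≤ f x ∧ f x ≤ 1 := by
    intro x
    by_cases hx : x ∈ {x : ℝ | κ ≤ |x|}
    · simp [hf, hx]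
    · simp [hf, hx]
  have hf1 : ∀ x, κ ≤ |x| → f x = 1 := by
    intro x hx
    have : x ∈ {x : ℝ | κ ≤ |x|} := hx
    simp [hf, this]
  have hL : (mergeL μ₁ μ₂).real {x | κ ≤ |x|} = ∫ x, f x ∂mergeL μ₁ μ₂ :=
    (integral_indicator_one (μ := mergeL μ₁ μ₂) hS).symm
  have hR : μ₂.real {b | κ ≤ |b|} = ∫ b, f b ∂μ₂ :=
    (integral_indicator_one (μ := μ₂) hS).symm
  rw [hL, hR, integral_mergeL h₁ h₂ hfm ⟨1, fun x _ => by
    rw [abs_of_nonneg (hf01 x).1]; exact (hf01 x).2⟩]
  set Φ : ℝ → ℝ := fun a => ∫ b, f (mrg a b) * (1 + a * b) ∂μ₂ with hΦ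
  have hF : Measurable (fun p : ℝ × ℝ => f (mrg p.1 p.2) * (1 + p.1 * p.2)) :=
    (hfm.comp measurable_mrg_pair).mul (measurable_const.add (measurable_fst.mul measurable_snd))
  have hint : Integrable (fun p : ℝ × ℝ => f (mrg p.1 p.2) * (1 + p.1 * p.2)) (μ₁.prod μ₂) := by
    refine integrable_prod_of_bound h₁ h₂ (C := 2) hF ?_
    intro p h1 h2
    have h4 := abs_one_add_mul_le_two h1.le h2.le
    rw [abs_mul, abs_of_nonneg (hf01 _).1]
    nlinarith [(hf01 (mrg p.1 p.2)).1, (hf01 (mrg p.1 p.2)).2, abs_nonneg (1 + p.1 * p.2)]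
  have hΦi : Integrable Φ μ₁ := hint.integral_prod_left
  have hbi : ∀ a : ℝ, |a| < 1 → Integrable (fun b => f (mrg a b) * (1 + a * b)) μ₂ := by
    intro a ha
    refine h₂.integrable_of_bound (C := 2)
      ((hfm.comp (measurable_mrg_right a)).mul
        (measurable_const.add (measurable_const.mul measurable_id))) ?_
    intro b hb
    have h4 := abs_one_add_mul_le_two ha.le hb.le
    rw [abs_mul, abs_of_nonneg (hf01 _).1]
    nlinarith [(hf01 (mrg a b)).1, (hf01 (mrg a b)).2, abs_nonneg (1 + a * b)]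
  have hfi : Integrable f μ₂ := by
    refine h₂.integrable_of_bound (C := 1) hfm (fun x _ => ?_)
    rw [abs_of_nonneg (hf01 x).1]
    exact (hf01 x).2
  have key : ∫ b, f b ∂μ₂ ≤ 2 * ∫ a, Φ a ∂μ₁ := by
    have hconst : Integrable (fun _ : ℝ => ∫ b, f b ∂μ₂) μ₁ := integrable_const _
    have := h₁.le_two_mul_integral (Φ := Φ) (g := fun _ => ∫ b, f b ∂μ₂) hΦi hconst ?_
    · simpa using this
    · filter_upwards [h₁.lt_one] with a ha
      have ha' : |(-a)| < 1 := by rwa [abs_neg]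
      simp only [hΦ]
      rw [← integral_add (hbi a ha) (hbi (-a) ha')]
      refine integral_mono_ae hfi ((hbi a ha).add (hbi (-a) ha')) ?_
      filter_upwards [h₂.lt_one] with b hb
      have w1 : 0 < 1 + a * b := one_add_mul_pos ha.le hb
      have w2 : 0 < 1 + (-a) * b := one_add_mul_pos ha'.le hb
      have p1 : 0 ≤ f (mrg a b) * (1 + a * b) := mul_nonneg (hf01 _).1 w1.le
      have p2 : 0 ≤ f (mrg (-a) b) * (1 + (-a) * b) := mul_nonneg (hf01 _).1 w2.le
      by_cases hk : κ ≤ |b|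
      · rw [hf1 b hk]
        rcases le_total 0 (a * b) with hab | hab
        · have := hf1 (mrg a b) (hk.trans (abs_mrg_ge ha hb hab))
          rw [this]
          linarith
        · have hab' : 0 ≤ (-a) * b := by linarith
          have := hf1 (mrg (-a) b) (hk.trans (abs_mrg_ge ha' hb hab'))
          rw [this]
          linarith
      · have h0 : f b = 0 := by
          have : b ∉ {x : ℝ | κ ≤ |x|} := hk
          simp [hf, this]
        rw [h0]
        linarith
  have hm0 : 0 ≤ ∫ b, f b ∂μ₂ := integral_nonneg fun x => (hf01 x).1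
  nlinarith

/-- Mass of large values in the kernel, uniformly in the incoming message: if `f ≤ 1` everywhere
on `[-1,1]` and `f ≤ 1 - δ` on `{|x| ≥ κ}`, then `kerT f n ≤ 1 - δ (1-θ)/2 * Bl{|b| ≥ κ}`. -/
theorem kerT_le_of_mass {θ t : ℝ} (hθ : GoodTheta θ) (ht : 0 ≤ t) (q m : ℕ) {f : ℝ → ℝ}
    (hf : Measurable f) (hf0 : ∀ x, |x| ≤ 1 → 0 ≤ f x) (hf1 : ∀ x, |x| ≤ 1 → f x ≤ 1) {δ κ : ℝ} (hδ : 0 ≤ δ)
    (hκ : 0 ≤ κ) (hfκ : ∀ x, |x| ≤ 1 → κ ≤ |x| → f x ≤ 1 - δ) {n : ℝ} (hn : |n| ≤ 1) :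
    kerT θ t q m f n ≤ 1 - δ * ((1 - θ) / 2) * (Bl θ t q m).real {b | κ ≤ |b|} := by
  have hB := symL_Bl hθ ht q m
  have := hB.prob
  have hS := measurableSet_abs_ge κ
  set c : ℝ := θ * n with hc
  have hθ0 := hθ.nonneg
  have hθ1 := hθ.lt_one
  have hc1 : |c| < 1 := by
    rw [hc, abs_mul, abs_of_nonneg hθ0]
    nlinarith [abs_nonneg n]
  set G : ℝ → ℝ := fun b => (1 + b * c) * f (mrg b c) with hG
  have hmrg : ∀ b : ℝ, |b| < 1 → |mrg b c| ≤ 1 := fun b hb => abs_mrg_le_one hb.le hc1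
  have hGm : Measurable G :=
    (measurable_const.add (measurable_id.mul measurable_const)).mul
      (hf.comp (measurable_mrg_left c))
  have hGi : Integrable G (Bl θ t q m) := by
    refine hB.integrable_of_bound (C := 2) hGm ?_
    intro b hb
    have h4 := abs_one_add_mul_le_two hb.le hc1.le
    simp only [hG]
    rw [abs_mul, abs_of_nonneg (hf0 _ (hmrg b hb))]
    nlinarith [hf0 _ (hmrg b hb), hf1 _ (hmrg b hb), abs_nonneg (1 + b * c)]
  set ind : ℝ → ℝ := {x : ℝ | κ ≤ |x|}.indicator (fun _ => 1) with hind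
  have hindm : Measurable ind := measurable_const.indicator hS
  have hindi : Integrable ind (Bl θ t q m) := by
    refine hB.integrable_of_bound (C := 1) hindm (fun x _ => ?_)
    by_cases hx : x ∈ {x : ℝ | κ ≤ |x|}
    · simp [hind, hx]
    · simp [hind, hx]
  have hR : (Bl θ t q m).real {b | κ ≤ |b|} = ∫ b, ind b ∂Bl θ t q m :=
    (integral_indicator_one (μ := Bl θ t q m) hS).symm
  have hgi : Integrable (fun b => 2 - δ * (1 - θ) * ind b) (Bl θ t q m) :=
    (integrable_const 2).sub (hindi.const_mul _)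
  have key := hB.two_mul_integral_le (Φ := G) hGi hgi ?_
  · rw [integral_sub (integrable_const 2) (hindi.const_mul _), integral_const, integral_const_mul,
      ← hR] at key
    simp only [probReal_univ, smul_eq_mul, one_mul] at key
    have e : kerT θ t q m f n = ∫ b, G b ∂Bl θ t q m := rfl
    rw [e]
    nlinarith
  · filter_upwards [hB.lt_one] with b hb
    have hb' : |(-b)| < 1 := by rwa [abs_neg]
    have w1 : 0 < 1 + b * c := one_add_mul_pos hb.le hc1
    have w2 : 0 < 1 + (-b) * c := one_add_mul_pos hb'.le hc1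
    have f1 := hf1 _ (hmrg b hb)
    have f2 := hf1 _ (hmrg (-b) hb')
    simp only [hG]
    have e2 : (1 + b * c) + (1 + (-b) * c) = 2 := by ring
    by_cases hk : κ ≤ |b|
    · have hi : ind b = 1 := by
        have : b ∈ {x : ℝ | κ ≤ |x|} := hk
        simp [hind, this]
      rw [hi]
      have hδ' : δ * (1 - θ) ≤ δ := by nlinarith
      rcases le_total 0 (c * b) with hab | hab
      · have hge : |b| ≤ |mrg b c| := by
          rw [mrg_comm]
          exact abs_mrg_ge hc1 hb hab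
        have f3 := hfκ _ (hmrg b hb) (hk.trans hge)
        have hbc : 0 ≤ b * c := by linarith [mul_comm b c]
        nlinarith [mul_le_mul_of_nonneg_left f3 w1.le, mul_le_mul_of_nonneg_left f2 w2.le]
      · have hab' : 0 ≤ c * (-b) := by nlinarith
        have hge : |(-b)| ≤ |mrg (-b) c| := by
          rw [mrg_comm]
          exact abs_mrg_ge hc1 hb' hab'
        have f3 := hfκ _ (hmrg (-b) hb') (by rw [abs_neg] at hge; exact hk.trans hge)
        have hbc : 0 ≤ (-b) * c := by linarith [mul_comm (-b) c]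
        nlinarith [mul_le_mul_of_nonneg_left f3 w2.le, mul_le_mul_of_nonneg_left f1 w1.le]
    · have hi : ind b = 0 := by
        have : b ∉ {x : ℝ | κ ≤ |x|} := hk
        simp [hind, this]
      rw [hi]
      nlinarith [mul_le_mul_of_nonneg_left f1 w1.le, mul_le_mul_of_nonneg_left f2 w2.le]

/-- `Bl` contains at least one side branch when `q ≥ 2`. -/
theorem mass_Bl_ge {θ t : ℝ} (hθ : GoodTheta θ) (ht : 0 ≤ t) {q : ℕ} (hq : 2 ≤ q) (m : ℕ) {κ : ℝ}
    (hκ : 0 ≤ κ) :
    ((1 - θ) / 2) * (rhoL θ t q m).real {ν | κ ≤ |θ * ν|} ≤ (Bl θ t q m).real {b | κ ≤ |b|} := by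
  obtain ⟨j, rfl⟩ : ∃ j, q = j + 2 := ⟨q - 2, by omega⟩
  have hR := symL_rhoL hθ ht (j + 2) m
  have hS := symL_scale hθ.abs_le_one hR
  have hA := symL_A0 ht
  have hm : Measurable (fun a : ℝ => θ * a) := measurable_const.mul measurable_id
  have hb : ∀ᵐ b ∂scaleL θ (rhoL θ t (j + 2) m), |b| ≤ θ := by
    have hSet : MeasurableSet {b : ℝ | |b| ≤ θ} :=
      measurableSet_le continuous_abs.measurable measurable_const
    unfold scaleL
    rw [ae_map_iff hm.aemeasurable hSet]
    filter_upwards [hR.lt_one] with a ha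
    rw [abs_mul, abs_of_nonneg hθ.nonneg]
    nlinarith [hθ.nonneg, abs_nonneg a]
  have key := mass_mergeL_ge (symL_mergePow hA hS j) hS hθ.lt_one hκ hb
  have e1 : (scaleL θ (rhoL θ t (j + 2) m)).real {b | κ ≤ |b|}
      = (rhoL θ t (j + 2) m).real {ν | κ ≤ |θ * ν|} := by
    unfold scaleL
    rw [map_measureReal_apply hm (measurableSet_abs_ge κ)]
    rfl
  rw [e1] at key
  exact key

end Crest.Agent.IsingFactor
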