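import Crest.Agent.IsingFactor.MergeDefs

/-!
# IsingFactor.MergeMoments (WP IF-MergeMoments): second moment and cosh under merging; see `MergeDefs`.
Statements may be ADDED; do not change the ones below without posting on chat (topic S0241), other packages use them.
-/

set_option autoImplicit false

open MeasureTheory ProbabilityTheory
open scoped ENNReal

namespace Crest.Agent.IsingFactor

namespace MergeMomentsAux

theorem measurable_mrg_uncurry : Measurable (fun p : ℝ × ℝ => mrg p.1 p.2) := by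
  unfold mrg
  fun_prop

theorem abs_lt_of_symL {μ : Measure ℝ} (h : SymL μ) : ∀ᵐ a ∂μ, |a| < 1 := h.lt_one

/-- Bounded measurable functions on a symmetric law are integrable. -/
theorem integrable_of_bdd {μ : Measure ℝ} (h : SymL μ) {φ : ℝ → ℝ} (hφ : Measurable φ) {C : ℝ}
    (hC : ∀ b, |b| < 1 → |φ b| ≤ C) : Integrable φ μ := by
  have := h.prob
  refine Integrable.of_bound hφ.aestronglyMeasurable C ?_
  filter_upwards [h.lt_one] with b hb
  simpa using hC b hb

theorem integral_neg_eq {μ : Measure ℝ} (h : SymL μ) {φ : ℝ → ℝ} (hφ : Measurable φ) :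
    ∫ b, φ (-b) ∂μ = ∫ b, φ b ∂μ := by
  conv_rhs => rw [← h.even]
  rw [integral_map measurable_neg.aemeasurable hφ.aestronglyMeasurable]

theorem integrable_neg {μ : Measure ℝ} (h : SymL μ) {φ : ℝ → ℝ} (hφ : Measurable φ) {C : ℝ}
    (hC : ∀ b, |b| < 1 → |φ b| ≤ C) : Integrable (fun b => φ (-b)) μ :=
  integrable_of_bdd h (hφ.comp measurable_neg) (fun b hb => hC (-b) (by rwa [abs_neg]))

/-- `∫ φ = ∫ (φ b + φ (-b)) / 2`. -/
theorem integral_sym {μ : Measure ℝ} (h : SymL μ) {φ : ℝ → ℝ} (hφ : Measurable φ) {C : ℝ}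
    (hC : ∀ b, |b| < 1 → |φ b| ≤ C) :
    ∫ b, φ b ∂μ = ∫ b, (φ b + φ (-b)) / 2 ∂μ := by
  rw [integral_div, integral_add (integrable_of_bdd h hφ hC) (integrable_neg h hφ hC),
    integral_neg_eq h hφ]
  ring

theorem integrable_sq {μ : Measure ℝ} (h : SymL μ) : Integrable (fun b : ℝ => b ^ 2) μ := by
  refine integrable_of_bdd h (by fun_prop) (C := 1) (fun b hb => ?_)
  rw [abs_pow]
  exact pow_le_one₀ (abs_nonneg b) hb.le

theorem integral_linear {μ : Measure ℝ} (h : SymL μ) (c d : ℝ) :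
    ∫ a, (c + d * a ^ 2) ∂μ = c + d * m2L μ := by
  have := h.prob
  rw [integral_add (integrable_const _) ((integrable_sq h).const_mul _), integral_const_mul]
  simp [m2L]

/-- Measurability and boundedness of an inner integral. -/
theorem integrable_inner {μ₁ μ₂ : Measure ℝ} (h₁ : SymL μ₁) (h₂ : SymL μ₂) {K : ℝ → ℝ → ℝ}
    (hK : Measurable (fun p : ℝ × ℝ => K p.1 p.2)) {C : ℝ}
    (hC : ∀ a b, |a| < 1 → |b| < 1 → |K a b| ≤ C) :
    Integrable (fun a => ∫ b, K a b ∂μ₂) μ₁ := by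
  have := h₁.prob
  have := h₂.prob
  have hm : StronglyMeasurable (fun a => ∫ b, K a b ∂μ₂) :=
    (hK.stronglyMeasurable).integral_prod_right' (ν := μ₂)
  refine Integrable.of_bound hm.aestronglyMeasurable C ?_
  filter_upwards [h₁.lt_one] with a ha
  have h0 : ‖∫ b, K a b ∂μ₂‖ ≤ C * μ₂.real Set.univ := by
    refine norm_integral_le_of_norm_le_const ?_
    filter_upwards [h₂.lt_one] with b hb
    simpa using hC a b ha hb
  simpa using h0

/-! ### Real inequalities: second moment -/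

theorem one_sub_pos {a b : ℝ} (ha : |a| < 1) (hb : |b| < 1) : 0 < 1 - a * b := by
  have h1 : |a * b| < 1 := by
    rw [abs_mul]
    nlinarith [abs_nonneg a, abs_nonneg b]
  have h2 := (abs_lt.1 h1).2
  linarith

theorem one_add_pos {a b : ℝ} (ha : |a| < 1) (hb : |b| < 1) : 0 < 1 + a * b :=
  one_add_mul_pos ha.le hb

theorem sym_sq {a b : ℝ} (ha : |a| < 1) (hb : |b| < 1) :
    ((mrg a b) ^ 2 * (1 + a * b) + (mrg a (-b)) ^ 2 * (1 + a * (-b))) / 2
      = (a ^ 2 + b ^ 2 - 2 * (a ^ 2 * b ^ 2)) / (1 - a ^ 2 * b ^ 2) := by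
  have h1 := one_add_pos ha hb
  have h2 := one_sub_pos ha hb
  have h3 : 0 < 1 - a ^ 2 * b ^ 2 := by nlinarith
  have e4 : (1 : ℝ) + a * (-b) = 1 - a * b := by ring
  unfold mrg
  have h5 : (1 - a ^ 2 * b ^ 2) = (1 + a * b) * (1 - a * b) := by ring
  rw [h5, e4, ← sub_eq_add_neg]
  have h6 : (1 : ℝ) - a * b ≠ 0 := h2.ne'
  have h7 : (1 : ℝ) + a * b ≠ 0 := h1.ne'
  field_simp
  ring

theorem sq_le_one_of_abs {a : ℝ} (ha : |a| < 1) : a ^ 2 < 1 := by
  rw [← sq_abs]; nlinarith [abs_nonneg a]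

theorem sym_sq_le {a b : ℝ} (ha : |a| < 1) (hb : |b| < 1) :
    ((mrg a b) ^ 2 * (1 + a * b) + (mrg a (-b)) ^ 2 * (1 + a * (-b))) / 2
      ≤ a ^ 2 + b ^ 2 - a ^ 2 * b ^ 2 := by
  rw [sym_sq ha hb]
  have hA := sq_le_one_of_abs ha
  have hB := sq_le_one_of_abs hb
  have hA0 := sq_nonneg a
  have hB0 := sq_nonneg b
  have h3 : 0 < 1 - a ^ 2 * b ^ 2 := by nlinarith
  rw [div_le_iff₀ h3]
  set A := a ^ 2
  set B := b ^ 2
  have h4 : 0 ≤ A * B * ((1 - A) * (1 - B)) :=
    mul_nonneg (mul_nonneg hA0 hB0) (mul_nonneg (by linarith) (by linarith))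
  nlinarith

theorem sym_sq_ge {a b : ℝ} (ha : |a| < 1) (hb : |b| < 1) :
    a ^ 2 + b ^ 2 - 2 * (a ^ 2 * b ^ 2)
      ≤ ((mrg a b) ^ 2 * (1 + a * b) + (mrg a (-b)) ^ 2 * (1 + a * (-b))) / 2 := by
  rw [sym_sq ha hb]
  have hA := sq_le_one_of_abs ha
  have hB := sq_le_one_of_abs hb
  have hA0 := sq_nonneg a
  have hB0 := sq_nonneg b
  have h3 : 0 < 1 - a ^ 2 * b ^ 2 := by nlinarith
  rw [le_div_iff₀ h3]
  set A := a ^ 2
  set B := b ^ 2
  have h4 : 0 ≤ A * (1 - B) + B * (1 - A) :=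
    add_nonneg (mul_nonneg hA0 (by linarith)) (mul_nonneg hB0 (by linarith))
  have h5 : 0 ≤ (A * (1 - B) + B * (1 - A)) * (A * B) :=
    mul_nonneg h4 (mul_nonneg hA0 hB0)
  nlinarith

/-! ### Real inequalities: cosh -/

/-- The function `x ↦ cosh (w x) - w cosh x` is monotone on `x ≥ 0`, for `w ≥ 1`. -/
theorem cosh_mono {w x y : ℝ} (hw : 1 ≤ w) (hx : 0 ≤ x) (hxy : x ≤ y) :
    Real.cosh (w * x) - w * Real.cosh x ≤ Real.cosh (w * y) - w * Real.cosh y := by
  have hmono : MonotoneOn (fun x : ℝ => Real.cosh (w * x) - w * Real.cosh x) (Set.Ici 0) := by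
    refine monotoneOn_of_deriv_nonneg (convex_Ici 0) (by fun_prop) (by fun_prop) ?_
    intro z hz
    rw [interior_Ici] at hz
    have hz0 : (0 : ℝ) < z := hz
    have hd : HasDerivAt (fun x : ℝ => Real.cosh (w * x) - w * Real.cosh x)
        (Real.sinh (w * z) * (w * 1) - w * Real.sinh z) z := by
      refine HasDerivAt.sub ?_ ?_
      · exact (Real.hasDerivAt_cosh (w * z)).comp z ((hasDerivAt_id z).const_mul w)
      · exact (Real.hasDerivAt_cosh z).const_mul w
    rw [hd.deriv]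
    have : Real.sinh z ≤ Real.sinh (w * z) := by
      rw [Real.sinh_le_sinh]
      nlinarith
    nlinarith
  exact hmono hx (Set.mem_Ici.2 (hx.trans hxy)) hxy

/-- The core comparison. -/
theorem cosh_core {c X₁ X₂ : ℝ} (hc : 0 ≤ c) (hX₂ : 0 ≤ X₂) (hX : X₂ ≤ X₁) :
    (1 + c) * Real.cosh X₁ + (1 - c) * Real.cosh X₂
      ≤ Real.cosh ((1 + c) * X₁) + Real.cosh ((1 - c) * X₂) := by
  have h1 := cosh_mono (w := 1 + c) (by linarith) hX₂ hX
  have h2 : Real.cosh X₂ ≤ Real.cosh ((1 + c) * X₂) / 2 + Real.cosh ((1 - c) * X₂) / 2 := by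
    have e1 : (1 + c) * X₂ = X₂ + c * X₂ := by ring
    have e2 : (1 - c) * X₂ = X₂ - c * X₂ := by ring
    rw [e1, e2, Real.cosh_add, Real.cosh_sub]
    have h3 : 1 ≤ Real.cosh (c * X₂) := Real.one_le_cosh _
    have h4 := Real.cosh_pos X₂
    nlinarith
  nlinarith

theorem cosh_dom_nonneg {a b lam : ℝ} (ha : |a| < 1) (hb : |b| < 1) (hab : 0 ≤ a * b) :
    (Real.cosh (lam * mrg a b) * (1 + a * b) + Real.cosh (lam * mrg a (-b)) * (1 + a * (-b))) / 2
      ≤ Real.cosh (lam * a) * Real.cosh (lam * b) := by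
  have h1 := one_add_pos ha hb
  have h2 := one_sub_pos ha hb
  have hA := sq_le_one_of_abs ha
  have hB := sq_le_one_of_abs hb
  have e4 : (1 : ℝ) + a * (-b) = 1 - a * b := by ring
  have hm2 : mrg a (-b) = (a - b) / (1 - a * b) := by
    unfold mrg
    rw [e4]; ring
  have hm1 : mrg a b = (a + b) / (1 + a * b) := rfl
  set X₁ := |lam * mrg a b| with hX₁
  set X₂ := |lam * mrg a (-b)| with hX₂
  have hX₂0 : 0 ≤ X₂ := abs_nonneg _
  -- comparison of the two merges
  have hcomp : (mrg a (-b)) ^ 2 ≤ (mrg a b) ^ 2 := by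
    rw [hm1, hm2, div_pow, div_pow, div_le_div_iff₀ (pow_pos h2 2) (pow_pos h1 2)]
    have : 0 ≤ 4 * (a * b) * ((1 - a ^ 2) * (1 - b ^ 2)) :=
      mul_nonneg (mul_nonneg (by norm_num) hab)
        (mul_nonneg (by linarith) (by linarith))
    nlinarith
  have hX : X₂ ≤ X₁ := by
    rw [hX₁, hX₂]
    apply sq_le_sq.1
    rw [mul_pow, mul_pow]
    exact mul_le_mul_of_nonneg_left hcomp (sq_nonneg lam)
  have hcore := cosh_core (c := a * b) hab hX₂0 hX
  have e1 : Real.cosh (lam * mrg a b) = Real.cosh X₁ := by rw [hX₁, Real.cosh_abs]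
  have e2 : Real.cosh (lam * mrg a (-b)) = Real.cosh X₂ := by rw [hX₂, Real.cosh_abs]
  have e3 : Real.cosh ((1 + a * b) * X₁) = Real.cosh (lam * (a + b)) := by
    have : (1 + a * b) * X₁ = |lam * (a + b)| := by
      rw [hX₁]
      nth_rewrite 1 [← abs_of_pos h1]
      rw [← abs_mul]
      congr 1
      rw [hm1]
      field_simp
    rw [this, Real.cosh_abs]
  have e5 : Real.cosh ((1 - a * b) * X₂) = Real.cosh (lam * (a - b)) := by
    have : (1 - a * b) * X₂ = |lam * (a - b)| := by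
      rw [hX₂]
      nth_rewrite 1 [← abs_of_pos h2]
      rw [← abs_mul]
      congr 1
      rw [hm2]
      field_simp
    rw [this, Real.cosh_abs]
  rw [e3, e5] at hcore
  rw [e1, e2, e4]
  have e6 : Real.cosh (lam * (a + b)) + Real.cosh (lam * (a - b))
      = 2 * (Real.cosh (lam * a) * Real.cosh (lam * b)) := by
    have f1 : lam * (a + b) = lam * a + lam * b := by ring
    have f2 : lam * (a - b) = lam * a - lam * b := by ring
    rw [f1, f2, Real.cosh_add, Real.cosh_sub]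
    ring
  rw [e6] at hcore
  linarith

theorem cosh_dom {a b lam : ℝ} (ha : |a| < 1) (hb : |b| < 1) :
    (Real.cosh (lam * mrg a b) * (1 + a * b) + Real.cosh (lam * mrg a (-b)) * (1 + a * (-b))) / 2
      ≤ Real.cosh (lam * a) * Real.cosh (lam * b) := by
  rcases le_total 0 (a * b) with hab | hab
  · exact cosh_dom_nonneg ha hb hab
  · have h := cosh_dom_nonneg (a := a) (b := -b) (lam := lam) ha (by rwa [abs_neg])
      (by nlinarith)
    rw [neg_neg] at h
    have e : lam * -b = -(lam * b) := by ring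
    rw [e, Real.cosh_neg] at h
    linarith

/-! ### `|tanh u| ≤ |u|` -/

theorem tanh_le_self_of_nonneg {u : ℝ} (hu : 0 ≤ u) : Real.tanh u ≤ u := by
  have hmono : MonotoneOn (fun x : ℝ => x * Real.cosh x - Real.sinh x) (Set.Ici 0) := by
    refine monotoneOn_of_deriv_nonneg (convex_Ici 0) (by fun_prop) (by fun_prop) ?_
    intro z hz
    rw [interior_Ici] at hz
    have hz0 : (0 : ℝ) < z := hz
    have hd : HasDerivAt (fun x : ℝ => x * Real.cosh x - Real.sinh x)
        (1 * Real.cosh z + z * Real.sinh z - Real.cosh z) z :=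
      ((hasDerivAt_id z).mul (Real.hasDerivAt_cosh z)).sub (Real.hasDerivAt_sinh z)
    rw [hd.deriv]
    have : 0 ≤ Real.sinh z := Real.sinh_nonneg_iff.2 hz0.le
    nlinarith
  have h := hmono (Set.mem_Ici.2 le_rfl) (Set.mem_Ici.2 hu) hu
  simp only [zero_mul, Real.sinh_zero, sub_zero] at h
  rw [Real.tanh_eq_sinh_div_cosh, div_le_iff₀ (Real.cosh_pos u)]
  linarith

theorem abs_tanh_le (u : ℝ) : |Real.tanh u| ≤ |u| := by
  rcases le_total 0 u with hu | hu
  · have h0 : 0 ≤ Real.tanh u := by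
      rw [Real.tanh_eq_sinh_div_cosh]
      exact div_nonneg (Real.sinh_nonneg_iff.2 hu) (Real.cosh_pos u).le
    rw [abs_of_nonneg h0, abs_of_nonneg hu]
    exact tanh_le_self_of_nonneg hu
  · have hu' : 0 ≤ -u := by linarith
    have h0 : 0 ≤ Real.tanh (-u) := by
      rw [Real.tanh_eq_sinh_div_cosh]
      exact div_nonneg (Real.sinh_nonneg_iff.2 hu') (Real.cosh_pos _).le
    have e : Real.tanh (-u) = - Real.tanh u := Real.tanh_neg u
    rw [e] at h0
    rw [abs_of_nonpos (by linarith), abs_of_nonpos hu]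
    have := tanh_le_self_of_nonneg hu'
    rw [e] at this
    exact this

theorem cosh_tanh_le (lam u : ℝ) : Real.cosh (lam * Real.tanh u) ≤ Real.cosh (lam * u) := by
  rw [← Real.cosh_abs (lam * Real.tanh u), ← Real.cosh_abs (lam * u), Real.cosh_le_cosh,
    abs_abs, abs_abs, abs_mul, abs_mul]
  exact mul_le_mul_of_nonneg_left (abs_tanh_le u) (abs_nonneg lam)

/-! ### Gaussian integrals -/

theorem integrable_cosh_gauss (c s : ℝ) :
    Integrable (fun g => Real.cosh (c + s * g)) (gaussianReal 0 1) := by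
  have h1 : Integrable (fun g => Real.exp (s * g)) (gaussianReal 0 1) :=
    integrable_exp_mul_gaussianReal s
  have h2 : Integrable (fun g => Real.exp ((-s) * g)) (gaussianReal 0 1) :=
    integrable_exp_mul_gaussianReal (-s)
  have e : (fun g => Real.cosh (c + s * g))
      = fun g => (Real.exp c / 2) * Real.exp (s * g) + (Real.exp (-c) / 2) * Real.exp ((-s) * g) := by
    funext g
    rw [Real.cosh_eq, Real.exp_add, neg_add, Real.exp_add, neg_mul]
    ring
  rw [e]
  exact (h1.const_mul _).add (h2.const_mul _)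

theorem integral_exp_gauss (s : ℝ) :
    ∫ g, Real.exp (s * g) ∂(gaussianReal 0 1) = Real.exp (s ^ 2 / 2) := by
  have h := congrFun (mgf_fun_id_gaussianReal (μ := 0) (v := 1)) s
  simp only [mgf] at h
  rw [show (fun g => Real.exp (s * g)) = fun x => Real.exp (s * x) from rfl, h]
  simp

theorem integral_cosh_gauss (c s : ℝ) :
    ∫ g, Real.cosh (c + s * g) ∂(gaussianReal 0 1) = Real.exp (s ^ 2 / 2) * Real.cosh c := by
  have h1 : Integrable (fun g => Real.exp (s * g)) (gaussianReal 0 1) :=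
    integrable_exp_mul_gaussianReal s
  have h2 : Integrable (fun g => Real.exp ((-s) * g)) (gaussianReal 0 1) :=
    integrable_exp_mul_gaussianReal (-s)
  have e : (fun g => Real.cosh (c + s * g))
      = fun g => (Real.exp c / 2) * Real.exp (s * g) + (Real.exp (-c) / 2) * Real.exp ((-s) * g) := by
    funext g
    rw [Real.cosh_eq, Real.exp_add, neg_add, Real.exp_add, neg_mul]
    ring
  rw [e, integral_add (h1.const_mul _) (h2.const_mul _), integral_const_mul, integral_const_mul,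
    integral_exp_gauss, integral_exp_gauss, Real.cosh_eq]
  rw [show (-s) ^ 2 = s ^ 2 by ring]
  ring

end MergeMomentsAux

section second_moment
variable {μ₁ μ₂ : Measure ℝ} (h₁ : SymL μ₁) (h₂ : SymL μ₂)
include h₁ h₂

/-- The second moment of a merge as an iterated integral. -/
theorem MergeMomentsAux.m2L_mergeL_eq :
    m2L (mergeL μ₁ μ₂) = ∫ a, ∫ b, (mrg a b) ^ 2 * (1 + a * b) ∂μ₂ ∂μ₁ := by
  unfold m2L
  refine integral_mergeL h₁ h₂ (f := fun x => x ^ 2) (by fun_prop) ⟨1, fun x hx => ?_⟩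
  rw [abs_pow]
  exact pow_le_one₀ (abs_nonneg x) hx

omit h₁ h₂ in
/-- Boundedness of the second moment kernel. -/
theorem MergeMomentsAux.kernel_bdd {a b : ℝ} (ha : |a| < 1) (hb : |b| < 1) :
    |(mrg a b) ^ 2 * (1 + a * b)| ≤ 2 := by
  have h1 := MergeMomentsAux.one_add_pos ha hb
  have h2 := abs_mrg_le_one ha.le hb
  have h3 : (mrg a b) ^ 2 ≤ 1 := (sq_le_one_iff_abs_le_one _).2 h2
  have h4 : a * b ≤ 1 := by
    have := MergeMomentsAux.one_sub_pos ha hb
    linarith
  rw [abs_of_nonneg (mul_nonneg (sq_nonneg _) h1.le)]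
  nlinarith [sq_nonneg (mrg a b)]

omit h₁ h₂ in
theorem MergeMomentsAux.measurable_kernel (a : ℝ) :
    Measurable (fun b : ℝ => (mrg a b) ^ 2 * (1 + a * b)) := by
  unfold mrg
  fun_prop

theorem m2_mergeL_le : m2L (mergeL μ₁ μ₂) ≤ m2L μ₁ + m2L μ₂ - m2L μ₁ * m2L μ₂ := by
  have := h₁.prob
  have := h₂.prob
  rw [MergeMomentsAux.m2L_mergeL_eq h₁ h₂]
  have hint : Integrable (fun a : ℝ => a ^ 2 + m2L μ₂ - a ^ 2 * m2L μ₂) μ₁ :=
    ((MergeMomentsAux.integrable_sq h₁).add (integrable_const _)).sub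
      ((MergeMomentsAux.integrable_sq h₁).mul_const _)
  have hrhs : ∫ a, (a ^ 2 + m2L μ₂ - a ^ 2 * m2L μ₂) ∂μ₁ = m2L μ₁ + m2L μ₂ - m2L μ₁ * m2L μ₂ := by
    have e : (fun a : ℝ => a ^ 2 + m2L μ₂ - a ^ 2 * m2L μ₂)
        = fun a => m2L μ₂ + (1 - m2L μ₂) * a ^ 2 := by
      funext a; ring
    rw [e, MergeMomentsAux.integral_linear h₁]
    ring
  rw [← hrhs]
  have hinner : Integrable (fun a => ∫ b, (mrg a b) ^ 2 * (1 + a * b) ∂μ₂) μ₁ :=
    MergeMomentsAux.integrable_inner h₁ h₂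
      (K := fun a b => (mrg a b) ^ 2 * (1 + a * b)) (by unfold mrg; fun_prop)
      (fun a b ha hb => MergeMomentsAux.kernel_bdd ha hb)
  refine integral_mono_ae hinner hint ?_
  filter_upwards [h₁.lt_one] with a ha
  rw [MergeMomentsAux.integral_sym h₂ (MergeMomentsAux.measurable_kernel a)
    (C := 2) (fun b hb => MergeMomentsAux.kernel_bdd ha hb)]
  have hb2 : Integrable (fun b : ℝ => a ^ 2 + b ^ 2 - a ^ 2 * b ^ 2) μ₂ :=
    ((integrable_const _).add (MergeMomentsAux.integrable_sq h₂)).sub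
      ((MergeMomentsAux.integrable_sq h₂).const_mul _)
  have hrhs2 : ∫ b, (a ^ 2 + b ^ 2 - a ^ 2 * b ^ 2) ∂μ₂ = a ^ 2 + m2L μ₂ - a ^ 2 * m2L μ₂ := by
    have e : (fun b : ℝ => a ^ 2 + b ^ 2 - a ^ 2 * b ^ 2)
        = fun b => a ^ 2 + (1 - a ^ 2) * b ^ 2 := by
      funext b; ring
    rw [e, MergeMomentsAux.integral_linear h₂]
    ring
  rw [← hrhs2]
  refine integral_mono_ae ?_ hb2 ?_
  · refine ((MergeMomentsAux.integrable_of_bdd h₂ (MergeMomentsAux.measurable_kernel a)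
      (C := 2) (fun b hb => MergeMomentsAux.kernel_bdd ha hb)).add
      (MergeMomentsAux.integrable_neg h₂ (MergeMomentsAux.measurable_kernel a)
      (C := 2) (fun b hb => MergeMomentsAux.kernel_bdd ha hb))).div_const 2
  · filter_upwards [h₂.lt_one] with b hb
    exact MergeMomentsAux.sym_sq_le ha hb

theorem m2_mergeL_ge : m2L μ₁ + m2L μ₂ - 2 * (m2L μ₁ * m2L μ₂) ≤ m2L (mergeL μ₁ μ₂) := by
  have := h₁.prob
  have := h₂.prob
  rw [MergeMomentsAux.m2L_mergeL_eq h₁ h₂]
  have hint : Integrable (fun a : ℝ => a ^ 2 + m2L μ₂ - 2 * (a ^ 2 * m2L μ₂)) μ₁ :=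
    ((MergeMomentsAux.integrable_sq h₁).add (integrable_const _)).sub
      (((MergeMomentsAux.integrable_sq h₁).mul_const _).const_mul _)
  have hrhs : ∫ a, (a ^ 2 + m2L μ₂ - 2 * (a ^ 2 * m2L μ₂)) ∂μ₁
      = m2L μ₁ + m2L μ₂ - 2 * (m2L μ₁ * m2L μ₂) := by
    have e : (fun a : ℝ => a ^ 2 + m2L μ₂ - 2 * (a ^ 2 * m2L μ₂))
        = fun a => m2L μ₂ + (1 - 2 * m2L μ₂) * a ^ 2 := by
      funext a; ring
    rw [e, MergeMomentsAux.integral_linear h₁]
    ring
  rw [← hrhs]
  have hinner : Integrable (fun a => ∫ b, (mrg a b) ^ 2 * (1 + a * b) ∂μ₂) μ₁ :=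
    MergeMomentsAux.integrable_inner h₁ h₂
      (K := fun a b => (mrg a b) ^ 2 * (1 + a * b)) (by unfold mrg; fun_prop)
      (fun a b ha hb => MergeMomentsAux.kernel_bdd ha hb)
  refine integral_mono_ae hint hinner ?_
  filter_upwards [h₁.lt_one] with a ha
  rw [MergeMomentsAux.integral_sym h₂ (MergeMomentsAux.measurable_kernel a)
    (C := 2) (fun b hb => MergeMomentsAux.kernel_bdd ha hb)]
  have hb2 : Integrable (fun b : ℝ => a ^ 2 + b ^ 2 - 2 * (a ^ 2 * b ^ 2)) μ₂ :=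
    ((integrable_const _).add (MergeMomentsAux.integrable_sq h₂)).sub
      (((MergeMomentsAux.integrable_sq h₂).const_mul _).const_mul _)
  have hrhs2 : ∫ b, (a ^ 2 + b ^ 2 - 2 * (a ^ 2 * b ^ 2)) ∂μ₂
      = a ^ 2 + m2L μ₂ - 2 * (a ^ 2 * m2L μ₂) := by
    have e : (fun b : ℝ => a ^ 2 + b ^ 2 - 2 * (a ^ 2 * b ^ 2))
        = fun b => a ^ 2 + (1 - 2 * a ^ 2) * b ^ 2 := by
      funext b; ring
    rw [e, MergeMomentsAux.integral_linear h₂]
    ring
  rw [← hrhs2]
  refine integral_mono_ae hb2 ?_ ?_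
  · refine ((MergeMomentsAux.integrable_of_bdd h₂ (MergeMomentsAux.measurable_kernel a)
      (C := 2) (fun b hb => MergeMomentsAux.kernel_bdd ha hb)).add
      (MergeMomentsAux.integrable_neg h₂ (MergeMomentsAux.measurable_kernel a)
      (C := 2) (fun b hb => MergeMomentsAux.kernel_bdd ha hb))).div_const 2
  · filter_upwards [h₂.lt_one] with b hb
    exact MergeMomentsAux.sym_sq_ge ha hb

end second_moment

theorem coshL_mergeL_le {μ₁ μ₂ : Measure ℝ} (h₁ : SymL μ₁) (h₂ : SymL μ₂) (lam : ℝ) :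
    coshL lam (mergeL μ₁ μ₂) ≤ coshL lam μ₁ * coshL lam μ₂ := by
  have := h₁.prob
  have := h₂.prob
  have hcb : ∀ x : ℝ, |x| ≤ 1 → |Real.cosh (lam * x)| ≤ Real.cosh lam := by
    intro x hx
    rw [abs_of_pos (Real.cosh_pos _), ← Real.cosh_abs (lam * x), ← Real.cosh_abs lam,
      Real.cosh_le_cosh, abs_abs, abs_abs, abs_mul]
    exact mul_le_of_le_one_right (abs_nonneg lam) hx
  have hmeas : Measurable (fun x : ℝ => Real.cosh (lam * x)) := by fun_prop
  have e0 : coshL lam (mergeL μ₁ μ₂) = ∫ a, ∫ b, Real.cosh (lam * mrg a b) * (1 + a * b) ∂μ₂ ∂μ₁ :=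
    integral_mergeL h₁ h₂ (f := fun x => Real.cosh (lam * x)) hmeas ⟨_, hcb⟩
  rw [e0]
  have hK : ∀ a b : ℝ, |a| < 1 → |b| < 1 →
      |Real.cosh (lam * mrg a b) * (1 + a * b)| ≤ Real.cosh lam * 2 := by
    intro a b ha hb
    have h1 := MergeMomentsAux.one_add_pos ha hb
    have h2 := MergeMomentsAux.one_sub_pos ha hb
    rw [abs_mul, abs_of_pos h1]
    refine mul_le_mul (hcb _ (abs_mrg_le_one ha.le hb)) (by linarith) h1.le (Real.cosh_pos _).le
  have hKm : ∀ a : ℝ, Measurable (fun b : ℝ => Real.cosh (lam * mrg a b) * (1 + a * b)) := by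
    intro a
    unfold mrg
    fun_prop
  have hinner : Integrable (fun a => ∫ b, Real.cosh (lam * mrg a b) * (1 + a * b) ∂μ₂) μ₁ :=
    MergeMomentsAux.integrable_inner h₁ h₂
      (K := fun a b => Real.cosh (lam * mrg a b) * (1 + a * b)) (by unfold mrg; fun_prop) hK
  have hc1 : Integrable (fun a : ℝ => Real.cosh (lam * a)) μ₁ :=
    MergeMomentsAux.integrable_of_bdd h₁ hmeas (fun b hb => hcb b hb.le)
  have hc2 : Integrable (fun a : ℝ => Real.cosh (lam * a)) μ₂ :=
    MergeMomentsAux.integrable_of_bdd h₂ hmeas (fun b hb => hcb b hb.le)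
  have hrhs : coshL lam μ₁ * coshL lam μ₂ = ∫ a, Real.cosh (lam * a) * coshL lam μ₂ ∂μ₁ := by
    rw [integral_mul_const]; rfl
  rw [hrhs]
  refine integral_mono_ae hinner (hc1.mul_const _) ?_
  filter_upwards [h₁.lt_one] with a ha
  rw [MergeMomentsAux.integral_sym h₂ (hKm a) (C := Real.cosh lam * 2)
    (fun b hb => hK a b ha hb)]
  have hrhs2 : Real.cosh (lam * a) * coshL lam μ₂
      = ∫ b, Real.cosh (lam * a) * Real.cosh (lam * b) ∂μ₂ := by
    rw [integral_const_mul]; rfl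
  rw [hrhs2]
  refine integral_mono_ae ?_ (hc2.const_mul _) ?_
  · exact ((MergeMomentsAux.integrable_of_bdd h₂ (hKm a) (C := Real.cosh lam * 2)
      (fun b hb => hK a b ha hb)).add
      (MergeMomentsAux.integrable_neg h₂ (hKm a) (C := Real.cosh lam * 2)
      (fun b hb => hK a b ha hb))).div_const 2
  · filter_upwards [h₂.lt_one] with b hb
    exact MergeMomentsAux.cosh_dom ha hb

/-- With `τ = t/4`: `cosh (lam tanh u) ≤ cosh (lam u)`, `u ~ ½ N(τ,τ) + ½ N(-τ,τ)`. -/
theorem coshL_A0_le {t : ℝ} (ht : 0 ≤ t) (lam : ℝ) :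
    coshL lam (A0 t) ≤ Real.exp (lam ^ 2 * t / 8) * Real.cosh (lam * t / 4) := by
  have hcb : ∀ x : ℝ, |x| ≤ 1 → |Real.cosh (lam * x)| ≤ Real.cosh lam := by
    intro x hx
    rw [abs_of_pos (Real.cosh_pos _), ← Real.cosh_abs (lam * x), ← Real.cosh_abs lam,
      Real.cosh_le_cosh, abs_abs, abs_abs, abs_mul]
    exact mul_le_of_le_one_right (abs_nonneg lam) hx
  have hmeas : Measurable (fun x : ℝ => Real.cosh (lam * x)) := by fun_prop
  have e0 := integral_A0 (t := t) (f := fun x => Real.cosh (lam * x)) hmeas ⟨_, hcb⟩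
  unfold coshL
  rw [e0]
  set s := lam * Real.sqrt t / 2 with hs
  have hs2 : s ^ 2 / 2 = lam ^ 2 * t / 8 := by
    rw [hs, div_pow, mul_pow, Real.sq_sqrt ht]
    ring
  -- each term
  have key : ∀ c : ℝ, ∀ c' : ℝ, c' = lam * c / 2 →
      ∫ g, Real.cosh (lam * Real.tanh ((c + Real.sqrt t * g) / 2)) ∂(gaussianReal 0 1)
        ≤ Real.exp (s ^ 2 / 2) * Real.cosh c' := by
    intro c c' hc'
    rw [← MergeMomentsAux.integral_cosh_gauss c' s]
    refine integral_mono ?_ (MergeMomentsAux.integrable_cosh_gauss c' s) ?_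
    · have htc : Continuous Real.tanh := by
        have : Real.tanh = fun x => Real.sinh x / Real.cosh x := funext Real.tanh_eq_sinh_div_cosh
        rw [this]
        exact Real.continuous_sinh.div Real.continuous_cosh (fun x => (Real.cosh_pos x).ne')
      have hcont : Continuous (fun g => Real.cosh (lam * Real.tanh ((c + Real.sqrt t * g) / 2))) :=
        Real.continuous_cosh.comp (continuous_const.mul (htc.comp (by fun_prop)))
      refine Integrable.of_bound hcont.aestronglyMeasurable (Real.cosh lam)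
        (Filter.Eventually.of_forall fun g => ?_)
      have h1 : |Real.tanh ((c + Real.sqrt t * g) / 2)| ≤ 1 := by
        rw [abs_le]
        exact ⟨(Real.neg_one_lt_tanh _).le, (Real.tanh_lt_one _).le⟩
      simpa using hcb _ h1
    · intro g
      have := MergeMomentsAux.cosh_tanh_le lam ((c + Real.sqrt t * g) / 2)
      have e : lam * ((c + Real.sqrt t * g) / 2) = c' + s * g := by
        rw [hc', hs]; ring
      rw [e] at this
      exact this
  have h1 := key (t / 2) (lam * t / 4) (by ring)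
  have h2 := key (-(t / 2)) (-(lam * t / 4)) (by ring)
  rw [Real.cosh_neg] at h2
  rw [hs2] at h1 h2
  linarith

end Crest.Agent.IsingFactor
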