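import Crest.Agent.SRFactor.NoiseLaw

/-!
# IsingFactor.Poincare : the Gaussian Poincare inequality with constant `π²/8` (WP: Poincare).

Proof (Maurey-Pisier rotation): for `g, g'` independent standard, `g_φ = g sin φ + g' cos φ`,
`g̃_φ = g cos φ - g' sin φ` is again a pair of independent standard Gaussians
(`pi_gauss_map_linear`).  `f g - f g' = ∫_0^{π/2} ⟨∇f(g_φ), g̃_φ⟩ dφ`, so by Cauchy-Schwarz in `φ`,
`E (f g - f g')² ≤ (π/2) ∫_0^{π/2} E ⟨∇f(g_φ), g̃_φ⟩² dφ = (π/2)² E |∇f|²`;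
and `E (f g - f g')² = 2 Var f`.
-/

set_option autoImplicit false

open MeasureTheory ProbabilityTheory
open Crest.Agent.SRFactor

namespace Crest.Agent.IsingFactor

namespace PoincareAux

set_option linter.unusedSectionVars false

variable {ι : Type*} [Fintype ι]

instance instProbGaussVec : IsProbabilityMeasure (gaussVec ι) := by
  unfold gaussVec; infer_instance

/-- The rotation by the angle `φ` on pairs of vectors. -/
noncomputable def rot (φ : ℝ) (p : (ι → ℝ) × (ι → ℝ)) : (ι → ℝ) × (ι → ℝ) :=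
  (fun i => p.1 i * Real.sin φ + p.2 i * Real.cos φ,
    fun i => p.1 i * Real.cos φ - p.2 i * Real.sin φ)

theorem continuous_rot_uncurry :
    Continuous (fun q : ℝ × ((ι → ℝ) × (ι → ℝ)) => rot q.1 q.2) := by
  unfold rot
  refine Continuous.prodMk ?_ ?_
  · refine continuous_pi fun i => ?_
    fun_prop
  · refine continuous_pi fun i => ?_
    fun_prop

theorem continuous_rot (φ : ℝ) : Continuous (rot (ι := ι) φ) :=
  continuous_rot_uncurry.comp (Continuous.prodMk continuous_const continuous_id)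

theorem measurable_rot (φ : ℝ) : Measurable (rot (ι := ι) φ) := (continuous_rot φ).measurable

lemma sum_ite_mul_ite [DecidableEq ι] (i i' : ι) (a b : ℝ) :
    ∑ j : ι, (if j = i then a else 0) * (if j = i' then b else 0) =
      if i = i' then a * b else 0 := by
  rw [Finset.sum_eq_single i]
  · by_cases h : i = i' <;> simp [h]
  · intro j _ hj; simp [hj]
  · simp

/-- The rotation preserves the product of two standard Gaussians. -/
theorem rot_invariant (φ : ℝ) :
    ((gaussVec ι).prod (gaussVec ι)).map (rot φ) = (gaussVec ι).prod (gaussVec ι) := by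
  classical
  set s := Real.sin φ with hs
  set c := Real.cos φ with hc
  have hsc : s * s + c * c = 1 := by
    have := Real.sin_sq_add_cos_sq φ
    rw [← hs, ← hc] at this
    nlinarith
  let a : ι ⊕ ι → ι ⊕ ι → ℝ := fun k z =>
    match k, z with
    | Sum.inl i, Sum.inl j => if j = i then s else 0
    | Sum.inl i, Sum.inr j => if j = i then c else 0
    | Sum.inr i, Sum.inl j => if j = i then c else 0
    | Sum.inr i, Sum.inr j => if j = i then -s else 0
  have ha : ∀ k k', ∑ z, a k z * a k' z = if k = k' then 1 else 0 := by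
    intro k k'
    rw [Fintype.sum_sum_type]
    rcases k with i | i <;> rcases k' with i' | i' <;>
      simp only [a, sum_ite_mul_ite, Sum.inl.injEq, Sum.inr.injEq, reduceCtorEq, if_false]
    · by_cases h : i = i' <;> simp [h]
      exact hsc
    · by_cases h : i = i' <;> simp [h]; ring
    · by_cases h : i = i' <;> simp [h]; ring
    · by_cases h : i = i' <;> simp [h]
      rw [add_comm]; exact hsc
  have h0 := pi_gauss_map_linear a ha
  have hprod : (Measure.pi (fun _ : (ι ⊕ ι) => gaussianReal 0 1)).map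
      (MeasurableEquiv.sumPiEquivProdPi (fun _ : ι ⊕ ι => ℝ)) =
      (gaussVec ι).prod (gaussVec ι) := by
    have := (measurePreserving_sumPiEquivProdPi_symm
      (X := fun _ : ι ⊕ ι => ℝ) (fun _ : ι ⊕ ι => gaussianReal 0 1)).map_eq
    unfold gaussVec
    rw [← this, Measure.map_map (by fun_prop) (by fun_prop)]
    simp
  rw [← hprod, Measure.map_map (measurable_rot φ)
    (MeasurableEquiv.sumPiEquivProdPi (fun _ : ι ⊕ ι => ℝ)).measurable]
  conv_rhs => rw [← h0]
  rw [Measure.map_map (MeasurableEquiv.sumPiEquivProdPi (fun _ : ι ⊕ ι => ℝ)).measurable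
    (by
      refine measurable_pi_iff.2 fun k => ?_
      exact Finset.measurable_sum _ fun i _ => (measurable_pi_apply i).const_mul _)]
  congr 1
  funext x
  refine Prod.ext ?_ ?_
  · funext i
    simp only [Function.comp, rot, a, MeasurableEquiv.sumPiEquivProdPi, Fintype.sum_sum_type,
      Equiv.sumPiEquivProdPi, MeasurableEquiv.coe_mk]
    simp [Finset.sum_ite_eq', hs, hc, mul_comm]
  · funext i
    simp only [Function.comp, rot, a, MeasurableEquiv.sumPiEquivProdPi, Fintype.sum_sum_type,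
      Equiv.sumPiEquivProdPi, MeasurableEquiv.coe_mk]
    simp [Finset.sum_ite_eq', hs, hc, mul_comm, sub_eq_add_neg]

lemma integrable_bdd {f : (ι → ℝ) → ℝ} (hf : Measurable f) {C : ℝ}
    (hC : ∀ y, |f y| ≤ C) : Integrable f (gaussVec ι) := by
  refine Integrable.of_bound hf.aestronglyMeasurable C (Filter.Eventually.of_forall fun y => ?_)
  simpa using hC y

/-- The derivative along the rotation. -/
noncomputable def dg (df : ι → (ι → ℝ) → ℝ) (p : (ι → ℝ) × (ι → ℝ)) : ℝ :=
  ∑ i, df i p.1 * p.2 i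

theorem hasDerivAt_along (f : (ι → ℝ) → ℝ) (df : ι → (ι → ℝ) → ℝ)
    (hf : ∀ x, HasFDerivAt f (∑ i, df i x • (ContinuousLinearMap.proj i : (ι → ℝ) →L[ℝ] ℝ)) x)
    (p : (ι → ℝ) × (ι → ℝ)) (φ : ℝ) :
    HasDerivAt (fun φ => f (rot φ p).1) (dg df (rot φ p)) φ := by
  have hγ : HasDerivAt (fun φ => (rot φ p).1) (rot φ p).2 φ := by
    refine hasDerivAt_pi.2 fun i => ?_
    simp only [rot]
    have h1 := (Real.hasDerivAt_sin φ).const_mul (p.1 i)
    have h2 := (Real.hasDerivAt_cos φ).const_mul (p.2 i)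
    exact HasDerivAt.congr_deriv (h1.add h2) (by ring)
  have := (hf (rot φ p).1).comp_hasDerivAt φ hγ
  have h2 : dg df (rot φ p) =
      (∑ i, df i (rot φ p).1 • (ContinuousLinearMap.proj i : (ι → ℝ) →L[ℝ] ℝ)) (rot φ p).2 := by
    simp [dg]
  rw [h2]
  exact this

theorem continuous_dg (df : ι → (ι → ℝ) → ℝ) (hdf : ∀ i, Continuous (df i)) :
    Continuous (dg df) := by
  unfold dg
  refine continuous_finsetSum _ fun i _ => ?_
  exact ((hdf i).comp continuous_fst).mul ((continuous_apply i).comp continuous_snd)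

lemma sq_interval_le (g : ℝ → ℝ) (hg : Continuous g) {L : ℝ} (hL : 0 < L) :
    (∫ φ in (0:ℝ)..L, g φ) ^ 2 ≤ L * ∫ φ in (0:ℝ)..L, (g φ) ^ 2 := by
  set I := ∫ φ in (0:ℝ)..L, g φ with hI
  set J := ∫ φ in (0:ℝ)..L, (g φ) ^ 2 with hJ
  set c := I / L with hc
  have h0 : 0 ≤ ∫ φ in (0:ℝ)..L, (g φ - c) ^ 2 :=
    intervalIntegral.integral_nonneg hL.le fun _ _ => sq_nonneg _
  have h1 : ∫ φ in (0:ℝ)..L, (g φ - c) ^ 2 = J - 2 * c * I + c ^ 2 * L := by
    have e : ∀ φ, (g φ - c) ^ 2 = (g φ) ^ 2 - 2 * c * g φ + c ^ 2 := fun φ => by ring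
    simp_rw [e]
    rw [intervalIntegral.integral_add (by
          apply Continuous.intervalIntegrable; fun_prop) (by
          apply Continuous.intervalIntegrable; fun_prop),
      intervalIntegral.integral_sub (by
          apply Continuous.intervalIntegrable; fun_prop) (by
          apply Continuous.intervalIntegrable; fun_prop),
      intervalIntegral.integral_const_mul]
    simp [hJ, hI]
    ring
  rw [h1] at h0
  have h2 : c * L = I := by rw [hc]; field_simp
  have h3 : 0 ≤ J - I ^ 2 / L := by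
    have : J - 2 * c * I + c ^ 2 * L = J - I ^ 2 / L := by
      rw [hc]; field_simp; ring
    linarith
  have h4 : I ^ 2 / L ≤ J := by linarith
  rw [div_le_iff₀ hL] at h4
  linarith

/-- Pointwise step: fundamental theorem of calculus along the rotation plus Cauchy-Schwarz. -/
theorem pointwise (f : (ι → ℝ) → ℝ) (df : ι → (ι → ℝ) → ℝ)
    (hf : ∀ x, HasFDerivAt f (∑ i, df i x • (ContinuousLinearMap.proj i : (ι → ℝ) →L[ℝ] ℝ)) x)
    (hdf : ∀ i, Continuous (df i)) (p : (ι → ℝ) × (ι → ℝ)) :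
    (f p.1 - f p.2) ^ 2 ≤ (Real.pi / 2) * ∫ φ in (0:ℝ)..(Real.pi / 2), (dg df (rot φ p)) ^ 2 := by
  have hcont : Continuous fun φ => dg df (rot φ p) := by
    refine (continuous_dg df hdf).comp ?_
    exact continuous_rot_uncurry.comp (Continuous.prodMk continuous_id continuous_const)
  have hftc : ∫ φ in (0:ℝ)..(Real.pi / 2), dg df (rot φ p) = f p.1 - f p.2 := by
    have := intervalIntegral.integral_eq_sub_of_hasDerivAt (a := 0) (b := Real.pi / 2)
      (f := fun φ => f (rot φ p).1) (f' := fun φ => dg df (rot φ p))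
      (fun φ _ => hasDerivAt_along f df hf p φ) (hcont.intervalIntegrable _ _)
    rw [this]
    simp [rot]
  rw [← hftc]
  exact sq_interval_le _ hcont (by positivity)

/-- Square bound on the derivative along the rotation. -/
noncomputable def bnd (C : ℝ) (p : (ι → ℝ) × (ι → ℝ)) : ℝ :=
  C ^ 2 * Fintype.card ι * ∑ i, ((p.1 i) ^ 2 + (p.2 i) ^ 2)

theorem integrable_bnd (C : ℝ) : Integrable (bnd (ι := ι) C) ((gaussVec ι).prod (gaussVec ι)) := by
  unfold bnd
  refine Integrable.const_mul ?_ _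
  refine integrable_finsetSum _ fun i _ => ?_
  exact ((integrable_sq_coord i).comp_fst _).add ((integrable_sq_coord i).comp_snd _)

theorem dg_sq_le (df : ι → (ι → ℝ) → ℝ) {C : ℝ} (hC : ∀ i x, |df i x| ≤ C)
    (p : (ι → ℝ) × (ι → ℝ)) : (dg df p) ^ 2 ≤ bnd C p := by
  classical
  unfold dg bnd
  have h1 : (∑ i, df i p.1 * p.2 i) ^ 2 ≤ Fintype.card ι * ∑ i, (df i p.1 * p.2 i) ^ 2 := by
    simpa using sq_sum_le_card_mul_sum_sq (s := Finset.univ) (f := fun i => df i p.1 * p.2 i)
  have h2 : ∑ i, (df i p.1 * p.2 i) ^ 2 ≤ ∑ i, C ^ 2 * ((p.1 i) ^ 2 + (p.2 i) ^ 2) := by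
    refine Finset.sum_le_sum fun i _ => ?_
    have h3 : (df i p.1) ^ 2 ≤ C ^ 2 := by
      have := hC i p.1
      exact sq_le_sq.2 (by rw [abs_of_nonneg ((abs_nonneg _).trans this)]; exact this)
    rw [mul_pow]
    have h4 : (p.2 i) ^ 2 ≤ (p.1 i) ^ 2 + (p.2 i) ^ 2 := by nlinarith [sq_nonneg (p.1 i)]
    calc (df i p.1) ^ 2 * (p.2 i) ^ 2 ≤ C ^ 2 * (p.2 i) ^ 2 := by gcongr
      _ ≤ _ := by gcongr
  calc _ ≤ _ := h1
    _ ≤ (Fintype.card ι : ℝ) * ∑ i, C ^ 2 * ((p.1 i) ^ 2 + (p.2 i) ^ 2) := by gcongr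
    _ = _ := by rw [← Finset.mul_sum]; ring

theorem bnd_rot (C φ : ℝ) (p : (ι → ℝ) × (ι → ℝ)) : bnd C (rot φ p) = bnd C p := by
  unfold bnd rot
  congr 1
  refine Finset.sum_congr rfl fun i _ => ?_
  have := Real.sin_sq_add_cos_sq φ
  simp only
  have e : (p.1 i * Real.sin φ + p.2 i * Real.cos φ) ^ 2 + (p.1 i * Real.cos φ - p.2 i * Real.sin φ) ^ 2
      = ((p.1 i) ^ 2 + (p.2 i) ^ 2) * (Real.sin φ ^ 2 + Real.cos φ ^ 2) := by ring
  rw [e, this, mul_one]

theorem integrable_dg_sq (df : ι → (ι → ℝ) → ℝ) (hdf : ∀ i, Continuous (df i))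
    {C : ℝ} (hC : ∀ i x, |df i x| ≤ C) :
    Integrable (fun p => (dg df p) ^ 2) ((gaussVec ι).prod (gaussVec ι)) := by
  refine (integrable_bnd C).mono' ?_ (Filter.Eventually.of_forall fun p => ?_)
  · exact ((continuous_dg df hdf).pow 2).aestronglyMeasurable
  · rw [Real.norm_of_nonneg (sq_nonneg _)]
    exact dg_sq_le df hC p

/-- Second moment of a linear form. -/
theorem integral_linear_sq (a : ι → ℝ) :
    ∫ y, (∑ i, a i * y i) ^ 2 ∂gaussVec ι = ∑ i, (a i) ^ 2 := by
  classical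
  by_cases h0 : ∑ i, (a i) ^ 2 = 0
  · have hz : ∀ i, a i = 0 := by
      intro i
      have := (Finset.sum_eq_zero_iff_of_nonneg (fun i _ => sq_nonneg (a i))).1 h0 i
        (Finset.mem_univ i)
      exact pow_eq_zero_iff (two_ne_zero) |>.1 this
    simp [hz]
  have hpos : 0 < ∑ i, (a i) ^ 2 :=
    lt_of_le_of_ne (Finset.sum_nonneg fun i _ => sq_nonneg _) (Ne.symm h0)
  set r := Real.sqrt (∑ i, (a i) ^ 2) with hr
  have hr0 : 0 < r := Real.sqrt_pos.2 hpos
  have hr2 : r ^ 2 = ∑ i, (a i) ^ 2 := Real.sq_sqrt hpos.le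
  let b : Unit → ι → ℝ := fun _ i => a i / r
  have hb : ∀ k k', ∑ i, b k i * b k' i = if k = k' then 1 else 0 := by
    intro k k'
    have : k = k' := rfl
    simp only [this, if_true, b]
    have e : ∀ i, a i / r * (a i / r) = (a i) ^ 2 / r ^ 2 := fun i => by field_simp
    simp_rw [e]
    rw [← Finset.sum_div, ← hr2]
    field_simp
  have hmap := pi_gauss_map_linear b hb
  have hm : Measurable (fun (x : ι → ℝ) (k : Unit) => ∑ i, b k i * x i) := by
    refine measurable_pi_iff.2 fun k => ?_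
    exact Finset.measurable_sum _ fun i _ => (measurable_pi_apply i).const_mul _
  have h1 : ∫ y, (∑ i, b () i * y i) ^ 2 ∂gaussVec ι = 1 := by
    have h2 : ∫ z : Unit → ℝ, (z ()) ^ 2 ∂gaussVec Unit = 1 := integral_sq_coord ()
    have h3 : gaussVec Unit = (gaussVec ι).map (fun (x : ι → ℝ) (k : Unit) => ∑ i, b k i * x i) := by
      unfold gaussVec
      exact hmap.symm
    rw [h3, integral_map hm.aemeasurable
      (Measurable.aestronglyMeasurable (by fun_prop))] at h2
    exact h2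
  have e : ∀ y : ι → ℝ, (∑ i, a i * y i) ^ 2 = r ^ 2 * (∑ i, b () i * y i) ^ 2 := by
    intro y
    rw [← mul_pow, Finset.mul_sum]
    congr 2
    funext i
    simp only [b]
    field_simp
  simp_rw [e]
  rw [integral_const_mul, h1, mul_one, hr2]

/-- The variance identity. -/
theorem integral_diff_sq (f : (ι → ℝ) → ℝ) (hm : Measurable f) {C : ℝ} (hC : ∀ x, |f x| ≤ C) :
    ∫ p, (f p.1 - f p.2) ^ 2 ∂((gaussVec ι).prod (gaussVec ι)) =
      2 * ∫ x, (f x) ^ 2 ∂gaussVec ι - 2 * (∫ x, f x ∂gaussVec ι) ^ 2 := by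
  have hf : Integrable f (gaussVec ι) := integrable_bdd hm hC
  have hf2 : Integrable (fun x => (f x) ^ 2) (gaussVec ι) := by
    refine integrable_bdd (hm.pow_const 2) (C := C ^ 2) fun x => ?_
    rw [abs_of_nonneg (sq_nonneg _)]
    have := hC x
    exact sq_le_sq.2 (by rw [abs_of_nonneg ((abs_nonneg _).trans this)]; exact this)
  have e : ∀ p : (ι → ℝ) × (ι → ℝ), (f p.1 - f p.2) ^ 2
      = (f p.1) ^ 2 + (f p.2) ^ 2 - 2 * (f p.1 * f p.2) := fun p => by ring
  simp_rw [e]
  have h1 : Integrable (fun p : (ι → ℝ) × (ι → ℝ) => f p.1 * f p.2)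
      ((gaussVec ι).prod (gaussVec ι)) := hf.mul_prod hf
  have h0 := integral_sub (μ := (gaussVec ι).prod (gaussVec ι))
    (f := fun p : (ι → ℝ) × (ι → ℝ) => (f p.1) ^ 2 + (f p.2) ^ 2)
    (g := fun p : (ι → ℝ) × (ι → ℝ) => 2 * (f p.1 * f p.2))
    ((hf2.comp_fst _).add (hf2.comp_snd _)) (h1.const_mul 2)
  have h00 := integral_add (μ := (gaussVec ι).prod (gaussVec ι))
    (f := fun p : (ι → ℝ) × (ι → ℝ) => (f p.1) ^ 2)
    (g := fun p : (ι → ℝ) × (ι → ℝ) => (f p.2) ^ 2) (hf2.comp_fst _) (hf2.comp_snd _)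
  rw [h0, h00, integral_const_mul, integral_prod_mul f f]
  have h2 : ∫ p : (ι → ℝ) × (ι → ℝ), (f p.1) ^ 2 ∂((gaussVec ι).prod (gaussVec ι))
      = ∫ x, (f x) ^ 2 ∂gaussVec ι := by
    have := integral_prod_mul (μ := gaussVec ι) (ν := gaussVec ι)
      (fun x => (f x) ^ 2) (fun _ => (1 : ℝ))
    simpa using this
  have h3 : ∫ p : (ι → ℝ) × (ι → ℝ), (f p.2) ^ 2 ∂((gaussVec ι).prod (gaussVec ι))
      = ∫ x, (f x) ^ 2 ∂gaussVec ι := by
    have := integral_prod_mul (μ := gaussVec ι) (ν := gaussVec ι)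
      (fun _ => (1 : ℝ)) (fun x => (f x) ^ 2)
    simpa using this
  rw [h2, h3]
  ring

/-- The square of the directional derivative integrates to the squared gradient. -/
theorem integral_dg_sq (df : ι → (ι → ℝ) → ℝ) (hdf : ∀ i, Continuous (df i))
    {C : ℝ} (hC : ∀ i x, |df i x| ≤ C) :
    ∫ p, (dg df p) ^ 2 ∂((gaussVec ι).prod (gaussVec ι)) =
      ∑ i, ∫ x, (df i x) ^ 2 ∂gaussVec ι := by
  rw [integral_prod _ (integrable_dg_sq df hdf hC)]
  have h1 : ∀ x : ι → ℝ, ∫ y, (dg df (x, y)) ^ 2 ∂gaussVec ι = ∑ i, (df i x) ^ 2 := by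
    intro x
    exact integral_linear_sq (fun i => df i x)
  simp_rw [h1]
  rw [integral_finsetSum]
  intro i _
  refine integrable_bdd ((hdf i).measurable.pow_const 2) (C := C ^ 2) fun x => ?_
  rw [abs_of_nonneg (sq_nonneg _)]
  have := hC i x
  exact sq_le_sq.2 (by rw [abs_of_nonneg ((abs_nonneg _).trans this)]; exact this)

/-- The double integral over the rotation parameter and the Gaussian pair. -/
theorem integral_rot_dg (df : ι → (ι → ℝ) → ℝ) (hdf : ∀ i, Continuous (df i))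
    {C : ℝ} (hC : ∀ i x, |df i x| ≤ C) :
    ∫ p, (∫ φ in (0:ℝ)..(Real.pi / 2), (dg df (rot φ p)) ^ 2)
        ∂((gaussVec ι).prod (gaussVec ι)) =
      (Real.pi / 2) * ∑ i, ∫ x, (df i x) ^ 2 ∂gaussVec ι := by
  have hpi : (0:ℝ) ≤ Real.pi / 2 := by positivity
  set μ2 := (gaussVec ι).prod (gaussVec ι) with hμ2
  set I := (volume.restrict (Set.Ioc (0:ℝ) (Real.pi / 2))) with hI
  have : IsFiniteMeasure I := by
    rw [hI]; exact ⟨by simp⟩
  have hint : Integrable (Function.uncurry fun (φ : ℝ) (p : (ι → ℝ) × (ι → ℝ)) =>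
      (dg df (rot φ p)) ^ 2) (I.prod μ2) := by
    refine ((integrable_bnd C).comp_snd I).mono' ?_ (Filter.Eventually.of_forall fun q => ?_)
    · have : Continuous (Function.uncurry fun (φ : ℝ) (p : (ι → ℝ) × (ι → ℝ)) =>
          (dg df (rot φ p)) ^ 2) :=
        ((continuous_dg df hdf).comp continuous_rot_uncurry).pow 2
      exact this.aestronglyMeasurable
    · simp only [Function.uncurry]
      rw [Real.norm_of_nonneg (sq_nonneg _), ← bnd_rot C q.1 q.2]
      exact dg_sq_le df hC _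
  simp_rw [intervalIntegral.integral_of_le hpi]
  have hswap := integral_integral_swap hint
  rw [← hswap]
  have h1 : ∀ φ : ℝ, ∫ p, (dg df (rot φ p)) ^ 2 ∂μ2 = ∑ i, ∫ x, (df i x) ^ 2 ∂gaussVec ι := by
    intro φ
    rw [← integral_dg_sq df hdf hC, ← hμ2]
    have hri : μ2.map (rot φ) = μ2 := rot_invariant (ι := ι) φ
    conv_rhs => rw [← hri]
    exact (integral_map (f := fun p => (dg df p) ^ 2) (measurable_rot φ).aemeasurable
      ((continuous_dg df hdf).pow 2).aestronglyMeasurable).symm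
  simp_rw [h1]
  rw [integral_const]
  simp [hI, Measure.real, ENNReal.toReal_ofReal hpi]

end PoincareAux

open PoincareAux in
theorem gauss_poincare {ι : Type*} [Fintype ι] (f : (ι → ℝ) → ℝ) (df : ι → (ι → ℝ) → ℝ)
    (hf : ∀ x, HasFDerivAt f (∑ i, df i x • (ContinuousLinearMap.proj i : (ι → ℝ) →L[ℝ] ℝ)) x)
    (hdf : ∀ i, Continuous (df i)) (hbd : ∃ C, ∀ i x, |df i x| ≤ C) (hfb : ∃ C, ∀ x, |f x| ≤ C) :
    ∫ g, (f g) ^ 2 ∂gaussVec ι ≤ (∫ g, f g ∂gaussVec ι) ^ 2
      + (Real.pi ^ 2 / 8) * ∑ i, ∫ g, (df i g) ^ 2 ∂gaussVec ι := by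
  obtain ⟨C, hC⟩ := hbd
  obtain ⟨D, hD⟩ := hfb
  have hcontf : Continuous f := continuous_iff_continuousAt.2 fun x => (hf x).continuousAt
  have hmf : Measurable f := hcontf.measurable
  have hvar := integral_diff_sq f hmf hD
  have hpt := pointwise f df hf hdf
  have hint_l : Integrable (fun p : (ι → ℝ) × (ι → ℝ) => (f p.1 - f p.2) ^ 2)
      ((gaussVec ι).prod (gaussVec ι)) := by
    refine Integrable.of_bound (C := (2 * D) ^ 2) ?_ (Filter.Eventually.of_forall fun p => ?_)
    · exact (((hmf.comp measurable_fst).sub (hmf.comp measurable_snd)).pow_const 2).aestronglyMeasurable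
    · rw [Real.norm_of_nonneg (sq_nonneg _)]
      have h1 := abs_sub (f p.1) (f p.2)
      have h2 := hD p.1
      have h3 := hD p.2
      have h4 : |f p.1 - f p.2| ≤ 2 * D := by linarith
      exact sq_le_sq.2 (by
        rw [abs_of_nonneg ((abs_nonneg _).trans h4)]; exact h4)
  have hint_r : Integrable (fun p : (ι → ℝ) × (ι → ℝ) =>
      (Real.pi / 2) * ∫ φ in (0:ℝ)..(Real.pi / 2), (dg df (rot φ p)) ^ 2)
      ((gaussVec ι).prod (gaussVec ι)) := by
    refine Integrable.const_mul ?_ _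
    have hpi : (0:ℝ) ≤ Real.pi / 2 := by positivity
    simp_rw [intervalIntegral.integral_of_le hpi]
    have : IsFiniteMeasure (volume.restrict (Set.Ioc (0:ℝ) (Real.pi / 2))) := ⟨by simp⟩
    have hint : Integrable (Function.uncurry fun (p : (ι → ℝ) × (ι → ℝ)) (φ : ℝ) =>
        (dg df (rot φ p)) ^ 2)
        (((gaussVec ι).prod (gaussVec ι)).prod (volume.restrict (Set.Ioc (0:ℝ) (Real.pi / 2)))) := by
      refine ((integrable_bnd C).comp_fst _).mono' ?_ (Filter.Eventually.of_forall fun q => ?_)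
      · have : Continuous (Function.uncurry fun (p : (ι → ℝ) × (ι → ℝ)) (φ : ℝ) =>
            (dg df (rot φ p)) ^ 2) := by
          have h1 : Continuous fun q : ((ι → ℝ) × (ι → ℝ)) × ℝ => rot q.2 q.1 :=
            continuous_rot_uncurry.comp (Continuous.prodMk continuous_snd continuous_fst)
          exact ((continuous_dg df hdf).comp h1).pow 2
        exact this.aestronglyMeasurable
      · simp only [Function.uncurry]
        rw [Real.norm_of_nonneg (sq_nonneg _), ← bnd_rot C q.2 q.1]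
        exact dg_sq_le df hC _
    exact hint.integral_prod_left
  have hmono := integral_mono hint_l hint_r hpt
  rw [hvar, integral_const_mul, integral_rot_dg df hdf hC] at hmono
  have e : Real.pi / 2 * (Real.pi / 2 * ∑ i, ∫ x, (df i x) ^ 2 ∂gaussVec ι)
      = 2 * ((Real.pi ^ 2 / 8) * ∑ i, ∫ g, (df i g) ^ 2 ∂gaussVec ι) := by ring
  rw [e] at hmono
  linarith

end Crest.Agent.IsingFactor
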