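import Crest.Agent.IsingFactor.Gibbs
import Crest.Agent.IsingFactor.Poincare

/-!
# IsingFactor.OneDefect (WP IF-OneDefect): the martingale defect of one Euler step.

# IsingFactor.OneStep : one step of the pair of Euler schemes (WP: OneStep).

State: tilts `l¹`, `l²` on windows `W₁`, `W₂`.  Next tilt (see `euler`):
`nextL θ W l h g i = l i + h * post (l) i + √h * g i - h / 2`.
Two facts:
(a) MARTINGALE DEFECT: `|∫ magn (nextL l g) dγ - magn l| ≤ C |W|² h²`.  Proof: exact Bayes identity
`magn l = ∑_S μ_l(S) ∫ magn (l + h 1_S + √h g - h/2) dγ` (prior `μ_l ∝ wtS e^{∑_S l}`, observation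
`h 1_S + √h g`; the density of the observation against the pure noise is `e^{∑_S (z_i - h/2)}`, and
summing over `S` cancels the denominator of `magn`), then second order Taylor in `h (1_S - p)`
around `h p`, `p = post l`, the first order term vanishing on average over `S`.  The second
directional derivative of `magn` along `d` is a third cumulant, bounded by `C (∑ |d_i|)²`.
(b) POINCARE in `g` (`gauss_poincare`), with `∂ (magn (nextL l g)) / ∂ g_u = √h covS(nextL l g) / 2`.
Statements may be ADDED; do not change the ones below without posting on chat (topic S0241), other packages use them.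
-/

set_option autoImplicit false

open MeasureTheory ProbabilityTheory
open Crest.Agent.SRFactor

namespace Crest.Agent.IsingFactor

variable {V : Type*} [DecidableEq V] {G : SimpleGraph V}

/-- One Euler step of the tilt, driven by the Gaussian vector `g` on the index set `I` ⊇ `W`. -/
noncomputable def nextL (G : SimpleGraph V) (θ : ℝ) (W : Finset V) (l : V → ℝ) (h : ℝ)
    {I : Finset V} (g : I → ℝ) (i : V) : ℝ :=
  l i + h * post (isingW G θ W) W l i + Real.sqrt h * (if hi : i ∈ I then g ⟨i, hi⟩ else 0) - h / 2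

namespace OneDefectAux

/-- Second order Taylor expansion of the tilted average, by hand. -/
theorem ratio_taylor {α : Type*} (T : Finset α) (p : α → ℝ) (hp : ∀ t ∈ T, 0 ≤ p t)
    (hp1 : ∑ t ∈ T, p t = 1) (σ Y : α → ℝ) (hσ : ∀ t ∈ T, |σ t| ≤ 1) {D : ℝ} (hD0 : 0 ≤ D)
    (hD1 : D ≤ 1) (hY : ∀ t ∈ T, ∀ t' ∈ T, |Y t - Y t'| ≤ D) :
    |(∑ t ∈ T, p t * (σ t * Real.exp (Y t))) / (∑ t ∈ T, p t * Real.exp (Y t))
        - (∑ t ∈ T, p t * σ t)
        - ((∑ t ∈ T, p t * (σ t * Y t)) - (∑ t ∈ T, p t * σ t) * (∑ t ∈ T, p t * Y t))|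
      ≤ 3 * D ^ 2 := by
  classical
  -- abstract bound for the expectation
  have habs : ∀ (f : α → ℝ) (c : ℝ), (∀ t ∈ T, |f t| ≤ c) → |∑ t ∈ T, p t * f t| ≤ c := by
    intro f c hf
    calc |∑ t ∈ T, p t * f t| ≤ ∑ t ∈ T, |p t * f t| := Finset.abs_sum_le_sum_abs _ _
      _ ≤ ∑ t ∈ T, p t * c := by
          refine Finset.sum_le_sum fun t ht => ?_
          rw [abs_mul, abs_of_nonneg (hp t ht)]
          exact mul_le_mul_of_nonneg_left (hf t ht) (hp t ht)
      _ = c := by rw [← Finset.sum_mul, hp1, one_mul]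
  set Yb := ∑ t ∈ T, p t * Y t with hYb
  set σb := ∑ t ∈ T, p t * σ t with hσb
  set Y' : α → ℝ := fun t => Y t - Yb with hY'
  have hY'b : ∀ t ∈ T, |Y' t| ≤ D := by
    intro t ht
    have e : Y' t = ∑ t' ∈ T, p t' * (Y t - Y t') := by
      simp only [mul_sub, Finset.sum_sub_distrib, ← Finset.sum_mul, hp1, one_mul, hY', ← hYb]
    rw [e]
    exact habs _ _ fun t' ht' => hY t ht t' ht'
  have hY'0 : ∑ t ∈ T, p t * Y' t = 0 := by
    simp only [hY', mul_sub, Finset.sum_sub_distrib, ← Finset.sum_mul, hp1, one_mul, ← hYb, sub_self]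
  set r : α → ℝ := fun t => Real.exp (Y' t) - 1 - Y' t with hr
  have hr0 : ∀ t, 0 ≤ r t := fun t => by
    have := Real.add_one_le_exp (Y' t)
    simp only [hr]; linarith
  have hrD : ∀ t ∈ T, |r t| ≤ D ^ 2 := by
    intro t ht
    have h1 : |Y' t| ≤ 1 := (hY'b t ht).trans hD1
    have h2 := Real.abs_exp_sub_one_sub_id_le h1
    refine h2.trans ?_
    rw [← sq_abs]
    exact pow_le_pow_left₀ (abs_nonneg _) (hY'b t ht) 2
  set ρ := ∑ t ∈ T, p t * r t with hρ
  have hρ0 : 0 ≤ ρ := Finset.sum_nonneg fun t ht => mul_nonneg (hp t ht) (hr0 t)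
  have hρD : ρ ≤ D ^ 2 := (le_abs_self _).trans (habs _ _ hrD)
  set s := ∑ t ∈ T, p t * (σ t * r t) with hs
  have hsD : |s| ≤ D ^ 2 := by
    refine habs _ _ fun t ht => ?_
    rw [abs_mul]
    have h3 := hrD t ht
    have h4 := hσ t ht
    have h5 := abs_nonneg (r t)
    nlinarith [abs_nonneg (σ t)]
  set Cv := ∑ t ∈ T, p t * (σ t * Y' t) with hCv
  have hCvD : |Cv| ≤ D := by
    refine habs _ _ fun t ht => ?_
    rw [abs_mul]
    have h3 := hY'b t ht
    have h4 := hσ t ht
    have h5 := abs_nonneg (Y' t)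
    nlinarith [abs_nonneg (σ t)]
  have hσbD : |σb| ≤ 1 := habs _ _ hσ
  have hCv' : (∑ t ∈ T, p t * (σ t * Y t)) - σb * Yb = Cv := by
    simp only [hCv, hY', mul_sub, Finset.sum_sub_distrib]
    congr 1
    rw [hσb, Finset.sum_mul]
    refine Finset.sum_congr rfl fun t _ => ?_
    ring
  -- the exponentials
  have hexp : ∀ t, Real.exp (Y t) = Real.exp Yb * (1 + Y' t + r t) := by
    intro t
    have : 1 + Y' t + r t = Real.exp (Y' t) := by simp only [hr]; ring
    rw [this, ← Real.exp_add]
    congr 1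
    simp only [hY']; ring
  have hden : ∑ t ∈ T, p t * Real.exp (Y t) = Real.exp Yb * (1 + ρ) := by
    simp only [hexp]
    have : ∀ t, p t * (Real.exp Yb * (1 + Y' t + r t)) =
        Real.exp Yb * (p t + p t * Y' t + p t * r t) := fun t => by ring
    simp only [this, ← Finset.mul_sum, Finset.sum_add_distrib, hp1, hY'0]
    rw [hρ]; ring
  have hnum : ∑ t ∈ T, p t * (σ t * Real.exp (Y t)) = Real.exp Yb * (σb + Cv + s) := by
    simp only [hexp]
    have : ∀ t, p t * (σ t * (Real.exp Yb * (1 + Y' t + r t))) =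
        Real.exp Yb * (p t * σ t + p t * (σ t * Y' t) + p t * (σ t * r t)) := fun t => by ring
    simp only [this, ← Finset.mul_sum, Finset.sum_add_distrib]
    rfl
  have hexp0 : Real.exp Yb ≠ 0 := (Real.exp_pos _).ne'
  have hN : 0 < 1 + ρ := by linarith
  rw [hden, hnum, mul_div_mul_left _ _ hexp0, hCv']
  have hfin : (σb + Cv + s) / (1 + ρ) - σb - Cv = (s - (σb + Cv) * ρ) / (1 + ρ) := by
    field_simp
    ring
  rw [hfin, abs_div, abs_of_pos hN]
  have h6 : |s - (σb + Cv) * ρ| ≤ 3 * D ^ 2 := by
    have h7 : |(σb + Cv) * ρ| ≤ 2 * D ^ 2 := by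
      rw [abs_mul, abs_of_nonneg hρ0]
      have h8 : |σb + Cv| ≤ 2 := (abs_add_le _ _).trans (by linarith)
      have := abs_nonneg (σb + Cv)
      nlinarith
    calc |s - (σb + Cv) * ρ| ≤ |s| + |(σb + Cv) * ρ| := abs_sub _ _
      _ ≤ 3 * D ^ 2 := by linarith
  calc |s - (σb + Cv) * ρ| / (1 + ρ) ≤ |s - (σb + Cv) * ρ| / 1 :=
        div_le_div_of_nonneg_left (abs_nonneg _) one_pos (by linarith)
    _ ≤ 3 * D ^ 2 := by simpa using h6

section main

variable {V : Type*} [DecidableEq V] {G : SimpleGraph V}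

lemma measurable_magn (θ : ℝ) (W : Finset V) (v : V) :
    Measurable (fun lam : V → ℝ => magn G θ W lam v) := by
  have hexp : ∀ S : Finset V, Measurable (fun lam : V → ℝ => Real.exp (∑ i ∈ S, lam i)) := fun S =>
    Real.measurable_exp.comp (Finset.measurable_sum _ fun i _ => measurable_pi_apply i)
  unfold magn gAvg Zf
  refine Measurable.div ?_ ?_
  · exact Finset.measurable_sum _ fun S _ => ((hexp S).const_mul _).mul_const _
  · exact Finset.measurable_sum _ fun S _ => (hexp S).const_mul _

/-- Extension by zero of a vector on `I`. -/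
def gExt {I : Finset V} (g : I → ℝ) (i : V) : ℝ := if hi : i ∈ I then g ⟨i, hi⟩ else 0

lemma gExt_coe {I : Finset V} (g : I → ℝ) (i : I) : gExt g i = g i := by
  simp [gExt]

lemma measurable_gExt {I : Finset V} (i : V) : Measurable (fun g : I → ℝ => gExt g i) := by
  unfold gExt
  by_cases hi : i ∈ I
  · simp only [hi, dif_pos]; exact measurable_pi_apply _
  · simp only [hi, dif_neg, not_false_eq_true]; exact measurable_const

/-- The weights of the prior. -/
noncomputable def muL (G : SimpleGraph V) (θ : ℝ) (W : Finset V) (l : V → ℝ) (S : Finset V) : ℝ :=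
  tw G θ W l S / Zf G θ W l

lemma muL_nonneg {θ : ℝ} (hθ : GoodTheta θ) (W : Finset V) (l : V → ℝ) (S : Finset V) :
    0 ≤ muL G θ W l S :=
  div_nonneg (tw_pos hθ W l S).le (Zf_pos hθ W l).le

lemma sum_muL {θ : ℝ} (hθ : GoodTheta θ) (W : Finset V) (l : V → ℝ) :
    ∑ S ∈ W.powerset, muL G θ W l S = 1 := by
  have hz := Zf_pos (G := G) hθ W l
  unfold muL
  rw [← Finset.sum_div]
  refine (div_eq_one_iff_eq hz.ne').2 ?_
  rfl

lemma gAvg_eq_sum_muL (θ : ℝ) (W : Finset V) (l : V → ℝ) (f : Finset V → ℝ) :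
    gAvg G θ W l f = ∑ S ∈ W.powerset, muL G θ W l S * f S := by
  rw [gAvg_eq]
  unfold gNum muL
  rw [Finset.sum_div]
  refine Finset.sum_congr rfl fun S _ => ?_
  ring

/-- The tilted measure, `magn` of the shifted tilt: one step of Taylor. -/
theorem taylor_step {θ : ℝ} (hθ : GoodTheta θ) (W : Finset V) (b d : V → ℝ) (v : V) {D : ℝ}
    (hD0 : 0 ≤ D) (hD1 : D ≤ 1)
    (hY : ∀ S ∈ W.powerset, ∀ S' ∈ W.powerset, |∑ i ∈ S, d i - ∑ i ∈ S', d i| ≤ D) :
    |magn G θ W (fun i => b i + d i) v - magn G θ W b v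
        - (gAvg G θ W b (fun S => sgnS S v * ∑ i ∈ S, d i)
            - magn G θ W b v * gAvg G θ W b (fun S => ∑ i ∈ S, d i))| ≤ 3 * D ^ 2 := by
  have h := ratio_taylor W.powerset (muL G θ W b) (fun S _ => muL_nonneg hθ W b S)
    (sum_muL hθ W b) (fun S => sgnS S v) (fun S => ∑ i ∈ S, d i)
    (fun S _ => (abs_sgnS S v).le) hD0 hD1 hY
  have hz := Zf_pos (G := G) hθ W b
  have hm : ∀ f : Finset V → ℝ, ∑ S ∈ W.powerset, muL G θ W b S * f S = gAvg G θ W b f :=
    fun f => (gAvg_eq_sum_muL θ W b f).symm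
  have hshift : ∀ S : Finset V, tw G θ W (fun i => b i + d i) S
      = tw G θ W b S * Real.exp (∑ i ∈ S, d i) := by
    intro S
    unfold tw
    rw [Finset.sum_add_distrib, Real.exp_add]
    ring
  have hmagn : magn G θ W (fun i => b i + d i) v =
      (∑ S ∈ W.powerset, muL G θ W b S * (sgnS S v * Real.exp (∑ i ∈ S, d i))) /
        (∑ S ∈ W.powerset, muL G θ W b S * Real.exp (∑ i ∈ S, d i)) := by
    unfold magn
    rw [gAvg_eq, Zf_eq]
    unfold gNum muL
    simp only [hshift]
    have e1 : ∀ S : Finset V, tw G θ W b S / Zf G θ W b * (sgnS S v * Real.exp (∑ i ∈ S, d i))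
        = (tw G θ W b S * Real.exp (∑ i ∈ S, d i) * sgnS S v) / Zf G θ W b := fun S => by ring
    have e2 : ∀ S : Finset V, tw G θ W b S / Zf G θ W b * Real.exp (∑ i ∈ S, d i)
        = (tw G θ W b S * Real.exp (∑ i ∈ S, d i) * 1) / Zf G θ W b := fun S => by ring
    simp only [e1, e2]
    rw [← Finset.sum_div, ← Finset.sum_div, div_div_div_cancel_right₀ hz.ne']
  rw [hmagn]
  have e : ∀ f : Finset V → ℝ, gAvg G θ W b f = ∑ S ∈ W.powerset, muL G θ W b S * f S :=
    gAvg_eq_sum_muL θ W b
  have em : magn G θ W b v = ∑ S ∈ W.powerset, muL G θ W b S * sgnS S v := e _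
  rw [em, e, e]
  exact h


lemma sum_ind_mul {I S : Finset V} (hS : S ⊆ I) (X : V → ℝ) :
    ∑ i : I, ind S (i : V) * X i = ∑ i ∈ S, X i := by
  rw [Finset.sum_coe_sort I (fun i => ind S i * X i)]
  have : ∀ i ∈ I, ind S i * X i = if i ∈ S then X i else 0 := by
    intro i _
    unfold ind
    split_ifs <;> simp
  rw [Finset.sum_congr rfl this, Finset.sum_ite_mem, Finset.inter_eq_right.2 hS]

/-- The Bayes identity: the magnetisation is the average of the magnetisation after an observation. -/
theorem bayes_identity {θ : ℝ} (hθ : GoodTheta θ) (W : Finset V) (l : V → ℝ) {h : ℝ} (h0 : 0 < h)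
    {I : Finset V} (hI : W ⊆ I) (v : V) :
    magn G θ W l v = ∑ S ∈ W.powerset, muL G θ W l S *
      ∫ g, magn G θ W (fun i => l i + h * ind S i + Real.sqrt h * gExt g i - h / 2) v ∂gaussVec I := by
  classical
  have hs : Real.sqrt h * Real.sqrt h = h := Real.mul_self_sqrt h0.le
  set L : (I → ℝ) → V → ℝ := fun g i => l i + Real.sqrt h * gExt g i - h / 2 with hL
  set F : (I → ℝ) → ℝ := fun g => magn G θ W (L g) v with hF
  have hLm : Measurable L := by
    refine measurable_pi_iff.2 fun i => ?_
    exact (((measurable_gExt i).const_mul _).const_add _).sub_const _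
  have hFm : Measurable F := (measurable_magn θ W v).comp hLm
  have hFb : ∀ g, |F g| ≤ 1 := fun g => abs_magn_le_one hθ W _ v
  let a : Finset V → I → ℝ := fun S i => Real.sqrt h * ind S i
  let ex : Finset V → (I → ℝ) → ℝ := fun S g =>
    Real.exp (∑ i, a S i * g i - ∑ i, a S i ^ 2 / 2)
  -- the exponent
  have hex : ∀ S ∈ W.powerset, ∀ g : I → ℝ,
      ∑ i, a S i * g i - ∑ i, a S i ^ 2 / 2 = ∑ i ∈ S, (Real.sqrt h * gExt g i - h / 2) := by
    intro S hS g
    have hSI : S ⊆ I := (Finset.mem_powerset.1 hS).trans hI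
    have e1 : ∑ i, a S i * g i = ∑ i ∈ S, Real.sqrt h * gExt g i := by
      rw [← sum_ind_mul hSI]
      refine Finset.sum_congr rfl fun i _ => ?_
      rw [gExt_coe]
      simp only [a]; ring
    have e2 : ∑ i, a S i ^ 2 / 2 = ∑ i ∈ S, h / 2 := by
      rw [← sum_ind_mul hSI]
      refine Finset.sum_congr rfl fun i _ => ?_
      simp only [a, ind]
      split_ifs
      · nlinarith
      · simp
    rw [e1, e2, Finset.sum_sub_distrib]
  -- the law of the shifted noise
  have hshift : ∀ S ∈ W.powerset,
      ∫ g, magn G θ W (fun i => l i + h * ind S i + Real.sqrt h * gExt g i - h / 2) v ∂gaussVec I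
        = ∫ g, F g * ex S g ∂gaussVec I := by
    intro S hS
    have hSI : S ⊆ I := (Finset.mem_powerset.1 hS).trans hI
    rw [← integral_gaussVec_add (a S) F hFm]
    refine integral_congr_ae (Filter.Eventually.of_forall fun g => ?_)
    show magn G θ W _ v = magn G θ W (L (g + a S)) v
    congr 1
    funext i
    simp only [hL]
    by_cases hi : i ∈ I
    · have e : gExt (g + a S) i = gExt g i + Real.sqrt h * ind S i := by
        simp [gExt, hi, a]
      have e3 : Real.sqrt h * (gExt g i + Real.sqrt h * ind S i) =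
          Real.sqrt h * gExt g i + h * ind S i := by
        rw [mul_add, ← mul_assoc, hs]
      rw [e, e3]
      ring
    · have e : gExt (g + a S) i = 0 := by simp [gExt, hi]
      have e' : gExt g i = 0 := by simp [gExt, hi]
      have e'' : ind S i = 0 := by
        unfold ind
        rw [if_neg (fun hc => hi (hSI hc))]
      rw [e, e', e'']
      ring
  -- Total mass of the exponential
  have hexI : ∀ S, Integrable (ex S) (gaussVec I) := by
    intro S
    have := (integrable_exp_dot (ι := I) (a S)).mul_const (Real.exp (- ∑ i, a S i ^ 2 / 2))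
    refine this.congr (Filter.Eventually.of_forall fun g => ?_)
    show Real.exp (∑ i, a S i * g i) * Real.exp (- ∑ i, a S i ^ 2 / 2) = ex S g
    simp only [ex]
    rw [← Real.exp_add, sub_eq_add_neg]
  have hex1 : ∀ S, ∫ g, ex S g ∂gaussVec I = 1 := by
    intro S
    have e : ∀ g, ex S g = Real.exp (∑ i, a S i * g i) * Real.exp (- ∑ i, a S i ^ 2 / 2) := by
      intro g
      simp only [ex]
      rw [← Real.exp_add, sub_eq_add_neg]
    simp only [e]
    rw [integral_mul_const, integral_exp_dot, ← Real.exp_add, add_neg_cancel, Real.exp_zero]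
  have hFexI : ∀ S, Integrable (fun g => F g * ex S g) (gaussVec I) := by
    intro S
    refine (hexI S).bdd_mul (c := 1) hFm.aestronglyMeasurable
      (Filter.Eventually.of_forall fun g => ?_)
    simpa using hFb g
  -- pointwise identity
  have hz := Zf_pos (G := G) hθ W l
  have hpt : ∀ g, F g * ∑ S ∈ W.powerset, muL G θ W l S * ex S g
      = ∑ S ∈ W.powerset, muL G θ W l S * ex S g * sgnS S v := by
    intro g
    have htw : ∀ S ∈ W.powerset, tw G θ W (L g) S = Zf G θ W l * (muL G θ W l S * ex S g) := by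
      intro S hS
      have e1 : Real.exp (∑ i ∈ S, L g i) = Real.exp (∑ i ∈ S, l i) * ex S g := by
        simp only [ex]
        rw [hex S hS g, ← Real.exp_add, ← Finset.sum_add_distrib]
        congr 1
        refine Finset.sum_congr rfl fun i _ => ?_
        simp only [hL]; ring
      unfold muL tw at *
      rw [e1]
      field_simp
    have hZ : Zf G θ W (L g) = Zf G θ W l * ∑ S ∈ W.powerset, muL G θ W l S * ex S g := by
      rw [Zf_eq]
      unfold gNum
      rw [Finset.mul_sum]
      refine Finset.sum_congr rfl fun S hS => ?_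
      rw [htw S hS, mul_one]
    have hN : gNum G θ W (L g) (fun S => sgnS S v)
        = Zf G θ W l * ∑ S ∈ W.powerset, muL G θ W l S * ex S g * sgnS S v := by
      unfold gNum
      rw [Finset.mul_sum]
      refine Finset.sum_congr rfl fun S hS => ?_
      rw [htw S hS]; ring
    have hzL := Zf_pos (G := G) hθ W (L g)
    have hF' : F g = gNum G θ W (L g) (fun S => sgnS S v) / Zf G θ W (L g) := rfl
    have hne : ∑ S ∈ W.powerset, muL G θ W l S * ex S g ≠ 0 := by
      intro h0'
      rw [hZ, h0', mul_zero] at hzL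
      exact lt_irrefl _ hzL
    rw [hF', hN, hZ]
    field_simp
  -- assembly
  have hm : magn G θ W l v = ∑ S ∈ W.powerset, muL G θ W l S * sgnS S v :=
    gAvg_eq_sum_muL θ W l _
  rw [Finset.sum_congr rfl fun S hS => by rw [hshift S hS]]
  have e1 : ∑ S ∈ W.powerset, muL G θ W l S * ∫ g, F g * ex S g ∂gaussVec I
      = ∫ g, ∑ S ∈ W.powerset, muL G θ W l S * (F g * ex S g) ∂gaussVec I := by
    rw [integral_finsetSum]
    · refine Finset.sum_congr rfl fun S _ => ?_
      rw [integral_const_mul]
    · exact fun S _ => (hFexI S).const_mul _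
  have e2 : ∀ g, ∑ S ∈ W.powerset, muL G θ W l S * (F g * ex S g)
      = ∑ S ∈ W.powerset, muL G θ W l S * ex S g * sgnS S v := by
    intro g
    rw [← hpt g, Finset.mul_sum]
    refine Finset.sum_congr rfl fun S _ => ?_
    ring
  rw [e1]
  simp only [e2]
  rw [integral_finsetSum]
  · rw [hm]
    refine Finset.sum_congr rfl fun S _ => ?_
    rw [integral_mul_const, integral_const_mul, hex1]
    ring
  · exact fun S _ => ((hexI S).const_mul _).mul_const _

/-- The average of the indicator under the prior is the posterior. -/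
lemma sum_muL_ind {θ : ℝ} (hθ : GoodTheta θ) (W : Finset V) (l : V → ℝ) {i : V} (hi : i ∈ W) :
    ∑ S ∈ W.powerset, muL G θ W l S * ind S i = post (isingW G θ W) W l i := by
  rw [post_isingW hθ W l hi]
  have hm : magn G θ W l i = ∑ S ∈ W.powerset, muL G θ W l S * sgnS S i :=
    gAvg_eq_sum_muL θ W l _
  have e : ∀ S : Finset V, muL G θ W l S * ind S i
      = muL G θ W l S / 2 + muL G θ W l S * sgnS S i / 2 := by
    intro S
    have := sgnS_eq_two_mul_sub S i
    unfold ind
    rw [this]
    ring
  simp only [e]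
  rw [Finset.sum_add_distrib, ← Finset.sum_div, ← Finset.sum_div, sum_muL hθ W l, ← hm]
  ring

/-- Pointwise form of the defect. -/
theorem defect_pointwise {θ : ℝ} (hθ : GoodTheta θ) (W : Finset V) (l b : V → ℝ) {h : ℝ} (h0 : 0 < h)
    (hD1 : h * (W.card : ℝ) ≤ 1) (v : V) :
    |∑ S ∈ W.powerset, muL G θ W l S * magn G θ W
        (fun i => b i + h * (ind S i - post (isingW G θ W) W l i)) v - magn G θ W b v|
      ≤ 3 * (h * (W.card : ℝ)) ^ 2 := by
  classical
  set p : V → ℝ := fun i => post (isingW G θ W) W l i with hp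
  have hp0 : ∀ i, 0 ≤ p i := fun i => post_nonneg _ _ _ _
  have hp1 : ∀ i, p i ≤ 1 := fun i => post_le_one _ _ _ _
  set d : Finset V → V → ℝ := fun S i => h * (ind S i - p i) with hd
  have hdb : ∀ S i, |d S i| ≤ h := by
    intro S i
    have h2 : |ind S i - p i| ≤ 1 := by
      rw [abs_le]
      have := hp0 i
      have := hp1 i
      unfold ind
      split_ifs <;> constructor <;> linarith
    simp only [hd]
    rw [abs_mul, abs_of_pos h0]
    nlinarith
  set D := h * (W.card : ℝ) with hD
  have hD0 : 0 ≤ D := by positivity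
  -- oscillation
  have hosc : ∀ S, ∀ S₁ ∈ W.powerset, ∀ S₂ ∈ W.powerset,
      |∑ i ∈ S₁, d S i - ∑ i ∈ S₂, d S i| ≤ D := by
    intro S S₁ hS₁ S₂ hS₂
    have e : ∀ S' ∈ W.powerset, ∑ i ∈ S', d S i = ∑ i ∈ W, ind S' i * d S i := by
      intro S' hS'
      have : ∀ i ∈ W, ind S' i * d S i = if i ∈ S' then d S i else 0 := by
        intro i _
        unfold ind
        split_ifs <;> simp
      rw [Finset.sum_congr rfl this, Finset.sum_ite_mem,
        Finset.inter_eq_right.2 (Finset.mem_powerset.1 hS')]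
    rw [e S₁ hS₁, e S₂ hS₂, ← Finset.sum_sub_distrib]
    calc |∑ i ∈ W, (ind S₁ i * d S i - ind S₂ i * d S i)|
        ≤ ∑ i ∈ W, |ind S₁ i * d S i - ind S₂ i * d S i| := Finset.abs_sum_le_sum_abs _ _
      _ ≤ ∑ _i ∈ W, h := by
          refine Finset.sum_le_sum fun i _ => ?_
          rw [← sub_mul, abs_mul]
          have h3 : |ind S₁ i - ind S₂ i| ≤ 1 := by
            unfold ind
            split_ifs <;> norm_num
          have h4 := hdb S i
          have h5 := abs_nonneg (d S i)
          nlinarith [abs_nonneg (ind S₁ i - ind S₂ i)]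
      _ = D := by
          rw [Finset.sum_const, nsmul_eq_mul, hD]; ring
  -- first order terms
  set Cv : Finset V → ℝ := fun S => gAvg G θ W b (fun S' => sgnS S' v * ∑ i ∈ S', d S i)
      - magn G θ W b v * gAvg G θ W b (fun S' => ∑ i ∈ S', d S i) with hCv
  have hzero : ∀ S' ∈ W.powerset, ∑ S ∈ W.powerset, muL G θ W l S * ∑ i ∈ S', d S i = 0 := by
    intro S' hS'
    have e : ∀ S ∈ W.powerset, muL G θ W l S * ∑ i ∈ S', d S i
        = ∑ i ∈ S', h * (muL G θ W l S * ind S i - muL G θ W l S * p i) := by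
      intro S _
      rw [Finset.mul_sum]
      refine Finset.sum_congr rfl fun i _ => ?_
      simp only [hd]; ring
    rw [Finset.sum_congr rfl e, Finset.sum_comm]
    refine Finset.sum_eq_zero fun i hi => ?_
    have hiW : i ∈ W := Finset.mem_powerset.1 hS' hi
    rw [← Finset.mul_sum, Finset.sum_sub_distrib, sum_muL_ind hθ W l hiW, ← Finset.sum_mul,
      sum_muL hθ W l, one_mul]
    simp [hp]
  have hfirst : ∑ S ∈ W.powerset, muL G θ W l S * Cv S = 0 := by
    simp only [hCv, mul_sub, Finset.sum_sub_distrib]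
    have hswap : ∀ f : Finset V → Finset V → ℝ,
        ∑ S ∈ W.powerset, muL G θ W l S * gAvg G θ W b (f S)
          = ∑ S' ∈ W.powerset, muL G θ W b S' * ∑ S ∈ W.powerset, muL G θ W l S * f S S' := by
      intro f
      simp only [gAvg_eq_sum_muL θ W b, Finset.mul_sum]
      rw [Finset.sum_comm]
      refine Finset.sum_congr rfl fun S' _ => Finset.sum_congr rfl fun S _ => ?_
      ring
    have e1 : ∑ S ∈ W.powerset, muL G θ W l S *
        gAvg G θ W b (fun S' => sgnS S' v * ∑ i ∈ S', d S i) = 0 := by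
      rw [hswap (fun S S' => sgnS S' v * ∑ i ∈ S', d S i)]
      refine Finset.sum_eq_zero fun S' hS' => ?_
      have := hzero S' hS'
      have e : ∑ S ∈ W.powerset, muL G θ W l S * (sgnS S' v * ∑ i ∈ S', d S i)
          = sgnS S' v * ∑ S ∈ W.powerset, muL G θ W l S * ∑ i ∈ S', d S i := by
        rw [Finset.mul_sum]
        refine Finset.sum_congr rfl fun S _ => ?_
        ring
      rw [e, this, mul_zero, mul_zero]
    have e2 : ∑ S ∈ W.powerset, muL G θ W l S *
        (magn G θ W b v * gAvg G θ W b (fun S' => ∑ i ∈ S', d S i)) = 0 := by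
      have e3 : ∑ S ∈ W.powerset, muL G θ W l S *
          (magn G θ W b v * gAvg G θ W b (fun S' => ∑ i ∈ S', d S i))
          = magn G θ W b v * ∑ S ∈ W.powerset, muL G θ W l S *
            gAvg G θ W b (fun S' => ∑ i ∈ S', d S i) := by
        rw [Finset.mul_sum]
        refine Finset.sum_congr rfl fun S _ => ?_
        ring
      rw [e3, hswap (fun S S' => ∑ i ∈ S', d S i)]
      have : ∑ S' ∈ W.powerset, muL G θ W b S' * ∑ S ∈ W.powerset, muL G θ W l S * ∑ i ∈ S', d S i = 0 :=
        Finset.sum_eq_zero fun S' hS' => by rw [hzero S' hS', mul_zero]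
      rw [this, mul_zero]
    rw [e1, e2, sub_zero]
  -- the sum
  have hmain : ∑ S ∈ W.powerset, muL G θ W l S * magn G θ W (fun i => b i + d S i) v - magn G θ W b v
      = ∑ S ∈ W.powerset, muL G θ W l S * (magn G θ W (fun i => b i + d S i) v - magn G θ W b v - Cv S) := by
    simp only [mul_sub, Finset.sum_sub_distrib]
    rw [← Finset.sum_mul, sum_muL hθ W l, one_mul]
    have : ∑ S ∈ W.powerset, muL G θ W l S * Cv S = 0 := hfirst
    linarith
  show |∑ S ∈ W.powerset, muL G θ W l S * magn G θ W (fun i => b i + d S i) v - magn G θ W b v| ≤ _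
  rw [hmain]
  calc _ ≤ ∑ S ∈ W.powerset, |muL G θ W l S * (magn G θ W (fun i => b i + d S i) v - magn G θ W b v - Cv S)| :=
        Finset.abs_sum_le_sum_abs _ _
    _ ≤ ∑ S ∈ W.powerset, muL G θ W l S * (3 * D ^ 2) := by
        refine Finset.sum_le_sum fun S _ => ?_
        rw [abs_mul, abs_of_nonneg (muL_nonneg hθ W l S)]
        refine mul_le_mul_of_nonneg_left ?_ (muL_nonneg hθ W l S)
        exact taylor_step hθ W b (d S) v hD0 hD1 (hosc S)
    _ = 3 * D ^ 2 := by rw [← Finset.sum_mul, sum_muL hθ W l, one_mul]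

end main

end OneDefectAux

/-- (a) the martingale defect. -/
theorem magn_martingale_defect {θ : ℝ} (hθ : GoodTheta θ) (W : Finset V) (l : V → ℝ) {h : ℝ}
    (h0 : 0 < h) (h1 : h ≤ 1) {I : Finset V} (hI : W ⊆ I) {v : V} (hv : v ∈ W) :
    |∫ g, magn G θ W (nextL G θ W l h (I := I) g) v ∂gaussVec I - magn G θ W l v|
      ≤ 4 * (W.card : ℝ) ^ 2 * h ^ 2 := by
  classical
  have hnextm : Measurable (fun g : I → ℝ => nextL G θ W l h (I := I) g) := by
    refine measurable_pi_iff.2 fun i => ?_
    exact (((OneDefectAux.measurable_gExt i).const_mul _).const_add _).sub_const _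
  have hIb : Integrable (fun g : I → ℝ => magn G θ W (nextL G θ W l h (I := I) g) v) (gaussVec I) := by
    refine Integrable.mono' (integrable_const (1 : ℝ))
      ((OneDefectAux.measurable_magn θ W v).comp hnextm).aestronglyMeasurable
      (Filter.Eventually.of_forall fun g => ?_)
    simpa using abs_magn_le_one hθ W _ v
  by_cases hD1 : h * (W.card : ℝ) ≤ 1
  · -- main case
    have hB := OneDefectAux.bayes_identity (G := G) hθ W l h0 hI v
    have hτm : ∀ S : Finset V, Measurable (fun g : I → ℝ =>
        (fun i => l i + h * ind S i + Real.sqrt h * OneDefectAux.gExt g i - h / 2 : V → ℝ)) := by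
      intro S
      refine measurable_pi_iff.2 fun i => ?_
      exact (((OneDefectAux.measurable_gExt i).const_mul _).const_add _).sub_const _
    have hτI : ∀ S : Finset V, Integrable (fun g : I → ℝ =>
        magn G θ W (fun i => l i + h * ind S i + Real.sqrt h * OneDefectAux.gExt g i - h / 2) v)
        (gaussVec I) := by
      intro S
      refine Integrable.mono' (integrable_const (1 : ℝ))
        ((OneDefectAux.measurable_magn θ W v).comp (hτm S)).aestronglyMeasurable
        (Filter.Eventually.of_forall fun g => ?_)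
      simpa using abs_magn_le_one hθ W _ v
    have hτ : ∀ (S : Finset V) (g : I → ℝ),
        (fun i => l i + h * ind S i + Real.sqrt h * OneDefectAux.gExt g i - h / 2 : V → ℝ) =
        fun i => nextL G θ W l h (I := I) g i + h * (ind S i - post (isingW G θ W) W l i) := by
      intro S g
      funext i
      show _ = (l i + h * post (isingW G θ W) W l i + Real.sqrt h * OneDefectAux.gExt g i - h / 2) + _
      ring
    have hpt := fun g : I → ℝ => OneDefectAux.defect_pointwise (G := G) hθ W l
      (nextL G θ W l h (I := I) g) h0 hD1 v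
    have hsum : magn G θ W l v - ∫ g, magn G θ W (nextL G θ W l h (I := I) g) v ∂gaussVec I
        = ∫ g, (∑ S ∈ W.powerset, OneDefectAux.muL G θ W l S * magn G θ W
            (fun i => nextL G θ W l h (I := I) g i + h * (ind S i - post (isingW G θ W) W l i)) v
            - magn G θ W (nextL G θ W l h (I := I) g) v) ∂gaussVec I := by
      have e : ∀ g : I → ℝ, ∑ S ∈ W.powerset, OneDefectAux.muL G θ W l S * magn G θ W
            (fun i => nextL G θ W l h (I := I) g i + h * (ind S i - post (isingW G θ W) W l i)) v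
          = ∑ S ∈ W.powerset, OneDefectAux.muL G θ W l S * magn G θ W
            (fun i => l i + h * ind S i + Real.sqrt h * OneDefectAux.gExt g i - h / 2) v := by
        intro g
        refine Finset.sum_congr rfl fun S _ => ?_
        rw [hτ S g]
      simp only [e]
      rw [integral_sub, integral_finsetSum]
      · rw [hB]
        congr 1
        refine Finset.sum_congr rfl fun S _ => ?_
        rw [integral_const_mul]
      · exact fun S _ => (hτI S).const_mul _
      · exact integrable_finsetSum _ fun S _ => (hτI S).const_mul _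
      · exact hIb
    rw [abs_sub_comm, hsum]
    have hbound := norm_integral_le_of_norm_le_const (μ := gaussVec I)
      (f := fun g : I → ℝ => ∑ S ∈ W.powerset, OneDefectAux.muL G θ W l S * magn G θ W
            (fun i => nextL G θ W l h (I := I) g i + h * (ind S i - post (isingW G θ W) W l i)) v
            - magn G θ W (nextL G θ W l h (I := I) g) v) (C := 3 * (h * (W.card : ℝ)) ^ 2)
      (Filter.Eventually.of_forall fun g => by simpa using hpt g)
    simp only [Real.norm_eq_abs, probReal_univ, mul_one] at hbound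
    refine hbound.trans ?_
    have : 0 ≤ (W.card : ℝ) ^ 2 * h ^ 2 := by positivity
    nlinarith
  · -- trivial case
    rw [not_le] at hD1
    have h3 : |∫ g, magn G θ W (nextL G θ W l h (I := I) g) v ∂gaussVec I| ≤ 1 := by
      have hbound := norm_integral_le_of_norm_le_const (μ := gaussVec I)
        (f := fun g : I → ℝ => magn G θ W (nextL G θ W l h (I := I) g) v) (C := 1)
        (Filter.Eventually.of_forall fun g => by simpa using abs_magn_le_one hθ W _ v)
      simpa using hbound
    have h4 := abs_magn_le_one (G := G) hθ W l v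
    have h5 := abs_sub (∫ g, magn G θ W (nextL G θ W l h (I := I) g) v ∂gaussVec I) (magn G θ W l v)
    have h6 : 1 < (W.card : ℝ) ^ 2 * h ^ 2 := by
      have : (W.card : ℝ) ^ 2 * h ^ 2 = (h * (W.card : ℝ)) ^ 2 := by ring
      rw [this]
      nlinarith
    linarith

end Crest.Agent.IsingFactor
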