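import Crest.Agent.IsingFactor.OnePair
import Crest.Agent.SRFactor.Core

/-!
# IsingFactor.OneNoise (WP IF-OneNoise): `pair_one_step` integrated over the past of the noise (Fubini; `IsDyadicNoise.level`; peeling the last row of a Gaussian array as in `SRFactor.Gauss`).
Statements may be ADDED; do not change the ones below without posting on chat (topic S0241), other packages use them.
-/

set_option autoImplicit false
set_option linter.unusedSectionVars false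

open MeasureTheory ProbabilityTheory
open Crest.Agent.SRFactor

namespace Crest.Agent.IsingFactor

variable {V : Type*} [DecidableEq V] {G : SimpleGraph V}

/-! ### Measurability in a parameter -/

theorem measurable_gAvg_param {Θ : Type*} [MeasurableSpace Θ] (θ : ℝ) (W : Finset V)
    (lam : Θ → V → ℝ) (hlam : ∀ i, Measurable fun q => lam q i) (f : Finset V → ℝ) :
    Measurable fun q => gAvg G θ W (lam q) f := by
  unfold gAvg Zf
  refine (Finset.measurable_sum _ fun S _ => ?_).div (Finset.measurable_sum _ fun S _ => ?_)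
  · exact (measurable_const.mul
      (Real.measurable_exp.comp (Finset.measurable_sum _ fun i _ => hlam i))).mul measurable_const
  · exact measurable_const.mul
      (Real.measurable_exp.comp (Finset.measurable_sum _ fun i _ => hlam i))

theorem measurable_magn_param {Θ : Type*} [MeasurableSpace Θ] (θ : ℝ) (W : Finset V)
    (lam : Θ → V → ℝ) (hlam : ∀ i, Measurable fun q => lam q i) (v : V) :
    Measurable fun q => magn G θ W (lam q) v :=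
  measurable_gAvg_param θ W lam hlam _

theorem measurable_covS_param {Θ : Type*} [MeasurableSpace Θ] (θ : ℝ) (W : Finset V)
    (lam : Θ → V → ℝ) (hlam : ∀ i, Measurable fun q => lam q i) (v u : V) :
    Measurable fun q => covS G θ W (lam q) v u :=
  (measurable_gAvg_param θ W lam hlam _).sub
    ((measurable_magn_param θ W lam hlam v).mul (measurable_magn_param θ W lam hlam u))

/-! ### The tilt as a function of the noise array -/

/-- The tilt at step `k` of the Euler scheme, as a function of a finite noise array on `I`. -/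
noncomputable def lamY (G : SimpleGraph V) (θ : ℝ) (W : Finset V) (n : ℕ) (I : Finset V) (K : ℕ)
    (y : Fin K → I → ℝ) (k : ℕ) : V → ℝ :=
  fun i => euler (isingW G θ W) W (hh n) (extY I K y) k i - k * hh n / 2

theorem measurable_lamY (θ : ℝ) (W : Finset V) (n : ℕ) (I : Finset V) (K k : ℕ) (i : V) :
    Measurable fun y : Fin K → I → ℝ => lamY G θ W n I K y k i :=
  ((measurable_euler _ W _ k i).comp (measurable_extY I K)).sub_const _

theorem lamI_eq_lamY (θ : ℝ) {W I : Finset V} (hWI : W ⊆ I) (n : ℕ) {K k : ℕ} (hk : k ≤ K)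
    (x : Noise V) : lamI G θ W n x k = lamY G θ W n I K (noiseOn I n K x) k := by
  funext i
  simp only [lamI, eulerI, lamY]
  rw [euler_levelNoise _ hWI _ hk]

theorem extY_snoc_castSucc {I : Finset V} {k : ℕ} (y₀ : Fin k → I → ℝ) (g : I → ℝ) {l : ℕ}
    (hl : l < k) {e : V} (he : e ∈ I) :
    extY I (k + 1) (Fin.snoc y₀ g) l e = extY I k y₀ l e := by
  have hl' : l < k + 1 := Nat.lt_succ_of_lt hl
  simp only [extY, dif_pos hl, dif_pos hl', dif_pos he]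
  have : (⟨l, hl'⟩ : Fin (k + 1)) = Fin.castSucc ⟨l, hl⟩ := rfl
  rw [this, Fin.snoc_castSucc]

theorem extY_snoc_last {I : Finset V} {k : ℕ} (y₀ : Fin k → I → ℝ) (g : I → ℝ)
    {e : V} (he : e ∈ I) :
    extY I (k + 1) (Fin.snoc y₀ g) k e = g ⟨e, he⟩ := by
  have hl' : k < k + 1 := Nat.lt_succ_self k
  simp only [extY, dif_pos hl', dif_pos he]
  have : (⟨k, hl'⟩ : Fin (k + 1)) = Fin.last k := rfl
  rw [this, Fin.snoc_last]

theorem lamY_snoc_prev (θ : ℝ) {W I : Finset V} (hWI : W ⊆ I) (n : ℕ) {k : ℕ}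
    (y₀ : Fin k → I → ℝ) (g : I → ℝ) :
    lamY G θ W n I (k + 1) (Fin.snoc y₀ g) k = lamY G θ W n I k y₀ k := by
  funext i
  simp only [lamY]
  rw [euler_congr _ W _ k (fun l hl e he => extY_snoc_castSucc y₀ g hl (hWI he)) i]

theorem lamY_snoc_next (θ : ℝ) {W I : Finset V} (hWI : W ⊆ I) (n : ℕ) {k : ℕ}
    (y₀ : Fin k → I → ℝ) (g : I → ℝ) {i : V} (hi : i ∈ W) :
    lamY G θ W n I (k + 1) (Fin.snoc y₀ g) (k + 1) i =
      nextL G θ W (lamY G θ W n I k y₀ k) (hh n) (I := I) g i := by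
  have hprev := lamY_snoc_prev (G := G) θ hWI n y₀ g
  have hprev' : (fun e => euler (isingW G θ W) W (hh n) (extY I (k + 1) (Fin.snoc y₀ g)) k e
      - (k : ℝ) * hh n / 2) = lamY G θ W n I k y₀ k := hprev
  have hk : euler (isingW G θ W) W (hh n) (extY I (k + 1) (Fin.snoc y₀ g)) k i
      = lamY G θ W n I k y₀ k i + k * hh n / 2 := by
    have := congrFun hprev i
    simp only [lamY] at this
    simp only [lamY]
    linarith
  simp only [lamY, nextL, euler, if_pos hi, hWI hi, dif_pos]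
  rw [hprev', extY_snoc_last y₀ g (hWI hi), hk]
  simp only [lamY]
  push_cast
  ring

/-- The step of the tilt of `lamI` is `nextL`. -/
theorem lamI_succ (θ : ℝ) (W : Finset V) (n : ℕ) (x : Noise V) (k : ℕ) {i : V} (hi : i ∈ W) :
    lamI G θ W n x (k + 1) i =
      lamI G θ W n x k i + hh n * post (isingW G θ W) W (lamI G θ W n x k) i
        + Real.sqrt (hh n) * x i n k - hh n / 2 := by
  have hfun : (fun g => euler (isingW G θ W) W (hh n) (levelNoise x n) k g - (k : ℝ) * hh n / 2)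
      = lamI G θ W n x k := rfl
  simp only [lamI, eulerI, euler, if_pos hi, hfun, levelNoise]
  push_cast
  ring

section noise
variable {Ω : Type*} [MeasurableSpace Ω] {P : Measure Ω} {ξ : Ω → Noise V} {Dom : Set V}

instance instProbGaussMatOneNoise (ι : Type*) [Fintype ι] (K : ℕ) : IsProbabilityMeasure (gaussMat ι K) := by
  unfold gaussMat gaussVec; infer_instance

instance instProbGaussVecOneNoise (ι : Type*) [Fintype ι] : IsProbabilityMeasure (gaussVec ι) := by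
  unfold gaussVec; infer_instance

/-- A bounded functional of the pair of tilts, with finite dependence. -/
structure PairFun (W₁ W₂ : Finset V) (Φ : (V → ℝ) → (V → ℝ) → ℝ) : Prop where
  meas : Measurable (fun p : (V → ℝ) × (V → ℝ) => Φ p.1 p.2)
  bd : ∃ C, ∀ a b, |Φ a b| ≤ C
  congr : ∀ a a' b b', (∀ i ∈ W₁, a i = a' i) → (∀ i ∈ W₂, b i = b' i) → Φ a b = Φ a' b'

section generic
variable {θ₁ θ₂ : ℝ} {W₁ W₂ : Finset V} {Φ : (V → ℝ) → (V → ℝ) → ℝ}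

lemma PairFun.measurable_comp (hΦ : PairFun W₁ W₂ Φ) {Θ : Type*} [MeasurableSpace Θ]
    {a b : Θ → V → ℝ} (ha : ∀ i, Measurable fun q => a q i) (hb : ∀ i, Measurable fun q => b q i) :
    Measurable fun q => Φ (a q) (b q) :=
  hΦ.meas.comp ((measurable_pi_lambda _ ha).prodMk (measurable_pi_lambda _ hb))

lemma measurable_nextL (θ : ℝ) (W I : Finset V) (n k : ℕ) (i : V) :
    Measurable fun p : (Fin k → I → ℝ) × (I → ℝ) =>
      nextL G θ W (lamY G θ W n I k p.1 k) (hh n) (I := I) p.2 i := by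
  unfold nextL
  have h1 : Measurable fun p : (Fin k → I → ℝ) × (I → ℝ) => lamY G θ W n I k p.1 k i :=
    (measurable_lamY θ W n I k k i).comp measurable_fst
  have h2 : Measurable fun p : (Fin k → I → ℝ) × (I → ℝ) =>
      post (isingW G θ W) W (lamY G θ W n I k p.1 k) i := by
    refine (measurable_post _ W i).comp (measurable_pi_lambda _ fun j => ?_)
    exact (measurable_lamY θ W n I k k j).comp measurable_fst
  have h3 : Measurable fun p : (Fin k → I → ℝ) × (I → ℝ) =>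
      (if hi : i ∈ I then p.2 ⟨i, hi⟩ else 0) := by
    by_cases hi : i ∈ I
    · simp only [dif_pos hi]
      exact (measurable_pi_apply _).comp measurable_snd
    · simp only [dif_neg hi]
      exact measurable_const
  exact ((h1.add (measurable_const.mul h2)).add (measurable_const.mul h3)).sub_const _

lemma PairFun.measurable_next (hΦ : PairFun W₁ W₂ Φ) (n k : ℕ) (I : Finset V) :
    Measurable fun p : (Fin k → I → ℝ) × (I → ℝ) =>
      Φ (nextL G θ₁ W₁ (lamY G θ₁ W₁ n I k p.1 k) (hh n) (I := I) p.2)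
        (nextL G θ₂ W₂ (lamY G θ₂ W₂ n I k p.1 k) (hh n) (I := I) p.2) :=
  hΦ.measurable_comp (measurable_nextL θ₁ W₁ I n k) (measurable_nextL θ₂ W₂ I n k)

lemma PairFun.measurable_inner (hΦ : PairFun W₁ W₂ Φ) (n k : ℕ) (I : Finset V) :
    Measurable fun y₀ : Fin k → I → ℝ => ∫ g,
      Φ (nextL G θ₁ W₁ (lamY G θ₁ W₁ n I k y₀ k) (hh n) (I := I) g)
        (nextL G θ₂ W₂ (lamY G θ₂ W₂ n I k y₀ k) (hh n) (I := I) g) ∂gaussVec I :=
  ((hΦ.measurable_next (G := G) (θ₁ := θ₁) (θ₂ := θ₂) n k I).stronglyMeasurable.integral_prod_right').measurable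

lemma PairFun.integrable_inner (hΦ : PairFun W₁ W₂ Φ) (n k : ℕ) (I : Finset V) :
    Integrable (fun y₀ : Fin k → I → ℝ => ∫ g,
      Φ (nextL G θ₁ W₁ (lamY G θ₁ W₁ n I k y₀ k) (hh n) (I := I) g)
        (nextL G θ₂ W₂ (lamY G θ₂ W₂ n I k y₀ k) (hh n) (I := I) g) ∂gaussVec I) (gaussMat I k) := by
  obtain ⟨C, hC⟩ := hΦ.bd
  refine Integrable.of_bound (hΦ.measurable_inner n k I).aestronglyMeasurable C ?_
  refine Filter.Eventually.of_forall fun y₀ => ?_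
  rw [Real.norm_eq_abs]
  have h1 := norm_integral_le_of_norm_le_const (μ := gaussVec I) (C := C)
    (f := fun g => Φ (nextL G θ₁ W₁ (lamY G θ₁ W₁ n I k y₀ k) (hh n) (I := I) g)
        (nextL G θ₂ W₂ (lamY G θ₂ W₂ n I k y₀ k) (hh n) (I := I) g))
    (Filter.Eventually.of_forall fun g => by rw [Real.norm_eq_abs]; exact hC _ _)
  simpa using h1

lemma PairFun.integrable_cur (hΦ : PairFun W₁ W₂ Φ) (n k : ℕ) (I : Finset V) :
    Integrable (fun y₀ : Fin k → I → ℝ =>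
      Φ (lamY G θ₁ W₁ n I k y₀ k) (lamY G θ₂ W₂ n I k y₀ k)) (gaussMat I k) := by
  obtain ⟨C, hC⟩ := hΦ.bd
  refine Integrable.of_bound (hΦ.measurable_comp (measurable_lamY θ₁ W₁ n I k k)
    (measurable_lamY θ₂ W₂ n I k k)).aestronglyMeasurable C ?_
  exact Filter.Eventually.of_forall fun y₀ => by rw [Real.norm_eq_abs]; exact hC _ _

/-- The functional at the current step, as a Gaussian integral. -/
theorem PairFun.integral_cur (hΦ : PairFun W₁ W₂ Φ) (hξ : IsDyadicNoise P ξ Dom)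
    (hW : ((W₁ ∪ W₂ : Finset V) : Set V) ⊆ Dom) (n k : ℕ) :
    ∫ ω, Φ (lamI G θ₁ W₁ n (ξ ω) k) (lamI G θ₂ W₂ n (ξ ω) k) ∂P =
      ∫ y₀, Φ (lamY G θ₁ W₁ n (W₁ ∪ W₂) k y₀ k) (lamY G θ₂ W₂ n (W₁ ∪ W₂) k y₀ k)
        ∂gaussMat (W₁ ∪ W₂ : Finset V) k := by
  rw [← integral_noiseOn hξ hW n k _
    (hΦ.measurable_comp (measurable_lamY θ₁ W₁ n (W₁ ∪ W₂) k k)
      (measurable_lamY θ₂ W₂ n (W₁ ∪ W₂) k k))]
  refine integral_congr_ae (Filter.Eventually.of_forall fun ω => ?_)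
  simp only
  rw [lamI_eq_lamY θ₁ Finset.subset_union_left n le_rfl,
    lamI_eq_lamY θ₂ Finset.subset_union_right n le_rfl]

/-- The functional at the next step, as an iterated Gaussian integral. -/
theorem PairFun.integral_next (hΦ : PairFun W₁ W₂ Φ) (hξ : IsDyadicNoise P ξ Dom)
    (hW : ((W₁ ∪ W₂ : Finset V) : Set V) ⊆ Dom) (n k : ℕ) :
    ∫ ω, Φ (lamI G θ₁ W₁ n (ξ ω) (k + 1)) (lamI G θ₂ W₂ n (ξ ω) (k + 1)) ∂P =
      ∫ y₀, ∫ g, Φ (nextL G θ₁ W₁ (lamY G θ₁ W₁ n (W₁ ∪ W₂) k y₀ k) (hh n) (I := W₁ ∪ W₂) g)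
          (nextL G θ₂ W₂ (lamY G θ₂ W₂ n (W₁ ∪ W₂) k y₀ k) (hh n) (I := W₁ ∪ W₂) g)
          ∂gaussVec (W₁ ∪ W₂ : Finset V) ∂gaussMat (W₁ ∪ W₂ : Finset V) k := by
  have hmeas := hΦ.measurable_comp (Θ := Fin (k + 1) → (W₁ ∪ W₂ : Finset V) → ℝ)
    (measurable_lamY (G := G) θ₁ W₁ n (W₁ ∪ W₂) (k + 1) (k + 1))
    (measurable_lamY (G := G) θ₂ W₂ n (W₁ ∪ W₂) (k + 1) (k + 1))
  have hint : Integrable (fun y : Fin (k + 1) → (W₁ ∪ W₂ : Finset V) → ℝ =>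
      Φ (lamY G θ₁ W₁ n (W₁ ∪ W₂) (k + 1) y (k + 1)) (lamY G θ₂ W₂ n (W₁ ∪ W₂) (k + 1) y (k + 1)))
      (gaussMat (W₁ ∪ W₂ : Finset V) (k + 1)) := by
    obtain ⟨C, hC⟩ := hΦ.bd
    refine Integrable.of_bound hmeas.aestronglyMeasurable C ?_
    exact Filter.Eventually.of_forall fun y => by rw [Real.norm_eq_abs]; exact hC _ _
  have h1 : ∫ ω, Φ (lamI G θ₁ W₁ n (ξ ω) (k + 1)) (lamI G θ₂ W₂ n (ξ ω) (k + 1)) ∂P =
      ∫ ω, Φ (lamY G θ₁ W₁ n (W₁ ∪ W₂) (k + 1) (noiseOn (W₁ ∪ W₂) n (k + 1) (ξ ω)) (k + 1))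
        (lamY G θ₂ W₂ n (W₁ ∪ W₂) (k + 1) (noiseOn (W₁ ∪ W₂) n (k + 1) (ξ ω)) (k + 1)) ∂P := by
    refine integral_congr_ae (Filter.Eventually.of_forall fun ω => ?_)
    simp only
    rw [lamI_eq_lamY θ₁ Finset.subset_union_left n le_rfl,
      lamI_eq_lamY θ₂ Finset.subset_union_right n le_rfl]
  rw [h1, integral_noiseOn hξ hW n (k + 1) _ hmeas, integral_gaussMat_succ k _ hint]
  refine integral_congr_ae (Filter.Eventually.of_forall fun y₀ => ?_)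
  refine integral_congr_ae (Filter.Eventually.of_forall fun g => ?_)
  refine hΦ.congr _ _ _ _ (fun i hi => ?_) (fun i hi => ?_)
  · exact lamY_snoc_next θ₁ Finset.subset_union_left n y₀ g hi
  · exact lamY_snoc_next θ₂ Finset.subset_union_right n y₀ g hi

end generic

lemma pairFun_magn {θ₁ θ₂ : ℝ} (h₁ : GoodTheta θ₁) (h₂ : GoodTheta θ₂) (W₁ W₂ : Finset V) (v : V) :
    PairFun W₁ W₂ (fun a b => (magn G θ₁ W₁ a v - magn G θ₂ W₂ b v) ^ 2) where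
  meas := ((measurable_magn_param θ₁ W₁ _ (fun i => (measurable_pi_apply i).comp measurable_fst) v).sub
    (measurable_magn_param θ₂ W₂ _ (fun i => (measurable_pi_apply i).comp measurable_snd) v)).pow_const 2
  bd := ⟨4, fun a b => by
    have h1 := abs_le.1 (abs_magn_le_one (G := G) h₁ W₁ a v)
    have h2 := abs_le.1 (abs_magn_le_one (G := G) h₂ W₂ b v)
    rw [abs_of_nonneg (sq_nonneg _)]
    nlinarith⟩
  congr a a' b b' ha hb := by rw [magn_congr ha, magn_congr hb]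

lemma pairFun_covS {θ₁ θ₂ : ℝ} (h₁ : GoodTheta θ₁) (h₂ : GoodTheta θ₂) (W₁ W₂ : Finset V) (v u : V) :
    PairFun W₁ W₂ (fun a b => (covS G θ₁ W₁ a v u - covS G θ₂ W₂ b v u) ^ 2) where
  meas := ((measurable_covS_param θ₁ W₁ _ (fun i => (measurable_pi_apply i).comp measurable_fst) v u).sub
    (measurable_covS_param θ₂ W₂ _ (fun i => (measurable_pi_apply i).comp measurable_snd) v u)).pow_const 2
  bd := ⟨4, fun a b => by
    have h1 := abs_le.1 (abs_covS_le_one (G := G) h₁ W₁ a v u)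
    have h2 := abs_le.1 (abs_covS_le_one (G := G) h₂ W₂ b v u)
    rw [abs_of_nonneg (sq_nonneg _)]
    nlinarith⟩
  congr a a' b b' ha hb := by rw [covS_congr ha, covS_congr hb]

/-- Integrated form: one step of the two Euler schemes on the noise space. -/
theorem pair_step (hξ : IsDyadicNoise P ξ Dom) {θ₁ θ₂ : ℝ} (h₁ : GoodTheta θ₁) (h₂ : GoodTheta θ₂)
    (W₁ W₂ : Finset V) (hW : ((W₁ ∪ W₂ : Finset V) : Set V) ⊆ Dom) (n k : ℕ) {v : V} (hv₁ : v ∈ W₁)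
    (hv₂ : v ∈ W₂) :
    ∫ ω, (magn G θ₁ W₁ (lamI G θ₁ W₁ n (ξ ω) (k + 1)) v
        - magn G θ₂ W₂ (lamI G θ₂ W₂ n (ξ ω) (k + 1)) v) ^ 2 ∂P
      ≤ ∫ ω, (magn G θ₁ W₁ (lamI G θ₁ W₁ n (ξ ω) k) v
          - magn G θ₂ W₂ (lamI G θ₂ W₂ n (ξ ω) k) v) ^ 2 ∂P
        + (Real.pi ^ 2 / 32) * hh n * ∑ u ∈ W₁ ∪ W₂,
            ∫ ω, (covS G θ₁ W₁ (lamI G θ₁ W₁ n (ξ ω) (k + 1)) v u
              - covS G θ₂ W₂ (lamI G θ₂ W₂ n (ξ ω) (k + 1)) v u) ^ 2 ∂P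
        + 64 * ((W₁.card : ℝ) ^ 2 + (W₂.card : ℝ) ^ 2) * hh n ^ 2 := by
  have hD := pairFun_magn (G := G) h₁ h₂ W₁ W₂ v
  have hE := fun u => pairFun_covS (G := G) h₁ h₂ W₁ W₂ v u
  rw [hD.integral_next hξ hW n k, hD.integral_cur hξ hW n k]
  have hsum : ∑ u ∈ W₁ ∪ W₂,
            ∫ ω, (covS G θ₁ W₁ (lamI G θ₁ W₁ n (ξ ω) (k + 1)) v u
              - covS G θ₂ W₂ (lamI G θ₂ W₂ n (ξ ω) (k + 1)) v u) ^ 2 ∂P
      = ∑ u ∈ W₁ ∪ W₂, ∫ y₀, ∫ g,
          (covS G θ₁ W₁ (nextL G θ₁ W₁ (lamY G θ₁ W₁ n (W₁ ∪ W₂) k y₀ k) (hh n) (I := W₁ ∪ W₂) g) v u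
            - covS G θ₂ W₂ (nextL G θ₂ W₂ (lamY G θ₂ W₂ n (W₁ ∪ W₂) k y₀ k) (hh n) (I := W₁ ∪ W₂) g) v u) ^ 2
          ∂gaussVec (W₁ ∪ W₂ : Finset V) ∂gaussMat (W₁ ∪ W₂ : Finset V) k :=
    Finset.sum_congr rfl fun u _ => (hE u).integral_next hξ hW n k
  rw [hsum]
  have hI1 := hD.integrable_cur (G := G) (θ₁ := θ₁) (θ₂ := θ₂) n k (W₁ ∪ W₂)
  have hI2 := fun u => (hE u).integrable_inner (G := G) (θ₁ := θ₁) (θ₂ := θ₂) n k (W₁ ∪ W₂)
  have hI3 : Integrable (fun y₀ : Fin k → (W₁ ∪ W₂ : Finset V) → ℝ =>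
      ∑ u ∈ W₁ ∪ W₂, ∫ g,
        (covS G θ₁ W₁ (nextL G θ₁ W₁ (lamY G θ₁ W₁ n (W₁ ∪ W₂) k y₀ k) (hh n) (I := W₁ ∪ W₂) g) v u
          - covS G θ₂ W₂ (nextL G θ₂ W₂ (lamY G θ₂ W₂ n (W₁ ∪ W₂) k y₀ k) (hh n) (I := W₁ ∪ W₂) g) v u) ^ 2
        ∂gaussVec (W₁ ∪ W₂ : Finset V)) (gaussMat (W₁ ∪ W₂ : Finset V) k) :=
    integrable_finsetSum _ fun u _ => hI2 u
  have hR : ∫ y₀, (magn G θ₁ W₁ (lamY G θ₁ W₁ n (W₁ ∪ W₂) k y₀ k) v
          - magn G θ₂ W₂ (lamY G θ₂ W₂ n (W₁ ∪ W₂) k y₀ k) v) ^ 2 ∂gaussMat (W₁ ∪ W₂ : Finset V) k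
      + (Real.pi ^ 2 / 32) * hh n * ∑ u ∈ W₁ ∪ W₂, ∫ y₀, ∫ g,
          (covS G θ₁ W₁ (nextL G θ₁ W₁ (lamY G θ₁ W₁ n (W₁ ∪ W₂) k y₀ k) (hh n) (I := W₁ ∪ W₂) g) v u
            - covS G θ₂ W₂ (nextL G θ₂ W₂ (lamY G θ₂ W₂ n (W₁ ∪ W₂) k y₀ k) (hh n) (I := W₁ ∪ W₂) g) v u) ^ 2
          ∂gaussVec (W₁ ∪ W₂ : Finset V) ∂gaussMat (W₁ ∪ W₂ : Finset V) k
      + 64 * ((W₁.card : ℝ) ^ 2 + (W₂.card : ℝ) ^ 2) * hh n ^ 2
      = ∫ y₀, ((magn G θ₁ W₁ (lamY G θ₁ W₁ n (W₁ ∪ W₂) k y₀ k) v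
          - magn G θ₂ W₂ (lamY G θ₂ W₂ n (W₁ ∪ W₂) k y₀ k) v) ^ 2
        + (Real.pi ^ 2 / 32) * hh n * ∑ u ∈ W₁ ∪ W₂, ∫ g,
          (covS G θ₁ W₁ (nextL G θ₁ W₁ (lamY G θ₁ W₁ n (W₁ ∪ W₂) k y₀ k) (hh n) (I := W₁ ∪ W₂) g) v u
            - covS G θ₂ W₂ (nextL G θ₂ W₂ (lamY G θ₂ W₂ n (W₁ ∪ W₂) k y₀ k) (hh n) (I := W₁ ∪ W₂) g) v u) ^ 2
          ∂gaussVec (W₁ ∪ W₂ : Finset V)
        + 64 * ((W₁.card : ℝ) ^ 2 + (W₂.card : ℝ) ^ 2) * hh n ^ 2) ∂gaussMat (W₁ ∪ W₂ : Finset V) k := by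
    have hI4 : Integrable (fun y₀ : Fin k → (W₁ ∪ W₂ : Finset V) → ℝ =>
        (magn G θ₁ W₁ (lamY G θ₁ W₁ n (W₁ ∪ W₂) k y₀ k) v
          - magn G θ₂ W₂ (lamY G θ₂ W₂ n (W₁ ∪ W₂) k y₀ k) v) ^ 2
        + (Real.pi ^ 2 / 32) * hh n * ∑ u ∈ W₁ ∪ W₂, ∫ g,
          (covS G θ₁ W₁ (nextL G θ₁ W₁ (lamY G θ₁ W₁ n (W₁ ∪ W₂) k y₀ k) (hh n) (I := W₁ ∪ W₂) g) v u
            - covS G θ₂ W₂ (nextL G θ₂ W₂ (lamY G θ₂ W₂ n (W₁ ∪ W₂) k y₀ k) (hh n) (I := W₁ ∪ W₂) g) v u) ^ 2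
          ∂gaussVec (W₁ ∪ W₂ : Finset V)) (gaussMat (W₁ ∪ W₂ : Finset V) k) :=
      hI1.add (hI3.const_mul _)
    rw [integral_add hI4 (integrable_const _),
      integral_add hI1 (hI3.const_mul _), integral_const_mul,
      integral_finsetSum _ fun u _ => hI2 u]
    simp
  rw [hR]
  refine integral_mono (hD.integrable_inner n k _) ((hI1.add (hI3.const_mul _)).add
      (integrable_const _)) fun y₀ => ?_
  exact pair_one_step h₁ h₂ W₁ W₂ _ _ (by unfold hh; positivity) (MeshAux.hh_le_one n) hv₁ hv₂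

theorem pair_step_lower (hξ : IsDyadicNoise P ξ Dom) {θ₁ θ₂ : ℝ} (h₁ : GoodTheta θ₁)
    (h₂ : GoodTheta θ₂) (W₁ W₂ : Finset V) (hW : ((W₁ ∪ W₂ : Finset V) : Set V) ⊆ Dom) (n k : ℕ)
    {v : V} (hv₁ : v ∈ W₁) (hv₂ : v ∈ W₂) :
    ∫ ω, (magn G θ₁ W₁ (lamI G θ₁ W₁ n (ξ ω) k) v
          - magn G θ₂ W₂ (lamI G θ₂ W₂ n (ξ ω) k) v) ^ 2 ∂P
      ≤ ∫ ω, (magn G θ₁ W₁ (lamI G θ₁ W₁ n (ξ ω) (k + 1)) v
        - magn G θ₂ W₂ (lamI G θ₂ W₂ n (ξ ω) (k + 1)) v) ^ 2 ∂P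
        + 64 * ((W₁.card : ℝ) ^ 2 + (W₂.card : ℝ) ^ 2) * hh n ^ 2 := by
  have hD := pairFun_magn (G := G) h₁ h₂ W₁ W₂ v
  rw [hD.integral_next hξ hW n k, hD.integral_cur hξ hW n k]
  have hprob : IsProbabilityMeasure (gaussMat (W₁ ∪ W₂ : Finset V) k) := inferInstance
  have hconst : 64 * ((W₁.card : ℝ) ^ 2 + (W₂.card : ℝ) ^ 2) * hh n ^ 2 =
      ∫ _y₀, 64 * ((W₁.card : ℝ) ^ 2 + (W₂.card : ℝ) ^ 2) * hh n ^ 2
        ∂gaussMat (W₁ ∪ W₂ : Finset V) k := by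
    simp
  rw [hconst, ← integral_add (hD.integrable_inner n k _) (integrable_const _)]
  refine integral_mono (hD.integrable_cur n k _) ((hD.integrable_inner n k _).add (integrable_const _))
    fun y₀ => ?_
  exact pair_one_step_lower h₁ h₂ W₁ W₂ _ _ (by unfold hh; positivity) (MeshAux.hh_le_one n) hv₁ hv₂

end noise

end Crest.Agent.IsingFactor
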