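import Crest.Agent.IsingFactor.OneDefect

/-!
# IsingFactor.OnePair (WP IF-OnePair): one step of the pair of schemes: Poincare in `g` + defect.
`hasFDerivAt_magn_comp` with `c l = √h 1_{l}`, `gauss_poincare`.
Statements may be ADDED; do not change the ones below without posting on chat (topic S0241), other packages use them.
-/

set_option autoImplicit false

open MeasureTheory ProbabilityTheory
open Crest.Agent.SRFactor

namespace Crest.Agent.IsingFactor

namespace OnePairAux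

variable {V : Type*} [DecidableEq V] {G : SimpleGraph V}

lemma continuous_gAvg {θ : ℝ} (hθ : GoodTheta θ) (W : Finset V) (f : Finset V → ℝ) :
    Continuous (fun lam : V → ℝ => gAvg G θ W lam f) := by
  have hexp : ∀ S : Finset V, Continuous (fun lam : V → ℝ => Real.exp (∑ i ∈ S, lam i)) := fun S =>
    Real.continuous_exp.comp (continuous_finsetSum _ fun i _ => continuous_apply i)
  unfold gAvg
  refine Continuous.div ?_ ?_ (fun lam => (Zf_pos hθ W lam).ne')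
  · exact continuous_finsetSum _ fun S _ => ((hexp S).const_mul _).mul_const _
  · exact continuous_finsetSum _ fun S _ => (hexp S).const_mul _

lemma continuous_magn {θ : ℝ} (hθ : GoodTheta θ) (W : Finset V) (v : V) :
    Continuous (fun lam : V → ℝ => magn G θ W lam v) := continuous_gAvg hθ W _

lemma continuous_covS {θ : ℝ} (hθ : GoodTheta θ) (W : Finset V) (v u : V) :
    Continuous (fun lam : V → ℝ => covS G θ W lam v u) := by
  unfold covS
  exact (continuous_gAvg hθ W _).sub ((continuous_magn hθ W v).mul (continuous_magn hθ W u))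

lemma continuous_nextL (θ : ℝ) (W : Finset V) (l : V → ℝ) (h : ℝ) (I : Finset V) :
    Continuous (fun g : I → ℝ => nextL G θ W l h (I := I) g) := by
  refine continuous_pi fun i => ?_
  unfold nextL
  by_cases hi : i ∈ I
  · simp only [hi, dif_pos]
    exact ((continuous_const.add ((continuous_const).mul (continuous_apply _))).sub continuous_const)
  · simp only [hi, dif_neg, not_false_eq_true]
    exact continuous_const

lemma covS_of_notMem {θ : ℝ} (hθ : GoodTheta θ) (W : Finset V) (lam : V → ℝ) (v : V) {u : V}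
    (hu : u ∉ W) : covS G θ W lam v u = 0 := by
  have hs : ∀ S ∈ W.powerset, sgnS S u = -1 := by
    intro S hS
    unfold sgnS
    rw [if_neg fun hc => hu (Finset.mem_powerset.1 hS hc)]
  have h1 : gAvg G θ W lam (fun S => sgnS S v * sgnS S u) = - magn G θ W lam v := by
    unfold magn
    rw [gAvg_eq, gAvg_eq, ← neg_div]
    congr 1
    unfold gNum
    rw [← Finset.sum_neg_distrib]
    refine Finset.sum_congr rfl fun S hS => ?_
    beta_reduce
    rw [hs S hS]; ring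
  have h2 : magn G θ W lam u = -1 := by
    unfold magn
    have : gAvg G θ W lam (fun S => sgnS S u) = gAvg G θ W lam (fun _ => -1) := by
      rw [gAvg_eq, gAvg_eq]
      congr 1
      unfold gNum
      exact Finset.sum_congr rfl fun S hS => by beta_reduce; rw [hs S hS]
    rw [this, gAvg_const hθ]
  unfold covS
  rw [h1, h2]; ring

/-- `nextL` as an affine function of the noise. -/
lemma nextL_eq_affine (θ : ℝ) (W : Finset V) (l : V → ℝ) (h : ℝ) (I : Finset V) (x : I → ℝ) :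
    nextL G θ W l h (I := I) x = fun i => (l i + h * post (isingW G θ W) W l i - h / 2)
      + ∑ k : I, x k * (Real.sqrt h * (if i = (k : V) then 1 else 0)) := by
  funext i
  unfold nextL
  by_cases hi : i ∈ I
  · have : ∑ k : I, x k * (Real.sqrt h * (if i = (k : V) then 1 else 0)) = Real.sqrt h * x ⟨i, hi⟩ := by
      rw [Finset.sum_eq_single (⟨i, hi⟩ : I)]
      · simp; ring
      · intro k _ hk
        have : i ≠ (k : V) := fun hc => hk (Subtype.ext hc.symm)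
        simp [this]
      · simp
    rw [this, dif_pos hi]
    ring
  · have : ∑ k : I, x k * (Real.sqrt h * (if i = (k : V) then 1 else 0)) = 0 := by
      refine Finset.sum_eq_zero fun k _ => ?_
      have : i ≠ (k : V) := fun hc => hi (hc ▸ k.2)
      simp [this]
    rw [this, dif_neg hi]
    ring

/-- The derivative of the magnetisation after one step, as a function of the noise. -/
lemma hasFDerivAt_magn_nextL {θ : ℝ} (hθ : GoodTheta θ) (W : Finset V) (l : V → ℝ) (h : ℝ) (I : Finset V)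
    (x : I → ℝ) (v : V) :
    HasFDerivAt (fun x : I → ℝ => magn G θ W (nextL G θ W l h (I := I) x) v)
      (∑ k : I, (Real.sqrt h * (covS G θ W (nextL G θ W l h (I := I) x) v k / 2)) •
        (ContinuousLinearMap.proj k : (I → ℝ) →L[ℝ] ℝ)) x := by
  have h1 := hasFDerivAt_magn_comp (G := G) hθ W (ι := I)
    (fun i => l i + h * post (isingW G θ W) W l i - h / 2)
    (fun k i => Real.sqrt h * (if i = (k : V) then 1 else 0)) x v
  have e0 : (fun x : I → ℝ => magn G θ W (nextL G θ W l h (I := I) x) v) =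
      fun x : I → ℝ => magn G θ W (fun i => (l i + h * post (isingW G θ W) W l i - h / 2) +
        ∑ k : I, x k * (Real.sqrt h * (if i = (k : V) then 1 else 0))) v := by
    funext x
    rw [nextL_eq_affine]
  have e1 : (∑ k : I, (Real.sqrt h * (covS G θ W (nextL G θ W l h (I := I) x) v k / 2)) •
        (ContinuousLinearMap.proj k : (I → ℝ) →L[ℝ] ℝ)) =
      ∑ k : I, (∑ u ∈ W, (Real.sqrt h * (if u = (k : V) then 1 else 0)) *
        (covS G θ W (fun i => (l i + h * post (isingW G θ W) W l i - h / 2) +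
          ∑ k : I, x k * (Real.sqrt h * (if i = (k : V) then 1 else 0))) v u / 2)) •
        (ContinuousLinearMap.proj k : (I → ℝ) →L[ℝ] ℝ) := by
    refine Finset.sum_congr rfl fun k _ => ?_
    congr 1
    rw [← nextL_eq_affine]
    by_cases hk : (k : V) ∈ W
    · rw [Finset.sum_eq_single (k : V)]
      · simp
      · intro u _ hu
        simp [hu]
      · intro hc; exact absurd hk hc
    · rw [covS_of_notMem hθ W _ v hk, Finset.sum_eq_zero]
      · simp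
      · intro u hu
        have : u ≠ (k : V) := fun hc => hk (hc ▸ hu)
        simp [this]
  rw [e0, e1]
  exact h1

end OnePairAux

section pair
variable {V : Type*} [DecidableEq V] {G : SimpleGraph V}

/-- The common part of both inequalities: the mean of the difference is close to the start. -/
lemma pair_mean {θ₁ θ₂ : ℝ} (h₁ : GoodTheta θ₁) (h₂ : GoodTheta θ₂) (W₁ W₂ : Finset V)
    (l₁ l₂ : V → ℝ) {h : ℝ} (h0 : 0 < h) (h1 : h ≤ 1) {v : V} (hv₁ : v ∈ W₁) (hv₂ : v ∈ W₂) :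
    |(∫ g, (magn G θ₁ W₁ (nextL G θ₁ W₁ l₁ h (I := W₁ ∪ W₂) g) v
          - magn G θ₂ W₂ (nextL G θ₂ W₂ l₂ h (I := W₁ ∪ W₂) g) v) ∂gaussVec (W₁ ∪ W₂ : Finset V)) ^ 2
      - (magn G θ₁ W₁ l₁ v - magn G θ₂ W₂ l₂ v) ^ 2|
      ≤ 64 * ((W₁.card : ℝ) ^ 2 + (W₂.card : ℝ) ^ 2) * h ^ 2 := by
  have hc₁ := (OnePairAux.continuous_magn (G := G) h₁ W₁ v).comp
    (OnePairAux.continuous_nextL (G := G) θ₁ W₁ l₁ h (W₁ ∪ W₂))
  have hc₂ := (OnePairAux.continuous_magn (G := G) h₂ W₂ v).comp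
    (OnePairAux.continuous_nextL (G := G) θ₂ W₂ l₂ h (W₁ ∪ W₂))
  have hI₁ : Integrable (fun g => magn G θ₁ W₁ (nextL G θ₁ W₁ l₁ h (I := W₁ ∪ W₂) g) v)
      (gaussVec (W₁ ∪ W₂ : Finset V)) :=
    Integrable.mono' (integrable_const (1 : ℝ)) hc₁.aestronglyMeasurable
      (Filter.Eventually.of_forall fun g => by simpa using abs_magn_le_one h₁ W₁ _ v)
  have hI₂ : Integrable (fun g => magn G θ₂ W₂ (nextL G θ₂ W₂ l₂ h (I := W₁ ∪ W₂) g) v)
      (gaussVec (W₁ ∪ W₂ : Finset V)) :=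
    Integrable.mono' (integrable_const (1 : ℝ)) hc₂.aestronglyMeasurable
      (Filter.Eventually.of_forall fun g => by simpa using abs_magn_le_one h₂ W₂ _ v)
  rw [integral_sub hI₁ hI₂]
  set A₁ := ∫ g, magn G θ₁ W₁ (nextL G θ₁ W₁ l₁ h (I := W₁ ∪ W₂) g) v ∂gaussVec (W₁ ∪ W₂ : Finset V)
  set A₂ := ∫ g, magn G θ₂ W₂ (nextL G θ₂ W₂ l₂ h (I := W₁ ∪ W₂) g) v ∂gaussVec (W₁ ∪ W₂ : Finset V)
  have d₁ : |A₁ - magn G θ₁ W₁ l₁ v| ≤ 4 * (W₁.card : ℝ) ^ 2 * h ^ 2 :=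
    magn_martingale_defect h₁ W₁ l₁ h0 h1 Finset.subset_union_left hv₁
  have d₂ : |A₂ - magn G θ₂ W₂ l₂ v| ≤ 4 * (W₂.card : ℝ) ^ 2 * h ^ 2 :=
    magn_martingale_defect h₂ W₂ l₂ h0 h1 Finset.subset_union_right hv₂
  have b₁ : |A₁| ≤ 1 := by
    have hbound := norm_integral_le_of_norm_le_const (μ := gaussVec (W₁ ∪ W₂ : Finset V))
      (f := fun g => magn G θ₁ W₁ (nextL G θ₁ W₁ l₁ h (I := W₁ ∪ W₂) g) v) (C := 1)
      (Filter.Eventually.of_forall fun g => by simpa using abs_magn_le_one h₁ W₁ _ v)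
    simpa using hbound
  have b₂ : |A₂| ≤ 1 := by
    have hbound := norm_integral_le_of_norm_le_const (μ := gaussVec (W₁ ∪ W₂ : Finset V))
      (f := fun g => magn G θ₂ W₂ (nextL G θ₂ W₂ l₂ h (I := W₁ ∪ W₂) g) v) (C := 1)
      (Filter.Eventually.of_forall fun g => by simpa using abs_magn_le_one h₂ W₂ _ v)
    simpa using hbound
  have m₁ := abs_magn_le_one (G := G) h₁ W₁ l₁ v
  have m₂ := abs_magn_le_one (G := G) h₂ W₂ l₂ v
  set a := magn G θ₁ W₁ l₁ v
  set b := magn G θ₂ W₂ l₂ v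
  have hfac : (A₁ - A₂) ^ 2 - (a - b) ^ 2 = ((A₁ - a) - (A₂ - b)) * ((A₁ - A₂) + (a - b)) := by ring
  rw [hfac, abs_mul]
  have hb1 : |(A₁ - a) - (A₂ - b)| ≤ 4 * (W₁.card : ℝ) ^ 2 * h ^ 2 + 4 * (W₂.card : ℝ) ^ 2 * h ^ 2 :=
    (abs_sub _ _).trans (add_le_add d₁ d₂)
  have hb2 : |(A₁ - A₂) + (a - b)| ≤ 4 := by
    rw [abs_le] at *
    constructor <;> linarith [b₁.1, b₁.2, b₂.1, b₂.2, m₁.1, m₁.2, m₂.1, m₂.2]
  have hp : 0 ≤ (W₁.card : ℝ) ^ 2 * h ^ 2 + (W₂.card : ℝ) ^ 2 * h ^ 2 := by positivity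
  calc _ ≤ (4 * (W₁.card : ℝ) ^ 2 * h ^ 2 + 4 * (W₂.card : ℝ) ^ 2 * h ^ 2) * 4 :=
        mul_le_mul hb1 hb2 (abs_nonneg _) (by positivity)
    _ ≤ _ := by nlinarith

/-- One step for a pair of schemes with the same noise. -/
theorem pair_one_step {θ₁ θ₂ : ℝ} (h₁ : GoodTheta θ₁) (h₂ : GoodTheta θ₂) (W₁ W₂ : Finset V)
    (l₁ l₂ : V → ℝ) {h : ℝ} (h0 : 0 < h) (h1 : h ≤ 1) {v : V} (hv₁ : v ∈ W₁) (hv₂ : v ∈ W₂) :
    ∫ g, (magn G θ₁ W₁ (nextL G θ₁ W₁ l₁ h (I := W₁ ∪ W₂) g) v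
          - magn G θ₂ W₂ (nextL G θ₂ W₂ l₂ h (I := W₁ ∪ W₂) g) v) ^ 2 ∂gaussVec (W₁ ∪ W₂ : Finset V)
      ≤ (magn G θ₁ W₁ l₁ v - magn G θ₂ W₂ l₂ v) ^ 2
        + (Real.pi ^ 2 / 32) * h * ∑ u ∈ W₁ ∪ W₂,
            ∫ g, (covS G θ₁ W₁ (nextL G θ₁ W₁ l₁ h (I := W₁ ∪ W₂) g) v u
              - covS G θ₂ W₂ (nextL G θ₂ W₂ l₂ h (I := W₁ ∪ W₂) g) v u) ^ 2
                ∂gaussVec (W₁ ∪ W₂ : Finset V)
        + 64 * ((W₁.card : ℝ) ^ 2 + (W₂.card : ℝ) ^ 2) * h ^ 2 := by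
  set I : Finset V := W₁ ∪ W₂ with hI
  set f : (I → ℝ) → ℝ := fun g => magn G θ₁ W₁ (nextL G θ₁ W₁ l₁ h (I := I) g) v
    - magn G θ₂ W₂ (nextL G θ₂ W₂ l₂ h (I := I) g) v with hf
  set df : I → (I → ℝ) → ℝ := fun k x =>
    Real.sqrt h * (covS G θ₁ W₁ (nextL G θ₁ W₁ l₁ h (I := I) x) v k / 2)
      - Real.sqrt h * (covS G θ₂ W₂ (nextL G θ₂ W₂ l₂ h (I := I) x) v k / 2) with hdf
  have hder : ∀ x, HasFDerivAt f (∑ k, df k x • (ContinuousLinearMap.proj k : (I → ℝ) →L[ℝ] ℝ)) x := by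
    intro x
    have h3 := (OnePairAux.hasFDerivAt_magn_nextL (G := G) h₁ W₁ l₁ h I x v).sub
      (OnePairAux.hasFDerivAt_magn_nextL (G := G) h₂ W₂ l₂ h I x v)
    have e : (∑ k, df k x • (ContinuousLinearMap.proj k : (I → ℝ) →L[ℝ] ℝ)) =
        (∑ k : I, (Real.sqrt h * (covS G θ₁ W₁ (nextL G θ₁ W₁ l₁ h (I := I) x) v k / 2)) •
          (ContinuousLinearMap.proj k : (I → ℝ) →L[ℝ] ℝ)) -
        (∑ k : I, (Real.sqrt h * (covS G θ₂ W₂ (nextL G θ₂ W₂ l₂ h (I := I) x) v k / 2)) •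
          (ContinuousLinearMap.proj k : (I → ℝ) →L[ℝ] ℝ)) := by
      rw [← Finset.sum_sub_distrib]
      refine Finset.sum_congr rfl fun k _ => ?_
      ext y
      simp only [hdf, ContinuousLinearMap.sub_apply, ContinuousLinearMap.smul_apply,
        ContinuousLinearMap.proj_apply, smul_eq_mul]
      ring
    rw [e]
    exact h3
  have hc : ∀ k, Continuous (df k) := by
    intro k
    refine Continuous.sub ?_ ?_
    · exact continuous_const.mul (((OnePairAux.continuous_covS (G := G) h₁ W₁ v k).comp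
        (OnePairAux.continuous_nextL (G := G) θ₁ W₁ l₁ h I)).div_const _)
    · exact continuous_const.mul (((OnePairAux.continuous_covS (G := G) h₂ W₂ v k).comp
        (OnePairAux.continuous_nextL (G := G) θ₂ W₂ l₂ h I)).div_const _)
  have hcb : ∃ C, ∀ k x, |df k x| ≤ C := by
    refine ⟨Real.sqrt h, fun k x => ?_⟩
    have c₁ := abs_covS_le_one (G := G) h₁ W₁ (nextL G θ₁ W₁ l₁ h (I := I) x) v k
    have c₂ := abs_covS_le_one (G := G) h₂ W₂ (nextL G θ₂ W₂ l₂ h (I := I) x) v k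
    have e : df k x = Real.sqrt h * ((covS G θ₁ W₁ (nextL G θ₁ W₁ l₁ h (I := I) x) v k
        - covS G θ₂ W₂ (nextL G θ₂ W₂ l₂ h (I := I) x) v k) / 2) := by
      simp only [hdf]; ring
    rw [e, abs_mul, abs_of_nonneg (Real.sqrt_nonneg h)]
    have hs := Real.sqrt_nonneg h
    have : |(covS G θ₁ W₁ (nextL G θ₁ W₁ l₁ h (I := I) x) v k
        - covS G θ₂ W₂ (nextL G θ₂ W₂ l₂ h (I := I) x) v k) / 2| ≤ 1 := by
      rw [abs_div, abs_of_pos (two_pos : (0 : ℝ) < 2), div_le_one two_pos]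
      exact (abs_sub _ _).trans (by linarith)
    nlinarith
  have hfb : ∃ C, ∀ x, |f x| ≤ C := by
    refine ⟨2, fun x => ?_⟩
    have c₁ := abs_magn_le_one (G := G) h₁ W₁ (nextL G θ₁ W₁ l₁ h (I := I) x) v
    have c₂ := abs_magn_le_one (G := G) h₂ W₂ (nextL G θ₂ W₂ l₂ h (I := I) x) v
    exact (abs_sub _ _).trans (by linarith)
  have hP := gauss_poincare f df hder hc hcb hfb
  have hM := pair_mean (G := G) h₁ h₂ W₁ W₂ l₁ l₂ h0 h1 hv₁ hv₂
  have hM' := (abs_le.1 hM).2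
  have hsum : (Real.pi ^ 2 / 8) * ∑ k, ∫ g, (df k g) ^ 2 ∂gaussVec I =
      (Real.pi ^ 2 / 32) * h * ∑ u ∈ I,
        ∫ g, (covS G θ₁ W₁ (nextL G θ₁ W₁ l₁ h (I := I) g) v u
          - covS G θ₂ W₂ (nextL G θ₂ W₂ l₂ h (I := I) g) v u) ^ 2 ∂gaussVec I := by
    rw [← Finset.sum_coe_sort I (fun u => ∫ g, (covS G θ₁ W₁ (nextL G θ₁ W₁ l₁ h (I := I) g) v u
          - covS G θ₂ W₂ (nextL G θ₂ W₂ l₂ h (I := I) g) v u) ^ 2 ∂gaussVec I)]
    rw [Finset.mul_sum, Finset.mul_sum]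
    refine Finset.sum_congr rfl fun k _ => ?_
    have e : ∀ g, (df k g) ^ 2 = (h / 4) * (covS G θ₁ W₁ (nextL G θ₁ W₁ l₁ h (I := I) g) v k
          - covS G θ₂ W₂ (nextL G θ₂ W₂ l₂ h (I := I) g) v k) ^ 2 := by
      intro g
      have hs : Real.sqrt h ^ 2 = h := Real.sq_sqrt h0.le
      have e2 : df k g = Real.sqrt h * ((covS G θ₁ W₁ (nextL G θ₁ W₁ l₁ h (I := I) g) v k
          - covS G θ₂ W₂ (nextL G θ₂ W₂ l₂ h (I := I) g) v k) / 2) := by
        simp only [hdf]; ring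
      rw [e2, mul_pow, hs]
      ring
    simp only [e]
    rw [integral_const_mul]
    ring
  rw [hsum] at hP
  linarith

/-- The lower bound (the difference is a martingale up to the defect): variance is nonnegative. -/
theorem pair_one_step_lower {θ₁ θ₂ : ℝ} (h₁ : GoodTheta θ₁) (h₂ : GoodTheta θ₂) (W₁ W₂ : Finset V)
    (l₁ l₂ : V → ℝ) {h : ℝ} (h0 : 0 < h) (h1 : h ≤ 1) {v : V} (hv₁ : v ∈ W₁) (hv₂ : v ∈ W₂) :
    (magn G θ₁ W₁ l₁ v - magn G θ₂ W₂ l₂ v) ^ 2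
      ≤ ∫ g, (magn G θ₁ W₁ (nextL G θ₁ W₁ l₁ h (I := W₁ ∪ W₂) g) v
          - magn G θ₂ W₂ (nextL G θ₂ W₂ l₂ h (I := W₁ ∪ W₂) g) v) ^ 2 ∂gaussVec (W₁ ∪ W₂ : Finset V)
        + 64 * ((W₁.card : ℝ) ^ 2 + (W₂.card : ℝ) ^ 2) * h ^ 2 := by
  have hM := pair_mean (G := G) h₁ h₂ W₁ W₂ l₁ l₂ h0 h1 hv₁ hv₂
  have hM' := (abs_le.1 hM).1
  set f : ((W₁ ∪ W₂ : Finset V) → ℝ) → ℝ := fun g =>
    magn G θ₁ W₁ (nextL G θ₁ W₁ l₁ h (I := W₁ ∪ W₂) g) v
      - magn G θ₂ W₂ (nextL G θ₂ W₂ l₂ h (I := W₁ ∪ W₂) g) v with hf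
  have hfc : Continuous f :=
    ((OnePairAux.continuous_magn (G := G) h₁ W₁ v).comp
      (OnePairAux.continuous_nextL (G := G) θ₁ W₁ l₁ h (W₁ ∪ W₂))).sub
    ((OnePairAux.continuous_magn (G := G) h₂ W₂ v).comp
      (OnePairAux.continuous_nextL (G := G) θ₂ W₂ l₂ h (W₁ ∪ W₂)))
  have hfb : ∀ x, |f x| ≤ 2 := by
    intro x
    have c₁ := abs_magn_le_one (G := G) h₁ W₁ (nextL G θ₁ W₁ l₁ h (I := W₁ ∪ W₂) x) v
    have c₂ := abs_magn_le_one (G := G) h₂ W₂ (nextL G θ₂ W₂ l₂ h (I := W₁ ∪ W₂) x) v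
    exact (abs_sub _ _).trans (by linarith)
  have hfI : Integrable f (gaussVec (W₁ ∪ W₂ : Finset V)) :=
    Integrable.mono' (integrable_const (2 : ℝ)) hfc.aestronglyMeasurable
      (Filter.Eventually.of_forall fun g => by simpa using hfb g)
  have hf2I : Integrable (fun g => f g ^ 2) (gaussVec (W₁ ∪ W₂ : Finset V)) := by
    refine Integrable.mono' (integrable_const ((2 : ℝ) ^ 2)) (hfc.pow 2).aestronglyMeasurable
      (Filter.Eventually.of_forall fun g => ?_)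
    rw [Real.norm_eq_abs, abs_pow]
    exact pow_le_pow_left₀ (abs_nonneg _) (hfb g) 2
  set c := ∫ g, f g ∂gaussVec (W₁ ∪ W₂ : Finset V) with hc
  have hvar : c ^ 2 ≤ ∫ g, f g ^ 2 ∂gaussVec (W₁ ∪ W₂ : Finset V) := by
    have h0' : 0 ≤ ∫ g, (f g - c) ^ 2 ∂gaussVec (W₁ ∪ W₂ : Finset V) :=
      integral_nonneg fun _ => sq_nonneg _
    have e : ∀ g, (f g - c) ^ 2 = f g ^ 2 - 2 * c * f g + c ^ 2 := fun g => by ring
    simp only [e] at h0'
    have hA : Integrable (fun g => f g ^ 2 - 2 * c * f g) (gaussVec (W₁ ∪ W₂ : Finset V)) :=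
      hf2I.sub (hfI.const_mul _)
    rw [integral_add hA (integrable_const _), integral_sub hf2I (hfI.const_mul _),
      integral_const_mul, integral_const] at h0'
    simp only [probReal_univ, smul_eq_mul, one_mul] at h0'
    nlinarith
  linarith

end pair

end Crest.Agent.IsingFactor
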