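import Mathlib

/-!
# IsingFactor.PsiReal : the real-variable part of WP IF-TempPsi: the function `psiC`.
`psiC q ν = Φ |ν|`, `Φ` has the derivative `psiD q`, nondecreasing on `[0,∞)`, `psiD q x ≤ (8/3) x`, `≤ 4/3`.
-/

set_option autoImplicit false

namespace Crest.Agent.IsingFactor

/-- `ℓ_c(ν) = log ((1 - ν²/q) / (1 - ν²))`. -/
noncomputable def ellC (q : ℕ) (ν : ℝ) : ℝ := Real.log ((1 - ν ^ 2 / q) / (1 - ν ^ 2))

/-- The slope of `ℓ_c` at `1/2`. -/
noncomputable def slopeC (q : ℕ) : ℝ := 4 / 3 - (1 / (q : ℝ)) / (1 - (1 / (q : ℝ)) / 4)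

/-- Even convex truncation of `ℓ_c`. -/
noncomputable def psiC (q : ℕ) (ν : ℝ) : ℝ :=
  if |ν| ≤ 1 / 2 then ellC q ν else ellC q (1 / 2) + slopeC q * (|ν| - 1 / 2)

/-- The radial profile of `psiC`. -/
noncomputable def psiP (q : ℕ) (x : ℝ) : ℝ :=
  if x ≤ 1 / 2 then ellC q x else ellC q (1 / 2) + slopeC q * (x - 1 / 2)

/-- The derivative of `ℓ_c`. -/
noncomputable def ellD (q : ℕ) (x : ℝ) : ℝ :=
  2 * (1 - 1 / (q : ℝ)) * x / ((1 - x ^ 2) * (1 - (1 / (q : ℝ)) * x ^ 2))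

/-- The derivative of `psiP`. -/
noncomputable def psiD (q : ℕ) (x : ℝ) : ℝ := if x ≤ 1 / 2 then ellD q x else slopeC q

theorem ellC_abs (q : ℕ) (ν : ℝ) : ellC q |ν| = ellC q ν := by
  unfold ellC
  rw [sq_abs]

theorem psiC_eq (q : ℕ) (ν : ℝ) : psiC q ν = psiP q |ν| := by
  unfold psiC psiP
  rw [ellC_abs]

section
variable {q : ℕ} (hq : 2 ≤ q)
include hq

private lemma s_bounds : 0 < (1 / (q : ℝ)) ∧ (1 / (q : ℝ)) ≤ 1 / 2 := by
  have h : (2 : ℝ) ≤ q := by exact_mod_cast hq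
  refine ⟨by positivity, ?_⟩
  exact one_div_le_one_div_of_le (by norm_num) h

theorem hasDerivAt_ellC {x : ℝ} (h1 : -1 < x) (h2 : x < 1) : HasDerivAt (ellC q) (ellD q x) x := by
  obtain ⟨hs0, hs1⟩ := s_bounds hq
  have hq0 : (q : ℝ) ≠ 0 := by
    have : (2 : ℝ) ≤ q := by exact_mod_cast hq
    linarith
  have hx2 : x ^ 2 < 1 := by nlinarith
  have hv : 1 - x ^ 2 ≠ 0 := by linarith
  have hu0 : 0 < 1 - x ^ 2 / q := by
    have : x ^ 2 / q = (1 / (q : ℝ)) * x ^ 2 := by ring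
    rw [this]
    nlinarith [sq_nonneg x]
  have hu : 1 - x ^ 2 / q ≠ 0 := hu0.ne'
  have du : HasDerivAt (fun ν : ℝ => 1 - ν ^ 2 / q) (-(2 * x / q)) x := by
    simpa using (((hasDerivAt_pow 2 x).div_const (q : ℝ)).const_sub 1)
  have dv : HasDerivAt (fun ν : ℝ => 1 - ν ^ 2) (-(2 * x)) x := by
    simpa using ((hasDerivAt_pow 2 x).const_sub 1)
  have d := (du.div dv hv).log (div_ne_zero hu hv)
  have e : ellD q x = (-(2 * x / q) * (1 - x ^ 2) - (1 - x ^ 2 / q) * (-(2 * x))) / (1 - x ^ 2) ^ 2 /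
      ((1 - x ^ 2 / q) / (1 - x ^ 2)) := by
    unfold ellD
    have hu' : 1 - (1 / (q : ℝ)) * x ^ 2 ≠ 0 := by
      have : (1 / (q : ℝ)) * x ^ 2 = x ^ 2 / q := by ring
      rw [this]
      exact hu
    field_simp
    ring
  rw [e]
  exact d

theorem psiD_half : ellD q (1 / 2) = slopeC q := by
  obtain ⟨hs0, hs1⟩ := s_bounds hq
  unfold ellD slopeC
  set s := 1 / (q : ℝ) with hs
  have h1 : 1 - s / 4 ≠ 0 := by linarith
  have h2 : 1 - s * (1 / 2) ^ 2 ≠ 0 := by
    intro h0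
    apply h1
    linarith
  rw [show (4 : ℝ) / 3 - s / (1 - s / 4) = ((4 / 3) * (1 - s / 4) - s) / (1 - s / 4) by
    rw [sub_div, mul_div_assoc, div_self h1, mul_one]]
  rw [show 1 - s * (1 / 2) ^ 2 = 1 - s / 4 by ring,
    div_eq_div_iff (mul_ne_zero (by norm_num) h1) h1]
  ring

theorem hasDerivAt_psiP {x : ℝ} (h1 : -1 < x) : HasDerivAt (psiP q) (psiD q x) x := by
  rcases lt_trichotomy x (1 / 2) with hx | hx | hx
  · have hd := hasDerivAt_ellC hq h1 (by linarith : x < 1)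
    have he : psiP q =ᶠ[nhds x] ellC q := by
      filter_upwards [Iio_mem_nhds hx] with y hy
      unfold psiP
      rw [if_pos (le_of_lt hy)]
    have : psiD q x = ellD q x := by
      unfold psiD
      rw [if_pos hx.le]
    rw [this]
    exact hd.congr_of_eventuallyEq he
  · subst hx
    have hd := hasDerivAt_ellC hq (by norm_num : (-1 : ℝ) < 1 / 2) (by norm_num : (1 / 2 : ℝ) < 1)
    have hval : psiD q (1 / 2) = ellD q (1 / 2) := by
      unfold psiD
      rw [if_pos le_rfl]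
    rw [hval]
    have left : HasDerivWithinAt (psiP q) (ellD q (1 / 2)) (Set.Iic (1 / 2)) (1 / 2) := by
      apply hd.hasDerivWithinAt.congr
      · intro y hy
        unfold psiP
        rw [if_pos (Set.mem_Iic.1 hy)]
      · unfold psiP
        rw [if_pos le_rfl]
    have right : HasDerivWithinAt (psiP q) (ellD q (1 / 2)) (Set.Ici (1 / 2)) (1 / 2) := by
      have hl : HasDerivAt (fun y : ℝ => ellC q (1 / 2) + slopeC q * (y - 1 / 2)) (slopeC q) (1 / 2) := by
        have := ((hasDerivAt_id (1 / 2 : ℝ)).sub_const (1 / 2 : ℝ)).const_mul (slopeC q)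
        have h3 := this.const_add (ellC q (1 / 2))
        simpa using h3
      rw [psiD_half hq]
      apply hl.hasDerivWithinAt.congr
      · intro y hy
        unfold psiP
        by_cases h : y ≤ 1 / 2
        · have : y = 1 / 2 := le_antisymm h hy
          rw [if_pos h, this]
          ring
        · rw [if_neg h]
      · unfold psiP
        rw [if_pos le_rfl]
        ring
    have := left.union right
    rw [Set.Iic_union_Ici] at this
    exact this.hasDerivAt Filter.univ_mem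
  · have hl : HasDerivAt (fun y : ℝ => ellC q (1 / 2) + slopeC q * (y - 1 / 2)) (slopeC q) x := by
      have := ((hasDerivAt_id x).sub_const (1 / 2 : ℝ)).const_mul (slopeC q)
      have h3 := this.const_add (ellC q (1 / 2))
      simpa using h3
    have he : psiP q =ᶠ[nhds x] (fun y : ℝ => ellC q (1 / 2) + slopeC q * (y - 1 / 2)) := by
      filter_upwards [Ioi_mem_nhds hx] with y hy
      unfold psiP
      rw [if_neg (not_le.2 hy)]
    have : psiD q x = slopeC q := by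
      unfold psiD
      rw [if_neg (not_le.2 hx)]
    rw [this]
    exact hl.congr_of_eventuallyEq he

theorem slopeC_le : slopeC q ≤ 4 / 3 := by
  obtain ⟨hs0, hs1⟩ := s_bounds hq
  unfold slopeC
  have : 0 ≤ (1 / (q : ℝ)) / (1 - (1 / (q : ℝ)) / 4) := div_nonneg hs0.le (by linarith)
  linarith

theorem ellD_nonneg {x : ℝ} (h0 : 0 ≤ x) (h1 : x < 1) : 0 ≤ ellD q x := by
  obtain ⟨hs0, hs1⟩ := s_bounds hq
  unfold ellD
  have hx2 : x ^ 2 < 1 := by nlinarith
  apply div_nonneg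
  · apply mul_nonneg (mul_nonneg (by norm_num) (by linarith)) h0
  · apply mul_nonneg (by linarith)
    nlinarith [sq_nonneg x]

theorem ellD_mono {x y : ℝ} (h0 : 0 ≤ x) (hxy : x ≤ y) (h1 : y < 1) : ellD q x ≤ ellD q y := by
  obtain ⟨hs0, hs1⟩ := s_bounds hq
  unfold ellD
  set s := 1 / (q : ℝ)
  have hy0 : 0 ≤ y := h0.trans hxy
  have hx2 : x ^ 2 ≤ y ^ 2 := by nlinarith
  have hy2 : y ^ 2 < 1 := by nlinarith
  have a1 : 0 < 1 - y ^ 2 := by linarith
  have a2 : 0 < 1 - s * y ^ 2 := by nlinarith [sq_nonneg y]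
  have hD : (1 - y ^ 2) * (1 - s * y ^ 2) ≤ (1 - x ^ 2) * (1 - s * x ^ 2) := by
    apply mul_le_mul (by linarith) (by nlinarith) a2.le (by linarith)
  apply div_le_div₀ (mul_nonneg (mul_nonneg (by norm_num) (by linarith)) hy0)
    (mul_le_mul_of_nonneg_left hxy (mul_nonneg (by norm_num) (by linarith)))
    (mul_pos a1 a2) hD

theorem psiD_nonneg {x : ℝ} (h0 : 0 ≤ x) : 0 ≤ psiD q x := by
  unfold psiD
  split_ifs with h
  · exact ellD_nonneg hq h0 (by linarith)
  · rw [← psiD_half hq]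
    exact ellD_nonneg hq (by norm_num) (by norm_num)

theorem psiD_mono {x y : ℝ} (h0 : 0 ≤ x) (hxy : x ≤ y) : psiD q x ≤ psiD q y := by
  unfold psiD
  by_cases hy : y ≤ 1 / 2
  · rw [if_pos (hxy.trans hy), if_pos hy]
    exact ellD_mono hq h0 hxy (by linarith)
  · rw [if_neg hy]
    by_cases hx : x ≤ 1 / 2
    · rw [if_pos hx, ← psiD_half hq]
      exact ellD_mono hq h0 hx (by norm_num)
    · rw [if_neg hx]

theorem ellD_le {x : ℝ} (h0 : 0 ≤ x) (h1 : x ≤ 1 / 2) : ellD q x ≤ 8 / 3 * x := by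
  obtain ⟨hs0, hs1⟩ := s_bounds hq
  unfold ellD
  set s := 1 / (q : ℝ)
  have hx2 : x ^ 2 ≤ 1 / 4 := by nlinarith
  have a1 : 3 / 4 ≤ 1 - x ^ 2 := by linarith
  have a2 : 1 - s ≤ 1 - s * x ^ 2 := by nlinarith [sq_nonneg x]
  have a3 : 0 < 1 - s := by linarith
  rw [div_le_iff₀ (mul_pos (by linarith) (by linarith))]
  have h3 : (3 / 4) * (1 - s) ≤ (1 - x ^ 2) * (1 - s * x ^ 2) :=
    mul_le_mul a1 a2 a3.le (by linarith)
  have h4 := mul_le_mul_of_nonneg_left h3 (by positivity : 0 ≤ 8 / 3 * x)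
  nlinarith

theorem psiD_le {x : ℝ} (h0 : 0 ≤ x) : psiD q x ≤ 8 / 3 * x := by
  unfold psiD
  split_ifs with h
  · exact ellD_le hq h0 h
  · have := slopeC_le hq
    have h1 : 1 / 2 < x := not_le.1 h
    linarith

theorem psiD_le' {x : ℝ} (h0 : 0 ≤ x) : psiD q x ≤ 4 / 3 := by
  by_cases h : x ≤ 1 / 2
  · have := psiD_le hq h0
    linarith
  · unfold psiD
    rw [if_neg h]
    exact slopeC_le hq

/-- Mean value theorem for `psiP`. -/
theorem psiP_mvt {x y : ℝ} (h0 : 0 ≤ y) (hxy : y ≤ x) :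
    ∃ c, y ≤ c ∧ c ≤ x ∧ psiP q x - psiP q y = psiD q c * (x - y) := by
  rcases hxy.eq_or_lt with rfl | hlt
  · exact ⟨y, le_rfl, le_rfl, by ring⟩
  · have hc : ContinuousOn (psiP q) (Set.Icc y x) := fun z hz =>
      (hasDerivAt_psiP hq (by linarith [hz.1] : -1 < z)).continuousAt.continuousWithinAt
    obtain ⟨c, hc1, hc2⟩ := exists_hasDerivAt_eq_slope (psiP q) (psiD q) hlt hc
      (fun z hz => hasDerivAt_psiP hq (by linarith [hz.1] : -1 < z))
    refine ⟨c, hc1.1.le, hc1.2.le, ?_⟩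
    rw [hc2]
    field_simp [sub_ne_zero.2 hlt.ne']

theorem psiP_convexOn : ConvexOn ℝ (Set.Ici 0) (psiP q) := by
  apply MonotoneOn.convexOn_of_deriv (convex_Ici 0)
  · intro z hz
    exact (hasDerivAt_psiP hq (by linarith [Set.mem_Ici.1 hz] : -1 < z)).continuousAt.continuousWithinAt
  · intro z hz
    rw [interior_Ici] at hz
    exact (hasDerivAt_psiP hq (by linarith [Set.mem_Ioi.1 hz] : -1 < z)).differentiableAt.differentiableWithinAt
  · intro a ha b _ hab
    rw [interior_Ici] at ha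
    have ha' : 0 < a := ha
    rw [(hasDerivAt_psiP hq (by linarith : -1 < a)).deriv,
      (hasDerivAt_psiP hq (by linarith : -1 < b)).deriv]
    exact psiD_mono hq ha'.le hab

theorem psiP_monotoneOn : MonotoneOn (psiP q) (Set.Ici 0) := by
  intro y hy x _ hxy
  obtain ⟨c, hc1, _, hc⟩ := psiP_mvt hq (x := x) (y := y) hy hxy
  have := mul_nonneg (psiD_nonneg hq (hy.trans hc1)) (sub_nonneg.2 hxy)
  linarith

theorem psiC_convex : ConvexOn ℝ Set.univ (psiC q) := by
  have him : (fun ν : ℝ => |ν|) '' Set.univ = Set.Ici 0 := by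
    ext z
    constructor
    · rintro ⟨ν, _, rfl⟩
      exact abs_nonneg ν
    · intro hz
      exact ⟨z, Set.mem_univ _, abs_of_nonneg hz⟩
  have habs : ConvexOn ℝ Set.univ (fun ν : ℝ => |ν|) := by
    refine ⟨convex_univ, ?_⟩
    intro x _ y _ a b ha hb _
    simp only [smul_eq_mul]
    calc |a * x + b * y| ≤ |a * x| + |b * y| := abs_add_le _ _
      _ = a * |x| + b * |y| := by rw [abs_mul, abs_mul, abs_of_nonneg ha, abs_of_nonneg hb]
  have hg : ConvexOn ℝ ((fun ν : ℝ => |ν|) '' Set.univ) (psiP q) := by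
    rw [him]
    exact psiP_convexOn hq
  have hm : MonotoneOn (psiP q) ((fun ν : ℝ => |ν|) '' Set.univ) := by
    rw [him]
    exact psiP_monotoneOn hq
  have := hg.comp habs hm
  have e : psiC q = psiP q ∘ (fun ν : ℝ => |ν|) := by
    funext ν
    exact psiC_eq q ν
  rw [e]
  exact this

theorem psiC_continuous : Continuous (psiC q) := by
  have := (psiC_convex hq).continuousOn isOpen_univ
  exact continuousOn_univ.1 this

theorem psiC_sub_le' {a b : ℝ} :
    |psiC q a - psiC q b| ≤ 3 * (|a| + |b|) * |a - b| := by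
  have key : ∀ {a b : ℝ}, |b| ≤ |a| → |psiC q a - psiC q b| ≤ 3 * (|a| + |b|) * |a - b| := by
    intro a b hab
    rw [psiC_eq, psiC_eq]
    obtain ⟨c, hc1, hc2, hc⟩ := psiP_mvt hq (x := |a|) (y := |b|) (abs_nonneg b) hab
    have hc0 : 0 ≤ c := (abs_nonneg b).trans hc1
    rw [hc]
    have h1 := psiD_nonneg hq hc0
    have h2 := psiD_le hq hc0
    have h3 : |a| - |b| ≤ |a - b| := abs_sub_abs_le_abs_sub a b
    have h4 : 0 ≤ |a| - |b| := sub_nonneg.2 hab
    rw [abs_of_nonneg (mul_nonneg h1 h4)]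
    have h5 : psiD q c ≤ 3 * (|a| + |b|) := by
      have := abs_nonneg b
      linarith
    calc psiD q c * (|a| - |b|) ≤ (3 * (|a| + |b|)) * |a - b| := by
          apply mul_le_mul h5 h3 h4 (by positivity)
      _ = _ := rfl
  rcases le_total |b| |a| with h | h
  · exact key h
  · have := key h
    rw [abs_sub_comm (psiC q b), abs_sub_comm b a, add_comm |b|] at this
    exact this

theorem psiC_nonneg_le' (a : ℝ) : 0 ≤ psiC q a ∧ psiC q a ≤ 4 / 3 * |a| := by
  rw [psiC_eq]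
  obtain ⟨c, hc1, hc2, hc⟩ := psiP_mvt hq (x := |a|) (y := 0) le_rfl (abs_nonneg a)
  have h0 : psiP q 0 = 0 := by
    unfold psiP ellC
    norm_num
  rw [h0, sub_zero, sub_zero] at hc
  rw [hc]
  have h1 := psiD_nonneg hq hc1
  have h2 := psiD_le' hq hc1
  exact ⟨mul_nonneg h1 (abs_nonneg a), mul_le_mul_of_nonneg_right h2 (abs_nonneg a)⟩

end

theorem psiC_even (q : ℕ) (ν : ℝ) : psiC q (-ν) = psiC q ν := by
  rw [psiC_eq, psiC_eq, abs_neg]

end Crest.Agent.IsingFactor
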