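import Mathlib

/-!
# IsingFactor.SolGaussAux : the abstract one-step inequality behind the sub-Gaussian tail of `Ξ`
(WP IF-SolGauss), and the weighted second moment.  No tree here: a pair of bounded random variables.
-/

set_option autoImplicit false

open MeasureTheory

namespace Crest.Agent.IsingFactor.SolGaussAux

/-- `e^x ≤ 1 + x + x² L / 2` for `x ≤ s`, `e^s ≤ L`, `s ≥ 0`. -/
theorem exp_le_quad {x s L : ℝ} (hs : 0 ≤ s) (hx : x ≤ s) (hL : Real.exp s ≤ L) :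
    Real.exp x ≤ 1 + x + x ^ 2 * L / 2 := by
  have hL1 : 1 ≤ L := (Real.one_le_exp hs).trans hL
  set f : ℝ → ℝ := fun t => 1 + t + t ^ 2 * L / 2 - Real.exp t with hf
  have hderiv : ∀ t, HasDerivAt f (1 + t * L - Real.exp t) t := by
    intro t
    have h1 : HasDerivAt (fun t : ℝ => 1 + t) 1 t := by
      simpa using (hasDerivAt_id t).const_add (1 : ℝ)
    have h2 : HasDerivAt (fun t : ℝ => t ^ 2 * L / 2) (t * L) t := by
      have := ((hasDerivAt_pow 2 t).mul_const L).div_const 2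
      refine this.congr_deriv ?_
      norm_num
      try ring
    exact (h1.fun_add h2).fun_sub (Real.hasDerivAt_exp t)
  have hdiff : Differentiable ℝ f := fun t => (hderiv t).differentiableAt
  have hd : ∀ t, deriv f t = 1 + t * L - Real.exp t := fun t => (hderiv t).deriv
  have h0 : f 0 = 0 := by simp [hf]
  have key : 0 ≤ f x := by
    rcases le_total 0 x with h | h
    · have hmono : MonotoneOn f (Set.Icc 0 x) := by
        apply monotoneOn_of_deriv_nonneg (convex_Icc 0 x) hdiff.continuous.continuousOn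
          hdiff.differentiableOn
        intro t ht
        rw [interior_Icc] at ht
        rw [hd]
        have ht0 : 0 ≤ t := ht.1.le
        have ht1 : t ≤ s := ht.2.le.trans hx
        have e1 : Real.exp t ≤ L := (Real.exp_le_exp.2 ht1).trans hL
        have e2 : 1 - t ≤ Real.exp (-t) := by
          have := Real.add_one_le_exp (-t)
          linarith
        have e3 : Real.exp t * Real.exp (-t) = 1 := by
          rw [← Real.exp_add]; simp
        have e4 : Real.exp t * (1 - t) ≤ 1 := by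
          have := mul_le_mul_of_nonneg_left e2 (Real.exp_pos t).le
          linarith
        have e5 : t * Real.exp t ≤ t * L := mul_le_mul_of_nonneg_left e1 ht0
        nlinarith
      have := hmono (Set.left_mem_Icc.2 h) (Set.right_mem_Icc.2 h) h
      rw [h0] at this
      exact this
    · have hanti : AntitoneOn f (Set.Icc x 0) := by
        apply antitoneOn_of_deriv_nonpos (convex_Icc x 0) hdiff.continuous.continuousOn
          hdiff.differentiableOn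
        intro t ht
        rw [interior_Icc] at ht
        rw [hd]
        have ht0 : t ≤ 0 := ht.2.le
        have e1 := Real.add_one_le_exp t
        have e2 : t * L ≤ t * 1 := mul_le_mul_of_nonpos_left hL1 ht0
        linarith
      have := hanti (Set.left_mem_Icc.2 h) (Set.right_mem_Icc.2 h) h
      rw [h0] at this
      exact this
  simp only [hf] at key
  linarith

/-- `exp (ρ z) ≤ 1 + ρ (exp z - 1)`. -/
theorem exp_mul_le {ρ z : ℝ} (h0 : 0 ≤ ρ) (h1 : ρ ≤ 1) :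
    Real.exp (ρ * z) ≤ 1 + ρ * (Real.exp z - 1) := by
  have := convexOn_exp.2 (Set.mem_univ (0 : ℝ)) (Set.mem_univ z) (sub_nonneg.2 h1) h0 (by ring)
  simp only [smul_eq_mul, mul_zero, zero_add, Real.exp_zero, mul_one] at this
  linarith

/-- The pointwise inequality for small `s`. -/
theorem point_small {ρ z g s L t : ℝ} (hρ0 : 0 ≤ ρ) (hρ1 : ρ ≤ 1) (hg : g ≤ 1) (hs : 0 ≤ s)
    (hexps : Real.exp s ≤ L) (htpos : 0 < t) :
    Real.exp (ρ * (s * z) + s * g) ≤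
      1 + (ρ * (s * z) + s * g) + (Real.exp (s * z) - 1) - s * z
        + (s ^ 2 * (L / 2 + t / 2)) * g ^ 2 + (1 / (2 * t) + s ^ 2 * L / 4) * (Real.exp (s * z) - 1) ^ 2
        + (s ^ 2 * L / 4) * g ^ 4 := by
  set W := Real.exp (s * z) - 1 with hW
  have hLpos : 0 < L := (Real.exp_pos s).trans_le hexps
  have h1 : Real.exp (ρ * (s * z)) ≤ 1 + ρ * W := exp_mul_le hρ0 hρ1
  have h2 : Real.exp (s * g) ≤ 1 + s * g + (s * g) ^ 2 * L / 2 :=
    exp_le_quad hs (by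
      have h3 : s * g ≤ s * 1 := mul_le_mul_of_nonneg_left hg hs
      linarith) hexps
  have h3 : Real.exp (ρ * (s * z) + s * g) ≤ (1 + ρ * W) * (1 + s * g + (s * g) ^ 2 * L / 2) := by
    rw [Real.exp_add]
    exact mul_le_mul h1 h2 (Real.exp_pos _).le ((Real.exp_pos _).le.trans h1)
  have hWy : 0 ≤ W - s * z := by
    have := Real.add_one_le_exp (s * z)
    rw [hW]
    linarith
  have hi : ρ * W ≤ W - s * z + ρ * (s * z) := by
    nlinarith [mul_nonneg (sub_nonneg.2 hρ1) hWy]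
  have hρW2 : (ρ * W) ^ 2 ≤ W ^ 2 := by
    rw [mul_pow]
    have : ρ ^ 2 ≤ 1 := by nlinarith
    nlinarith [sq_nonneg W]
  have hii : (ρ * W) * (s * g) ≤ W ^ 2 / (2 * t) + s ^ 2 * (t / 2) * g ^ 2 := by
    have h4 : 0 ≤ (ρ * W - t * (s * g)) ^ 2 / (2 * t) := by positivity
    have h5 : (ρ * W - t * (s * g)) ^ 2 / (2 * t)
        = (ρ * W) ^ 2 / (2 * t) - (ρ * W) * (s * g) + s ^ 2 * (t / 2) * g ^ 2 := by
      field_simp
      ring
    have h6 : (ρ * W) ^ 2 / (2 * t) ≤ W ^ 2 / (2 * t) :=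
      div_le_div_of_nonneg_right hρW2 (by positivity)
    linarith
  have hiii : (ρ * W) * g ^ 2 ≤ (W ^ 2 + g ^ 4) / 2 := by
    have := hρW2
    nlinarith [sq_nonneg (ρ * W - g ^ 2)]
  have hiii' : (ρ * W) * ((s * g) ^ 2 * L / 2) ≤ s ^ 2 * L / 4 * (W ^ 2 + g ^ 4) := by
    have h7 : 0 ≤ s ^ 2 * L / 2 := by positivity
    have := mul_le_mul_of_nonneg_left hiii h7
    calc (ρ * W) * ((s * g) ^ 2 * L / 2) = s ^ 2 * L / 2 * ((ρ * W) * g ^ 2) := by ring
      _ ≤ s ^ 2 * L / 2 * ((W ^ 2 + g ^ 4) / 2) := this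
      _ = _ := by ring
  have hexpand : (1 + ρ * W) * (1 + s * g + (s * g) ^ 2 * L / 2)
      = 1 + s * g + (s * g) ^ 2 * L / 2 + ρ * W + (ρ * W) * (s * g)
        + (ρ * W) * ((s * g) ^ 2 * L / 2) := by ring
  rw [hexpand] at h3
  have e1 : (s * g) ^ 2 * L / 2 = s ^ 2 * (L / 2) * g ^ 2 := by ring
  have e2 : (1 / (2 * t) + s ^ 2 * L / 4) * W ^ 2 = W ^ 2 / (2 * t) + s ^ 2 * L / 4 * W ^ 2 := by
    ring
  have e3 : (s ^ 2 * (L / 2 + t / 2)) * g ^ 2 = s ^ 2 * (L / 2) * g ^ 2 + s ^ 2 * (t / 2) * g ^ 2 := by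
    ring
  have e4 : s ^ 2 * L / 4 * (W ^ 2 + g ^ 4) = s ^ 2 * L / 4 * W ^ 2 + s ^ 2 * L / 4 * g ^ 4 := by
    ring
  rw [e2, e3]
  linarith

section prob
variable {Ω : Type*} [MeasurableSpace Ω] {μ : Measure Ω} [IsProbabilityMeasure μ]

/-- Continuous functions of two bounded measurable variables are integrable. -/
theorem integrable_comp₂ {ρ Ξ : Ω → ℝ} (hρ : Measurable ρ) (hΞ : Measurable Ξ) {A B : ℝ}
    (hρb : ∀ ω, |ρ ω| ≤ A) (hΞb : ∀ ω, |Ξ ω| ≤ B) {Φ : ℝ × ℝ → ℝ} (hΦ : Continuous Φ) :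
    Integrable (fun ω => Φ (ρ ω, Ξ ω)) μ := by
  obtain ⟨C, hC⟩ := ((isCompact_Icc (a := -A) (b := A)).prod
    (isCompact_Icc (a := -B) (b := B))).exists_bound_of_continuousOn hΦ.continuousOn
  refine Integrable.of_bound (hΦ.measurable.comp (hρ.prodMk hΞ)).aestronglyMeasurable C
    (ae_of_all _ fun ω => hC _ ?_)
  exact Set.mk_mem_prod (abs_le.1 (hρb ω)) (abs_le.1 (hΞb ω))

set_option maxHeartbeats 1000000 in
/-- THE ONE STEP INEQUALITY. -/
theorem one_step {ρ Ξ : Ω → ℝ} (hρ : Measurable ρ) (hΞ : Measurable Ξ)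
    (hρ0 : ∀ ω, 0 ≤ ρ ω) (hρ1 : ∀ ω, ρ ω ≤ 1) {B : ℝ} (hΞb : ∀ ω, |Ξ ω| ≤ B)
    {K₀ L G₂ G₄ : ℝ} (hL : Real.exp 18 ≤ L) (hK₀4 : 4 ≤ K₀)
    (hK₀ : 9 / 2 * L * G₂ + L / 4 * (18 * L + G₄) ≤ K₀ / 8)
    {m a : ℝ} (hm : m = ∫ ω, Ξ ω ∂μ) (ha : a = ∫ ω, ρ ω * Ξ ω ∂μ) (hm0 : 0 ≤ m)
    (hb : m - a ≤ 1)
    (hG₂ : ∫ ω, (m - a - m * (1 - ρ ω)) ^ 2 ∂μ ≤ G₂)
    (hG₄ : ∫ ω, (m - a - m * (1 - ρ ω)) ^ 4 ∂μ ≤ G₄)
    (hsub : ∀ s, 0 ≤ s → ∫ ω, Real.exp (s * (Ξ ω - m)) ∂μ ≤ Real.exp (K₀ * s ^ 2 / 2))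
    {s : ℝ} (hs : 0 ≤ s) :
    ∫ ω, Real.exp (s * (ρ ω * Ξ ω - a)) ∂μ ≤ Real.exp (K₀ * s ^ 2) := by
  have hρabs : ∀ ω, |ρ ω| ≤ 1 := fun ω => by
    rw [abs_of_nonneg (hρ0 ω)]; exact hρ1 ω
  have hInt : ∀ {Φ : ℝ × ℝ → ℝ}, Continuous Φ → Integrable (fun ω => Φ (ρ ω, Ξ ω)) μ :=
    fun hΦ => integrable_comp₂ hρ hΞ hρabs hΞb hΦ
  have hL1 : 1 ≤ L := (Real.one_le_exp (by norm_num)).trans hL
  have hLpos : 0 < L := by linarith
  have hK0pos : 0 < K₀ := by linarith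
  -- the exponential moment of `y`
  have hEy : ∫ ω, (Ξ ω - m) ∂μ = 0 := by
    have : Integrable Ξ μ := hInt (Φ := fun p => p.2) (by fun_prop)
    rw [integral_sub this (integrable_const m), ← hm]
    simp
  have hEU : ∫ ω, (ρ ω * Ξ ω - a) ∂μ = 0 := by
    have : Integrable (fun ω => ρ ω * Ξ ω) μ := hInt (Φ := fun p => p.1 * p.2) (by fun_prop)
    rw [integral_sub this (integrable_const a), ← ha]
    simp
  have hexpInt : ∀ c : ℝ, Integrable (fun ω => Real.exp (c * (Ξ ω - m))) μ := fun c =>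
    hInt (Φ := fun p => Real.exp (c * (p.2 - m))) (by fun_prop)
  have hglem : ∀ ω, m - a - m * (1 - ρ ω) ≤ 1 := by
    intro ω
    have : 0 ≤ m * (1 - ρ ω) := mul_nonneg hm0 (sub_nonneg.2 (hρ1 ω))
    linarith
  by_cases hsmall : K₀ * s ^ 2 < 9
  · -- small `s`
    have hs2 : s ^ 2 < 9 / 4 := by nlinarith [sq_nonneg s]
    have hs32 : s ≤ 3 / 2 := by nlinarith
    have hexps : Real.exp s ≤ L := (Real.exp_le_exp.2 (by linarith)).trans hL
    have hK0s : 0 ≤ K₀ * s ^ 2 := by positivity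
    -- second moment of `W`
    have hE1 : 1 ≤ ∫ ω, Real.exp (s * (Ξ ω - m)) ∂μ := by
      have h1 : ∫ ω, (1 + s * (Ξ ω - m)) ∂μ ≤ ∫ ω, Real.exp (s * (Ξ ω - m)) ∂μ := by
        apply integral_mono (hInt (Φ := fun p => 1 + s * (p.2 - m)) (by fun_prop)) (hexpInt s)
        intro ω
        have := Real.add_one_le_exp (s * (Ξ ω - m))
        simp only
        linarith
      have h2 : ∫ ω, (1 + s * (Ξ ω - m)) ∂μ = 1 := by
        rw [integral_add (integrable_const 1) ((hInt (Φ := fun p => p.2 - m) (by fun_prop)).const_mul s),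
          integral_const_mul, hEy]
        simp
      linarith
    set W : Ω → ℝ := fun ω => Real.exp (s * (Ξ ω - m)) - 1 with hW
    have hWsq : ∀ ω, W ω ^ 2 = Real.exp ((2 * s) * (Ξ ω - m)) - 2 * Real.exp (s * (Ξ ω - m)) + 1 := by
      intro ω
      have : Real.exp ((2 * s) * (Ξ ω - m)) = Real.exp (s * (Ξ ω - m)) ^ 2 := by
        rw [← Real.exp_nat_mul]
        congr 1
        push_cast
        ring
      rw [this, hW]
      ring
    have hWsqInt : Integrable (fun ω => W ω ^ 2) μ :=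
      hInt (Φ := fun p => (Real.exp (s * (p.2 - m)) - 1) ^ 2) (by fun_prop)
    have hEW2 : ∫ ω, W ω ^ 2 ∂μ ≤ Real.exp (2 * (K₀ * s ^ 2)) - 1 := by
      have e : ∫ ω, W ω ^ 2 ∂μ = ∫ ω, Real.exp ((2 * s) * (Ξ ω - m)) ∂μ
          - 2 * ∫ ω, Real.exp (s * (Ξ ω - m)) ∂μ + 1 := by
        simp_rw [hWsq]
        have h1 : Integrable (fun ω => Real.exp ((2 * s) * (Ξ ω - m)) - 2 * Real.exp (s * (Ξ ω - m))) μ :=
          (hexpInt (2 * s)).sub ((hexpInt s).const_mul 2)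
        have h2 : Integrable (fun ω => 2 * Real.exp (s * (Ξ ω - m))) μ := (hexpInt s).const_mul 2
        rw [integral_add h1 (integrable_const 1), integral_sub (hexpInt (2 * s)) h2, integral_const_mul]
        simp
      have h2 := hsub (2 * s) (by positivity)
      have h3 : K₀ * (2 * s) ^ 2 / 2 = 2 * (K₀ * s ^ 2) := by ring
      rw [h3] at h2
      rw [e]
      linarith
    have hEW2' : ∫ ω, W ω ^ 2 ∂μ ≤ 2 * (K₀ * s ^ 2) * L := by
      have hx : 2 * (K₀ * s ^ 2) ≤ 18 := by linarith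
      have h1 : Real.exp (2 * (K₀ * s ^ 2)) ≤ L := (Real.exp_le_exp.2 hx).trans hL
      have h2 : 1 - 2 * (K₀ * s ^ 2) ≤ Real.exp (-(2 * (K₀ * s ^ 2))) := by
        have := Real.add_one_le_exp (-(2 * (K₀ * s ^ 2)))
        linarith
      have h3 : Real.exp (2 * (K₀ * s ^ 2)) * Real.exp (-(2 * (K₀ * s ^ 2))) = 1 := by
        rw [← Real.exp_add]; simp
      have h4 : Real.exp (2 * (K₀ * s ^ 2)) * (1 - 2 * (K₀ * s ^ 2)) ≤ 1 := by
        have := mul_le_mul_of_nonneg_left h2 (Real.exp_pos (2 * (K₀ * s ^ 2))).le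
        linarith
      have h5 : 2 * (K₀ * s ^ 2) * Real.exp (2 * (K₀ * s ^ 2)) ≤ 2 * (K₀ * s ^ 2) * L :=
        mul_le_mul_of_nonneg_left h1 (by positivity)
      nlinarith
    have hEW2'' : ∫ ω, W ω ^ 2 ∂μ ≤ 18 * L := by
      have : 2 * (K₀ * s ^ 2) * L ≤ 18 * L := mul_le_mul_of_nonneg_right (by linarith) hLpos.le
      linarith
    -- pointwise bound
    set g : Ω → ℝ := fun ω => m - a - m * (1 - ρ ω) with hg
    set t : ℝ := 8 * L with ht
    have htpos : 0 < t := by positivity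
    have hpoint : ∀ ω, Real.exp (s * (ρ ω * Ξ ω - a)) ≤
        1 + s * (ρ ω * Ξ ω - a) + W ω - s * (Ξ ω - m)
          + (s ^ 2 * (L / 2 + t / 2)) * g ω ^ 2 + (1 / (2 * t) + s ^ 2 * L / 4) * W ω ^ 2
          + (s ^ 2 * L / 4) * g ω ^ 4 := by
      intro ω
      have hU : s * (ρ ω * Ξ ω - a) = ρ ω * (s * (Ξ ω - m)) + s * g ω := by
        simp only [hg]; ring
      have := point_small (z := Ξ ω - m) (hρ0 ω) (hρ1 ω) (hglem ω) hs hexps htpos
      rw [← hU] at this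
      exact this
    -- integrate
    have hgInt : Integrable (fun ω => g ω ^ 2) μ :=
      hInt (Φ := fun p => (m - a - m * (1 - p.1)) ^ 2) (by fun_prop)
    have hg4Int : Integrable (fun ω => g ω ^ 4) μ :=
      hInt (Φ := fun p => (m - a - m * (1 - p.1)) ^ 4) (by fun_prop)
    have hUInt : Integrable (fun ω => ρ ω * Ξ ω - a) μ :=
      hInt (Φ := fun p => p.1 * p.2 - a) (by fun_prop)
    have hWInt : Integrable W μ := hInt (Φ := fun p => Real.exp (s * (p.2 - m)) - 1) (by fun_prop)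
    have hyInt : Integrable (fun ω => Ξ ω - m) μ := hInt (Φ := fun p => p.2 - m) (by fun_prop)
    have hEW : ∫ ω, W ω ∂μ = ∫ ω, Real.exp (s * (Ξ ω - m)) ∂μ - 1 := by
      simp only [hW]
      rw [integral_sub (hexpInt s) (integrable_const 1)]
      simp
    have i0 : Integrable (fun ω => s * (ρ ω * Ξ ω - a)) μ := hUInt.const_mul s
    have i1 : Integrable (fun ω => 1 + s * (ρ ω * Ξ ω - a)) μ := (integrable_const 1).add i0
    have i2 : Integrable (fun ω => 1 + s * (ρ ω * Ξ ω - a) + W ω) μ := i1.add hWInt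
    have i3' : Integrable (fun ω => s * (Ξ ω - m)) μ := hyInt.const_mul s
    have i3 : Integrable (fun ω => 1 + s * (ρ ω * Ξ ω - a) + W ω - s * (Ξ ω - m)) μ := i2.sub i3'
    have i4' : Integrable (fun ω => (s ^ 2 * (L / 2 + t / 2)) * g ω ^ 2) μ := hgInt.const_mul _
    have i4 : Integrable (fun ω => 1 + s * (ρ ω * Ξ ω - a) + W ω - s * (Ξ ω - m)
        + (s ^ 2 * (L / 2 + t / 2)) * g ω ^ 2) μ := i3.add i4'
    have i5' : Integrable (fun ω => (1 / (2 * t) + s ^ 2 * L / 4) * W ω ^ 2) μ := hWsqInt.const_mul _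
    have i5 : Integrable (fun ω => 1 + s * (ρ ω * Ξ ω - a) + W ω - s * (Ξ ω - m)
        + (s ^ 2 * (L / 2 + t / 2)) * g ω ^ 2 + (1 / (2 * t) + s ^ 2 * L / 4) * W ω ^ 2) μ := i4.add i5'
    have i6' : Integrable (fun ω => (s ^ 2 * L / 4) * g ω ^ 4) μ := hg4Int.const_mul _
    have i6 : Integrable (fun ω => 1 + s * (ρ ω * Ξ ω - a) + W ω - s * (Ξ ω - m)
        + (s ^ 2 * (L / 2 + t / 2)) * g ω ^ 2 + (1 / (2 * t) + s ^ 2 * L / 4) * W ω ^ 2
        + (s ^ 2 * L / 4) * g ω ^ 4) μ := i5.add i6'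
    have hInt1 : ∫ ω, Real.exp (s * (ρ ω * Ξ ω - a)) ∂μ ≤ ∫ ω, (1 + s * (ρ ω * Ξ ω - a) + W ω - s * (Ξ ω - m)
          + (s ^ 2 * (L / 2 + t / 2)) * g ω ^ 2 + (1 / (2 * t) + s ^ 2 * L / 4) * W ω ^ 2
          + (s ^ 2 * L / 4) * g ω ^ 4) ∂μ :=
      integral_mono (hInt (Φ := fun p => Real.exp (s * (p.1 * p.2 - a))) (by fun_prop)) i6 hpoint
    have hEval : ∫ ω, (1 + s * (ρ ω * Ξ ω - a) + W ω - s * (Ξ ω - m)
          + (s ^ 2 * (L / 2 + t / 2)) * g ω ^ 2 + (1 / (2 * t) + s ^ 2 * L / 4) * W ω ^ 2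
          + (s ^ 2 * L / 4) * g ω ^ 4) ∂μ =
        ∫ ω, Real.exp (s * (Ξ ω - m)) ∂μ + (s ^ 2 * (L / 2 + t / 2)) * ∫ ω, g ω ^ 2 ∂μ
          + (1 / (2 * t) + s ^ 2 * L / 4) * ∫ ω, W ω ^ 2 ∂μ + (s ^ 2 * L / 4) * ∫ ω, g ω ^ 4 ∂μ := by
      rw [integral_add i5 i6', integral_add i4 i5', integral_add i3 i4', integral_sub i2 i3',
        integral_add i1 hWInt, integral_add (integrable_const 1) i0,
        integral_const_mul, integral_const_mul, integral_const_mul, integral_const_mul, integral_const_mul,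
        hEU, hEy, hEW]
      simp
    have hG2' : (s ^ 2 * (L / 2 + t / 2)) * ∫ ω, g ω ^ 2 ∂μ ≤ (s ^ 2 * (L / 2 + t / 2)) * G₂ :=
      mul_le_mul_of_nonneg_left hG₂ (by positivity)
    have hG4' : (s ^ 2 * L / 4) * ∫ ω, g ω ^ 4 ∂μ ≤ (s ^ 2 * L / 4) * G₄ :=
      mul_le_mul_of_nonneg_left hG₄ (by positivity)
    have hW1 : (1 / (2 * t)) * ∫ ω, W ω ^ 2 ∂μ ≤ (1 / (2 * t)) * (2 * (K₀ * s ^ 2) * L) :=
      mul_le_mul_of_nonneg_left hEW2' (by positivity)
    have hW1' : (1 / (2 * t)) * (2 * (K₀ * s ^ 2) * L) = K₀ * s ^ 2 / 8 := by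
      rw [ht]; field_simp
    have hW2 : (s ^ 2 * L / 4) * ∫ ω, W ω ^ 2 ∂μ ≤ (s ^ 2 * L / 4) * (18 * L) :=
      mul_le_mul_of_nonneg_left hEW2'' (by positivity)
    have hfinal : ∫ ω, Real.exp (s * (ρ ω * Ξ ω - a)) ∂μ
        ≤ Real.exp (K₀ * s ^ 2 / 2) + K₀ * s ^ 2 / 2 := by
      have hsum : (s ^ 2 * (L / 2 + t / 2)) * G₂ + K₀ * s ^ 2 / 8 + (s ^ 2 * L / 4) * (18 * L) + (s ^ 2 * L / 4) * G₄
          = s ^ 2 * (9 / 2 * L * G₂ + L / 4 * (18 * L + G₄)) + K₀ * s ^ 2 / 8 := by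
        rw [ht]; ring
      have hmul : s ^ 2 * (9 / 2 * L * G₂ + L / 4 * (18 * L + G₄)) ≤ s ^ 2 * (K₀ / 8) :=
        mul_le_mul_of_nonneg_left hK₀ (sq_nonneg s)
      have h0 := hsub s hs
      have h8 : 0 ≤ K₀ * s ^ 2 := hK0s
      rw [hEval] at hInt1
      nlinarith
    have hlast : Real.exp (K₀ * s ^ 2 / 2) + K₀ * s ^ 2 / 2 ≤ Real.exp (K₀ * s ^ 2) := by
      have e : K₀ * s ^ 2 = K₀ * s ^ 2 / 2 + K₀ * s ^ 2 / 2 := by ring
      have h1 : 1 + K₀ * s ^ 2 / 2 ≤ Real.exp (K₀ * s ^ 2 / 2) := by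
        have := Real.add_one_le_exp (K₀ * s ^ 2 / 2)
        linarith
      have h2 : 1 ≤ Real.exp (K₀ * s ^ 2 / 2) := Real.one_le_exp (by positivity)
      calc Real.exp (K₀ * s ^ 2 / 2) + K₀ * s ^ 2 / 2
          ≤ Real.exp (K₀ * s ^ 2 / 2) * Real.exp (K₀ * s ^ 2 / 2) := by nlinarith
        _ = Real.exp (K₀ * s ^ 2) := by rw [← Real.exp_add]; congr 1; ring
    linarith
  · -- large `s`
    push Not at hsmall
    have hpoint : ∀ ω, Real.exp (s * (ρ ω * Ξ ω - a)) ≤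
        Real.exp s * (1 + Real.exp (s * (Ξ ω - m))) := by
      intro ω
      have hU : s * (ρ ω * Ξ ω - a) = ρ ω * (s * (Ξ ω - m)) + s * (m - a - m * (1 - ρ ω)) := by ring
      rw [hU, Real.exp_add, mul_comm]
      have h1 : Real.exp (s * (m - a - m * (1 - ρ ω))) ≤ Real.exp s := by
        apply Real.exp_le_exp.2
        have := mul_le_mul_of_nonneg_left (hglem ω) hs
        linarith
      have h2 : Real.exp (ρ ω * (s * (Ξ ω - m))) ≤ 1 + Real.exp (s * (Ξ ω - m)) := by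
        rcases le_total (s * (Ξ ω - m)) 0 with h | h
        · have : ρ ω * (s * (Ξ ω - m)) ≤ 0 := mul_nonpos_of_nonneg_of_nonpos (hρ0 ω) h
          have h3 : Real.exp (ρ ω * (s * (Ξ ω - m))) ≤ 1 := by
            rw [← Real.exp_zero]; exact Real.exp_le_exp.2 this
          have := Real.exp_pos (s * (Ξ ω - m))
          linarith
        · have : ρ ω * (s * (Ξ ω - m)) ≤ 1 * (s * (Ξ ω - m)) := mul_le_mul_of_nonneg_right (hρ1 ω) h
          have h3 : Real.exp (ρ ω * (s * (Ξ ω - m))) ≤ Real.exp (s * (Ξ ω - m)) :=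
            Real.exp_le_exp.2 (by linarith)
          linarith
      exact mul_le_mul h1 h2 (Real.exp_pos _).le (Real.exp_pos _).le
    have hI : ∫ ω, Real.exp (s * (ρ ω * Ξ ω - a)) ∂μ ≤ ∫ ω, Real.exp s * (1 + Real.exp (s * (Ξ ω - m))) ∂μ := by
      have i1 : Integrable (fun ω => 1 + Real.exp (s * (Ξ ω - m))) μ := (integrable_const 1).add (hexpInt s)
      exact integral_mono (hInt (Φ := fun p => Real.exp (s * (p.1 * p.2 - a))) (by fun_prop))
        (i1.const_mul _) hpoint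
    have hE : ∫ ω, Real.exp s * (1 + Real.exp (s * (Ξ ω - m))) ∂μ =
        Real.exp s * (1 + ∫ ω, Real.exp (s * (Ξ ω - m)) ∂μ) := by
      rw [integral_const_mul, integral_add (integrable_const 1) (hexpInt s)]
      simp
    have h0 := hsub s hs
    have h2e : (2 : ℝ) ≤ Real.exp 1 := by
      have := Real.add_one_le_exp (1 : ℝ)
      linarith
    have hKs : 6 ≤ K₀ * s := by
      by_contra hcon
      push Not at hcon
      have h6 : 0 ≤ K₀ * s := by positivity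
      nlinarith
    have hs1 : s + 1 ≤ K₀ * s ^ 2 / 2 := by
      have : s * 6 ≤ s * (K₀ * s) := mul_le_mul_of_nonneg_left hKs hs
      nlinarith
    have h3 : Real.exp s * 2 ≤ Real.exp (K₀ * s ^ 2 / 2) := by
      calc Real.exp s * 2 ≤ Real.exp s * Real.exp 1 := by
            exact mul_le_mul_of_nonneg_left h2e (Real.exp_pos _).le
        _ = Real.exp (s + 1) := (Real.exp_add _ _).symm
        _ ≤ _ := Real.exp_le_exp.2 hs1
    have h4 : 1 ≤ Real.exp (K₀ * s ^ 2 / 2) := Real.one_le_exp (by positivity)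
    have h5 : Real.exp s * (1 + ∫ ω, Real.exp (s * (Ξ ω - m)) ∂μ) ≤
        Real.exp s * (2 * Real.exp (K₀ * s ^ 2 / 2)) :=
      mul_le_mul_of_nonneg_left (by linarith) (Real.exp_pos _).le
    calc ∫ ω, Real.exp (s * (ρ ω * Ξ ω - a)) ∂μ ≤ Real.exp s * (2 * Real.exp (K₀ * s ^ 2 / 2)) := by
          rw [hE] at hI; linarith
      _ = (Real.exp s * 2) * Real.exp (K₀ * s ^ 2 / 2) := by ring
      _ ≤ Real.exp (K₀ * s ^ 2 / 2) * Real.exp (K₀ * s ^ 2 / 2) :=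
          mul_le_mul_of_nonneg_right h3 (Real.exp_pos _).le
      _ = Real.exp (K₀ * s ^ 2) := by rw [← Real.exp_add]; congr 1; ring

/-- The pointwise inequality of the weighted moment. -/
theorem point_weighted {D y M ν : ℝ} (hD0 : 0 ≤ D) (hD4 : D ≤ 4) (hM : 0 ≤ M) (hν : 0 < ν) :
    D * (max y 0) ^ 2 ≤ D * M ^ 2 + 8 / ν ^ 2 * Real.exp (-(ν * M)) * (1 + Real.exp (2 * ν * y)) := by
  have hpos : 0 ≤ 8 / ν ^ 2 * Real.exp (-(ν * M)) * (1 + Real.exp (2 * ν * y)) := by positivity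
  set x := max y 0 with hx
  have hx0 : 0 ≤ x := le_max_right _ _
  rcases le_or_gt x M with h | h
  · have : x ^ 2 ≤ M ^ 2 := by nlinarith
    have := mul_le_mul_of_nonneg_left this hD0
    linarith
  · have hxy : x = y := by
      rcases le_total y 0 with h0 | h0
      · have : x = 0 := by rw [hx]; exact max_eq_right h0
        linarith
      · rw [hx]; exact max_eq_left h0
    have h1 : (ν * x) ^ 2 / 2 ≤ Real.exp (ν * x) := by
      have := Real.quadratic_le_exp_of_nonneg (x := ν * x) (by positivity)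
      have h3 : 0 ≤ ν * x := by positivity
      linarith
    have h2 : 1 ≤ Real.exp (ν * (x - M)) := Real.one_le_exp (by
      have : 0 < x - M := by linarith
      positivity)
    have h3 : x ^ 2 ≤ 2 / ν ^ 2 * Real.exp (ν * x) := by
      have hν2 : 0 < ν ^ 2 := by positivity
      rw [div_mul_eq_mul_div, le_div_iff₀ hν2]
      nlinarith
    have h4 : x ^ 2 ≤ 2 / ν ^ 2 * Real.exp (ν * x) * Real.exp (ν * (x - M)) := by
      have h5 : 0 ≤ 2 / ν ^ 2 * Real.exp (ν * x) := by positivity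
      nlinarith
    have h5 : Real.exp (ν * x) * Real.exp (ν * (x - M)) = Real.exp (-(ν * M)) * Real.exp (2 * ν * y) := by
      rw [← Real.exp_add, ← Real.exp_add, hxy]
      congr 1
      ring
    have h6 : x ^ 2 ≤ 2 / ν ^ 2 * Real.exp (-(ν * M)) * Real.exp (2 * ν * y) := by
      calc x ^ 2 ≤ 2 / ν ^ 2 * Real.exp (ν * x) * Real.exp (ν * (x - M)) := h4
        _ = 2 / ν ^ 2 * (Real.exp (ν * x) * Real.exp (ν * (x - M))) := by ring
        _ = _ := by rw [h5]; ring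
    have h7 : D * x ^ 2 ≤ 4 * x ^ 2 := mul_le_mul_of_nonneg_right hD4 (sq_nonneg x)
    have h8 : 0 ≤ D * M ^ 2 := by positivity
    have h9 : 4 * (2 / ν ^ 2 * Real.exp (-(ν * M)) * Real.exp (2 * ν * y))
        ≤ 8 / ν ^ 2 * Real.exp (-(ν * M)) * (1 + Real.exp (2 * ν * y)) := by
      have e : 8 / ν ^ 2 * Real.exp (-(ν * M)) * (1 + Real.exp (2 * ν * y))
          = 4 * (2 / ν ^ 2 * Real.exp (-(ν * M)) * Real.exp (2 * ν * y))
            + 8 / ν ^ 2 * Real.exp (-(ν * M)) := by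
        field_simp
        ring
      have : 0 ≤ 8 / ν ^ 2 * Real.exp (-(ν * M)) := by positivity
      linarith
    linarith

set_option maxHeartbeats 1000000 in
/-- THE WEIGHTED SECOND MOMENT. -/
theorem weighted {Ξ D : Ω → ℝ} (hΞ : Measurable Ξ) (hD : Measurable D) {B : ℝ}
    (hΞb : ∀ ω, |Ξ ω| ≤ B) (hΞ0 : ∀ ω, 0 ≤ Ξ ω)
    (hD0 : ∀ ω, 0 ≤ D ω) (hD4 : ∀ ω, D ω ≤ 4) {a K₀ m : ℝ} (hDa : ∫ ω, D ω ∂μ ≤ a) (ha : 0 < a) (ha4 : a ≤ 4)
    (hK₀ : 0 < K₀) (hm : m = ∫ ω, Ξ ω ∂μ) (hm0 : 0 ≤ m)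
    (hsub : ∀ s, 0 ≤ s → ∫ ω, Real.exp (s * (Ξ ω - m)) ∂μ ≤ Real.exp (K₀ * s ^ 2 / 2)) :
    ∫ ω, D ω * Ξ ω ^ 2 ∂μ ≤ (2 * m ^ 2 + 16 * K₀ * (1 + Real.log (4 / a)) + 16 * K₀) * a := by
  have hDabs : ∀ ω, |D ω| ≤ 4 := fun ω => by
    rw [abs_of_nonneg (hD0 ω)]; exact hD4 ω
  have hInt : ∀ {Φ : ℝ × ℝ → ℝ}, Continuous Φ → Integrable (fun ω => Φ (D ω, Ξ ω)) μ :=
    fun hΦ => integrable_comp₂ hD hΞ hDabs hΞb hΦ
  have hlog : 0 ≤ Real.log (4 / a) := Real.log_nonneg (by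
    rw [le_div_iff₀ ha]; linarith)
  set l := 1 + Real.log (4 / a) with hl
  have hl1 : 1 ≤ l := by linarith
  set ν := Real.sqrt (l / (2 * K₀)) with hνdef
  have hνsq : ν ^ 2 = l / (2 * K₀) := Real.sq_sqrt (by positivity)
  have hν : 0 < ν := Real.sqrt_pos.2 (by positivity)
  set M := 4 * K₀ * ν with hMdef
  have hM : 0 ≤ M := by positivity
  have hM2 : M ^ 2 = 8 * K₀ * l := by
    rw [hMdef, mul_pow, hνsq]
    field_simp
    ring
  have hνM : ν * M = 2 * l := by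
    have : ν * M = 4 * K₀ * ν ^ 2 := by rw [hMdef]; ring
    rw [this, hνsq]
    field_simp
    ring
  have hKν : K₀ * (2 * ν) ^ 2 / 2 = l := by
    have : K₀ * (2 * ν) ^ 2 / 2 = 2 * K₀ * ν ^ 2 := by ring
    rw [this, hνsq]
    field_simp
  have hinv : 8 / ν ^ 2 ≤ 16 * K₀ := by
    rw [hνsq]
    rw [div_le_iff₀ (by positivity)]
    have : 16 * K₀ * (l / (2 * K₀)) = 8 * l := by
      field_simp
      ring
    rw [this]
    linarith
  -- pointwise
  have hpoint : ∀ ω, D ω * Ξ ω ^ 2 ≤ 2 * m ^ 2 * D ω + 2 * (D ω * M ^ 2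
      + 8 / ν ^ 2 * Real.exp (-(ν * M)) * (1 + Real.exp (2 * ν * (Ξ ω - m)))) := by
    intro ω
    have h1 := point_weighted (y := Ξ ω - m) (hD0 ω) (hD4 ω) hM hν
    have h2 : Ξ ω ^ 2 ≤ 2 * m ^ 2 + 2 * (max (Ξ ω - m) 0) ^ 2 := by
      set x := max (Ξ ω - m) 0 with hx
      have hx0 : 0 ≤ x := le_max_right _ _
      have h3 : Ξ ω - m ≤ x := le_max_left _ _
      have h4 : Ξ ω ≤ m + x := by linarith
      have h5 := hΞ0 ω
      have h6 : Ξ ω ^ 2 ≤ (m + x) ^ 2 := by nlinarith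
      nlinarith [sq_nonneg (m - x)]
    have h3 := mul_le_mul_of_nonneg_left h2 (hD0 ω)
    have e : D ω * (2 * m ^ 2 + 2 * (max (Ξ ω - m) 0) ^ 2)
        = 2 * m ^ 2 * D ω + 2 * (D ω * (max (Ξ ω - m) 0) ^ 2) := by ring
    rw [e] at h3
    linarith
  have hDInt : Integrable D μ := hInt (Φ := fun p => p.1) (by fun_prop)
  have hexpInt : Integrable (fun ω => Real.exp (2 * ν * (Ξ ω - m))) μ :=
    hInt (Φ := fun p => Real.exp (2 * ν * (p.2 - m))) (by fun_prop)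
  have i1 : Integrable (fun ω => 1 + Real.exp (2 * ν * (Ξ ω - m))) μ := (integrable_const 1).add hexpInt
  have i2 : Integrable (fun ω => 8 / ν ^ 2 * Real.exp (-(ν * M)) * (1 + Real.exp (2 * ν * (Ξ ω - m)))) μ :=
    i1.const_mul _
  have i3 : Integrable (fun ω => D ω * M ^ 2) μ := hDInt.mul_const _
  have i4 : Integrable (fun ω => D ω * M ^ 2
      + 8 / ν ^ 2 * Real.exp (-(ν * M)) * (1 + Real.exp (2 * ν * (Ξ ω - m)))) μ := i3.add i2
  have i5 : Integrable (fun ω => 2 * m ^ 2 * D ω) μ := hDInt.const_mul _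
  have i6 : Integrable (fun ω => 2 * (D ω * M ^ 2
      + 8 / ν ^ 2 * Real.exp (-(ν * M)) * (1 + Real.exp (2 * ν * (Ξ ω - m))))) μ := i4.const_mul _
  have hI : ∫ ω, D ω * Ξ ω ^ 2 ∂μ ≤ ∫ ω, (2 * m ^ 2 * D ω + 2 * (D ω * M ^ 2
      + 8 / ν ^ 2 * Real.exp (-(ν * M)) * (1 + Real.exp (2 * ν * (Ξ ω - m))))) ∂μ :=
    integral_mono (hInt (Φ := fun p => p.1 * p.2 ^ 2) (by fun_prop)) (i5.add i6) hpoint
  have hE : ∫ ω, (2 * m ^ 2 * D ω + 2 * (D ω * M ^ 2
      + 8 / ν ^ 2 * Real.exp (-(ν * M)) * (1 + Real.exp (2 * ν * (Ξ ω - m))))) ∂μ =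
      2 * m ^ 2 * (∫ ω, D ω ∂μ) + 2 * ((∫ ω, D ω ∂μ) * M ^ 2
        + 8 / ν ^ 2 * Real.exp (-(ν * M)) * (1 + ∫ ω, Real.exp (2 * ν * (Ξ ω - m)) ∂μ)) := by
    rw [integral_add i5 i6, integral_const_mul, integral_const_mul, integral_add i3 i2,
      integral_mul_const, integral_const_mul, integral_add (integrable_const 1) hexpInt]
    simp
  have hsubν := hsub (2 * ν) (by positivity)
  rw [hKν] at hsubν
  have hexpl : 1 ≤ Real.exp l := Real.one_le_exp (by linarith)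
  have hkey : 8 / ν ^ 2 * Real.exp (-(ν * M)) * (1 + ∫ ω, Real.exp (2 * ν * (Ξ ω - m)) ∂μ) ≤ 8 * K₀ * a := by
    have hexpneg : Real.exp (-(ν * M)) = Real.exp (-l) * Real.exp (-l) := by
      rw [← Real.exp_add, hνM]
      congr 1
      ring
    have h1 : 1 + ∫ ω, Real.exp (2 * ν * (Ξ ω - m)) ∂μ ≤ 2 * Real.exp l := by linarith
    have hmul : Real.exp (-l) * Real.exp l = 1 := by rw [← Real.exp_add]; simp
    have h2 : Real.exp (-(ν * M)) * (1 + ∫ ω, Real.exp (2 * ν * (Ξ ω - m)) ∂μ) ≤ 2 * Real.exp (-l) := by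
      calc _ ≤ Real.exp (-(ν * M)) * (2 * Real.exp l) :=
            mul_le_mul_of_nonneg_left h1 (Real.exp_pos _).le
        _ = 2 * Real.exp (-l) * (Real.exp (-l) * Real.exp l) := by rw [hexpneg]; ring
        _ = 2 * Real.exp (-l) := by rw [hmul]; ring
    have h3 : Real.exp (-l) ≤ a / 4 := by
      have e : Real.exp (-l) = Real.exp (-1) * (a / 4) := by
        rw [hl, neg_add, Real.exp_add, Real.exp_neg (Real.log (4 / a)), Real.exp_log (by positivity)]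
        congr 1
        rw [inv_div]
      rw [e]
      have h4 : Real.exp (-1) ≤ 1 := by
        rw [← Real.exp_zero]
        exact Real.exp_le_exp.2 (by norm_num)
      have h5 : 0 ≤ a / 4 := by positivity
      nlinarith
    have hnn : 0 ≤ Real.exp (-(ν * M)) * (1 + ∫ ω, Real.exp (2 * ν * (Ξ ω - m)) ∂μ) := by
      have : 0 ≤ ∫ ω, Real.exp (2 * ν * (Ξ ω - m)) ∂μ := integral_nonneg fun ω => (Real.exp_pos _).le
      positivity
    calc _ = 8 / ν ^ 2 * (Real.exp (-(ν * M)) * (1 + ∫ ω, Real.exp (2 * ν * (Ξ ω - m)) ∂μ)) := by ring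
      _ ≤ (16 * K₀) * (2 * (a / 4)) := by
          apply mul_le_mul hinv (h2.trans (by linarith)) hnn (by positivity)
      _ = 8 * K₀ * a := by ring
  rw [hE, hM2] at hI
  have h1 : 2 * m ^ 2 * (∫ ω, D ω ∂μ) ≤ 2 * m ^ 2 * a :=
    mul_le_mul_of_nonneg_left hDa (by positivity)
  have h2 : (∫ ω, D ω ∂μ) * M ^ 2 ≤ a * M ^ 2 := mul_le_mul_of_nonneg_right hDa (sq_nonneg M)
  rw [hM2] at h2
  have e : (2 * m ^ 2 + 16 * K₀ * l + 16 * K₀) * a = 2 * m ^ 2 * a + 2 * (a * (8 * K₀ * l) + 8 * K₀ * a) := by ring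
  rw [e]
  linarith


end prob

end Crest.Agent.IsingFactor.SolGaussAux
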