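import Crest.Agent.IsingFactor.SolXi
import Crest.Agent.IsingFactor.SolGaussAux

/-!
# IsingFactor.SolGauss (WP IF-SolGauss): the sub-Gaussian tail of `Ξ`.  See `SolLaw`.
Statements may be ADDED; do not change the ones below without posting on chat (topic S0241), other packages use them.
-/

set_option autoImplicit false

open MeasureTheory ProbabilityTheory Filter Topology
open Crest.Agent.SRFactor Crest.ProbabilityR.Labels

namespace Crest.Agent.IsingFactor

variable {V : Type*} [DecidableEq V] {G : SimpleGraph V} [G.LocallyFinite]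

namespace SolGaussAux

/-- Automorphisms permute the children. -/
theorem childF_aut (g : G ≃g G) (y x : V) :
    childF G (g y) (g x) = (childF G y x).image g := by
  ext s'
  simp only [mem_childF, Finset.mem_image]
  constructor
  · rintro ⟨h1, h2⟩
    refine ⟨g.symm s', ⟨?_, ?_⟩, g.apply_symm_apply s'⟩
    · intro h
      apply h1
      rw [← h]
      simp
    · rw [← g.map_adj_iff]
      simpa using h2
  · rintro ⟨s, ⟨h1, h2⟩, rfl⟩
    exact ⟨fun h => h1 (g.injective h), g.map_adj_iff.2 h2⟩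

theorem xiK_aut {q : ℕ} (g : G ≃g G) (θ : ℝ) (ν : V → V → ℝ) (K : ℕ) (y x : V) :
    xiK G q θ (fun a b => ν (g a) (g b)) K y x = xiK G q θ ν K (g y) (g x) := by
  induction K generalizing y x with
  | zero => rfl
  | succ K ih =>
    simp only [xiK]
    rw [childF_aut g y x, Finset.sum_image (fun a _ b _ h => g.injective h)]
    congr 2
    refine Finset.sum_congr rfl fun s _ => ?_
    rw [ih]

theorem measurable_rhoF (θ : ℝ) : Measurable (rhoF θ) := by
  unfold rhoF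
  fun_prop

theorem measurable_xiS {q : ℕ} {θ r : ℝ} {M : ℝ → V → (V → unitInterval) → ℝ}
    {N : ℝ → V → V → (V → unitInterval) → ℝ} (hS : IsSol G θ M N) (K : ℕ) (y x : V) :
    Measurable (xiS G q θ N r K y x) := by
  induction K generalizing y x with
  | zero => exact measurable_const
  | succ K ih =>
    have : xiS G q θ N r (K + 1) y x = fun ω => 1 + (1 / (q : ℝ)) *
        ∑ s ∈ childF G y x, rhoF θ (N r s y ω) * xiS G q θ N r K s y ω := rfl
    rw [this]
    refine measurable_const.add (Measurable.const_mul ?_ _)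
    exact Finset.measurable_fun_sum _ fun s _ =>
      ((measurable_rhoF θ).comp (hS.measN r s y)).mul (ih s y)

section geo

theorem isGeo_edge {y x : V} (hyx : G.Adj y x) :
    IsGeo G (fun i => if i = 0 then y else x) 1 := by
  have h1 : G.dist y x = 1 := SimpleGraph.dist_eq_one_iff_adj.2 hyx
  have h2 : G.dist x y = 1 := SimpleGraph.dist_eq_one_iff_adj.2 hyx.symm
  intro i j hi hj
  interval_cases i <;> interval_cases j <;> simp [h1, h2, Nat.dist]

variable {q : ℕ} (hT : G.IsTree) (hreg : G.IsRegularOfDegree (q + 1))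
include hT hreg

/-- The integral `E [ϱ Ξ]` does not depend on the directed edge. -/
theorem rho_xi_inv {θ r : ℝ} {M : ℝ → V → (V → unitInterval) → ℝ}
    {N : ℝ → V → V → (V → unitInterval) → ℝ} (hS : IsSol G θ M N) (K : ℕ) {y₁ x₁ y₂ x₂ : V}
    (h₁ : G.Adj y₁ x₁) (h₂ : G.Adj y₂ x₂) :
    ∫ ω, rhoF θ (N r y₁ x₁ ω) * xiS G q θ N r K y₁ x₁ ω ∂labelMeasure V =
      ∫ ω, rhoF θ (N r y₂ x₂ ω) * xiS G q θ N r K y₂ x₂ ω ∂labelMeasure V := by
  obtain ⟨g, hg⟩ := exists_aut_of_geo hT hreg (isGeo_edge h₁) (isGeo_edge h₂)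
  have hg0 : g y₁ = y₂ := by simpa using hg 0 (by norm_num)
  have hg1 : g x₁ = x₂ := by simpa using hg 1 (by norm_num)
  haveI : Countable V := countable_of_isTree hT
  have := sol_pair_invariant hT hreg hS hS g r (ι := V × V) (fun i => i.1) (fun i => i.1) (fun i => i.1)
    (fun i => i.2) (fun i => i.1) (fun i => i.2)
    (fun _ _ n _ => rhoF θ (n (y₁, x₁)) * xiK G q θ (fun u v => n (u, v)) K y₁ x₁)
  simp only at this
  have e : ∀ ω, xiK G q θ (fun u v => N r (g u) (g v) ω) K y₁ x₁ = xiS G q θ N r K y₂ x₂ ω := by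
    intro ω
    rw [xiK_aut g θ (fun a b => N r a b ω) K y₁ x₁, hg0, hg1]
    rfl
  simp_rw [e, hg0, hg1] at this
  exact this.symm

end geo

end SolGaussAux

section xi
variable {q : ℕ}

variable (hT : G.IsTree) (hreg : G.IsRegularOfDegree (q + 1)) (hq : 2 ≤ q)
include hT hreg hq

namespace SolGaussAux

variable {θ r : ℝ} {M : ℝ → V → (V → unitInterval) → ℝ} {N : ℝ → V → V → (V → unitInterval) → ℝ}

omit hreg hq in
theorem xiS_ge_one (hθ : CritPar q θ) (hS : IsSol G θ M N) (K : ℕ) (y x : V) (ω : V → unitInterval) :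
    1 ≤ xiS G q θ N r K y x ω :=
  xiK_ge_one hT hθ.good (fun a b => hS.bdN r a b ω) K y x

theorem xiS_abs_le (hθ : CritPar q θ) (hS : IsSol G θ M N) (K : ℕ) {y x : V} (hyx : G.Adj y x)
    (ω : V → unitInterval) : |xiS G q θ N r K y x ω| ≤ K + 1 := by
  have h1 := xiS_ge_one (r := r) hT hθ hS K y x ω
  have h2 := xiK_le hT hreg hq hθ.good (fun a b => hS.bdN r a b ω) K hyx
  rw [abs_of_nonneg (by linarith)]
  exact h2

theorem rho_abs_le (hθ : CritPar q θ) (hS : IsSol G θ M N) (s y : V) (ω : V → unitInterval) :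
    |rhoF θ (N r s y ω)| ≤ 1 := by
  rw [abs_of_nonneg (rhoF_nonneg hθ.good (hS.bdN r s y ω))]
  exact rhoF_le_one hθ.good (hS.bdN r s y ω)

theorem integrable_rho_xi (hθ : CritPar q θ) (hS : IsSol G θ M N) (K : ℕ) {y x : V} (hyx : G.Adj y x)
    {Φ : ℝ × ℝ → ℝ} (hΦ : Continuous Φ) :
    Integrable (fun ω => Φ (rhoF θ (N r y x ω), xiS G q θ N r K y x ω)) (labelMeasure V) :=
  Crest.Agent.IsingFactor.SolGaussAux.integrable_comp₂
    ((measurable_rhoF θ).comp (hS.measN r y x)) (measurable_xiS hS K y x)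
    (rho_abs_le hT hreg hq hθ hS y x) (xiS_abs_le hT hreg hq hθ hS K hyx) hΦ

theorem integrable_xi (hθ : CritPar q θ) (hS : IsSol G θ M N) (K : ℕ) {y x : V} (hyx : G.Adj y x) :
    Integrable (xiS G q θ N r K y x) (labelMeasure V) :=
  Integrable.of_bound (measurable_xiS hS K y x).aestronglyMeasurable ((K : ℝ) + 1)
    (ae_of_all _ fun ω => by
      rw [Real.norm_eq_abs]
      exact xiS_abs_le hT hreg hq hθ hS K hyx ω)

/-- The recursion of the mean. -/
theorem mean_succ (hθ : CritPar q θ) (hS : IsSol G θ M N) (K : ℕ) {y x : V} (hyx : G.Adj y x) :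
    ∫ ω, xiS G q θ N r (K + 1) y x ω ∂labelMeasure V = 1 + (1 / (q : ℝ)) *
      ∑ s ∈ childF G y x, ∫ ω, rhoF θ (N r s y ω) * xiS G q θ N r K s y ω ∂labelMeasure V := by
  have e : ∀ ω, xiS G q θ N r (K + 1) y x ω = 1 + (1 / (q : ℝ)) *
      ∑ s ∈ childF G y x, rhoF θ (N r s y ω) * xiS G q θ N r K s y ω := fun ω => rfl
  simp_rw [e]
  have hint : ∀ s ∈ childF G y x, Integrable (fun ω => rhoF θ (N r s y ω) * xiS G q θ N r K s y ω)
      (labelMeasure V) := fun s hs =>
    integrable_rho_xi hT hreg hq hθ hS K (mem_childF.1 hs).2.symm (Φ := fun p => p.1 * p.2) (by fun_prop)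
  have hsum : Integrable (fun ω => ∑ s ∈ childF G y x, rhoF θ (N r s y ω) * xiS G q θ N r K s y ω)
      (labelMeasure V) := integrable_finsetSum _ hint
  have hsum' : Integrable (fun ω => (1 / (q : ℝ)) * ∑ s ∈ childF G y x,
      rhoF θ (N r s y ω) * xiS G q θ N r K s y ω) (labelMeasure V) := hsum.const_mul _
  rw [integral_add (integrable_const 1) hsum', integral_const_mul, integral_finsetSum _ hint]
  simp

/-- `m_K ≤ 1 + E [ϱ Ξ^K]`: `m_K ≤ m_{K+1}` and the invariance of the law. -/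
theorem mean_sub_le (hθ : CritPar q θ) (hS : IsSol G θ M N) (K : ℕ) {s y : V} (hsy : G.Adj s y) :
    ∫ ω, xiS G q θ N r K s y ω ∂labelMeasure V -
      ∫ ω, rhoF θ (N r s y ω) * xiS G q θ N r K s y ω ∂labelMeasure V ≤ 1 := by
  have hq0 : (q : ℝ) ≠ 0 := by
    have : 0 < q := by omega
    positivity
  have h1 : ∫ ω, xiS G q θ N r K s y ω ∂labelMeasure V ≤ ∫ ω, xiS G q θ N r (K + 1) s y ω ∂labelMeasure V := by
    apply integral_mono
    · exact integrable_xi hT hreg hq hθ hS K hsy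
    · exact integrable_xi hT hreg hq hθ hS (K + 1) hsy
    · intro ω
      exact xiK_mono hT hreg hq hθ.good (fun a b => hS.bdN r a b ω) K hsy
  rw [mean_succ hT hreg hq hθ hS K hsy] at h1
  have h2 : ∑ t ∈ childF G s y, ∫ ω, rhoF θ (N r t s ω) * xiS G q θ N r K t s ω ∂labelMeasure V =
      (q : ℝ) * ∫ ω, rhoF θ (N r s y ω) * xiS G q θ N r K s y ω ∂labelMeasure V := by
    rw [Finset.sum_congr rfl (fun t ht => rho_xi_inv hT hreg hS K (mem_childF.1 ht).2.symm hsy),
      Finset.sum_const, card_childF hT hreg hsy, nsmul_eq_mul]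
  rw [h2] at h1
  have h3 : (1 / (q : ℝ)) * ((q : ℝ) * ∫ ω, rhoF θ (N r s y ω) * xiS G q θ N r K s y ω ∂labelMeasure V) =
      ∫ ω, rhoF θ (N r s y ω) * xiS G q θ N r K s y ω ∂labelMeasure V := by
    field_simp
  rw [h3] at h1
  linarith

omit hT hreg hq in
/-- Pointwise bounds for `g = b - m (1 - ϱ)`. -/
theorem g_sq_le {b m u w : ℝ} (hb0 : 0 ≤ b) (hb1 : b ≤ 1) (hm : 0 ≤ m) (hu0 : 0 ≤ u) (huw : u ≤ w ^ 2) :
    (b - m * u) ^ 2 ≤ 2 + 2 * m ^ 2 * w ^ (2 * 2) := by
  have h1 : u ^ 2 ≤ w ^ (2 * 2) := by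
    have : u ^ 2 ≤ (w ^ 2) ^ 2 := pow_le_pow_left₀ hu0 huw 2
    rwa [← pow_mul] at this
  have h2 : b ^ 2 ≤ 1 := by nlinarith
  have h3 : m ^ 2 * u ^ 2 ≤ m ^ 2 * w ^ (2 * 2) := mul_le_mul_of_nonneg_left h1 (sq_nonneg m)
  nlinarith [sq_nonneg (b + m * u)]

omit hT hreg hq in
theorem g_pow4_le {b m u w : ℝ} (hb0 : 0 ≤ b) (hb1 : b ≤ 1) (hm : 0 ≤ m) (hu0 : 0 ≤ u) (huw : u ≤ w ^ 2) :
    (b - m * u) ^ 4 ≤ 8 + 8 * m ^ 4 * w ^ (2 * 4) := by
  have h1 : u ^ 4 ≤ w ^ (2 * 4) := by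
    have : u ^ 4 ≤ (w ^ 2) ^ 4 := pow_le_pow_left₀ hu0 huw 4
    rwa [← pow_mul] at this
  have h2 : b ^ 4 ≤ 1 := pow_le_one₀ hb0 hb1
  have h3 : m ^ 4 * u ^ 4 ≤ m ^ 4 * w ^ (2 * 4) := mul_le_mul_of_nonneg_left h1 (by positivity)
  have h4 : (b - m * u) ^ 2 ≤ 2 * b ^ 2 + 2 * (m * u) ^ 2 := by nlinarith [sq_nonneg (b + m * u)]
  have h5 : (b - m * u) ^ 4 ≤ (2 * b ^ 2 + 2 * (m * u) ^ 2) ^ 2 := by
    have : (b - m * u) ^ 4 = ((b - m * u) ^ 2) ^ 2 := by ring
    rw [this]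
    exact pow_le_pow_left₀ (sq_nonneg _) h4 2
  have h6 : (2 * b ^ 2 + 2 * (m * u) ^ 2) ^ 2 ≤ 8 * b ^ 4 + 8 * (m ^ 4 * u ^ 4) := by
    nlinarith [sq_nonneg (b ^ 2 - (m * u) ^ 2)]
  linarith

end SolGaussAux

/-- Sub-Gaussian upper tail of `Ξ` around its mean, uniformly in `K`, `θ`, `r`. -/
theorem sol_xi_subgauss : ∃ K₀ : ℝ, 0 < K₀ ∧ ∀ {θ r : ℝ} {M : ℝ → V → (V → unitInterval) → ℝ}
    {N : ℝ → V → V → (V → unitInterval) → ℝ}, CritPar q θ → IsSol G θ M N → (∃ n, Dy n r) → 0 < r →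
    ∀ (K : ℕ) {y x : V}, G.Adj y x → ∀ lam : ℝ, 0 ≤ lam →
      ∫ ω, Real.exp (lam * (xiS G q θ N r K y x ω - ∫ ω', xiS G q θ N r K y x ω' ∂labelMeasure V))
          ∂labelMeasure V ≤ Real.exp (K₀ * lam ^ 2 / 2) := by
  obtain ⟨c₃, hc₃, hmean⟩ := sol_xi_mean_le (G := G) hT hreg hq
  obtain ⟨C₂, hC₂, hmom2⟩ := sol_moment (G := G) hT hreg hq 2
  obtain ⟨C₄, hC₄, hmom4⟩ := sol_moment (G := G) hT hreg hq 4
  set L : ℝ := Real.exp 18 with hLdef
  have hLpos : 0 < L := Real.exp_pos _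
  set G₂ : ℝ := 2 + 2 * (C₂ / c₃ ^ 2) with hG₂def
  set G₄ : ℝ := 8 + 8 * (C₄ / c₃ ^ 4) with hG₄def
  have hG₂pos : 0 < G₂ := by positivity
  have hG₄pos : 0 < G₄ := by positivity
  set K₀ : ℝ := 4 + 8 * (9 / 2 * L * G₂ + L / 4 * (18 * L + G₄)) with hK₀def
  have hK₀4 : 4 ≤ K₀ := by
    have : 0 ≤ 9 / 2 * L * G₂ + L / 4 * (18 * L + G₄) := by positivity
    rw [hK₀def]; linarith
  have hK₀pos : 0 < K₀ := by linarith
  have hK₀c : 9 / 2 * L * G₂ + L / 4 * (18 * L + G₄) ≤ K₀ / 8 := by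
    rw [hK₀def]; linarith
  refine ⟨K₀, hK₀pos, ?_⟩
  intro θ r M N hθ hS hr hr0 K
  induction K with
  | zero =>
    intro y x hyx lam hlam
    have e : ∀ ω, xiS G q θ N r 0 y x ω = 1 := fun ω => rfl
    simp_rw [e]
    simp only [integral_const, probReal_univ, smul_eq_mul, one_mul, sub_self, mul_zero, Real.exp_zero]
    exact Real.one_le_exp (by positivity)
  | succ K ih =>
    intro y x hyx lam hlam
    have hq0 : (0 : ℝ) < q := by
      have : 0 < q := by omega
      positivity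
    have hqne : (q : ℝ) ≠ 0 := hq0.ne'
    set s₀ : ℝ := lam / q with hs₀
    have hs₀0 : 0 ≤ s₀ := by positivity
    -- the one step inequality for each child
    have hone : ∀ s ∈ childF G y x,
        ∫ ω, Real.exp (s₀ * (rhoF θ (N r s y ω) * xiS G q θ N r K s y ω
          - ∫ ω', rhoF θ (N r s y ω') * xiS G q θ N r K s y ω' ∂labelMeasure V)) ∂labelMeasure V
        ≤ Real.exp (K₀ * s₀ ^ 2) := by
      intro s hs
      have hsy : G.Adj s y := (mem_childF.1 hs).2.symm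
      set m : ℝ := ∫ ω, xiS G q θ N r K s y ω ∂labelMeasure V with hm
      set a : ℝ := ∫ ω, rhoF θ (N r s y ω) * xiS G q θ N r K s y ω ∂labelMeasure V with ha
      have hIntXi : Integrable (xiS G q θ N r K s y) (labelMeasure V) :=
        SolGaussAux.integrable_xi hT hreg hq hθ hS K hsy
      have hm1 : 1 ≤ m := by
        have : ∫ _ω : V → unitInterval, (1 : ℝ) ∂labelMeasure V ≤ m :=
          integral_mono (integrable_const 1) hIntXi (fun ω => SolGaussAux.xiS_ge_one hT hθ hS K s y ω)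
        simpa using this
      have hm0 : 0 ≤ m := by linarith
      have hmle : m ≤ 1 / (c₃ * xBar θ r q) := hmean hθ hS hr hr0 K hsy
      have hx0 : 0 < xBar θ r q := by
        have h1 : 0 < 1 / (c₃ * xBar θ r q) := by linarith
        have h2 : 0 < c₃ * xBar θ r q := one_div_pos.1 h1
        exact (pos_iff_pos_of_mul_pos h2).1 hc₃
      have hmx : m * xBar θ r q ≤ 1 / c₃ := by
        have := mul_le_mul_of_nonneg_right hmle hx0.le
        have e : 1 / (c₃ * xBar θ r q) * xBar θ r q = 1 / c₃ := by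
          field_simp
        rwa [e] at this
      have hmx0 : 0 ≤ m * xBar θ r q := by positivity
      have hmx2 : m ^ 2 * xBar θ r q ^ 2 ≤ 1 / c₃ ^ 2 := by
        have := pow_le_pow_left₀ hmx0 hmx 2
        rwa [mul_pow, div_pow, one_pow] at this
      have hmx4 : m ^ 4 * xBar θ r q ^ 4 ≤ 1 / c₃ ^ 4 := by
        have := pow_le_pow_left₀ hmx0 hmx 4
        rwa [mul_pow, div_pow, one_pow] at this
      have hb1 : m - a ≤ 1 := SolGaussAux.mean_sub_le hT hreg hq hθ hS K hsy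
      have hb0 : 0 ≤ m - a := by
        have : a ≤ m := by
          apply integral_mono (SolGaussAux.integrable_rho_xi (r := r) hT hreg hq hθ hS K hsy
            (Φ := fun p => p.1 * p.2) (by fun_prop)) hIntXi
          intro ω
          have h1 := rhoF_le_one hθ.good (hS.bdN r s y ω)
          have h2 := SolGaussAux.xiS_ge_one (r := r) hT hθ hS K s y ω
          simp only
          nlinarith
        linarith
      have hNint : ∀ k : ℕ, Integrable (fun ω => N r s y ω ^ k) (labelMeasure V) := fun k =>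
        Crest.Agent.IsingFactor.SolGaussAux.integrable_comp₂ (hS.measN r s y) (hS.measN r s y)
          (hS.bdN r s y) (hS.bdN r s y) (Φ := fun p => p.1 ^ k) (by fun_prop)
      have hgpt : ∀ ω, 0 ≤ 1 - rhoF θ (N r s y ω) ∧ 1 - rhoF θ (N r s y ω) ≤ N r s y ω ^ 2 := fun ω =>
        ⟨sub_nonneg.2 (rhoF_le_one hθ.good (hS.bdN r s y ω)), one_sub_rhoF_le hθ.good (hS.bdN r s y ω)⟩
      have hG2 : ∫ ω, (m - a - m * (1 - rhoF θ (N r s y ω))) ^ 2 ∂labelMeasure V ≤ G₂ := by
        have h1 : ∫ ω, (m - a - m * (1 - rhoF θ (N r s y ω))) ^ 2 ∂labelMeasure V ≤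
            ∫ ω, (2 + 2 * m ^ 2 * N r s y ω ^ (2 * 2)) ∂labelMeasure V := by
          apply integral_mono
          · exact SolGaussAux.integrable_rho_xi (r := r) hT hreg hq hθ hS K hsy
              (Φ := fun p => (m - a - m * (1 - p.1)) ^ 2) (by fun_prop)
          · exact (integrable_const 2).add ((hNint (2 * 2)).const_mul _)
          · intro ω
            exact SolGaussAux.g_sq_le hb0 hb1 hm0 (hgpt ω).1 (hgpt ω).2
        have i1 : Integrable (fun ω => 2 * m ^ 2 * N r s y ω ^ (2 * 2)) (labelMeasure V) :=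
          (hNint (2 * 2)).const_mul _
        rw [integral_add (integrable_const 2) i1, integral_const_mul] at h1
        simp only [integral_const, probReal_univ, smul_eq_mul, one_mul] at h1
        have h2 := hmom2 hθ hS hr hr0 hsy
        have h3 : m ^ 2 * (C₂ * xBar θ r q ^ 2) ≤ C₂ / c₃ ^ 2 := by
          have := mul_le_mul_of_nonneg_left hmx2 hC₂.le
          calc m ^ 2 * (C₂ * xBar θ r q ^ 2) = C₂ * (m ^ 2 * xBar θ r q ^ 2) := by ring
            _ ≤ C₂ * (1 / c₃ ^ 2) := this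
            _ = _ := by ring
        have h4 := mul_le_mul_of_nonneg_left h2 (by positivity : 0 ≤ 2 * m ^ 2)
        rw [hG₂def]
        nlinarith
      have hG4 : ∫ ω, (m - a - m * (1 - rhoF θ (N r s y ω))) ^ 4 ∂labelMeasure V ≤ G₄ := by
        have h1 : ∫ ω, (m - a - m * (1 - rhoF θ (N r s y ω))) ^ 4 ∂labelMeasure V ≤
            ∫ ω, (8 + 8 * m ^ 4 * N r s y ω ^ (2 * 4)) ∂labelMeasure V := by
          apply integral_mono
          · exact SolGaussAux.integrable_rho_xi (r := r) hT hreg hq hθ hS K hsy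
              (Φ := fun p => (m - a - m * (1 - p.1)) ^ 4) (by fun_prop)
          · exact (integrable_const 8).add ((hNint (2 * 4)).const_mul _)
          · intro ω
            exact SolGaussAux.g_pow4_le hb0 hb1 hm0 (hgpt ω).1 (hgpt ω).2
        have i1 : Integrable (fun ω => 8 * m ^ 4 * N r s y ω ^ (2 * 4)) (labelMeasure V) :=
          (hNint (2 * 4)).const_mul _
        rw [integral_add (integrable_const 8) i1, integral_const_mul] at h1
        simp only [integral_const, probReal_univ, smul_eq_mul, one_mul] at h1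
        have h2 := hmom4 hθ hS hr hr0 hsy
        have h3 : m ^ 4 * (C₄ * xBar θ r q ^ 4) ≤ C₄ / c₃ ^ 4 := by
          have := mul_le_mul_of_nonneg_left hmx4 hC₄.le
          calc m ^ 4 * (C₄ * xBar θ r q ^ 4) = C₄ * (m ^ 4 * xBar θ r q ^ 4) := by ring
            _ ≤ C₄ * (1 / c₃ ^ 4) := this
            _ = _ := by ring
        have h4 := mul_le_mul_of_nonneg_left h2 (by positivity : 0 ≤ 8 * m ^ 4)
        rw [hG₄def]
        nlinarith
      exact Crest.Agent.IsingFactor.SolGaussAux.one_step (μ := labelMeasure V)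
        ((SolGaussAux.measurable_rhoF θ).comp (hS.measN r s y)) (SolGaussAux.measurable_xiS hS K s y)
        (fun ω => rhoF_nonneg hθ.good (hS.bdN r s y ω)) (fun ω => rhoF_le_one hθ.good (hS.bdN r s y ω))
        (SolGaussAux.xiS_abs_le hT hreg hq hθ hS K hsy) (le_refl L) hK₀4 hK₀c hm ha hm0 hb1 hG2 hG4
        (fun s' hs' => ih hsy s' hs') hs₀0
    -- the product
    set a : V → ℝ := fun s => ∫ ω, rhoF θ (N r s y ω) * xiS G q θ N r K s y ω ∂labelMeasure V with ha
    have hmean1 : ∫ ω, xiS G q θ N r (K + 1) y x ω ∂labelMeasure V = 1 + (1 / (q : ℝ)) * ∑ s ∈ childF G y x, a s :=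
      SolGaussAux.mean_succ hT hreg hq hθ hS K hyx
    rw [hmean1]
    have hmgf := sol_xi_mgf hT hreg hq hθ hS hr K hyx lam
    have e1 : ∫ ω, Real.exp (lam * (xiS G q θ N r (K + 1) y x ω - (1 + (1 / (q : ℝ)) * ∑ s ∈ childF G y x, a s)))
        ∂labelMeasure V = Real.exp (-(lam * (1 + (1 / (q : ℝ)) * ∑ s ∈ childF G y x, a s))) *
          ∫ ω, Real.exp (lam * xiS G q θ N r (K + 1) y x ω) ∂labelMeasure V := by
      rw [← integral_const_mul]
      refine integral_congr_ae (ae_of_all _ fun ω => ?_)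
      simp only
      rw [← Real.exp_add]
      congr 1
      ring
    rw [e1, hmgf]
    have e2 : Real.exp (-(lam * (1 + (1 / (q : ℝ)) * ∑ s ∈ childF G y x, a s))) * Real.exp lam =
        ∏ s ∈ childF G y x, Real.exp (-(s₀ * a s)) := by
      rw [← Real.exp_add, ← Real.exp_sum]
      congr 1
      rw [Finset.sum_neg_distrib, ← Finset.mul_sum, hs₀]
      field_simp
      ring
    have e3 : Real.exp (-(lam * (1 + (1 / (q : ℝ)) * ∑ s ∈ childF G y x, a s))) * (Real.exp lam *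
        ∏ s ∈ childF G y x, ∫ ω, Real.exp (lam / q * (rhoF θ (N r s y ω) * xiS G q θ N r K s y ω)) ∂labelMeasure V)
        = ∏ s ∈ childF G y x, (Real.exp (-(s₀ * a s)) *
            ∫ ω, Real.exp (s₀ * (rhoF θ (N r s y ω) * xiS G q θ N r K s y ω)) ∂labelMeasure V) := by
      rw [← mul_assoc, e2, Finset.prod_mul_distrib]
    rw [e3]
    have e4 : ∀ s ∈ childF G y x, Real.exp (-(s₀ * a s)) *
        ∫ ω, Real.exp (s₀ * (rhoF θ (N r s y ω) * xiS G q θ N r K s y ω)) ∂labelMeasure V =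
        ∫ ω, Real.exp (s₀ * (rhoF θ (N r s y ω) * xiS G q θ N r K s y ω - a s)) ∂labelMeasure V := by
      intro s hs
      rw [← integral_const_mul]
      refine integral_congr_ae (ae_of_all _ fun ω => ?_)
      simp only
      rw [← Real.exp_add]
      congr 1
      ring
    rw [Finset.prod_congr rfl e4]
    calc _ ≤ ∏ s ∈ childF G y x, Real.exp (K₀ * s₀ ^ 2) :=
          Finset.prod_le_prod (fun s _ => integral_nonneg fun ω => (Real.exp_pos _).le) hone
      _ = Real.exp (K₀ * s₀ ^ 2) ^ q := by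
          rw [Finset.prod_const, card_childF hT hreg hyx]
      _ = Real.exp (q * (K₀ * s₀ ^ 2)) := by rw [Real.exp_nat_mul]
      _ ≤ Real.exp (K₀ * lam ^ 2 / 2) := by
          apply Real.exp_le_exp.2
          have e5 : (q : ℝ) * (K₀ * s₀ ^ 2) = K₀ * lam ^ 2 / q := by
            rw [hs₀]
            field_simp
          rw [e5]
          have hq2 : (2 : ℝ) ≤ q := by exact_mod_cast hq
          exact div_le_div_of_nonneg_left (mul_nonneg hK₀pos.le (sq_nonneg lam)) (by norm_num) hq2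

/-- The weighted second moment: the form in which `Ξ` is used.  `C` depends only on `q`. -/
theorem sol_xi_weighted : ∃ C : ℝ, 0 < C ∧ ∀ {θ r : ℝ} {M : ℝ → V → (V → unitInterval) → ℝ}
    {N : ℝ → V → V → (V → unitInterval) → ℝ}, CritPar q θ → IsSol G θ M N → (∃ n, Dy n r) → 0 < r →
    ∀ (K : ℕ) {y x : V}, G.Adj y x → ∀ (D : (V → unitInterval) → ℝ) (a : ℝ), Measurable D →
      (∀ ω, 0 ≤ D ω) → (∀ ω, D ω ≤ 4) → ∫ ω, D ω ∂labelMeasure V ≤ a → 0 < a → a ≤ 4 →
      ∫ ω, D ω * (xiS G q θ N r K y x ω) ^ 2 ∂labelMeasure V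
        ≤ C * (1 / xBar θ r q ^ 2 + 1 + Real.log (4 / a)) * a := by
  obtain ⟨K₀, hK₀, hsub⟩ := sol_xi_subgauss (G := G) hT hreg hq
  obtain ⟨c₃, hc₃, hmean⟩ := sol_xi_mean_le (G := G) hT hreg hq
  refine ⟨2 / c₃ ^ 2 + 32 * K₀, by positivity, ?_⟩
  intro θ r M N hθ hS hr hr0 K y x hyx D a hD hD0 hD4 hDa ha ha4
  set m : ℝ := ∫ ω, xiS G q θ N r K y x ω ∂labelMeasure V with hm
  have hIntXi : Integrable (xiS G q θ N r K y x) (labelMeasure V) :=
    SolGaussAux.integrable_xi hT hreg hq hθ hS K hyx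
  have hm1 : 1 ≤ m := by
    have : ∫ _ω : V → unitInterval, (1 : ℝ) ∂labelMeasure V ≤ m :=
      integral_mono (integrable_const 1) hIntXi (fun ω => SolGaussAux.xiS_ge_one hT hθ hS K y x ω)
    simpa using this
  have hm0 : 0 ≤ m := by linarith
  have hmle : m ≤ 1 / (c₃ * xBar θ r q) := hmean hθ hS hr hr0 K hyx
  have hmain := Crest.Agent.IsingFactor.SolGaussAux.weighted (μ := labelMeasure V)
    (SolGaussAux.measurable_xiS hS K y x) hD (SolGaussAux.xiS_abs_le hT hreg hq hθ hS K hyx)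
    (fun ω => (zero_le_one.trans (SolGaussAux.xiS_ge_one hT hθ hS K y x ω))) hD0 hD4 hDa ha ha4 hK₀ hm hm0
    (fun s hs => hsub hθ hS hr hr0 K hyx s hs)
  refine hmain.trans ?_
  rw [mul_le_mul_iff_left₀ ha]
  have hlog : 0 ≤ Real.log (4 / a) := Real.log_nonneg (by
    rw [le_div_iff₀ ha]; linarith)
  have hm2 : m ^ 2 ≤ 1 / c₃ ^ 2 * (1 / xBar θ r q ^ 2) := by
    have := pow_le_pow_left₀ hm0 hmle 2
    have e : (1 / (c₃ * xBar θ r q)) ^ 2 = 1 / c₃ ^ 2 * (1 / xBar θ r q ^ 2) := by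
      rw [one_div, one_div, one_div, mul_inv, mul_pow, inv_pow, inv_pow]
    rwa [e] at this
  have hx2 : 0 ≤ 1 / xBar θ r q ^ 2 := by positivity
  have hc2 : 0 ≤ 2 / c₃ ^ 2 := by positivity
  have e : (2 / c₃ ^ 2 + 32 * K₀) * (1 / xBar θ r q ^ 2 + 1 + Real.log (4 / a)) =
      2 * (1 / c₃ ^ 2 * (1 / xBar θ r q ^ 2)) + 32 * K₀ * (1 / xBar θ r q ^ 2)
        + (2 / c₃ ^ 2) * (1 + Real.log (4 / a)) + 32 * K₀ * (1 + Real.log (4 / a)) := by
    ring
  rw [e]
  have h1 : 0 ≤ 32 * K₀ * (1 / xBar θ r q ^ 2) := by positivity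
  have h2 : 0 ≤ (2 / c₃ ^ 2) * (1 + Real.log (4 / a)) := by positivity
  have h3 : 0 ≤ K₀ * Real.log (4 / a) := by positivity
  nlinarith

end xi

end Crest.Agent.IsingFactor
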