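import Crest.Agent.IsingFactor.Strict
import Crest.Agent.IsingFactor.MergeBounds
import Crest.Agent.IsingFactor.WindowLaw

/-!
# IsingFactor.SolLaw (WP IF-SolLaw): messages of one solution: moments, path MGF.

# IsingFactor.SolStatic : the single solution: moments, path MGF, the sum `Ξ` (WP: Sol1, Sol2, Sol3).

For a solution `(M,N)` at parameter `θ` (`CritPar q θ`) at a dyadic time `r`:

* `sol_integral_tendsto`: `∫ g(N r y x) = lim_n ∫ g dρ_n`: apply `sol_law` with centre `x`, `msg_tball_eq`,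
  `plE_marginal` (from `tball x (n+1)` to `tsub y x n`), `tsub_law`.
* `sol_chain` (path MGF): `E ∏_{j<k} ϱ(N_{x_{j+1}→x_j})^p ≤ (1 - c₂ (1 - e^{-p c' x̄}))^k`.  `sol_law` with
  centre `x 0`, then at finite depth induct with `plE_kernel_step` from the root: each step extracts
  `kerT_rho_le` (valid at level `m` once `x_m ≥ x̄/2`, true for all `m ≥ m₀`; take depth `≥ m₀ + k`).
* `xiK`: `Ξ^{K+1}_{y→x} = 1 + (1/q) ∑_{s child of y} ϱ(N_{s→y}) Ξ^K_{s→y}`, `Ξ⁰ = 1`.  Expanded: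
  `Ξ^K_{y→x} = ∑_{u ∈ T_K(y→x)} q^{-d(y,u)} ∏_{j<d} ϱ(N_{x_{j+1}→x_j})` (`xiK_expand`).
  Its mean is `∑_{d≤K} E ∏_{j<d} ϱ ≤ ∑_d (1 - c₃ x̄)^d ≤ 1/(c₃ x̄)`, nondecreasing in `K` (pathwise).
* `sol_xi_mgf`: children are independent after integrating the flip: `plE_prod_children` + limit.
* `sol_xi_subgauss`: `log E e^{λ(Ξ^K - m_K)} ≤ K₀ λ²/2`, all `λ ≥ 0`, `K₀ = K₀(q)`.  INDUCTION ON `K`:
  let `y = Ξ^K - m_K`, `X = ϱΞ^K`, `μ = E X`, `b = m_K - μ`; `m_{K+1} = 1 + μ` and `m_{K+1} ≥ m_K` give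
  `0 ≤ b ≤ 1`; `U = X - μ = ϱ y + g`, `g = b - m_K (1-ϱ)`, `g ≤ b ≤ 1`, `E g = -E[ϱ y]`,
  `‖g‖_r ≤ 1 + m_K ‖ν²‖_r ≤ G` (moments and `m x̄ ≤ 1/c₃`).  Need, with `s = λ/q`:
  `log E e^{sU} ≤ (q K₀/2) s²` (then `E e^{λ(Ξ^{K+1} - m_{K+1})} = (E e^{sU})^q ≤ e^{K₀ λ²/2}`).
  - Large `s ≥ 3/√K₀` (`K₀ ≥ 4`): `e^{sU} ≤ e^{s}(1 + e^{s y})` so `log E e^{sU} ≤ s + log 2 + K₀s²/2 ≤ K₀ s²`.
  - Small `s`: `e^{sϱy} ≤ 1 + ϱ W`, `W = e^{sy} - 1`; `e^{sg} ≤ 1 + sg + s²g²e^{s}/2`; multiply, use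
    `E[ϱW] ≤ s E[ϱ y] + E W`, `E g = -E[ϱ y]` (cancellation!), `E W ≤ e^{K₀s²/2} - 1`, and
    `‖W‖₂² ≤ E e^{2sy} - 1 ≤ e^{2K₀s²} - 1 ≤ 2K₀s² e^{18}`:
    `E e^{sU} ≤ e^{K₀s²/2} + s²(c₁ √K₀ G + c₂ G²)`, so `log E e^{sU} ≤ K₀s²/2 + s²(c₁√K₀ G + c₂ G²) ≤ K₀ s²`
    for `K₀` large.  (`q ≥ 2` is used exactly here.)
* `sol_xi_weighted`: `0 ≤ D ≤ 4`, `E D ≤ a`: `E[D (Ξ^K)²] ≤ (4 m̄² + 8 K₀ log(4/a) + 14 K₀) a`:
  split at `M = m̄ + √(4K₀ log(4/a))`; Chernoff `P(y > u) ≤ e^{-u²/(2K₀)}`, `(y⁺)⁴ ≤ 24 K₀² e^{y/√K₀}`.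
Statements may be ADDED; do not change the ones below without posting on chat (topic S0241), other packages use them.
-/

set_option autoImplicit false
set_option linter.unusedSectionVars false

open MeasureTheory ProbabilityTheory Filter Topology
open Crest.Agent.SRFactor Crest.ProbabilityR.Labels

namespace Crest.Agent.IsingFactor

variable {V : Type*} [DecidableEq V] {G : SimpleGraph V} [G.LocallyFinite]

namespace SolLawAux

theorem dy_nonneg {r : ℝ} (hr : ∃ n, Dy n r) : 0 ≤ r := by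
  obtain ⟨n, k, rfl⟩ := hr
  have : 0 ≤ hh n := by unfold hh; positivity
  positivity

/-- Clamp to `[-1,1]`. -/
noncomputable def clamp1 (ν : ℝ) : ℝ := max (-1) (min ν 1)

lemma continuous_clamp1 : Continuous clamp1 := by
  unfold clamp1; fun_prop

lemma abs_clamp1_le (ν : ℝ) : |clamp1 ν| ≤ 1 := by
  unfold clamp1
  rw [abs_le]
  constructor
  · exact le_max_left _ _
  · exact max_le (by norm_num) (min_le_right _ _)

lemma clamp1_of_abs_le {ν : ℝ} (h : |ν| ≤ 1) : clamp1 ν = ν := by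
  unfold clamp1
  obtain ⟨h1, h2⟩ := abs_le.1 h
  rw [min_eq_left h2, max_eq_right h1]

theorem measurable_rhoF (θ : ℝ) : Measurable (rhoF θ) := by
  unfold rhoF
  fun_prop

lemma continuous_rhoF_clamp {θ : ℝ} (hθ : GoodTheta θ) :
    Continuous (fun ν => rhoF θ (clamp1 ν)) := by
  unfold rhoF
  refine Continuous.div (by have := continuous_clamp1; fun_prop)
    (by have := continuous_clamp1; fun_prop) ?_
  intro ν
  have h1 : (clamp1 ν) ^ 2 ≤ 1 := by
    rw [← sq_abs]; nlinarith [abs_clamp1_le ν, abs_nonneg (clamp1 ν)]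
  have h2 := hθ.sq_le
  have h3 : θ ^ 2 * (clamp1 ν) ^ 2 ≤ 1 / 2 := by nlinarith [sq_nonneg θ, sq_nonneg (clamp1 ν)]
  linarith

lemma rhoF_pow_nonneg {θ ν : ℝ} (hθ : GoodTheta θ) (hν : |ν| ≤ 1) (p : ℕ) : 0 ≤ rhoF θ ν ^ p :=
  pow_nonneg (rhoF_nonneg hθ hν) p

lemma rhoF_pow_le_one {θ ν : ℝ} (hθ : GoodTheta θ) (hν : |ν| ≤ 1) (p : ℕ) : rhoF θ ν ^ p ≤ 1 :=
  pow_le_one₀ (rhoF_nonneg hθ hν) (rhoF_le_one hθ hν)

/-- The product along a path, at finite depth. -/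
noncomputable def chainF (G : SimpleGraph V) [G.LocallyFinite] (θ : ℝ) (p : ℕ) (x : ℕ → V) (d k : ℕ)
    (l : V → ℝ) : ℝ :=
  ∏ j ∈ Finset.range k, rhoF θ (magn G θ (tsub G (x (j + 1)) (x j) (d - j)) l (x (j + 1))) ^ p

lemma chainF_nonneg {θ : ℝ} (hθ : GoodTheta θ) (p : ℕ) (x : ℕ → V) (d k : ℕ) (l : V → ℝ) :
    0 ≤ chainF G θ p x d k l :=
  Finset.prod_nonneg fun _ _ => rhoF_pow_nonneg hθ (abs_magn_le_one hθ _ _ _) p

lemma chainF_le_one {θ : ℝ} (hθ : GoodTheta θ) (p : ℕ) (x : ℕ → V) (d k : ℕ) (l : V → ℝ) :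
    chainF G θ p x d k l ≤ 1 :=
  Finset.prod_le_one (fun _ _ => rhoF_pow_nonneg hθ (abs_magn_le_one hθ _ _ _) p)
    (fun _ _ => rhoF_pow_le_one hθ (abs_magn_le_one hθ _ _ _) p)

lemma measurable_chainF (θ : ℝ) (p : ℕ) (x : ℕ → V) (d k : ℕ) :
    Measurable (chainF G θ p x d k) := by
  unfold chainF
  refine Finset.measurable_prod _ fun j _ => ?_
  exact ((measurable_rhoF θ).comp (wl_measurable_magn θ _ _)).pow_const p

lemma geo_adj {x : ℕ → V} {k : ℕ} (hx : IsGeo G x k) {j : ℕ} (hj : j < k) :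
    G.Adj (x j) (x (j + 1)) := by
  have h := hx j (j + 1) (by omega) (by omega)
  have h2 : Nat.dist j (j + 1) = 1 := by
    rw [Nat.dist]; omega
  rw [h2] at h
  exact SimpleGraph.dist_eq_one_iff_adj.1 h

lemma geo_dist_zero {x : ℕ → V} {k : ℕ} (hx : IsGeo G x k) {j : ℕ} (hj : j ≤ k) :
    G.dist (x 0) (x j) = j := by
  have h := hx 0 j (by omega) hj
  rw [h, Nat.dist]; omega

lemma geo_shift {x : ℕ → V} {k : ℕ} (hx : IsGeo G x (k + 1)) :
    IsGeo G (fun j => x (j + 1)) k := by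
  intro i j hi hj
  have h := hx (i + 1) (j + 1) (by omega) (by omega)
  simp only [h, Nat.dist]
  omega

/-- Nested subtrees along a geodesic. -/
lemma tsub_path_subset (hT : G.IsTree) {x : ℕ → V} {k : ℕ} (hx : IsGeo G x k) (d : ℕ) :
    ∀ j, j + 1 ≤ k → j ≤ d → tsub G (x (j + 1)) (x j) (d - j) ⊆ tsub G (x 1) (x 0) d := by
  intro j
  induction j with
  | zero => intro _ _; exact Finset.Subset.refl _
  | succ j ih =>
    intro hj hjd
    refine Finset.Subset.trans ?_ (ih (by omega) (by omega))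
    have h1 : G.Adj (x (j + 1)) (x j) := (geo_adj hx (by omega)).symm
    have h2 : G.Adj (x (j + 1)) (x (j + 2)) := geo_adj hx (by omega)
    have hne : x (j + 2) ≠ x j := by
      intro h
      have h3 := hx j (j + 2) (by omega) (by omega)
      rw [h, SimpleGraph.dist_self, Nat.dist] at h3
      omega
    have e : d - j = (d - (j + 1)) + 1 := by omega
    rw [e, tsub_succ hT h1]
    intro w hw
    refine Finset.mem_union_right _ (Finset.mem_biUnion.2 ⟨x (j + 2), ?_, hw⟩)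
    exact mem_childF.2 ⟨hne, h2⟩

lemma depOn_chainF (hT : G.IsTree) {θ : ℝ} (p : ℕ) {x : ℕ → V} {k : ℕ} (hx : IsGeo G x k) {d : ℕ}
    (hd : k ≤ d + 1) :
    DepOn (tsub G (x 1) (x 0) d) (chainF G θ p x d k) := by
  intro l l' h
  unfold chainF
  refine Finset.prod_congr rfl fun j hj => ?_
  have hj' := Finset.mem_range.1 hj
  congr 2
  refine magn_congr (fun i hi => h i ?_) _
  exact tsub_path_subset hT hx d j (by omega) (by omega) hi

/-- The contraction constant. -/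
noncomputable def kap (c₂ c' : ℝ) (θ t : ℝ) (q p : ℕ) : ℝ :=
  1 - c₂ * (1 - Real.exp (-(p * c' * xBar θ t q)))

lemma kap_nonneg {c₂ c' : ℝ} (h0 : 0 < c₂) (h1 : c₂ ≤ 1) (θ t : ℝ) (q p : ℕ) :
    0 ≤ kap c₂ c' θ t q p := by
  unfold kap
  have hE := Real.exp_pos (-(p * c' * xBar θ t q))
  nlinarith

lemma measurable_kerT {θ t : ℝ} (hθ : GoodTheta θ) (ht : 0 ≤ t) (q m : ℕ) {f : ℝ → ℝ}
    (hf : Measurable f) : Measurable (kerT θ t q m f) := by
  have hB := symL_Bl hθ ht q m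
  have := hB.prob
  unfold kerT
  have hm : Measurable (Function.uncurry fun (n b : ℝ) => (1 + b * (θ * n)) * f (mrg b (θ * n))) := by
    have h1 : Measurable (fun p : ℝ × ℝ => mrg p.2 (θ * p.1)) := by
      unfold mrg
      fun_prop
    exact (by fun_prop : Measurable (fun p : ℝ × ℝ => 1 + p.2 * (θ * p.1))).mul (hf.comp h1)
  exact (hm.stronglyMeasurable.integral_prod_right).measurable

lemma abs_kerT_le {θ t : ℝ} (hθ : GoodTheta θ) (ht : 0 ≤ t) (q m : ℕ) {f : ℝ → ℝ} {C : ℝ}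
    (hC : ∀ u, |u| ≤ 1 → |f u| ≤ C) {n : ℝ} (hn : |n| ≤ 1) :
    |kerT θ t q m f n| ≤ 2 * C := by
  have hB := symL_Bl hθ ht q m
  have := hB.prob
  unfold kerT
  have h := norm_integral_le_of_norm_le_const (μ := Bl θ t q m) (C := 2 * C)
    (f := fun b => (1 + b * (θ * n)) * f (mrg b (θ * n))) (by
      filter_upwards [hB.lt_one] with b hb
      have h5 : |θ * n| < 1 := by
        rw [abs_mul, abs_of_nonneg hθ.nonneg]
        nlinarith [hθ.lt_one, abs_nonneg n, hθ.nonneg]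
      have hm : |mrg b (θ * n)| ≤ 1 := abs_mrg_le_one hb.le h5
      rw [Real.norm_eq_abs, abs_mul]
      have h3 : |1 + b * (θ * n)| ≤ 2 := abs_one_add_mul_le_two hb.le h5.le
      exact mul_le_mul h3 (hC _ hm) (abs_nonneg _) (by norm_num))
  simpa [Real.norm_eq_abs] using h

variable {q : ℕ}

/-- The finite depth bound along a geodesic. -/
theorem chain_finite (hT : G.IsTree) (hreg : G.IsRegularOfDegree (q + 1)) (hq : 2 ≤ q) {c₂ c' : ℝ}
    (h0 : 0 < c₂) (h1 : c₂ ≤ 1)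
    (hk : ∀ (θ t : ℝ) (m p : ℕ) (n : ℝ), CritPar q θ → 0 < t → xBar θ t q / 2 ≤ xN θ t q m → |n| ≤ 1 →
      kerT θ t q m (fun x => rhoF θ x ^ p) n ≤ 1 - c₂ * (1 - Real.exp (-(p * c' * xBar θ t q))))
    {θ r : ℝ} (hθ : CritPar q θ) (hr : 0 < r) (p : ℕ) {m₀ : ℕ}
    (hm₀ : ∀ m ≥ m₀, xBar θ r q / 2 ≤ xN θ r q m) :
    ∀ (k : ℕ) (x : ℕ → V) (d : ℕ), IsGeo G x (k + 1) → m₀ + k + 1 ≤ d →
      plE G θ (tsub G (x 1) (x 0) d) r (chainF G θ p x d (k + 1)) ≤ kap c₂ c' θ r q p ^ (k + 1) := by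
  have hg := hθ.good
  have hr0 := hr.le
  have hfm : Measurable (fun ν => rhoF θ ν ^ p) := (measurable_rhoF θ).pow_const p
  have hfb : ∃ C, ∀ u : ℝ, |u| ≤ 1 → |rhoF θ u ^ p| ≤ C := ⟨1, fun u hu => by
    rw [abs_of_nonneg (rhoF_pow_nonneg hg hu p)]
    exact rhoF_pow_le_one hg hu p⟩
  intro k
  induction k with
  | zero =>
    intro x d hx hd
    obtain ⟨e, rfl⟩ : ∃ e, d = e + 1 := ⟨d - 1, by omega⟩
    have h2 : chainF G θ p x (e + 1) (0 + 1) =
        fun l => rhoF θ (magn G θ (tsub G (x 1) (x 0) (e + 1)) l (x 1)) ^ p := by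
      funext l
      simp [chainF]
    rw [h2, tsub_law hT hreg hg hr0 (geo_adj hx (j := 0) (by omega)).symm _
      (f := fun ν => rhoF θ ν ^ p) hfm hfb, zero_add, pow_one]
    exact integral_rho_pow_le hq hk e p hθ hr (hm₀ e (by omega))
  | succ k ih =>
    intro x d hx hd
    obtain ⟨e, rfl⟩ : ∃ e, d = e + 1 := ⟨d - 1, by omega⟩
    have hx' := geo_shift hx
    have ihx := ih (fun j => x (j + 1)) e hx' (by omega)
    set Rest := chainF G θ p (fun j => x (j + 1)) e (k + 1) with hRest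
    have hsplit : chainF G θ p x (e + 1) (k + 1 + 1) = fun l =>
        rhoF θ (magn G θ (tsub G (x 1) (x 0) (e + 1)) l (x 1)) ^ p * Rest l := by
      funext l
      unfold chainF at hRest ⊢
      rw [Finset.prod_range_succ', hRest, mul_comm]
      simp only [Nat.add_sub_add_right, zero_add, Nat.sub_zero]
    have h10 : G.Adj (x 1) (x 0) := (geo_adj hx (j := 0) (by omega)).symm
    have h12 : G.Adj (x 1) (x 2) := geo_adj hx (j := 1) (by omega)
    have hne : x 2 ≠ x 0 := by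
      intro h
      have h3 := hx 0 2 (by omega) (by omega)
      rw [h, SimpleGraph.dist_self, Nat.dist] at h3
      omega
    have hs : x 2 ∈ childF G (x 1) (x 0) := mem_childF.2 ⟨hne, h12⟩
    have hRm : Measurable Rest := measurable_chainF θ p _ e (k + 1)
    have hR0 : ∀ l, 0 ≤ Rest l := chainF_nonneg hg p _ e (k + 1)
    have hR1 : ∀ l, Rest l ≤ 1 := chainF_le_one hg p _ e (k + 1)
    have hRb : ∃ C, ∀ l, |Rest l| ≤ C := ⟨1, fun l => by
      rw [abs_of_nonneg (hR0 l)]; exact hR1 l⟩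
    have hdep : DepOn (tsub G (x 2) (x 1) e) Rest :=
      depOn_chainF hT p hx' (by omega)
    rw [hsplit, plE_kernel_step hT hreg hg hr0 h10 hs e hfm hfb hRm hRb hdep]
    have hκ0 := kap_nonneg h0 h1 θ r q p (c' := c')
    have hbd : ∀ l, kerT θ r q e (fun ν => rhoF θ ν ^ p) (magn G θ (tsub G (x 2) (x 1) e) l (x 2))
        * Rest l ≤ kap c₂ c' θ r q p * Rest l := fun l =>
      mul_le_mul_of_nonneg_right
        (hk θ r e p _ hθ hr (hm₀ e (by omega)) (abs_magn_le_one hg _ l _)) (hR0 l)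
    have hKm : Measurable (fun l => kerT θ r q e (fun ν => rhoF θ ν ^ p)
        (magn G θ (tsub G (x 2) (x 1) e) l (x 2)) * Rest l) :=
      ((measurable_kerT hg hr0 q e hfm).comp (wl_measurable_magn θ _ _)).mul hRm
    have hKb : ∃ C, ∀ l, |kerT θ r q e (fun ν => rhoF θ ν ^ p)
        (magn G θ (tsub G (x 2) (x 1) e) l (x 2)) * Rest l| ≤ C := ⟨2 * 1 * 1, fun l => by
      rw [abs_mul]
      refine mul_le_mul (abs_kerT_le hg hr0 q e (C := 1) (fun u hu => ?_)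
        (abs_magn_le_one hg _ l _)) ?_ (abs_nonneg _) (by norm_num)
      · rw [abs_of_nonneg (rhoF_pow_nonneg hg hu p)]
        exact rhoF_pow_le_one hg hu p
      · rw [abs_of_nonneg (hR0 l)]; exact hR1 l⟩
    have hKb' : ∃ C, ∀ l, |kap c₂ c' θ r q p * Rest l| ≤ C := ⟨kap c₂ c' θ r q p * 1, fun l => by
      rw [abs_mul, abs_of_nonneg hκ0]
      refine mul_le_mul_of_nonneg_left ?_ hκ0
      rw [abs_of_nonneg (hR0 l)]; exact hR1 l⟩
    calc _ ≤ plE G θ (tsub G (x 2) (x 1) e) r (fun l => kap c₂ c' θ r q p * Rest l) :=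
          plE_mono hg hr0 hKm (hRm.const_mul _) hKb hKb' hbd
      _ = kap c₂ c' θ r q p * plE G θ (tsub G (x 2) (x 1) e) r Rest :=
          plE_mul_const hg hr0 _ _
      _ ≤ kap c₂ c' θ r q p * kap c₂ c' θ r q p ^ (k + 1) :=
          mul_le_mul_of_nonneg_left ihx hκ0
      _ = _ := by ring

end SolLawAux

open SolLawAux

section
variable {q : ℕ} (hT : G.IsTree) (hreg : G.IsRegularOfDegree (q + 1)) (hq : 2 ≤ q)
  {M : ℝ → V → (V → unitInterval) → ℝ} {N : ℝ → V → V → (V → unitInterval) → ℝ} {θ r : ℝ}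
include hT hreg hq

/-- The law of a message of a solution. -/
theorem sol_integral_tendsto (hθ : CritPar q θ) (hS : IsSol G θ M N) (hr : ∃ n, Dy n r)
    {y x : V} (hyx : G.Adj y x) {f : ℝ → ℝ} (hf : Continuous f) :
    Tendsto (fun n => ∫ ν, f ν ∂rhoL θ r q n) atTop (𝓝 (∫ ω, f (N r y x ω) ∂labelMeasure V)) := by
  have h0r : 0 ≤ r := dy_nonneg hr
  have hg := hθ.good
  obtain ⟨D, hD⟩ : ∃ D, ∀ u ∈ Set.Icc (-1 : ℝ) 1, ‖f u‖ ≤ D :=
    isCompact_Icc.exists_bound_of_continuousOn hf.continuousOn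
  have hD' : ∀ u, |u| ≤ 1 → |f u| ≤ D := fun u hu => hD u (abs_le.1 hu)
  have hlaw := sol_law hT hreg hq hg hS x (ι := Unit) (fun _ => (y, x)) (fun _ => hyx) hr
    (fun z => f (z ())) (by fun_prop)
  have hyx1 : G.dist x y = 1 := tdist_one hT hyx.symm
  have key : ∀ n : ℕ, plE G θ (tball G x (n + 1)) r
      (fun lam => f (msg G θ (tball G x (n + 1)) lam y x)) = ∫ ν, f ν ∂rhoL θ r q n := by
    intro n
    have h1 : (fun lam => f (msg G θ (tball G x (n + 1)) lam y x)) =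
        fun lam => f (magn G θ (tsub G y x n) lam y) := by
      funext lam
      rw [msg_tball_eq hT hyx (by rw [hyx1, SimpleGraph.dist_self]) (by omega) lam, hyx1]
      simp
    rw [h1, plE_marginal hg h0r hT (F := fun l => f (magn G θ (tsub G y x n) l y))
      (conv_tsub hT hyx n) (conv_tball hT x (n + 1))
      (by rw [← sideF_tball_eq_tsub hT hyx n]; exact Finset.filter_subset _ _)
      ⟨y, mem_tsub_self hT hyx n⟩ (hf.measurable.comp (wl_measurable_magn θ _ y))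
      ⟨D, fun l => hD' _ (abs_magn_le_one hg _ l y)⟩
      (fun l l' h => congrArg f (magn_congr h y))]
    exact tsub_law hT hreg hg h0r hyx n hf.measurable ⟨D, hD'⟩
  have h2 := (tendsto_add_atTop_iff_nat 1).2 hlaw
  simp only [key] at h2
  exact h2

theorem sol_x (hθ : CritPar q θ) (hS : IsSol G θ M N) (hr : ∃ n, Dy n r) {y x : V}
    (hyx : G.Adj y x) : ∫ ω, (N r y x ω) ^ 2 ∂labelMeasure V = xBar θ r q := by
  have h1 := sol_integral_tendsto hT hreg hq hθ hS hr hyx (f := fun a => a ^ 2) (by fun_prop)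
  exact tendsto_nhds_unique h1 (tendsto_xN hθ.good (dy_nonneg hr))

/-- Even moments of the messages. -/
theorem sol_moment (p : ℕ) : ∃ C : ℝ, 0 < C ∧ ∀ {θ r : ℝ} {M : ℝ → V → (V → unitInterval) → ℝ}
    {N : ℝ → V → V → (V → unitInterval) → ℝ}, CritPar q θ → IsSol G θ M N → (∃ n, Dy n r) → 0 < r →
    ∀ {y x : V}, G.Adj y x → ∫ ω, (N r y x ω) ^ (2 * p) ∂labelMeasure V ≤ C * xBar θ r q ^ p := by
  obtain ⟨C, hC0, hC⟩ := moment_le hq p
  refine ⟨C, hC0, ?_⟩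
  intro θ r M N hθ hS hr hr0 y x hyx
  have h1 := sol_integral_tendsto hT hreg hq hθ hS hr hyx (f := fun a => a ^ (2 * p)) (by fun_prop)
  exact le_of_tendsto' h1 fun n => hC θ r n hθ hr0

/-- Large messages are rare at small times. -/
theorem sol_bad : ∃ c t₀ : ℝ, 0 < c ∧ 0 < t₀ ∧ ∀ {θ r : ℝ} {M : ℝ → V → (V → unitInterval) → ℝ}
    {N : ℝ → V → V → (V → unitInterval) → ℝ}, CritPar q θ → IsSol G θ M N → (∃ n, Dy n r) → 0 < r →
    r ≤ t₀ → ∀ {y x : V}, G.Adj y x →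
      (labelMeasure V).real {ω | 1 / 2 < |N r y x ω|} ≤ 2 * Real.exp (-(c / Real.sqrt r)) := by
  obtain ⟨c, t₀, hc, ht₀, hbad⟩ := bad_le hq
  refine ⟨c, t₀, hc, ht₀, ?_⟩
  intro θ r M N hθ hS hr hr0 hrt y x hyx
  set f : ℝ → ℝ := fun ν => max 0 (min (4 * |ν| - 1) 1) with hf
  have hfc : Continuous f := by
    rw [hf]; fun_prop
  have hf0 : ∀ ν, 0 ≤ f ν := fun ν => le_max_left _ _
  have hf1 : ∀ ν, f ν ≤ 1 := fun ν => max_le zero_le_one (min_le_right _ _)
  have hfb : ∀ ν, |f ν| ≤ 1 := fun ν => by rw [abs_of_nonneg (hf0 ν)]; exact hf1 ν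
  have hsup : ∀ ν, f ν ≤ Set.indicator {ν : ℝ | 1 / 4 ≤ |ν|} (1 : ℝ → ℝ) ν := by
    intro ν
    by_cases h : 1 / 4 ≤ |ν|
    · simp only [Set.indicator_of_mem (show ν ∈ {ν : ℝ | 1 / 4 ≤ |ν|} from h), Pi.one_apply]
      exact hf1 ν
    · rw [Set.indicator_of_notMem (show ν ∉ {ν : ℝ | 1 / 4 ≤ |ν|} from h)]
      simp only [hf]
      refine max_le le_rfl ((min_le_left _ _).trans ?_)
      push Not at h
      linarith
  have hinf : ∀ ν, Set.indicator {ν : ℝ | 1 / 2 < |ν|} (1 : ℝ → ℝ) ν ≤ f ν := by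
    intro ν
    by_cases h : 1 / 2 < |ν|
    · simp only [Set.indicator_of_mem (show ν ∈ {ν : ℝ | 1 / 2 < |ν|} from h), Pi.one_apply]
      simp only [hf]
      refine le_max_of_le_right (le_min ?_ le_rfl)
      linarith
    · rw [Set.indicator_of_notMem (show ν ∉ {ν : ℝ | 1 / 2 < |ν|} from h)]
      exact hf0 ν
  have hlim := sol_integral_tendsto hT hreg hq hθ hS hr hyx hfc
  have hupper : ∫ ω, f (N r y x ω) ∂labelMeasure V ≤ 2 * Real.exp (-(c / Real.sqrt r)) := by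
    refine le_of_tendsto' hlim fun n => ?_
    have hsym := symL_rhoL hθ.good hr0.le q n
    have := hsym.prob
    have hms : MeasurableSet {ν : ℝ | 1 / 4 ≤ |ν|} :=
      measurableSet_le measurable_const continuous_abs.measurable
    have h1 : ∫ ν, f ν ∂rhoL θ r q n ≤ (rhoL θ r q n).real {ν | 1 / 4 ≤ |ν|} := by
      rw [← integral_indicator_one hms]
      refine integral_mono ?_ ?_ hsup
      · exact Integrable.of_bound hfc.measurable.aestronglyMeasurable 1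
          (Filter.Eventually.of_forall fun ν => by simpa using hfb ν)
      · exact (integrable_const (1 : ℝ)).indicator hms
    exact h1.trans (hbad θ r n hθ hr0 hrt)
  have hmsN : MeasurableSet {ω | 1 / 2 < |N r y x ω|} :=
    measurableSet_lt measurable_const (hS.measN r y x).abs
  have hlow : (labelMeasure V).real {ω | 1 / 2 < |N r y x ω|} ≤ ∫ ω, f (N r y x ω) ∂labelMeasure V := by
    rw [← integral_indicator_one hmsN]
    refine integral_mono ?_ ?_ ?_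
    · exact (integrable_const (1 : ℝ)).indicator hmsN
    · exact Integrable.of_bound (hfc.measurable.comp (hS.measN r y x)).aestronglyMeasurable 1
        (Filter.Eventually.of_forall fun ω => by simpa using hfb _)
    · intro ω
      have := hinf (N r y x ω)
      by_cases h : 1 / 2 < |N r y x ω|
      · simp only [Set.indicator_of_mem (show ω ∈ {ω | 1 / 2 < |N r y x ω|} from h), Pi.one_apply]
        rw [Set.indicator_of_mem (show N r y x ω ∈ {ν : ℝ | 1 / 2 < |ν|} from h)] at this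
        simpa using this
      · rw [Set.indicator_of_notMem (show ω ∉ {ω | 1 / 2 < |N r y x ω|} from h)]
        exact hf0 _
  exact hlow.trans hupper

/-- The path moment generating function, `x` a geodesic, messages directed towards `x 0`. -/
theorem sol_chain : ∃ c₂ c' : ℝ, 0 < c₂ ∧ c₂ ≤ 1 ∧ 0 < c' ∧ ∀ {θ r : ℝ}
    {M : ℝ → V → (V → unitInterval) → ℝ} {N : ℝ → V → V → (V → unitInterval) → ℝ}, CritPar q θ →
    IsSol G θ M N → (∃ n, Dy n r) → 0 < r → ∀ (p : ℕ) (x : ℕ → V) (k : ℕ), IsGeo G x k →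
      ∫ ω, ∏ j ∈ Finset.range k, rhoF θ (N r (x (j + 1)) (x j) ω) ^ p ∂labelMeasure V
        ≤ (1 - c₂ * (1 - Real.exp (-(p * c' * xBar θ r q)))) ^ k := by
  obtain ⟨c₂, c', h0, h1, hc', hk⟩ := kerT_rho_le hq
  refine ⟨c₂, c', h0, h1, hc', ?_⟩
  intro θ r M N hθ hS hr hr0 p x k hx
  have hg := hθ.good
  rcases k with _ | K
  · simp
  -- the threshold for the depth
  obtain ⟨m₀, hm₀⟩ : ∃ m₀, ∀ m ≥ m₀, xBar θ r q / 2 ≤ xN θ r q m := by
    by_cases hpos : 0 < xBar θ r q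
    · have := (tendsto_order.1 (tendsto_xN (q := q) hg hr0.le)).1 (xBar θ r q / 2) (by linarith)
      obtain ⟨m₀, hm⟩ := Filter.eventually_atTop.1 this
      exact ⟨m₀, fun m hm' => (hm m hm').le⟩
    · refine ⟨0, fun m _ => ?_⟩
      have : 0 ≤ xN θ r q m := m2L_nonneg _
      linarith
  have hlaw := sol_law hT hreg hq hg hS (x 0) (ι := Fin (K + 1))
    (fun j => (x ((j : ℕ) + 1), x j)) (fun j => (geo_adj hx j.2).symm) hr
    (fun z => ∏ j, rhoF θ (clamp1 (z j)) ^ p)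
    (continuous_finsetProd _ fun j _ =>
      ((continuous_rhoF_clamp hg).comp (continuous_apply j)).pow p)
  have hlim : ∫ ω, ∏ j : Fin (K + 1), rhoF θ (clamp1 (N r (x ((j : ℕ) + 1)) (x j) ω)) ^ p
      ∂labelMeasure V = ∫ ω, ∏ j ∈ Finset.range (K + 1), rhoF θ (N r (x (j + 1)) (x j) ω) ^ p
      ∂labelMeasure V := by
    refine integral_congr_ae (Filter.Eventually.of_forall fun ω => ?_)
    simp only
    rw [← Fin.prod_univ_eq_prod_range (fun j => rhoF θ (N r (x (j + 1)) (x j) ω) ^ p) (K + 1)]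
    refine Finset.prod_congr rfl fun j _ => ?_
    rw [clamp1_of_abs_le (hS.bdN _ _ _ _)]
  rw [← hlim]
  refine le_of_tendsto hlaw ?_
  have hev : ∀ᶠ D : ℕ in atTop, m₀ + K + 2 ≤ D := Filter.eventually_ge_atTop _
  filter_upwards [hev] with D hD
  obtain ⟨d, rfl⟩ : ∃ d, D = d + 1 := ⟨D - 1, by omega⟩
  have e1 : (fun lam => ∏ j : Fin (K + 1), rhoF θ (clamp1 (msg G θ (tball G (x 0) (d + 1)) lam
      (x ((j : ℕ) + 1)) (x j))) ^ p) = chainF G θ p x d (K + 1) := by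
    funext lam
    unfold chainF
    rw [← Fin.prod_univ_eq_prod_range
      (fun j => rhoF θ (magn G θ (tsub G (x (j + 1)) (x j) (d - j)) lam (x (j + 1))) ^ p) (K + 1)]
    refine Finset.prod_congr rfl fun j _ => ?_
    have hj := j.2
    have hd1 : G.dist (x 0) (x ((j : ℕ) + 1)) = (j : ℕ) + 1 := geo_dist_zero hx (by omega)
    have hd0 : G.dist (x 0) (x (j : ℕ)) = (j : ℕ) := geo_dist_zero hx (by omega)
    rw [clamp1_of_abs_le (abs_msg_le_one hg _ _ _ _),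
      msg_tball_eq hT (geo_adj hx j.2).symm (by rw [hd1, hd0]) (by rw [hd1]; omega) lam, hd1,
      Nat.add_sub_add_right]
  simp only [e1]
  have h10 : G.Adj (x 1) (x 0) := (geo_adj hx (j := 0) (by omega)).symm
  rw [plE_marginal hg hr0.le hT (conv_tsub hT h10 d) (conv_tball hT (x 0) (d + 1))
    (by rw [← sideF_tball_eq_tsub hT h10 d]; exact Finset.filter_subset _ _)
    ⟨x 1, mem_tsub_self hT h10 d⟩ (measurable_chainF θ p x d (K + 1))
    ⟨1, fun l => by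
      rw [abs_of_nonneg (chainF_nonneg hg p x d _ l)]
      exact chainF_le_one hg p x d _ l⟩
    (depOn_chainF hT p hx (by omega))]
  exact chain_finite hT hreg hq h0 h1 hk hθ hr0 p hm₀ K x d hx (by omega)

/-- Law of the messages for convex even test functions: monotone in `θ` and in the time. -/
theorem sol_cx {θ θ' r r' : ℝ} {M' : ℝ → V → (V → unitInterval) → ℝ}
    {N' : ℝ → V → V → (V → unitInterval) → ℝ} (hθ : CritPar q θ) (hθ' : CritPar q θ') (hθθ' : θ ≤ θ')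
    (hS : IsSol G θ M N) (hS' : IsSol G θ' M' N') (hr : ∃ n, Dy n r) (hr' : ∃ n, Dy n r') (h0 : 0 ≤ r)
    (hrr' : r ≤ r') {y x y' x' : V} (hyx : G.Adj y x) (hyx' : G.Adj y' x') {f : ℝ → ℝ}
    (hf : Continuous f) (hev : ∀ a, f (-a) = f a) (hc : ConvexOn ℝ (Set.Icc (-1) 1) f) :
    ∫ ω, f (N r y x ω) ∂labelMeasure V ≤ ∫ ω, f (N' r' y' x' ω) ∂labelMeasure V := by
  exact le_of_tendsto_of_tendsto'
    (sol_integral_tendsto hT hreg hq hθ hS hr hyx hf)
    (sol_integral_tendsto hT hreg hq hθ' hS' hr' hyx' hf)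
    (fun n => cxLE_rhoL hθ.good hθ'.good hθθ' h0 hrr' q le_rfl f hf hev hc)

end

end Crest.Agent.IsingFactor
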