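import Crest.Agent.IsingFactor.SolLaw

/-!
# IsingFactor.SolXi (WP IF-SolXi): the subtree sum `Ξ`: definition, expansion, mean, independence of children.  See `SolLaw`.
Statements may be ADDED; do not change the ones below without posting on chat (topic S0241), other packages use them.
-/

set_option autoImplicit false
set_option linter.unusedVariables false

open MeasureTheory ProbabilityTheory Filter Topology
open Crest.Agent.SRFactor Crest.ProbabilityR.Labels

namespace Crest.Agent.IsingFactor

variable {V : Type*} [DecidableEq V] {G : SimpleGraph V} [G.LocallyFinite]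

/-- The subtree sum `Ξ^K_{y → x}` for the messages `ν` (weight `1/q` per generation). -/
noncomputable def xiK (G : SimpleGraph V) [G.LocallyFinite] (q : ℕ) (θ : ℝ) (ν : V → V → ℝ) :
    ℕ → V → V → ℝ
  | 0, _, _ => 1
  | K + 1, y, x => 1 + (1 / (q : ℝ)) * ∑ s ∈ childF G y x, rhoF θ (ν s y) * xiK G q θ ν K s y

/-- `Ξ` of a solution. -/
noncomputable def xiS (G : SimpleGraph V) [G.LocallyFinite] (q : ℕ) (θ : ℝ)
    (N : ℝ → V → V → (V → unitInterval) → ℝ) (r : ℝ) (K : ℕ) (y x : V) (ω : V → unitInterval) : ℝ :=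
  xiK G q θ (fun a b => N r a b ω) K y x

section xi
variable {q : ℕ}

theorem xiK_zero (ν : V → V → ℝ) (θ : ℝ) (y x : V) : xiK G q θ ν 0 y x = 1 := rfl

theorem xiK_succ (ν : V → V → ℝ) (θ : ℝ) (K : ℕ) (y x : V) : xiK G q θ ν (K + 1) y x =
    1 + (1 / (q : ℝ)) * ∑ s ∈ childF G y x, rhoF θ (ν s y) * xiK G q θ ν K s y := rfl

theorem xiK_ge_one (hT : G.IsTree) {θ : ℝ} (hθ : GoodTheta θ) {ν : V → V → ℝ} (hν : ∀ a b, |ν a b| ≤ 1)
    (K : ℕ) (y x : V) : 1 ≤ xiK G q θ ν K y x := by
  induction K generalizing y x with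
  | zero => exact le_rfl
  | succ K ih =>
    rw [xiK_succ]
    have : 0 ≤ (1 / (q : ℝ)) * ∑ s ∈ childF G y x, rhoF θ (ν s y) * xiK G q θ ν K s y := by
      refine mul_nonneg (by positivity) (Finset.sum_nonneg fun s _ => ?_)
      exact mul_nonneg (rhoF_nonneg hθ (hν _ _)) (by linarith [ih s y])
    linarith

theorem xiK_le (hT : G.IsTree) (hreg : G.IsRegularOfDegree (q + 1)) (hq : 2 ≤ q) {θ : ℝ}
    (hθ : GoodTheta θ) {ν : V → V → ℝ} (hν : ∀ a b, |ν a b| ≤ 1) (K : ℕ) {y x : V} (hyx : G.Adj y x) :
    xiK G q θ ν K y x ≤ K + 1 := by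
  induction K generalizing y x with
  | zero => simp [xiK_zero]
  | succ K ih =>
    rw [xiK_succ]
    have hq0 : (0 : ℝ) < q := by exact_mod_cast (by omega : 0 < q)
    have h1 : ∑ s ∈ childF G y x, rhoF θ (ν s y) * xiK G q θ ν K s y ≤ (q : ℝ) * (K + 1) := by
      calc ∑ s ∈ childF G y x, rhoF θ (ν s y) * xiK G q θ ν K s y
          ≤ ∑ _s ∈ childF G y x, ((K : ℝ) + 1) := by
            refine Finset.sum_le_sum fun s hs => ?_
            have hsy : G.Adj s y := (mem_childF.1 hs).2.symm
            have h2 := ih hsy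
            have h3 := xiK_ge_one (q := q) hT hθ hν K s y
            have h4 := rhoF_nonneg hθ (hν s y)
            have h5 := rhoF_le_one hθ (hν s y)
            nlinarith
        _ = (q : ℝ) * (K + 1) := by
            rw [Finset.sum_const, card_childF hT hreg hyx, nsmul_eq_mul]
    have h2 : (1 / (q : ℝ)) * ∑ s ∈ childF G y x, rhoF θ (ν s y) * xiK G q θ ν K s y ≤ K + 1 := by
      rw [one_div, inv_mul_le_iff₀ hq0]
      exact h1
    push_cast
    linarith

/-- `Ξ^K` is nondecreasing in `K`. -/
theorem xiK_mono (hT : G.IsTree) (hreg : G.IsRegularOfDegree (q + 1)) (hq : 2 ≤ q) {θ : ℝ}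
    (hθ : GoodTheta θ) {ν : V → V → ℝ} (hν : ∀ a b, |ν a b| ≤ 1) (K : ℕ) {y x : V} (hyx : G.Adj y x) :
    xiK G q θ ν K y x ≤ xiK G q θ ν (K + 1) y x := by
  induction K generalizing y x with
  | zero =>
    rw [xiK_succ, xiK_zero]
    have : 0 ≤ (1 / (q : ℝ)) * ∑ s ∈ childF G y x, rhoF θ (ν s y) * xiK G q θ ν 0 s y := by
      refine mul_nonneg (by positivity) (Finset.sum_nonneg fun s _ => ?_)
      rw [xiK_zero, mul_one]
      exact rhoF_nonneg hθ (hν _ _)
    linarith
  | succ K ih =>
    rw [xiK_succ (K := K), xiK_succ (K := K + 1)]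
    have : ∑ s ∈ childF G y x, rhoF θ (ν s y) * xiK G q θ ν K s y ≤
        ∑ s ∈ childF G y x, rhoF θ (ν s y) * xiK G q θ ν (K + 1) s y := by
      refine Finset.sum_le_sum fun s hs => ?_
      exact mul_le_mul_of_nonneg_left (ih (mem_childF.1 hs).2.symm) (rhoF_nonneg hθ (hν _ _))
    have h2 : (0 : ℝ) ≤ 1 / (q : ℝ) := by positivity
    nlinarith [mul_le_mul_of_nonneg_left this h2]

/-- The expansion as a sum over the subtree. -/
theorem xiK_expand (hT : G.IsTree) (hreg : G.IsRegularOfDegree (q + 1)) {θ : ℝ} (ν : V → V → ℝ) (K : ℕ)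
    {y x : V} (hyx : G.Adj y x) :
    xiK G q θ ν K y x = ∑ u ∈ tsub G y x K, (1 / (q : ℝ)) ^ G.dist y u *
      ∏ j ∈ Finset.range (G.dist y u), rhoF θ (ν (pathV G y u (j + 1)) (pathV G y u j)) := by
  induction K generalizing y x with
  | zero =>
    have : tsub G y x 0 = {y} := by
      ext w
      simp only [mem_tsub hT, Finset.mem_singleton]
      constructor
      · rintro ⟨h1, _⟩
        exact (tdist_zero hT (by omega)).symm
      · rintro rfl
        have := tdist_one hT hyx
        simp [SimpleGraph.dist_self]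
        omega
    rw [this, Finset.sum_singleton, xiK_zero]
    simp [SimpleGraph.dist_self]
  | succ K ih =>
    rw [xiK_succ, tsub_succ hT hyx, Finset.sum_union]
    · rw [Finset.sum_singleton, Finset.sum_biUnion]
      · simp only [SimpleGraph.dist_self, pow_zero, Finset.range_zero, Finset.prod_empty, mul_one]
        congr 1
        rw [Finset.mul_sum]
        refine Finset.sum_congr rfl fun s hs => ?_
        have hsy : G.Adj s y := (mem_childF.1 hs).2.symm
        rw [ih hsy, Finset.mul_sum, Finset.mul_sum]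
        refine Finset.sum_congr rfl fun u hu => ?_
        -- `u` in the subtree of `s`
        have hu' := (mem_tsub hT).1 hu
        have hd : G.dist y u = G.dist s u + 1 := by
          have h3 := dist_adj_cases hT hsy.symm u
          have e1 := tdc (G := G) y u
          have e2 := tdc (G := G) s u
          omega
        have hstep : stepTo G u y = s := by
          by_cases hyu : y = u
          · subst hyu
            exact absurd hu (notMem_tsub_child hT hs K)
          · have h3 := stepTo_spec hT hyu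
            have h4 := dist_adj_cases hT hsy.symm u
            exact tparent_uniq2 (w := u) hT h3.1 hsy.symm (by
              have e1 := tdc (G := G) y u
              have e2 := tdc (G := G) (stepTo G u y) u
              omega) (by
              have e1 := tdc (G := G) y u
              have e2 := tdc (G := G) s u
              omega)
        rw [hd, Finset.prod_range_succ', pow_succ]
        have e0 : pathV G y u (0 + 1) = s := by
          rw [pathV_succ', hstep]; rfl
        have e1 : pathV G y u 0 = y := rfl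
        rw [e0, e1]
        have e2 : ∀ j, pathV G y u (j + 1) = pathV G s u j := by
          intro j
          rw [pathV_succ', hstep]
        have e3 : ∏ j ∈ Finset.range (G.dist s u), rhoF θ (ν (pathV G y u (j + 1 + 1)) (pathV G y u (j + 1)))
            = ∏ j ∈ Finset.range (G.dist s u), rhoF θ (ν (pathV G s u (j + 1)) (pathV G s u j)) := by
          refine Finset.prod_congr rfl fun j _ => ?_
          rw [e2 (j + 1), e2 j]
        rw [e3]
        ring
      · intro s hs s' hs' hne
        exact tsub_disjoint hT hyx hs hs' hne K K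
    · rw [Finset.disjoint_singleton_left, Finset.mem_biUnion]
      rintro ⟨s, hs, hy⟩
      exact notMem_tsub_child hT hs K hy


/-! ### Measurability -/

theorem measurable_xiK {Ω : Type*} [MeasurableSpace Ω] {θ : ℝ} {ν : Ω → V → V → ℝ}
    (hν : ∀ a b, Measurable fun ω => ν ω a b) (K : ℕ) (y x : V) :
    Measurable fun ω => xiK G q θ (ν ω) K y x := by
  induction K generalizing y x with
  | zero => simp only [xiK_zero]; exact measurable_const
  | succ K ih =>
    simp only [xiK_succ]
    refine measurable_const.add (measurable_const.mul ?_)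
    refine Finset.measurable_sum _ fun s _ => ?_
    exact ((SolLawAux.measurable_rhoF θ).comp (hν s y)).mul (ih s y)

/-! ### Locality of `Ξ` in the message field -/

theorem xiK_congr_ball (hT : G.IsTree) {θ : ℝ} {ν ν' : V → V → ℝ} {c : V} {R : ℕ}
    (h : ∀ a b, a ∈ tball G c R → b ∈ tball G c R → G.Adj a b → ν a b = ν' a b)
    (K : ℕ) {y x : V} (hy : G.dist c y + K ≤ R) :
    xiK G q θ ν K y x = xiK G q θ ν' K y x := by
  induction K generalizing y x with
  | zero => rfl
  | succ K ih =>
    rw [xiK_succ, xiK_succ]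
    congr 2
    refine Finset.sum_congr rfl fun s hs => ?_
    have hys : G.Adj y s := (mem_childF.1 hs).2
    have hd : G.dist c s ≤ G.dist c y + 1 := by
      have := dist_adj_cases hT hys c
      have e1 := tdc (G := G) y c
      have e2 := tdc (G := G) s c
      omega
    rw [h s y ((mem_tball hT).2 (by omega)) ((mem_tball hT).2 (by omega)) hys.symm,
      ih (y := s) (x := y) (by omega)]

end xi

/-! ### Clamped extensions: a version of `sol_law` for functionals of the message field -/

/-- Clamp to `[-1,1]`. -/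
noncomputable def clp (t : ℝ) : ℝ := max (-1) (min t 1)

theorem continuous_clp : Continuous clp := by
  unfold clp
  fun_prop

theorem abs_clp_le (t : ℝ) : |clp t| ≤ 1 := by
  unfold clp
  rw [abs_le]
  constructor
  · exact le_max_left _ _
  · exact max_le (by norm_num) (min_le_right _ _)

theorem clp_of_abs_le {t : ℝ} (h : |t| ≤ 1) : clp t = t := by
  unfold clp
  have h' := abs_le.1 h
  rw [min_eq_left h'.2, max_eq_right h'.1]

theorem continuous_rhoF_clp {θ : ℝ} (hθ : GoodTheta θ) : Continuous fun t => rhoF θ (clp t) := by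
  unfold rhoF
  refine Continuous.div ?_ ?_ ?_
  · exact continuous_const.sub (continuous_clp.pow 2)
  · exact continuous_const.sub (continuous_const.mul (continuous_clp.pow 2))
  · intro t
    have h1 := abs_clp_le t
    have h2 : clp t ^ 2 ≤ 1 := by rw [← sq_abs]; nlinarith [abs_nonneg (clp t)]
    have h3 := hθ.sq_le
    have h4 : θ ^ 2 * clp t ^ 2 ≤ 1 / 2 := by nlinarith [sq_nonneg (clp t), sq_nonneg θ]
    linarith

/-- The clamped extension of a finite vector of coordinates to a message field. -/
noncomputable def xiExt {E : Finset (V × V)} (z : {p // p ∈ E} → ℝ) (a b : V) : ℝ :=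
  clp (if h : (a, b) ∈ E then z ⟨(a, b), h⟩ else 0)

theorem continuous_xiExt {E : Finset (V × V)} (a b : V) :
    Continuous fun z : {p // p ∈ E} → ℝ => xiExt z a b := by
  unfold xiExt
  refine continuous_clp.comp ?_
  by_cases h : (a, b) ∈ E
  · simp only [h, dite_true]
    exact continuous_apply _
  · simp only [h, dite_false]
    exact continuous_const

theorem continuous_rhoF_xiExt {θ : ℝ} (hθ : GoodTheta θ) {E : Finset (V × V)} (a b : V) :
    Continuous fun z : {p // p ∈ E} → ℝ => rhoF θ (xiExt z a b) := by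
  have : (fun z : {p // p ∈ E} → ℝ => rhoF θ (xiExt z a b)) =
      (fun t => rhoF θ (clp t)) ∘ fun z : {p // p ∈ E} → ℝ =>
        (if h : (a, b) ∈ E then z ⟨(a, b), h⟩ else 0) := by
    rfl
  rw [this]
  refine (continuous_rhoF_clp hθ).comp ?_
  by_cases h : (a, b) ∈ E
  · simp only [h, dite_true]
    exact continuous_apply _
  · simp only [h, dite_false]
    exact continuous_const

theorem continuous_xiK_ext {q : ℕ} {θ : ℝ} (hθ : GoodTheta θ) {E : Finset (V × V)} (K : ℕ) (y x : V) :
    Continuous fun z : {p // p ∈ E} → ℝ => xiK G q θ (xiExt z) K y x := by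
  induction K generalizing y x with
  | zero => simp only [xiK_zero]; exact continuous_const
  | succ K ih =>
    simp only [xiK_succ]
    refine continuous_const.add (continuous_const.mul ?_)
    refine continuous_finsetSum _ fun s _ => ?_
    exact (continuous_rhoF_xiExt hθ s y).mul (ih s y)

open scoped Classical in
/-- The edges of a ball, as a finite set of ordered pairs. -/
noncomputable def ballEdges (G : SimpleGraph V) [G.LocallyFinite] (c : V) (R : ℕ) : Finset (V × V) :=
  (tball G c R ×ˢ tball G c R).filter fun p => G.Adj p.1 p.2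

/-- `sol_law` for a functional of the message field which only looks at a ball and is continuous
on the cube. -/
theorem sol_law_fun {q : ℕ} (hT : G.IsTree) (hreg : G.IsRegularOfDegree (q + 1)) (hq : 2 ≤ q)
    {θ : ℝ} (hθ : GoodTheta θ) {M : ℝ → V → (V → unitInterval) → ℝ}
    {N : ℝ → V → V → (V → unitInterval) → ℝ} (hS : IsSol G θ M N) (c : V) {r : ℝ} (hr : ∃ n, Dy n r)
    (R : ℕ) (Ψ : (V → V → ℝ) → ℝ)
    (hdep : ∀ ν ν' : V → V → ℝ, (∀ a b, a ∈ tball G c R → b ∈ tball G c R → G.Adj a b → ν a b = ν' a b) →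
      Ψ ν = Ψ ν')
    (hcont : Continuous fun z : {p // p ∈ ballEdges G c R} → ℝ => Ψ (xiExt z)) :
    Tendsto (fun k : ℕ => plE G θ (tball G c k) r (fun lam => Ψ (fun a b => msg G θ (tball G c k) lam a b)))
      atTop (𝓝 (∫ ω, Ψ (fun a b => N r a b ω) ∂labelMeasure V)) := by
  classical
  have hadj : ∀ i : {p // p ∈ ballEdges G c R}, G.Adj (i.1).1 (i.1).2 := by
    intro i
    have := i.2
    simp only [ballEdges, Finset.mem_filter] at this
    exact this.2
  have key := sol_law hT hreg hq hθ hS c (fun i : {p // p ∈ ballEdges G c R} => i.1) hadj hr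
    (fun z => Ψ (xiExt z)) hcont
  -- the extension of bounded coordinates
  have hext : ∀ ν : V → V → ℝ, (∀ a b, |ν a b| ≤ 1) →
      Ψ (xiExt fun i : {p // p ∈ ballEdges G c R} => ν (i.1).1 (i.1).2) = Ψ ν := by
    intro ν hν
    refine hdep _ _ fun a b ha hb hab => ?_
    have hmem : (a, b) ∈ ballEdges G c R := by
      simp only [ballEdges, Finset.mem_filter, Finset.mem_product]
      exact ⟨⟨ha, hb⟩, hab⟩
    simp only [xiExt, hmem, dite_true]
    exact clp_of_abs_le (hν a b)
  have h1 : ∀ ω, Ψ (xiExt fun i : {p // p ∈ ballEdges G c R} => N r (i.1).1 (i.1).2 ω) =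
      Ψ (fun a b => N r a b ω) := fun ω => hext _ fun a b => hS.bdN r a b ω
  have h2 : ∀ (k : ℕ) lam, Ψ (xiExt fun i : {p // p ∈ ballEdges G c R} =>
      msg G θ (tball G c k) lam (i.1).1 (i.1).2) = Ψ (fun a b => msg G θ (tball G c k) lam a b) :=
    fun k lam => hext _ fun a b => abs_msg_le_one hθ _ _ a b
  simp only [h1, h2] at key
  exact key


/-! ### Subtree functionals of the messages of a ball -/

section local_msgs

variable {q : ℕ} (hT : G.IsTree) {θ : ℝ} (hθ : GoodTheta θ) {c : V} {k : ℕ}
include hT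

theorem dist_child {y x s : V} (hyx : G.Adj y x) (hd : G.dist c y = G.dist c x + 1)
    (hs : s ∈ childF G y x) : G.dist c s = G.dist c y + 1 := by
  have hys : G.Adj y s := (mem_childF.1 hs).2
  rcases dist_adj_cases hT hys c with h | h
  · have h2 := tparent_uniq2 (w := c) hT hys hyx (by omega) (by omega)
    exact absurd h2 (mem_childF.1 hs).1
  · omega

theorem tsub_child_subset {y x s : V} (hyx : G.Adj y x) (hs : s ∈ childF G y x) (n : ℕ) :
    tsub G s y n ⊆ tsub G y x (n + 1) := by
  rw [tsub_succ hT hyx]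
  intro w hw
  exact Finset.mem_union_right _ (Finset.mem_biUnion.2 ⟨s, hs, hw⟩)

include hθ

/-- `Ξ` of the messages of a ball only depends on the subtree, and is even under its flip. -/
theorem xi_msg_dep_even (K : ℕ) : ∀ {y x : V}, G.Adj y x → G.dist c y = G.dist c x + 1 →
    G.dist c y + K ≤ k →
    DepOn (tsub G y x (k - G.dist c y))
        (fun l => xiK G q θ (fun a b => msg G θ (tball G c k) l a b) K y x) ∧
      ∀ l, xiK G q θ (fun a b => msg G θ (tball G c k) (flipOn (tsub G y x (k - G.dist c y)) l) a b) K y x =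
        xiK G q θ (fun a b => msg G θ (tball G c k) l a b) K y x := by
  induction K with
  | zero => exact fun _ _ _ => ⟨fun _ _ _ => rfl, fun _ => rfl⟩
  | succ K ih =>
    intro y x hyx hd hk
    have hchild : ∀ s ∈ childF G y x, G.dist c s = G.dist c y + 1 ∧ G.Adj s y ∧
        k - G.dist c y = (k - G.dist c s) + 1 := by
      intro s hs
      have h1 := dist_child hT hyx hd hs
      exact ⟨h1, (mem_childF.1 hs).2.symm, by omega⟩
    constructor
    · intro l l' h
      simp only [xiK_succ]
      congr 2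
      refine Finset.sum_congr rfl fun s hs => ?_
      obtain ⟨h1, hsy, h3⟩ := hchild s hs
      have hA : ∀ i ∈ tsub G s y (k - G.dist c s), l i = l' i := by
        intro i hi
        apply h
        rw [h3]
        exact tsub_child_subset hT hyx hs _ hi
      have hm : msg G θ (tball G c k) l s y = msg G θ (tball G c k) l' s y := by
        rw [msg_tball_eq hT hsy h1 (by omega) l, msg_tball_eq hT hsy h1 (by omega) l']
        exact magn_congr hA s
      rw [hm]
      congr 1
      exact (ih hsy h1 (by omega)).1 l l' hA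
    · intro l
      simp only [xiK_succ]
      congr 2
      refine Finset.sum_congr rfl fun s hs => ?_
      obtain ⟨h1, hsy, h3⟩ := hchild s hs
      have hsub : tsub G s y (k - G.dist c s) ⊆ tsub G y x (k - G.dist c y) := by
        rw [h3]
        exact tsub_child_subset hT hyx hs _
      have heq : ∀ i ∈ tsub G s y (k - G.dist c s),
          flipOn (tsub G y x (k - G.dist c y)) l i = flipOn (tsub G s y (k - G.dist c s)) l i := by
        intro i hi
        simp only [flipOn, hi, hsub hi, if_true]
      have heq' : ∀ i ∈ tsub G s y (k - G.dist c s),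
          flipOn (tsub G y x (k - G.dist c y)) l i = - l i := by
        intro i hi
        simp only [flipOn, hsub hi, if_true]
      have hm : rhoF θ (msg G θ (tball G c k) (flipOn (tsub G y x (k - G.dist c y)) l) s y) =
          rhoF θ (msg G θ (tball G c k) l s y) := by
        rw [msg_tball_eq hT hsy h1 (by omega), msg_tball_eq hT hsy h1 (by omega),
          magn_congr heq' s, magn_neg hθ _ _ (mem_tsub_self hT hsy _), rhoF_even]
      rw [hm]
      congr 1
      exact ((ih hsy h1 (by omega)).1 _ _ heq).trans ((ih hsy h1 (by omega)).2 l)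

/-- The same for the term `φ(ϱ(ν_{s→y}) Ξ_{s→y})` of a child. -/
theorem term_msg_dep_even (φ : ℝ → ℝ) (K : ℕ) {s y : V} (hsy : G.Adj s y)
    (hd : G.dist c s = G.dist c y + 1) (hk : G.dist c s + K ≤ k) :
    DepOn (tsub G s y (k - G.dist c s))
        (fun l => φ (rhoF θ (msg G θ (tball G c k) l s y) *
          xiK G q θ (fun a b => msg G θ (tball G c k) l a b) K s y)) ∧
      ∀ l, φ (rhoF θ (msg G θ (tball G c k) (flipOn (tsub G s y (k - G.dist c s)) l) s y) *
          xiK G q θ (fun a b => msg G θ (tball G c k) (flipOn (tsub G s y (k - G.dist c s)) l) a b) K s y) =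
        φ (rhoF θ (msg G θ (tball G c k) l s y) *
          xiK G q θ (fun a b => msg G θ (tball G c k) l a b) K s y) := by
  have h := xi_msg_dep_even (q := q) hT hθ (c := c) (k := k) K hsy hd hk
  constructor
  · intro l l' hl
    have hm : msg G θ (tball G c k) l s y = msg G θ (tball G c k) l' s y := by
      rw [msg_tball_eq hT hsy hd (by omega) l, msg_tball_eq hT hsy hd (by omega) l']
      exact magn_congr hl s
    have hx : xiK G q θ (fun a b => msg G θ (tball G c k) l a b) K s y =
        xiK G q θ (fun a b => msg G θ (tball G c k) l' a b) K s y := h.1 l l' hl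
    simp only
    rw [hm, hx]
  · intro l
    have heq' : ∀ i ∈ tsub G s y (k - G.dist c s), flipOn (tsub G s y (k - G.dist c s)) l i = - l i := by
      intro i hi
      simp only [flipOn, hi, if_true]
    have hm : rhoF θ (msg G θ (tball G c k) (flipOn (tsub G s y (k - G.dist c s)) l) s y) =
        rhoF θ (msg G θ (tball G c k) l s y) := by
      rw [msg_tball_eq hT hsy hd (by omega), msg_tball_eq hT hsy hd (by omega),
        magn_congr heq' s, magn_neg hθ _ _ (mem_tsub_self hT hsy _), rhoF_even]
    rw [hm, h.2 l]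

end local_msgs

omit [G.LocallyFinite] in
theorem measurable_msg_tilt (θ : ℝ) (W : Finset V) (a b : V) :
    Measurable fun l : V → ℝ => msg G θ W l a b :=
  wl_measurable_magn θ _ a

section mgf
variable {q : ℕ} (hT : G.IsTree) (hreg : G.IsRegularOfDegree (q + 1)) (hq : 2 ≤ q)
include hT hreg hq

theorem abs_exp_term_le {θ : ℝ} (hθ : GoodTheta θ) {ν : V → V → ℝ} (hν : ∀ a b, |ν a b| ≤ 1)
    (c : ℝ) (K : ℕ) {s y : V} (hsy : G.Adj s y) :
    |Real.exp (c * (rhoF θ (ν s y) * xiK G q θ ν K s y))| ≤ Real.exp (|c| * (K + 1)) := by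
  rw [abs_of_pos (Real.exp_pos _)]
  apply Real.exp_le_exp.2
  have h1 := xiK_ge_one (q := q) hT hθ hν K s y
  have h2 := xiK_le hT hreg hq hθ hν K hsy
  have h3 := rhoF_nonneg hθ (hν s y)
  have h4 := rhoF_le_one hθ (hν s y)
  have h5 : |rhoF θ (ν s y) * xiK G q θ ν K s y| ≤ K + 1 := by
    rw [abs_of_nonneg (mul_nonneg h3 (by linarith))]
    nlinarith
  calc c * (rhoF θ (ν s y) * xiK G q θ ν K s y) ≤ |c * (rhoF θ (ν s y) * xiK G q θ ν K s y)| := le_abs_self _
    _ = |c| * |rhoF θ (ν s y) * xiK G q θ ν K s y| := abs_mul _ _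
    _ ≤ |c| * (K + 1) := mul_le_mul_of_nonneg_left h5 (abs_nonneg _)

/-- The identity at a finite level: independence of the children. -/
theorem plE_xi_level {θ r : ℝ} (hθ : GoodTheta θ) (hr0 : 0 ≤ r) (K n : ℕ) (hn : K ≤ n) {y x : V}
    (hyx : G.Adj y x) (lam : ℝ) :
    plE G θ (tball G y (n + 1)) r
        (fun l => Real.exp (lam * xiK G q θ (fun a b => msg G θ (tball G y (n + 1)) l a b) (K + 1) y x)) =
      Real.exp lam * ∏ s ∈ childF G y x, plE G θ (tball G y (n + 1)) r (fun l =>
        Real.exp (lam / q * (rhoF θ (msg G θ (tball G y (n + 1)) l s y) *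
          xiK G q θ (fun a b => msg G θ (tball G y (n + 1)) l a b) K s y))) := by
  classical
  have hq0 : (q : ℝ) ≠ 0 := by
    have : (0 : ℝ) < q := by exact_mod_cast (by omega : 0 < q)
    exact this.ne'
  set W := tball G y (n + 1) with hW
  set ν : (V → ℝ) → V → V → ℝ := fun l a b => msg G θ W l a b with hν
  have hνb : ∀ l a b, |ν l a b| ≤ 1 := fun l a b => abs_msg_le_one hθ _ _ a b
  have hνm : ∀ a b, Measurable fun l => ν l a b := fun a b => measurable_msg_tilt θ W a b
  let T : V → (V → ℝ) → ℝ := fun s l =>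
    Real.exp (lam / q * (rhoF θ (ν l s y) * xiK G q θ (ν l) K s y))
  let F : V → (V → ℝ) → ℝ := fun s => if s ∈ childF G y x then T s else fun _ => 0
  have hFT : ∀ s ∈ childF G y x, F s = T s := fun s hs => if_pos hs
  have hTm : ∀ s, Measurable (T s) := fun s =>
    Real.measurable_exp.comp
      (measurable_const.mul (((SolLawAux.measurable_rhoF θ).comp (hνm s y)).mul (measurable_xiK hνm K s y)))
  have hFm : ∀ s, Measurable (F s) := by
    intro s
    by_cases hs : s ∈ childF G y x
    · rw [hFT s hs]; exact hTm s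
    · simp only [F, hs, if_false]; exact measurable_const
  let C : ℝ := Real.exp (|lam / q| * (K + 1))
  have hC0 : 0 ≤ C := (Real.exp_pos _).le
  have hFb : ∀ s l, |F s l| ≤ C := by
    intro s l
    by_cases hs : s ∈ childF G y x
    · rw [hFT s hs]
      exact abs_exp_term_le hT hreg hq hθ (hνb l) _ K (mem_childF.1 hs).2.symm
    · simp only [F, hs, if_false, abs_zero]; exact hC0
  have hchild : ∀ s ∈ childF G y x, G.Adj s y ∧ G.dist y s = G.dist y y + 1 ∧
      (n + 1) - G.dist y s = n := by
    intro s hs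
    have hys := (mem_childF.1 hs).2
    have h1 := tdist_one hT hys
    have h0 : G.dist y y = 0 := SimpleGraph.dist_self
    exact ⟨hys.symm, by omega, by omega⟩
  have hdepE : ∀ s ∈ childF G y x, DepOn (tsub G s y n) (F s) ∧
      ∀ l, F s (flipOn (tsub G s y n) l) = F s l := by
    intro s hs
    obtain ⟨hsy, hd, hk⟩ := hchild s hs
    have h := term_msg_dep_even (q := q) hT hθ (c := y) (k := n + 1)
      (fun t => Real.exp (lam / q * t)) K hsy hd
      (by have h0 : G.dist y y = 0 := SimpleGraph.dist_self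
          omega)
    rw [hk] at h
    rw [hFT s hs]
    exact h
  -- the product
  let P : (V → ℝ) → ℝ := fun l => ∏ s ∈ childF G y x, F s l
  have hPm : Measurable P := Finset.measurable_prod _ fun s _ => hFm s
  have hPb : ∃ D, ∀ l, |P l| ≤ D := by
    refine ⟨∏ _s ∈ childF G y x, C, fun l => ?_⟩
    simp only [P]
    rw [Finset.abs_prod]
    exact Finset.prod_le_prod (fun _ _ => abs_nonneg _) fun s _ => hFb s l
  have hPdep : DepOn (tsub G y x (n + 1)) P := by
    intro l l' h
    refine Finset.prod_congr rfl fun s hs => ?_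
    exact (hdepE s hs).1 l l' fun i hi => h i (tsub_child_subset hT hyx hs n hi)
  have hsubW : tsub G y x (n + 1) ⊆ W := Finset.filter_subset _ _
  have hmarg0 : plE G θ W r P = plE G θ (tsub G y x (n + 1)) r P :=
    plE_marginal hθ hr0 hT (conv_tsub hT hyx _) (conv_tball hT y _) hsubW
      ⟨y, mem_tsub_self hT hyx _⟩ hPm hPb hPdep
  have hprod := plE_prod_children hT hreg hθ hr0 hyx n F hFm (fun s => ⟨C, hFb s⟩)
    (fun s hs => (hdepE s hs).1) (fun s hs => (hdepE s hs).2)
  have hmarg1 : ∀ s ∈ childF G y x, plE G θ W r (T s) = plE G θ (tsub G s y n) r (F s) := by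
    intro s hs
    rw [hFT s hs]
    obtain ⟨hsy, -, -⟩ := hchild s hs
    refine plE_marginal hθ hr0 hT (conv_tsub hT hsy _) (conv_tball hT y _)
      ((tsub_child_subset hT hyx hs n).trans hsubW) ⟨s, mem_tsub_self hT hsy _⟩ (hTm s) ?_ ?_
    · exact ⟨C, fun l => by have := hFb s l; rwa [hFT s hs] at this⟩
    · have := (hdepE s hs).1
      rwa [hFT s hs] at this
  -- pointwise identity
  have hpt : (fun l => Real.exp (lam * xiK G q θ (ν l) (K + 1) y x)) =
      fun l => Real.exp lam * P l := by
    funext l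
    simp only [xiK_succ, P]
    have : ∏ s ∈ childF G y x, F s l = ∏ s ∈ childF G y x, T s l :=
      Finset.prod_congr rfl fun s hs => by rw [hFT s hs]
    rw [this, ← Real.exp_sum, ← Real.exp_add]
    congr 1
    rw [← Finset.mul_sum]
    field_simp
  calc plE G θ W r (fun l => Real.exp (lam * xiK G q θ (ν l) (K + 1) y x))
      = plE G θ W r (fun l => Real.exp lam * P l) := by rw [hpt]
    _ = Real.exp lam * plE G θ W r P := plE_mul_const hθ hr0 _ _
    _ = Real.exp lam * ∏ s ∈ childF G y x, plE G θ (tsub G s y n) r (F s) := by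
        rw [hmarg0, hprod]
    _ = Real.exp lam * ∏ s ∈ childF G y x, plE G θ W r (T s) := by
        congr 1
        exact Finset.prod_congr rfl fun s hs => (hmarg1 s hs).symm

/-- The mean of `Ξ`. -/
theorem sol_xi_mean_le : ∃ c₃ : ℝ, 0 < c₃ ∧ ∀ {θ r : ℝ} {M : ℝ → V → (V → unitInterval) → ℝ}
    {N : ℝ → V → V → (V → unitInterval) → ℝ}, CritPar q θ → IsSol G θ M N → (∃ n, Dy n r) → 0 < r →
    ∀ (K : ℕ) {y x : V}, G.Adj y x →
      ∫ ω, xiS G q θ N r K y x ω ∂labelMeasure V ≤ 1 / (c₃ * xBar θ r q) := by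
  obtain ⟨c₂, c', hc₂, hc₂1, hc', hchain⟩ := sol_chain (q := q) (G := G) hT hreg hq
  have hec : Real.exp (-c') < 1 := by
    rw [Real.exp_lt_one_iff]; linarith
  refine ⟨c₂ * (1 - Real.exp (-c')), mul_pos hc₂ (by linarith), ?_⟩
  intro θ r M N hθ hS hr hr0 K y x hyx
  have hθg := hθ.good
  have hq0 : (q : ℝ) ≠ 0 := by
    have : (0 : ℝ) < q := by exact_mod_cast (by omega : 0 < q)
    exact this.ne'
  have hxb_pos : 0 < xBar θ r q := by
    have h1 := tauL_le_xBar (q := q) hθg hr0.le
    by_cases hr2 : r ≤ 1 / 2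
    · have h2 := tauL_ge hr0.le hr2
      linarith
    · have h2 := tauL_mono (t := 1 / 2) (by norm_num) (by linarith : (1 : ℝ) / 2 ≤ r)
      have h3 := tauL_ge (t := 1 / 2) (by norm_num) le_rfl
      linarith
  have hxb_le : xBar θ r q ≤ 1 := xBar_le_one hθg hr0.le
  set xb := xBar θ r q with hxb
  set β := 1 - c₂ * (1 - Real.exp (-(c' * xb))) with hβ
  have hel : Real.exp (-(c' * xb)) < 1 := by
    rw [Real.exp_lt_one_iff]; nlinarith [mul_pos hc' hxb_pos]
  have hep := Real.exp_pos (-(c' * xb))
  have hβ0 : 0 ≤ β := by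
    have : c₂ * (1 - Real.exp (-(c' * xb))) ≤ 1 * 1 :=
      mul_le_mul hc₂1 (by linarith) (by linarith) (by norm_num)
    rw [hβ]; linarith
  have hβ1 : 0 < 1 - β := by
    have : 0 < c₂ * (1 - Real.exp (-(c' * xb))) := mul_pos hc₂ (by linarith)
    rw [hβ]; linarith
  -- the expansion
  have hexp : ∀ ω, xiS G q θ N r K y x ω = ∑ u ∈ tsub G y x K, (1 / (q : ℝ)) ^ G.dist y u *
      ∏ j ∈ Finset.range (G.dist y u), rhoF θ (N r (pathV G y u (j + 1)) (pathV G y u j) ω) :=
    fun ω => xiK_expand hT hreg _ K hyx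
  have hbd : ∀ u ω, |∏ j ∈ Finset.range (G.dist y u),
      rhoF θ (N r (pathV G y u (j + 1)) (pathV G y u j) ω)| ≤ 1 := by
    intro u ω
    rw [Finset.abs_prod]
    refine Finset.prod_le_one (fun _ _ => abs_nonneg _) fun j _ => ?_
    have h1 := hS.bdN r (pathV G y u (j + 1)) (pathV G y u j) ω
    rw [abs_of_nonneg (rhoF_nonneg hθg h1)]
    exact rhoF_le_one hθg h1
  have hmeas : ∀ u, Measurable fun ω => ∏ j ∈ Finset.range (G.dist y u),
      rhoF θ (N r (pathV G y u (j + 1)) (pathV G y u j) ω) := by
    intro u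
    refine Finset.measurable_prod _ fun j _ => ?_
    exact (SolLawAux.measurable_rhoF θ).comp (hS.measN _ _ _)
  have hint : ∀ u, Integrable (fun ω => ∏ j ∈ Finset.range (G.dist y u),
      rhoF θ (N r (pathV G y u (j + 1)) (pathV G y u j) ω)) (labelMeasure V) := fun u =>
    Integrable.of_bound (hmeas u).aestronglyMeasurable 1 (Filter.Eventually.of_forall fun ω => by
      rw [Real.norm_eq_abs]; exact hbd u ω)
  have hchain' : ∀ u, ∫ ω, ∏ j ∈ Finset.range (G.dist y u),
      rhoF θ (N r (pathV G y u (j + 1)) (pathV G y u j) ω) ∂labelMeasure V ≤ β ^ G.dist y u := by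
    intro u
    have h := hchain hθ hS hr hr0 1 (pathV G y u) (G.dist y u) (isGeo_pathV hT y u)
    simpa only [pow_one, Nat.cast_one, one_mul] using h
  have hstep1 : ∫ ω, xiS G q θ N r K y x ω ∂labelMeasure V ≤
      ∑ u ∈ tsub G y x K, (1 / (q : ℝ)) ^ G.dist y u * β ^ G.dist y u := by
    simp_rw [hexp]
    rw [integral_finsetSum _ fun u _ => (hint u).const_mul _]
    refine Finset.sum_le_sum fun u _ => ?_
    rw [integral_const_mul]
    exact mul_le_mul_of_nonneg_left (hchain' u) (by positivity)
  have hstep2 : ∑ u ∈ tsub G y x K, (1 / (q : ℝ)) ^ G.dist y u * β ^ G.dist y u =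
      ∑ d ∈ Finset.range (K + 1), β ^ d := by
    have hmaps : ∀ u ∈ tsub G y x K, G.dist y u ∈ Finset.range (K + 1) := by
      intro u hu
      have := ((mem_tsub hT).1 hu).1
      exact Finset.mem_range.2 (by omega)
    rw [← Finset.sum_fiberwise_of_maps_to hmaps]
    refine Finset.sum_congr rfl fun d hd => ?_
    have hd' := Finset.mem_range.1 hd
    have hfil : (tsub G y x K).filter (fun u => G.dist y u = d) =
        (tsub G y x d).filter (fun u => G.dist y u = d) := by
      ext w
      simp only [Finset.mem_filter, mem_tsub hT]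
      constructor
      · rintro ⟨⟨h1, h2⟩, h3⟩
        exact ⟨⟨by omega, h2⟩, h3⟩
      · rintro ⟨⟨h1, h2⟩, h3⟩
        exact ⟨⟨by omega, h2⟩, h3⟩
    rw [hfil]
    have hcong : ∑ u ∈ (tsub G y x d).filter (fun u => G.dist y u = d),
        (1 / (q : ℝ)) ^ G.dist y u * β ^ G.dist y u =
        ∑ _u ∈ (tsub G y x d).filter (fun u => G.dist y u = d), (1 / (q : ℝ)) ^ d * β ^ d := by
      refine Finset.sum_congr rfl fun u hu => ?_
      rw [(Finset.mem_filter.1 hu).2]
    rw [hcong, Finset.sum_const, card_sphere_side hT hreg hyx d, nsmul_eq_mul]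
    push_cast
    rw [← mul_assoc, ← mul_pow, mul_one_div_cancel hq0, one_pow, one_mul]
  have hstep3 : ∑ d ∈ Finset.range (K + 1), β ^ d ≤ 1 / (1 - β) := by
    rw [le_div_iff₀ hβ1, mul_comm, mul_neg_geom_sum]
    have := pow_nonneg hβ0 (K + 1)
    linarith
  have hstep4 : (c₂ * (1 - Real.exp (-c'))) * xb ≤ 1 - β := by
    have hcv := convexOn_exp.2 (Set.mem_univ (-c')) (Set.mem_univ (0 : ℝ)) hxb_pos.le
      (by linarith : 0 ≤ 1 - xb) (by ring)
    simp only [smul_eq_mul, mul_zero, add_zero, Real.exp_zero, mul_one] at hcv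
    have e1 : xb * -c' = -(c' * xb) := by ring
    rw [e1] at hcv
    have : (1 - Real.exp (-c')) * xb ≤ 1 - Real.exp (-(c' * xb)) := by nlinarith
    have e2 : 1 - β = c₂ * (1 - Real.exp (-(c' * xb))) := by rw [hβ]; ring
    rw [e2, mul_assoc]
    exact mul_le_mul_of_nonneg_left this hc₂.le
  have hpos : 0 < (c₂ * (1 - Real.exp (-c'))) * xb :=
    mul_pos (mul_pos hc₂ (by linarith)) hxb_pos
  calc ∫ ω, xiS G q θ N r K y x ω ∂labelMeasure V
      ≤ ∑ d ∈ Finset.range (K + 1), β ^ d := by rw [← hstep2]; exact hstep1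
    _ ≤ 1 / (1 - β) := hstep3
    _ ≤ 1 / ((c₂ * (1 - Real.exp (-c'))) * xb) := one_div_le_one_div_of_le hpos hstep4

/-- Independence of the children in the recursion of `Ξ`. -/
theorem sol_xi_mgf {θ r : ℝ} {M : ℝ → V → (V → unitInterval) → ℝ}
    {N : ℝ → V → V → (V → unitInterval) → ℝ} (hθ : CritPar q θ) (hS : IsSol G θ M N)
    (hr : ∃ n, Dy n r) (K : ℕ) {y x : V} (hyx : G.Adj y x) (lam : ℝ) :
    ∫ ω, Real.exp (lam * xiS G q θ N r (K + 1) y x ω) ∂labelMeasure V =
      Real.exp lam * ∏ s ∈ childF G y x,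
        ∫ ω, Real.exp (lam / q * (rhoF θ (N r s y ω) * xiS G q θ N r K s y ω)) ∂labelMeasure V := by
  have hθg := hθ.good
  have hr0 : 0 ≤ r := by
    obtain ⟨n, k, hk⟩ := hr
    rw [hk]
    exact mul_nonneg (Nat.cast_nonneg _) (hh_pos n).le
  let Ψ₀ : (V → V → ℝ) → ℝ := fun ν => Real.exp (lam * xiK G q θ ν (K + 1) y x)
  let Ψ : V → (V → V → ℝ) → ℝ := fun s ν =>
    Real.exp (lam / q * (rhoF θ (ν s y) * xiK G q θ ν K s y))
  have h₀ := sol_law_fun hT hreg hq hθg hS y hr (K + 1) Ψ₀
    (by
      intro ν ν' h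
      simp only [Ψ₀]
      rw [xiK_congr_ball hT h (K + 1) (by simp [SimpleGraph.dist_self])])
    (Real.continuous_exp.comp (continuous_const.mul (continuous_xiK_ext hθg (K + 1) y x)))
  have h₁ : ∀ s ∈ childF G y x, Tendsto (fun k : ℕ => plE G θ (tball G y k) r
      (fun l => Ψ s (fun a b => msg G θ (tball G y k) l a b))) atTop
      (𝓝 (∫ ω, Ψ s (fun a b => N r a b ω) ∂labelMeasure V)) := by
    intro s hs
    have hys := (mem_childF.1 hs).2
    have hds := tdist_one hT hys
    refine sol_law_fun hT hreg hq hθg hS y hr (K + 1) (Ψ s) ?_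
      (Real.continuous_exp.comp (continuous_const.mul
        ((continuous_rhoF_xiExt hθg s y).mul (continuous_xiK_ext hθg K s y))))
    intro ν ν' h
    simp only [Ψ]
    rw [xiK_congr_ball hT h K (by omega),
      h s y ((mem_tball hT).2 (by omega)) ((mem_tball hT).2 (by simp [SimpleGraph.dist_self])) hys.symm]
  have h₂ := (tendsto_finsetProd _ h₁).const_mul (Real.exp lam)
  have hev : (fun k : ℕ => plE G θ (tball G y k) r
      (fun l => Ψ₀ (fun a b => msg G θ (tball G y k) l a b))) =ᶠ[atTop]
      fun k : ℕ => Real.exp lam * ∏ s ∈ childF G y x, plE G θ (tball G y k) r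
      (fun l => Ψ s (fun a b => msg G θ (tball G y k) l a b)) := by
    filter_upwards [eventually_ge_atTop (K + 1)] with k hk
    obtain ⟨n, rfl⟩ : ∃ n, k = n + 1 := ⟨k - 1, by omega⟩
    exact plE_xi_level hT hreg hq hθg hr0 K n (by omega) hyx lam
  exact tendsto_nhds_unique (h₀.congr' hev) h₂

end mgf

end Crest.Agent.IsingFactor
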