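import Crest.Agent.IsingFactor.OneStep
import Crest.Agent.SRFactor.NoiseLaw
import Crest.Agent.SRFactor.LabelBasics
import Crest.Agent.SRFactor.Mesh
import Crest.Agent.SRFactor.Bayes
import Crest.Prelude.Def_Labels

/-!
# IsingFactor.StrictDefs: the interface of solutions; noise from labels (WP IF-StrictMesh owns `isDyadicNoise_xiL`).

# IsingFactor.Strict : FIID solutions for `θ² q < 1` (WP: Strict1, Strict2, Strict3).

For `θ² q < 1` the Euler schemes on windows converge in `L²` as the window grows and the mesh tends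
to `0`, to limit fields `M r v` (magnetisations) and `N r y x` (messages) at dyadic times `r`,
equivariant under `Aut G`.  The interface for all later parts is `IsSol`, `exists_sol`, `sol_law`,
`pair_ineq`.

PROOF OF THE WINDOW COMPARISON (`window_compare_L2`).  Fix `v`, windows `W₁, W₂ ⊇ B(c,R)`, same `θ`,
same mesh `h`.  `a_w(k) = E (m¹_w(k) - m²_w(k))²`, `w ∈ W₁ ∩ W₂` (a convex set).  By `pair_step`,
`a_w(k+1) ≤ a_w(k) + (π²/32) h ∑_u E (C¹(w,u) - C²(w,u))² + 64 (|W₁|² + |W₂|²) h²`.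
For `u ∈ W₁ ∩ W₂`, `covS_eq_covPath`, `Gf_sub_le`, `msg_lip` and `magn_eq_mrg_msg` give
`(C¹ - C²)² ≤ c (d+1) θ^{2d} ∑_{x ∈ path(w,u)} Δm_x²`, `d = dist w u`: each factor of the product is
`≤ θ`, `|ΔG| ≤ c |Δν| ≤ c (|Δm_{x_j}| + |Δm_{x_{j+1}}|)`.  For `u` in exactly one window the term is
`≤ θ^{2d}`.  So `a_w(k+1) ≤ a_w(k) + h ∑_x K(w,x) a_x(k+1) + h τ_w + err` with
`K(w,x) = c (d(w,x)+1) θ^{2 d(w,x)} / (1 - q θ²)²`, `τ_w = c ∑_{u ∉ W₁ ∩ W₂} θ^{2 d(w,u)}`.
Exponential weight: `μ > 0` with `q θ² e^μ < 1`,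
`b_k = max_{x ∈ W₁ ∩ W₂} a_x(k) e^{-μ d(c,x)}`: `∑_x K(w,x) e^{μ d(c,x)} ≤ κ e^{μ d(c,w)}`, `κ < ∞`, so
`b_{k+1} ≤ b_k + h κ b_{k+1} + h τ + err`, where `τ = max_w e^{-μ d(c,w)} τ_w → 0` as `R → ∞`.  Hence
`a_c(k) ≤ b_k ≤ e^{2 κ T} (T τ + T (|W₁|² + |W₂|²) h 64 )`.  Take `R` then `h`.

MESH: for a fixed window, `post` is `|W|`-Lipschitz in sup norm: adapt `SRFactor.Mesh` (there the
horizon is an integer; copy `pos_consecutive` for an arbitrary dyadic horizon).

LAW: `SRFactor.TV.tv_path` (Euler path on `W` versus the true path under the Ising law of `W`).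
Statements may be ADDED; do not change the ones below without posting on chat (topic S0241), other packages use them.
-/

set_option autoImplicit false

open MeasureTheory ProbabilityTheory Filter Topology
open Crest.Agent.SRFactor Crest.ProbabilityR.Labels

namespace Crest.Agent.IsingFactor

variable {V : Type*} [DecidableEq V] {G : SimpleGraph V}

/-- The per-site noise of a uniform label. -/
noncomputable def labelN : unitInterval → ℕ → ℕ → ℝ := Classical.choose exists_label_map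

/-- The noise field of a label configuration. -/
noncomputable def xiL (ω : V → unitInterval) : Noise V := fun e => labelN (ω e)

theorem xiL_comp (g : V → V) (ω : V → unitInterval) (e : V) : xiL (ω ∘ g) e = xiL ω (g e) := rfl

theorem isDyadicNoise_xiL [Countable V] :
    IsDyadicNoise (labelMeasure V) (xiL (V := V)) Set.univ := by
  obtain ⟨hf, hlaw⟩ := Classical.choose_spec exists_label_map
  change Measurable labelN at hf
  change (volume : Measure unitInterval).map labelN = stdDyadic at hlaw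
  refine isDyadicNoise_of_law (fun e => hf.comp (measurable_pi_apply e)) fun B _ => ?_
  haveI : IsProbabilityMeasure ((volume : Measure unitInterval).map labelN) := by
    rw [hlaw]; infer_instance
  have := labelMeasure_map_finite (V := V) labelN hf B
  rw [hlaw] at this
  exact this

/-- A solution for the parameter `θ`: limit fields at the dyadic times. -/
structure IsSol (G : SimpleGraph V) [G.LocallyFinite] (θ : ℝ) (M : ℝ → V → (V → unitInterval) → ℝ)
    (N : ℝ → V → V → (V → unitInterval) → ℝ) : Prop where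
  measM : ∀ r v, Measurable (M r v)
  measN : ∀ r y x, Measurable (N r y x)
  bdM : ∀ r v ω, |M r v ω| ≤ 1
  bdN : ∀ r y x ω, |N r y x ω| ≤ 1
  wcM : ∀ T ε : ℝ, 0 < ε → ∃ R : ℕ, ∀ (W : Finset V) (v : V), Conv G W → tball G v R ⊆ W →
    ∃ n₀, ∀ n ≥ n₀, ∀ r, Dy n r → r ≤ T →
      ∫ ω, (magT G θ W n r (xiL ω) v - M r v ω) ^ 2 ∂labelMeasure V ≤ ε
  wcN : ∀ T ε : ℝ, 0 < ε → ∃ R : ℕ, ∀ (W : Finset V) (y x : V), Conv G W → G.Adj y x →
    tball G y R ⊆ W → ∃ n₀, ∀ n ≥ n₀, ∀ r, Dy n r → r ≤ T →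
      ∫ ω, (msgT G θ W n r (xiL ω) y x - N r y x ω) ^ 2 ∂labelMeasure V ≤ ε
  alg : ∀ r y x, (∃ n, Dy n r) → G.Adj y x → ∀ᵐ ω ∂labelMeasure V,
    M r y ω = mrg (N r y x ω) (θ * N r x y ω)
  equivM : ∀ (g : G ≃g G) r v, ∀ᵐ ω ∂labelMeasure V, M r (g v) ω = M r v (ω ∘ g)
  equivN : ∀ (g : G ≃g G) r y x, ∀ᵐ ω ∂labelMeasure V, N r (g y) (g x) ω = N r y x (ω ∘ g)

end Crest.Agent.IsingFactor
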