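import Crest.Agent.IsingFactor.StrictSol
import Crest.Agent.SRFactor.Core

/-!
# IsingFactor.StrictLaw (WP IF-StrictLaw): the law of the limit fields.

`euler_law_close`: `SRFactor.TV.tv_path` and `law_truePath` (`tvB → 0`), `Kh ≤ T`.  `sol_law`: for `k` large and then `n` large, `wcN` on the window `tball c k`, continuity of `F`
on the compact cube (uniform continuity + Chebyshev), `euler_law_close` with `F` applied to `msg`.
Statements may be ADDED; do not change the ones below without posting on chat (topic S0241), other packages use them.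
-/

set_option autoImplicit false

open MeasureTheory ProbabilityTheory Filter Topology
open Crest.Agent.SRFactor Crest.ProbabilityR.Labels

namespace Crest.Agent.IsingFactor

variable {V : Type*} [DecidableEq V] {G : SimpleGraph V}

namespace StrictLawAux

lemma tvB_mono {h : ℝ} (h0 : 0 ≤ h) {K K' b b' : ℕ} (hK : K ≤ K') (hb : b ≤ b') :
    tvB h K b ≤ tvB h K' b' := by
  unfold tvB
  apply Real.sqrt_le_sqrt
  have hb' : (b : ℝ) ≤ b' := by exact_mod_cast hb
  have hK' : (K : ℝ) ≤ K' := by exact_mod_cast hK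
  have h1 : h * b ≤ h * b' := mul_le_mul_of_nonneg_left hb' h0
  have h2 : 0 ≤ h * b := by positivity
  have h3 : (h * b) ^ 2 ≤ (h * b') ^ 2 := pow_le_pow_left₀ h2 h1 2
  have h4 : Real.exp (h * b) ≤ Real.exp (h * b') := Real.exp_le_exp.2 h1
  have h5 : (h * b) ^ 2 * Real.exp (h * b) / 2 ≤ (h * b') ^ 2 * Real.exp (h * b') / 2 := by
    have := mul_le_mul h3 h4 (Real.exp_nonneg _) (by positivity)
    linarith
  have h6 : (K : ℝ) * ((h * b) ^ 2 * Real.exp (h * b) / 2)
      ≤ K' * ((h * b') ^ 2 * Real.exp (h * b') / 2) :=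
    mul_le_mul hK' h5 (by positivity) (by positivity)
  linarith [Real.exp_le_exp.2 h6]

lemma stepOf_mul (K n : ℕ) : stepOf ((K : ℝ) * hh n) n = K := by
  unfold stepOf
  rw [mul_div_assoc, div_self (hh_pos n).ne', mul_one, Nat.floor_natCast]

lemma dy_mono {n n' : ℕ} {r : ℝ} (h : n ≤ n') (hr : Dy n r) : Dy n' r := by
  obtain ⟨K, rfl⟩ := hr
  refine ⟨K * 2 ^ (n' - n), ?_⟩
  obtain ⟨m, rfl⟩ := Nat.exists_eq_add_of_le h
  simp only [Nat.add_sub_cancel_left, hh]
  push_cast
  rw [pow_add]
  have : ((1 / 2 : ℝ)) ^ m * 2 ^ m = 1 := by rw [← mul_pow]; norm_num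
  calc (K : ℝ) * (1 / 2) ^ n = K * (1 / 2) ^ n * ((1 / 2 : ℝ) ^ m * 2 ^ m) := by rw [this, mul_one]
    _ = _ := by ring

/-- Measurability of the tilt along the label noise. -/
lemma measurable_lamI [Countable V] (θ : ℝ) (W : Finset V) (n k : ℕ) :
    Measurable (fun ω : V → unitInterval => lamI G θ W n (xiL ω) k) := by
  have hξ := isDyadicNoise_xiL (V := V)
  refine measurable_pi_lambda _ fun g => ?_
  have : (fun ω : V → unitInterval => lamI G θ W n (xiL ω) k g) =
      (fun y : Fin k → W → ℝ => euler (isingW G θ W) W (hh n) (extY W k y) k g - k * hh n / 2) ∘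
        (fun ω => noiseOn W n k (xiL ω)) := by
    funext ω
    simp only [lamI, eulerI, Function.comp]
    rw [euler_levelNoise (isingW G θ W) (subset_refl W) (hh n) (le_refl k) (xiL ω) g]
  rw [this]
  exact (((measurable_euler (isingW G θ W) W (hh n) k g).comp (measurable_extY W k)).sub_const _).comp
    (measurable_noiseOn hξ W n k)

/-- Measurability of the magnetisation in the tilt. -/
lemma measurable_magn (θ : ℝ) (W : Finset V) (v : V) :
    Measurable (fun lam : V → ℝ => magn G θ W lam v) := by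
  unfold magn gAvg Zf
  refine Measurable.div ?_ ?_
  · refine Finset.measurable_sum _ fun S _ => ?_
    refine Measurable.mul_const (Measurable.const_mul ?_ _) _
    exact Real.measurable_exp.comp (Finset.measurable_sum _ fun i _ => measurable_pi_apply i)
  · refine Finset.measurable_sum _ fun S _ => ?_
    refine Measurable.const_mul ?_ _
    exact Real.measurable_exp.comp (Finset.measurable_sum _ fun i _ => measurable_pi_apply i)

lemma measurable_msg (θ : ℝ) (W : Finset V) (y x : V) :
    Measurable (fun lam : V → ℝ => msg G θ W lam y x) :=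
  measurable_magn θ _ y

/-- The Gaussian integral of the true position at the last step. -/
lemma true_integral (W : Finset V) {h : ℝ} (h0 : 0 ≤ h) (K : ℕ) (S : Finset V)
    (F : (V → ℝ) → ℝ) (hF : Measurable F) :
    ∫ y, F (fun e => truePath W h S (extY W K y) K e - K * h / 2) ∂gaussMat W K
      = ∫ g, F (fun i => Zt W (K * h) S g i - K * h / 2) ∂gaussVec W := by
  classical
  set Ψ : (W → ℝ) → ℝ := fun v =>
    F (fun e => (if he : e ∈ W then (K * h) * ind S e + v ⟨e, he⟩ else 0) - K * h / 2) with hΨdef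
  have hΨ : Measurable Ψ := by
    refine hF.comp (measurable_pi_lambda _ fun e => ?_)
    by_cases he : e ∈ W
    · simp only [he, dite_true]
      exact (measurable_const.add (measurable_pi_apply _)).sub_const _
    · simp only [he, dite_false]
      exact measurable_const
  have hT : Measurable (fun (y : Fin K → W → ℝ) (i : W) => Real.sqrt h * ∑ l, y l i) := by
    refine measurable_pi_lambda _ (fun i => measurable_const.mul ?_)
    exact Finset.measurable_sum _ (fun l _ => (measurable_pi_apply i).comp (measurable_pi_apply l))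
  have hG : Measurable (fun (G : W → ℝ) (i : W) => Real.sqrt (K * h) * G i) :=
    measurable_pi_lambda _ fun i => measurable_const.mul (measurable_pi_apply i)
  have h1 : ∀ y : Fin K → W → ℝ,
      F (fun e => truePath W h S (extY W K y) K e - K * h / 2)
        = Ψ (fun i => Real.sqrt h * ∑ l, y l i) := by
    intro y
    simp only [hΨdef]
    congr 1
    funext e
    by_cases he : e ∈ W
    · simp only [truePath, he, if_true, dite_true]
      rw [Finset.sum_range]
      congr 3
      refine Finset.sum_congr rfl fun l _ => ?_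
      exact TVAux.extY_lt W K y l.2 he
    · simp [truePath, he]
  have h2 : ∀ g : W → ℝ, F (fun i => Zt W (K * h) S g i - K * h / 2)
      = Ψ (fun i => Real.sqrt (K * h) * g i) := by
    intro g
    simp only [hΨdef]
    congr 1
  simp only [h1, h2]
  have h3 := integral_map (μ := gaussMat W K) hT.aemeasurable hΨ.aestronglyMeasurable
  have h4 := integral_map (μ := gaussVec W) hG.aemeasurable hΨ.aestronglyMeasurable
  rw [← h3, ← h4, gaussMat_map_total_sum K h0]

end StrictLawAux

open StrictLawAux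

section main
variable [G.LocallyFinite] {q : ℕ} (hT : G.IsTree) (hreg : G.IsRegularOfDegree (q + 1)) (hq : 2 ≤ q)
include hT hreg hq

/-- WP Strict3: the Euler law is close to the planted law (`tv_path`). -/
theorem euler_law_close {θ : ℝ} (hθ : GoodTheta θ) (b : ℕ) (T ε : ℝ) (hε : 0 < ε) :
    ∃ n₀ : ℕ, ∀ (W : Finset V), W.card ≤ b → ∀ n ≥ n₀, ∀ r, Dy n r → r ≤ T → ∀ F : (V → ℝ) → ℝ, Measurable F → (∀ x, |F x| ≤ 1) →
      |∫ ω, F (lamI G θ W n (xiL (V := V) ω) (stepOf r n)) ∂labelMeasure V - plE G θ W r F| ≤ ε := by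
  have : Countable V := countable_of_isTree hT
  have hξ := isDyadicNoise_xiL (V := V)
  set T' := ⌈T⌉₊ with hT'
  obtain ⟨n₀, hn₀⟩ := eventually_atTop.1 ((tendsto_tvB b T').eventually (gt_mem_nhds hε))
  refine ⟨n₀, fun W hW n hn r hDy hrT F hFm hF => ?_⟩
  obtain ⟨K, rfl⟩ := hDy
  rw [stepOf_mul]
  set ν := isingW G θ W with hν
  set h := hh n with hh'
  have h0 : 0 < h := hh_pos n
  -- the path functional
  set Φ : (Fin (K + 1) → V → ℝ) → ℝ := fun z => F (fun e => z (Fin.last K) e - K * h / 2) with hΦ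
  have hΦm : Measurable Φ := by
    refine hFm.comp (measurable_pi_lambda _ fun e => ?_)
    exact ((measurable_pi_apply e).comp (measurable_pi_apply _)).sub_const _
  have key := tv_path ν W h0 K Φ hΦm (fun z => hF _)
  -- Euler side
  have e1 : ∫ ω, F (lamI G θ W n (xiL (V := V) ω) K) ∂labelMeasure V
      = ∫ y, Φ (fun k e => euler ν W h (extY W K y) k e) ∂gaussMat W K := by
    have hf : Measurable (fun y : Fin K → W → ℝ => Φ (fun k e => euler ν W h (extY W K y) k e)) := by
      refine hFm.comp (measurable_pi_lambda _ fun e => ?_)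
      exact ((measurable_euler ν W h K e).comp (measurable_extY W K)).sub_const _
    rw [← integral_noiseOn hξ (Set.subset_univ _) n K _ hf]
    refine integral_congr_ae (Eventually.of_forall fun ω => ?_)
    show F _ = F _
    congr 1
    funext g
    simp only [lamI, eulerI]
    rw [euler_levelNoise ν (subset_refl W) h (le_refl K) (xiL ω) g]
    rfl
  -- true side
  have e2 : ∀ S, ∫ y, Φ (fun k e => truePath W h S (extY W K y) k e) ∂gaussMat W K
      = ∫ g, F (fun i => Zt W (K * h) S g i - (K * h) / 2) ∂gaussVec W := fun S =>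
    true_integral W h0.le K S F hFm
  have e3 : plE G θ W ((K : ℝ) * h) F = ∑ S ∈ W.powerset, ν.mass W S *
      ∫ y, Φ (fun k e => truePath W h S (extY W K y) k e) ∂gaussMat W K := by
    unfold plE
    exact Finset.sum_congr rfl fun S _ => by rw [e2 S]
  rw [e1, e3]
  refine key.trans ?_
  -- the bound
  have hKle : K ≤ T' * 2 ^ n := by
    have h1 : (K : ℝ) * h ≤ T' := hrT.trans (Nat.le_ceil T)
    have h2 : h * 2 ^ n = 1 := by
      simp only [hh', hh]
      rw [← mul_pow]; norm_num
    have h3 : (K : ℝ) ≤ T' * 2 ^ n := by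
      calc (K : ℝ) = (K * h) * 2 ^ n := by rw [mul_assoc, h2, mul_one]
        _ ≤ T' * 2 ^ n := mul_le_mul_of_nonneg_right h1 (by positivity)
    exact_mod_cast h3
  exact (tvB_mono h0.le hKle hW).trans (le_of_lt (hn₀ n hn))

omit [G.LocallyFinite] hT hreg hq in
lemma plE_div (θ : ℝ) (W : Finset V) (r C : ℝ) (F : (V → ℝ) → ℝ) :
    plE G θ W r (fun lam => F lam / C) = plE G θ W r F / C := by
  unfold plE
  rw [Finset.sum_div]
  refine Finset.sum_congr rfl fun S _ => ?_
  rw [integral_div, mul_div_assoc]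

/-- WP Strict3: the law of the limit fields is the limit of the planted laws in balls around any
centre.  `F` continuous; only its values on the cube `[-1,1]^ι` matter. -/
theorem sol_law {θ : ℝ} (hθ : GoodTheta θ) {M : ℝ → V → (V → unitInterval) → ℝ}
    {N : ℝ → V → V → (V → unitInterval) → ℝ} (hS : IsSol G θ M N) (c : V) {ι : Type*} [Fintype ι]
    (e : ι → V × V) (he : ∀ i, G.Adj (e i).1 (e i).2) {r : ℝ} (hr : ∃ n, Dy n r) (F : (ι → ℝ) → ℝ)
    (hF : Continuous F) :
    Tendsto (fun k : ℕ => plE G θ (tball G c k) r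
        (fun lam => F (fun i => msg G θ (tball G c k) lam (e i).1 (e i).2))) atTop
      (𝓝 (∫ ω, F (fun i => N r (e i).1 (e i).2 ω) ∂labelMeasure V)) := by
  classical
  have : Countable V := countable_of_isTree hT
  obtain ⟨n₁, hn₁⟩ := hr
  -- the cube
  set Q : Set (ι → ℝ) := Set.pi Set.univ (fun _ => Set.Icc (-1) 1) with hQdef
  have hQ : IsCompact Q := isCompact_univ_pi fun _ => isCompact_Icc
  obtain ⟨C₀, hC₀⟩ := hQ.exists_bound_of_continuousOn hF.continuousOn
  set C : ℝ := max C₀ 1 with hCdef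
  have hC1 : 1 ≤ C := le_max_right _ _
  have hC0 : 0 < C := by linarith
  have hFC : ∀ x ∈ Q, |F x| ≤ C := fun x hx => (hC₀ x hx).trans (le_max_left _ _)
  have hU := hQ.uniformContinuousOn_of_continuous hF.continuousOn
  have hmemQ : ∀ x : ι → ℝ, (∀ i, |x i| ≤ 1) → x ∈ Q := fun x hx i _ => abs_le.1 (hx i)
  rw [Metric.tendsto_atTop]
  intro ε hε
  obtain ⟨δ, hδ, hUδ⟩ := Metric.uniformContinuousOn_iff.1 hU (ε / 4) (by positivity)
  set d : ℝ := (Fintype.card ι : ℝ) with hd
  have hd0 : 0 ≤ d := Nat.cast_nonneg _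
  set ε' : ℝ := ε * δ ^ 2 / (8 * C * (d + 1)) with hε'def
  have hε' : 0 < ε' := by positivity
  obtain ⟨R, hR⟩ := hS.wcN r ε' hε'
  set k₀ : ℕ := R + Finset.univ.sup (fun i => G.dist c (e i).1) with hk₀
  refine ⟨k₀, fun k hk => ?_⟩
  set W := tball G c k with hW
  have hWconv : Conv G W := conv_tball hT c k
  have hsub : ∀ i, tball G (e i).1 R ⊆ W := by
    intro i w hw
    rw [hW, mem_tball hT]
    have h1 := (mem_tball hT).1 hw
    have h2 : G.dist c (e i).1 ≤ Finset.univ.sup (fun i => G.dist c (e i).1) :=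
      Finset.le_sup (f := fun i => G.dist c (e i).1) (Finset.mem_univ i)
    have h3 : G.dist c w ≤ G.dist c (e i).1 + G.dist (e i).1 w := hT.connected.dist_triangle
    omega
  choose n₀ hn₀ using fun i => hR W (e i).1 (e i).2 hWconv (he i) (hsub i)
  obtain ⟨n₂, hn₂⟩ := euler_law_close hT hreg hq hθ W.card r (ε / (4 * C)) (by positivity)
  set n : ℕ := max n₁ (max n₂ (Finset.univ.sup n₀)) with hn
  have hn1 : n₁ ≤ n := le_max_left _ _
  have hn2 : n₂ ≤ n := (le_max_left _ _).trans (le_max_right _ _)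
  have hn3 : ∀ i, n₀ i ≤ n := fun i =>
    (Finset.le_sup (f := n₀) (Finset.mem_univ i)).trans ((le_max_right _ _).trans (le_max_right _ _))
  have hDy : Dy n r := dy_mono hn1 hn₁
  -- the two vectors
  set A : (V → unitInterval) → ι → ℝ := fun ω i => msgT G θ W n r (xiL ω) (e i).1 (e i).2 with hA
  set B : (V → unitInterval) → ι → ℝ := fun ω i => N r (e i).1 (e i).2 ω with hB
  have hAQ : ∀ ω i, |A ω i| ≤ 1 := fun ω i => abs_msg_le_one hθ W _ _ _
  have hBQ : ∀ ω i, |B ω i| ≤ 1 := fun ω i => hS.bdN _ _ _ _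
  have hAm : Measurable A := by
    refine measurable_pi_lambda _ fun i => ?_
    exact (measurable_msg θ W _ _).comp (measurable_lamI θ W n _)
  have hBm : Measurable B := measurable_pi_lambda _ fun i => hS.measN _ _ _
  have hFA : Integrable (fun ω => F (A ω)) (labelMeasure V) := by
    refine Integrable.of_bound (hF.measurable.comp hAm).aestronglyMeasurable C
      (Eventually.of_forall fun ω => ?_)
    exact hFC _ (hmemQ _ (hAQ ω))
  have hFB : Integrable (fun ω => F (B ω)) (labelMeasure V) := by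
    refine Integrable.of_bound (hF.measurable.comp hBm).aestronglyMeasurable C
      (Eventually.of_forall fun ω => ?_)
    exact hFC _ (hmemQ _ (hBQ ω))
  have hsq : ∀ i, Integrable (fun ω => (A ω i - B ω i) ^ 2) (labelMeasure V) := by
    intro i
    refine Integrable.of_bound ?_ 4 (Eventually.of_forall fun ω => ?_)
    · exact (((measurable_pi_apply i).comp hAm).sub ((measurable_pi_apply i).comp hBm)).pow_const
        2 |>.aestronglyMeasurable
    · have h1 := abs_le.1 (hAQ ω i)
      have h2 := abs_le.1 (hBQ ω i)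
      rw [Real.norm_eq_abs, abs_of_nonneg (sq_nonneg _)]
      nlinarith
  -- the planted side
  have hplant : |∫ ω, F (A ω) ∂labelMeasure V
      - plE G θ W r (fun lam => F (fun i => msg G θ W lam (e i).1 (e i).2))| ≤ ε / 4 := by
    set Φ : (V → ℝ) → ℝ := fun lam => F (fun i => msg G θ W lam (e i).1 (e i).2) with hΦ
    have hΦm : Measurable Φ :=
      hF.measurable.comp (measurable_pi_lambda _ fun i => measurable_msg θ W _ _)
    have hΦb : ∀ lam, |Φ lam| ≤ C := fun lam =>
      hFC _ (hmemQ _ fun i => abs_msg_le_one hθ W _ _ _)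
    have h := hn₂ W le_rfl n hn2 r hDy le_rfl (fun lam => Φ lam / C) (hΦm.div_const _) (fun x => by
      rw [abs_div, abs_of_pos hC0, div_le_one hC0]
      exact hΦb x)
    rw [plE_div, integral_div] at h
    have h2 : ∫ ω, Φ (lamI G θ W n (xiL ω) (stepOf r n)) ∂labelMeasure V
        = ∫ ω, F (A ω) ∂labelMeasure V := rfl
    rw [h2, ← sub_div, abs_div, abs_of_pos hC0, div_le_iff₀ hC0] at h
    calc _ ≤ ε / (4 * C) * C := h
      _ = ε / 4 := by field_simp
  -- pointwise comparison
  have hpt : ∀ ω, |F (A ω) - F (B ω)| ≤ ε / 4 + 2 * C * (∑ i, (A ω i - B ω i) ^ 2) / δ ^ 2 := by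
    intro ω
    have hnn : 0 ≤ 2 * C * (∑ i, (A ω i - B ω i) ^ 2) / δ ^ 2 := by positivity
    by_cases hdist : dist (A ω) (B ω) < δ
    · have := hUδ _ (hmemQ _ (hAQ ω)) _ (hmemQ _ (hBQ ω)) hdist
      rw [Real.dist_eq] at this
      linarith
    · have : ∃ i, δ ≤ |A ω i - B ω i| := by
        by_contra hcon
        push Not at hcon
        apply hdist
        rw [dist_pi_lt_iff hδ]
        intro i
        rw [Real.dist_eq]
        exact hcon i
      obtain ⟨i, hi⟩ := this
      have h1 : δ ^ 2 ≤ ∑ i, (A ω i - B ω i) ^ 2 := by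
        have h2 : (A ω i - B ω i) ^ 2 ≤ ∑ i, (A ω i - B ω i) ^ 2 :=
          Finset.single_le_sum (f := fun i => (A ω i - B ω i) ^ 2) (fun _ _ => sq_nonneg _)
            (Finset.mem_univ i)
        have h3 : δ ^ 2 ≤ (A ω i - B ω i) ^ 2 := by
          rw [← sq_abs (A ω i - B ω i)]
          exact pow_le_pow_left₀ hδ.le hi 2
        linarith
      have h2 : 2 * C ≤ 2 * C * (∑ i, (A ω i - B ω i) ^ 2) / δ ^ 2 := by
        rw [le_div_iff₀ (by positivity)]
        exact mul_le_mul_of_nonneg_left h1 (by positivity)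
      have h3 := hFC _ (hmemQ _ (hAQ ω))
      have h4 := hFC _ (hmemQ _ (hBQ ω))
      have h5 : |F (A ω) - F (B ω)| ≤ |F (A ω)| + |F (B ω)| := abs_sub _ _
      linarith
  have hint : Integrable (fun ω => ε / 4 + 2 * C * (∑ i, (A ω i - B ω i) ^ 2) / δ ^ 2)
      (labelMeasure V) :=
    (integrable_const _).add (((integrable_finsetSum _ fun i _ => hsq i).const_mul _).div_const _)
  have hcomp : |∫ ω, F (A ω) ∂labelMeasure V - ∫ ω, F (B ω) ∂labelMeasure V| ≤ ε / 2 := by
    rw [← integral_sub hFA hFB]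
    refine (abs_integral_le_integral_abs).trans ?_
    refine (integral_mono (hFA.sub hFB).abs hint hpt).trans ?_
    have hval : ∫ ω, (ε / 4 + 2 * C * (∑ i, (A ω i - B ω i) ^ 2) / δ ^ 2) ∂labelMeasure V
        = ε / 4 + 2 * C * (∑ i, ∫ ω, (A ω i - B ω i) ^ 2 ∂labelMeasure V) / δ ^ 2 := by
      rw [integral_add (integrable_const _)
        (((integrable_finsetSum _ fun i _ => hsq i).const_mul _).div_const _), integral_const,
        integral_div, integral_const_mul, integral_finsetSum _ fun i _ => hsq i]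
      simp
    rw [hval]
    have hsum : ∑ i, ∫ ω, (A ω i - B ω i) ^ 2 ∂labelMeasure V ≤ d * ε' := by
      calc _ ≤ ∑ _i : ι, ε' := Finset.sum_le_sum fun i _ => hn₀ i n (hn3 i) r hDy le_rfl
        _ = d * ε' := by simp [hd]
    have h2 : 2 * C * (∑ i, ∫ ω, (A ω i - B ω i) ^ 2 ∂labelMeasure V) / δ ^ 2 ≤ ε / 4 := by
      rw [div_le_iff₀ (by positivity)]
      have h3 : 2 * C * (d * ε') = ε * δ ^ 2 / 4 * (d / (d + 1)) := by
        rw [hε'def]; field_simp; ring
      have h4 : d / (d + 1) ≤ 1 := by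
        rw [div_le_one (by positivity)]; linarith
      have h5 : 0 ≤ ε * δ ^ 2 / 4 := by positivity
      calc 2 * C * ∑ i, ∫ ω, (A ω i - B ω i) ^ 2 ∂labelMeasure V ≤ 2 * C * (d * ε') :=
            mul_le_mul_of_nonneg_left hsum (by positivity)
        _ = ε * δ ^ 2 / 4 * (d / (d + 1)) := h3
        _ ≤ ε * δ ^ 2 / 4 * 1 := mul_le_mul_of_nonneg_left h4 h5
        _ = ε / 4 * δ ^ 2 := by ring
    linarith
  rw [Real.dist_eq]
  have h1 := abs_le.1 hplant
  have h2 := abs_le.1 hcomp
  rw [abs_lt]
  constructor <;> linarith [h1.1, h1.2, h2.1, h2.2]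

end main

end Crest.Agent.IsingFactor
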