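import Crest.Agent.IsingFactor.StrictDefs
import Crest.Agent.SRFactor.LipCore

/-!
# IsingFactor.StrictMesh (WP IF-StrictMesh): mesh comparison in a fixed window. Adapt `SRFactor.Mesh` (arbitrary dyadic horizon, `κ = |W|`).
Statements may be ADDED; do not change the ones below without posting on chat (topic S0241), other packages use them.
-/

set_option autoImplicit false

open MeasureTheory ProbabilityTheory Filter Topology
open Crest.Agent.SRFactor Crest.ProbabilityR.Labels

namespace Crest.Agent.IsingFactor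

namespace StrictMeshAux

open Crest.Agent.SRFactor.MeshAux

section generic

variable {E : Type*} [DecidableEq E]

/-- One level of refinement, for an arbitrary number of coarse steps. -/
lemma euler_consecutive (ν : Family E) {κ : ℝ} (hκ : 0 ≤ κ) (hL : ν.Lip κ) (B : Finset E) (K m : ℕ)
    (ξ : Noise E)
    (href : ∀ e ∈ B, ∀ j, ξ e m j = (ξ e (m + 1) (2 * j) + ξ e (m + 1) (2 * j + 1)) / Real.sqrt 2)
    {e : E} (he : e ∈ B) :
    |euler ν B (hh m) (levelNoise ξ m) K e - euler ν B (hh (m + 1)) (levelNoise ξ (m + 1)) (2 * K) e|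
      ≤ Real.exp (κ * (K * hh m)) *
        ∑ l ∈ Finset.range K, stepErr κ (hh m / 2) B (levelNoise ξ (m + 1)) l := by
  have hpos : 0 < hh m := hh_pos m
  have hy : ∀ e ∈ B, ∀ k, Real.sqrt (hh m) * levelNoise ξ m k e
      = Real.sqrt (hh m / 2) * (levelNoise ξ (m + 1) (2 * k) e + levelNoise ξ (m + 1) (2 * k + 1) e) := by
    intro e he k
    simp only [levelNoise]
    rw [href e he k, Real.sqrt_div hpos.le]
    have h2 : Real.sqrt 2 ≠ 0 := by positivity
    field_simp
  have main := euler_two_level ν hκ hL B hpos (levelNoise ξ m) (levelNoise ξ (m + 1)) hy K e he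
  rw [hh_succ]
  refine main.trans ?_
  have hκh : 0 ≤ κ * hh m := mul_nonneg hκ hpos.le
  refine (bd_le hκh (fun l => stepErr_nonneg hκ (by positivity) B _ l) _).trans ?_
  have hsum : 0 ≤ ∑ l ∈ Finset.range K, stepErr κ (hh m / 2) B (levelNoise ξ (m + 1)) l :=
    Finset.sum_nonneg fun l _ => stepErr_nonneg hκ (by positivity) B _ l
  refine mul_le_mul_of_nonneg_right ?_ hsum
  refine (one_add_pow_le_exp hκh _).trans ?_
  apply le_of_eq
  congr 1
  ring

section Level

variable {Ω : Type*} [MeasurableSpace Ω] {P : Measure Ω} {ξ : Ω → Noise E} {Dom : Set E}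

/-- The pathwise bound of one level of refinement. -/
noncomputable def levelErrK (κ r : ℝ) (B : Finset E) (K m : ℕ) (x : Noise E) : ℝ :=
  Real.exp (κ * r) * ∑ l ∈ Finset.range K, stepErr κ (hh m / 2) B (levelNoise x (m + 1)) l

lemma levelErrK_integral (hξ : IsDyadicNoise P ξ Dom) {B : Finset E} (hB : (B : Set E) ⊆ Dom)
    {κ : ℝ} (hκ : 0 ≤ κ) (K m : ℕ) {r : ℝ} (hr : (K : ℝ) * hh m = r) :
    Integrable (fun ω => levelErrK κ r B K m (ξ ω)) P ∧
      ∫ ω, levelErrK κ r B K m (ξ ω) ∂P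
        ≤ Real.exp (κ * r) * r * κ * (hh m + B.card * Real.sqrt (hh m)) := by
  have hpos : 0 < hh m := hh_pos m
  have hh' : 0 ≤ hh m / 2 := by positivity
  have hI : ∀ l ∈ Finset.range K,
      Integrable (fun ω => stepErr κ (hh m / 2) B (levelNoise (ξ ω) (m + 1)) l) P :=
    fun l _ => (stepErr_integral hξ hB hκ hh' m l).1
  have hsI : Integrable
      (fun ω => ∑ l ∈ Finset.range K, stepErr κ (hh m / 2) B (levelNoise (ξ ω) (m + 1)) l) P :=
    integrable_finset_sum _ hI
  refine ⟨hsI.const_mul _, ?_⟩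
  have hform : ∫ ω, levelErrK κ r B K m (ξ ω) ∂P
      = Real.exp (κ * r) * ∑ l ∈ Finset.range K,
          ∫ ω, stepErr κ (hh m / 2) B (levelNoise (ξ ω) (m + 1)) l ∂P := by
    unfold levelErrK
    rw [integral_const_mul, integral_finset_sum _ hI]
  rw [hform]
  have hsum : ∑ l ∈ Finset.range K,
      ∫ ω, stepErr κ (hh m / 2) B (levelNoise (ξ ω) (m + 1)) l ∂P
      ≤ (K : ℝ) * (κ * (hh m / 2) * (3 * (hh m / 2) / 2 + Real.sqrt (hh m / 2) * B.card)) := by
    calc _ ≤ ∑ _l ∈ Finset.range K, (κ * (hh m / 2) * (3 * (hh m / 2) / 2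
          + Real.sqrt (hh m / 2) * B.card)) :=
          Finset.sum_le_sum fun l _ => (stepErr_integral hξ hB hκ hh' m l).2
      _ = _ := by simp
  have hr0 : 0 ≤ r := by rw [← hr]; positivity
  have hmain : (K : ℝ) * (κ * (hh m / 2) * (3 * (hh m / 2) / 2 + Real.sqrt (hh m / 2) * B.card))
      ≤ r * κ * (hh m + B.card * Real.sqrt (hh m)) := by
    have h2 : (K : ℝ) * (κ * (hh m / 2) * (3 * (hh m / 2) / 2 + Real.sqrt (hh m / 2) * B.card))
        = ((K : ℝ) * hh m) * κ * ((1 / 2) * (3 * (hh m / 2) / 2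
          + Real.sqrt (hh m / 2) * B.card)) := by ring
    rw [h2, hr]
    have h3 : Real.sqrt (hh m / 2) ≤ Real.sqrt (hh m) := Real.sqrt_le_sqrt (by linarith)
    have hb : (0 : ℝ) ≤ B.card := Nat.cast_nonneg _
    have hs : 0 ≤ Real.sqrt (hh m / 2) := Real.sqrt_nonneg _
    have h4 : (1 / 2) * (3 * (hh m / 2) / 2 + Real.sqrt (hh m / 2) * B.card)
        ≤ hh m + B.card * Real.sqrt (hh m) := by
      have : Real.sqrt (hh m / 2) * B.card ≤ Real.sqrt (hh m) * B.card :=
        mul_le_mul_of_nonneg_right h3 hb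
      have h5 : 0 ≤ Real.sqrt (hh m / 2) * B.card := by positivity
      nlinarith
    exact mul_le_mul_of_nonneg_left h4 (mul_nonneg hr0 hκ)
  have hexp : 0 ≤ Real.exp (κ * r) := (Real.exp_pos _).le
  calc Real.exp (κ * r) * _ ≤ Real.exp (κ * r) * (r * κ * (hh m + B.card * Real.sqrt (hh m))) :=
        mul_le_mul_of_nonneg_left (hsum.trans hmain) hexp
    _ = _ := by ring

lemma steps_mul_hh (k n i : ℕ) : ((k * 2 ^ i : ℕ) : ℝ) * hh (n + i) = k * hh n := by
  unfold hh
  push_cast
  rw [pow_add]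
  have h2 : ((2 : ℝ) ^ i) * ((1 / 2 : ℝ)) ^ i = 1 := by
    rw [← mul_pow]; norm_num
  calc (k : ℝ) * 2 ^ i * ((1 / 2 : ℝ) ^ n * (1 / 2 : ℝ) ^ i)
      = k * (1 / 2 : ℝ) ^ n * (2 ^ i * (1 / 2 : ℝ) ^ i) := by ring
    _ = _ := by rw [h2, mul_one]

/-- Mesh comparison with an arbitrary dyadic horizon `k * hh n`, with nested noise: an integrable
dominating function, uniform in the site. -/
theorem mesh_dom (hξ : IsDyadicNoise P ξ Dom) (ν : Family E) {κ : ℝ} (hκ : 0 ≤ κ)
    (hL : ν.Lip κ) {B : Finset E} (hB : (B : Set E) ⊆ Dom) (k n : ℕ) (j : ℕ) :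
    ∃ D : Ω → ℝ, Integrable D P ∧
      (∀ᵐ ω ∂P, ∀ e ∈ B, |euler ν B (hh n) (levelNoise (ξ ω) n) k e
        - euler ν B (hh (n + j)) (levelNoise (ξ ω) (n + j)) (k * 2 ^ j) e| ≤ D ω) ∧
      ∫ ω, D ω ∂P
        ≤ Real.exp (κ * (k * hh n)) * (k * hh n) * κ * ((2 + 4 * B.card) * Real.sqrt (hh n)) := by
  haveI := hξ.prob
  set r : ℝ := k * hh n with hr
  have hr0 : 0 ≤ r := by rw [hr]; exact mul_nonneg (Nat.cast_nonneg _) (hh_pos n).le
  have hI : ∀ i ∈ Finset.range j, Integrable (fun ω => levelErrK κ r B (k * 2 ^ i) (n + i) (ξ ω)) P :=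
    fun i _ => (levelErrK_integral hξ hB hκ (k * 2 ^ i) (n + i) (steps_mul_hh k n i)).1
  refine ⟨fun ω => ∑ i ∈ Finset.range j, levelErrK κ r B (k * 2 ^ i) (n + i) (ξ ω),
    integrable_finset_sum _ hI, ?_, ?_⟩
  · filter_upwards [hξ.refine] with ω hω e he
    induction j with
    | zero => simp
    | succ p ih =>
      rw [Finset.sum_range_succ]
      have hstep := euler_consecutive ν hκ hL B (k * 2 ^ p) (n + p) (ξ ω)
        (fun g hg j => hω g (hB hg) (n + p) j) he
      have hK : (((k * 2 ^ p : ℕ) : ℝ)) * hh (n + p) = r := steps_mul_hh k n p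
      rw [hK] at hstep
      have e1 : 2 * (k * 2 ^ p) = k * 2 ^ (p + 1) := by ring
      rw [e1] at hstep
      have e2 : n + (p + 1) = n + p + 1 := rfl
      rw [e2]
      calc _ ≤ |euler ν B (hh n) (levelNoise (ξ ω) n) k e
              - euler ν B (hh (n + p)) (levelNoise (ξ ω) (n + p)) (k * 2 ^ p) e|
            + |euler ν B (hh (n + p)) (levelNoise (ξ ω) (n + p)) (k * 2 ^ p) e
              - euler ν B (hh (n + p + 1)) (levelNoise (ξ ω) (n + p + 1)) (k * 2 ^ (p + 1)) e| :=
            abs_sub_le _ _ _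
        _ ≤ _ := add_le_add (ih (fun i hi => hI i (Finset.mem_range.2
              (lt_trans (Finset.mem_range.1 hi) (Nat.lt_succ_self p))))) hstep
  · rw [integral_finset_sum _ hI]
    have h2 : ∑ i ∈ Finset.range j, ∫ ω, levelErrK κ r B (k * 2 ^ i) (n + i) (ξ ω) ∂P
        ≤ ∑ i ∈ Finset.range j,
            Real.exp (κ * r) * r * κ * (hh (n + i) + B.card * Real.sqrt (hh (n + i))) :=
      Finset.sum_le_sum fun i _ =>
        (levelErrK_integral hξ hB hκ (k * 2 ^ i) (n + i) (steps_mul_hh k n i)).2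
    refine h2.trans ?_
    rw [← Finset.mul_sum]
    have hC : 0 ≤ Real.exp (κ * r) * r * κ := by positivity
    refine mul_le_mul_of_nonneg_left ?_ hC
    have h3 := sum_hh_le (b := B.card) (n := n) (n' := n + j) (Nat.le_add_right n j)
    rw [Finset.sum_Ico_eq_sum_range] at h3
    simpa using h3

end Level

end generic

/-! ### Lipschitz bound for the Ising family of a window -/

section lip

variable {V : Type*} [DecidableEq V] (G : SimpleGraph V)

lemma mass_eq_zero_of_not_mem (θ : ℝ) (W B S : Finset V) {i : V} (hi : i ∉ W) (hS : i ∈ S) :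
    (isingW G θ W).mass B S = 0 := by
  change (∑ S' ∈ W.powerset.filter (fun S' => S' ∩ B = S), wtS G (clampθ θ) W S') / wtTot G θ W = 0
  rw [Finset.filter_eq_empty_iff.2, Finset.sum_empty, zero_div]
  intro S' hS' hEq
  have : i ∈ S' ∩ B := by rw [hEq]; exact hS
  exact hi (Finset.mem_powerset.1 hS' (Finset.mem_inter.1 this).1)

lemma numer_eq_zero_of_not_mem (θ : ℝ) (W B : Finset V) (L : V → ℝ) {i : V} (hi : i ∉ W) :
    numer (isingW G θ W) B L i = 0 := by
  unfold numer
  refine Finset.sum_eq_zero fun S hS => ?_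
  unfold wt
  rw [mass_eq_zero_of_not_mem G θ W B S hi (Finset.mem_filter.1 hS).2, zero_mul]

lemma numer2_eq_zero_of_not_mem (θ : ℝ) (W B : Finset V) (L : V → ℝ) (e : V) {i : V} (hi : i ∉ W) :
    numer2 (isingW G θ W) B L e i = 0 := by
  unfold numer2
  refine Finset.sum_eq_zero fun S hS => ?_
  unfold wt
  rw [mass_eq_zero_of_not_mem G θ W B S hi (Finset.mem_filter.1 hS).2.2, zero_mul]

lemma numer2_le_zfun (ν : Family V) (B : Finset V) (L : V → ℝ) (e i : V) :
    numer2 ν B L e i ≤ zfun ν B L :=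
  Finset.sum_le_sum_of_subset_of_nonneg (Finset.filter_subset _ _) fun S _ _ => wt_nonneg ν B L S

lemma numer2_nonneg (ν : Family V) (B : Finset V) (L : V → ℝ) (e i : V) :
    0 ≤ numer2 ν B L e i :=
  Finset.sum_nonneg fun S _ => wt_nonneg ν B L S

lemma abs_cov_le (ν : Family V) (B : Finset V) (L : V → ℝ) (e i : V) :
    |cov ν B L e i| ≤ zfun ν B L ^ 2 := by
  unfold cov
  have hZ := zfun_pos ν B L
  have h1 := numer2_le_zfun ν B L e i
  have h2 := numer2_nonneg ν B L e i
  have h3 := numer_le_zfun ν B L e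
  have h4 := numer_nonneg ν B L e
  have h5 := numer_le_zfun ν B L i
  have h6 := numer_nonneg ν B L i
  rw [abs_le]
  constructor <;> nlinarith [mul_nonneg h4 h6, mul_nonneg h2 hZ.le, mul_le_mul h3 h5 h6 hZ.le,
    mul_le_mul_of_nonneg_right h1 hZ.le]

theorem isingW_lip (θ : ℝ) (W : Finset V) : (isingW G θ W).Lip (W.card : ℝ) := by
  intro B lam lam' e c hc he
  have hc0 : 0 ≤ c := le_trans (abs_nonneg _) (hc e he)
  set ν := isingW G θ W with hν
  set v : V → ℝ := fun i => lam i - lam' i with hv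
  have hd : ∀ s ∈ (Set.univ : Set ℝ), HasDerivWithinAt
      (fun s => post ν B (fun i => lam' i + s * v i) e)
      (∑ i ∈ B, v i * cov ν B (fun i => lam' i + s * v i) e i
        / zfun ν B (fun i => lam' i + s * v i) ^ 2) Set.univ s := fun s _ =>
    (hasDerivAt_post ν B lam' v e s).hasDerivWithinAt
  have hb : ∀ s ∈ (Set.univ : Set ℝ), ‖∑ i ∈ B, v i * cov ν B (fun i => lam' i + s * v i) e i
        / zfun ν B (fun i => lam' i + s * v i) ^ 2‖ ≤ (W.card : ℝ) * c := by
    intro s _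
    set L := fun i => lam' i + s * v i with hL
    have hZ : 0 < zfun ν B L ^ 2 := pow_pos (zfun_pos ν B L) 2
    rw [Real.norm_eq_abs, ← Finset.sum_div, abs_div, abs_of_pos hZ, div_le_iff₀ hZ]
    have h1 : |∑ i ∈ B, v i * cov ν B L e i|
        ≤ ∑ i ∈ B, if i ∈ W then c * zfun ν B L ^ 2 else 0 := by
      refine (Finset.abs_sum_le_sum_abs _ _).trans (Finset.sum_le_sum fun i hi => ?_)
      rw [abs_mul]
      split_ifs with hiW
      · exact mul_le_mul (hc i hi) (abs_cov_le ν B L e i) (abs_nonneg _) hc0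
      · have : cov ν B L e i = 0 := by
          unfold cov
          rw [hν, numer2_eq_zero_of_not_mem G θ W B L e hiW, numer_eq_zero_of_not_mem G θ W B L hiW]
          ring
        rw [this]; simp
    refine h1.trans ?_
    have h2 : ∑ i ∈ B, (if i ∈ W then c * zfun ν B L ^ 2 else 0)
        = ((B.filter (· ∈ W)).card : ℝ) * (c * zfun ν B L ^ 2) := by
      rw [← Finset.sum_filter, Finset.sum_const, nsmul_eq_mul]
    rw [h2]
    have h3 : ((B.filter (· ∈ W)).card : ℝ) ≤ W.card := by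
      exact_mod_cast Finset.card_le_card (fun x hx => (Finset.mem_filter.1 hx).2)
    have h4 : 0 ≤ c * zfun ν B L ^ 2 := mul_nonneg hc0 hZ.le
    calc _ ≤ (W.card : ℝ) * (c * zfun ν B L ^ 2) := mul_le_mul_of_nonneg_right h3 h4
      _ = _ := by ring
  have hmv := Convex.norm_image_sub_le_of_norm_hasDerivWithin_le hd hb convex_univ
    (Set.mem_univ (0 : ℝ)) (Set.mem_univ (1 : ℝ))
  simp only [zero_mul, add_zero, one_mul, sub_zero, norm_one, mul_one] at hmv
  have h1 : (fun i => lam' i + v i) = lam := by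
    funext i
    simp [hv]
  rw [h1, Real.norm_eq_abs] at hmv
  exact hmv

theorem isingW_lip_of_le (θ : ℝ) (W : Finset V) {b : ℕ} (hb : W.card ≤ b) :
    (isingW G θ W).Lip (b : ℝ) := by
  intro B lam lam' e c hc he
  have hc0 : 0 ≤ c := le_trans (abs_nonneg _) (hc e he)
  refine (isingW_lip G θ W B lam lam' e c hc he).trans ?_
  exact mul_le_mul_of_nonneg_right (by exact_mod_cast hb) hc0

end lip

end StrictMeshAux

open StrictMeshAux

variable {V : Type*} [DecidableEq V] {G : SimpleGraph V}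

/-- The magnetisation off the window. -/
private lemma magn_of_not_mem (θ : ℝ) (hθ : GoodTheta θ) (W : Finset V) (lam : V → ℝ) {v : V} (hv : v ∉ W) :
    magn G θ W lam v = -1 := by
  unfold magn gAvg
  have hZ := Zf_pos (G := G) hθ W lam
  have : ∀ S ∈ W.powerset, wtS G θ W S * Real.exp (∑ i ∈ S, lam i) * sgnS S v
      = - (wtS G θ W S * Real.exp (∑ i ∈ S, lam i)) := by
    intro S hS
    have : v ∉ S := fun h => hv (Finset.mem_powerset.1 hS h)
    simp [sgnS, this]
  rw [Finset.sum_congr rfl this, Finset.sum_neg_distrib]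
  change -(Zf G θ W lam) / Zf G θ W lam = -1
  field_simp

/-- The window-independent constant of the mesh comparison. -/
private noncomputable def meshC (b : ℕ) (T : ℝ) : ℝ :=
  4 * b * (Real.exp ((b : ℝ) * max T 0) * max T 0 * b * (2 + 4 * b))

private lemma meshC_nonneg (b : ℕ) (T : ℝ) : 0 ≤ meshC b T := by
  unfold meshC
  have : 0 ≤ max T 0 := le_max_right _ _
  positivity

private lemma stepOf_of_eq {r : ℝ} {n k : ℕ} (h : r = k * hh n) : stepOf r n = k := by
  unfold stepOf
  rw [h, mul_div_cancel_right₀ _ (hh_pos n).ne']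
  exact Nat.floor_natCast k

/-- The comparison of two nested meshes. -/
private lemma mesh_key [Countable V] {θ : ℝ} (hθ : GoodTheta θ) {b : ℕ} (T : ℝ) {W : Finset V} (v : V)
    (hW : W.card ≤ b) (n j k : ℕ) (hr : (k : ℝ) * hh n ≤ T) :
    ∫ ω, (magn G θ W (lamI G θ W n (xiL ω) k) v
        - magn G θ W (lamI G θ W (n + j) (xiL ω) (k * 2 ^ j)) v) ^ 2 ∂labelMeasure V
      ≤ meshC b T * Real.sqrt (hh n) := by
  have hsq : 0 ≤ Real.sqrt (hh n) := Real.sqrt_nonneg _
  have hC := meshC_nonneg b T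
  by_cases hv : v ∈ W
  · have hξ : IsDyadicNoise (labelMeasure V) (xiL (V := V)) Set.univ := isDyadicNoise_xiL
    haveI := hξ.prob
    have hb0 : (0 : ℝ) ≤ b := Nat.cast_nonneg _
    obtain ⟨D, hDi, hDae, hDint⟩ := mesh_dom hξ (isingW G θ W) hb0 (isingW_lip_of_le G θ W hW)
      (B := W) (Set.subset_univ _) k n j
    have hr0 : (0 : ℝ) ≤ k * hh n := mul_nonneg (Nat.cast_nonneg _) (hh_pos n).le
    have hrmax : (k : ℝ) * hh n ≤ max T 0 := hr.trans (le_max_left _ _)
    have hT0 : 0 ≤ max T 0 := le_max_right _ _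
    have hpt : ∀ᵐ ω ∂labelMeasure V, (magn G θ W (lamI G θ W n (xiL ω) k) v
        - magn G θ W (lamI G θ W (n + j) (xiL ω) (k * 2 ^ j)) v) ^ 2 ≤ (4 * b) * D ω := by
      filter_upwards [hDae] with ω hω
      set lam := lamI G θ W n (xiL ω) k with hlam
      set lam' := lamI G θ W (n + j) (xiL ω) (k * 2 ^ j) with hlam'
      have hcomp : ∀ g ∈ W, |lam g - lam' g| ≤ D ω := by
        intro g hg
        have := hω g hg
        have e : lam g - lam' g = euler (isingW G θ W) W (hh n) (levelNoise (xiL ω) n) k g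
            - euler (isingW G θ W) W (hh (n + j)) (levelNoise (xiL ω) (n + j)) (k * 2 ^ j) g := by
          simp only [hlam, hlam', lamI, eulerI]
          rw [steps_mul_hh k n j]
          ring
        rw [e]
        exact this
      have hpost := isingW_lip_of_le G θ W hW W lam lam' v (D ω) hcomp hv
      rw [post_isingW hθ W lam hv, post_isingW hθ W lam' hv] at hpost
      set x := magn G θ W lam v - magn G θ W lam' v with hx
      have h1 : |x| ≤ 2 := by
        have h1 := abs_magn_le_one (G := G) hθ W lam v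
        have h2 := abs_magn_le_one (G := G) hθ W lam' v
        calc |x| ≤ |magn G θ W lam v| + |magn G θ W lam' v| := abs_sub _ _
          _ ≤ 2 := by linarith
      have h2 : |x| ≤ 2 * (b * D ω) := by
        have e : (magn G θ W lam v + 1) / 2 - (magn G θ W lam' v + 1) / 2 = x / 2 := by
          rw [hx]; ring
        rw [e, abs_div, abs_of_pos (by norm_num : (0 : ℝ) < 2), div_le_iff₀ (by norm_num)] at hpost
        linarith
      have h3 : x ^ 2 = |x| * |x| := by rw [abs_mul_abs_self x]; ring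
      rw [h3]
      have h4 : 0 ≤ |x| := abs_nonneg _
      nlinarith
    have hmono := integral_mono_of_nonneg (μ := labelMeasure V) (Filter.Eventually.of_forall
      (fun ω => sq_nonneg (magn G θ W (lamI G θ W n (xiL ω) k) v
        - magn G θ W (lamI G θ W (n + j) (xiL ω) (k * 2 ^ j)) v))) (hDi.const_mul (4 * (b : ℝ))) hpt
    refine hmono.trans ?_
    rw [integral_const_mul]
    have hcard : (W.card : ℝ) ≤ b := by exact_mod_cast hW
    have hexp : Real.exp ((b : ℝ) * (k * hh n)) ≤ Real.exp ((b : ℝ) * max T 0) :=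
      Real.exp_le_exp.2 (mul_le_mul_of_nonneg_left hrmax hb0)
    have hbig : Real.exp ((b : ℝ) * (k * hh n)) * (k * hh n) * b * ((2 + 4 * W.card) * Real.sqrt (hh n))
        ≤ Real.exp ((b : ℝ) * max T 0) * max T 0 * b * ((2 + 4 * b) * Real.sqrt (hh n)) := by
      have h1 : Real.exp ((b : ℝ) * (k * hh n)) * (k * hh n)
          ≤ Real.exp ((b : ℝ) * max T 0) * max T 0 :=
        mul_le_mul hexp hrmax hr0 (Real.exp_pos _).le
      have h2 : (2 + 4 * (W.card : ℝ)) * Real.sqrt (hh n) ≤ (2 + 4 * b) * Real.sqrt (hh n) :=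
        mul_le_mul_of_nonneg_right (by linarith) hsq
      have h3 : 0 ≤ (2 + 4 * (W.card : ℝ)) * Real.sqrt (hh n) := by positivity
      have h4 : 0 ≤ Real.exp ((b : ℝ) * max T 0) * max T 0 * b := by positivity
      exact mul_le_mul (mul_le_mul_of_nonneg_right h1 hb0) h2 h3 h4
    calc 4 * (b : ℝ) * ∫ ω, D ω ∂labelMeasure V
        ≤ 4 * (b : ℝ) * (Real.exp ((b : ℝ) * max T 0) * max T 0 * b * ((2 + 4 * b) * Real.sqrt (hh n))) :=
          mul_le_mul_of_nonneg_left (hDint.trans hbig) (by positivity)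
      _ = meshC b T * Real.sqrt (hh n) := by unfold meshC; ring
  · have h0 : ∀ ω, (magn G θ W (lamI G θ W n (xiL ω) k) v
        - magn G θ W (lamI G θ W (n + j) (xiL ω) (k * 2 ^ j)) v) ^ 2 = 0 := by
      intro ω
      rw [magn_of_not_mem θ hθ W _ hv, magn_of_not_mem θ hθ W _ hv]
      ring
    simp only [h0, integral_zero]
    positivity

section main
variable [G.LocallyFinite] {q : ℕ} (hT : G.IsTree) (hreg : G.IsRegularOfDegree (q + 1)) (hq : 2 ≤ q)
include hT hreg hq

/-- WP Strict1: mesh comparison in a fixed window. -/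
theorem mesh_compare_L2 {θ : ℝ} (hθ : GoodTheta θ) (b : ℕ) (T ε : ℝ) (hε : 0 < ε) :
    ∃ n₀ : ℕ, ∀ (W : Finset V) (v : V), W.card ≤ b → ∀ n ≥ n₀, ∀ n' ≥ n₀, ∀ r, Dy n r → Dy n' r → r ≤ T →
      ∫ ω, (magT G θ W n r (xiL (V := V) ω) v - magT G θ W n' r (xiL ω) v) ^ 2 ∂labelMeasure V ≤ ε := by
  haveI : Countable V := countable_of_isTree hT
  have hlim : Tendsto (fun n : ℕ => meshC b T * Real.sqrt (hh n)) atTop (𝓝 0) := by
    have h1 : Tendsto (fun n : ℕ => hh n) atTop (𝓝 0) := by
      unfold hh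
      exact tendsto_pow_atTop_nhds_zero_of_lt_one (by norm_num) (by norm_num)
    have h2 : Tendsto (fun n : ℕ => Real.sqrt (hh n)) atTop (𝓝 0) := by
      have := (Real.continuous_sqrt.tendsto 0).comp h1
      rw [Real.sqrt_zero] at this
      exact this
    simpa using h2.const_mul (meshC b T)
  obtain ⟨n₀, hn₀⟩ := ((hlim.eventually (gt_mem_nhds hε))).exists_forall_of_atTop
  refine ⟨n₀, ?_⟩
  rintro W v hW n hn n' hn' r ⟨k, hk⟩ ⟨k', hk'⟩ hrT
  rcases le_total n n' with h | h
  · obtain ⟨j, rfl⟩ := Nat.exists_eq_add_of_le h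
    have hs : stepOf r (n + j) = k * 2 ^ j :=
      stepOf_of_eq (by rw [hk]; exact (steps_mul_hh k n j).symm)
    unfold magT
    rw [hs, stepOf_of_eq hk]
    exact (mesh_key hθ T v hW n j k (hk ▸ hrT)).trans (hn₀ n hn).le
  · obtain ⟨j, rfl⟩ := Nat.exists_eq_add_of_le h
    have hs : stepOf r (n' + j) = k' * 2 ^ j :=
      stepOf_of_eq (by rw [hk']; exact (steps_mul_hh k' n' j).symm)
    unfold magT
    rw [hs, stepOf_of_eq hk']
    simp_rw [sub_sq_comm]
    exact (mesh_key hθ T v hW n' j k' (hk' ▸ hrT)).trans (hn₀ n' hn').le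

end main

end Crest.Agent.IsingFactor
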