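import Crest.Agent.IsingFactor.StrictLaw

/-!
# IsingFactor.StrictPair (WP IF-StrictPair): the pair inequality at the level of limit fields.

Windows `W₁ = W₂ = tball v R_n`, mesh `n`, `k` from `s/h` to `t/h`: sum `pair_step`.  `covS = covPath` in `W` (`covS_eq_covPath`), `covPath` is Lipschitz in finitely many `m`'s and messages, so by `wcM`, `wcN`
`E (covS¹ - covS²)²(r) ≤ E (covPath¹ - covPath²)²(r) + small` for `u ∈ tball v R`, uniformly in `r ≤ t`; for `u ∉ tball v R` it is `≤ 2 θ₁^{2d} + 2 θ₂^{2d}`, summable by `θ_i² q < 1`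
(`abs_covS_le_pow`, `card_sphere`).  The defect `64 (2 |W|²) h² × (t/h)` vanishes as `n → ∞` for fixed `R_n`.
Statements may be ADDED; do not change the ones below without posting on chat (topic S0241), other packages use them.
-/

set_option autoImplicit false

open MeasureTheory ProbabilityTheory Filter Topology
open Crest.Agent.SRFactor Crest.ProbabilityR.Labels

namespace Crest.Agent.IsingFactor

variable {V : Type*} [DecidableEq V] {G : SimpleGraph V}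

namespace StrictPairAux

/-! ### Dyadic times -/

lemma hh_pos' (n : ℕ) : 0 < hh n := by
  unfold hh
  positivity

lemma stepOf_eq {r : ℝ} {n k : ℕ} (h : r = k * hh n) : stepOf r n = k := by
  unfold stepOf
  rw [h, mul_div_cancel_right₀ _ (hh_pos' n).ne']
  exact Nat.floor_natCast k

lemma Dy_mono {n n' : ℕ} (h : n ≤ n') {r : ℝ} (hr : Dy n r) : Dy n' r := by
  obtain ⟨k, rfl⟩ := hr
  refine ⟨k * 2 ^ (n' - n), ?_⟩
  obtain ⟨m, rfl⟩ := Nat.exists_eq_add_of_le h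
  simp only [hh, Nat.add_sub_cancel_left, Nat.cast_mul, Nat.cast_pow, Nat.cast_ofNat, pow_add]
  have : (2 : ℝ) ^ m * (1 / 2 : ℝ) ^ m = 1 := by
    rw [← mul_pow]
    norm_num
  calc (k : ℝ) * (1 / 2) ^ n = k * (1 / 2) ^ n * ((2 : ℝ) ^ m * (1 / 2 : ℝ) ^ m) := by
        rw [this, mul_one]
    _ = _ := by ring

/-! ### Elementary inequalities -/

lemma sq_add_le_eta (a b : ℝ) {η : ℝ} (hη : 0 < η) :
    (a + b) ^ 2 ≤ (1 + η) * a ^ 2 + (1 + 1 / η) * b ^ 2 := by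
  have h1 : 2 * (a * b) ≤ η * a ^ 2 + 1 / η * b ^ 2 := by
    have h2 : 0 ≤ (η * a - b) ^ 2 / η := by positivity
    have h3 : (η * a - b) ^ 2 / η = η * a ^ 2 + 1 / η * b ^ 2 - 2 * (a * b) := by
      field_simp
      ring
    linarith
  nlinarith

lemma sq_sub_split (f₁ f₂ g₁ g₂ : ℝ) {η : ℝ} (hη : 0 < η) :
    (f₁ - f₂) ^ 2 ≤ (1 + η) * (g₁ - g₂) ^ 2 + 2 * (1 + 1 / η) * ((f₁ - g₁) ^ 2 + (f₂ - g₂) ^ 2) := by
  have h := sq_add_le_eta (g₁ - g₂) ((f₁ - g₁) - (f₂ - g₂)) hη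
  have e : g₁ - g₂ + ((f₁ - g₁) - (f₂ - g₂)) = f₁ - f₂ := by ring
  rw [e] at h
  have h2 : ((f₁ - g₁) - (f₂ - g₂)) ^ 2 ≤ 2 * ((f₁ - g₁) ^ 2 + (f₂ - g₂) ^ 2) := by
    nlinarith [sq_nonneg ((f₁ - g₁) + (f₂ - g₂))]
  have h3 : 0 ≤ 1 + 1 / η := by positivity
  have h4 := mul_le_mul_of_nonneg_left h2 h3
  linarith

lemma abs_prod_le_one' (a : ℕ → ℝ) (d : ℕ) (ha : ∀ j < d, |a j| ≤ 1) :
    |∏ j ∈ Finset.range d, a j| ≤ 1 := by
  rw [Finset.abs_prod]
  exact Finset.prod_le_one (fun _ _ => abs_nonneg _) fun j hj => ha j (Finset.mem_range.1 hj)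

lemma abs_prod_sub_prod_le (a b : ℕ → ℝ) (d : ℕ) (ha : ∀ j < d, |a j| ≤ 1)
    (hb : ∀ j < d, |b j| ≤ 1) :
    |∏ j ∈ Finset.range d, a j - ∏ j ∈ Finset.range d, b j| ≤ ∑ j ∈ Finset.range d, |a j - b j| := by
  induction d with
  | zero => simp
  | succ d ih =>
    have ih' := ih (fun j hj => ha j (by omega)) (fun j hj => hb j (by omega))
    rw [Finset.prod_range_succ, Finset.prod_range_succ, Finset.sum_range_succ]
    have e : (∏ j ∈ Finset.range d, a j) * a d - (∏ j ∈ Finset.range d, b j) * b d =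
        (∏ j ∈ Finset.range d, a j - ∏ j ∈ Finset.range d, b j) * a d
          + (∏ j ∈ Finset.range d, b j) * (a d - b d) := by ring
    rw [e]
    have h1 : |(∏ j ∈ Finset.range d, a j - ∏ j ∈ Finset.range d, b j) * a d| ≤
        ∑ j ∈ Finset.range d, |a j - b j| := by
      rw [abs_mul]
      have := ha d (by omega)
      calc _ ≤ |∏ j ∈ Finset.range d, a j - ∏ j ∈ Finset.range d, b j| * 1 := by gcongr
        _ ≤ _ := by rw [mul_one]; exact ih'
    have h2 : |(∏ j ∈ Finset.range d, b j) * (a d - b d)| ≤ |a d - b d| := by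
      rw [abs_mul]
      have := abs_prod_le_one' b d (fun j hj => hb j (by omega))
      calc _ ≤ 1 * |a d - b d| := by gcongr
        _ = _ := one_mul _
    exact (abs_add_le _ _).trans (add_le_add h1 h2)

lemma abs_Gf_le_one {θ ν : ℝ} (hθ : GoodTheta θ) (hν : |ν| ≤ 1) : |Gf θ ν| ≤ 1 :=
  (abs_Gf_le hθ hν).trans hθ.lt_one.le

lemma Gf_sub_le_same {θ ν ν' : ℝ} (hθ : GoodTheta θ) (hν : |ν| ≤ 1) (hν' : |ν'| ≤ 1) :
    |Gf θ ν - Gf θ ν'| ≤ 4 * |ν - ν'| := by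
  have h := Gf_sub_le hθ hθ hν hν'
  simp only [sub_self, abs_zero, mul_zero, add_zero] at h
  have h3 : 2 * (|ν| + |ν'|) * |ν - ν'| ≤ 2 * (1 + 1) * |ν - ν'| := by gcongr
  linarith

/-- `covPath` is Lipschitz in the magnetisation at `v` and the messages along the path. -/
lemma covPath_sub_sq_le {θ : ℝ} (hθ : GoodTheta θ) (m m' : V → ℝ) (ν ν' : V → V → ℝ) (v u : V)
    (hm : |m v| ≤ 1) (hm' : |m' v| ≤ 1)
    (hν : ∀ j < G.dist v u, |ν (pathV G v u (j + 1)) (pathV G v u j)| ≤ 1)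
    (hν' : ∀ j < G.dist v u, |ν' (pathV G v u (j + 1)) (pathV G v u j)| ≤ 1) :
    (covPath G θ m ν v u - covPath G θ m' ν' v u) ^ 2 ≤
      8 * (m v - m' v) ^ 2 + 32 * (G.dist v u : ℝ) * ∑ j ∈ Finset.range (G.dist v u),
        (ν (pathV G v u (j + 1)) (pathV G v u j) - ν' (pathV G v u (j + 1)) (pathV G v u j)) ^ 2 := by
  set d := G.dist v u with hd
  set a : ℕ → ℝ := fun j => Gf θ (ν (pathV G v u (j + 1)) (pathV G v u j)) with ha
  set b : ℕ → ℝ := fun j => Gf θ (ν' (pathV G v u (j + 1)) (pathV G v u j)) with hb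
  set c : ℕ → ℝ := fun j => ν (pathV G v u (j + 1)) (pathV G v u j)
    - ν' (pathV G v u (j + 1)) (pathV G v u j) with hc
  have ha1 : ∀ j < d, |a j| ≤ 1 := fun j hj => abs_Gf_le_one hθ (hν j hj)
  have hb1 : ∀ j < d, |b j| ≤ 1 := fun j hj => abs_Gf_le_one hθ (hν' j hj)
  have hA := abs_prod_le_one' a d ha1
  have hAB := abs_prod_sub_prod_le a b d ha1 hb1
  have hS : ∑ j ∈ Finset.range d, |a j - b j| ≤ 4 * ∑ j ∈ Finset.range d, |c j| := by
    rw [Finset.mul_sum]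
    refine Finset.sum_le_sum fun j hj => ?_
    have hj' := Finset.mem_range.1 hj
    exact Gf_sub_le_same hθ (hν j hj') (hν' j hj')
  have hS2 : (∑ j ∈ Finset.range d, |c j|) ^ 2 ≤ (d : ℝ) * ∑ j ∈ Finset.range d, c j ^ 2 := by
    have := sq_sum_le_card_mul_sum_sq (s := Finset.range d) (f := fun j => |c j|)
    simpa [sq_abs] using this
  have e : covPath G θ m ν v u - covPath G θ m' ν' v u =
      (m' v ^ 2 - m v ^ 2) * (∏ j ∈ Finset.range d, a j)
        + (1 - m' v ^ 2) * (∏ j ∈ Finset.range d, a j - ∏ j ∈ Finset.range d, b j) := by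
    simp only [covPath, ha, hb, hd]
    ring
  set S := ∑ j ∈ Finset.range d, |c j| with hSdef
  have hS0 : 0 ≤ S := Finset.sum_nonneg fun _ _ => abs_nonneg _
  have t1 : |(m' v ^ 2 - m v ^ 2) * (∏ j ∈ Finset.range d, a j)| ≤ 2 * |m v - m' v| := by
    rw [abs_mul]
    have h1 : |m' v ^ 2 - m v ^ 2| ≤ 2 * |m v - m' v| := by
      have e1 : m' v ^ 2 - m v ^ 2 = (m' v + m v) * (m' v - m v) := by ring
      rw [e1, abs_mul, abs_sub_comm (m' v) (m v)]
      have : |m' v + m v| ≤ 2 := (abs_add_le _ _).trans (by linarith)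
      gcongr
    calc _ ≤ |m' v ^ 2 - m v ^ 2| * 1 := by gcongr
      _ ≤ _ := by linarith
  have t2 : |(1 - m' v ^ 2) * (∏ j ∈ Finset.range d, a j - ∏ j ∈ Finset.range d, b j)| ≤ 4 * S := by
    rw [abs_mul]
    have h1 : |1 - m' v ^ 2| ≤ 1 := by
      have : m' v ^ 2 ≤ 1 := by
        rw [← sq_abs]
        nlinarith [abs_nonneg (m' v)]
      rw [abs_le]
      constructor <;> nlinarith [sq_nonneg (m' v)]
    calc _ ≤ 1 * |∏ j ∈ Finset.range d, a j - ∏ j ∈ Finset.range d, b j| := by gcongr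
      _ ≤ _ := by linarith
  have t3 : |covPath G θ m ν v u - covPath G θ m' ν' v u| ≤ 2 * |m v - m' v| + 4 * S := by
    rw [e]
    exact (abs_add_le _ _).trans (add_le_add t1 t2)
  have t4 : (covPath G θ m ν v u - covPath G θ m' ν' v u) ^ 2 ≤ (2 * |m v - m' v| + 4 * S) ^ 2 := by
    rw [← sq_abs]
    exact pow_le_pow_left₀ (abs_nonneg _) t3 2
  have t5 : (2 * |m v - m' v| + 4 * S) ^ 2 ≤ 8 * (m v - m' v) ^ 2 + 32 * S ^ 2 := by
    have := sq_nonneg (2 * |m v - m' v| - 4 * S)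
    have h2 := sq_abs (m v - m' v)
    nlinarith
  have hd0 : (0 : ℝ) ≤ 32 := by norm_num
  calc _ ≤ 8 * (m v - m' v) ^ 2 + 32 * S ^ 2 := t4.trans t5
    _ ≤ 8 * (m v - m' v) ^ 2 + 32 * ((d : ℝ) * ∑ j ∈ Finset.range d, c j ^ 2) := by gcongr
    _ = _ := by ring

/-! ### Integrals of bounded functions -/

section integrals
variable {Ω : Type*} [MeasurableSpace Ω] {μ : Measure Ω} [IsProbabilityMeasure μ]

lemma integrable_sq_sub {f g : Ω → ℝ} (hf : Measurable f) (hg : Measurable g) {A B : ℝ}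
    (hfb : ∀ ω, |f ω| ≤ A) (hgb : ∀ ω, |g ω| ≤ B) : Integrable (fun ω => (f ω - g ω) ^ 2) μ := by
  refine Integrable.of_bound ((hf.sub hg).pow_const 2).aestronglyMeasurable ((A + B) ^ 2)
    (Eventually.of_forall fun ω => ?_)
  rw [Real.norm_eq_abs, abs_of_nonneg (sq_nonneg _), ← sq_abs]
  exact pow_le_pow_left₀ (abs_nonneg _) ((abs_sub _ _).trans (add_le_add (hfb ω) (hgb ω))) 2

lemma integral_sq_nonneg' (f : Ω → ℝ) : 0 ≤ ∫ ω, f ω ^ 2 ∂μ :=
  integral_nonneg fun _ => sq_nonneg _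

/-- Integrated splitting. -/
lemma integral_sq_split {f₁ f₂ g₁ g₂ : Ω → ℝ} (hf₁ : Measurable f₁) (hf₂ : Measurable f₂)
    (hg₁ : Measurable g₁) (hg₂ : Measurable g₂) (bf₁ : ∀ ω, |f₁ ω| ≤ 1) (bf₂ : ∀ ω, |f₂ ω| ≤ 1)
    (bg₁ : ∀ ω, |g₁ ω| ≤ 1) (bg₂ : ∀ ω, |g₂ ω| ≤ 1) {η : ℝ} (hη : 0 < η) :
    ∫ ω, (f₁ ω - f₂ ω) ^ 2 ∂μ ≤ (1 + η) * ∫ ω, (g₁ ω - g₂ ω) ^ 2 ∂μ
      + 2 * (1 + 1 / η) * (∫ ω, (f₁ ω - g₁ ω) ^ 2 ∂μ + ∫ ω, (f₂ ω - g₂ ω) ^ 2 ∂μ) := by
  have i0 := integrable_sq_sub (μ := μ) hf₁ hf₂ bf₁ bf₂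
  have i1 := integrable_sq_sub (μ := μ) hg₁ hg₂ bg₁ bg₂
  have i2 := integrable_sq_sub (μ := μ) hf₁ hg₁ bf₁ bg₁
  have i3 := integrable_sq_sub (μ := μ) hf₂ hg₂ bf₂ bg₂
  have i4 : Integrable (fun ω => (f₁ ω - g₁ ω) ^ 2 + (f₂ ω - g₂ ω) ^ 2) μ := i2.add i3
  have e : (1 + η) * ∫ ω, (g₁ ω - g₂ ω) ^ 2 ∂μ
      + 2 * (1 + 1 / η) * (∫ ω, (f₁ ω - g₁ ω) ^ 2 ∂μ + ∫ ω, (f₂ ω - g₂ ω) ^ 2 ∂μ) =
      ∫ ω, ((1 + η) * (g₁ ω - g₂ ω) ^ 2
        + 2 * (1 + 1 / η) * ((f₁ ω - g₁ ω) ^ 2 + (f₂ ω - g₂ ω) ^ 2)) ∂μ := by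
    rw [integral_add (i1.const_mul _) (i4.const_mul _), integral_const_mul, integral_const_mul,
      integral_add i2 i3]
  rw [e]
  exact integral_mono i0 ((i1.const_mul _).add (i4.const_mul _)) fun ω => sq_sub_split _ _ _ _ hη

/-- Summation over the window of the covariance differences: inside `W₀` compare with the limit,
outside use a deterministic tail. -/
lemma cov_sum_le {W₀ W : Finset V} (hsub : W₀ ⊆ W) {f₁ f₂ g₁ g₂ : V → Ω → ℝ}
    (hf₁ : ∀ u, Measurable (f₁ u)) (hf₂ : ∀ u, Measurable (f₂ u))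
    (hg₁ : ∀ u, Measurable (g₁ u)) (hg₂ : ∀ u, Measurable (g₂ u))
    (bf₁ : ∀ u ω, |f₁ u ω| ≤ 1) (bf₂ : ∀ u ω, |f₂ u ω| ≤ 1)
    (bg₁ : ∀ u ω, |g₁ u ω| ≤ 1) (bg₂ : ∀ u ω, |g₂ u ω| ≤ 1) {η δ τ B : ℝ} (hη : 0 < η)
    (h₁ : ∀ u ∈ W₀, ∫ ω, (f₁ u ω - g₁ u ω) ^ 2 ∂μ ≤ δ)
    (h₂ : ∀ u ∈ W₀, ∫ ω, (f₂ u ω - g₂ u ω) ^ 2 ∂μ ≤ δ)
    (hB : ∑ u ∈ W₀, ∫ ω, (g₁ u ω - g₂ u ω) ^ 2 ∂μ ≤ B) (t : V → ℝ)
    (ht : ∀ u ∈ W \ W₀, ∀ ω, (f₁ u ω - f₂ u ω) ^ 2 ≤ t u) (htt : ∑ u ∈ W \ W₀, t u ≤ τ) :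
    ∑ u ∈ W, ∫ ω, (f₁ u ω - f₂ u ω) ^ 2 ∂μ
      ≤ (1 + η) * B + 2 * (1 + 1 / η) * ((W₀.card : ℝ) * (2 * δ)) + τ := by
  have hc : 0 ≤ 2 * (1 + 1 / η) := by positivity
  have e : ∑ u ∈ W, ∫ ω, (f₁ u ω - f₂ u ω) ^ 2 ∂μ =
      ∑ u ∈ W \ W₀, ∫ ω, (f₁ u ω - f₂ u ω) ^ 2 ∂μ + ∑ u ∈ W₀, ∫ ω, (f₁ u ω - f₂ u ω) ^ 2 ∂μ :=
    (Finset.sum_sdiff hsub).symm
  have p1 : ∑ u ∈ W \ W₀, ∫ ω, (f₁ u ω - f₂ u ω) ^ 2 ∂μ ≤ τ := by
    refine le_trans (Finset.sum_le_sum fun u hu => ?_) htt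
    have := integral_mono (μ := μ) (integrable_sq_sub (hf₁ u) (hf₂ u) (bf₁ u) (bf₂ u))
      (integrable_const (t u)) (ht u hu)
    simpa using this
  have p2 : ∑ u ∈ W₀, ∫ ω, (f₁ u ω - f₂ u ω) ^ 2 ∂μ ≤
      ∑ u ∈ W₀, ((1 + η) * (∫ ω, (g₁ u ω - g₂ u ω) ^ 2 ∂μ) + 2 * (1 + 1 / η) * (2 * δ)) := by
    refine Finset.sum_le_sum fun u hu => ?_
    refine (integral_sq_split (hf₁ u) (hf₂ u) (hg₁ u) (hg₂ u) (bf₁ u) (bf₂ u) (bg₁ u) (bg₂ u)
      hη).trans ?_
    have := h₁ u hu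
    have := h₂ u hu
    gcongr
    linarith
  rw [Finset.sum_add_distrib, ← Finset.mul_sum, Finset.sum_const, nsmul_eq_mul] at p2
  have p3 : (1 + η) * ∑ u ∈ W₀, ∫ ω, (g₁ u ω - g₂ u ω) ^ 2 ∂μ ≤ (1 + η) * B := by gcongr
  rw [e]
  have e2 : (W₀.card : ℝ) * (2 * (1 + 1 / η) * (2 * δ)) =
      2 * (1 + 1 / η) * ((W₀.card : ℝ) * (2 * δ)) := by ring
  rw [e2] at p2
  linarith

end integrals

/-! ### Measurability of the finite level fields -/

lemma meas_gAvg (θ : ℝ) (W : Finset V) (f : Finset V → ℝ) :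
    Measurable (fun l : V → ℝ => gAvg G θ W l f) := by
  have hexp : ∀ S : Finset V, Measurable (fun l : V → ℝ => Real.exp (∑ i ∈ S, l i)) := fun S =>
    Real.measurable_exp.comp (Finset.measurable_sum _ fun i _ => measurable_pi_apply i)
  unfold gAvg Zf
  refine Measurable.div ?_ ?_
  · exact Finset.measurable_sum _ fun S _ => ((hexp S).const_mul _).mul_const _
  · exact Finset.measurable_sum _ fun S _ => (hexp S).const_mul _

lemma meas_magn (θ : ℝ) (W : Finset V) (v : V) : Measurable (fun l : V → ℝ => magn G θ W l v) :=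
  meas_gAvg θ W _

lemma meas_covS (θ : ℝ) (W : Finset V) (v u : V) : Measurable (fun l : V → ℝ => covS G θ W l v u) :=
  (meas_gAvg θ W _).sub ((meas_magn θ W v).mul (meas_magn θ W u))

lemma meas_lamI [Countable V] (θ : ℝ) (W : Finset V) (n k : ℕ) :
    Measurable (fun ω : V → unitInterval => lamI G θ W n (xiL ω) k) := by
  have h1 : Measurable fun ω : V → unitInterval => levelNoise (xiL ω) n :=
    measurable_pi_lambda _ fun j => measurable_pi_lambda _ fun e =>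
      (isDyadicNoise_xiL (V := V)).meas e n j
  refine measurable_pi_lambda _ fun g => ?_
  exact ((measurable_euler (isingW G θ W) W (hh n) k g).comp h1).sub_const _

lemma meas_Gf (θ : ℝ) : Measurable (Gf θ) := by
  unfold Gf
  exact (measurable_const.mul (measurable_const.sub (measurable_id.pow_const 2))).div
    (measurable_const.sub (measurable_const.mul (measurable_id.pow_const 2)))

/-- The limit covariance. -/
noncomputable abbrev cP (G : SimpleGraph V) (θ : ℝ) (M : ℝ → V → (V → unitInterval) → ℝ)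
    (N : ℝ → V → V → (V → unitInterval) → ℝ) (r : ℝ) (v u : V) (ω : V → unitInterval) : ℝ :=
  covPath G θ (fun w => M r w ω) (fun y x => N r y x ω) v u

section sol
variable [G.LocallyFinite]

lemma meas_cP {θ : ℝ} {M : ℝ → V → (V → unitInterval) → ℝ}
    {N : ℝ → V → V → (V → unitInterval) → ℝ} (hS : IsSol G θ M N) (r : ℝ) (v u : V) :
    Measurable (cP G θ M N r v u) := by
  unfold cP covPath
  exact (measurable_const.sub ((hS.measM r v).pow_const 2)).mul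
    (Finset.measurable_prod _ fun j _ => (meas_Gf θ).comp (hS.measN r _ _))

lemma abs_cP_le {θ : ℝ} (hθ : GoodTheta θ) {M : ℝ → V → (V → unitInterval) → ℝ}
    {N : ℝ → V → V → (V → unitInterval) → ℝ} (hS : IsSol G θ M N) (r : ℝ) (v u : V)
    (ω : V → unitInterval) : |cP G θ M N r v u ω| ≤ 1 := by
  unfold cP covPath
  beta_reduce
  rw [abs_mul]
  have h1 : |1 - M r v ω ^ 2| ≤ 1 := by
    have hb := hS.bdM r v ω
    have : M r v ω ^ 2 ≤ 1 := by
      rw [← sq_abs]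
      nlinarith [abs_nonneg (M r v ω)]
    rw [abs_le]
    constructor <;> nlinarith [sq_nonneg (M r v ω)]
  have h2 := abs_prod_le_one' (fun j => Gf θ (N r (pathV G v u (j + 1)) (pathV G v u j) ω))
    (G.dist v u) (fun j _ => abs_Gf_le_one hθ (hS.bdN r _ _ ω))
  exact (mul_le_mul h1 h2 (abs_nonneg _) zero_le_one).trans (by norm_num)

end sol

/-! ### The tail of the sum over the vertices -/

section tail
variable [G.LocallyFinite] {q : ℕ}

/-- The tail over the sphere counts. -/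
lemma tail_le (hT : G.IsTree) (hreg : G.IsRegularOfDegree (q + 1)) (hq : 2 ≤ q) {θ : ℝ}
    (h0 : 0 ≤ θ) (hρ : θ ^ 2 * q < 1) (v : V) (R₀ R : ℕ) :
    ∑ u ∈ tball G v R \ tball G v R₀, θ ^ (2 * G.dist v u) ≤
      2 * (θ ^ 2 * q) ^ (R₀ + 1) / (1 - θ ^ 2 * q) := by
  classical
  set ρ := θ ^ 2 * (q : ℝ) with hρdef
  have hρ0 : 0 ≤ ρ := by positivity
  have hmaps : ∀ u ∈ tball G v R \ tball G v R₀, G.dist v u ∈ Finset.Ico (R₀ + 1) (R + 1) := by
    intro u hu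
    rw [Finset.mem_sdiff, mem_tball hT, mem_tball hT] at hu
    rw [Finset.mem_Ico]
    omega
  rw [← Finset.sum_fiberwise_of_maps_to hmaps]
  have hd : ∀ d ∈ Finset.Ico (R₀ + 1) (R + 1),
      ∑ u ∈ (tball G v R \ tball G v R₀).filter (fun u => G.dist v u = d), θ ^ (2 * G.dist v u)
        ≤ 2 * ρ ^ d := by
    intro d hd
    have hd1 : 1 ≤ d := by
      have := (Finset.mem_Ico.1 hd).1
      omega
    have h1 : ∑ u ∈ (tball G v R \ tball G v R₀).filter (fun u => G.dist v u = d),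
        θ ^ (2 * G.dist v u) =
        (((tball G v R \ tball G v R₀).filter (fun u => G.dist v u = d)).card : ℝ) * θ ^ (2 * d) := by
      rw [← nsmul_eq_mul, ← Finset.sum_const]
      refine Finset.sum_congr rfl fun u hu => ?_
      rw [(Finset.mem_filter.1 hu).2]
    rw [h1]
    have h2 : ((tball G v R \ tball G v R₀).filter (fun u => G.dist v u = d)).card ≤
        ((tball G v d).filter (fun w => G.dist v w = d)).card := by
      refine Finset.card_le_card fun u hu => ?_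
      rw [Finset.mem_filter] at hu ⊢
      exact ⟨(mem_tball hT).2 hu.2.le, hu.2⟩
    rw [card_sphere hT hreg, if_neg (by omega)] at h2
    obtain ⟨e, rfl⟩ : ∃ e, d = e + 1 := ⟨d - 1, by omega⟩
    simp only [Nat.add_sub_cancel] at h2
    have h3 : (((tball G v R \ tball G v R₀).filter (fun u => G.dist v u = e + 1)).card : ℝ) ≤
        ((q : ℝ) + 1) * (q : ℝ) ^ e := by exact_mod_cast h2
    have hq1 : (2 : ℝ) ≤ q := by exact_mod_cast hq
    have h4 : (θ : ℝ) ^ (2 * (e + 1)) = (θ ^ 2) ^ (e + 1) := by rw [pow_mul]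
    have h5 : ρ ^ (e + 1) = (θ ^ 2) ^ (e + 1) * (q : ℝ) ^ (e + 1) := by rw [hρdef, mul_pow]
    have h6 : 0 ≤ (θ ^ 2) ^ (e + 1) := by positivity
    have h7 : 0 ≤ (q : ℝ) ^ e := by positivity
    calc _ ≤ ((q : ℝ) + 1) * (q : ℝ) ^ e * θ ^ (2 * (e + 1)) := by gcongr
      _ ≤ 2 * ((q : ℝ) * (q : ℝ) ^ e) * (θ ^ 2) ^ (e + 1) := by
        rw [h4]
        have : ((q : ℝ) + 1) * (q : ℝ) ^ e ≤ 2 * ((q : ℝ) * (q : ℝ) ^ e) := by nlinarith
        gcongr
      _ = 2 * ρ ^ (e + 1) := by rw [h5, pow_succ (q : ℝ) e]; ring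
  refine (Finset.sum_le_sum hd).trans ?_
  rw [← Finset.mul_sum, mul_div_assoc]
  gcongr
  exact geom_sum_Ico_le_of_lt_one hρ0 hρ

lemma tail_tendsto {ρ : ℝ} (h0 : 0 ≤ ρ) (h1 : ρ < 1) :
    Tendsto (fun R₀ : ℕ => 2 * ρ ^ (R₀ + 1) / (1 - ρ)) atTop (𝓝 0) := by
  have h := (tendsto_pow_atTop_nhds_zero_of_lt_one h0 h1).comp (tendsto_add_atTop_nat 1)
  have h2 := (h.const_mul 2).div_const (1 - ρ)
  simpa using h2

end tail

end StrictPairAux

namespace StrictPairAux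

section close
variable [G.LocallyFinite]

/-- The finite level covariance is close to the limit covariance, uniformly in the time. -/
theorem covS_close (hT : G.IsTree) {θ : ℝ} (hθ : GoodTheta θ) {M : ℝ → V → (V → unitInterval) → ℝ}
    {N : ℝ → V → V → (V → unitInterval) → ℝ} (hS : IsSol G θ M N) (T δ : ℝ) (hδ : 0 < δ) (v : V)
    (R₀ : ℕ) :
    ∃ R₁ : ℕ, ∀ R ≥ R₁, ∀ᶠ n in atTop, ∀ r, Dy n r → r ≤ T → ∀ u ∈ tball G v R₀,
      ∫ ω, (covS G θ (tball G v R) (lamI G θ (tball G v R) n (xiL ω) (stepOf r n)) v u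
          - cP G θ M N r v u ω) ^ 2 ∂labelMeasure V ≤ δ := by
  have := countable_of_isTree hT
  set K : ℝ := 8 + 32 * ((R₀ : ℝ) * R₀) with hK
  have hK0 : 0 < K := by positivity
  set δ' := δ / K with hδ'def
  have hδ' : 0 < δ' := div_pos hδ hK0
  obtain ⟨RM, hRM⟩ := hS.wcM T δ' hδ'
  obtain ⟨RN, hRN⟩ := hS.wcN T δ' hδ'
  refine ⟨R₀ + max RM RN, fun R hR => ?_⟩
  set W := tball G v R with hW
  have hconv : Conv G W := conv_tball hT v R
  have hsubM : tball G v RM ⊆ W := fun w hw => by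
    rw [mem_tball hT] at hw
    rw [hW, mem_tball hT]
    have := le_max_left RM RN
    omega
  have hsubN : ∀ y ∈ tball G v R₀, tball G y RN ⊆ W := fun y hy w hw => by
    rw [mem_tball hT] at hy hw
    rw [hW, mem_tball hT]
    have h1 := ttri hT v y w
    have := le_max_right RM RN
    omega
  obtain ⟨nM, hnM⟩ := hRM W v hconv hsubM
  have hN : ∀ᶠ n in atTop, ∀ p ∈ tball G v R₀ ×ˢ tball G v R₀, G.Adj p.1 p.2 → ∀ r, Dy n r → r ≤ T →
      ∫ ω, (msgT G θ W n r (xiL ω) p.1 p.2 - N r p.1 p.2 ω) ^ 2 ∂labelMeasure V ≤ δ' := by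
    rw [Filter.eventually_all_finset]
    intro p hp
    by_cases hadj : G.Adj p.1 p.2
    · obtain ⟨n₀, h⟩ := hRN W p.1 p.2 hconv hadj (hsubN p.1 (Finset.mem_product.1 hp).1)
      filter_upwards [eventually_ge_atTop n₀] with n hn _ r hr hrT
      exact h n hn r hr hrT
    · exact Eventually.of_forall fun _ h => absurd h hadj
  filter_upwards [hN, eventually_ge_atTop nM] with n hNn hMn r hr hrT u hu
  have hdu : G.dist v u ≤ R₀ := (mem_tball hT).1 hu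
  have hvW : v ∈ W := (mem_tball hT).2 (by simp)
  have huW : u ∈ W := by
    rw [hW, mem_tball hT]
    have := le_max_left RM RN
    omega
  set d := G.dist v u with hd
  have hgeo := isGeo_pathV hT v u
  have hpath : ∀ j ≤ d, pathV G v u j ∈ tball G v R₀ := by
    intro j hj
    rw [mem_tball hT]
    have := hgeo 0 j (Nat.zero_le _) hj
    rw [pathV_zero] at this
    rw [this]
    simp only [Nat.dist]
    omega
  set lam : (V → unitInterval) → V → ℝ := fun ω => lamI G θ W n (xiL ω) (stepOf r n) with hlam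
  have hlamM : Measurable lam := meas_lamI θ W n (stepOf r n)
  have hpt : ∀ ω, (covS G θ W (lam ω) v u - cP G θ M N r v u ω) ^ 2 ≤
      8 * (magn G θ W (lam ω) v - M r v ω) ^ 2 + 32 * (d : ℝ) * ∑ j ∈ Finset.range d,
        (msg G θ W (lam ω) (pathV G v u (j + 1)) (pathV G v u j)
          - N r (pathV G v u (j + 1)) (pathV G v u j) ω) ^ 2 := by
    intro ω
    rw [covS_eq_covPath hT hθ hconv _ hvW huW]
    exact covPath_sub_sq_le hθ _ _ _ _ v u (abs_magn_le_one hθ W _ v) (hS.bdM r v ω)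
      (fun j _ => abs_msg_le_one hθ W _ _ _) (fun j _ => hS.bdN r _ _ ω)
  have i0 : Integrable (fun ω => (covS G θ W (lam ω) v u - cP G θ M N r v u ω) ^ 2)
      (labelMeasure V) :=
    integrable_sq_sub ((meas_covS θ W v u).comp hlamM) (meas_cP hS r v u)
      (fun ω => abs_covS_le_one hθ W _ v u) (abs_cP_le hθ hS r v u)
  have i1 : Integrable (fun ω => (magn G θ W (lam ω) v - M r v ω) ^ 2) (labelMeasure V) :=
    integrable_sq_sub ((meas_magn θ W v).comp hlamM) (hS.measM r v)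
      (fun ω => abs_magn_le_one hθ W _ v) (hS.bdM r v)
  have i2 : ∀ j ∈ Finset.range d, Integrable (fun ω =>
      (msg G θ W (lam ω) (pathV G v u (j + 1)) (pathV G v u j)
        - N r (pathV G v u (j + 1)) (pathV G v u j) ω) ^ 2) (labelMeasure V) := fun j _ =>
    integrable_sq_sub ((meas_magn θ _ _).comp hlamM) (hS.measN r _ _)
      (fun ω => abs_msg_le_one hθ W _ _ _) (hS.bdN r _ _)
  have hM1 : ∫ ω, (magn G θ W (lam ω) v - M r v ω) ^ 2 ∂labelMeasure V ≤ δ' :=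
    hnM n hMn r hr hrT
  have hN1 : ∀ j ∈ Finset.range d, ∫ ω,
      (msg G θ W (lam ω) (pathV G v u (j + 1)) (pathV G v u j)
        - N r (pathV G v u (j + 1)) (pathV G v u j) ω) ^ 2 ∂labelMeasure V ≤ δ' := by
    intro j hj
    have hj' := Finset.mem_range.1 hj
    exact hNn (pathV G v u (j + 1), pathV G v u j)
      (Finset.mem_product.2 ⟨hpath _ (by omega), hpath _ (by omega)⟩)
      (adj_pathV hT hj').symm r hr hrT
  have hd0 : (0 : ℝ) ≤ d := Nat.cast_nonneg _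
  have hdR : (d : ℝ) ≤ R₀ := by exact_mod_cast hdu
  calc ∫ ω, (covS G θ W (lam ω) v u - cP G θ M N r v u ω) ^ 2 ∂labelMeasure V
      ≤ ∫ ω, (8 * (magn G θ W (lam ω) v - M r v ω) ^ 2 + 32 * (d : ℝ) * ∑ j ∈ Finset.range d,
        (msg G θ W (lam ω) (pathV G v u (j + 1)) (pathV G v u j)
          - N r (pathV G v u (j + 1)) (pathV G v u j) ω) ^ 2) ∂labelMeasure V :=
        integral_mono i0 ((i1.const_mul 8).add ((integrable_finsetSum _ i2).const_mul _)) hpt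
    _ = 8 * ∫ ω, (magn G θ W (lam ω) v - M r v ω) ^ 2 ∂labelMeasure V
        + 32 * (d : ℝ) * ∑ j ∈ Finset.range d, ∫ ω,
          (msg G θ W (lam ω) (pathV G v u (j + 1)) (pathV G v u j)
            - N r (pathV G v u (j + 1)) (pathV G v u j) ω) ^ 2 ∂labelMeasure V := by
        rw [integral_add (i1.const_mul 8) ((integrable_finsetSum _ i2).const_mul _),
          integral_const_mul, integral_const_mul, integral_finsetSum _ i2]
    _ ≤ 8 * δ' + 32 * (d : ℝ) * ((d : ℝ) * δ') := by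
        have : ∑ j ∈ Finset.range d, ∫ ω,
          (msg G θ W (lam ω) (pathV G v u (j + 1)) (pathV G v u j)
            - N r (pathV G v u (j + 1)) (pathV G v u j) ω) ^ 2 ∂labelMeasure V ≤ (d : ℝ) * δ' := by
          have := Finset.sum_le_card_nsmul _ _ _ hN1
          simpa using this
        gcongr
    _ ≤ K * δ' := by
        rw [hK]
        have : (d : ℝ) * d ≤ R₀ * R₀ := by gcongr
        have h3 : (d : ℝ) * (d * δ') ≤ R₀ * R₀ * δ' := by
          rw [← mul_assoc]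
          gcongr
        nlinarith
    _ = δ := by
        rw [hδ'def]
        field_simp

end close

section chain
variable {θ₁ θ₂ : ℝ} [Countable V]

/-- The difference at finite level. -/
noncomputable abbrev aK (G : SimpleGraph V) (θ₁ θ₂ : ℝ) (W : Finset V) (n : ℕ) (v : V) (k : ℕ) : ℝ :=
  ∫ ω, (magn G θ₁ W (lamI G θ₁ W n (xiL ω) k) v - magn G θ₂ W (lamI G θ₂ W n (xiL ω) k) v) ^ 2
    ∂labelMeasure V

lemma chain_upper (h₁ : GoodTheta θ₁) (h₂ : GoodTheta θ₂) (W : Finset V) (n : ℕ) {k₀ k₁ : ℕ}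
    (hk : k₀ ≤ k₁) {v : V} (hv : v ∈ W) {X : ℝ}
    (hX : ∀ k, k₀ ≤ k → k < k₁ → ∑ u ∈ W, ∫ ω, (covS G θ₁ W (lamI G θ₁ W n (xiL ω) (k + 1)) v u
        - covS G θ₂ W (lamI G θ₂ W n (xiL ω) (k + 1)) v u) ^ 2 ∂labelMeasure V ≤ X) :
    aK G θ₁ θ₂ W n v k₁ ≤ aK G θ₁ θ₂ W n v k₀ + ((k₁ : ℝ) - k₀) *
      ((Real.pi ^ 2 / 32) * hh n * X + 64 * ((W.card : ℝ) ^ 2 + (W.card : ℝ) ^ 2) * hh n ^ 2) := by
  induction k₁, hk using Nat.le_induction with
  | base => simp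
  | succ m hm ih =>
    have ih' := ih (fun k h1 h2 => hX k h1 (by omega))
    have h := pair_step (G := G) (P := labelMeasure V) (ξ := xiL (V := V)) (Dom := Set.univ)
      isDyadicNoise_xiL h₁ h₂ W W (by simp) n m hv hv
    rw [Finset.union_self] at h
    have hXm := hX m hm (by omega)
    have hc : 0 ≤ (Real.pi ^ 2 / 32) * hh n := mul_nonneg (by positivity) (hh_pos' n).le
    have h3 := mul_le_mul_of_nonneg_left hXm hc
    push_cast
    unfold aK at ih' ⊢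
    nlinarith

lemma chain_lower (h₁ : GoodTheta θ₁) (h₂ : GoodTheta θ₂) (W : Finset V) (n : ℕ) {k₀ k₁ : ℕ}
    (hk : k₀ ≤ k₁) {v : V} (hv : v ∈ W) :
    aK G θ₁ θ₂ W n v k₀ ≤ aK G θ₁ θ₂ W n v k₁ + ((k₁ : ℝ) - k₀) *
      (64 * ((W.card : ℝ) ^ 2 + (W.card : ℝ) ^ 2) * hh n ^ 2) := by
  induction k₁, hk using Nat.le_induction with
  | base => simp
  | succ m hm ih =>
    have h := pair_step_lower (G := G) (P := labelMeasure V) (ξ := xiL (V := V)) (Dom := Set.univ)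
      isDyadicNoise_xiL h₁ h₂ W W (by simp) n m hv hv
    push_cast
    unfold aK at ih ⊢
    nlinarith

end chain

lemma hh_tendsto : Tendsto hh atTop (𝓝 0) := by
  unfold hh
  exact tendsto_pow_atTop_nhds_zero_of_lt_one (by norm_num) (by norm_num)

end StrictPairAux

open StrictPairAux

section main
variable [G.LocallyFinite] {q : ℕ} (hT : G.IsTree) (hreg : G.IsRegularOfDegree (q + 1)) (hq : 2 ≤ q)
include hT hreg hq

/-- WP Strict3: the pair inequality at the level of limit fields. -/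
theorem pair_ineq {θ₁ θ₂ : ℝ} (h₁ : GoodTheta θ₁) (h₂ : GoodTheta θ₂)
    (hq₁ : θ₁ ^ 2 * q < 1) (hq₂ : θ₂ ^ 2 * q < 1)
    {M₁ M₂ : ℝ → V → (V → unitInterval) → ℝ} {N₁ N₂ : ℝ → V → V → (V → unitInterval) → ℝ}
    (hS₁ : IsSol G θ₁ M₁ N₁) (hS₂ : IsSol G θ₂ M₂ N₂) (v : V) {s t B : ℝ} (hs : ∃ n, Dy n s)
    (ht : ∃ n, Dy n t) (hst : s ≤ t)
    (hB : ∀ r, (∃ n, Dy n r) → s ≤ r → r ≤ t → ∀ R : ℕ, ∑ u ∈ tball G v R,
        ∫ ω, (covPath G θ₁ (fun w => M₁ r w ω) (fun y x => N₁ r y x ω) v u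
          - covPath G θ₂ (fun w => M₂ r w ω) (fun y x => N₂ r y x ω) v u) ^ 2 ∂labelMeasure V ≤ B) :
    ∫ ω, (M₁ t v ω - M₂ t v ω) ^ 2 ∂labelMeasure V
      ≤ ∫ ω, (M₁ s v ω - M₂ s v ω) ^ 2 ∂labelMeasure V + (Real.pi ^ 2 / 32) * (t - s) * B := by
  classical
  have := countable_of_isTree hT
  set At := ∫ ω, (M₁ t v ω - M₂ t v ω) ^ 2 ∂labelMeasure V with hAt
  set As := ∫ ω, (M₁ s v ω - M₂ s v ω) ^ 2 ∂labelMeasure V with hAs
  obtain ⟨ns, hns⟩ := hs
  obtain ⟨nt, hnt⟩ := ht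
  set c₀ := (Real.pi ^ 2 / 32) * (t - s) with hc₀def
  have hts : 0 ≤ t - s := sub_nonneg.2 hst
  have hc₀ : 0 ≤ c₀ := mul_nonneg (by positivity) hts
  have key : ∀ x : ℝ, 0 < x →
      At ≤ (1 + x) ^ 2 * As + (1 + x) * (c₀ * ((1 + x) * B + 2 * x) + 2 * x) + x := by
    intro x hx
    have hρ₁0 : 0 ≤ θ₁ ^ 2 * (q : ℝ) := by positivity
    have hρ₂0 : 0 ≤ θ₂ ^ 2 * (q : ℝ) := by positivity
    obtain ⟨R₀, hR₀1, hR₀2⟩ : ∃ R₀ : ℕ, 2 * (θ₁ ^ 2 * (q : ℝ)) ^ (R₀ + 1) / (1 - θ₁ ^ 2 * q) < x / 4 ∧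
        2 * (θ₂ ^ 2 * (q : ℝ)) ^ (R₀ + 1) / (1 - θ₂ ^ 2 * q) < x / 4 :=
      (((tail_tendsto hρ₁0 hq₁).eventually_lt_const (by positivity)).and
        ((tail_tendsto hρ₂0 hq₂).eventually_lt_const (by positivity))).exists
    set cc : ℝ := ((tball G v R₀).card : ℝ) with hcc
    have hcc0 : 0 ≤ cc := Nat.cast_nonneg _
    have hC : 0 < 1 + 1 / x := by positivity
    set δ := x / (4 * (1 + 1 / x) * (cc + 1)) with hδdef
    have hδ : 0 < δ := by positivity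
    have hδe : 4 * (1 + 1 / x) * (cc + 1) * δ = x := by
      rw [hδdef]
      field_simp
    have hδ1 : 2 * (1 + 1 / x) * (cc * (2 * δ)) ≤ x := by
      have : 0 ≤ 4 * (1 + 1 / x) * δ := by positivity
      nlinarith
    have hδ2 : 2 * (1 + 1 / x) * (δ + δ) ≤ x := by
      have : 0 ≤ 4 * (1 + 1 / x) * δ * cc := by positivity
      nlinarith
    obtain ⟨R1, hR1⟩ := covS_close hT h₁ hS₁ t δ hδ v R₀
    obtain ⟨R2, hR2⟩ := covS_close hT h₂ hS₂ t δ hδ v R₀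
    obtain ⟨RM1, hRM1⟩ := hS₁.wcM t δ hδ
    obtain ⟨RM2, hRM2⟩ := hS₂.wcM t δ hδ
    set R := R₀ + R1 + R2 + RM1 + RM2 with hR
    set W := tball G v R with hW
    have hconv : Conv G W := conv_tball hT v R
    have hvW : v ∈ W := (mem_tball hT).2 (by simp)
    have hsub : ∀ R', R' ≤ R → tball G v R' ⊆ W := fun R' hR' w hw => by
      rw [mem_tball hT] at hw
      rw [hW, mem_tball hT]
      omega
    obtain ⟨nM1, hnM1⟩ := hRM1 W v hconv (hsub _ (by omega))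
    obtain ⟨nM2, hnM2⟩ := hRM2 W v hconv (hsub _ (by omega))
    have hdef : Tendsto (fun n => (t - s) * (128 * (W.card : ℝ) ^ 2) * hh n) atTop (𝓝 0) := by
      simpa using hh_tendsto.const_mul ((t - s) * (128 * (W.card : ℝ) ^ 2))
    obtain ⟨n, hn1, hn2, hn3, hn4, hn5, hn6, hn7⟩ := ((hR1 R (by omega)).and ((hR2 R (by omega)).and
      ((hdef.eventually_lt_const hx).and ((eventually_ge_atTop nM1).and ((eventually_ge_atTop nM2).and
        ((eventually_ge_atTop ns).and (eventually_ge_atTop nt))))))).exists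
    obtain ⟨k₀, hk₀⟩ := Dy_mono hn6 hns
    obtain ⟨k₁, hk₁⟩ := Dy_mono hn7 hnt
    have hh0 := hh_pos' n
    have hk : k₀ ≤ k₁ := by
      by_contra hcon
      have : (k₁ : ℝ) < k₀ := by
        exact_mod_cast not_le.1 hcon
      have := mul_lt_mul_of_pos_right this hh0
      rw [← hk₀, ← hk₁] at this
      linarith
    have hW0 : tball G v R₀ ⊆ W := hsub _ (by omega)
    have hkey : ∀ k, k₀ ≤ k → k < k₁ → ∑ u ∈ W, ∫ ω, (covS G θ₁ W (lamI G θ₁ W n (xiL ω) (k + 1)) v u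
        - covS G θ₂ W (lamI G θ₂ W n (xiL ω) (k + 1)) v u) ^ 2 ∂labelMeasure V ≤ (1 + x) * B + 2 * x := by
      intro k hk0 hk1
      set r : ℝ := ((k + 1 : ℕ) : ℝ) * hh n with hr
      have hDr : Dy n r := ⟨k + 1, rfl⟩
      have hsr : s ≤ r := by
        rw [hk₀, hr]
        have : (k₀ : ℝ) ≤ ((k + 1 : ℕ) : ℝ) := by exact_mod_cast (by omega : k₀ ≤ k + 1)
        gcongr
      have hrt : r ≤ t := by
        rw [hk₁, hr]
        have : ((k + 1 : ℕ) : ℝ) ≤ (k₁ : ℝ) := by exact_mod_cast (by omega : k + 1 ≤ k₁)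
        gcongr
      have hstep : stepOf r n = k + 1 := stepOf_eq rfl
      have c1 := hn1 r hDr hrt
      have c2 := hn2 r hDr hrt
      rw [hstep] at c1 c2
      have hmain := cov_sum_le (μ := labelMeasure V) hW0
        (f₁ := fun u ω => covS G θ₁ W (lamI G θ₁ W n (xiL ω) (k + 1)) v u)
        (f₂ := fun u ω => covS G θ₂ W (lamI G θ₂ W n (xiL ω) (k + 1)) v u)
        (g₁ := fun u => cP G θ₁ M₁ N₁ r v u) (g₂ := fun u => cP G θ₂ M₂ N₂ r v u)
        (fun u => (meas_covS θ₁ W v u).comp (meas_lamI (G := G) θ₁ W n (k + 1)))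
        (fun u => (meas_covS θ₂ W v u).comp (meas_lamI (G := G) θ₂ W n (k + 1)))
        (fun u => meas_cP hS₁ r v u) (fun u => meas_cP hS₂ r v u)
        (fun u ω => abs_covS_le_one h₁ W _ v u) (fun u ω => abs_covS_le_one h₂ W _ v u)
        (fun u => abs_cP_le h₁ hS₁ r v u) (fun u => abs_cP_le h₂ hS₂ r v u)
        (η := x) (δ := δ) (τ := x) (B := B) hx c1 c2 (hB r ⟨n, hDr⟩ hsr hrt R₀)
        (fun u => 2 * θ₁ ^ (2 * G.dist v u) + 2 * θ₂ ^ (2 * G.dist v u))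
        (by
          intro u _ ω
          have a1 := abs_covS_le_pow hT h₁ hconv (lamI G θ₁ W n (xiL ω) (k + 1)) hvW u
          have a2 := abs_covS_le_pow hT h₂ hconv (lamI G θ₂ W n (xiL ω) (k + 1)) hvW u
          have b1 : (covS G θ₁ W (lamI G θ₁ W n (xiL ω) (k + 1)) v u) ^ 2 ≤ θ₁ ^ (2 * G.dist v u) := by
            rw [mul_comm 2, pow_mul, ← sq_abs]
            exact pow_le_pow_left₀ (abs_nonneg _) a1 2
          have b2 : (covS G θ₂ W (lamI G θ₂ W n (xiL ω) (k + 1)) v u) ^ 2 ≤ θ₂ ^ (2 * G.dist v u) := by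
            rw [mul_comm 2, pow_mul, ← sq_abs]
            exact pow_le_pow_left₀ (abs_nonneg _) a2 2
          nlinarith [sq_nonneg (covS G θ₁ W (lamI G θ₁ W n (xiL ω) (k + 1)) v u
            + covS G θ₂ W (lamI G θ₂ W n (xiL ω) (k + 1)) v u)])
        (by
          rw [Finset.sum_add_distrib, ← Finset.mul_sum, ← Finset.mul_sum]
          have t1 := tail_le hT hreg hq h₁.nonneg hq₁ v R₀ R
          have t2 := tail_le hT hreg hq h₂.nonneg hq₂ v R₀ R
          linarith)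
      have : ∑ u ∈ W, ∫ ω, (covS G θ₁ W (lamI G θ₁ W n (xiL ω) (k + 1)) v u
        - covS G θ₂ W (lamI G θ₂ W n (xiL ω) (k + 1)) v u) ^ 2 ∂labelMeasure V ≤
          (1 + x) * B + 2 * (1 + 1 / x) * (cc * (2 * δ)) + x := hmain
      linarith
    have hch := chain_upper (G := G) h₁ h₂ W n hk hvW hkey
    have hstep0 : stepOf s n = k₀ := stepOf_eq hk₀
    have hstep1 : stepOf t n = k₁ := stepOf_eq hk₁
    have hM1t : ∫ ω, (M₁ t v ω - magn G θ₁ W (lamI G θ₁ W n (xiL ω) k₁) v) ^ 2 ∂labelMeasure V ≤ δ := by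
      have := hnM1 n hn4 t (Dy_mono hn7 hnt) le_rfl
      simp only [magT, hstep1] at this
      simpa only [sub_sq_comm] using this
    have hM2t : ∫ ω, (M₂ t v ω - magn G θ₂ W (lamI G θ₂ W n (xiL ω) k₁) v) ^ 2 ∂labelMeasure V ≤ δ := by
      have := hnM2 n hn5 t (Dy_mono hn7 hnt) le_rfl
      simp only [magT, hstep1] at this
      simpa only [sub_sq_comm] using this
    have hM1s : ∫ ω, (magn G θ₁ W (lamI G θ₁ W n (xiL ω) k₀) v - M₁ s v ω) ^ 2 ∂labelMeasure V ≤ δ := by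
      have := hnM1 n hn4 s (Dy_mono hn6 hns) hst
      simpa only [magT, hstep0] using this
    have hM2s : ∫ ω, (magn G θ₂ W (lamI G θ₂ W n (xiL ω) k₀) v - M₂ s v ω) ^ 2 ∂labelMeasure V ≤ δ := by
      have := hnM2 n hn5 s (Dy_mono hn6 hns) hst
      simpa only [magT, hstep0] using this
    have hu1 : At ≤ (1 + x) * aK G θ₁ θ₂ W n v k₁ + x := by
      have := integral_sq_split (μ := labelMeasure V) (hS₁.measM t v) (hS₂.measM t v)
        ((meas_magn (G := G) θ₁ W v).comp (meas_lamI (G := G) θ₁ W n k₁)) ((meas_magn (G := G) θ₂ W v).comp (meas_lamI (G := G) θ₂ W n k₁))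
        (hS₁.bdM t v) (hS₂.bdM t v) (fun ω => abs_magn_le_one h₁ W _ v)
        (fun ω => abs_magn_le_one h₂ W _ v) hx
      have h3 : 2 * (1 + 1 / x) * (∫ ω, (M₁ t v ω - magn G θ₁ W (lamI G θ₁ W n (xiL ω) k₁) v) ^ 2 ∂labelMeasure V
          + ∫ ω, (M₂ t v ω - magn G θ₂ W (lamI G θ₂ W n (xiL ω) k₁) v) ^ 2 ∂labelMeasure V) ≤
          2 * (1 + 1 / x) * (δ + δ) := by gcongr
      exact this.trans (by unfold aK; simp only [Function.comp]; linarith)
    have hu0 : aK G θ₁ θ₂ W n v k₀ ≤ (1 + x) * As + x := by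
      have := integral_sq_split (μ := labelMeasure V)
        ((meas_magn (G := G) θ₁ W v).comp (meas_lamI (G := G) θ₁ W n k₀)) ((meas_magn (G := G) θ₂ W v).comp (meas_lamI (G := G) θ₂ W n k₀))
        (hS₁.measM s v) (hS₂.measM s v)
        (fun ω => abs_magn_le_one h₁ W _ v)
        (fun ω => abs_magn_le_one h₂ W _ v) (hS₁.bdM s v) (hS₂.bdM s v) hx
      have h3 : 2 * (1 + 1 / x) * (∫ ω, (magn G θ₁ W (lamI G θ₁ W n (xiL ω) k₀) v - M₁ s v ω) ^ 2 ∂labelMeasure V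
          + ∫ ω, (magn G θ₂ W (lamI G θ₂ W n (xiL ω) k₀) v - M₂ s v ω) ^ 2 ∂labelMeasure V) ≤
          2 * (1 + 1 / x) * (δ + δ) := by gcongr
      refine le_trans (le_of_eq ?_) (this.trans (by simp only [Function.comp]; linarith))
      rfl
    -- the sum over the steps
    have hlen : ((k₁ : ℝ) - k₀) * hh n = t - s := by
      rw [hk₀, hk₁]
      ring
    set X := (1 + x) * B + 2 * x with hX
    have hch2 : aK G θ₁ θ₂ W n v k₁ ≤ aK G θ₁ θ₂ W n v k₀ + c₀ * X + x := by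
      have e : ((k₁ : ℝ) - k₀) *
          ((Real.pi ^ 2 / 32) * hh n * X + 64 * ((W.card : ℝ) ^ 2 + (W.card : ℝ) ^ 2) * hh n ^ 2) =
          c₀ * X + (t - s) * (128 * (W.card : ℝ) ^ 2) * hh n := by
        rw [hc₀def, ← hlen]
        ring
      rw [e] at hch
      linarith
    have hx1 : 0 ≤ 1 + x := by positivity
    calc At ≤ (1 + x) * aK G θ₁ θ₂ W n v k₁ + x := hu1
      _ ≤ (1 + x) * ((1 + x) * As + x + c₀ * X + x) + x := by
        gcongr
        linarith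
      _ = _ := by ring
  have hlim : Tendsto (fun x : ℝ => (1 + x) ^ 2 * As + (1 + x) * (c₀ * ((1 + x) * B + 2 * x) + 2 * x) + x)
      (𝓝[>] 0) (𝓝 (As + c₀ * B)) := by
    have hc : ContinuousAt (fun x : ℝ =>
        (1 + x) ^ 2 * As + (1 + x) * (c₀ * ((1 + x) * B + 2 * x) + 2 * x) + x) 0 := by
      fun_prop
    have h2 := hc.tendsto.mono_left (nhdsWithin_le_nhds (s := Set.Ioi 0))
    have e : (1 + (0 : ℝ)) ^ 2 * As + (1 + 0) * (c₀ * ((1 + 0) * B + 2 * 0) + 2 * 0) + 0 = As + c₀ * B := by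
      ring
    rw [e] at h2
    exact h2
  exact ge_of_tendsto hlim (eventually_mem_nhdsWithin.mono fun x hx => key x hx)

/-- WP Strict3: the difference is a (limit of) martingale: `a` is nondecreasing. -/
theorem pair_mono {θ₁ θ₂ : ℝ} (h₁ : GoodTheta θ₁) (h₂ : GoodTheta θ₂)
    (hq₁ : θ₁ ^ 2 * q < 1) (hq₂ : θ₂ ^ 2 * q < 1)
    {M₁ M₂ : ℝ → V → (V → unitInterval) → ℝ} {N₁ N₂ : ℝ → V → V → (V → unitInterval) → ℝ}
    (hS₁ : IsSol G θ₁ M₁ N₁) (hS₂ : IsSol G θ₂ M₂ N₂) (v : V) {s t : ℝ} (hs : ∃ n, Dy n s)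
    (ht : ∃ n, Dy n t) (hst : s ≤ t) :
    ∫ ω, (M₁ s v ω - M₂ s v ω) ^ 2 ∂labelMeasure V ≤ ∫ ω, (M₁ t v ω - M₂ t v ω) ^ 2 ∂labelMeasure V := by
  classical
  have := countable_of_isTree hT
  set At := ∫ ω, (M₁ t v ω - M₂ t v ω) ^ 2 ∂labelMeasure V with hAt
  set As := ∫ ω, (M₁ s v ω - M₂ s v ω) ^ 2 ∂labelMeasure V with hAs
  obtain ⟨ns, hns⟩ := hs
  obtain ⟨nt, hnt⟩ := ht
  have hts : 0 ≤ t - s := sub_nonneg.2 hst
  have key : ∀ x : ℝ, 0 < x → As ≤ (1 + x) * ((1 + x) * At + 2 * x) + x := by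
    intro x hx
    have hC : 0 < 1 + 1 / x := by positivity
    set δ := x / (4 * (1 + 1 / x)) with hδdef
    have hδ : 0 < δ := by positivity
    have hδ2 : 2 * (1 + 1 / x) * (δ + δ) ≤ x := by
      have hδe : 4 * (1 + 1 / x) * δ = x := by
        rw [hδdef]
        field_simp
      nlinarith
    obtain ⟨RM1, hRM1⟩ := hS₁.wcM t δ hδ
    obtain ⟨RM2, hRM2⟩ := hS₂.wcM t δ hδ
    set R := RM1 + RM2 with hR
    set W := tball G v R with hW
    have hconv : Conv G W := conv_tball hT v R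
    have hvW : v ∈ W := (mem_tball hT).2 (by simp)
    have hsub : ∀ R', R' ≤ R → tball G v R' ⊆ W := fun R' hR' w hw => by
      rw [mem_tball hT] at hw
      rw [hW, mem_tball hT]
      omega
    obtain ⟨nM1, hnM1⟩ := hRM1 W v hconv (hsub _ (by omega))
    obtain ⟨nM2, hnM2⟩ := hRM2 W v hconv (hsub _ (by omega))
    have hdef : Tendsto (fun n => (t - s) * (128 * (W.card : ℝ) ^ 2) * hh n) atTop (𝓝 0) := by
      simpa using hh_tendsto.const_mul ((t - s) * (128 * (W.card : ℝ) ^ 2))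
    obtain ⟨n, hn3, hn4, hn5, hn6, hn7⟩ :=
      ((hdef.eventually_lt_const hx).and ((eventually_ge_atTop nM1).and ((eventually_ge_atTop nM2).and
        ((eventually_ge_atTop ns).and (eventually_ge_atTop nt))))).exists
    obtain ⟨k₀, hk₀⟩ := Dy_mono hn6 hns
    obtain ⟨k₁, hk₁⟩ := Dy_mono hn7 hnt
    have hh0 := hh_pos' n
    have hk : k₀ ≤ k₁ := by
      by_contra hcon
      have : (k₁ : ℝ) < k₀ := by
        exact_mod_cast not_le.1 hcon
      have := mul_lt_mul_of_pos_right this hh0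
      rw [← hk₀, ← hk₁] at this
      linarith
    have hch := chain_lower (G := G) h₁ h₂ W n hk hvW
    have hstep0 : stepOf s n = k₀ := stepOf_eq hk₀
    have hstep1 : stepOf t n = k₁ := stepOf_eq hk₁
    have hM1t : ∫ ω, (magn G θ₁ W (lamI G θ₁ W n (xiL ω) k₁) v - M₁ t v ω) ^ 2 ∂labelMeasure V ≤ δ := by
      have := hnM1 n hn4 t (Dy_mono hn7 hnt) le_rfl
      simpa only [magT, hstep1] using this
    have hM2t : ∫ ω, (magn G θ₂ W (lamI G θ₂ W n (xiL ω) k₁) v - M₂ t v ω) ^ 2 ∂labelMeasure V ≤ δ := by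
      have := hnM2 n hn5 t (Dy_mono hn7 hnt) le_rfl
      simpa only [magT, hstep1] using this
    have hM1s : ∫ ω, (M₁ s v ω - magn G θ₁ W (lamI G θ₁ W n (xiL ω) k₀) v) ^ 2 ∂labelMeasure V ≤ δ := by
      have := hnM1 n hn4 s (Dy_mono hn6 hns) hst
      simp only [magT, hstep0] at this
      simpa only [sub_sq_comm] using this
    have hM2s : ∫ ω, (M₂ s v ω - magn G θ₂ W (lamI G θ₂ W n (xiL ω) k₀) v) ^ 2 ∂labelMeasure V ≤ δ := by
      have := hnM2 n hn5 s (Dy_mono hn6 hns) hst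
      simp only [magT, hstep0] at this
      simpa only [sub_sq_comm] using this
    have hu1 : aK G θ₁ θ₂ W n v k₁ ≤ (1 + x) * At + x := by
      have := integral_sq_split (μ := labelMeasure V)
        ((meas_magn (G := G) θ₁ W v).comp (meas_lamI (G := G) θ₁ W n k₁)) ((meas_magn (G := G) θ₂ W v).comp (meas_lamI (G := G) θ₂ W n k₁))
        (hS₁.measM t v) (hS₂.measM t v)
        (fun ω => abs_magn_le_one h₁ W _ v)
        (fun ω => abs_magn_le_one h₂ W _ v) (hS₁.bdM t v) (hS₂.bdM t v) hx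
      have h3 : 2 * (1 + 1 / x) * (∫ ω, (magn G θ₁ W (lamI G θ₁ W n (xiL ω) k₁) v - M₁ t v ω) ^ 2 ∂labelMeasure V
          + ∫ ω, (magn G θ₂ W (lamI G θ₂ W n (xiL ω) k₁) v - M₂ t v ω) ^ 2 ∂labelMeasure V) ≤
          2 * (1 + 1 / x) * (δ + δ) := by gcongr
      refine le_trans (le_of_eq ?_) (this.trans (by simp only [Function.comp]; linarith))
      rfl
    have hu0 : As ≤ (1 + x) * aK G θ₁ θ₂ W n v k₀ + x := by
      have := integral_sq_split (μ := labelMeasure V) (hS₁.measM s v) (hS₂.measM s v)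
        ((meas_magn (G := G) θ₁ W v).comp (meas_lamI (G := G) θ₁ W n k₀)) ((meas_magn (G := G) θ₂ W v).comp (meas_lamI (G := G) θ₂ W n k₀))
        (hS₁.bdM s v) (hS₂.bdM s v) (fun ω => abs_magn_le_one h₁ W _ v)
        (fun ω => abs_magn_le_one h₂ W _ v) hx
      have h3 : 2 * (1 + 1 / x) * (∫ ω, (M₁ s v ω - magn G θ₁ W (lamI G θ₁ W n (xiL ω) k₀) v) ^ 2 ∂labelMeasure V
          + ∫ ω, (M₂ s v ω - magn G θ₂ W (lamI G θ₂ W n (xiL ω) k₀) v) ^ 2 ∂labelMeasure V) ≤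
          2 * (1 + 1 / x) * (δ + δ) := by gcongr
      exact this.trans (by unfold aK; simp only [Function.comp]; linarith)
    have hlen : ((k₁ : ℝ) - k₀) * hh n = t - s := by
      rw [hk₀, hk₁]
      ring
    have hch2 : aK G θ₁ θ₂ W n v k₀ ≤ aK G θ₁ θ₂ W n v k₁ + x := by
      have e : ((k₁ : ℝ) - k₀) * (64 * ((W.card : ℝ) ^ 2 + (W.card : ℝ) ^ 2) * hh n ^ 2) =
          (t - s) * (128 * (W.card : ℝ) ^ 2) * hh n := by
        rw [← hlen]
        ring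
      rw [e] at hch
      linarith
    have hx1 : 0 ≤ 1 + x := by positivity
    calc As ≤ (1 + x) * aK G θ₁ θ₂ W n v k₀ + x := hu0
      _ ≤ (1 + x) * ((1 + x) * At + 2 * x) + x := by
        gcongr
        linarith
  have hlim : Tendsto (fun x : ℝ => (1 + x) * ((1 + x) * At + 2 * x) + x) (𝓝[>] 0) (𝓝 At) := by
    have hc : ContinuousAt (fun x : ℝ => (1 + x) * ((1 + x) * At + 2 * x) + x) 0 := by
      fun_prop
    have h2 := hc.tendsto.mono_left (nhdsWithin_le_nhds (s := Set.Ioi 0))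
    have e : (1 + (0 : ℝ)) * ((1 + 0) * At + 2 * 0) + 0 = At := by
      ring
    rw [e] at h2
    exact h2
  exact ge_of_tendsto hlim (eventually_mem_nhdsWithin.mono fun x hx => key x hx)

end main

end Crest.Agent.IsingFactor
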