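import Crest.Agent.IsingFactor.StrictWindow
import Crest.Agent.IsingFactor.StrictMesh

/-!
# IsingFactor.StrictSol (WP IF-StrictSol): construction of the limit fields.

Radii `R_j` and mesh levels `n_j` (independent of the vertex, by `window_compare_L2` and the uniform size of balls) such that the Euler schemes on `tball v R_j`, level `n_j` are `L²`-Cauchy
with summable errors, uniformly over dyadic `r ≤ j`.  `M r v ω = limsup_j magT θ (tball v R_j) n_j r (xiL ω) v`, `N r y x ω = limsup_j msgT θ (tball y R_j) n_j r (xiL ω) y x`; clamp to `[-1,1]`.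
Measurable; exact equivariance from `tball_aut`, `magn_aut`, `msg_aut` and `xiL_comp`; `wcM` from `window_compare_L2` and `mesh_compare_L2`.  For `wcN`: `msg_lip` + `magn_eq_mrg_msg` (messages are Lipschitz in the two adjacent magnetisations).
`alg`: `magn_eq_mrg_msg` at finite level and a.e. convergence along a subsequence.
Statements may be ADDED; do not change the ones below without posting on chat (topic S0241), other packages use them.
-/

set_option autoImplicit false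
set_option linter.unusedSectionVars false

open MeasureTheory ProbabilityTheory Filter Topology
open Crest.Agent.SRFactor Crest.ProbabilityR.Labels

namespace Crest.Agent.IsingFactor

/-! ### Abstract: fast `L²`-Cauchy sequences converge almost surely -/

section fast
variable {Ω : Type*} [MeasurableSpace Ω] {P : Measure Ω} [IsProbabilityMeasure P]

lemma ssol_integrable_sq {a : Ω → ℝ} (ha : Measurable a) {C : ℝ} (hb : ∀ ω, |a ω| ≤ C) :
    Integrable (fun ω => (a ω) ^ 2) P := by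
  refine Integrable.of_bound (ha.pow_const 2).aestronglyMeasurable (C ^ 2) (ae_of_all _ fun ω => ?_)
  rw [Real.norm_eq_abs, abs_pow]
  exact pow_le_pow_left₀ (abs_nonneg _) (hb ω) 2

lemma ssol_ae_eventually {g : ℕ → Ω → ℝ} (hm : ∀ j, Measurable (g j))
    (hb : ∀ j ω, |g j ω| ≤ 2) (C : ℝ) (J : ℕ)
    (h : ∀ j ≥ J, ∫ ω, (g j ω) ^ 2 ∂P ≤ C * (1 / 16 : ℝ) ^ j) :
    ∀ᵐ ω ∂P, ∀ᶠ j in atTop, |g j ω| < (1 / 2 : ℝ) ^ j := by
  set A : ℕ → Set Ω := fun j => {ω | (1 / 4 : ℝ) ^ j ≤ (g j ω) ^ 2} with hA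
  set C' : ℝ := |C| + 4 ^ J with hC'
  have hC'0 : 0 ≤ C' := by positivity
  have hB : ∀ j, P (A j) ≤ ENNReal.ofReal (C' * (1 / 4 : ℝ) ^ j) := by
    intro j
    by_cases hj : j < J
    · refine (measure_mono (Set.subset_univ _)).trans ?_
      rw [measure_univ, ← ENNReal.ofReal_one]
      apply ENNReal.ofReal_le_ofReal
      have h4 : (4 : ℝ) ^ j ≤ 4 ^ J := pow_le_pow_right₀ (by norm_num) hj.le
      have h5 : (1 / 4 : ℝ) ^ j * 4 ^ j = 1 := by
        rw [← mul_pow]; norm_num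
      have h6 : (0 : ℝ) < (1 / 4 : ℝ) ^ j := by positivity
      have h7 : (0 : ℝ) ≤ |C| := abs_nonneg _
      rw [hC']
      nlinarith
    · have hj' : J ≤ j := not_lt.1 hj
      have hmark := mul_meas_ge_le_integral_of_nonneg (μ := P) (f := fun ω => (g j ω) ^ 2)
        (ae_of_all _ fun ω => sq_nonneg _) (ssol_integrable_sq (hm j) (hb j)) ((1 / 4 : ℝ) ^ j)
      have h1 := hmark.trans (h j hj')
      have h6 : (0 : ℝ) < (1 / 4 : ℝ) ^ j := by positivity
      have h2 : P.real (A j) ≤ C' * (1 / 4 : ℝ) ^ j := by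
        have h3 : (1 / 16 : ℝ) ^ j = (1 / 4 : ℝ) ^ j * (1 / 4 : ℝ) ^ j := by
          rw [← mul_pow]; norm_num
        rw [h3] at h1
        have h4 : (1 / 4 : ℝ) ^ j * P.real (A j) ≤ (1 / 4 : ℝ) ^ j * (C * (1 / 4 : ℝ) ^ j) := by
          calc _ ≤ _ := h1
            _ = _ := by ring
        have h5 := le_of_mul_le_mul_left h4 h6
        refine h5.trans (mul_le_mul_of_nonneg_right ?_ h6.le)
        have : (0 : ℝ) ≤ 4 ^ J := by positivity
        have h7 := le_abs_self C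
        rw [hC']; linarith
      rw [← ofReal_measureReal]
      exact ENNReal.ofReal_le_ofReal h2
  have hs : Summable fun j : ℕ => C' * (1 / 4 : ℝ) ^ j :=
    (summable_geometric_of_lt_one (by norm_num) (by norm_num)).mul_left _
  have hsum : ∑' j, P (A j) ≠ ⊤ := by
    refine ne_top_of_le_ne_top (ENNReal.ofReal_ne_top (r := ∑' j : ℕ, C' * (1 / 4 : ℝ) ^ j)) ?_
    rw [ENNReal.ofReal_tsum_of_nonneg (fun j => by positivity) hs]
    exact ENNReal.tsum_le_tsum hB
  filter_upwards [ae_eventually_notMem hsum] with ω hω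
  filter_upwards [hω] with j hj
  have h1 : (g j ω) ^ 2 < (1 / 4 : ℝ) ^ j := not_le.1 hj
  have h2 : (1 / 4 : ℝ) ^ j = ((1 / 2 : ℝ) ^ j) ^ 2 := by
    rw [← pow_mul, mul_comm, pow_mul]; norm_num
  rw [h2] at h1
  exact abs_lt_of_sq_lt_sq h1 (by positivity)

lemma ssol_ae_tendsto {f : ℕ → Ω → ℝ} (hm : ∀ j, Measurable (f j)) (hb : ∀ j ω, |f j ω| ≤ 1)
    (C : ℝ) (J : ℕ) (h : ∀ j ≥ J, ∫ ω, (f j ω - f (j + 1) ω) ^ 2 ∂P ≤ C * (1 / 16 : ℝ) ^ j) :
    ∀ᵐ ω ∂P, Tendsto (fun j => f j ω) atTop (𝓝 (limsup (fun j => f j ω) atTop)) := by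
  have hd : ∀ j ω, |f j ω - f (j + 1) ω| ≤ 2 := fun j ω => by
    have h1 := abs_le.1 (hb j ω)
    have h2 := abs_le.1 (hb (j + 1) ω)
    rw [abs_le]; constructor <;> linarith [h1.1, h1.2, h2.1, h2.2]
  have h1 := ssol_ae_eventually (P := P) (g := fun j ω => f j ω - f (j + 1) ω)
    (fun j => (hm j).sub (hm (j + 1))) hd C J h
  filter_upwards [h1] with ω hω
  obtain ⟨K, hK⟩ := eventually_atTop.1 hω
  have hc : CauchySeq (fun j => f j ω) := by
    refine cauchySeq_of_le_geometric (1 / 2) (2 * 2 ^ K + 1) (by norm_num) (fun n => ?_)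
    rw [Real.dist_eq]
    have hp : (0 : ℝ) < (1 / 2 : ℝ) ^ n := by positivity
    have h2K : (0 : ℝ) < 2 ^ K := by positivity
    by_cases hn : K ≤ n
    · have := (hK n hn).le
      nlinarith
    · have h3 := hd n ω
      have h4 : (2 : ℝ) ^ n ≤ 2 ^ K := pow_le_pow_right₀ (by norm_num) (not_le.1 hn).le
      have h5 : (1 / 2 : ℝ) ^ n * 2 ^ n = 1 := by
        rw [← mul_pow]; norm_num
      nlinarith
  obtain ⟨l, hl⟩ := cauchySeq_tendsto_of_complete hc
  rw [hl.limsup_eq]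
  exact hl

lemma ssol_abs_limsup_le {u : ℕ → ℝ} (hb : ∀ j, |u j| ≤ 1) : |limsup u atTop| ≤ 1 := by
  have hbd : IsBoundedUnder (· ≤ ·) atTop u :=
    isBoundedUnder_of ⟨1, fun j => (abs_le.1 (hb j)).2⟩
  have hbd' : IsBoundedUnder (· ≥ ·) atTop u :=
    isBoundedUnder_of ⟨-1, fun j => (abs_le.1 (hb j)).1⟩
  rw [abs_le]
  constructor
  · exact le_limsup_of_frequently_le
      (Eventually.frequently (Eventually.of_forall fun j => (abs_le.1 (hb j)).1)) hbd
  · exact limsup_le_of_le hbd'.isCoboundedUnder_le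
      (Eventually.of_forall fun j => (abs_le.1 (hb j)).2)

lemma ssol_tendsto_integral {f : ℕ → Ω → ℝ} {L : Ω → ℝ} (hm : ∀ j, Measurable (f j))
    (hL : Measurable L) (hb : ∀ j ω, |f j ω| ≤ 1) (hLb : ∀ ω, |L ω| ≤ 1)
    (h : ∀ᵐ ω ∂P, Tendsto (fun j => f j ω) atTop (𝓝 (L ω))) :
    Tendsto (fun j => ∫ ω, (f j ω - L ω) ^ 2 ∂P) atTop (𝓝 0) := by
  have key := tendsto_integral_of_dominated_convergence (μ := P)
    (F := fun j ω => (f j ω - L ω) ^ 2) (f := fun _ => (0 : ℝ)) (fun _ => (4 : ℝ))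
    (fun j => (((hm j).sub hL).pow_const 2).aestronglyMeasurable) (integrable_const _)
    (fun j => ae_of_all _ fun ω => by
      rw [Real.norm_eq_abs, abs_pow]
      have h1 := abs_le.1 (hb j ω)
      have h2 := abs_le.1 (hLb ω)
      have h3 : |f j ω - L ω| ≤ 2 := by
        rw [abs_le]; constructor <;> linarith [h1.1, h1.2, h2.1, h2.2]
      have := pow_le_pow_left₀ (abs_nonneg _) h3 2
      linarith)
    (by
      filter_upwards [h] with ω hω
      have := (hω.sub_const (L ω)).pow 2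
      simpa using this)
  simpa using key

lemma ssol_sq_triangle {a b c : Ω → ℝ} (ha : Measurable a) (hb : Measurable b) (hc : Measurable c)
    (ba : ∀ ω, |a ω| ≤ 1) (bb : ∀ ω, |b ω| ≤ 1) (bc : ∀ ω, |c ω| ≤ 1) :
    ∫ ω, (a ω - c ω) ^ 2 ∂P ≤ 2 * ∫ ω, (a ω - b ω) ^ 2 ∂P + 2 * ∫ ω, (b ω - c ω) ^ 2 ∂P := by
  have hd : ∀ {x y : Ω → ℝ}, (∀ ω, |x ω| ≤ 1) → (∀ ω, |y ω| ≤ 1) → ∀ ω, |x ω - y ω| ≤ 2 := by
    intro x y hx hy ω
    have h1 := abs_le.1 (hx ω)
    have h2 := abs_le.1 (hy ω)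
    rw [abs_le]; constructor <;> linarith [h1.1, h1.2, h2.1, h2.2]
  have i1 : Integrable (fun ω => (a ω - b ω) ^ 2) P :=
    ssol_integrable_sq (a := fun ω => a ω - b ω) (ha.sub hb) (hd ba bb)
  have i2 : Integrable (fun ω => (b ω - c ω) ^ 2) P :=
    ssol_integrable_sq (a := fun ω => b ω - c ω) (hb.sub hc) (hd bb bc)
  have i3 : Integrable (fun ω => (a ω - c ω) ^ 2) P :=
    ssol_integrable_sq (a := fun ω => a ω - c ω) (ha.sub hc) (hd ba bc)
  rw [← integral_const_mul, ← integral_const_mul, ← integral_add (i1.const_mul 2) (i2.const_mul 2)]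
  refine integral_mono i3 ((i1.const_mul 2).add (i2.const_mul 2)) fun ω => ?_
  nlinarith [sq_nonneg (a ω - b ω - (b ω - c ω))]

end fast

variable {V : Type*} [DecidableEq V] {G : SimpleGraph V}

/-! ### Measurability -/

lemma ssol_measurable_xiL (e : V) (n j : ℕ) :
    Measurable (fun ω : V → unitInterval => xiL ω e n j) :=
  (measurable_pi_apply j).comp ((measurable_pi_apply n).comp
    ((Classical.choose_spec exists_label_map).1.comp (measurable_pi_apply e)))

lemma ssol_measurable_lamI (θ : ℝ) (W : Finset V) (n k : ℕ) :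
    Measurable (fun ω : V → unitInterval => lamI G θ W n (xiL ω) k) := by
  refine measurable_pi_lambda _ fun i => ?_
  have h1 : Measurable fun ω : V → unitInterval => levelNoise (xiL ω) n :=
    measurable_pi_lambda _ fun j => measurable_pi_lambda _ fun e => ssol_measurable_xiL e n j
  exact ((measurable_euler (isingW G θ W) W (hh n) k i).comp h1).sub_const _

lemma ssol_measurable_magn (θ : ℝ) (W : Finset V) (v : V) :
    Measurable (fun lam : V → ℝ => magn G θ W lam v) := by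
  have hE : ∀ S : Finset V, Measurable fun lam : V → ℝ => Real.exp (∑ i ∈ S, lam i) := fun S =>
    Real.measurable_exp.comp (Finset.measurable_sum _ fun i _ => measurable_pi_apply i)
  unfold magn gAvg Zf
  refine Measurable.div ?_ ?_
  · exact Finset.measurable_sum _ fun S _ => ((hE S).const_mul _).mul_const _
  · exact Finset.measurable_sum _ fun S _ => (hE S).const_mul _

lemma ssol_measurable_magT (θ : ℝ) (W : Finset V) (n : ℕ) (r : ℝ) (v : V) :
    Measurable (fun ω : V → unitInterval => magT G θ W n r (xiL ω) v) :=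
  (ssol_measurable_magn θ W v).comp (ssol_measurable_lamI θ W n _)

lemma ssol_measurable_msgT (θ : ℝ) (W : Finset V) (n : ℕ) (r : ℝ) (y x : V) :
    Measurable (fun ω : V → unitInterval => msgT G θ W n r (xiL ω) y x) :=
  (ssol_measurable_magn θ (sideF G W y x) y).comp (ssol_measurable_lamI θ W n _)

/-! ### Equivariance of the Euler scheme -/

lemma ssol_eulerI_aut {θ : ℝ} (hθ : GoodTheta θ) (g : G ≃g G) (W : Finset V) (n : ℕ)
    (ω : V → unitInterval) (k : ℕ) (i : V) :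
    eulerI G θ (W.image g) n (xiL ω) k (g i) = eulerI G θ W n (xiL (ω ∘ g)) k i := by
  induction k generalizing i with
  | zero => rfl
  | succ k ih =>
    unfold eulerI at ih ⊢
    rw [euler_succ, euler_succ]
    by_cases hi : i ∈ W
    · have hi' : g i ∈ W.image g := Finset.mem_image_of_mem _ hi
      rw [if_pos hi, if_pos hi', ih i, post_isingW hθ _ _ hi', post_isingW hθ _ _ hi, magn_aut]
      have : (fun j => euler (isingW G θ (W.image g)) (W.image g) (hh n)
            (levelNoise (xiL ω) n) k (g j) - (k : ℝ) * hh n / 2)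
          = fun j => euler (isingW G θ W) W (hh n) (levelNoise (xiL (ω ∘ g)) n) k j
            - (k : ℝ) * hh n / 2 := by
        funext j
        rw [ih j]
      rw [this]
      rfl
    · have hi' : g i ∉ W.image g := by
        intro h
        obtain ⟨j, hj, hji⟩ := Finset.mem_image.1 h
        exact hi (g.injective hji ▸ hj)
      rw [if_neg hi, if_neg hi']

lemma ssol_lamI_aut {θ : ℝ} (hθ : GoodTheta θ) (g : G ≃g G) (W : Finset V) (n : ℕ)
    (ω : V → unitInterval) (k : ℕ) :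
    (fun i => lamI G θ (W.image g) n (xiL ω) k (g i)) = lamI G θ W n (xiL (ω ∘ g)) k := by
  funext i
  unfold lamI
  rw [ssol_eulerI_aut hθ]

/-! ### Dyadic times -/

lemma ssol_hh_pos (n : ℕ) : 0 < hh n := by
  unfold hh; positivity

lemma ssol_stepOf {n k : ℕ} {r : ℝ} (h : r = k * hh n) : stepOf r n = k := by
  unfold stepOf
  rw [h, mul_div_assoc, div_self (ssol_hh_pos n).ne', mul_one, Nat.floor_natCast]

lemma ssol_dy_refine {n n' : ℕ} {r : ℝ} (hn : n ≤ n') (h : Dy n r) : Dy n' r := by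
  obtain ⟨k, rfl⟩ := h
  obtain ⟨d, rfl⟩ := Nat.exists_eq_add_of_le hn
  refine ⟨k * 2 ^ d, ?_⟩
  push_cast
  unfold hh
  have h2 : (1 / 2 : ℝ) ^ d * 2 ^ d = 1 := by
    rw [← mul_pow]; norm_num
  rw [pow_add]
  calc (k : ℝ) * (1 / 2) ^ n = k * (1 / 2) ^ n * ((1 / 2 : ℝ) ^ d * 2 ^ d) := by rw [h2, mul_one]
    _ = _ := by ring

/-! ### The scales -/

section main
variable [G.LocallyFinite] {q : ℕ}

lemma ssol_card_tball (hreg : G.IsRegularOfDegree (q + 1)) (c : V) (r : ℕ) :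
    (tball G c r).card ≤ (q + 2) ^ r := by
  induction r with
  | zero => simp [tball]
  | succ r ih =>
    have h1 : ((tball G c r).biUnion (fun w => G.neighborFinset w)).card
        ≤ (tball G c r).card * (q + 1) := by
      refine Finset.card_biUnion_le_card_mul _ _ _ fun w _ => ?_
      rw [SimpleGraph.card_neighborFinset_eq_degree, hreg.degree_eq w]
    have h2 := Finset.card_union_le (tball G c r) ((tball G c r).biUnion (fun w => G.neighborFinset w))
    calc (tball G c (r + 1)).card ≤ (tball G c r).card + (tball G c r).card * (q + 1) :=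
          h2.trans (by omega)
      _ = (tball G c r).card * (q + 2) := by ring
      _ ≤ (q + 2) ^ r * (q + 2) := Nat.mul_le_mul_right _ ih
      _ = (q + 2) ^ (r + 1) := (pow_succ _ _).symm

/-- Radii and levels. -/
structure SolScales (G : SimpleGraph V) [G.LocallyFinite] (θ : ℝ) where
  Rw : ℕ → ℕ
  Nm : ℕ → ℕ → ℕ
  Rad : ℕ → ℕ
  b : ℕ → ℕ
  lev : ℕ → ℕ
  Rw_le : ∀ i j, i ≤ j → Rw i + 1 ≤ Rad j
  card_le : ∀ j y, (tball G y (Rad j)).card ≤ b j
  b_mono : Monotone b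
  le_b : ∀ j, j ≤ b j
  lev_mono : StrictMono lev
  Nm_le : ∀ j, Nm (b j) j ≤ lev j
  cmp : ∀ i j, i ≤ j → ∀ (W W' : Finset V) (v : V) (c : ℕ), Conv G W → Conv G W' →
    tball G v (Rw i) ⊆ W → tball G v (Rw i) ⊆ W' → W.card ≤ c → c ≤ b j → W'.card ≤ b j →
    ∀ n, Nm c i ≤ n → Nm c i ≤ lev j → ∀ r, Dy n r → Dy (lev j) r → r ≤ i →
      ∫ ω, (magT G θ W n r (xiL (V := V) ω) v - magT G θ W' (lev j) r (xiL ω) v) ^ 2 ∂labelMeasure V
        ≤ 4 * (1 / 16 : ℝ) ^ i

theorem ssol_exists_scales (hT : G.IsTree) (hreg : G.IsRegularOfDegree (q + 1)) (hq : 2 ≤ q)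
    {θ : ℝ} (hθ : GoodTheta θ) (hθq : θ ^ 2 * q < 1) : Nonempty (SolScales G θ) := by
  choose Rw hRw using fun i : ℕ =>
    window_compare_L2 (G := G) hT hreg hq hθ hθq (i : ℝ) ((1 / 16 : ℝ) ^ i) (by positivity)
  choose Nw hNw using hRw
  choose Nm hNm using fun (c i : ℕ) =>
    mesh_compare_L2 (G := G) hT hreg hq hθ c (i : ℝ) ((1 / 16 : ℝ) ^ i) (by positivity)
  set Rad : ℕ → ℕ := fun j => (Finset.range (j + 1)).sup Rw + 1 with hRad
  have hRadm : Monotone Rad := fun a b hab => by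
    have : (Finset.range (a + 1)).sup Rw ≤ (Finset.range (b + 1)).sup Rw :=
      Finset.sup_mono (Finset.range_mono (by omega))
    simp only [hRad]; omega
  set b : ℕ → ℕ := fun j => (q + 2) ^ Rad j + j with hb
  have hbm : Monotone b := fun a c hac => by
    have h1 : (q + 2) ^ Rad a ≤ (q + 2) ^ Rad c := Nat.pow_le_pow_right (by omega) (hRadm hac)
    simp only [hb]; omega
  set A : ℕ → ℕ := fun j => (Finset.range (j + 1)).sup (fun i => Nw i (b j)) + Nm (b j) j with hA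
  set lev : ℕ → ℕ := fun j => Nat.rec (A 0) (fun j l => max (l + 1) (A (j + 1))) j with hlev
  have hlev0 : lev 0 = A 0 := rfl
  have hlevs : ∀ j, lev (j + 1) = max (lev j + 1) (A (j + 1)) := fun j => rfl
  have hAlev : ∀ j, A j ≤ lev j := by
    intro j
    cases j with
    | zero => rw [hlev0]
    | succ j => rw [hlevs]; exact le_max_right _ _
  have hlevm : StrictMono lev := strictMono_nat_of_lt_succ fun j => by
    rw [hlevs]; exact lt_of_lt_of_le (Nat.lt_succ_self _) (le_max_left _ _)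
  refine ⟨⟨Rw, Nm, Rad, b, lev, ?_, ?_, hbm, ?_, hlevm, ?_, ?_⟩⟩
  · intro i j hij
    have : Rw i ≤ (Finset.range (j + 1)).sup Rw :=
      Finset.le_sup (f := Rw) (Finset.mem_range.2 (by omega))
    simp only [hRad]; omega
  · intro j y
    exact (ssol_card_tball hreg y _).trans (Nat.le_add_right _ _)
  · intro j
    simp only [hb]; omega
  · intro j
    have := hAlev j
    simp only [hA] at this
    omega
  · intro i j hij W W' v c hW hW' hs hs' hc hcb hc' n hn hl r hr hr' hri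
    have hle : W.card ≤ b j := hc.trans hcb
    have hNwle : Nw i (b j) ≤ lev j := by
      have h1 := hAlev j
      have h2 : Nw i (b j) ≤ (Finset.range (j + 1)).sup (fun i => Nw i (b j)) :=
        Finset.le_sup (f := fun i => Nw i (b j)) (Finset.mem_range.2 (by omega))
      simp only [hA] at h1
      omega
    have h1 := hNm c i W v hc n hn (lev j) hl r hr hr' hri
    obtain ⟨k, hk⟩ := hr'
    have hst : stepOf r (lev j) = k := ssol_stepOf hk
    have h2 := hNw i (b j) W W' v hW hW' hs hs' hle hc' (lev j) hNwle k (by rw [← hk]; exact hri)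
    have e2 : ∀ (Z : Finset V) (ω : V → unitInterval),
        magT G θ Z (lev j) r (xiL ω) v = magn G θ Z (lamI G θ Z (lev j) (xiL ω) k) v := by
      intro Z ω
      unfold magT
      rw [hst]
    simp only [← e2] at h2
    have hbd : ∀ (Z : Finset V) (m : ℕ) (ω : V → unitInterval), |magT G θ Z m r (xiL ω) v| ≤ 1 :=
      fun Z m ω => abs_magn_le_one hθ _ _ v
    have h3 := ssol_sq_triangle (P := labelMeasure V) (ssol_measurable_magT θ W n r v)
      (ssol_measurable_magT θ W (lev j) r v) (ssol_measurable_magT θ W' (lev j) r v)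
      (hbd W n) (hbd W (lev j)) (hbd W' (lev j))
    linarith

/-! ### Finite level inequalities for messages -/

lemma ssol_msg_sq_le (hT : G.IsTree) {θ : ℝ} (hθ : GoodTheta θ) {W W' : Finset V}
    (hW : Conv G W) (hW' : Conv G W') (lam lam' : V → ℝ) {y x : V} (hy : y ∈ W) (hx : x ∈ W)
    (hy' : y ∈ W') (hx' : x ∈ W') (hyx : G.Adj y x) :
    (msg G θ W lam y x - msg G θ W' lam' y x) ^ 2 ≤
      80000 * ((magn G θ W lam y - magn G θ W' lam' y) ^ 2
        + (magn G θ W lam x - magn G θ W' lam' x) ^ 2) := by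
  have h := msg_lip hθ hθ (abs_msg_le_one (G := G) hθ W lam y x) (abs_msg_le_one (G := G) hθ W lam x y)
    (abs_msg_le_one (G := G) hθ W' lam' y x) (abs_msg_le_one (G := G) hθ W' lam' x y)
  rw [← magn_eq_mrg_msg hT hθ hW lam hy hx hyx, ← magn_eq_mrg_msg hT hθ hW lam hx hy hyx.symm,
    ← magn_eq_mrg_msg hT hθ hW' lam' hy' hx' hyx, ← magn_eq_mrg_msg hT hθ hW' lam' hx' hy' hyx.symm,
    sub_self, abs_zero, add_zero] at h
  set a := msg G θ W lam y x - msg G θ W' lam' y x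
  set a' := msg G θ W lam x y - msg G θ W' lam' x y
  set u := magn G θ W lam y - magn G θ W' lam' y
  set w := magn G θ W lam x - magn G θ W' lam' x
  have h1 : |a| ≤ 200 * (|u| + |w|) := by
    have := abs_nonneg a'
    linarith
  have h2 : a ^ 2 ≤ (200 * (|u| + |w|)) ^ 2 := by
    rw [← sq_abs a]
    exact pow_le_pow_left₀ (abs_nonneg _) h1 2
  have h3 : (|u| + |w|) ^ 2 ≤ 2 * (u ^ 2 + w ^ 2) := by
    have e1 : |u| ^ 2 = u ^ 2 := sq_abs u
    have e2 : |w| ^ 2 = w ^ 2 := sq_abs w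
    nlinarith [sq_nonneg (|u| - |w|)]
  nlinarith

lemma ssol_tball_mono (hT : G.IsTree) (c : V) {R R' : ℕ} (h : R ≤ R') :
    tball G c R ⊆ tball G c R' := fun w hw =>
  (mem_tball hT).2 (((mem_tball hT).1 hw).trans h)

lemma ssol_tball_adj (hT : G.IsTree) {y x : V} (hyx : G.Adj y x) (R : ℕ) :
    tball G x R ⊆ tball G y (R + 1) := fun w hw => by
  have h1 := (mem_tball hT).1 hw
  have h2 := ttri hT y x w
  have h3 := tdist_one hT hyx
  exact (mem_tball hT).2 (by omega)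

lemma ssol_self_mem (hT : G.IsTree) (c : V) (R : ℕ) : c ∈ tball G c R :=
  (mem_tball hT).2 (by simp)

lemma ssol_msgT_cmp (hT : G.IsTree) {θ : ℝ} (hθ : GoodTheta θ) {W W' : Finset V}
    (hW : Conv G W) (hW' : Conv G W') {y x : V} (hy : y ∈ W) (hx : x ∈ W)
    (hy' : y ∈ W') (hx' : x ∈ W') (hyx : G.Adj y x) (n n' : ℕ) (r : ℝ) :
    ∫ ω, (msgT G θ W n r (xiL (V := V) ω) y x - msgT G θ W' n' r (xiL ω) y x) ^ 2 ∂labelMeasure V ≤
      80000 * (∫ ω, (magT G θ W n r (xiL (V := V) ω) y - magT G θ W' n' r (xiL ω) y) ^ 2 ∂labelMeasure V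
        + ∫ ω, (magT G θ W n r (xiL (V := V) ω) x - magT G θ W' n' r (xiL ω) x) ^ 2 ∂labelMeasure V) := by
  have hd : ∀ {a b : ℝ}, |a| ≤ 1 → |b| ≤ 1 → |a - b| ≤ 2 := by
    intro a b ha hb
    have h1 := abs_le.1 ha
    have h2 := abs_le.1 hb
    rw [abs_le]; constructor <;> linarith [h1.1, h1.2, h2.1, h2.2]
  have iv : ∀ v : V, Integrable (fun ω : V → unitInterval =>
      (magT G θ W n r (xiL ω) v - magT G θ W' n' r (xiL ω) v) ^ 2) (labelMeasure V) := fun v =>
    ssol_integrable_sq ((ssol_measurable_magT θ W n r v).sub (ssol_measurable_magT θ W' n' r v))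
      (fun ω => hd (abs_magn_le_one hθ _ _ v) (abs_magn_le_one hθ _ _ v))
  have i0 : Integrable (fun ω : V → unitInterval =>
      (msgT G θ W n r (xiL ω) y x - msgT G θ W' n' r (xiL ω) y x) ^ 2) (labelMeasure V) :=
    ssol_integrable_sq ((ssol_measurable_msgT θ W n r y x).sub (ssol_measurable_msgT θ W' n' r y x))
      (fun ω => hd (abs_msg_le_one hθ _ _ y x) (abs_msg_le_one hθ _ _ y x))
  rw [← integral_add (iv y) (iv x), ← integral_const_mul]
  refine integral_mono i0 (((iv y).add (iv x)).const_mul _) fun ω => ?_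
  exact ssol_msg_sq_le hT hθ hW hW' _ _ hy hx hy' hx' hyx

/-! ### The fields -/

namespace SolScales

variable {θ : ℝ} (S : SolScales G θ)

/-- Approximants of the magnetisation. -/
noncomputable def X (r : ℝ) (v : V) (j : ℕ) (ω : V → unitInterval) : ℝ :=
  magT G θ (tball G v (S.Rad j)) (S.lev j) r (xiL ω) v

/-- Approximants of the message. -/
noncomputable def Y (r : ℝ) (y x : V) (j : ℕ) (ω : V → unitInterval) : ℝ :=
  msgT G θ (tball G y (S.Rad j)) (S.lev j) r (xiL ω) y x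

/-- The limit magnetisation. -/
noncomputable def M (r : ℝ) (v : V) (ω : V → unitInterval) : ℝ :=
  limsup (fun j => S.X r v j ω) atTop

/-- The limit message. -/
noncomputable def N (r : ℝ) (y x : V) (ω : V → unitInterval) : ℝ :=
  limsup (fun j => S.Y r y x j ω) atTop

/-- The message `x → y` in the window centred at `y`. -/
noncomputable def Zx (r : ℝ) (y x : V) (j : ℕ) (ω : V → unitInterval) : ℝ :=
  msgT G θ (tball G y (S.Rad j)) (S.lev j) r (xiL ω) x y

lemma measurable_Zx (r : ℝ) (y x : V) (j : ℕ) : Measurable (S.Zx r y x j) :=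
  ssol_measurable_msgT θ _ _ r x y

lemma measurable_X (r : ℝ) (v : V) (j : ℕ) : Measurable (S.X r v j) :=
  ssol_measurable_magT θ _ _ r v

lemma measurable_Y (r : ℝ) (y x : V) (j : ℕ) : Measurable (S.Y r y x j) :=
  ssol_measurable_msgT θ _ _ r y x

lemma measurable_M (r : ℝ) (v : V) : Measurable (S.M r v) :=
  Measurable.limsup fun j => S.measurable_X r v j

lemma measurable_N (r : ℝ) (y x : V) : Measurable (S.N r y x) :=
  Measurable.limsup fun j => S.measurable_Y r y x j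

variable (hT : G.IsTree) (hθ : GoodTheta θ)
include hθ

lemma abs_X (r : ℝ) (v : V) (j : ℕ) (ω : V → unitInterval) : |S.X r v j ω| ≤ 1 :=
  abs_magn_le_one hθ _ _ v

lemma abs_Y (r : ℝ) (y x : V) (j : ℕ) (ω : V → unitInterval) : |S.Y r y x j ω| ≤ 1 :=
  abs_msg_le_one hθ _ _ y x

lemma abs_Zx (r : ℝ) (y x : V) (j : ℕ) (ω : V → unitInterval) : |S.Zx r y x j ω| ≤ 1 :=
  abs_msg_le_one hθ _ _ x y

lemma abs_M (r : ℝ) (v : V) (ω : V → unitInterval) : |S.M r v ω| ≤ 1 :=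
  ssol_abs_limsup_le fun j => S.abs_X hθ r v j ω

lemma abs_N (r : ℝ) (y x : V) (ω : V → unitInterval) : |S.N r y x ω| ≤ 1 :=
  ssol_abs_limsup_le fun j => S.abs_Y hθ r y x j ω

omit hθ in
lemma le_lev (j : ℕ) : j ≤ S.lev j := S.lev_mono.le_apply

omit hθ in
/-- Eventually a dyadic time is on the mesh and below the horizon. -/
lemma exists_J {r : ℝ} (hr : ∃ n, Dy n r) :
    ∃ J : ℕ, ∀ j ≥ J, Dy (S.lev j) r ∧ r ≤ j := by
  obtain ⟨n, hn⟩ := hr
  refine ⟨max n ⌈r⌉₊, fun j hj => ⟨ssol_dy_refine ?_ hn, ?_⟩⟩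
  · exact ((le_max_left _ _).trans hj).trans (S.le_lev j)
  · have h1 : (⌈r⌉₊ : ℝ) ≤ j := by exact_mod_cast (le_max_right _ _).trans hj
    exact (Nat.le_ceil r).trans h1

include hT

lemma cmpN (i j : ℕ) (hij : i ≤ j) (W W' : Finset V) (y x : V) (c : ℕ) (hW : Conv G W)
    (hW' : Conv G W') (hyx : G.Adj y x)
    (h1 : tball G y (S.Rw i) ⊆ W) (h2 : tball G y (S.Rw i) ⊆ W')
    (h3 : tball G x (S.Rw i) ⊆ W) (h4 : tball G x (S.Rw i) ⊆ W')
    (hc : W.card ≤ c) (hcb : c ≤ S.b j) (hc' : W'.card ≤ S.b j) (n : ℕ) (hn : S.Nm c i ≤ n)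
    (hl : S.Nm c i ≤ S.lev j) (r : ℝ) (hr : Dy n r) (hr' : Dy (S.lev j) r) (hri : r ≤ i) :
    ∫ ω, (msgT G θ W n r (xiL (V := V) ω) y x - msgT G θ W' (S.lev j) r (xiL ω) y x) ^ 2 ∂labelMeasure V
      ≤ 640000 * (1 / 16 : ℝ) ^ i := by
  have e1 := S.cmp i j hij W W' y c hW hW' h1 h2 hc hcb hc' n hn hl r hr hr' hri
  have e2 := S.cmp i j hij W W' x c hW hW' h3 h4 hc hcb hc' n hn hl r hr hr' hri
  have e3 := ssol_msgT_cmp hT hθ hW hW' (h1 (ssol_self_mem hT _ _)) (h3 (ssol_self_mem hT _ _))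
    (h2 (ssol_self_mem hT _ _)) (h4 (ssol_self_mem hT _ _)) hyx n (S.lev j) r
  refine e3.trans ?_
  linarith

omit hθ in
lemma sub_rad {i j : ℕ} (hij : i ≤ j) (v : V) : tball G v (S.Rw i) ⊆ tball G v (S.Rad j) :=
  ssol_tball_mono hT v (by have := S.Rw_le i j hij; omega)

omit hθ in
lemma sub_rad_adj {i j : ℕ} (hij : i ≤ j) {y x : V} (hyx : G.Adj y x) :
    tball G x (S.Rw i) ⊆ tball G y (S.Rad j) :=
  (ssol_tball_adj hT hyx _).trans (ssol_tball_mono hT y (S.Rw_le i j hij))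

lemma X_step {r : ℝ} (v : V) {j : ℕ} (hr : Dy (S.lev j) r) (hrj : r ≤ j) :
    ∫ ω, (S.X r v j ω - S.X r v (j + 1) ω) ^ 2 ∂labelMeasure V ≤ 4 * (1 / 16 : ℝ) ^ j := by
  have hl : S.lev j ≤ S.lev (j + 1) := S.lev_mono.monotone (Nat.le_succ j)
  exact S.cmp j (j + 1) (Nat.le_succ j) _ _ v (S.b j) (conv_tball hT _ _) (conv_tball hT _ _)
    (S.sub_rad hT le_rfl v) (S.sub_rad hT (Nat.le_succ j) v) (S.card_le j v)
    (S.b_mono (Nat.le_succ j)) (S.card_le (j + 1) v) (S.lev j) (S.Nm_le j)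
    ((S.Nm_le j).trans hl) r hr (ssol_dy_refine hl hr) hrj

lemma Y_step {r : ℝ} {y x : V} (hyx : G.Adj y x) {j : ℕ} (hr : Dy (S.lev j) r) (hrj : r ≤ j) :
    ∫ ω, (S.Y r y x j ω - S.Y r y x (j + 1) ω) ^ 2 ∂labelMeasure V ≤ 640000 * (1 / 16 : ℝ) ^ j := by
  have hl : S.lev j ≤ S.lev (j + 1) := S.lev_mono.monotone (Nat.le_succ j)
  exact S.cmpN hT hθ j (j + 1) (Nat.le_succ j) _ _ y x (S.b j) (conv_tball hT _ _)
    (conv_tball hT _ _) hyx
    (S.sub_rad hT le_rfl y) (S.sub_rad hT (Nat.le_succ j) y)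
    (S.sub_rad_adj hT le_rfl hyx) (S.sub_rad_adj hT (Nat.le_succ j) hyx)
    (S.card_le j y) (S.b_mono (Nat.le_succ j)) (S.card_le (j + 1) y) (S.lev j) (S.Nm_le j)
    ((S.Nm_le j).trans hl) r hr (ssol_dy_refine hl hr) hrj

lemma X_tendsto {r : ℝ} (hr : ∃ n, Dy n r) (v : V) :
    ∀ᵐ ω ∂labelMeasure V, Tendsto (fun j => S.X r v j ω) atTop (𝓝 (S.M r v ω)) := by
  obtain ⟨J, hJ⟩ := S.exists_J hr
  exact ssol_ae_tendsto (S.measurable_X r v) (S.abs_X hθ r v) 4 J
    fun j hj => S.X_step hT hθ v (hJ j hj).1 (hJ j hj).2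

lemma Y_tendsto {r : ℝ} (hr : ∃ n, Dy n r) {y x : V} (hyx : G.Adj y x) :
    ∀ᵐ ω ∂labelMeasure V, Tendsto (fun j => S.Y r y x j ω) atTop (𝓝 (S.N r y x ω)) := by
  obtain ⟨J, hJ⟩ := S.exists_J hr
  exact ssol_ae_tendsto (S.measurable_Y r y x) (S.abs_Y hθ r y x) 640000 J
    fun j hj => S.Y_step hT hθ hyx (hJ j hj).1 (hJ j hj).2

/-- The bound behind `wcM`. -/
lemma wcM_core {i : ℕ} {W : Finset V} {v : V} (hW : Conv G W) (hs : tball G v (S.Rw i) ⊆ W) {n : ℕ}
    (hn : S.Nm W.card i ≤ n) {r : ℝ} (hr : Dy n r) (hri : r ≤ i) :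
    ∫ ω, (magT G θ W n r (xiL (V := V) ω) v - S.M r v ω) ^ 2 ∂labelMeasure V
      ≤ 9 * (1 / 16 : ℝ) ^ i := by
  have hL := ssol_tendsto_integral (S.measurable_X r v) (S.measurable_M r v) (S.abs_X hθ r v)
    (S.abs_M hθ r v) (S.X_tendsto hT hθ ⟨n, hr⟩ v)
  have hpos : (0 : ℝ) < (1 / 16 : ℝ) ^ i / 2 := by positivity
  have hev := (tendsto_order.1 hL).2 _ hpos
  obtain ⟨j, hj1, hj2⟩ := (hev.and (eventually_ge_atTop
    (max i (max W.card (max (S.Nm W.card i) n))))).exists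
  have hj3 : i ≤ j := (le_max_left _ _).trans hj2
  have hj4 : W.card ≤ j := ((le_max_left _ _).trans (le_max_right _ _)).trans hj2
  have hj5 : S.Nm W.card i ≤ j :=
    ((le_max_left _ _).trans ((le_max_right _ _).trans (le_max_right _ _))).trans hj2
  have hj6 : n ≤ j :=
    ((le_max_right _ _).trans ((le_max_right _ _).trans (le_max_right _ _))).trans hj2
  have h1 := S.cmp i j hj3 W _ v W.card hW (conv_tball hT v (S.Rad j)) hs (S.sub_rad hT hj3 v) le_rfl
    (hj4.trans (S.le_b j)) (S.card_le j v) n hn (hj5.trans (S.le_lev j)) r hr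
    (ssol_dy_refine (hj6.trans (S.le_lev j)) hr) hri
  have h2 := ssol_sq_triangle (P := labelMeasure V) (ssol_measurable_magT (G := G) θ W n r v)
    (S.measurable_X r v j) (S.measurable_M r v) (fun ω => abs_magn_le_one hθ _ _ v)
    (S.abs_X hθ r v j) (S.abs_M hθ r v)
  have h3 : ∫ ω, (magT G θ W n r (xiL (V := V) ω) v - S.X r v j ω) ^ 2 ∂labelMeasure V
      ≤ 4 * (1 / 16 : ℝ) ^ i := h1
  have hp : (0 : ℝ) < (1 / 16 : ℝ) ^ i := by positivity
  linarith

/-- The bound behind `wcN`. -/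
lemma wcN_core {i : ℕ} {W : Finset V} {y x : V} (hW : Conv G W) (hyx : G.Adj y x)
    (hs : tball G y (S.Rw i + 1) ⊆ W) {n : ℕ}
    (hn : S.Nm W.card i ≤ n) {r : ℝ} (hr : Dy n r) (hri : r ≤ i) :
    ∫ ω, (msgT G θ W n r (xiL (V := V) ω) y x - S.N r y x ω) ^ 2 ∂labelMeasure V
      ≤ 1280001 * (1 / 16 : ℝ) ^ i := by
  have hL := ssol_tendsto_integral (S.measurable_Y r y x) (S.measurable_N r y x)
    (S.abs_Y hθ r y x) (S.abs_N hθ r y x) (S.Y_tendsto hT hθ ⟨n, hr⟩ hyx)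
  have hpos : (0 : ℝ) < (1 / 16 : ℝ) ^ i / 2 := by positivity
  have hev := (tendsto_order.1 hL).2 _ hpos
  obtain ⟨j, hj1, hj2⟩ := (hev.and (eventually_ge_atTop
    (max i (max W.card (max (S.Nm W.card i) n))))).exists
  have hj3 : i ≤ j := (le_max_left _ _).trans hj2
  have hj4 : W.card ≤ j := ((le_max_left _ _).trans (le_max_right _ _)).trans hj2
  have hj5 : S.Nm W.card i ≤ j :=
    ((le_max_left _ _).trans ((le_max_right _ _).trans (le_max_right _ _))).trans hj2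
  have hj6 : n ≤ j :=
    ((le_max_right _ _).trans ((le_max_right _ _).trans (le_max_right _ _))).trans hj2
  have hs1 : tball G y (S.Rw i) ⊆ W := (ssol_tball_mono hT y (Nat.le_succ _)).trans hs
  have hs2 : tball G x (S.Rw i) ⊆ W := (ssol_tball_adj hT hyx _).trans hs
  have h1 := S.cmpN hT hθ i j hj3 W _ y x W.card hW (conv_tball hT y (S.Rad j)) hyx hs1
    (S.sub_rad hT hj3 y) hs2 (S.sub_rad_adj hT hj3 hyx) le_rfl
    (hj4.trans (S.le_b j)) (S.card_le j y) n hn (hj5.trans (S.le_lev j)) r hr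
    (ssol_dy_refine (hj6.trans (S.le_lev j)) hr) hri
  have hd : ∀ (Z : Finset V) (m : ℕ) (ω : V → unitInterval), |msgT G θ Z m r (xiL ω) y x| ≤ 1 :=
    fun Z m ω => abs_msg_le_one hθ _ _ y x
  have h2 := ssol_sq_triangle (P := labelMeasure V) (ssol_measurable_msgT (G := G) θ W n r y x)
    (S.measurable_Y r y x j) (S.measurable_N r y x) (hd W n)
    (S.abs_Y hθ r y x j) (S.abs_N hθ r y x)
  have h3 : ∫ ω, (msgT G θ W n r (xiL (V := V) ω) y x - S.Y r y x j ω) ^ 2 ∂labelMeasure V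
      ≤ 640000 * (1 / 16 : ℝ) ^ i := h1
  have hp : (0 : ℝ) < (1 / 16 : ℝ) ^ i := by positivity
  linarith

lemma X_eq_mrg {y x : V} (hyx : G.Adj y x) (r : ℝ) (j : ℕ) (ω : V → unitInterval) :
    S.X r y j ω = mrg (S.Y r y x j ω) (θ * S.Zx r y x j ω) :=
  magn_eq_mrg_msg hT hθ (conv_tball hT y (S.Rad j))
    (lamI G θ (tball G y (S.Rad j)) (S.lev j) (xiL ω) (stepOf r (S.lev j)))
    (ssol_self_mem hT y (S.Rad j))
    ((mem_tball hT).2 (by
      have h1 := tdist_one hT hyx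
      have h2 := S.Rw_le j j le_rfl
      omega)) hyx

/-- The algebraic relation at the limit. -/
lemma alg {r : ℝ} (hr : ∃ n, Dy n r) {y x : V} (hyx : G.Adj y x) :
    ∀ᵐ ω ∂labelMeasure V, S.M r y ω = mrg (S.N r y x ω) (θ * S.N r x y ω) := by
  obtain ⟨J, hJ⟩ := S.exists_J hr
  have hcross : ∀ᵐ ω ∂labelMeasure V, ∀ᶠ j in atTop, |S.Zx r y x j ω - S.Y r x y j ω| < (1 / 2 : ℝ) ^ j := by
    refine ssol_ae_eventually (fun j => (S.measurable_Zx r y x j).sub (S.measurable_Y r x y j))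
      (fun j ω => ?_) 640000 J (fun j hj => ?_)
    · have h1 := abs_le.1 (S.abs_Zx hθ r y x j ω)
      have h2 := abs_le.1 (S.abs_Y hθ r x y j ω)
      rw [abs_le]; constructor <;> linarith [h1.1, h1.2, h2.1, h2.2]
    · exact S.cmpN hT hθ j j le_rfl _ _ x y (S.b j) (conv_tball hT _ _) (conv_tball hT _ _)
        hyx.symm (S.sub_rad_adj hT le_rfl hyx) (S.sub_rad hT le_rfl x)
        (S.sub_rad hT le_rfl y) (S.sub_rad_adj hT le_rfl hyx.symm) (S.card_le j y) le_rfl
        (S.card_le j x) (S.lev j) (S.Nm_le j) (S.Nm_le j) r (hJ j hj).1 (hJ j hj).1 (hJ j hj).2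
  filter_upwards [S.X_tendsto hT hθ hr y, S.Y_tendsto hT hθ hr hyx, S.Y_tendsto hT hθ hr hyx.symm,
    hcross] with ω h1 h2 h3 h4
  have hZt : Tendsto (fun j => S.Zx r y x j ω) atTop (𝓝 (S.N r x y ω)) := by
    have h5 : Tendsto (fun j => S.Zx r y x j ω - S.Y r x y j ω) atTop (𝓝 0) := by
      rw [tendsto_zero_iff_abs_tendsto_zero]
      refine squeeze_zero' (Eventually.of_forall fun j => abs_nonneg _) ?_
        (tendsto_pow_atTop_nhds_zero_of_lt_one (r := (1 / 2 : ℝ)) (by norm_num) (by norm_num))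
      filter_upwards [h4] with j hj using hj.le
    have h6 := h5.add h3
    simpa using h6
  have hθ1 : |θ * S.N r x y ω| < 1 := by
    rw [abs_mul, abs_of_nonneg hθ.nonneg]
    have := S.abs_N hθ r x y ω
    have h0 := hθ.lt_one
    have h00 := hθ.nonneg
    nlinarith [abs_nonneg (S.N r x y ω)]
  have hne : 1 + S.N r y x ω * (θ * S.N r x y ω) ≠ 0 :=
    (one_add_mul_pos (S.abs_N hθ r y x ω) hθ1).ne'
  have h7 : Tendsto (fun j => mrg (S.Y r y x j ω) (θ * S.Zx r y x j ω)) atTop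
      (𝓝 (mrg (S.N r y x ω) (θ * S.N r x y ω))) := by
    unfold mrg
    have hb := hZt.const_mul θ
    exact (h2.add hb).div (tendsto_const_nhds.add (h2.mul hb)) hne
  refine tendsto_nhds_unique h1 (h7.congr fun j => ?_)
  exact (S.X_eq_mrg hT hθ hyx r j ω).symm

omit hθ in
lemma X_aut (hθ : GoodTheta θ) (g : G ≃g G) (r : ℝ) (v : V) (j : ℕ) (ω : V → unitInterval) :
    S.X r (g v) j ω = S.X r v j (ω ∘ g) := by
  unfold X magT
  rw [tball_aut, magn_aut, ssol_lamI_aut hθ]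

omit hθ in
lemma Y_aut (hθ : GoodTheta θ) (g : G ≃g G) (r : ℝ) (y x : V) (j : ℕ) (ω : V → unitInterval) :
    S.Y r (g y) (g x) j ω = S.Y r y x j (ω ∘ g) := by
  unfold Y msgT
  rw [tball_aut, msg_aut hT, ssol_lamI_aut hθ]

end SolScales

section thm
variable (hT : G.IsTree) (hreg : G.IsRegularOfDegree (q + 1)) (hq : 2 ≤ q)
include hT hreg hq

/-- WP Strict2: the limit fields exist. -/
theorem exists_sol {θ : ℝ} (hθ : GoodTheta θ) (hθq : θ ^ 2 * q < 1) :
    ∃ M N, IsSol G θ M N := by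
  obtain ⟨S⟩ := ssol_exists_scales hT hreg hq hθ hθq
  -- small errors
  have hsmall : ∀ (C T ε : ℝ), 0 < ε → 0 < C → ∃ i : ℕ, T ≤ i ∧ C * (1 / 16 : ℝ) ^ i ≤ ε := by
    intro C T ε hε hC
    have h1 : Tendsto (fun i : ℕ => C * (1 / 16 : ℝ) ^ i) atTop (𝓝 (C * 0)) :=
      (tendsto_pow_atTop_nhds_zero_of_lt_one (by norm_num) (by norm_num)).const_mul C
    rw [mul_zero] at h1
    obtain ⟨i, h2, h3⟩ := ((h1.eventually (ge_mem_nhds hε)).and (eventually_ge_atTop ⌈T⌉₊)).exists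
    refine ⟨i, ?_, h2⟩
    exact (Nat.le_ceil T).trans (by exact_mod_cast h3)
  refine ⟨S.M, S.N, ⟨S.measurable_M, S.measurable_N, S.abs_M hθ, S.abs_N hθ, ?_, ?_, ?_, ?_, ?_⟩⟩
  · intro T ε hε
    obtain ⟨i, hi, hiε⟩ := hsmall 9 T ε hε (by norm_num)
    refine ⟨S.Rw i, fun W v hW hs => ⟨S.Nm W.card i, fun n hn r hr hrT => ?_⟩⟩
    exact (S.wcM_core hT hθ hW hs hn hr (hrT.trans hi)).trans hiε
  · intro T ε hε
    obtain ⟨i, hi, hiε⟩ := hsmall 1280001 T ε hε (by norm_num)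
    refine ⟨S.Rw i + 1, fun W y x hW hyx hs => ⟨S.Nm W.card i, fun n hn r hr hrT => ?_⟩⟩
    exact (S.wcN_core hT hθ hW hyx hs hn hr (hrT.trans hi)).trans hiε
  · intro r y x hr hyx
    exact S.alg hT hθ hr hyx
  · intro g r v
    refine Eventually.of_forall fun ω => ?_
    unfold SolScales.M
    simp only [S.X_aut hT hθ g r v]
  · intro g r y x
    refine Eventually.of_forall fun ω => ?_
    unfold SolScales.N
    simp only [S.Y_aut hT hθ g r y x]

omit hq in
/-- Invariance: any integral of finitely many coordinates of a pair of solutions is invariant. -/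
theorem sol_pair_invariant {M₁ M₂ : ℝ → V → (V → unitInterval) → ℝ}
    {N₁ N₂ : ℝ → V → V → (V → unitInterval) → ℝ} {θ₁ θ₂ : ℝ}
    (hS₁ : IsSol G θ₁ M₁ N₁) (hS₂ : IsSol G θ₂ M₂ N₂) (g : G ≃g G) (r : ℝ) {ι : Type*} [Countable ι]
    (a b : ι → V) (c d e f : ι → V) (F : (ι → ℝ) → (ι → ℝ) → (ι → ℝ) → (ι → ℝ) → ℝ) :
    ∫ ω, F (fun i => M₁ r (g (a i)) ω) (fun i => M₂ r (g (b i)) ω)
          (fun i => N₁ r (g (c i)) (g (d i)) ω) (fun i => N₂ r (g (e i)) (g (f i)) ω) ∂labelMeasure V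
      = ∫ ω, F (fun i => M₁ r (a i) ω) (fun i => M₂ r (b i) ω)
          (fun i => N₁ r (c i) (d i) ω) (fun i => N₂ r (e i) (f i) ω) ∂labelMeasure V := by
  have h1 : ∀ᵐ ω ∂labelMeasure V, ∀ i, M₁ r (g (a i)) ω = M₁ r (a i) (ω ∘ g) :=
    ae_all_iff.2 fun i => hS₁.equivM g r (a i)
  have h2 : ∀ᵐ ω ∂labelMeasure V, ∀ i, M₂ r (g (b i)) ω = M₂ r (b i) (ω ∘ g) :=
    ae_all_iff.2 fun i => hS₂.equivM g r (b i)
  have h3 : ∀ᵐ ω ∂labelMeasure V, ∀ i, N₁ r (g (c i)) (g (d i)) ω = N₁ r (c i) (d i) (ω ∘ g) :=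
    ae_all_iff.2 fun i => hS₁.equivN g r (c i) (d i)
  have h4 : ∀ᵐ ω ∂labelMeasure V, ∀ i, N₂ r (g (e i)) (g (f i)) ω = N₂ r (e i) (f i) (ω ∘ g) :=
    ae_all_iff.2 fun i => hS₂.equivN g r (e i) (f i)
  have h5 : (fun ω => F (fun i => M₁ r (g (a i)) ω) (fun i => M₂ r (g (b i)) ω)
          (fun i => N₁ r (g (c i)) (g (d i)) ω) (fun i => N₂ r (g (e i)) (g (f i)) ω))
      =ᵐ[labelMeasure V] fun ω => (fun ω' => F (fun i => M₁ r (a i) ω') (fun i => M₂ r (b i) ω')
          (fun i => N₁ r (c i) (d i) ω') (fun i => N₂ r (e i) (f i) ω')) (ω ∘ g) := by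
    filter_upwards [h1, h2, h3, h4] with ω e1 e2 e3 e4
    simp only [e1, e2, e3, e4]
  rw [integral_congr_ae h5]
  exact (measurePreserving_comp_perm g.toEquiv).integral_comp
    (measurableEmbedding_comp_perm g.toEquiv) (fun ω' => F (fun i => M₁ r (a i) ω')
      (fun i => M₂ r (b i) ω') (fun i => N₁ r (c i) (d i) ω') (fun i => N₂ r (e i) (f i) ω'))

end thm

end main

end Crest.Agent.IsingFactor
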