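import Crest.Agent.IsingFactor.StrictWindowAux

/-!
# IsingFactor.StrictWindow (WP IF-StrictWindow): window comparison for `θ² q < 1`: see the proof in `StrictDefs`.
Statements may be ADDED; do not change the ones below without posting on chat (topic S0241), other packages use them.
-/

set_option autoImplicit false

open MeasureTheory ProbabilityTheory Filter Topology
open Crest.Agent.SRFactor Crest.ProbabilityR.Labels

namespace Crest.Agent.IsingFactor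

variable {V : Type*} [DecidableEq V] {G : SimpleGraph V}

namespace StrictWindowAux

theorem measurable_gAvg (θ : ℝ) (W : Finset V) (f : Finset V → ℝ) :
    Measurable fun lam : V → ℝ => gAvg G θ W lam f := by
  unfold gAvg Zf
  refine (Finset.measurable_sum _ fun S _ => ?_).div (Finset.measurable_sum _ fun S _ => ?_)
  · exact ((Real.measurable_exp.comp (Finset.measurable_sum _ fun i _ => measurable_pi_apply i)).const_mul _).mul_const _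
  · exact (Real.measurable_exp.comp (Finset.measurable_sum _ fun i _ => measurable_pi_apply i)).const_mul _

theorem measurable_magn (θ : ℝ) (W : Finset V) (v : V) :
    Measurable fun lam : V → ℝ => magn G θ W lam v :=
  measurable_gAvg θ W _

theorem measurable_covS (θ : ℝ) (W : Finset V) (v u : V) :
    Measurable fun lam : V → ℝ => covS G θ W lam v u :=
  (measurable_gAvg θ W _).sub ((measurable_magn θ W v).mul (measurable_magn θ W u))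

section noise
variable {Ω : Type*} [MeasurableSpace Ω] {ξ : Ω → Noise V}

theorem measurable_lamI (hξ : ∀ e n j, Measurable fun ω => ξ ω e n j) (θ : ℝ) (W : Finset V) (n k : ℕ) :
    Measurable fun ω => lamI G θ W n (ξ ω) k := by
  refine measurable_pi_lambda _ fun g => ?_
  have h1 : Measurable fun ω => levelNoise (ξ ω) n :=
    measurable_pi_lambda _ fun j => measurable_pi_lambda _ fun e => hξ e n j
  exact ((measurable_euler (isingW G θ W) W (hh n) k g).comp h1).sub_const _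

end noise

theorem summable_sq_geom {r : ℝ} (hr0 : 0 ≤ r) (hr1 : r < 1) :
    Summable fun d : ℕ => ((d : ℝ) + 1) ^ 2 * r ^ d := by
  have hn : ‖r‖ < 1 := by rwa [Real.norm_of_nonneg hr0]
  have h2 := summable_pow_mul_geometric_of_norm_lt_one 2 hn
  have h1 := summable_pow_mul_geometric_of_norm_lt_one 1 hn
  have h0 := summable_geometric_of_lt_one hr0 hr1
  have := (h2.add (h1.mul_left 2)).add h0
  refine this.congr fun d => ?_
  ring

section main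
variable [G.LocallyFinite] {q : ℕ} {Ω : Type*} [MeasurableSpace Ω] {P : Measure Ω} {ξ : Ω → Noise V}

/-- The squared difference of the magnetisations. -/
noncomputable def dm (G : SimpleGraph V) (θ : ℝ) (W₁ W₂ : Finset V) (n : ℕ) (ξ : Ω → Noise V) (P : Measure Ω)
    (k : ℕ) (x : V) : ℝ :=
  ∫ ω, (magn G θ W₁ (lamI G θ W₁ n (ξ ω) k) x - magn G θ W₂ (lamI G θ W₂ n (ξ ω) k) x) ^ 2 ∂P

/-- The bound of a single covariance term. -/
theorem cov_term (hT : G.IsTree) (hξ : IsDyadicNoise P ξ Set.univ) {θ : ℝ} (hθ : GoodTheta θ)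
    {W₁ W₂ : Finset V} (h₁ : Conv G W₁) (h₂ : Conv G W₂) {v : V} {R : ℕ}
    (hb₁ : tball G v R ⊆ W₁) (hb₂ : tball G v R ⊆ W₂) {s : ℝ} (hs : 1 ≤ s) (n k : ℕ) {b : ℝ} (hb : 0 ≤ b)
    (hall : ∀ x ∈ W₁ ∩ W₂, dm G θ W₁ W₂ n ξ P (k + 1) x ≤ b * s ^ G.dist v x)
    {w u : V} (hw : w ∈ W₁ ∩ W₂) (hu : u ∈ W₁ ∪ W₂) :
    ∫ ω, (covS G θ W₁ (lamI G θ W₁ n (ξ ω) (k + 1)) w u
        - covS G θ W₂ (lamI G θ W₂ n (ξ ω) (k + 1)) w u) ^ 2 ∂P ≤
      (((G.dist w u : ℝ) + 1) ^ 2 * (θ ^ 2 * s) ^ G.dist w u) *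
        (s ^ G.dist v w * (394 ^ 2 * b + (1 / s) ^ (R + 1))) := by
  have := hξ.prob
  have hconn := hT.connected
  have hs0 : 0 < s := by linarith
  have hθ0 : 0 ≤ θ := hθ.nonneg
  obtain ⟨hw₁, hw₂⟩ := Finset.mem_inter.1 hw
  set d := G.dist w u with hd
  have hm₁ : ∀ k x, Measurable fun ω => magn G θ W₁ (lamI G θ W₁ n (ξ ω) k) x := fun k x =>
    (measurable_magn θ W₁ x).comp (measurable_lamI hξ.meas θ W₁ n k)
  have hm₂ : ∀ k x, Measurable fun ω => magn G θ W₂ (lamI G θ W₂ n (ξ ω) k) x := fun k x =>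
    (measurable_magn θ W₂ x).comp (measurable_lamI hξ.meas θ W₂ n k)
  have hc₁ : Measurable fun ω => covS G θ W₁ (lamI G θ W₁ n (ξ ω) (k + 1)) w u :=
    (measurable_covS θ W₁ w u).comp (measurable_lamI hξ.meas θ W₁ n (k + 1))
  have hc₂ : Measurable fun ω => covS G θ W₂ (lamI G θ W₂ n (ξ ω) (k + 1)) w u :=
    (measurable_covS θ W₂ w u).comp (measurable_lamI hξ.meas θ W₂ n (k + 1))
  have hintC : Integrable (fun ω => (covS G θ W₁ (lamI G θ W₁ n (ξ ω) (k + 1)) w u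
        - covS G θ W₂ (lamI G θ W₂ n (ξ ω) (k + 1)) w u) ^ 2) P := by
    refine Integrable.of_bound (((hc₁.sub hc₂).pow_const 2).aestronglyMeasurable) 4 (Filter.Eventually.of_forall fun ω => ?_)
    have a1 := abs_covS_le_one (G := G) hθ W₁ (lamI G θ W₁ n (ξ ω) (k + 1)) w u
    have a2 := abs_covS_le_one (G := G) hθ W₂ (lamI G θ W₂ n (ξ ω) (k + 1)) w u
    rw [Real.norm_of_nonneg (sq_nonneg _), ← sq_abs]
    have a3 := abs_sub (covS G θ W₁ (lamI G θ W₁ n (ξ ω) (k + 1)) w u) (covS G θ W₂ (lamI G θ W₂ n (ξ ω) (k + 1)) w u)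
    nlinarith [abs_nonneg (covS G θ W₁ (lamI G θ W₁ n (ξ ω) (k + 1)) w u - covS G θ W₂ (lamI G θ W₂ n (ξ ω) (k + 1)) w u)]
  have hintM : ∀ x, Integrable (fun ω => (magn G θ W₁ (lamI G θ W₁ n (ξ ω) (k + 1)) x
        - magn G θ W₂ (lamI G θ W₂ n (ξ ω) (k + 1)) x) ^ 2) P := by
    intro x
    refine Integrable.of_bound ((((hm₁ (k+1) x).sub (hm₂ (k+1) x)).pow_const 2).aestronglyMeasurable) 4 (Filter.Eventually.of_forall fun ω => ?_)
    have a1 := abs_magn_le_one (G := G) hθ W₁ (lamI G θ W₁ n (ξ ω) (k + 1)) x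
    have a2 := abs_magn_le_one (G := G) hθ W₂ (lamI G θ W₂ n (ξ ω) (k + 1)) x
    rw [Real.norm_of_nonneg (sq_nonneg _), ← sq_abs]
    have a3 := abs_sub (magn G θ W₁ (lamI G θ W₁ n (ξ ω) (k + 1)) x) (magn G θ W₂ (lamI G θ W₂ n (ξ ω) (k + 1)) x)
    nlinarith [abs_nonneg (magn G θ W₁ (lamI G θ W₁ n (ξ ω) (k + 1)) x - magn G θ W₂ (lamI G θ W₂ n (ξ ω) (k + 1)) x)]
  have hsw : 0 < s ^ G.dist v w := pow_pos hs0 _
  have hθs : 0 ≤ (θ ^ 2 * s) ^ d := pow_nonneg (by positivity) _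
  have hsR : 0 ≤ (1 / s) ^ (R + 1) := by positivity
  by_cases hboth : u ∈ W₁ ∧ u ∈ W₂
  · -- the main case
    obtain ⟨hu₁, hu₂⟩ := hboth
    have hpt : ∀ ω, (covS G θ W₁ (lamI G θ W₁ n (ξ ω) (k + 1)) w u
        - covS G θ W₂ (lamI G θ W₂ n (ξ ω) (k + 1)) w u) ^ 2 ≤
        394 ^ 2 * ((d + 1 : ℕ) : ℝ) * (θ ^ 2) ^ d * ∑ j ∈ Finset.range (d + 1),
          (magn G θ W₁ (lamI G θ W₁ n (ξ ω) (k + 1)) (pathV G w u j)
            - magn G θ W₂ (lamI G θ W₂ n (ξ ω) (k + 1)) (pathV G w u j)) ^ 2 := fun ω =>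
      sq_covS_diff_le hT hθ h₁ h₂ _ _ hw₁ hw₂ hu₁ hu₂
    have hint_sum : Integrable (fun ω => 394 ^ 2 * ((d + 1 : ℕ) : ℝ) * (θ ^ 2) ^ d * ∑ j ∈ Finset.range (d + 1),
          (magn G θ W₁ (lamI G θ W₁ n (ξ ω) (k + 1)) (pathV G w u j)
            - magn G θ W₂ (lamI G θ W₂ n (ξ ω) (k + 1)) (pathV G w u j)) ^ 2) P :=
      (integrable_finsetSum _ fun j _ => hintM _).const_mul _
    have h1 := integral_mono hintC hint_sum hpt
    have h2 : ∫ ω, 394 ^ 2 * ((d + 1 : ℕ) : ℝ) * (θ ^ 2) ^ d * ∑ j ∈ Finset.range (d + 1),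
          (magn G θ W₁ (lamI G θ W₁ n (ξ ω) (k + 1)) (pathV G w u j)
            - magn G θ W₂ (lamI G θ W₂ n (ξ ω) (k + 1)) (pathV G w u j)) ^ 2 ∂P =
        394 ^ 2 * ((d + 1 : ℕ) : ℝ) * (θ ^ 2) ^ d * ∑ j ∈ Finset.range (d + 1),
          dm G θ W₁ W₂ n ξ P (k + 1) (pathV G w u j) := by
      rw [integral_const_mul, integral_finsetSum _ fun j _ => hintM _]
      rfl
    rw [h2] at h1
    have hsum : ∑ j ∈ Finset.range (d + 1), dm G θ W₁ W₂ n ξ P (k + 1) (pathV G w u j) ≤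
        ((d + 1 : ℕ) : ℝ) * (b * (s ^ G.dist v w * s ^ d)) := by
      have hterm : ∀ j ∈ Finset.range (d + 1), dm G θ W₁ W₂ n ξ P (k + 1) (pathV G w u j) ≤
          b * (s ^ G.dist v w * s ^ d) := by
        intro j hj
        have hj' : j ≤ d := Nat.lt_succ_iff.1 (Finset.mem_range.1 hj)
        have hmem : pathV G w u j ∈ W₁ ∩ W₂ := Finset.mem_inter.2
          ⟨StrictWindowAux.pathV_mem_of_conv hT h₁ hw₁ hu₁ hj',
            StrictWindowAux.pathV_mem_of_conv hT h₂ hw₂ hu₂ hj'⟩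
        refine (hall _ hmem).trans (mul_le_mul_of_nonneg_left ?_ hb)
        rw [← pow_add]
        refine pow_le_pow_right₀ hs ?_
        have htri : G.dist v (pathV G w u j) ≤ G.dist v w + G.dist w (pathV G w u j) :=
          hconn.dist_triangle
        have hgeo := (dist_add_eq_iff_mem_path hT (v := w) (u := u) (w := pathV G w u j)).2 ⟨j, hj', rfl⟩
        omega
      have := Finset.sum_le_sum hterm
      simpa using this
    refine h1.trans ?_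
    have hcoef : 0 ≤ 394 ^ 2 * ((d + 1 : ℕ) : ℝ) * (θ ^ 2) ^ d := by positivity
    refine (mul_le_mul_of_nonneg_left hsum hcoef).trans ?_
    have e1 : 394 ^ 2 * ((d + 1 : ℕ) : ℝ) * (θ ^ 2) ^ d * (((d + 1 : ℕ) : ℝ) * (b * (s ^ G.dist v w * s ^ d)))
        = ((((d : ℝ) + 1) ^ 2 * (θ ^ 2 * s) ^ d) * s ^ G.dist v w) * (394 ^ 2 * b) := by
      rw [mul_pow]; push_cast; ring
    rw [e1]
    have e2 : (((d : ℝ) + 1) ^ 2 * (θ ^ 2 * s) ^ d) * (s ^ G.dist v w * (394 ^ 2 * b + (1 / s) ^ (R + 1)))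
        = ((((d : ℝ) + 1) ^ 2 * (θ ^ 2 * s) ^ d) * s ^ G.dist v w) * (394 ^ 2 * b + (1 / s) ^ (R + 1)) := by ring
    rw [e2]
    refine mul_le_mul_of_nonneg_left ?_ (by positivity)
    linarith
  · -- `u` in exactly one window
    have hpt : ∀ ω, (covS G θ W₁ (lamI G θ W₁ n (ξ ω) (k + 1)) w u
        - covS G θ W₂ (lamI G θ W₂ n (ξ ω) (k + 1)) w u) ^ 2 ≤ (θ ^ 2) ^ d := by
      intro ω
      rcases Finset.mem_union.1 hu with hu₁ | hu₂
      · have hu₂ : u ∉ W₂ := fun h => hboth ⟨hu₁, h⟩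
        rw [covS_of_notMem hθ _ _ hu₂, sub_zero, ← sq_abs, pow_right_comm]
        exact pow_le_pow_left₀ (abs_nonneg _) (abs_covS_le_pow hT hθ h₁ _ hw₁ u) 2
      · have hu₁ : u ∉ W₁ := fun h => hboth ⟨h, hu₂⟩
        rw [covS_of_notMem hθ _ _ hu₁, zero_sub, neg_sq, ← sq_abs, pow_right_comm]
        exact pow_le_pow_left₀ (abs_nonneg _) (abs_covS_le_pow hT hθ h₂ _ hw₂ u) 2
    have h1 := integral_mono hintC (integrable_const ((θ ^ 2) ^ d)) hpt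
    rw [integral_const] at h1
    simp only [probReal_univ, smul_eq_mul, one_mul] at h1
    refine h1.trans ?_
    -- distance: `u` outside the ball
    have hout : R + 1 ≤ d + G.dist v w := by
      by_contra hcon
      push Not at hcon
      have htri : G.dist v u ≤ G.dist v w + G.dist w u := hconn.dist_triangle
      have : u ∈ tball G v R := (mem_tball hT).2 (by omega)
      exact hboth ⟨hb₁ this, hb₂ this⟩
    have h2 : (θ ^ 2) ^ d ≤ ((θ ^ 2 * s) ^ d) * (s ^ G.dist v w * (1 / s) ^ (R + 1)) := by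
      have e : ((θ ^ 2 * s) ^ d) * (s ^ G.dist v w * (1 / s) ^ (R + 1))
          = (θ ^ 2) ^ d * (s ^ (d + G.dist v w) * (1 / s) ^ (R + 1)) := by
        rw [mul_pow, pow_add]; ring
      rw [e]
      have h3 : 1 ≤ s ^ (d + G.dist v w) * (1 / s) ^ (R + 1) := by
        have h4 : s ^ (R + 1) ≤ s ^ (d + G.dist v w) := pow_le_pow_right₀ hs hout
        have h5 : s ^ (R + 1) * (1 / s) ^ (R + 1) = 1 := by
          rw [← mul_pow]; field_simp; simp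
        calc (1 : ℝ) = s ^ (R + 1) * (1 / s) ^ (R + 1) := h5.symm
          _ ≤ _ := mul_le_mul_of_nonneg_right h4 hsR
      have h6 : 0 ≤ (θ ^ 2) ^ d := by positivity
      nlinarith
    refine h2.trans ?_
    have hd1 : (1 : ℝ) ≤ ((d : ℝ) + 1) ^ 2 := by
      have : (0 : ℝ) ≤ d := by positivity
      nlinarith
    have e3 : (((d : ℝ) + 1) ^ 2 * (θ ^ 2 * s) ^ d) * (s ^ G.dist v w * (394 ^ 2 * b + (1 / s) ^ (R + 1)))
        = ((d : ℝ) + 1) ^ 2 * (((θ ^ 2 * s) ^ d) * (s ^ G.dist v w * (394 ^ 2 * b + (1 / s) ^ (R + 1)))) := by ring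
    rw [e3]
    have h7 : ((θ ^ 2 * s) ^ d) * (s ^ G.dist v w * (1 / s) ^ (R + 1)) ≤
        ((θ ^ 2 * s) ^ d) * (s ^ G.dist v w * (394 ^ 2 * b + (1 / s) ^ (R + 1))) := by
      refine mul_le_mul_of_nonneg_left (mul_le_mul_of_nonneg_left ?_ hsw.le) hθs
      nlinarith
    have h8 : 0 ≤ ((θ ^ 2 * s) ^ d) * (s ^ G.dist v w * (394 ^ 2 * b + (1 / s) ^ (R + 1))) := by positivity
    nlinarith

/-- The Gronwall conclusion for a pair of windows. -/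
theorem window_bound (hT : G.IsTree) (hreg : G.IsRegularOfDegree (q + 1)) (hq : 2 ≤ q)
    (hξ : IsDyadicNoise P ξ Set.univ) {θ : ℝ} (hθ : GoodTheta θ)
    {s κ₀ : ℝ} (hs1 : 1 ≤ s) (hf0 : ∀ d : ℕ, 0 ≤ ((d : ℝ) + 1) ^ 2 * (θ ^ 2 * s) ^ d)
    (hsum : Summable fun d : ℕ => 2 * (q : ℝ) ^ d * (((d : ℝ) + 1) ^ 2 * (θ ^ 2 * s) ^ d))
    (hκ₀ : κ₀ = ∑' d : ℕ, 2 * (q : ℝ) ^ d * (((d : ℝ) + 1) ^ 2 * (θ ^ 2 * s) ^ d))
    {W₁ W₂ : Finset V} (h₁ : Conv G W₁) (h₂ : Conv G W₂) {v : V} {R : ℕ}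
    (hb₁ : tball G v R ⊆ W₁) (hb₂ : tball G v R ⊆ W₂) (n k : ℕ)
    (hnκ : hh n * ((Real.pi ^ 2 / 32) * κ₀ * 394 ^ 2) ≤ 1 / 2) :
    dm G θ W₁ W₂ n ξ P k v ≤
      (k : ℝ) * (2 * (hh n * ((Real.pi ^ 2 / 32) * κ₀ * (1 / s) ^ (R + 1))
          + 64 * ((W₁.card : ℝ) ^ 2 + (W₂.card : ℝ) ^ 2) * hh n ^ 2))
        * Real.exp (2 * ((Real.pi ^ 2 / 32) * κ₀ * 394 ^ 2) * (k * hh n)) := by
  have hs0 : 0 < s := by linarith
  have hh0 : 0 ≤ hh n := by unfold hh; positivity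
  have hκ₀0 : 0 ≤ κ₀ := by
    rw [hκ₀]; exact tsum_nonneg fun d => mul_nonneg (by positivity) (hf0 d)
  have hc₀0 : 0 ≤ Real.pi ^ 2 / 32 := by positivity
  have hL : ∀ x ∈ W₁ ∩ W₂, (1 : ℝ) ≤ s ^ G.dist v x := fun x _ => one_le_pow₀ hs1
  have ha0 : ∀ x ∈ W₁ ∩ W₂, dm G θ W₁ W₂ n ξ P 0 x ≤ 0 := by
    intro x hx
    obtain ⟨hx₁, hx₂⟩ := Finset.mem_inter.1 hx
    have hl : ∀ (W : Finset V) (ω : Ω), lamI G θ W n (ξ ω) 0 = fun _ => 0 := by
      intro W ω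
      funext g
      simp [lamI, eulerI]
    simp only [dm, hl, magn_zero hθ W₁ hx₁, magn_zero hθ W₂ hx₂]
    simp
  have hstep : ∀ k (b : ℝ), 0 ≤ b → (∀ x ∈ W₁ ∩ W₂, dm G θ W₁ W₂ n ξ P (k + 1) x ≤ b * s ^ G.dist v x) →
      ∀ w ∈ W₁ ∩ W₂, dm G θ W₁ W₂ n ξ P (k + 1) w ≤ dm G θ W₁ W₂ n ξ P k w
        + hh n * (((Real.pi ^ 2 / 32) * κ₀ * 394 ^ 2) * b + (Real.pi ^ 2 / 32) * κ₀ * (1 / s) ^ (R + 1)) * s ^ G.dist v w
        + 64 * ((W₁.card : ℝ) ^ 2 + (W₂.card : ℝ) ^ 2) * hh n ^ 2 := by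
    intro k b hb hall w hw
    obtain ⟨hw₁, hw₂⟩ := Finset.mem_inter.1 hw
    have hps := pair_step (G := G) hξ hθ hθ W₁ W₂ (Set.subset_univ _) n k hw₁ hw₂
    set Z : ℝ := s ^ G.dist v w * (394 ^ 2 * b + (1 / s) ^ (R + 1)) with hZ
    have hZ0 : 0 ≤ Z := by positivity
    have hterm : ∀ u ∈ W₁ ∪ W₂, ∫ ω, (covS G θ W₁ (lamI G θ W₁ n (ξ ω) (k + 1)) w u
          - covS G θ W₂ (lamI G θ W₂ n (ξ ω) (k + 1)) w u) ^ 2 ∂P ≤
          (((G.dist w u : ℝ) + 1) ^ 2 * (θ ^ 2 * s) ^ G.dist w u) * Z :=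
      fun u hu => cov_term hT hξ hθ h₁ h₂ hb₁ hb₂ hs1 n k hb hall hw hu
    have hcount2 : ∑ u ∈ W₁ ∪ W₂, (((G.dist w u : ℝ) + 1) ^ 2 * (θ ^ 2 * s) ^ G.dist w u) ≤ κ₀ := by
      rw [hκ₀]
      exact sum_dist_le (f := fun d : ℕ => ((d : ℝ) + 1) ^ 2 * (θ ^ 2 * s) ^ d) hT hreg (by omega) w _ hf0 hsum
    have hsumu : ∑ u ∈ W₁ ∪ W₂, ∫ ω, (covS G θ W₁ (lamI G θ W₁ n (ξ ω) (k + 1)) w u
          - covS G θ W₂ (lamI G θ W₂ n (ξ ω) (k + 1)) w u) ^ 2 ∂P ≤ κ₀ * Z := by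
      refine (Finset.sum_le_sum hterm).trans ?_
      rw [← Finset.sum_mul]
      exact mul_le_mul_of_nonneg_right hcount2 hZ0
    have hcoef : 0 ≤ (Real.pi ^ 2 / 32) * hh n := by positivity
    have h3 := mul_le_mul_of_nonneg_left hsumu hcoef
    have h4 : hh n * (((Real.pi ^ 2 / 32) * κ₀ * 394 ^ 2) * b + (Real.pi ^ 2 / 32) * κ₀ * (1 / s) ^ (R + 1)) * s ^ G.dist v w
        = (Real.pi ^ 2 / 32) * hh n * (κ₀ * Z) := by
      rw [hZ]; ring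
    rw [h4]
    have hps' : dm G θ W₁ W₂ n ξ P (k + 1) w ≤ dm G θ W₁ W₂ n ξ P k w + (Real.pi ^ 2 / 32) * hh n * ∑ u ∈ W₁ ∪ W₂, ∫ ω, (covS G θ W₁ (lamI G θ W₁ n (ξ ω) (k + 1)) w u
          - covS G θ W₂ (lamI G θ W₂ n (ξ ω) (k + 1)) w u) ^ 2 ∂P
          + 64 * ((W₁.card : ℝ) ^ 2 + (W₂.card : ℝ) ^ 2) * hh n ^ 2 := hps
    linarith
  have hv : v ∈ W₁ ∩ W₂ := by
    have : v ∈ tball G v R := (mem_tball hT).2 (by simp)
    exact Finset.mem_inter.2 ⟨hb₁ this, hb₂ this⟩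
  have hg := gronwall_exp (W₁ ∩ W₂) (fun x => s ^ G.dist v x) hL (dm G θ W₁ W₂ n ξ P) ha0 hh0
    (κ := (Real.pi ^ 2 / 32) * κ₀ * 394 ^ 2) (τ := (Real.pi ^ 2 / 32) * κ₀ * (1 / s) ^ (R + 1))
    (E := 64 * ((W₁.card : ℝ) ^ 2 + (W₂.card : ℝ) ^ 2) * hh n ^ 2) (by positivity) (by positivity) (by positivity)
    hnκ hstep k v hv
  simpa using hg

/-- Pure arithmetic of the final estimate. -/
theorem final_arith {k : ℕ} {h τ E κ T' bc ε : ℝ} (hh0 : 0 ≤ h) (hτ0 : 0 ≤ τ) (hκ0 : 0 ≤ κ)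
    (hkh : (k : ℝ) * h ≤ T') (hT'0 : 0 ≤ T') (hEb : E ≤ 128 * bc ^ 2 * h ^ 2)
    (h1 : (2 * T' * Real.exp (2 * κ * T')) * τ ≤ ε / 2)
    (h2 : (2 * T' * Real.exp (2 * κ * T')) * (128 * bc ^ 2 * h) ≤ ε / 2) :
    (k : ℝ) * (2 * (h * τ + E)) * Real.exp (2 * κ * (k * h)) ≤ ε := by
  have hexp : Real.exp (2 * κ * (k * h)) ≤ Real.exp (2 * κ * T') :=
    Real.exp_le_exp.2 (mul_le_mul_of_nonneg_left hkh (by positivity))
  have hmain : (k : ℝ) * (2 * (h * τ + E)) ≤ 2 * T' * (τ + 128 * bc ^ 2 * h) := by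
    have h5 : (k : ℝ) * E ≤ (k : ℝ) * (128 * bc ^ 2 * h ^ 2) :=
      mul_le_mul_of_nonneg_left hEb (by positivity)
    have h6 : (k : ℝ) * (128 * bc ^ 2 * h ^ 2) = ((k : ℝ) * h) * (128 * bc ^ 2 * h) := by ring
    have h7 : ((k : ℝ) * h) * (128 * bc ^ 2 * h) ≤ T' * (128 * bc ^ 2 * h) :=
      mul_le_mul_of_nonneg_right hkh (by positivity)
    have h8 : ((k : ℝ) * h) * τ ≤ T' * τ := mul_le_mul_of_nonneg_right hkh hτ0
    nlinarith
  calc (k : ℝ) * (2 * (h * τ + E)) * Real.exp (2 * κ * (k * h))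
      ≤ (2 * T' * (τ + 128 * bc ^ 2 * h)) * Real.exp (2 * κ * T') :=
        mul_le_mul hmain hexp (Real.exp_pos _).le (by positivity)
    _ = (2 * T' * Real.exp (2 * κ * T')) * τ + (2 * T' * Real.exp (2 * κ * T')) * (128 * bc ^ 2 * h) := by ring
    _ ≤ ε := by linarith

end main

end StrictWindowAux

section main
variable [G.LocallyFinite] {q : ℕ} (hT : G.IsTree) (hreg : G.IsRegularOfDegree (q + 1)) (hq : 2 ≤ q)
include hT hreg hq

/-- WP Strict1: window comparison at the same mesh. -/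
theorem window_compare_L2 {θ : ℝ} (hθ : GoodTheta θ) (hθq : θ ^ 2 * q < 1) (T ε : ℝ) (hε : 0 < ε) :
    ∃ R : ℕ, ∀ b : ℕ, ∃ n₀ : ℕ, ∀ (W₁ W₂ : Finset V) (v : V), Conv G W₁ → Conv G W₂ →
      tball G v R ⊆ W₁ → tball G v R ⊆ W₂ → W₁.card ≤ b → W₂.card ≤ b → ∀ n ≥ n₀, ∀ k : ℕ, k * hh n ≤ T →
        ∫ ω, (magn G θ W₁ (lamI G θ W₁ n (xiL (V := V) ω) k) v
            - magn G θ W₂ (lamI G θ W₂ n (xiL ω) k) v) ^ 2 ∂labelMeasure V ≤ ε := by
  have hcount : Countable V := countable_of_isTree hT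
  have hξ : IsDyadicNoise (labelMeasure V) (xiL (V := V)) Set.univ := isDyadicNoise_xiL
  have hq0 : (0 : ℝ) ≤ q := by positivity
  have hθ0 : 0 ≤ θ := hθ.nonneg
  set ρ : ℝ := θ ^ 2 * q with hρ
  have hρ0 : 0 ≤ ρ := by positivity
  set s : ℝ := 2 / (1 + ρ) with hs
  have hd0 : 0 < 1 + ρ := by linarith
  have hs1 : 1 < s := by
    rw [hs, lt_div_iff₀ hd0]; linarith
  have hs0 : 0 < s := by linarith
  have hr1 : ρ * s < 1 := by
    rw [hs, mul_div_assoc', div_lt_iff₀ hd0]; linarith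
  have hr0 : 0 ≤ ρ * s := by positivity
  have hf0 : ∀ d : ℕ, 0 ≤ ((d : ℝ) + 1) ^ 2 * (θ ^ 2 * s) ^ d := fun d => by positivity
  have hsum : Summable fun d : ℕ => 2 * (q : ℝ) ^ d * (((d : ℝ) + 1) ^ 2 * (θ ^ 2 * s) ^ d) := by
    have := (StrictWindowAux.summable_sq_geom hr0 hr1).mul_left 2
    refine this.congr fun d => ?_
    simp only [hρ]
    rw [show θ ^ 2 * (q : ℝ) * s = (θ ^ 2 * s) * q by ring, mul_pow]
    ring
  obtain ⟨κ₀, hκ₀⟩ : ∃ κ₀ : ℝ, κ₀ = ∑' d : ℕ, 2 * (q : ℝ) ^ d * (((d : ℝ) + 1) ^ 2 * (θ ^ 2 * s) ^ d) := ⟨_, rfl⟩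
  have hκ₀0 : 0 ≤ κ₀ := by
    rw [hκ₀]; exact tsum_nonneg fun d => mul_nonneg (by positivity) (hf0 d)
  set c₀ : ℝ := Real.pi ^ 2 / 32 with hc₀
  have hc₀0 : 0 ≤ c₀ := by positivity
  set κ : ℝ := c₀ * κ₀ * 394 ^ 2 with hκ
  have hκ0 : 0 ≤ κ := by positivity
  set T' : ℝ := max T 0 with hT'
  have hT'0 : 0 ≤ T' := le_max_right _ _
  set X : ℝ := 2 * T' * Real.exp (2 * κ * T') with hX
  have hX0 : 0 ≤ X := by positivity
  have h1s : 1 / s < 1 := by rw [div_lt_one hs0]; exact hs1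
  have h1s0 : 0 ≤ 1 / s := by positivity
  -- choice of `R`
  obtain ⟨R, hR⟩ : ∃ R : ℕ, X * (c₀ * κ₀ * (1 / s) ^ (R + 1)) ≤ ε / 2 := by
    set Y := X * (c₀ * κ₀) with hY
    have hY0 : 0 ≤ Y := by positivity
    obtain ⟨R, hR⟩ := exists_pow_lt_of_lt_one (show 0 < (ε / 2) / (Y + 1) by positivity) h1s
    refine ⟨R, ?_⟩
    have h2 : (1 / s) ^ (R + 1) ≤ (ε / 2) / (Y + 1) := by
      refine le_trans ?_ hR.le
      rw [pow_succ]
      have : 0 ≤ (1 / s) ^ R := by positivity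
      nlinarith
    have h3 : X * (c₀ * κ₀ * (1 / s) ^ (R + 1)) = Y * (1 / s) ^ (R + 1) := by rw [hY]; ring
    rw [h3]
    calc Y * (1 / s) ^ (R + 1) ≤ Y * ((ε / 2) / (Y + 1)) := mul_le_mul_of_nonneg_left h2 hY0
      _ ≤ ε / 2 := by
        rw [mul_div_assoc', div_le_iff₀ (by linarith)]
        nlinarith
  refine ⟨R, fun bc => ?_⟩
  -- choice of `n₀`
  obtain ⟨n₀, hn₀⟩ : ∃ n₀ : ℕ, ∀ n ≥ n₀, hh n * κ ≤ 1 / 2 ∧ X * (128 * (bc : ℝ) ^ 2 * hh n) ≤ ε / 2 := by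
    set Y : ℝ := X * (128 * (bc : ℝ) ^ 2) with hY
    have hY0 : 0 ≤ Y := by positivity
    set δ : ℝ := min (1 / (2 * κ + 1)) ((ε / 2) / (Y + 1)) with hδ
    have hδ0 : 0 < δ := lt_min (by positivity) (by positivity)
    obtain ⟨n₀, hn₀⟩ := exists_pow_lt_of_lt_one hδ0 (show (1 / 2 : ℝ) < 1 by norm_num)
    refine ⟨n₀, fun n hn => ?_⟩
    have hhn : hh n ≤ δ := by
      unfold hh
      exact (pow_le_pow_of_le_one (by norm_num) (by norm_num) hn).trans hn₀.le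
    have hh0 : 0 ≤ hh n := by unfold hh; positivity
    constructor
    · have h2 : hh n ≤ 1 / (2 * κ + 1) := hhn.trans (min_le_left _ _)
      calc hh n * κ ≤ 1 / (2 * κ + 1) * κ := mul_le_mul_of_nonneg_right h2 hκ0
        _ ≤ 1 / 2 := by
          rw [div_mul_eq_mul_div, one_mul, div_le_iff₀ (by positivity)]
          linarith
    · have h2 : hh n ≤ (ε / 2) / (Y + 1) := hhn.trans (min_le_right _ _)
      have h3 : X * (128 * (bc : ℝ) ^ 2 * hh n) = Y * hh n := by rw [hY]; ring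
      rw [h3]
      calc Y * hh n ≤ Y * ((ε / 2) / (Y + 1)) := mul_le_mul_of_nonneg_left h2 hY0
        _ ≤ ε / 2 := by
          rw [mul_div_assoc', div_le_iff₀ (by linarith)]
          nlinarith
  refine ⟨n₀, fun W₁ W₂ v h₁ h₂ hb₁ hb₂ hc₁ hc₂ n hn k hk => ?_⟩
  obtain ⟨hnκ, hnE⟩ := hn₀ n hn
  have hh0 : 0 ≤ hh n := by unfold hh; positivity
  have hwb := StrictWindowAux.window_bound (P := labelMeasure V) hT hreg hq hξ hθ hs1.le hf0 hsum hκ₀ h₁ h₂ hb₁ hb₂ n k hnκ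
  have hEb : 64 * ((W₁.card : ℝ) ^ 2 + (W₂.card : ℝ) ^ 2) * hh n ^ 2 ≤ 128 * (bc : ℝ) ^ 2 * hh n ^ 2 := by
    have hc₁' : (W₁.card : ℝ) ≤ bc := by exact_mod_cast hc₁
    have hc₂' : (W₂.card : ℝ) ≤ bc := by exact_mod_cast hc₂
    have hs₁ : (W₁.card : ℝ) ^ 2 ≤ (bc : ℝ) ^ 2 := pow_le_pow_left₀ (by positivity) hc₁' 2
    have hs₂ : (W₂.card : ℝ) ^ 2 ≤ (bc : ℝ) ^ 2 := pow_le_pow_left₀ (by positivity) hc₂' 2
    have : 0 ≤ hh n ^ 2 := by positivity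
    nlinarith
  exact hwb.trans (StrictWindowAux.final_arith hh0 (by positivity) hκ0
    (hk.trans (le_max_left _ _)) hT'0 hEb hR hnE)

end main

end Crest.Agent.IsingFactor
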