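import Crest.Agent.IsingFactor.StrictDefs

/-!
# Auxiliary lemmas for IF-StrictWindow: weighted discrete Gronwall, product telescoping,
pointwise covariance bound, sphere counting.
-/

set_option autoImplicit false

open MeasureTheory ProbabilityTheory Filter Topology
open Crest.Agent.SRFactor Crest.ProbabilityR.Labels

namespace Crest.Agent.IsingFactor

namespace StrictWindowAux

/-- Discrete implicit Gronwall on a finite set with weights `L ≥ 1`. -/
theorem gronwall_pow {α : Type*} (A : Finset α) (L : α → ℝ) (hL : ∀ x ∈ A, 1 ≤ L x)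
    (a : ℕ → α → ℝ) (h0 : ∀ x ∈ A, a 0 x ≤ 0) {h κ τ E : ℝ} (hh0 : 0 ≤ h) (hκ0 : 0 ≤ κ)
    (hτ0 : 0 ≤ τ) (hE : 0 ≤ E) (hκ : h * κ ≤ 1 / 2)
    (hstep : ∀ k (b : ℝ), 0 ≤ b → (∀ x ∈ A, a (k + 1) x ≤ b * L x) →
      ∀ w ∈ A, a (k + 1) w ≤ a k w + h * (κ * b + τ) * L w + E) (k : ℕ) :
    ∀ x ∈ A, a k x ≤ (k * (2 * (h * τ + E)) * (1 + 2 * (h * κ)) ^ k) * L x := by
  have hx0 : 0 ≤ h * κ := mul_nonneg hh0 hκ0
  have hr0 : 0 ≤ h * τ + E := add_nonneg (mul_nonneg hh0 hτ0) hE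
  induction k with
  | zero =>
    intro x hx
    simpa using h0 x hx
  | succ k ih =>
    set x₀ := h * κ with hx₀
    set r := h * τ + E with hr
    set s := 1 + 2 * x₀ with hs
    have hs1 : 1 ≤ s := by rw [hs]; linarith
    have hs0 : 0 ≤ s := by linarith
    have hspow : 1 ≤ s ^ (k + 1) := one_le_pow₀ hs1
    set Bk : ℝ := k * (2 * r) * s ^ k with hBk
    set B' : ℝ := ((k + 1 : ℕ) : ℝ) * (2 * r) * s ^ (k + 1) with hB'
    have hB'0 : 0 ≤ B' := by positivity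
    have hBk0 : 0 ≤ Bk := by positivity
    rcases A.eq_empty_or_nonempty with rfl | hne
    · intro x hx; simp at hx
    obtain ⟨y, hy, hmax⟩ := Finset.exists_max_image A (fun x => a (k + 1) x / L x) hne
    have hLy : 1 ≤ L y := hL y hy
    have hLy0 : 0 < L y := by linarith
    set b := max 0 (a (k + 1) y / L y) with hb
    have hb0 : 0 ≤ b := le_max_left _ _
    have hall : ∀ x ∈ A, a (k + 1) x ≤ b * L x := by
      intro x hx
      have hLx : 0 < L x := by linarith [hL x hx]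
      have h1 : a (k + 1) x / L x ≤ b := (hmax x hx).trans (le_max_right _ _)
      exact (div_le_iff₀ hLx).1 h1
    have hbB : b ≤ B' := by
      rcases le_total (a (k + 1) y / L y) 0 with hcase | hcase
      · rw [hb, max_eq_left hcase]; exact hB'0
      · have hbeq : b = a (k + 1) y / L y := by rw [hb, max_eq_right hcase]
        have hay : a (k + 1) y = b * L y := by rw [hbeq]; field_simp
        have h1 := hstep k b hb0 hall y hy
        have h2 := ih y hy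
        -- `b L ≤ (Bk + hκ b + hτ) L + E`
        have h3 : b * L y ≤ (Bk + x₀ * b + r) * L y := by
          have : E ≤ E * L y := by nlinarith
          rw [← hay]
          calc a (k + 1) y ≤ a k y + h * (κ * b + τ) * L y + E := h1
            _ ≤ Bk * L y + h * (κ * b + τ) * L y + E * L y := by linarith
            _ = (Bk + x₀ * b + r) * L y := by rw [hx₀, hr]; ring
        have h4 : b ≤ Bk + x₀ * b + r := le_of_mul_le_mul_right h3 hLy0
        have h5 : b ≤ s * (Bk + r) := by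
          have h6 : (1 - x₀) * b ≤ Bk + r := by linarith
          have h7 : 1 ≤ s * (1 - x₀) := by rw [hs]; nlinarith
          calc b ≤ s * (1 - x₀) * b := by nlinarith
            _ = s * ((1 - x₀) * b) := by ring
            _ ≤ s * (Bk + r) := mul_le_mul_of_nonneg_left h6 hs0
        have hs2 : s ≤ 2 := by rw [hs]; linarith
        have h8 : s * r ≤ 2 * r * s ^ (k + 1) := by
          have h9 : s * r ≤ 2 * r := by nlinarith
          have h10 : 2 * r * 1 ≤ 2 * r * s ^ (k + 1) :=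
            mul_le_mul_of_nonneg_left hspow (by positivity)
          linarith
        have h11 : s * Bk = k * (2 * r) * s ^ (k + 1) := by rw [hBk, pow_succ]; ring
        have h12 : B' = k * (2 * r) * s ^ (k + 1) + 2 * r * s ^ (k + 1) := by
          rw [hB']; push_cast; ring
        rw [h12]
        nlinarith
    intro x hx
    have hLx : 0 < L x := by linarith [hL x hx]
    exact (hall x hx).trans (mul_le_mul_of_nonneg_right hbB hLx.le)

theorem gronwall_exp {α : Type*} (A : Finset α) (L : α → ℝ) (hL : ∀ x ∈ A, 1 ≤ L x)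
    (a : ℕ → α → ℝ) (h0 : ∀ x ∈ A, a 0 x ≤ 0) {h κ τ E : ℝ} (hh0 : 0 ≤ h) (hκ0 : 0 ≤ κ)
    (hτ0 : 0 ≤ τ) (hE : 0 ≤ E) (hκ : h * κ ≤ 1 / 2)
    (hstep : ∀ k (b : ℝ), 0 ≤ b → (∀ x ∈ A, a (k + 1) x ≤ b * L x) →
      ∀ w ∈ A, a (k + 1) w ≤ a k w + h * (κ * b + τ) * L w + E) (k : ℕ) :
    ∀ x ∈ A, a k x ≤ (k * (2 * (h * τ + E)) * Real.exp (2 * κ * (k * h))) * L x := by
  intro x hx
  have h1 := gronwall_pow A L hL a h0 hh0 hκ0 hτ0 hE hκ hstep k x hx
  refine h1.trans ?_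
  have hLx : 0 ≤ L x := by linarith [hL x hx]
  refine mul_le_mul_of_nonneg_right ?_ hLx
  have hr0 : 0 ≤ h * τ + E := add_nonneg (mul_nonneg hh0 hτ0) hE
  refine mul_le_mul_of_nonneg_left ?_ (by positivity)
  have hx0 : 0 ≤ h * κ := mul_nonneg hh0 hκ0
  have h2 : (1 + 2 * (h * κ)) ≤ Real.exp (2 * (h * κ)) := by
    have := Real.add_one_le_exp (2 * (h * κ)); linarith
  calc (1 + 2 * (h * κ)) ^ k ≤ (Real.exp (2 * (h * κ))) ^ k :=
        pow_le_pow_left₀ (by positivity) h2 k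
    _ = Real.exp (2 * κ * (k * h)) := by
        rw [← Real.exp_nat_mul]; congr 1; ring

/-- Telescoping: products of numbers in `[0,1]`. -/
theorem abs_prod_sub_prod_le (a b : ℕ → ℝ) (d : ℕ) (ha : ∀ j < d, 0 ≤ a j ∧ a j ≤ 1)
    (hb : ∀ j < d, 0 ≤ b j ∧ b j ≤ 1) :
    |∏ j ∈ Finset.range d, a j - ∏ j ∈ Finset.range d, b j| ≤
      ∑ j ∈ Finset.range d, |a j - b j| := by
  induction d with
  | zero => simp
  | succ d ih =>
    have ih' := ih (fun j hj => ha j (by omega)) (fun j hj => hb j (by omega))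
    rw [Finset.prod_range_succ, Finset.prod_range_succ, Finset.sum_range_succ]
    set P := ∏ j ∈ Finset.range d, a j
    set Q := ∏ j ∈ Finset.range d, b j
    have hP0 : 0 ≤ P := Finset.prod_nonneg fun j hj => (ha j (by have := Finset.mem_range.1 hj; omega)).1
    have hP1 : P ≤ 1 := Finset.prod_le_one (fun j hj => (ha j (by have := Finset.mem_range.1 hj; omega)).1)
      (fun j hj => (ha j (by have := Finset.mem_range.1 hj; omega)).2)
    have hbd := hb d (by omega)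
    have e1 : P * a d - Q * b d = P * (a d - b d) + (P - Q) * b d := by ring
    rw [e1]
    calc |P * (a d - b d) + (P - Q) * b d| ≤ |P * (a d - b d)| + |(P - Q) * b d| := abs_add_le _ _
      _ = P * |a d - b d| + |P - Q| * b d := by
          rw [abs_mul, abs_mul, abs_of_nonneg hP0, abs_of_nonneg hbd.1]
      _ ≤ 1 * |a d - b d| + |P - Q| * 1 := by
          gcongr
          · exact hbd.2
      _ ≤ _ := by linarith

variable {V : Type*} [DecidableEq V] {G : SimpleGraph V}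

/-- The vertices of the geodesic between two points of a convex set are in it. -/
theorem pathV_mem_of_conv (hT : G.IsTree) {W : Finset V} (hW : Conv G W) {w u : V} (hw : w ∈ W)
    (hu : u ∈ W) {j : ℕ} (hj : j ≤ G.dist w u) : pathV G w u j ∈ W := by
  have h := (dist_add_eq_iff_mem_path hT (v := w) (u := u) (w := pathV G w u j)).2 ⟨j, hj, rfl⟩
  exact hW w hw u hu _ h

/-- The Lipschitz bound for messages in terms of magnetisations on an edge in both windows. -/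
theorem msg_diff_le (hT : G.IsTree) {θ : ℝ} (hθ : GoodTheta θ) {W₁ W₂ : Finset V} (h₁ : Conv G W₁)
    (h₂ : Conv G W₂) (l₁ l₂ : V → ℝ) {y x : V} (hy₁ : y ∈ W₁) (hy₂ : y ∈ W₂) (hx₁ : x ∈ W₁)
    (hx₂ : x ∈ W₂) (hyx : G.Adj y x) :
    |msg G θ W₁ l₁ y x - msg G θ W₂ l₂ y x| ≤
      49 * (|magn G θ W₁ l₁ y - magn G θ W₂ l₂ y| + |magn G θ W₁ l₁ x - magn G θ W₂ l₂ x|) := by
  have hlip := msg_lip_same hθ (abs_msg_le_one (G := G) hθ W₁ l₁ y x)
    (abs_msg_le_one (G := G) hθ W₁ l₁ x y) (abs_msg_le_one (G := G) hθ W₂ l₂ y x)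
    (abs_msg_le_one (G := G) hθ W₂ l₂ x y)
  rw [← magn_eq_mrg_msg hT hθ h₁ l₁ hy₁ hx₁ hyx, ← magn_eq_mrg_msg hT hθ h₁ l₁ hx₁ hy₁ hyx.symm,
    ← magn_eq_mrg_msg hT hθ h₂ l₂ hy₂ hx₂ hyx, ← magn_eq_mrg_msg hT hθ h₂ l₂ hx₂ hy₂ hyx.symm] at hlip
  have := abs_nonneg (msg G θ W₁ l₁ x y - msg G θ W₂ l₂ x y)
  linarith

omit [DecidableEq V] in
/-- The covariance along the path written with `rhoF`. -/
theorem covPath_eq (θ : ℝ) (m : V → ℝ) (ν : V → V → ℝ) (v u : V) :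
    covPath G θ m ν v u = θ ^ G.dist v u * ((1 - m v ^ 2) *
      ∏ j ∈ Finset.range (G.dist v u), rhoF θ (ν (pathV G v u (j + 1)) (pathV G v u j))) := by
  unfold covPath
  have : ∀ d : ℕ, ∏ j ∈ Finset.range d, Gf θ (ν (pathV G v u (j + 1)) (pathV G v u j)) =
      θ ^ d * ∏ j ∈ Finset.range d, rhoF θ (ν (pathV G v u (j + 1)) (pathV G v u j)) := by
    intro d
    induction d with
    | zero => simp
    | succ d ih => rw [Finset.prod_range_succ, Finset.prod_range_succ, ih, Gf_eq, pow_succ]; ring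
  rw [this]; ring

/-- Pointwise bound for the difference of covariances, first power. -/
theorem abs_covS_diff_le (hT : G.IsTree) {θ : ℝ} (hθ : GoodTheta θ) {W₁ W₂ : Finset V}
    (h₁ : Conv G W₁) (h₂ : Conv G W₂) (l₁ l₂ : V → ℝ) {w u : V} (hw₁ : w ∈ W₁) (hw₂ : w ∈ W₂)
    (hu₁ : u ∈ W₁) (hu₂ : u ∈ W₂) :
    |covS G θ W₁ l₁ w u - covS G θ W₂ l₂ w u| ≤
      θ ^ G.dist w u * (394 * ∑ j ∈ Finset.range (G.dist w u + 1),
        |magn G θ W₁ l₁ (pathV G w u j) - magn G θ W₂ l₂ (pathV G w u j)|) := by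
  rw [covS_eq_covPath hT hθ h₁ l₁ hw₁ hu₁, covS_eq_covPath hT hθ h₂ l₂ hw₂ hu₂, covPath_eq, covPath_eq]
  set d := G.dist w u with hd
  set x : ℕ → V := pathV G w u with hx
  set Dm : ℕ → ℝ := fun j => |magn G θ W₁ l₁ (x j) - magn G θ W₂ l₂ (x j)| with hDm
  have hθ0 : 0 ≤ θ := hθ.nonneg
  have hxmem₁ : ∀ j ≤ d, x j ∈ W₁ := fun j hj => pathV_mem_of_conv hT h₁ hw₁ hu₁ hj
  have hxmem₂ : ∀ j ≤ d, x j ∈ W₂ := fun j hj => pathV_mem_of_conv hT h₂ hw₂ hu₂ hj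
  have hadj : ∀ j < d, G.Adj (x (j + 1)) (x j) := fun j hj => (adj_pathV hT hj).symm
  -- abbreviations
  set a : ℕ → ℝ := fun j => rhoF θ (msg G θ W₁ l₁ (x (j + 1)) (x j)) with ha
  set b : ℕ → ℝ := fun j => rhoF θ (msg G θ W₂ l₂ (x (j + 1)) (x j)) with hb
  have ha01 : ∀ j < d, 0 ≤ a j ∧ a j ≤ 1 := fun j _ =>
    ⟨rhoF_nonneg hθ (abs_msg_le_one (G := G) hθ W₁ l₁ _ _), rhoF_le_one hθ (abs_msg_le_one (G := G) hθ W₁ l₁ _ _)⟩
  have hb01 : ∀ j < d, 0 ≤ b j ∧ b j ≤ 1 := fun j _ =>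
    ⟨rhoF_nonneg hθ (abs_msg_le_one (G := G) hθ W₂ l₂ _ _), rhoF_le_one hθ (abs_msg_le_one (G := G) hθ W₂ l₂ _ _)⟩
  have hab : ∀ j < d, |a j - b j| ≤ 196 * (Dm (j + 1) + Dm j) := by
    intro j hj
    have hlip := msg_diff_le hT hθ h₁ h₂ l₁ l₂ (hxmem₁ (j + 1) (by omega)) (hxmem₂ (j + 1) (by omega))
      (hxmem₁ j (by omega)) (hxmem₂ j (by omega)) (hadj j hj)
    have hn₁ := abs_msg_le_one (G := G) hθ W₁ l₁ (x (j + 1)) (x j)
    have hn₂ := abs_msg_le_one (G := G) hθ W₂ l₂ (x (j + 1)) (x j)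
    have hrho := rhoF_sub_le hθ hn₁ hn₂
    have h4 : 2 * (|msg G θ W₁ l₁ (x (j + 1)) (x j)| + |msg G θ W₂ l₂ (x (j + 1)) (x j)|) *
        |msg G θ W₁ l₁ (x (j + 1)) (x j) - msg G θ W₂ l₂ (x (j + 1)) (x j)| ≤
        4 * |msg G θ W₁ l₁ (x (j + 1)) (x j) - msg G θ W₂ l₂ (x (j + 1)) (x j)| := by
      refine mul_le_mul_of_nonneg_right ?_ (abs_nonneg _)
      linarith
    calc |a j - b j| ≤ 4 * |msg G θ W₁ l₁ (x (j + 1)) (x j) - msg G θ W₂ l₂ (x (j + 1)) (x j)| :=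
          hrho.trans h4
      _ ≤ 4 * (49 * (Dm (j + 1) + Dm j)) := by gcongr
      _ = 196 * (Dm (j + 1) + Dm j) := by ring
  have hDm0 : ∀ j, 0 ≤ Dm j := fun j => abs_nonneg _
  set S := ∑ j ∈ Finset.range (d + 1), Dm j with hS
  have hS0 : 0 ≤ S := Finset.sum_nonneg fun j _ => hDm0 j
  have hprod := abs_prod_sub_prod_le a b d ha01 hb01
  have hsum1 : ∑ j ∈ Finset.range d, Dm j ≤ S := by
    rw [hS, Finset.sum_range_succ]; linarith [hDm0 d]
  have hsum2 : ∑ j ∈ Finset.range d, Dm (j + 1) ≤ S := by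
    rw [hS, Finset.sum_range_succ']; linarith [hDm0 0]
  have hsumab : ∑ j ∈ Finset.range d, |a j - b j| ≤ 392 * S := by
    calc ∑ j ∈ Finset.range d, |a j - b j| ≤ ∑ j ∈ Finset.range d, 196 * (Dm (j + 1) + Dm j) :=
          Finset.sum_le_sum fun j hj => hab j (Finset.mem_range.1 hj)
      _ = 196 * (∑ j ∈ Finset.range d, Dm (j + 1) + ∑ j ∈ Finset.range d, Dm j) := by
          rw [← Finset.sum_add_distrib, Finset.mul_sum]
      _ ≤ 392 * S := by linarith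
  set P := ∏ j ∈ Finset.range d, a j with hP
  set Q := ∏ j ∈ Finset.range d, b j with hQ
  have hQ0 : 0 ≤ Q := Finset.prod_nonneg fun j hj => (hb01 j (Finset.mem_range.1 hj)).1
  have hQ1 : Q ≤ 1 := Finset.prod_le_one (fun j hj => (hb01 j (Finset.mem_range.1 hj)).1)
    (fun j hj => (hb01 j (Finset.mem_range.1 hj)).2)
  set m₁ := magn G θ W₁ l₁ w with hm₁
  set m₂ := magn G θ W₂ l₂ w with hm₂
  have hm₁1 : |m₁| ≤ 1 := abs_magn_le_one (G := G) hθ W₁ l₁ w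
  have hm₂1 : |m₂| ≤ 1 := abs_magn_le_one (G := G) hθ W₂ l₂ w
  have hm₁sq : 0 ≤ 1 - m₁ ^ 2 ∧ 1 - m₁ ^ 2 ≤ 1 := by
    constructor
    · have : m₁ ^ 2 ≤ 1 := by rw [← sq_abs]; nlinarith [abs_nonneg m₁]
      linarith
    · nlinarith [sq_nonneg m₁]
  have hx0 : x 0 = w := rfl
  have hDm00 : Dm 0 = |m₁ - m₂| := by rw [hDm]; simp only [hx0]; rfl
  have hm : |m₁ ^ 2 - m₂ ^ 2| ≤ 2 * S := by
    have h1 : |m₁ ^ 2 - m₂ ^ 2| = |m₁ + m₂| * |m₁ - m₂| := by
      rw [← abs_mul]; congr 1; ring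
    have h2 : |m₁ + m₂| ≤ 2 := (abs_add_le _ _).trans (by linarith)
    have h3 : |m₁ - m₂| ≤ S := by
      rw [← hDm00, hS, Finset.sum_range_succ']; 
      have : 0 ≤ ∑ j ∈ Finset.range d, Dm (j + 1) := Finset.sum_nonneg fun j _ => hDm0 _
      linarith
    rw [h1]
    exact mul_le_mul h2 h3 (abs_nonneg _) (by norm_num)
  have hinner : |(1 - m₁ ^ 2) * P - (1 - m₂ ^ 2) * Q| ≤ 394 * S := by
    have e : (1 - m₁ ^ 2) * P - (1 - m₂ ^ 2) * Q = (1 - m₁ ^ 2) * (P - Q) + (m₂ ^ 2 - m₁ ^ 2) * Q := by ring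
    rw [e]
    calc |(1 - m₁ ^ 2) * (P - Q) + (m₂ ^ 2 - m₁ ^ 2) * Q|
        ≤ |(1 - m₁ ^ 2) * (P - Q)| + |(m₂ ^ 2 - m₁ ^ 2) * Q| := abs_add_le _ _
      _ = (1 - m₁ ^ 2) * |P - Q| + |m₁ ^ 2 - m₂ ^ 2| * Q := by
          rw [abs_mul, abs_mul, abs_of_nonneg hm₁sq.1, abs_of_nonneg hQ0, abs_sub_comm (m₂ ^ 2)]
      _ ≤ 1 * |P - Q| + |m₁ ^ 2 - m₂ ^ 2| * 1 := by
          gcongr
          · exact hm₁sq.2
      _ ≤ 394 * S := by linarith
  have e2 : θ ^ d * ((1 - m₁ ^ 2) * P) - θ ^ d * ((1 - m₂ ^ 2) * Q)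
      = θ ^ d * ((1 - m₁ ^ 2) * P - (1 - m₂ ^ 2) * Q) := by ring
  rw [e2, abs_mul, abs_of_nonneg (pow_nonneg hθ0 d)]
  exact mul_le_mul_of_nonneg_left hinner (pow_nonneg hθ0 d)

/-- Pointwise bound for the difference of covariances, squared. -/
theorem sq_covS_diff_le (hT : G.IsTree) {θ : ℝ} (hθ : GoodTheta θ) {W₁ W₂ : Finset V}
    (h₁ : Conv G W₁) (h₂ : Conv G W₂) (l₁ l₂ : V → ℝ) {w u : V} (hw₁ : w ∈ W₁) (hw₂ : w ∈ W₂)
    (hu₁ : u ∈ W₁) (hu₂ : u ∈ W₂) :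
    (covS G θ W₁ l₁ w u - covS G θ W₂ l₂ w u) ^ 2 ≤
      394 ^ 2 * ((G.dist w u + 1 : ℕ) : ℝ) * (θ ^ 2) ^ G.dist w u *
        ∑ j ∈ Finset.range (G.dist w u + 1),
          (magn G θ W₁ l₁ (pathV G w u j) - magn G θ W₂ l₂ (pathV G w u j)) ^ 2 := by
  have h1 := abs_covS_diff_le hT hθ h₁ h₂ l₁ l₂ hw₁ hw₂ hu₁ hu₂
  set d := G.dist w u
  set f : ℕ → ℝ := fun j => |magn G θ W₁ l₁ (pathV G w u j) - magn G θ W₂ l₂ (pathV G w u j)| with hf
  have hθd : 0 ≤ θ ^ d := pow_nonneg hθ.nonneg d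
  have hcs : (∑ j ∈ Finset.range (d + 1), f j) ^ 2 ≤
      ((d + 1 : ℕ) : ℝ) * ∑ j ∈ Finset.range (d + 1), (f j) ^ 2 := by
    have := sq_sum_le_card_mul_sum_sq (s := Finset.range (d + 1)) (f := f)
    simpa using this
  have hsq : ∀ j, (f j) ^ 2 =
      (magn G θ W₁ l₁ (pathV G w u j) - magn G θ W₂ l₂ (pathV G w u j)) ^ 2 := fun j => sq_abs _
  simp only [hsq] at hcs
  have h2 : (covS G θ W₁ l₁ w u - covS G θ W₂ l₂ w u) ^ 2 ≤
      (θ ^ d * (394 * ∑ j ∈ Finset.range (d + 1), f j)) ^ 2 := by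
    rw [← sq_abs (covS G θ W₁ l₁ w u - covS G θ W₂ l₂ w u)]
    exact pow_le_pow_left₀ (abs_nonneg _) h1 2
  refine h2.trans ?_
  have e : (θ ^ d * (394 * ∑ j ∈ Finset.range (d + 1), f j)) ^ 2 =
      394 ^ 2 * (θ ^ 2) ^ d * (∑ j ∈ Finset.range (d + 1), f j) ^ 2 := by
    rw [← pow_mul, mul_comm 2 d, pow_mul]; ring
  rw [e]
  calc 394 ^ 2 * (θ ^ 2) ^ d * (∑ j ∈ Finset.range (d + 1), f j) ^ 2
      ≤ 394 ^ 2 * (θ ^ 2) ^ d * (((d + 1 : ℕ) : ℝ) * ∑ j ∈ Finset.range (d + 1),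
          (magn G θ W₁ l₁ (pathV G w u j) - magn G θ W₂ l₂ (pathV G w u j)) ^ 2) :=
        mul_le_mul_of_nonneg_left hcs (by positivity)
    _ = _ := by ring

/-- Counting: a sum of a function of the distance is dominated by the sphere sizes. -/
theorem sum_dist_le {q : ℕ} [G.LocallyFinite] (hT : G.IsTree) (hreg : G.IsRegularOfDegree (q + 1))
    (hq : 1 ≤ q) (w : V) (U : Finset V) {f : ℕ → ℝ} (hf : ∀ d, 0 ≤ f d)
    (hs : Summable (fun d : ℕ => 2 * (q : ℝ) ^ d * f d)) :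
    ∑ u ∈ U, f (G.dist w u) ≤ ∑' d : ℕ, 2 * (q : ℝ) ^ d * f d := by
  classical
  set D := U.sup (fun u => G.dist w u) with hD
  have hmaps : ∀ u ∈ U, G.dist w u ∈ Finset.range (D + 1) := fun u hu =>
    Finset.mem_range.2 (Nat.lt_succ_of_le (Finset.le_sup (f := fun u => G.dist w u) hu))
  have h1 : ∑ u ∈ U, f (G.dist w u) =
      ∑ d ∈ Finset.range (D + 1), ∑ u ∈ U.filter (fun u => G.dist w u = d), f (G.dist w u) :=
    (Finset.sum_fiberwise_of_maps_to hmaps _).symm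
  rw [h1]
  refine le_trans (Finset.sum_le_sum fun d _ => ?_) (hs.sum_le_tsum _ fun d _ => ?_)
  · have h2 : ∑ u ∈ U.filter (fun u => G.dist w u = d), f (G.dist w u) =
        ((U.filter (fun u => G.dist w u = d)).card : ℝ) * f d := by
      rw [Finset.sum_congr rfl (g := fun _ => f d)]
      · simp
      · intro u hu
        rw [(Finset.mem_filter.1 hu).2]
    rw [h2]
    refine mul_le_mul_of_nonneg_right ?_ (hf d)
    have h3 : (U.filter (fun u => G.dist w u = d)) ⊆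
        (tball G w d).filter (fun u => G.dist w u = d) := by
      intro u hu
      have hu' := (Finset.mem_filter.1 hu).2
      exact Finset.mem_filter.2 ⟨(mem_tball hT).2 (by omega), hu'⟩
    have h4 := Finset.card_le_card h3
    rw [card_sphere hT hreg w d] at h4
    have h5 : ((U.filter (fun u => G.dist w u = d)).card : ℝ) ≤
        (((if d = 0 then 1 else (q + 1) * q ^ (d - 1)) : ℕ) : ℝ) := by exact_mod_cast h4
    refine h5.trans ?_
    have hq1 : (1 : ℝ) ≤ q := by exact_mod_cast hq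
    split_ifs with h0
    · subst h0; simp
    · obtain ⟨e, rfl⟩ : ∃ e, d = e + 1 := ⟨d - 1, by omega⟩
      simp only [Nat.add_sub_cancel]
      push_cast
      rw [pow_succ]
      have : (0 : ℝ) ≤ (q : ℝ) ^ e := by positivity
      nlinarith
  · have hq0 : (0 : ℝ) ≤ q := by positivity
    exact mul_nonneg (mul_nonneg (by norm_num) (pow_nonneg hq0 d)) (hf d)

end StrictWindowAux

end Crest.Agent.IsingFactor
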