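import Crest.Agent.IsingFactor.TempPsi
import Crest.Agent.IsingFactor.Haagerup

/-!
# IsingFactor.TempCore (WP IF-TempCore): the tempered lemma (T1), see `TempPsi`.  Pure tree combinatorics plus Cauchy-Schwarz.
Statements may be ADDED; do not change the ones below without posting on chat (topic S0241), other packages use them.
-/

set_option autoImplicit false

open MeasureTheory ProbabilityTheory
open Crest.Agent.SRFactor Crest.ProbabilityR.Labels

namespace Crest.Agent.IsingFactor

variable {V : Type*} [DecidableEq V] {G : SimpleGraph V} [G.LocallyFinite]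

/-- (T1): the abstract tempered lemma for a finite range invariant mean zero field. -/
theorem tempered_of_finite_range {q : ℕ} (hT : G.IsTree) (hreg : G.IsRegularOfDegree (q + 1))
    (hq : 2 ≤ q) {Ω : Type*} [MeasurableSpace Ω] (P : Measure Ω) [IsProbabilityMeasure P]
    (Z : V → V → Ω → ℝ) (hm : ∀ a b, Measurable (Z a b)) {B : ℝ} (hb : ∀ a b ω, |Z a b ω| ≤ B)
    (hinv : ∀ (g : G ≃g G) (a b c d : V),
      ∫ ω, Z (g a) (g b) ω * Z (g c) (g d) ω ∂P = ∫ ω, Z a b ω * Z c d ω ∂P)
    {R : ℕ} (hfr : ∀ a b c d, G.Adj a b → G.Adj c d → R < G.dist a c → ∫ ω, Z a b ω * Z c d ω ∂P = 0)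
    {x : ℕ → V} {l : ℕ} (hl : 1 ≤ l) (hx : IsGeo G x l) :
    |∫ ω, Z (x 1) (x 0) ω * Z (x l) (x (l - 1)) ω ∂P|
      ≤ (q + 2) * (∫ ω, Z (x 1) (x 0) ω ^ 2 ∂P) * l * (Real.sqrt q)⁻¹ ^ (l - 1) := by
  obtain ⟨n, rfl⟩ : ∃ n, l = n + 1 := ⟨l - 1, by omega⟩
  have hNB : Haagerup.NB G (n + 1) x := by
    constructor
    · intro i hi
      have := hx i (i + 1) (by omega) (by omega)
      rw [show Nat.dist i (i + 1) = 1 by simp [Nat.dist]] at this
      exact SimpleGraph.dist_eq_one_iff_adj.mp this
    · intro i hi he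
      have := hx i (i + 2) (by omega) (by omega)
      rw [he, show Nat.dist i (i + 2) = 2 by simp [Nat.dist]] at this
      simp at this
  have h := Haagerup.directed_bound_integral hT hreg hq P Z hm hb hinv hfr hNB
  have hs : 0 < Real.sqrt q := Real.sqrt_pos.mpr (by positivity)
  simp only [Nat.add_sub_cancel]
  rw [inv_pow, ← div_eq_mul_inv, le_div_iff₀ (by positivity)]
  push_cast
  exact h

end Crest.Agent.IsingFactor
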