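import Crest.Agent.IsingFactor.TempPsi

/-!
# IsingFactor.TempReal: real and abstract probability lemmas for `TempMain`
(Hölder for bounded functions, exponential sums).  No sorry.
-/

set_option autoImplicit false

open MeasureTheory ProbabilityTheory

namespace Crest.Agent.IsingFactor

namespace TempReal

/-- Lipschitz property of `exp` in terms of `log`. -/
theorem sq_sub_le_of_log {a b : ℝ} (ha : 0 < a) (hb : 0 < b) :
    (a - b) ^ 2 ≤ (a ^ 2 + b ^ 2) * (Real.log a - Real.log b) ^ 2 := by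
  have key : ∀ {a b : ℝ}, 0 < a → 0 < b → b ≤ a →
      (a - b) ^ 2 ≤ (a ^ 2 + b ^ 2) * (Real.log a - Real.log b) ^ 2 := by
    intro a b ha hb hab
    have h1 := Real.one_sub_inv_le_log_of_pos (div_pos ha hb)
    rw [Real.log_div ha.ne' hb.ne', inv_div] at h1
    have h2 : a - b ≤ a * (Real.log a - Real.log b) := by
      have h3 : a * (1 - b / a) = a - b := by field_simp
      rw [← h3]
      exact mul_le_mul_of_nonneg_left h1 ha.le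
    have h4 : 0 ≤ a - b := by linarith
    have h5 : (a - b) ^ 2 ≤ (a * (Real.log a - Real.log b)) ^ 2 := by gcongr
    have h6 : 0 ≤ b ^ 2 * (Real.log a - Real.log b) ^ 2 := by positivity
    nlinarith
  rcases le_total b a with h | h
  · exact key ha hb h
  · have := key hb ha h
    calc (a - b) ^ 2 = (b - a) ^ 2 := by ring
      _ ≤ (b ^ 2 + a ^ 2) * (Real.log b - Real.log a) ^ 2 := this
      _ = _ := by ring

/-- Hölder for a bounded function. -/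
theorem holder_bdd {Ω : Type*} [MeasurableSpace Ω] (P : Measure Ω) [IsProbabilityMeasure P]
    {f g : Ω → ℝ} (hf : Measurable f) (hg : Measurable g) (hf0 : ∀ ω, 0 ≤ f ω) {F B : ℝ}
    (hfb : ∀ ω, f ω ≤ F) (hg0 : ∀ ω, 0 ≤ g ω) (hgb : ∀ ω, g ω ≤ B) (p : ℕ) (hp : 2 ≤ p) :
    ∫ ω, f ω * g ω ^ 2 ∂P ≤
      (∫ ω, f ω ^ p ∂P) ^ (1 / (p : ℝ)) * (B ^ 2) ^ (1 / (p : ℝ))
        * (∫ ω, g ω ^ 2 ∂P) ^ (1 - 1 / (p : ℝ)) := by
  have hp0 : (0 : ℝ) < p := by positivity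
  have hp2 : (2 : ℝ) ≤ p := by exact_mod_cast hp
  have hp1 : (1 : ℝ) < p := by linarith
  set p' : ℝ := (p : ℝ) / ((p : ℝ) - 1) with hp'
  have hsub : (0 : ℝ) < (p : ℝ) - 1 := by linarith
  have hconj : (p : ℝ).HolderConjugate p' := by
    rw [hp', Real.holderConjugate_iff]
    refine ⟨hp1, ?_⟩
    field_simp
    ring
  have hp'1 : 1 < p' := hconj.symm.lt
  have hp'pos : 0 < p' := by linarith
  have hne : Nonempty Ω := nonempty_of_isProbabilityMeasure P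
  have hg2meas : Measurable fun ω => g ω ^ 2 := hg.pow_const 2
  have bdd_memLp : ∀ {h : Ω → ℝ} {C : ℝ}, Measurable h → (∀ ω, |h ω| ≤ C) → ∀ r, MemLp h r P := by
    intro h C hh hC r
    exact MemLp.of_bound hh.aestronglyMeasurable C (Filter.Eventually.of_forall fun ω => by
      simpa [Real.norm_eq_abs] using hC ω)
  have habsf : ∀ ω, |f ω| ≤ F := fun ω => by rw [abs_of_nonneg (hf0 ω)]; exact hfb ω
  have hg2le : ∀ ω, g ω ^ 2 ≤ B ^ 2 := fun ω => pow_le_pow_left₀ (hg0 ω) (hgb ω) 2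
  have habsg : ∀ ω, |g ω ^ 2| ≤ B ^ 2 := fun ω => by
    rw [abs_of_nonneg (by positivity)]; exact hg2le ω
  have h1 := integral_mul_le_Lp_mul_Lq_of_nonneg (μ := P) hconj
    (f := f) (g := fun ω => g ω ^ 2)
    (Filter.Eventually.of_forall hf0) (Filter.Eventually.of_forall fun ω => by positivity)
    (bdd_memLp hf habsf _) (bdd_memLp hg2meas habsg _)
  -- the first factor
  have h2 : ∫ ω, f ω ^ (p : ℝ) ∂P = ∫ ω, f ω ^ p ∂P := by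
    refine integral_congr_ae (Filter.Eventually.of_forall fun ω => ?_)
    exact Real.rpow_natCast _ _
  rw [h2] at h1
  -- the second factor
  have hint : Integrable (fun ω => g ω ^ 2) P :=
    (bdd_memLp hg2meas habsg 1).integrable le_rfl
  have hB2 : 0 ≤ B ^ 2 := by positivity
  have hexp : 0 ≤ p' - 1 := by linarith
  have h3 : ∫ ω, (g ω ^ 2) ^ p' ∂P ≤ (B ^ 2) ^ (p' - 1) * ∫ ω, g ω ^ 2 ∂P := by
    rw [← integral_const_mul]
    refine integral_mono_of_nonneg (Filter.Eventually.of_forall fun ω => by positivity)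
      (hint.const_mul _) (Filter.Eventually.of_forall fun ω => ?_)
    have h4 : (0 : ℝ) ≤ g ω ^ 2 := by positivity
    rcases eq_or_lt_of_le h4 with h5 | h5
    · simp only [← h5]
      rw [Real.zero_rpow hp'pos.ne']
      simp
    · have h6 : (g ω ^ 2) ^ p' = (g ω ^ 2) ^ (p' - 1) * g ω ^ 2 := by
        rw [← Real.rpow_add_one h5.ne']
        congr 1
        ring
      change (g ω ^ 2) ^ p' ≤ (B ^ 2) ^ (p' - 1) * g ω ^ 2
      rw [h6]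
      exact mul_le_mul_of_nonneg_right (Real.rpow_le_rpow h4 (hg2le ω) hexp) h4
  have hI2 : 0 ≤ ∫ ω, g ω ^ 2 ∂P := integral_nonneg fun ω => by positivity
  have h7 : (∫ ω, (g ω ^ 2) ^ p' ∂P) ^ (1 / p') ≤
      (B ^ 2) ^ (1 / (p : ℝ)) * (∫ ω, g ω ^ 2 ∂P) ^ (1 - 1 / (p : ℝ)) := by
    have h8 : 0 ≤ ∫ ω, (g ω ^ 2) ^ p' ∂P := integral_nonneg fun ω => by positivity
    calc (∫ ω, (g ω ^ 2) ^ p' ∂P) ^ (1 / p')
        ≤ ((B ^ 2) ^ (p' - 1) * ∫ ω, g ω ^ 2 ∂P) ^ (1 / p') :=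
          Real.rpow_le_rpow h8 h3 (by positivity)
      _ = ((B ^ 2) ^ (p' - 1)) ^ (1 / p') * (∫ ω, g ω ^ 2 ∂P) ^ (1 / p') :=
          Real.mul_rpow (Real.rpow_nonneg hB2 _) hI2
      _ = (B ^ 2) ^ ((p' - 1) * (1 / p')) * (∫ ω, g ω ^ 2 ∂P) ^ (1 / p') := by
          rw [Real.rpow_mul hB2]
      _ = _ := by
          have e1 : (p' - 1) * (1 / p') = 1 / (p : ℝ) := by
            rw [hp']; field_simp; ring
          have e2 : 1 / p' = 1 - 1 / (p : ℝ) := by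
            rw [hp']; field_simp
          rw [e1, e2]
  have h9 : 0 ≤ ∫ ω, f ω ^ p ∂P := integral_nonneg fun ω => pow_nonneg (hf0 ω) _
  calc ∫ ω, f ω * g ω ^ 2 ∂P ≤ _ := h1
    _ ≤ (∫ ω, f ω ^ p ∂P) ^ (1 / (p : ℝ)) *
        ((B ^ 2) ^ (1 / (p : ℝ)) * (∫ ω, g ω ^ 2 ∂P) ^ (1 - 1 / (p : ℝ))) :=
      mul_le_mul_of_nonneg_left h7 (Real.rpow_nonneg h9 _)
    _ = _ := by ring

/-! ### Exponential sums -/

/-- `y^α e^{-y/2} ≤ (2α)^α`. -/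
theorem rpow_mul_exp_le {α y : ℝ} (hα : 0 < α) (hy : 0 ≤ y) :
    y ^ α * Real.exp (-(y / 2)) ≤ (2 * α) ^ α := by
  have h1 : y / (2 * α) ≤ Real.exp (y / (2 * α)) := by
    linarith [Real.add_one_le_exp (y / (2 * α))]
  have h0 : 0 ≤ y / (2 * α) := by positivity
  have h2 : (y / (2 * α)) ^ α ≤ (Real.exp (y / (2 * α))) ^ α :=
    Real.rpow_le_rpow h0 h1 hα.le
  rw [← Real.exp_mul] at h2
  have h3 : y / (2 * α) * α = y / 2 := by field_simp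
  rw [h3, Real.div_rpow hy (by positivity)] at h2
  have h4 : 0 < (2 * α) ^ α := by positivity
  rw [div_le_iff₀ h4] at h2
  have h5 : Real.exp (-(y / 2)) * Real.exp (y / 2) = 1 := by
    rw [← Real.exp_add]; simp
  calc y ^ α * Real.exp (-(y / 2))
      ≤ (Real.exp (y / 2) * (2 * α) ^ α) * Real.exp (-(y / 2)) :=
        mul_le_mul_of_nonneg_right h2 (Real.exp_pos _).le
    _ = (Real.exp (-(y / 2)) * Real.exp (y / 2)) * (2 * α) ^ α := by ring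
    _ = _ := by rw [h5, one_mul]

/-- Geometric sum with `ρ = e^{-L/2}`. -/
theorem sum_exp_geom_le {L : ℝ} (hL : 0 < L) (hL1 : L ≤ 1) (R : ℕ) :
    ∑ k ∈ Finset.range R, Real.exp (-(L / 2)) ^ k ≤ 3 / L := by
  set ρ := Real.exp (-(L / 2)) with hρ
  have hρ0 : 0 < ρ := Real.exp_pos _
  have h1 : ρ ≤ 1 - L / 3 := by
    have h2 : 1 + L / 2 ≤ Real.exp (L / 2) := by linarith [Real.add_one_le_exp (L / 2)]
    have h3 : ρ * Real.exp (L / 2) = 1 := by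
      rw [hρ, ← Real.exp_add]; simp
    have h4 : ρ * (1 + L / 2) ≤ 1 := by
      calc ρ * (1 + L / 2) ≤ ρ * Real.exp (L / 2) := mul_le_mul_of_nonneg_left h2 hρ0.le
        _ = 1 := h3
    nlinarith
  have h5 := mul_neg_geom_sum ρ R
  have h6 : 0 ≤ ∑ k ∈ Finset.range R, ρ ^ k := Finset.sum_nonneg fun k _ => by positivity
  have h7 : 0 < ρ ^ R := by positivity
  have h8 : (L / 3) * ∑ k ∈ Finset.range R, ρ ^ k ≤ 1 := by
    have : (L / 3) * ∑ k ∈ Finset.range R, ρ ^ k ≤ (1 - ρ) * ∑ k ∈ Finset.range R, ρ ^ k :=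
      mul_le_mul_of_nonneg_right (by linarith) h6
    linarith
  rw [le_div_iff₀ hL]
  linarith

/-- The exponential sum, in the form used for the sum over spheres (index `k + 1`). -/
theorem sum_rpow_exp_le {α L : ℝ} (hα : 0 < α) (hL : 0 < L) (hL1 : L ≤ 1) (R : ℕ) :
    ∑ k ∈ Finset.range R, ((k : ℝ) + 2) ^ α * Real.exp (-(L * ((k : ℝ) + 1)))
      ≤ 3 * (2 * α) ^ α * L ^ (-(α + 1)) := by
  have hterm : ∀ k : ℕ, ((k : ℝ) + 2) ^ α * Real.exp (-(L * ((k : ℝ) + 1)))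
      ≤ L ^ (-α) * (2 * α) ^ α * Real.exp (-(L / 2)) ^ k := by
    intro k
    have hk : (0 : ℝ) ≤ (k : ℝ) + 2 := by positivity
    have h1 := rpow_mul_exp_le hα (mul_nonneg hL.le hk)
    have h2 : ((k : ℝ) + 2) ^ α = L ^ (-α) * (L * ((k : ℝ) + 2)) ^ α := by
      rw [Real.mul_rpow hL.le hk, ← mul_assoc, ← Real.rpow_add hL]
      simp
    have h3 : Real.exp (-(L * ((k : ℝ) + 1))) =
        Real.exp (-(L * ((k : ℝ) + 2) / 2)) * Real.exp (-(L / 2)) ^ k := by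
      rw [← Real.exp_nat_mul, ← Real.exp_add]
      congr 1
      ring
    rw [h2, h3]
    have h4 : 0 < L ^ (-α) := by positivity
    have h5 : 0 < Real.exp (-(L / 2)) ^ k := by positivity
    calc L ^ (-α) * (L * ((k : ℝ) + 2)) ^ α *
          (Real.exp (-(L * ((k : ℝ) + 2) / 2)) * Real.exp (-(L / 2)) ^ k)
        = L ^ (-α) * ((L * ((k : ℝ) + 2)) ^ α * Real.exp (-(L * ((k : ℝ) + 2) / 2)))
            * Real.exp (-(L / 2)) ^ k := by ring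
      _ ≤ L ^ (-α) * (2 * α) ^ α * Real.exp (-(L / 2)) ^ k := by gcongr
  calc ∑ k ∈ Finset.range R, ((k : ℝ) + 2) ^ α * Real.exp (-(L * ((k : ℝ) + 1)))
      ≤ ∑ k ∈ Finset.range R, L ^ (-α) * (2 * α) ^ α * Real.exp (-(L / 2)) ^ k :=
        Finset.sum_le_sum fun k _ => hterm k
    _ = L ^ (-α) * (2 * α) ^ α * ∑ k ∈ Finset.range R, Real.exp (-(L / 2)) ^ k := by
        rw [Finset.mul_sum]
    _ ≤ L ^ (-α) * (2 * α) ^ α * (3 / L) := by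
        have : 0 < L ^ (-α) * (2 * α) ^ α := by positivity
        exact mul_le_mul_of_nonneg_left (sum_exp_geom_le hL hL1 R) this.le
    _ = 3 * (2 * α) ^ α * L ^ (-(α + 1)) := by
        have : L ^ (-(α + 1)) = L ^ (-α) * L⁻¹ := by
          rw [neg_add, Real.rpow_add hL, Real.rpow_neg_one]
        rw [this]
        field_simp

/-! ### `θ` near the critical point -/

variable {q : ℕ} {θ : ℝ}

theorem thetaC_pos (hq : 2 ≤ q) : 0 < thetaC q := by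
  unfold thetaC
  have : (0 : ℝ) < q := by positivity
  positivity

theorem thetaC_sq (hq : 2 ≤ q) : thetaC q ^ 2 = 1 / (q : ℝ) := by
  unfold thetaC
  have : (0 : ℝ) ≤ q := by positivity
  rw [inv_pow, Real.sq_sqrt this, one_div]

theorem thetaC_le (hq : 2 ≤ q) : thetaC q ≤ 3 / 4 := by
  have h1 := thetaC_sq hq
  have h2 : (2 : ℝ) ≤ q := by exact_mod_cast hq
  have h3 : 1 / (q : ℝ) ≤ 1 / 2 := by
    apply one_div_le_one_div_of_le <;> linarith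
  have h4 := thetaC_pos hq
  nlinarith

theorem critPar_le_thetaC (h : CritPar q θ) (hq : 2 ≤ q) : θ ≤ thetaC q := by
  have h1 := thetaC_sq hq
  have h2 : (0 : ℝ) < q := by positivity
  have h3 : θ ^ 2 ≤ 1 / (q : ℝ) := by
    rw [le_div_iff₀ h2]
    exact h.up
  have h4 := thetaC_pos hq
  by_contra h5
  push Not at h5
  nlinarith

theorem critPar_half_le (h : CritPar q θ) (hq : 2 ≤ q) : thetaC q / 2 ≤ θ := by
  have h1 := thetaC_sq hq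
  have h2 : (0 : ℝ) < q := by positivity
  have h3 : 1 / (q : ℝ) ≤ 4 * θ ^ 2 := by
    rw [div_le_iff₀ h2]
    linarith [h.low]
  have h4 := thetaC_pos hq
  have h5 := h.good.nonneg
  by_contra h6
  push Not at h6
  nlinarith

theorem critPar_pos (h : CritPar q θ) (hq : 2 ≤ q) : 0 < θ := by
  have := critPar_half_le h hq
  have := thetaC_pos hq
  linarith

/-- `log G_θ(ν) = log θ - ℓ_c(ν) + O(θ_c - θ)` for `|ν| ≤ 1/2`. -/
theorem log_Gf_add_ell (h : CritPar q θ) (hq : 2 ≤ q) {ν : ℝ} (hν : |ν| ≤ 1 / 2) :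
    |Real.log (Gf θ ν) + ellC q ν - Real.log θ| ≤ |θ - thetaC q| := by
  have hθ := critPar_pos h hq
  have hθc := critPar_le_thetaC h hq
  have hc34 := thetaC_le hq
  have hq0 : (0 : ℝ) < q := by positivity
  have hq2 : (2 : ℝ) ≤ q := by exact_mod_cast hq
  have hν2 : ν ^ 2 ≤ 1 / 4 := by
    have : ν ^ 2 = |ν| ^ 2 := (sq_abs ν).symm
    rw [this]
    nlinarith [abs_nonneg ν]
  have hν0 : 0 ≤ ν ^ 2 := sq_nonneg ν
  have hcsq := thetaC_sq hq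
  have hθ2 : θ ^ 2 ≤ 1 / (q : ℝ) := by
    rw [← hcsq]
    exact pow_le_pow_left₀ hθ.le hθc 2
  have h1q : 1 / (q : ℝ) ≤ 1 / 2 := by
    apply one_div_le_one_div_of_le <;> linarith
  set x : ℝ := 1 - ν ^ 2 / q with hx
  set y : ℝ := 1 - θ ^ 2 * ν ^ 2 with hy
  have hx' : x = 1 - (1 / (q : ℝ)) * ν ^ 2 := by rw [hx]; ring
  have hx78 : 7 / 8 ≤ x := by rw [hx']; nlinarith
  have hy0 : 0 < y := by rw [hy]; nlinarith
  have hxy : x ≤ y := by rw [hx', hy]; nlinarith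
  have hn : 0 < 1 - ν ^ 2 := by linarith
  have hx0 : 0 < x := by linarith
  have e1 : Real.log (Gf θ ν) + ellC q ν - Real.log θ = Real.log x - Real.log y := by
    have e2 : Gf θ ν = θ * ((1 - ν ^ 2) / y) := by
      unfold Gf; rw [hy]; ring
    unfold ellC
    rw [e2, Real.log_mul hθ.ne' (div_pos hn hy0).ne', Real.log_div hn.ne' hy0.ne',
      Real.log_div hx0.ne' hn.ne']
    ring
  rw [e1]
  have h2 : Real.log y - Real.log x ≤ (y - x) / x := by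
    have := Real.log_le_sub_one_of_pos (div_pos hy0 hx0)
    rw [Real.log_div hy0.ne' hx0.ne'] at this
    have e : y / x - 1 = (y - x) / x := by field_simp
    linarith
  have h3 : (y - x) / x ≤ thetaC q - θ := by
    rw [div_le_iff₀ hx0]
    have e : y - x = ν ^ 2 * ((thetaC q - θ) * (thetaC q + θ)) := by
      rw [hx', hy, ← hcsq]; ring
    rw [e]
    have h4 : 0 ≤ thetaC q - θ := by linarith
    have h5 : thetaC q + θ ≤ 3 / 2 := by linarith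
    have h6 : 0 ≤ thetaC q + θ := by linarith
    have h7 : ν ^ 2 * (thetaC q + θ) ≤ 3 / 8 := by nlinarith
    nlinarith
  have h8 : Real.log x ≤ Real.log y := Real.log_le_log hx0 hxy
  rw [abs_of_nonpos (by linarith), abs_of_nonpos (by linarith)]
  linarith

/-- `log θ` is Lipschitz on `[θ_c/2, θ_c]`. -/
theorem abs_log_sub_le {θ₁ θ₂ : ℝ} (h₁ : CritPar q θ₁) (h₂ : CritPar q θ₂) (hq : 2 ≤ q) :
    |Real.log θ₁ - Real.log θ₂| ≤ 2 / thetaC q * |θ₁ - θ₂| := by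
  have hc := thetaC_pos hq
  have key : ∀ {a b : ℝ}, CritPar q a → CritPar q b → b ≤ a →
      Real.log a - Real.log b ≤ 2 / thetaC q * (a - b) := by
    intro a b ha hb hab
    have ha0 := critPar_pos ha hq
    have hb0 := critPar_pos hb hq
    have h1 := Real.log_le_sub_one_of_pos (div_pos ha0 hb0)
    rw [Real.log_div ha0.ne' hb0.ne'] at h1
    have h2 : a / b - 1 = (a - b) / b := by field_simp
    have h3 : (a - b) / b ≤ 2 / thetaC q * (a - b) := by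
      have h4 : 1 / b ≤ 2 / thetaC q := by
        rw [div_le_div_iff₀ hb0 hc]
        linarith [critPar_half_le hb hq]
      calc (a - b) / b = 1 / b * (a - b) := by ring
        _ ≤ _ := mul_le_mul_of_nonneg_right h4 (by linarith)
    linarith
  rcases le_total θ₂ θ₁ with h | h
  · have h3 := key h₁ h₂ h
    have h4 : Real.log θ₂ ≤ Real.log θ₁ := Real.log_le_log (critPar_pos h₂ hq) h
    rw [abs_of_nonneg (by linarith), abs_of_nonneg (by linarith)]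
    exact h3
  · have h3 := key h₂ h₁ h
    have h4 : Real.log θ₁ ≤ Real.log θ₂ := Real.log_le_log (critPar_pos h₁ hq) h
    rw [abs_of_nonpos (by linarith), abs_of_nonpos (by linarith)]
    linarith

/-- `log (1 - m²)` is Lipschitz on `|m| ≤ 3/4`. -/
theorem abs_log_one_sub_sq_sub_le {a b : ℝ} (ha : |a| ≤ 3 / 4) (hb : |b| ≤ 3 / 4) :
    |Real.log (1 - a ^ 2) - Real.log (1 - b ^ 2)| ≤ 4 * |a - b| := by
  have key : ∀ {a b : ℝ}, |a| ≤ 3 / 4 → |b| ≤ 3 / 4 →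
      Real.log (1 - a ^ 2) - Real.log (1 - b ^ 2) ≤ 4 * |a - b| := by
    intro a b ha hb
    have ha2 : a ^ 2 ≤ 9 / 16 := by
      rw [← sq_abs a]; nlinarith [abs_nonneg a]
    have hb2 : b ^ 2 ≤ 9 / 16 := by
      rw [← sq_abs b]; nlinarith [abs_nonneg b]
    have hx : 0 < 1 - a ^ 2 := by linarith
    have hy : 0 < 1 - b ^ 2 := by linarith
    have h1 := Real.log_le_sub_one_of_pos (div_pos hx hy)
    rw [Real.log_div hx.ne' hy.ne'] at h1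
    have h2 : (1 - a ^ 2) / (1 - b ^ 2) - 1 ≤ 4 * |a - b| := by
      rw [sub_le_iff_le_add, div_le_iff₀ hy]
      have h3 : b ^ 2 - a ^ 2 ≤ (3 / 2) * |a - b| := by
        have e : b ^ 2 - a ^ 2 = (b + a) * (b - a) := by ring
        rw [e]
        have h4 : |(b + a) * (b - a)| ≤ (3 / 2) * |a - b| := by
          rw [abs_mul, abs_sub_comm b a]
          have h5 : |b + a| ≤ 3 / 2 := (abs_add_le b a).trans (by linarith)
          exact mul_le_mul_of_nonneg_right h5 (abs_nonneg _)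
        exact (le_abs_self _).trans h4
      have h6 := abs_nonneg (a - b)
      nlinarith
    linarith
  rw [abs_le]
  constructor
  · have := key hb ha
    rw [abs_sub_comm] at this
    linarith
  · exact key ha hb

/-- `q^k C² ≤ (∏ ϱ)²`. -/
theorem qpow_cov_sq_le (h : CritPar q θ) (k : ℕ) {m : ℝ} (hm : |m| ≤ 1) (n : ℕ → ℝ) :
    (q : ℝ) ^ k * ((1 - m ^ 2) * ∏ j ∈ Finset.range k, Gf θ (n j)) ^ 2
      ≤ (∏ j ∈ Finset.range k, rhoF θ (n j)) ^ 2 := by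
  have e1 : ∏ j ∈ Finset.range k, Gf θ (n j) = θ ^ k * ∏ j ∈ Finset.range k, rhoF θ (n j) := by
    simp only [Gf_eq, Finset.prod_mul_distrib, Finset.prod_const, Finset.card_range]
  rw [e1]
  have hm2 : m ^ 2 ≤ 1 := by
    rw [← sq_abs m]; nlinarith [abs_nonneg m]
  have h0 : 0 ≤ 1 - m ^ 2 := by linarith
  have h1 : (1 - m ^ 2) ≤ 1 := by nlinarith [sq_nonneg m]
  have h2 : (1 - m ^ 2) ^ 2 ≤ 1 := by nlinarith
  have h3 : (q : ℝ) ^ k * (θ ^ k) ^ 2 ≤ 1 := by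
    have : (q : ℝ) ^ k * (θ ^ k) ^ 2 = (θ ^ 2 * q) ^ k := by
      rw [mul_pow, ← pow_mul, ← pow_mul, mul_comm k 2]; ring
    rw [this]
    exact pow_le_one₀ (by positivity) h.up
  have h4 : 0 ≤ (q : ℝ) ^ k * (θ ^ k) ^ 2 := by positivity
  have h5 : 0 ≤ (∏ j ∈ Finset.range k, rhoF θ (n j)) ^ 2 := by positivity
  calc (q : ℝ) ^ k * ((1 - m ^ 2) * (θ ^ k * ∏ j ∈ Finset.range k, rhoF θ (n j))) ^ 2
      = (1 - m ^ 2) ^ 2 * ((q : ℝ) ^ k * (θ ^ k) ^ 2) * (∏ j ∈ Finset.range k, rhoF θ (n j)) ^ 2 := by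
        ring
    _ ≤ 1 * 1 * (∏ j ∈ Finset.range k, rhoF θ (n j)) ^ 2 := by gcongr
    _ = _ := by ring

set_option maxHeartbeats 1000000 in
/-- On the good event: the comparison of the two covariances through logarithms. -/
theorem path_real (hq : 2 ≤ q) {θ₁ θ₂ : ℝ} (h₁ : CritPar q θ₁) (h₂ : CritPar q θ₂) (k : ℕ)
    {m₁ m₂ : ℝ} {n₁ n₂ : ℕ → ℝ} (hm₁ : |m₁| ≤ 3 / 4) (hm₂ : |m₂| ≤ 3 / 4)
    (hn₁ : ∀ j < k, |n₁ j| ≤ 1 / 2) (hn₂ : ∀ j < k, |n₂ j| ≤ 1 / 2) (z : ℝ) :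
    (q : ℝ) ^ k * ((1 - m₁ ^ 2) * ∏ j ∈ Finset.range k, Gf θ₁ (n₁ j)
        - (1 - m₂ ^ 2) * ∏ j ∈ Finset.range k, Gf θ₂ (n₂ j)) ^ 2
      ≤ 2 * ((∏ j ∈ Finset.range k, rhoF θ₁ (n₁ j)) ^ 2
            + (∏ j ∈ Finset.range k, rhoF θ₂ (n₂ j)) ^ 2)
        * ((4 * |m₁ - m₂| + |∑ j ∈ Finset.range k, (psiC q (n₁ j) - psiC q (n₂ j) - z)|) ^ 2
          + (k : ℝ) ^ 2 * (|z| + (2 / thetaC q + 1) * (|θ₁ - thetaC q| + |θ₂ - thetaC q|)) ^ 2) := by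
  have hc := thetaC_pos hq
  have hGpos : ∀ {θ ν : ℝ}, CritPar q θ → |ν| ≤ 1 / 2 → 0 < Gf θ ν := by
    intro θ ν hθ hν
    have hθ0 := critPar_pos hθ hq
    have hν2 : ν ^ 2 ≤ 1 / 4 := by
      rw [← sq_abs ν]; nlinarith [abs_nonneg ν]
    have hθ2 := hθ.good.sq_le
    have h1 : 0 < 1 - ν ^ 2 := by linarith
    have h2 : 0 < 1 - θ ^ 2 * ν ^ 2 := by nlinarith [sq_nonneg ν, sq_nonneg θ]
    unfold Gf
    positivity
  have hVpos : ∀ {m : ℝ}, |m| ≤ 3 / 4 → 0 < 1 - m ^ 2 := by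
    intro m hm
    have : m ^ 2 ≤ 9 / 16 := by
      rw [← sq_abs m]; nlinarith [abs_nonneg m]
    linarith
  set C₁ := (1 - m₁ ^ 2) * ∏ j ∈ Finset.range k, Gf θ₁ (n₁ j) with hC₁
  set C₂ := (1 - m₂ ^ 2) * ∏ j ∈ Finset.range k, Gf θ₂ (n₂ j) with hC₂
  have hP₁ : 0 < ∏ j ∈ Finset.range k, Gf θ₁ (n₁ j) :=
    Finset.prod_pos fun j hj => hGpos h₁ (hn₁ j (Finset.mem_range.1 hj))
  have hP₂ : 0 < ∏ j ∈ Finset.range k, Gf θ₂ (n₂ j) :=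
    Finset.prod_pos fun j hj => hGpos h₂ (hn₂ j (Finset.mem_range.1 hj))
  have hC₁0 : 0 < C₁ := mul_pos (hVpos hm₁) hP₁
  have hC₂0 : 0 < C₂ := mul_pos (hVpos hm₂) hP₂
  set δ := |θ₁ - thetaC q| + |θ₂ - thetaC q| with hδ
  have hδ0 : 0 ≤ δ := by positivity
  set C₀ := 2 / thetaC q + 1 with hC₀
  have hC₀0 : 0 ≤ C₀ := by positivity
  set Y := ∑ j ∈ Finset.range k, (psiC q (n₁ j) - psiC q (n₂ j) - z) with hY
  -- the logarithms
  have hlog₁ : Real.log C₁ = Real.log (1 - m₁ ^ 2) + ∑ j ∈ Finset.range k, Real.log (Gf θ₁ (n₁ j)) := by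
    rw [hC₁, Real.log_mul (hVpos hm₁).ne' hP₁.ne', Real.log_prod]
    exact fun j hj => (hGpos h₁ (hn₁ j (Finset.mem_range.1 hj))).ne'
  have hlog₂ : Real.log C₂ = Real.log (1 - m₂ ^ 2) + ∑ j ∈ Finset.range k, Real.log (Gf θ₂ (n₂ j)) := by
    rw [hC₂, Real.log_mul (hVpos hm₂).ne' hP₂.ne', Real.log_prod]
    exact fun j hj => (hGpos h₂ (hn₂ j (Finset.mem_range.1 hj))).ne'
  -- error of each step
  have hstep : ∀ j ∈ Finset.range k,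
      |(Real.log (Gf θ₁ (n₁ j)) - Real.log (Gf θ₂ (n₂ j))) + (psiC q (n₁ j) - psiC q (n₂ j) - z) + z|
        ≤ C₀ * δ := by
    intro j hj
    have hj' := Finset.mem_range.1 hj
    have e₁ : psiC q (n₁ j) = ellC q (n₁ j) := if_pos (hn₁ j hj')
    have e₂ : psiC q (n₂ j) = ellC q (n₂ j) := if_pos (hn₂ j hj')
    have a₁ := log_Gf_add_ell h₁ hq (hn₁ j hj')
    have a₂ := log_Gf_add_ell h₂ hq (hn₂ j hj')
    have a₃ := abs_log_sub_le h₁ h₂ hq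
    have a₄ : |θ₁ - θ₂| ≤ δ := by
      have := abs_sub_le θ₁ (thetaC q) θ₂
      rw [abs_sub_comm (thetaC q) θ₂] at this
      exact this
    have a₅ : 2 / thetaC q * |θ₁ - θ₂| ≤ 2 / thetaC q * δ :=
      mul_le_mul_of_nonneg_left a₄ (by positivity)
    rw [e₁, e₂]
    have e : (Real.log (Gf θ₁ (n₁ j)) - Real.log (Gf θ₂ (n₂ j)))
        + (ellC q (n₁ j) - ellC q (n₂ j) - z) + z =
        (Real.log (Gf θ₁ (n₁ j)) + ellC q (n₁ j) - Real.log θ₁)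
          - (Real.log (Gf θ₂ (n₂ j)) + ellC q (n₂ j) - Real.log θ₂)
          + (Real.log θ₁ - Real.log θ₂) := by ring
    rw [e]
    have a₆ := abs_add_three (Real.log (Gf θ₁ (n₁ j)) + ellC q (n₁ j) - Real.log θ₁)
      (-(Real.log (Gf θ₂ (n₂ j)) + ellC q (n₂ j) - Real.log θ₂)) (Real.log θ₁ - Real.log θ₂)
    rw [abs_neg] at a₆
    have e' : (Real.log (Gf θ₁ (n₁ j)) + ellC q (n₁ j) - Real.log θ₁)
        + -(Real.log (Gf θ₂ (n₂ j)) + ellC q (n₂ j) - Real.log θ₂) + (Real.log θ₁ - Real.log θ₂)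
        = (Real.log (Gf θ₁ (n₁ j)) + ellC q (n₁ j) - Real.log θ₁)
          - (Real.log (Gf θ₂ (n₂ j)) + ellC q (n₂ j) - Real.log θ₂) + (Real.log θ₁ - Real.log θ₂) := by
      ring
    rw [e'] at a₆
    have e'' : C₀ * δ = 2 / thetaC q * δ + δ := by rw [hC₀]; ring
    rw [e'']
    linarith
  -- total
  have hsum : |∑ j ∈ Finset.range k,
      ((Real.log (Gf θ₁ (n₁ j)) - Real.log (Gf θ₂ (n₂ j))) + (psiC q (n₁ j) - psiC q (n₂ j) - z) + z)|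
        ≤ k * (C₀ * δ) := by
    have h3 := Finset.abs_sum_le_sum_abs (fun j =>
      (Real.log (Gf θ₁ (n₁ j)) - Real.log (Gf θ₂ (n₂ j))) + (psiC q (n₁ j) - psiC q (n₂ j) - z) + z)
      (Finset.range k)
    have h4 := Finset.sum_le_sum hstep
    simp only [Finset.sum_const, Finset.card_range, nsmul_eq_mul] at h4
    exact h3.trans h4
  have hdecomp : Real.log C₁ - Real.log C₂ =
      (Real.log (1 - m₁ ^ 2) - Real.log (1 - m₂ ^ 2))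
        + (∑ j ∈ Finset.range k,
          ((Real.log (Gf θ₁ (n₁ j)) - Real.log (Gf θ₂ (n₂ j)))
            + (psiC q (n₁ j) - psiC q (n₂ j) - z) + z))
        - Y - k * z := by
    rw [hlog₁, hlog₂, hY]
    simp only [Finset.sum_add_distrib, Finset.sum_sub_distrib, Finset.sum_const, Finset.card_range,
      nsmul_eq_mul]
    ring
  have hbound : |Real.log C₁ - Real.log C₂| ≤
      (4 * |m₁ - m₂| + |Y|) + k * (|z| + C₀ * δ) := by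
    rw [hdecomp]
    have a₁ := abs_log_one_sub_sq_sub_le hm₁ hm₂
    have a₂ : ∀ a b c d : ℝ, |a + b - c - d| ≤ |a| + |b| + |c| + |d| := by
      intro a b c d
      have h1 := abs_sub (a + b - c) d
      have h2 := abs_sub (a + b) c
      have h3 := abs_add_le a b
      linarith
    have a₃ := a₂ (Real.log (1 - m₁ ^ 2) - Real.log (1 - m₂ ^ 2))
      (∑ j ∈ Finset.range k,
          ((Real.log (Gf θ₁ (n₁ j)) - Real.log (Gf θ₂ (n₂ j)))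
            + (psiC q (n₁ j) - psiC q (n₂ j) - z) + z)) Y (k * z)
    have a₄ : |(k : ℝ) * z| = k * |z| := by
      rw [abs_mul, abs_of_nonneg (Nat.cast_nonneg k)]
    rw [a₄] at a₃
    nlinarith
  set S := 4 * |m₁ - m₂| + |Y| with hS
  set w := |z| + C₀ * δ with hw
  have hS0 : 0 ≤ S := by positivity
  have hw0 : 0 ≤ w := by positivity
  have hsq : (Real.log C₁ - Real.log C₂) ^ 2 ≤ 2 * (S ^ 2 + (k : ℝ) ^ 2 * w ^ 2) := by
    have h3 : (Real.log C₁ - Real.log C₂) ^ 2 ≤ (S + k * w) ^ 2 := by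
      rw [← sq_abs]
      exact pow_le_pow_left₀ (abs_nonneg _) hbound 2
    nlinarith [sq_nonneg (S - k * w)]
  have hmain := sq_sub_le_of_log hC₁0 hC₂0
  have hq0 : (0 : ℝ) ≤ (q : ℝ) ^ k := by positivity
  have h1' := qpow_cov_sq_le h₁ k (m := m₁) (by linarith) n₁
  have h2' := qpow_cov_sq_le h₂ k (m := m₂) (by linarith) n₂
  rw [← hC₁] at h1'
  rw [← hC₂] at h2'
  have hE : 0 ≤ S ^ 2 + (k : ℝ) ^ 2 * w ^ 2 := by positivity
  calc (q : ℝ) ^ k * (C₁ - C₂) ^ 2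
      ≤ (q : ℝ) ^ k * ((C₁ ^ 2 + C₂ ^ 2) * (Real.log C₁ - Real.log C₂) ^ 2) :=
        mul_le_mul_of_nonneg_left hmain hq0
    _ ≤ (q : ℝ) ^ k * ((C₁ ^ 2 + C₂ ^ 2) * (2 * (S ^ 2 + (k : ℝ) ^ 2 * w ^ 2))) :=
        mul_le_mul_of_nonneg_left (mul_le_mul_of_nonneg_left hsq (by positivity)) hq0
    _ = ((q : ℝ) ^ k * C₁ ^ 2 + (q : ℝ) ^ k * C₂ ^ 2) * (2 * (S ^ 2 + (k : ℝ) ^ 2 * w ^ 2)) := by ring
    _ ≤ ((∏ j ∈ Finset.range k, rhoF θ₁ (n₁ j)) ^ 2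
          + (∏ j ∈ Finset.range k, rhoF θ₂ (n₂ j)) ^ 2) * (2 * (S ^ 2 + (k : ℝ) ^ 2 * w ^ 2)) :=
        mul_le_mul_of_nonneg_right (add_le_add h1' h2') (by linarith)
    _ = _ := by ring

/-- The crude bound, valid everywhere. -/
theorem path_real_crude {θ₁ θ₂ : ℝ} (h₁ : CritPar q θ₁) (h₂ : CritPar q θ₂) (k : ℕ)
    {m₁ m₂ : ℝ} (n₁ n₂ : ℕ → ℝ) (hm₁ : |m₁| ≤ 1) (hm₂ : |m₂| ≤ 1) :
    (q : ℝ) ^ k * ((1 - m₁ ^ 2) * ∏ j ∈ Finset.range k, Gf θ₁ (n₁ j)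
        - (1 - m₂ ^ 2) * ∏ j ∈ Finset.range k, Gf θ₂ (n₂ j)) ^ 2
      ≤ 2 * ((∏ j ∈ Finset.range k, rhoF θ₁ (n₁ j)) ^ 2
            + (∏ j ∈ Finset.range k, rhoF θ₂ (n₂ j)) ^ 2) := by
  have h1' := qpow_cov_sq_le h₁ k hm₁ n₁
  have h2' := qpow_cov_sq_le h₂ k hm₂ n₂
  set C₁ := (1 - m₁ ^ 2) * ∏ j ∈ Finset.range k, Gf θ₁ (n₁ j)
  set C₂ := (1 - m₂ ^ 2) * ∏ j ∈ Finset.range k, Gf θ₂ (n₂ j)
  have hq0 : (0 : ℝ) ≤ (q : ℝ) ^ k := by positivity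
  calc (q : ℝ) ^ k * (C₁ - C₂) ^ 2 ≤ (q : ℝ) ^ k * (2 * (C₁ ^ 2 + C₂ ^ 2)) := by
        apply mul_le_mul_of_nonneg_left _ hq0
        nlinarith [sq_nonneg (C₁ + C₂)]
    _ = 2 * ((q : ℝ) ^ k * C₁ ^ 2 + (q : ℝ) ^ k * C₂ ^ 2) := by ring
    _ ≤ _ := mul_le_mul_of_nonneg_left (add_le_add h1' h2') (by norm_num)

/-- `|mrg a b| ≤ 3/4` when `|a| ≤ 1/2`, `|b| ≤ 3/8`. -/
theorem abs_mrg_le_three_quarters {a b : ℝ} (ha : |a| ≤ 1 / 2) (hb : |b| ≤ 3 / 8) :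
    |mrg a b| ≤ 3 / 4 := by
  obtain ⟨ha1, ha2⟩ := abs_le.1 ha
  obtain ⟨hb1, hb2⟩ := abs_le.1 hb
  have hd : 0 < 1 + a * b := by nlinarith
  unfold mrg
  rw [abs_le]
  constructor
  · rw [le_div_iff₀ hd]
    nlinarith
  · rw [div_le_iff₀ hd]
    nlinarith

/-! ### The final sum -/

/-- Bound of the Hölder term of one sphere. -/
theorem E1_le {ι a D₀ t : ℝ} (h0 : 0 < ι) (h1 : ι ≤ 1 / 2) (ha0 : 0 < a) (ha8 : a ≤ 8)
    (hD₀ : 0 ≤ D₀) (ht : 0 ≤ t) (k : ℕ) :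
    ((8 + 4 * (k : ℝ)) ^ 2) ^ ι * (32 * a + D₀ * t * a ^ (1 - ι) * k) ^ (1 - ι)
      ≤ 64 * a ^ (1 - 2 * ι) * (32 * ((k : ℝ) + 1) ^ (2 * ι)
          + D₀ ^ (1 - ι) * t ^ (1 - ι) * ((k : ℝ) + 1) ^ (1 + ι)) := by
  have hk0 : (0 : ℝ) ≤ k := Nat.cast_nonneg k
  have hk1 : (0 : ℝ) < (k : ℝ) + 1 := by positivity
  have hβ0 : 0 ≤ 1 - ι := by linarith
  have hβ1 : 1 - ι ≤ 1 := by linarith
  -- first factor
  have a1 : ((8 + 4 * (k : ℝ)) ^ 2) ^ ι ≤ 8 * ((k : ℝ) + 1) ^ (2 * ι) := by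
    have h2 : (8 + 4 * (k : ℝ)) ^ 2 ≤ (8 * ((k : ℝ) + 1)) ^ 2 :=
      pow_le_pow_left₀ (by positivity) (by linarith) 2
    have h3 : ((8 * ((k : ℝ) + 1)) ^ 2) ^ ι = (8 * ((k : ℝ) + 1)) ^ (2 * ι) := by
      rw [← Real.rpow_natCast (8 * ((k : ℝ) + 1)) 2, ← Real.rpow_mul (by positivity)]
      norm_num
    have h4 : (8 : ℝ) ^ (2 * ι) ≤ 8 := by
      calc (8 : ℝ) ^ (2 * ι) ≤ 8 ^ (1 : ℝ) :=
            Real.rpow_le_rpow_of_exponent_le (by norm_num) (by linarith)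
        _ = 8 := Real.rpow_one 8
    calc ((8 + 4 * (k : ℝ)) ^ 2) ^ ι ≤ ((8 * ((k : ℝ) + 1)) ^ 2) ^ ι :=
          Real.rpow_le_rpow (by positivity) h2 h0.le
      _ = (8 : ℝ) ^ (2 * ι) * ((k : ℝ) + 1) ^ (2 * ι) := by
          rw [h3, Real.mul_rpow (by norm_num) hk1.le]
      _ ≤ 8 * ((k : ℝ) + 1) ^ (2 * ι) :=
          mul_le_mul_of_nonneg_right h4 (by positivity)
  -- powers of `a`
  have hγ : 0 ≤ a ^ (1 - 2 * ι) := by positivity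
  have pa : ∀ {e : ℝ}, 0 ≤ e → e ≤ 1 → a ^ e ≤ 8 := by
    intro e he he1
    calc a ^ e ≤ 8 ^ e := Real.rpow_le_rpow ha0.le ha8 he
      _ ≤ 8 ^ (1 : ℝ) := Real.rpow_le_rpow_of_exponent_le (by norm_num) he1
      _ = 8 := Real.rpow_one 8
  have a2 : a ^ (1 - ι) ≤ 8 * a ^ (1 - 2 * ι) := by
    have e : a ^ (1 - ι) = a ^ ι * a ^ (1 - 2 * ι) := by
      rw [← Real.rpow_add ha0]
      congr 1
      ring
    rw [e]
    exact mul_le_mul_of_nonneg_right (pa h0.le (by linarith)) hγ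
  have a3 : (a ^ (1 - ι)) ^ (1 - ι) ≤ 8 * a ^ (1 - 2 * ι) := by
    have e : (a ^ (1 - ι)) ^ (1 - ι) = a ^ (ι * ι) * a ^ (1 - 2 * ι) := by
      rw [← Real.rpow_mul ha0.le, ← Real.rpow_add ha0]
      congr 1
      ring
    rw [e]
    exact mul_le_mul_of_nonneg_right (pa (by positivity) (by nlinarith)) hγ
  -- second factor
  have hβa : 0 < a ^ (1 - ι) := by positivity
  have a4 : (32 * a + D₀ * t * a ^ (1 - ι) * k) ^ (1 - ι) ≤
      32 * (8 * a ^ (1 - 2 * ι)) + D₀ ^ (1 - ι) * t ^ (1 - ι) * ((k : ℝ) + 1) ^ (1 - ι)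
        * (8 * a ^ (1 - 2 * ι)) := by
    have h5 := Real.rpow_add_le_add_rpow (p := 1 - ι) (a := 32 * a) (b := D₀ * t * a ^ (1 - ι) * k)
      (by positivity) (by positivity) hβ0 hβ1
    refine h5.trans ?_
    have h6 : (32 * a) ^ (1 - ι) ≤ 32 * (8 * a ^ (1 - 2 * ι)) := by
      rw [Real.mul_rpow (by norm_num) ha0.le]
      have h7 : (32 : ℝ) ^ (1 - ι) ≤ 32 := by
        calc (32 : ℝ) ^ (1 - ι) ≤ 32 ^ (1 : ℝ) :=
              Real.rpow_le_rpow_of_exponent_le (by norm_num) hβ1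
          _ = 32 := Real.rpow_one 32
      exact mul_le_mul h7 a2 (by positivity) (by norm_num)
    have h8 : (D₀ * t * a ^ (1 - ι) * k) ^ (1 - ι) ≤
        D₀ ^ (1 - ι) * t ^ (1 - ι) * ((k : ℝ) + 1) ^ (1 - ι) * (8 * a ^ (1 - 2 * ι)) := by
      have e : (D₀ * t * a ^ (1 - ι) * k) ^ (1 - ι) =
          D₀ ^ (1 - ι) * t ^ (1 - ι) * (k : ℝ) ^ (1 - ι) * (a ^ (1 - ι)) ^ (1 - ι) := by
        rw [Real.mul_rpow (by positivity) hk0, Real.mul_rpow (by positivity) hβa.le,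
          Real.mul_rpow hD₀ ht]
        ring
      rw [e]
      have h9 : (k : ℝ) ^ (1 - ι) ≤ ((k : ℝ) + 1) ^ (1 - ι) :=
        Real.rpow_le_rpow hk0 (by linarith) hβ0
      have h10 : 0 ≤ D₀ ^ (1 - ι) * t ^ (1 - ι) := by positivity
      exact mul_le_mul (mul_le_mul_of_nonneg_left h9 h10) a3 (by positivity) (by positivity)
    linarith
  have e2 : ((k : ℝ) + 1) ^ (1 + ι) = ((k : ℝ) + 1) ^ (2 * ι) * ((k : ℝ) + 1) ^ (1 - ι) := by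
    rw [← Real.rpow_add hk1]
    congr 1
    ring
  rw [e2]
  have hfac : 0 ≤ ((k : ℝ) + 1) ^ (2 * ι) := by positivity
  have hX : 0 ≤ (32 * a + D₀ * t * a ^ (1 - ι) * k) ^ (1 - ι) := by positivity
  calc ((8 + 4 * (k : ℝ)) ^ 2) ^ ι * (32 * a + D₀ * t * a ^ (1 - ι) * k) ^ (1 - ι)
      ≤ (8 * ((k : ℝ) + 1) ^ (2 * ι)) * (32 * (8 * a ^ (1 - 2 * ι))
          + D₀ ^ (1 - ι) * t ^ (1 - ι) * ((k : ℝ) + 1) ^ (1 - ι) * (8 * a ^ (1 - 2 * ι))) :=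
        mul_le_mul a1 a4 hX (by positivity)
    _ = _ := by ring

set_option maxHeartbeats 1000000 in
/-- The sum over all spheres. -/
theorem sum_bnd_le {ι a t c₇ D₀ W b' : ℝ} (h0 : 0 < ι) (h1 : ι ≤ 1 / 2) (ha0 : 0 < a) (ha8 : a ≤ 8)
    (ht : 0 < t) (hc₇ : 0 < c₇) (hL1 : c₇ * t ≤ 1) (hD₀ : 0 ≤ D₀) (hW : 0 ≤ W) (hb' : 0 ≤ b') (R : ℕ) :
    ∑ k ∈ Finset.range R, 4 * Real.exp (-(c₇ * t * ((k + 1 : ℕ) : ℝ))) *
      (((8 + 4 * ((k + 1 : ℕ) : ℝ)) ^ 2) ^ ι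
          * (32 * a + D₀ * t * a ^ (1 - ι) * ((k + 1 : ℕ) : ℝ)) ^ (1 - ι)
        + ((k + 1 : ℕ) : ℝ) ^ 2 * W + ((2 * ((k + 1 : ℕ) : ℝ) + 2) * (2 * b')) ^ (1 / 2 : ℝ))
    ≤ (4 * 64 * (32 * (3 * (2 * (2 * ι)) ^ (2 * ι) * c₇ ^ (-(2 * ι + 1)))
          + D₀ ^ (1 - ι) * (3 * (2 * (1 + ι)) ^ (1 + ι) * c₇ ^ (-(1 + ι + 1))))) * a ^ (1 - 2 * ι)
          * t ^ (-(1 + 2 * ι))
      + (4 * (3 * (2 * (2 : ℝ)) ^ (2 : ℝ) * c₇ ^ (-(2 + 1 : ℝ)))) * W * t ^ (-(2 + 1 : ℝ))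
      + (8 * (3 * (2 * (1 / 2 : ℝ)) ^ (1 / 2 : ℝ) * c₇ ^ (-(1 / 2 + 1 : ℝ)))) * b' ^ (1 / 2 : ℝ)
          * t ^ (-(1 / 2 + 1 : ℝ)) := by
  set L := c₇ * t with hL
  have hL0 : 0 < L := mul_pos hc₇ ht
  set f : ℝ → ℕ → ℝ := fun α k => ((k : ℝ) + 2) ^ α * Real.exp (-(L * ((k : ℝ) + 1))) with hf
  have hsum : ∀ α : ℝ, 0 < α → ∑ k ∈ Finset.range R, f α k ≤ 3 * (2 * α) ^ α * (c₇ ^ (-(α + 1)) * t ^ (-(α + 1))) := by
    intro α hα
    have := sum_rpow_exp_le hα hL0 hL1 R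
    rwa [hL, Real.mul_rpow hc₇.le ht.le] at this
  have hterm : ∀ k ∈ Finset.range R, 4 * Real.exp (-(L * ((k + 1 : ℕ) : ℝ))) *
      (((8 + 4 * ((k + 1 : ℕ) : ℝ)) ^ 2) ^ ι
          * (32 * a + D₀ * t * a ^ (1 - ι) * ((k + 1 : ℕ) : ℝ)) ^ (1 - ι)
        + ((k + 1 : ℕ) : ℝ) ^ 2 * W + ((2 * ((k + 1 : ℕ) : ℝ) + 2) * (2 * b')) ^ (1 / 2 : ℝ))
      ≤ (4 * 64 * a ^ (1 - 2 * ι) * 32) * f (2 * ι) k
        + (4 * 64 * a ^ (1 - 2 * ι) * (D₀ ^ (1 - ι) * t ^ (1 - ι))) * f (1 + ι) k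
        + (4 * W) * f 2 k + (8 * b' ^ (1 / 2 : ℝ)) * f (1 / 2) k := by
    intro k _
    have hcast : ((k + 1 : ℕ) : ℝ) = (k : ℝ) + 1 := by push_cast; ring
    rw [hcast]
    have hk0 : (0 : ℝ) ≤ k := Nat.cast_nonneg k
    have hk2 : (0 : ℝ) < (k : ℝ) + 2 := by positivity
    have he := E1_le h0 h1 ha0 ha8 hD₀ ht.le (k + 1)
    rw [hcast] at he
    have e1 : (k : ℝ) + 1 + 1 = (k : ℝ) + 2 := by ring
    rw [e1] at he
    have h2 : ((k : ℝ) + 1) ^ 2 * W ≤ W * ((k : ℝ) + 2) ^ (2 : ℝ) := by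
      rw [Real.rpow_two, mul_comm]
      apply mul_le_mul_of_nonneg_left _ hW
      exact pow_le_pow_left₀ (by positivity) (by linarith) 2
    have h3 : ((2 * ((k : ℝ) + 1) + 2) * (2 * b')) ^ (1 / 2 : ℝ) =
        2 * b' ^ (1 / 2 : ℝ) * ((k : ℝ) + 2) ^ (1 / 2 : ℝ) := by
      have e2 : (2 * ((k : ℝ) + 1) + 2) * (2 * b') = 4 * (b' * ((k : ℝ) + 2)) := by ring
      have e3 : (4 : ℝ) ^ (1 / 2 : ℝ) = 2 := by
        rw [show (4 : ℝ) = 2 ^ (2 : ℝ) by norm_num, ← Real.rpow_mul (by norm_num)]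
        norm_num
      rw [e2, Real.mul_rpow (by norm_num) (by positivity), Real.mul_rpow hb' hk2.le, e3]
      ring
    rw [h3]
    set e := Real.exp (-(L * ((k : ℝ) + 1))) with he'
    have he0 : 0 < e := Real.exp_pos _
    simp only [hf]
    rw [← he']
    have h4 : 0 ≤ 4 * e := by positivity
    have h5 : 4 * e * (((8 + 4 * ((k : ℝ) + 1)) ^ 2) ^ ι
          * (32 * a + D₀ * t * a ^ (1 - ι) * ((k : ℝ) + 1)) ^ (1 - ι))
        ≤ 4 * e * (64 * a ^ (1 - 2 * ι) * (32 * ((k : ℝ) + 2) ^ (2 * ι)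
          + D₀ ^ (1 - ι) * t ^ (1 - ι) * ((k : ℝ) + 2) ^ (1 + ι))) :=
      mul_le_mul_of_nonneg_left he h4
    have h6 := mul_le_mul_of_nonneg_left h2 h4
    have e4 : 4 * e * (((8 + 4 * ((k : ℝ) + 1)) ^ 2) ^ ι
          * (32 * a + D₀ * t * a ^ (1 - ι) * ((k : ℝ) + 1)) ^ (1 - ι)
        + ((k : ℝ) + 1) ^ 2 * W + 2 * b' ^ (1 / 2 : ℝ) * ((k : ℝ) + 2) ^ (1 / 2 : ℝ)) =
        4 * e * (((8 + 4 * ((k : ℝ) + 1)) ^ 2) ^ ι
          * (32 * a + D₀ * t * a ^ (1 - ι) * ((k : ℝ) + 1)) ^ (1 - ι))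
        + 4 * e * (((k : ℝ) + 1) ^ 2 * W) + 8 * b' ^ (1 / 2 : ℝ) * (((k : ℝ) + 2) ^ (1 / 2 : ℝ) * e) := by
      ring
    rw [e4]
    calc _ ≤ 4 * e * (64 * a ^ (1 - 2 * ι) * (32 * ((k : ℝ) + 2) ^ (2 * ι)
          + D₀ ^ (1 - ι) * t ^ (1 - ι) * ((k : ℝ) + 2) ^ (1 + ι)))
        + 4 * e * (W * ((k : ℝ) + 2) ^ (2 : ℝ))
        + 8 * b' ^ (1 / 2 : ℝ) * (((k : ℝ) + 2) ^ (1 / 2 : ℝ) * e) := by linarith
      _ = _ := by ring
  refine (Finset.sum_le_sum hterm).trans ?_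
  simp only [Finset.sum_add_distrib, ← Finset.mul_sum]
  have hp1 := hsum (2 * ι) (by positivity)
  have hp2 := hsum (1 + ι) (by positivity)
  have hp3 := hsum 2 (by norm_num)
  have hp4 := hsum (1 / 2) (by norm_num)
  have hA : 0 ≤ a ^ (1 - 2 * ι) := by positivity
  have hD : 0 ≤ D₀ ^ (1 - ι) := by positivity
  have htb : 0 ≤ t ^ (1 - ι) := by positivity
  have hB : 0 ≤ b' ^ (1 / 2 : ℝ) := by positivity
  have t1 : t ^ (-(2 * ι + 1)) = t ^ (-(1 + 2 * ι)) := by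
    congr 1
    ring
  have t2 : t ^ (1 - ι) * t ^ (-(1 + ι + 1)) = t ^ (-(1 + 2 * ι)) := by
    rw [← Real.rpow_add ht]
    congr 1
    ring
  have b1 := mul_le_mul_of_nonneg_left hp1 (by positivity : 0 ≤ 4 * 64 * a ^ (1 - 2 * ι) * 32)
  have b2 := mul_le_mul_of_nonneg_left hp2
    (by positivity : 0 ≤ 4 * 64 * a ^ (1 - 2 * ι) * (D₀ ^ (1 - ι) * t ^ (1 - ι)))
  have b3 := mul_le_mul_of_nonneg_left hp3 (by positivity : 0 ≤ 4 * W)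
  have b4 := mul_le_mul_of_nonneg_left hp4 (by positivity : 0 ≤ 8 * b' ^ (1 / 2 : ℝ))
  have e1 : 4 * 64 * a ^ (1 - 2 * ι) * 32 *
      (3 * (2 * (2 * ι)) ^ (2 * ι) * (c₇ ^ (-(2 * ι + 1)) * t ^ (-(2 * ι + 1))))
      = (4 * 64 * (32 * (3 * (2 * (2 * ι)) ^ (2 * ι) * c₇ ^ (-(2 * ι + 1))))) * a ^ (1 - 2 * ι)
          * t ^ (-(1 + 2 * ι)) := by
    rw [t1]; ring
  have e2 : 4 * 64 * a ^ (1 - 2 * ι) * (D₀ ^ (1 - ι) * t ^ (1 - ι)) *
      (3 * (2 * (1 + ι)) ^ (1 + ι) * (c₇ ^ (-(1 + ι + 1)) * t ^ (-(1 + ι + 1))))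
      = (4 * 64 * (D₀ ^ (1 - ι) * (3 * (2 * (1 + ι)) ^ (1 + ι) * c₇ ^ (-(1 + ι + 1))))) * a ^ (1 - 2 * ι)
          * (t ^ (1 - ι) * t ^ (-(1 + ι + 1))) := by ring
  rw [t2] at e2
  rw [e1] at b1
  rw [e2] at b2
  have e3 : 4 * W * (3 * (2 * (2 : ℝ)) ^ (2 : ℝ) * (c₇ ^ (-(2 + 1 : ℝ)) * t ^ (-(2 + 1 : ℝ)))) =
      (4 * (3 * (2 * (2 : ℝ)) ^ (2 : ℝ) * c₇ ^ (-(2 + 1 : ℝ)))) * W * t ^ (-(2 + 1 : ℝ)) := by ring
  rw [e3] at b3
  have e4 : 8 * b' ^ (1 / 2 : ℝ) * (3 * (2 * (1 / 2 : ℝ)) ^ (1 / 2 : ℝ) *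
      (c₇ ^ (-(1 / 2 + 1 : ℝ)) * t ^ (-(1 / 2 + 1 : ℝ)))) =
      (8 * (3 * (2 * (1 / 2 : ℝ)) ^ (1 / 2 : ℝ) * c₇ ^ (-(1 / 2 + 1 : ℝ)))) * b' ^ (1 / 2 : ℝ)
          * t ^ (-(1 / 2 + 1 : ℝ)) := by ring
  rw [e4] at b4
  have e5 : (4 * 64 * (32 * (3 * (2 * (2 * ι)) ^ (2 * ι) * c₇ ^ (-(2 * ι + 1)))
          + D₀ ^ (1 - ι) * (3 * (2 * (1 + ι)) ^ (1 + ι) * c₇ ^ (-(1 + ι + 1))))) * a ^ (1 - 2 * ι)
          * t ^ (-(1 + 2 * ι)) =
      (4 * 64 * (32 * (3 * (2 * (2 * ι)) ^ (2 * ι) * c₇ ^ (-(2 * ι + 1))))) * a ^ (1 - 2 * ι)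
          * t ^ (-(1 + 2 * ι))
      + (4 * 64 * (D₀ ^ (1 - ι) * (3 * (2 * (1 + ι)) ^ (1 + ι) * c₇ ^ (-(1 + ι + 1))))) * a ^ (1 - 2 * ι)
          * t ^ (-(1 + 2 * ι)) := by ring
  rw [e5]
  exact add_le_add (add_le_add (add_le_add b1 b2) b3) b4

/-- The Gaussian type factor beats negative powers of `t`. -/
theorem rpow_neg_mul_exp_le {t c : ℝ} (ht : 0 < t) (hc : 0 < c) :
    t ^ (-(1 / 2 + 1 : ℝ)) * Real.exp (-(c / (2 * t))) ≤
      (3 : ℝ) ^ (3 / 2 : ℝ) * (c / 2) ^ (-(3 / 2 : ℝ)) * Real.exp (-((c / 4) / t)) := by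
  set Y := (c / 2) * t⁻¹ with hY
  have hY0 : 0 ≤ Y := by positivity
  have h1 := rpow_mul_exp_le (α := 3 / 2) (by norm_num) hY0
  have e0 : 2 * (3 / 2 : ℝ) = 3 := by norm_num
  rw [e0] at h1
  have e1 : Y ^ (3 / 2 : ℝ) = (c / 2) ^ (3 / 2 : ℝ) * t ^ (-(1 / 2 + 1 : ℝ)) := by
    rw [hY, Real.mul_rpow (by positivity) (by positivity), Real.inv_rpow ht.le, ← Real.rpow_neg ht.le]
    norm_num
  have e2 : Real.exp (-(Y / 2)) = Real.exp (-((c / 4) / t)) := by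
    congr 1
    rw [hY]
    field_simp
    ring
  rw [e1, e2] at h1
  have e3 : Real.exp (-(c / (2 * t))) = Real.exp (-((c / 4) / t)) * Real.exp (-((c / 4) / t)) := by
    rw [← Real.exp_add]
    congr 1
    field_simp
    ring
  rw [e3]
  have hc2 : 0 < (c / 2) ^ (3 / 2 : ℝ) := by positivity
  have e4 : (c / 2) ^ (-(3 / 2 : ℝ)) = ((c / 2) ^ (3 / 2 : ℝ))⁻¹ := Real.rpow_neg (by positivity) _
  rw [e4]
  have h2 : t ^ (-(1 / 2 + 1 : ℝ)) * Real.exp (-((c / 4) / t)) ≤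
      (3 : ℝ) ^ (3 / 2 : ℝ) * ((c / 2) ^ (3 / 2 : ℝ))⁻¹ := by
    rw [← div_eq_mul_inv, le_div_iff₀ hc2]
    calc _ = (c / 2) ^ (3 / 2 : ℝ) * t ^ (-(1 / 2 + 1 : ℝ)) * Real.exp (-((c / 4) / t)) := by ring
      _ ≤ _ := h1
  calc t ^ (-(1 / 2 + 1 : ℝ)) * (Real.exp (-((c / 4) / t)) * Real.exp (-((c / 4) / t)))
      = (t ^ (-(1 / 2 + 1 : ℝ)) * Real.exp (-((c / 4) / t))) * Real.exp (-((c / 4) / t)) := by ring
    _ ≤ _ := mul_le_mul_of_nonneg_right h2 (Real.exp_pos _).le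

end TempReal

end Crest.Agent.IsingFactor
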