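import Crest.Agent.IsingFactor.TempSol
import Crest.Agent.IsingFactor.TempReal

/-!
# IsingFactor.TempEdge: one edge and one path of `TempMain`: second moment of the message difference,
variance of `ψ(N¹) - ψ(N²)`, variance of the sum along a geodesic.
-/

set_option autoImplicit false

open MeasureTheory ProbabilityTheory
open Crest.Agent.SRFactor Crest.ProbabilityR.Labels

namespace Crest.Agent.IsingFactor

namespace TempMainAux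

open TempReal

variable {V : Type*} [DecidableEq V] {G : SimpleGraph V} [G.LocallyFinite]

theorem integrable_of_bdd {Ω : Type*} [MeasurableSpace Ω] {P : Measure Ω} [IsProbabilityMeasure P]
    {f : Ω → ℝ} (hf : Measurable f) {C : ℝ} (h : ∀ ω, |f ω| ≤ C) : Integrable f P :=
  Integrable.of_bound hf.aestronglyMeasurable C
    (Filter.Eventually.of_forall fun ω => by simpa [Real.norm_eq_abs] using h ω)

section
variable {q : ℕ} (hT : G.IsTree) (hreg : G.IsRegularOfDegree (q + 1))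
  {θ₁ θ₂ r : ℝ} {M₁ M₂ : ℝ → V → (V → unitInterval) → ℝ}
  {N₁ N₂ : ℝ → V → V → (V → unitInterval) → ℝ}

include hT hreg in
/-- The second moment of the difference of the magnetisations does not depend on the vertex. -/
theorem deltaM_eq (hS₁ : IsSol G θ₁ M₁ N₁) (hS₂ : IsSol G θ₂ M₂ N₂) (v w : V) :
    ∫ ω, (M₁ r w ω - M₂ r w ω) ^ 2 ∂labelMeasure V = ∫ ω, (M₁ r v ω - M₂ r v ω) ^ 2 ∂labelMeasure V := by
  have hgeo : ∀ u : V, IsGeo G (fun _ => u) 0 := by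
    intro u i j hi hj
    obtain rfl : i = 0 := by omega
    obtain rfl : j = 0 := by omega
    simp [Nat.dist]
  obtain ⟨g, hg⟩ := exists_aut_of_geo hT hreg (hgeo v) (hgeo w)
  have hgv : g v = w := hg 0 le_rfl
  have := sol_pair_invariant (q := q) hT hreg hS₁ hS₂ g r (ι := Unit) (fun _ => v) (fun _ => v)
    (fun _ => v) (fun _ => v) (fun _ => v) (fun _ => v)
    (fun A B _ _ => (A () - B ()) ^ 2)
  simpa only [hgv] using this

include hT hreg in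
/-- The second moment of the difference of the messages. -/
theorem deltaN_sq_le (h₁ : GoodTheta θ₁) (h₂ : GoodTheta θ₂)
    (hS₁ : IsSol G θ₁ M₁ N₁) (hS₂ : IsSol G θ₂ M₂ N₂) (hr : ∃ n, Dy n r)
    {y x v : V} (hyx : G.Adj y x) {a : ℝ}
    (ha : ∫ ω, (M₁ r v ω - M₂ r v ω) ^ 2 ∂labelMeasure V + (θ₁ - θ₂) ^ 2 ≤ a) :
    ∫ ω, (N₁ r y x ω - N₂ r y x ω) ^ 2 ∂labelMeasure V ≤ 240000 * a := by
  have hae : ∀ᵐ ω ∂labelMeasure V, (N₁ r y x ω - N₂ r y x ω) ^ 2 ≤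
      120000 * ((M₁ r y ω - M₂ r y ω) ^ 2 + (M₁ r x ω - M₂ r x ω) ^ 2 + (θ₁ - θ₂) ^ 2) := by
    filter_upwards [hS₁.alg r y x hr hyx, hS₁.alg r x y hr hyx.symm, hS₂.alg r y x hr hyx,
      hS₂.alg r x y hr hyx.symm] with ω e1 e2 e3 e4
    have key := msg_lip h₁ h₂ (hS₁.bdN r y x ω) (hS₁.bdN r x y ω) (hS₂.bdN r y x ω) (hS₂.bdN r x y ω)
    rw [← e1, ← e2, ← e3, ← e4] at key
    set A := |M₁ r y ω - M₂ r y ω|
    set B := |M₁ r x ω - M₂ r x ω|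
    set C := |θ₁ - θ₂|
    set D := N₁ r y x ω - N₂ r y x ω
    have h1 : |D| ≤ 200 * (A + B + C) := by
      have := abs_nonneg (N₁ r x y ω - N₂ r x y ω)
      linarith
    have h2 : D ^ 2 ≤ (200 * (A + B + C)) ^ 2 := by
      rw [← sq_abs D]
      exact pow_le_pow_left₀ (abs_nonneg _) h1 2
    have e5 : (M₁ r y ω - M₂ r y ω) ^ 2 = A ^ 2 := (sq_abs _).symm
    have e6 : (M₁ r x ω - M₂ r x ω) ^ 2 = B ^ 2 := (sq_abs _).symm
    have e7 : (θ₁ - θ₂) ^ 2 = C ^ 2 := (sq_abs _).symm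
    rw [e5, e6, e7]
    nlinarith [sq_nonneg (A - B), sq_nonneg (A - C), sq_nonneg (B - C)]
  have bdM : ∀ (w : V) (ω : V → unitInterval), |(M₁ r w ω - M₂ r w ω) ^ 2| ≤ 4 := by
    intro w ω
    rw [abs_of_nonneg (sq_nonneg _), ← sq_abs]
    have h1 := abs_sub (M₁ r w ω) (M₂ r w ω)
    have h2 := hS₁.bdM r w ω
    have h3 := hS₂.bdM r w ω
    have h4 : |M₁ r w ω - M₂ r w ω| ≤ 2 := by linarith
    nlinarith [abs_nonneg (M₁ r w ω - M₂ r w ω)]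
  have mM : ∀ w : V, Measurable fun ω => (M₁ r w ω - M₂ r w ω) ^ 2 := fun w =>
    ((hS₁.measM r w).sub (hS₂.measM r w)).pow_const 2
  have iM : ∀ w : V, Integrable (fun ω => (M₁ r w ω - M₂ r w ω) ^ 2) (labelMeasure V) :=
    fun w => integrable_of_bdd (mM w) (bdM w)
  have hbd : ∀ ω, |(N₁ r y x ω - N₂ r y x ω) ^ 2| ≤ 4 := by
    intro ω
    rw [abs_of_nonneg (sq_nonneg _), ← sq_abs]
    have h1 := abs_sub (N₁ r y x ω) (N₂ r y x ω)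
    have h2 := hS₁.bdN r y x ω
    have h3 := hS₂.bdN r y x ω
    have h4 : |N₁ r y x ω - N₂ r y x ω| ≤ 2 := by linarith
    nlinarith [abs_nonneg (N₁ r y x ω - N₂ r y x ω)]
  have iN : Integrable (fun ω => (N₁ r y x ω - N₂ r y x ω) ^ 2) (labelMeasure V) :=
    integrable_of_bdd (((hS₁.measN r y x).sub (hS₂.measN r y x)).pow_const 2) hbd
  have iS2 : Integrable (fun ω => (M₁ r y ω - M₂ r y ω) ^ 2 + (M₁ r x ω - M₂ r x ω) ^ 2)
      (labelMeasure V) := (iM y).add (iM x)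
  have iS3 : Integrable (fun ω => (M₁ r y ω - M₂ r y ω) ^ 2 + (M₁ r x ω - M₂ r x ω) ^ 2
      + (θ₁ - θ₂) ^ 2) (labelMeasure V) := iS2.add (integrable_const _)
  have := integral_mono_ae iN (iS3.const_mul 120000) hae
  refine this.trans ?_
  rw [integral_const_mul]
  have e : ∫ ω, ((M₁ r y ω - M₂ r y ω) ^ 2 + (M₁ r x ω - M₂ r x ω) ^ 2 + (θ₁ - θ₂) ^ 2) ∂labelMeasure V
      = ∫ ω, (M₁ r y ω - M₂ r y ω) ^ 2 ∂labelMeasure V + ∫ ω, (M₁ r x ω - M₂ r x ω) ^ 2 ∂labelMeasure V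
        + (θ₁ - θ₂) ^ 2 := by
    rw [integral_add iS2 (integrable_const _), integral_add (iM y) (iM x)]
    simp
  rw [e, deltaM_eq (q := q) hT hreg hS₁ hS₂ v y, deltaM_eq (q := q) hT hreg hS₁ hS₂ v x]
  have h0 : 0 ≤ (θ₁ - θ₂) ^ 2 := sq_nonneg _
  nlinarith

end

/-- The abstract second moment of a sum with decaying correlations. -/
theorem sum_sq_le {Ω : Type*} [MeasurableSpace Ω] (P : Measure Ω) [IsProbabilityMeasure P]
    (y : ℕ → Ω → ℝ) (hm : ∀ j, Measurable (y j)) {B : ℝ} (hb : ∀ j ω, |y j ω| ≤ B) {s A : ℝ}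
    (hs0 : 0 ≤ s) (hA : 1 ≤ A) (k : ℕ) (hvar : ∀ j < k, ∫ ω, y j ω ^ 2 ∂P ≤ s)
    (hcov : ∀ j j', j < j' → j' < k →
      |∫ ω, y j ω * y j' ω ∂P| ≤ A * s * ((j' - j : ℕ) + 1 : ℝ) * (3 / 4 : ℝ) ^ (j' - j)) :
    ∫ ω, (∑ j ∈ Finset.range k, y j ω) ^ 2 ∂P ≤ 31 * A * s * k := by
  have hB : 0 ≤ B := by
    have hne : Nonempty Ω := nonempty_of_isProbabilityMeasure P
    exact (abs_nonneg _).trans (hb 0 (Classical.arbitrary Ω))
  have hprod : ∀ i j, Integrable (fun ω => y i ω * y j ω) P := by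
    intro i j
    refine integrable_of_bdd ((hm i).mul (hm j)) (C := B * B) fun ω => ?_
    rw [abs_mul]
    exact mul_le_mul (hb i ω) (hb j ω) (abs_nonneg _) hB
  have hsumm : ∀ n, Measurable fun ω => ∑ j ∈ Finset.range n, y j ω := fun n =>
    Finset.measurable_sum _ fun j _ => hm j
  have hsumb : ∀ n ω, |∑ j ∈ Finset.range n, y j ω| ≤ n * B := by
    intro n ω
    refine (Finset.abs_sum_le_sum_abs _ _).trans ?_
    refine (Finset.sum_le_sum fun j _ => hb j ω).trans ?_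
    simp
  have htel : ∀ n : ℕ, ∑ j ∈ Finset.range n, ((n - j : ℕ) + 1 : ℝ) * (3 / 4 : ℝ) ^ (n - j) ≤ 15 := by
    intro n
    have e : ∑ j ∈ Finset.range n, ((n - j : ℕ) + 1 : ℝ) * (3 / 4 : ℝ) ^ (n - j)
        = ∑ d ∈ Finset.range n, ((d : ℝ) + 2) * (3 / 4 : ℝ) ^ (d + 1) := by
      rw [← Finset.sum_range_reflect]
      refine Finset.sum_congr rfl fun d hd => ?_
      have hd' := Finset.mem_range.1 hd
      have e1 : n - (n - 1 - d) = d + 1 := by omega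
      rw [e1]
      push_cast
      ring
    rw [e]
    have hind : ∀ m : ℕ, ∑ d ∈ Finset.range m, ((d : ℝ) + 2) * (3 / 4 : ℝ) ^ (d + 1)
        = 15 - (3 / 4 : ℝ) ^ (m + 1) * (4 * m + 20) := by
      intro m
      induction m with
      | zero => norm_num
      | succ m ih =>
        rw [Finset.sum_range_succ, ih]
        push_cast
        rw [pow_succ (3 / 4 : ℝ) (m + 1)]
        ring
    rw [hind]
    have : 0 ≤ (3 / 4 : ℝ) ^ (n + 1) * (4 * n + 20) := by positivity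
    linarith
  induction k with
  | zero => simp
  | succ k ih =>
    have ih' := ih (fun j hj => hvar j (by omega))
      (fun j j' h1 h2 => hcov j j' h1 (by omega))
    have hexp : ∀ ω, (∑ j ∈ Finset.range (k + 1), y j ω) ^ 2 =
        (∑ j ∈ Finset.range k, y j ω) ^ 2 + 2 * ∑ j ∈ Finset.range k, y j ω * y k ω + y k ω ^ 2 := by
      intro ω
      rw [Finset.sum_range_succ, ← Finset.sum_mul]
      ring
    have i1 : Integrable (fun ω => (∑ j ∈ Finset.range k, y j ω) ^ 2) P := by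
      refine integrable_of_bdd ((hsumm k).pow_const 2) (C := (k * B) ^ 2) fun ω => ?_
      rw [abs_of_nonneg (sq_nonneg _), ← sq_abs]
      exact pow_le_pow_left₀ (abs_nonneg _) (hsumb k ω) 2
    have i2 : Integrable (fun ω => ∑ j ∈ Finset.range k, y j ω * y k ω) P :=
      integrable_finsetSum _ fun j _ => hprod j k
    have i3 : Integrable (fun ω => y k ω ^ 2) P := by
      have := hprod k k
      simpa [pow_two] using this
    simp only [hexp]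
    have i4 : Integrable (fun ω => (∑ j ∈ Finset.range k, y j ω) ^ 2
        + 2 * ∑ j ∈ Finset.range k, y j ω * y k ω) P := i1.add (i2.const_mul 2)
    rw [integral_add i4 i3, integral_add i1 (i2.const_mul 2),
      integral_const_mul, integral_finsetSum _ fun j _ => hprod j k]
    have h1 := hvar k (by omega)
    have h2 : |∑ j ∈ Finset.range k, ∫ ω, y j ω * y k ω ∂P| ≤ 15 * (A * s) := by
      refine (Finset.abs_sum_le_sum_abs _ _).trans ?_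
      have h3 : ∀ j ∈ Finset.range k, |∫ ω, y j ω * y k ω ∂P| ≤
          A * s * (((k - j : ℕ) + 1 : ℝ) * (3 / 4 : ℝ) ^ (k - j)) := by
        intro j hj
        have := hcov j k (Finset.mem_range.1 hj) (by omega)
        rw [mul_assoc] at this
        exact this
      refine (Finset.sum_le_sum h3).trans ?_
      rw [← Finset.mul_sum]
      have h4 : 0 ≤ A * s := by positivity
      calc A * s * _ ≤ A * s * 15 := mul_le_mul_of_nonneg_left (htel k) h4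
        _ = _ := by ring
    have h5 := (abs_le.1 h2).2
    have h6 : s ≤ A * s := by nlinarith
    push_cast
    nlinarith

/-- `(|a| + |b|)^{2p} ≤ 4^p (a^{2p} + b^{2p})`. -/
theorem abs_add_abs_pow_le (a b : ℝ) (p : ℕ) :
    ((|a| + |b|) ^ 2) ^ p ≤ 4 ^ p * (a ^ (2 * p) + b ^ (2 * p)) := by
  have hev : ∀ c : ℝ, |c| ^ (2 * p) = c ^ (2 * p) := by
    intro c
    rw [pow_mul, sq_abs, ← pow_mul]
  have key : ∀ {a b : ℝ}, |a| ≤ |b| → ((|a| + |b|) ^ 2) ^ p ≤ 4 ^ p * (a ^ (2 * p) + b ^ (2 * p)) := by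
    intro a b h
    have h1 : ((|a| + |b|) ^ 2) ^ p ≤ ((2 * |b|) ^ 2) ^ p := by
      have : |a| + |b| ≤ 2 * |b| := by linarith
      gcongr
    have h2 : ((2 * |b|) ^ 2) ^ p = 4 ^ p * b ^ (2 * p) := by
      have e4 : ((2 : ℝ) ^ 2) = 4 := by norm_num
      rw [mul_pow, mul_pow, sq_abs, e4, pow_mul b]
    have h3 : 0 ≤ a ^ (2 * p) := by
      rw [pow_mul]
      positivity
    have h4 : (0 : ℝ) ≤ 4 ^ p := by positivity
    nlinarith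
  rcases le_total |a| |b| with h | h
  · exact key h
  · have := key h
    rw [add_comm |b|, add_comm (b ^ (2 * p))] at this
    exact this

/-- The abstract second moment of `ψ(n₁) - ψ(n₂)`. -/
theorem psi_sq_le_abstract {Ω : Type*} [MeasurableSpace Ω] (P : Measure Ω) [IsProbabilityMeasure P]
    {q : ℕ} (hq : 2 ≤ q) {n₁ n₂ : Ω → ℝ} (hn₁ : Measurable n₁) (hn₂ : Measurable n₂)
    (hb₁ : ∀ ω, |n₁ ω| ≤ 1) (hb₂ : ∀ ω, |n₂ ω| ≤ 1) (p : ℕ) (hp : 2 ≤ p) {CM X D : ℝ}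
    (hCM : 0 ≤ CM) (hX : 0 ≤ X) (hm₁ : ∫ ω, n₁ ω ^ (2 * p) ∂P ≤ CM * X ^ p)
    (hm₂ : ∫ ω, n₂ ω ^ (2 * p) ∂P ≤ CM * X ^ p) (hD : ∫ ω, (n₁ ω - n₂ ω) ^ 2 ∂P ≤ D) :
    ∫ ω, (psiC q (n₁ ω) - psiC q (n₂ ω)) ^ 2 ∂P
      ≤ 36 * (2 * CM) ^ (1 / (p : ℝ)) * X * 4 ^ (1 / (p : ℝ)) * D ^ (1 - 1 / (p : ℝ)) := by
  have hp0 : (0 : ℝ) < p := by positivity
  have hp2 : (2 : ℝ) ≤ p := by exact_mod_cast hp
  have h1p : 1 / (p : ℝ) ≤ 1 / 2 := by
    apply one_div_le_one_div_of_le <;> linarith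
  have h1p0 : 0 < 1 / (p : ℝ) := by positivity
  set f : Ω → ℝ := fun ω => (|n₁ ω| + |n₂ ω|) ^ 2 with hf
  set g : Ω → ℝ := fun ω => |n₁ ω - n₂ ω| with hg
  have mf : Measurable f := (hn₁.abs.add hn₂.abs).pow_const 2
  have mg : Measurable g := (hn₁.sub hn₂).abs
  have f0 : ∀ ω, 0 ≤ f ω := fun ω => by positivity
  have g0 : ∀ ω, 0 ≤ g ω := fun ω => abs_nonneg _
  have fb : ∀ ω, f ω ≤ 4 := by
    intro ω
    have h1 := hb₁ ω
    have h2 := hb₂ ω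
    simp only [hf]
    nlinarith [abs_nonneg (n₁ ω), abs_nonneg (n₂ ω)]
  have gb : ∀ ω, g ω ≤ 2 := by
    intro ω
    have h1 := hb₁ ω
    have h2 := hb₂ ω
    have := abs_sub (n₁ ω) (n₂ ω)
    simp only [hg]
    linarith
  have hol := holder_bdd P mf mg f0 fb g0 gb p hp
  have e1 : ∀ ω, g ω ^ 2 = (n₁ ω - n₂ ω) ^ 2 := fun ω => sq_abs _
  simp only [e1] at hol
  have mpsi : Measurable (psiC q) := (psiC_continuous hq).measurable
  have hψ : ∀ ω, (psiC q (n₁ ω) - psiC q (n₂ ω)) ^ 2 ≤ 9 * (f ω * (n₁ ω - n₂ ω) ^ 2) := by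
    intro ω
    have h2 := psiC_sub_le hq (hb₁ ω) (hb₂ ω)
    have h3 : (psiC q (n₁ ω) - psiC q (n₂ ω)) ^ 2 ≤
        (3 * (|n₁ ω| + |n₂ ω|) * |n₁ ω - n₂ ω|) ^ 2 := by
      rw [← sq_abs (psiC q (n₁ ω) - psiC q (n₂ ω))]
      exact pow_le_pow_left₀ (abs_nonneg _) h2 2
    have h4 : (3 * (|n₁ ω| + |n₂ ω|) * |n₁ ω - n₂ ω|) ^ 2 =
        9 * ((|n₁ ω| + |n₂ ω|) ^ 2 * (n₁ ω - n₂ ω) ^ 2) := by
      rw [mul_pow, mul_pow, sq_abs]
      ring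
    rw [h4] at h3
    exact h3
  have iL : Integrable (fun ω => (psiC q (n₁ ω) - psiC q (n₂ ω)) ^ 2) P := by
    refine integrable_of_bdd (((mpsi.comp hn₁).sub (mpsi.comp hn₂)).pow_const 2) (C := 4) fun ω => ?_
    have a1 := psiC_nonneg_le hq (hb₁ ω)
    have a2 := psiC_nonneg_le hq (hb₂ ω)
    rw [abs_of_nonneg (sq_nonneg _)]
    have : |psiC q (n₁ ω) - psiC q (n₂ ω)| ≤ 2 := by
      rw [abs_le]
      constructor <;> linarith [a1.1, a1.2, a2.1, a2.2]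
    rw [← sq_abs]
    nlinarith [abs_nonneg (psiC q (n₁ ω) - psiC q (n₂ ω))]
  have iR : Integrable (fun ω => f ω * (n₁ ω - n₂ ω) ^ 2) P := by
    refine integrable_of_bdd (mf.mul ((hn₁.sub hn₂).pow_const 2)) (C := 4 * 4) fun ω => ?_
    rw [abs_mul, abs_of_nonneg (f0 ω), abs_of_nonneg (sq_nonneg _), ← e1]
    have : g ω ^ 2 ≤ 4 := by nlinarith [g0 ω, gb ω]
    exact mul_le_mul (fb ω) this (sq_nonneg _) (by norm_num)
  have hI := integral_mono iL (iR.const_mul 9) (fun ω => hψ ω)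
  rw [integral_const_mul] at hI
  -- the moment of `f`
  have hfp : ∫ ω, f ω ^ p ∂P ≤ 4 ^ p * (2 * CM * X ^ p) := by
    have mn : ∀ {n : Ω → ℝ}, Measurable n → (∀ ω, |n ω| ≤ 1) →
        Integrable (fun ω => n ω ^ (2 * p)) P := by
      intro n hn hb
      refine integrable_of_bdd (hn.pow_const _) (C := 1) fun ω => ?_
      rw [abs_pow]
      exact pow_le_one₀ (abs_nonneg _) (hb ω)
    have i1 := mn hn₁ hb₁
    have i2 := mn hn₂ hb₂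
    have i3 : Integrable (fun ω => n₁ ω ^ (2 * p) + n₂ ω ^ (2 * p)) P := i1.add i2
    have i4 : Integrable (fun ω => f ω ^ p) P := by
      refine integrable_of_bdd (mf.pow_const p) (C := 4 ^ p) fun ω => ?_
      rw [abs_pow, abs_of_nonneg (f0 ω)]
      exact pow_le_pow_left₀ (f0 ω) (fb ω) p
    have h2 := integral_mono i4 (i3.const_mul (4 ^ p))
      (fun ω => abs_add_abs_pow_le (n₁ ω) (n₂ ω) p)
    rw [integral_const_mul, integral_add i1 i2] at h2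
    refine h2.trans ?_
    have h4 : (0 : ℝ) ≤ 4 ^ p := by positivity
    refine mul_le_mul_of_nonneg_left ?_ h4
    linarith
  have hfp0 : 0 ≤ ∫ ω, f ω ^ p ∂P := integral_nonneg fun ω => pow_nonneg (f0 ω) _
  have hroot : (∫ ω, f ω ^ p ∂P) ^ (1 / (p : ℝ)) ≤ 4 * (2 * CM) ^ (1 / (p : ℝ)) * X := by
    have h3 : (4 ^ p * (2 * CM * X ^ p)) = (2 * CM) * (4 * X) ^ p := by
      rw [mul_pow]; ring
    rw [h3] at hfp
    have h4 : (0 : ℝ) ≤ 2 * CM := by positivity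
    have h5 : (0 : ℝ) ≤ 4 * X := by positivity
    have h6 : ((4 * X) ^ p) ^ (1 / (p : ℝ)) = 4 * X := by
      rw [one_div]
      exact Real.pow_rpow_inv_natCast h5 (by omega)
    calc (∫ ω, f ω ^ p ∂P) ^ (1 / (p : ℝ))
        ≤ ((2 * CM) * (4 * X) ^ p) ^ (1 / (p : ℝ)) := Real.rpow_le_rpow hfp0 hfp h1p0.le
      _ = (2 * CM) ^ (1 / (p : ℝ)) * ((4 * X) ^ p) ^ (1 / (p : ℝ)) :=
          Real.mul_rpow h4 (by positivity)
      _ = _ := by rw [h6]; ring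
  have hD0 : 0 ≤ ∫ ω, (n₁ ω - n₂ ω) ^ 2 ∂P := integral_nonneg fun ω => sq_nonneg _
  have hβ : 0 ≤ 1 - 1 / (p : ℝ) := by linarith
  have hDroot : (∫ ω, (n₁ ω - n₂ ω) ^ 2 ∂P) ^ (1 - 1 / (p : ℝ)) ≤ D ^ (1 - 1 / (p : ℝ)) :=
    Real.rpow_le_rpow hD0 hD hβ
  have e2 : ((2 : ℝ) ^ 2) ^ (1 / (p : ℝ)) = 4 ^ (1 / (p : ℝ)) := by norm_num
  rw [e2] at hol
  have h40 : (0 : ℝ) ≤ 4 ^ (1 / (p : ℝ)) := by positivity
  have hT1 : 0 ≤ (2 * CM) ^ (1 / (p : ℝ)) := by positivity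
  have hD' : 0 ≤ D ^ (1 - 1 / (p : ℝ)) := Real.rpow_nonneg (hD0.trans hD) _
  calc ∫ ω, (psiC q (n₁ ω) - psiC q (n₂ ω)) ^ 2 ∂P
      ≤ 9 * ∫ ω, f ω * (n₁ ω - n₂ ω) ^ 2 ∂P := hI
    _ ≤ 9 * ((∫ ω, f ω ^ p ∂P) ^ (1 / (p : ℝ)) * 4 ^ (1 / (p : ℝ))
          * (∫ ω, (n₁ ω - n₂ ω) ^ 2 ∂P) ^ (1 - 1 / (p : ℝ))) := by
        gcongr
    _ ≤ 9 * ((4 * (2 * CM) ^ (1 / (p : ℝ)) * X) * 4 ^ (1 / (p : ℝ)) * D ^ (1 - 1 / (p : ℝ))) := by
        gcongr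
    _ = _ := by ring

theorem measurable_rhoF (θ : ℝ) : Measurable (rhoF θ) := by
  unfold rhoF
  fun_prop

theorem measurable_Gf (θ : ℝ) : Measurable (Gf θ) := by
  unfold Gf
  fun_prop

/-- One factor in the path bound. -/
theorem path_one_factor {Ω : Type*} [MeasurableSpace Ω] (P : Measure Ω) [IsProbabilityMeasure P]
    {Pr S ind : Ω → ℝ} (mPr : Measurable Pr) (mS : Measurable S) (mind : Measurable ind)
    (Pr0 : ∀ ω, 0 ≤ Pr ω) (Pr1 : ∀ ω, Pr ω ≤ 1) (S0 : ∀ ω, 0 ≤ S ω) {B : ℝ} (Sb : ∀ ω, S ω ≤ B)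
    (ind0 : ∀ ω, 0 ≤ ind ω) (ind1 : ∀ ω, ind ω ≤ 1) (p : ℕ) (hp : 2 ≤ p) {u K : ℝ} (hK : 0 ≤ K)
    (hd1 : ∫ ω, Pr ω ^ 1 ∂P ≤ Real.exp (-(1 * u)))
    (hd2 : ∫ ω, Pr ω ^ 2 ∂P ≤ Real.exp (-(2 * u)))
    (hdp : ∫ ω, Pr ω ^ p ∂P ≤ Real.exp (-((p : ℝ) * u))) :
    ∫ ω, (Pr ω * S ω ^ 2 + K * Pr ω + Pr ω * ind ω ^ 2) ∂P ≤
      Real.exp (-u) * ((B ^ 2) ^ (1 / (p : ℝ)) * (∫ ω, S ω ^ 2 ∂P) ^ (1 - 1 / (p : ℝ)) + K
        + (∫ ω, ind ω ^ 2 ∂P) ^ (1 / 2 : ℝ)) := by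
  have hp0 : (p : ℝ) ≠ 0 := by
    have : (0 : ℝ) < p := by positivity
    exact this.ne'
  have bdd2 : ∀ {f g : Ω → ℝ} {C D : ℝ}, Measurable f → Measurable g → (∀ ω, 0 ≤ f ω) →
      (∀ ω, f ω ≤ C) → (∀ ω, 0 ≤ g ω) → (∀ ω, g ω ≤ D) → Integrable (fun ω => f ω * g ω ^ 2) P := by
    intro f g C D mf mg f0 fC g0 gD
    refine integrable_of_bdd (mf.mul (mg.pow_const 2)) (C := C * D ^ 2) fun ω => ?_
    rw [abs_mul, abs_of_nonneg (f0 ω), abs_of_nonneg (sq_nonneg _)]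
    exact mul_le_mul (fC ω) (pow_le_pow_left₀ (g0 ω) (gD ω) 2) (sq_nonneg _) ((f0 ω).trans (fC ω))
  have i1 : Integrable (fun ω => Pr ω * S ω ^ 2) P := bdd2 mPr mS Pr0 Pr1 S0 Sb
  have i2 : Integrable (fun ω => K * Pr ω) P :=
    (integrable_of_bdd mPr (C := 1) fun ω => by rw [abs_of_nonneg (Pr0 ω)]; exact Pr1 ω).const_mul K
  have i3 : Integrable (fun ω => Pr ω * ind ω ^ 2) P := bdd2 mPr mind Pr0 Pr1 ind0 ind1
  have i12 : Integrable (fun ω => Pr ω * S ω ^ 2 + K * Pr ω) P := i1.add i2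
  rw [integral_add i12 i3, integral_add i1 i2, integral_const_mul]
  have hol1 := holder_bdd P mPr mS Pr0 Pr1 S0 Sb p hp
  have hol2 := holder_bdd P mPr mind Pr0 Pr1 ind0 ind1 2 le_rfl
  have hroot : ∀ (e : ℕ), e ≠ 0 → ∫ ω, Pr ω ^ e ∂P ≤ Real.exp (-((e : ℝ) * u)) →
      (∫ ω, Pr ω ^ e ∂P) ^ (1 / (e : ℝ)) ≤ Real.exp (-u) := by
    intro e he h
    have h0 : 0 ≤ ∫ ω, Pr ω ^ e ∂P := integral_nonneg fun ω => pow_nonneg (Pr0 ω) _
    have he' : (e : ℝ) ≠ 0 := by exact_mod_cast he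
    calc (∫ ω, Pr ω ^ e ∂P) ^ (1 / (e : ℝ)) ≤ (Real.exp (-((e : ℝ) * u))) ^ (1 / (e : ℝ)) :=
          Real.rpow_le_rpow h0 h (by positivity)
      _ = Real.exp (-u) := by
          rw [← Real.exp_mul]
          congr 1
          field_simp
  have hS0 : 0 ≤ ∫ ω, S ω ^ 2 ∂P := integral_nonneg fun ω => sq_nonneg _
  have hi0 : 0 ≤ ∫ ω, ind ω ^ 2 ∂P := integral_nonneg fun ω => sq_nonneg _
  have hB2 : 0 ≤ (B ^ 2) ^ (1 / (p : ℝ)) := by positivity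
  have hR1 := hroot p (by omega) hdp
  have hR2 := hroot 2 (by norm_num) (by exact_mod_cast hd2)
  have hexp := Real.exp_pos (-u)
  have t1 : ∫ ω, Pr ω * S ω ^ 2 ∂P ≤
      Real.exp (-u) * ((B ^ 2) ^ (1 / (p : ℝ)) * (∫ ω, S ω ^ 2 ∂P) ^ (1 - 1 / (p : ℝ))) := by
    refine hol1.trans ?_
    rw [mul_assoc]
    exact mul_le_mul_of_nonneg_right hR1 (by positivity)
  have t2 : K * ∫ ω, Pr ω ∂P ≤ Real.exp (-u) * K := by
    have : ∫ ω, Pr ω ∂P ≤ Real.exp (-u) := by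
      simpa using hd1
    rw [mul_comm]
    exact mul_le_mul_of_nonneg_right this hK
  have t3 : ∫ ω, Pr ω * ind ω ^ 2 ∂P ≤ Real.exp (-u) * (∫ ω, ind ω ^ 2 ∂P) ^ (1 / 2 : ℝ) := by
    refine hol2.trans ?_
    have e1 : ((1 : ℝ) ^ 2) ^ (1 / ((2 : ℕ) : ℝ)) = 1 := by simp
    have e2 : (1 - 1 / ((2 : ℕ) : ℝ)) = (1 / 2 : ℝ) := by norm_num
    rw [e1, e2, mul_one]
    exact mul_le_mul_of_nonneg_right hR2 (by positivity)
  have e : Real.exp (-u) * ((B ^ 2) ^ (1 / (p : ℝ)) * (∫ ω, S ω ^ 2 ∂P) ^ (1 - 1 / (p : ℝ)) + K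
        + (∫ ω, ind ω ^ 2 ∂P) ^ (1 / 2 : ℝ)) =
      Real.exp (-u) * ((B ^ 2) ^ (1 / (p : ℝ)) * (∫ ω, S ω ^ 2 ∂P) ^ (1 - 1 / (p : ℝ))) +
        Real.exp (-u) * K + Real.exp (-u) * (∫ ω, ind ω ^ 2 ∂P) ^ (1 / 2 : ℝ) := by ring
  rw [e]
  linarith

set_option maxHeartbeats 1000000 in
/-- The bound along one path, in abstract form. -/
theorem path_abstract {Ω : Type*} [MeasurableSpace Ω] (P : Measure Ω) [IsProbabilityMeasure P]
    {q : ℕ} (hq : 2 ≤ q) {θ₁ θ₂ : ℝ} (h₁ : CritPar q θ₁) (h₂ : CritPar q θ₂) (k : ℕ)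
    {m₁ m₂ : Ω → ℝ} {n₁ n₂ : ℕ → Ω → ℝ} (mm₁ : Measurable m₁) (mm₂ : Measurable m₂)
    (mn₁ : ∀ j, Measurable (n₁ j)) (mn₂ : ∀ j, Measurable (n₂ j))
    (bm₁ : ∀ ω, |m₁ ω| ≤ 1) (bm₂ : ∀ ω, |m₂ ω| ≤ 1)
    (bn₁ : ∀ j ω, |n₁ j ω| ≤ 1) (bn₂ : ∀ j ω, |n₂ j ω| ≤ 1)
    {Bad : Set Ω} (hBad : MeasurableSet Bad)
    (hgood : ∀ᵐ ω ∂P, ω ∉ Bad → |m₁ ω| ≤ 3 / 4 ∧ |m₂ ω| ≤ 3 / 4 ∧
       (∀ j < k, |n₁ j ω| ≤ 1 / 2) ∧ (∀ j < k, |n₂ j ω| ≤ 1 / 2))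
    {z : ℝ} (hz : |z| ≤ 2) (p : ℕ) (hp : 2 ≤ p) {u : ℝ}
    (hd₁ : ∀ e : ℕ, 1 ≤ e → e ≤ p →
      ∫ ω, ((∏ j ∈ Finset.range k, rhoF θ₁ (n₁ j ω)) ^ 2) ^ e ∂P ≤ Real.exp (-((e : ℝ) * u)))
    (hd₂ : ∀ e : ℕ, 1 ≤ e → e ≤ p →
      ∫ ω, ((∏ j ∈ Finset.range k, rhoF θ₂ (n₂ j ω)) ^ 2) ^ e ∂P ≤ Real.exp (-((e : ℝ) * u))) :
    (q : ℝ) ^ k * ∫ ω, ((1 - m₁ ω ^ 2) * ∏ j ∈ Finset.range k, Gf θ₁ (n₁ j ω)
        - (1 - m₂ ω ^ 2) * ∏ j ∈ Finset.range k, Gf θ₂ (n₂ j ω)) ^ 2 ∂P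
     ≤ 4 * Real.exp (-u) * (((8 + 4 * (k : ℝ)) ^ 2) ^ (1 / (p : ℝ))
          * (∫ ω, (4 * |m₁ ω - m₂ ω|
              + |∑ j ∈ Finset.range k, (psiC q (n₁ j ω) - psiC q (n₂ j ω) - z)|) ^ 2 ∂P)
            ^ (1 - 1 / (p : ℝ))
        + (k : ℝ) ^ 2 * (|z| + (2 / thetaC q + 1) * (|θ₁ - thetaC q| + |θ₂ - thetaC q|)) ^ 2
        + (P.real Bad) ^ (1 / 2 : ℝ)) := by
  set w := |z| + (2 / thetaC q + 1) * (|θ₁ - thetaC q| + |θ₂ - thetaC q|) with hw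
  set K := (k : ℝ) ^ 2 * w ^ 2 with hK
  have hK0 : 0 ≤ K := by positivity
  have mpsi : Measurable (psiC q) := (psiC_continuous hq).measurable
  set Y : Ω → ℝ := fun ω => ∑ j ∈ Finset.range k, (psiC q (n₁ j ω) - psiC q (n₂ j ω) - z) with hY
  set S : Ω → ℝ := fun ω => 4 * |m₁ ω - m₂ ω| + |Y ω| with hS
  have mY : Measurable Y := Finset.measurable_sum _ fun j _ =>
    ((mpsi.comp (mn₁ j)).sub (mpsi.comp (mn₂ j))).sub measurable_const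
  have mS : Measurable S := (((mm₁.sub mm₂).abs).const_mul 4).add mY.abs
  have S0 : ∀ ω, 0 ≤ S ω := fun ω => by simp only [hS]; positivity
  have Sb : ∀ ω, S ω ≤ 8 + 4 * (k : ℝ) := by
    intro ω
    have h1 : |m₁ ω - m₂ ω| ≤ 2 := by
      have := abs_sub (m₁ ω) (m₂ ω)
      linarith [bm₁ ω, bm₂ ω]
    have h2 : |Y ω| ≤ 4 * (k : ℝ) := by
      refine (Finset.abs_sum_le_sum_abs _ _).trans ?_
      have h3 : ∀ j ∈ Finset.range k, |psiC q (n₁ j ω) - psiC q (n₂ j ω) - z| ≤ 4 := by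
        intro j _
        have a1 := psiC_nonneg_le hq (bn₁ j ω)
        have a2 := psiC_nonneg_le hq (bn₂ j ω)
        have a3 := abs_le.1 hz
        rw [abs_le]
        constructor <;> linarith [a1.1, a1.2, a2.1, a2.2, a3.1, a3.2]
      refine (Finset.sum_le_sum h3).trans ?_
      simp
      linarith
    simp only [hS]
    linarith
  set ind : Ω → ℝ := Bad.indicator (fun _ => (1 : ℝ)) with hind
  have mind : Measurable ind := measurable_const.indicator hBad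
  have ind0 : ∀ ω, 0 ≤ ind ω := fun ω => Set.indicator_nonneg (fun _ _ => zero_le_one) ω
  have ind1 : ∀ ω, ind ω ≤ 1 := fun ω => Set.indicator_le_self' (fun _ _ => zero_le_one) ω
  have hint : ∫ ω, ind ω ^ 2 ∂P = P.real Bad := by
    have e : (fun ω => ind ω ^ 2) = Bad.indicator (fun _ => (1 : ℝ)) := by
      funext ω
      simp only [hind]
      by_cases h : ω ∈ Bad <;> simp [h]
    rw [e, integral_indicator hBad]
    simp
  have mprod : ∀ {θ : ℝ} {n : ℕ → Ω → ℝ}, (∀ j, Measurable (n j)) →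
      Measurable fun ω => (∏ j ∈ Finset.range k, rhoF θ (n j ω)) ^ 2 := by
    intro θ n mn
    exact (Finset.measurable_prod _ fun j _ => (measurable_rhoF θ).comp (mn j)).pow_const 2
  have bprod : ∀ {θ : ℝ} {n : ℕ → Ω → ℝ}, GoodTheta θ → (∀ j ω, |n j ω| ≤ 1) →
      ∀ ω, 0 ≤ (∏ j ∈ Finset.range k, rhoF θ (n j ω)) ^ 2 ∧
        (∏ j ∈ Finset.range k, rhoF θ (n j ω)) ^ 2 ≤ 1 := by
    intro θ n hθ bn ω
    refine ⟨sq_nonneg _, ?_⟩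
    have h0 : 0 ≤ ∏ j ∈ Finset.range k, rhoF θ (n j ω) :=
      Finset.prod_nonneg fun j _ => rhoF_nonneg hθ (bn j ω)
    have h1 : ∏ j ∈ Finset.range k, rhoF θ (n j ω) ≤ 1 :=
      Finset.prod_le_one (fun j _ => rhoF_nonneg hθ (bn j ω)) fun j _ => rhoF_le_one hθ (bn j ω)
    exact pow_le_one₀ h0 h1
  set Pr₁ : Ω → ℝ := fun ω => (∏ j ∈ Finset.range k, rhoF θ₁ (n₁ j ω)) ^ 2 with hPr₁
  set Pr₂ : Ω → ℝ := fun ω => (∏ j ∈ Finset.range k, rhoF θ₂ (n₂ j ω)) ^ 2 with hPr₂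
  have mP₁ : Measurable Pr₁ := mprod mn₁
  have mP₂ : Measurable Pr₂ := mprod mn₂
  have bP₁ := bprod h₁.good bn₁
  have bP₂ := bprod h₂.good bn₂
  have dec₁ := path_one_factor P mP₁ mS mind (fun ω => (bP₁ ω).1) (fun ω => (bP₁ ω).2) S0 Sb ind0 ind1
    p hp hK0 (by simpa using hd₁ 1 le_rfl (by omega)) (by exact_mod_cast hd₁ 2 (by norm_num) hp)
    (hd₁ p (by omega) le_rfl)
  have dec₂ := path_one_factor P mP₂ mS mind (fun ω => (bP₂ ω).1) (fun ω => (bP₂ ω).2) S0 Sb ind0 ind1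
    p hp hK0 (by simpa using hd₂ 1 le_rfl (by omega)) (by exact_mod_cast hd₂ 2 (by norm_num) hp)
    (hd₂ p (by omega) le_rfl)
  rw [hint] at dec₁ dec₂
  -- the pointwise bound
  set F₁ : Ω → ℝ := fun ω => Pr₁ ω * S ω ^ 2 + K * Pr₁ ω + Pr₁ ω * ind ω ^ 2 with hF₁
  set F₂ : Ω → ℝ := fun ω => Pr₂ ω * S ω ^ 2 + K * Pr₂ ω + Pr₂ ω * ind ω ^ 2 with hF₂
  have hpt : ∀ᵐ ω ∂P, (q : ℝ) ^ k * ((1 - m₁ ω ^ 2) * ∏ j ∈ Finset.range k, Gf θ₁ (n₁ j ω)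
        - (1 - m₂ ω ^ 2) * ∏ j ∈ Finset.range k, Gf θ₂ (n₂ j ω)) ^ 2 ≤ 2 * (F₁ ω + F₂ ω) := by
    filter_upwards [hgood] with ω hω
    have e : 2 * (F₁ ω + F₂ ω) = 2 * (Pr₁ ω + Pr₂ ω) * (S ω ^ 2 + K) + 2 * (Pr₁ ω + Pr₂ ω) * ind ω ^ 2 := by
      simp only [hF₁, hF₂]; ring
    rw [e]
    have hPP : 0 ≤ 2 * (Pr₁ ω + Pr₂ ω) := by
      have := (bP₁ ω).1
      have := (bP₂ ω).1
      simp only [hPr₁, hPr₂]
      positivity
    by_cases hB : ω ∈ Bad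
    · have h3 := path_real_crude h₁ h₂ k (n₁ · ω) (n₂ · ω) (bm₁ ω) (bm₂ ω)
      have h4 : ind ω = 1 := by simp [hind, hB]
      rw [h4]
      have h5 : 0 ≤ 2 * (Pr₁ ω + Pr₂ ω) * (S ω ^ 2 + K) := mul_nonneg hPP (by positivity)
      calc _ ≤ 2 * ((∏ j ∈ Finset.range k, rhoF θ₁ (n₁ j ω)) ^ 2
            + (∏ j ∈ Finset.range k, rhoF θ₂ (n₂ j ω)) ^ 2) := h3
        _ = 2 * (Pr₁ ω + Pr₂ ω) * 1 ^ 2 := by simp only [hPr₁, hPr₂]; ring
        _ ≤ _ := by linarith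
    · obtain ⟨a1, a2, a3, a4⟩ := hω hB
      have h3 := path_real hq h₁ h₂ k a1 a2 a3 a4 z
      have h4 : ind ω = 0 := by simp [hind, hB]
      rw [h4]
      calc _ ≤ _ := h3
        _ = _ := by
          simp only [hPr₁, hPr₂, hS, hY, hK, hw]
          ring
  have iF : ∀ {Pr : Ω → ℝ}, Measurable Pr → (∀ ω, 0 ≤ Pr ω ∧ Pr ω ≤ 1) →
      Integrable (fun ω => Pr ω * S ω ^ 2 + K * Pr ω + Pr ω * ind ω ^ 2) P := by
    intro Pr mPr bPr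
    have i1 : Integrable (fun ω => Pr ω * S ω ^ 2) P := by
      refine integrable_of_bdd (mPr.mul (mS.pow_const 2)) (C := 1 * (8 + 4 * (k : ℝ)) ^ 2) fun ω => ?_
      rw [abs_mul, abs_of_nonneg (bPr ω).1, abs_of_nonneg (sq_nonneg _)]
      exact mul_le_mul (bPr ω).2 (pow_le_pow_left₀ (S0 ω) (Sb ω) 2) (sq_nonneg _) zero_le_one
    have i2 : Integrable (fun ω => K * Pr ω) P :=
      (integrable_of_bdd mPr (C := 1) fun ω => by
        rw [abs_of_nonneg (bPr ω).1]; exact (bPr ω).2).const_mul K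
    have i3 : Integrable (fun ω => Pr ω * ind ω ^ 2) P := by
      refine integrable_of_bdd (mPr.mul (mind.pow_const 2)) (C := 1 * 1) fun ω => ?_
      rw [abs_mul, abs_of_nonneg (bPr ω).1, abs_of_nonneg (sq_nonneg _)]
      have h2 : ind ω ^ 2 ≤ 1 := pow_le_one₀ (ind0 ω) (ind1 ω)
      exact mul_le_mul (bPr ω).2 h2 (sq_nonneg _) zero_le_one
    exact (i1.add i2).add i3
  have iF₁ : Integrable F₁ P := iF mP₁ bP₁
  have iF₂ : Integrable F₂ P := iF mP₂ bP₂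
  have iL : Integrable (fun ω => ((1 - m₁ ω ^ 2) * ∏ j ∈ Finset.range k, Gf θ₁ (n₁ j ω)
        - (1 - m₂ ω ^ 2) * ∏ j ∈ Finset.range k, Gf θ₂ (n₂ j ω)) ^ 2) P := by
    have mC : ∀ {θ : ℝ} {m : Ω → ℝ} {n : ℕ → Ω → ℝ}, Measurable m → (∀ j, Measurable (n j)) →
        Measurable fun ω => (1 - m ω ^ 2) * ∏ j ∈ Finset.range k, Gf θ (n j ω) := by
      intro θ m n hm hn
      exact ((measurable_const.sub (hm.pow_const 2))).mul
        (Finset.measurable_prod _ fun j _ => (measurable_Gf θ).comp (hn j))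
    have bC : ∀ {θ : ℝ} {m : Ω → ℝ} {n : ℕ → Ω → ℝ}, GoodTheta θ → (∀ ω, |m ω| ≤ 1) →
        (∀ j ω, |n j ω| ≤ 1) →
        ∀ ω, |(1 - m ω ^ 2) * ∏ j ∈ Finset.range k, Gf θ (n j ω)| ≤ 1 := by
      intro θ m n hθ hm hn ω
      have a1 : m ω ^ 2 ≤ 1 := by
        rw [← sq_abs]
        exact pow_le_one₀ (abs_nonneg _) (hm ω)
      have a2 : |1 - m ω ^ 2| ≤ 1 := by
        rw [abs_le]
        constructor <;> nlinarith [sq_nonneg (m ω)]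
      have a3 : |∏ j ∈ Finset.range k, Gf θ (n j ω)| ≤ 1 := by
        rw [Finset.abs_prod]
        exact Finset.prod_le_one (fun j _ => abs_nonneg _)
          fun j _ => (abs_Gf_le hθ (hn j ω)).trans hθ.lt_one.le
      rw [abs_mul]
      exact mul_le_one₀ a2 (abs_nonneg _) a3
    refine integrable_of_bdd (((mC mm₁ mn₁).sub (mC mm₂ mn₂)).pow_const 2) (C := 4) fun ω => ?_
    rw [abs_of_nonneg (sq_nonneg _), ← sq_abs]
    have a1 := bC (θ := θ₁) h₁.good bm₁ bn₁ ω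
    have a2 := bC (θ := θ₂) h₂.good bm₂ bn₂ ω
    have a3 := abs_sub ((1 - m₁ ω ^ 2) * ∏ j ∈ Finset.range k, Gf θ₁ (n₁ j ω))
      ((1 - m₂ ω ^ 2) * ∏ j ∈ Finset.range k, Gf θ₂ (n₂ j ω))
    have a4 := abs_nonneg ((1 - m₁ ω ^ 2) * ∏ j ∈ Finset.range k, Gf θ₁ (n₁ j ω)
        - (1 - m₂ ω ^ 2) * ∏ j ∈ Finset.range k, Gf θ₂ (n₂ j ω))
    nlinarith
  have hq0 : (0 : ℝ) ≤ (q : ℝ) ^ k := by positivity
  have hfin := integral_mono_ae (iL.const_mul ((q : ℝ) ^ k)) ((iF₁.add iF₂).const_mul 2) hpt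
  rw [integral_const_mul] at hfin
  refine hfin.trans ?_
  have e2 : ∫ ω, 2 * (F₁ + F₂) ω ∂P = 2 * (∫ ω, F₁ ω ∂P + ∫ ω, F₂ ω ∂P) := by
    rw [integral_const_mul]
    congr 1
    exact integral_add iF₁ iF₂
  rw [e2]
  nlinarith

end TempMainAux

end Crest.Agent.IsingFactor
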