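import Crest.Agent.IsingFactor.TempPath

/-!
# IsingFactor.TempMain (WP IF-TempMain): the bound on `H` at small times (T3), see `TempPsi`.
Statements may be ADDED; do not change the ones below without posting on chat (topic S0241), other packages use them.
-/

set_option autoImplicit false

open MeasureTheory ProbabilityTheory
open Crest.Agent.SRFactor Crest.ProbabilityR.Labels

namespace Crest.Agent.IsingFactor

variable {V : Type*} [DecidableEq V] {G : SimpleGraph V} [G.LocallyFinite]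

namespace TempMainAux

open TempReal

/-- The sum over a ball, organised by spheres. -/
theorem ball_sum_le {q : ℕ} (hT : G.IsTree) (hreg : G.IsRegularOfDegree (q + 1)) (hq : 2 ≤ q)
    (v : V) (R : ℕ) (g : V → ℝ) (Bnd : ℕ → ℝ) {E0 : ℝ} (hg0 : g v ≤ E0) (hBnd : ∀ k, 0 ≤ Bnd k)
    (hg : ∀ u, 1 ≤ G.dist v u → (q : ℝ) ^ G.dist v u * g u ≤ Bnd (G.dist v u)) :
    ∑ u ∈ tball G v R, g u ≤ E0 + 2 * ∑ k ∈ Finset.range R, Bnd (k + 1) := by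
  have hmaps : ∀ u ∈ tball G v R, G.dist v u ∈ Finset.range (R + 1) := by
    intro u hu
    rw [Finset.mem_range]
    have := (mem_tball hT).1 hu
    omega
  rw [← Finset.sum_fiberwise_of_maps_to hmaps, Finset.sum_range_succ', add_comm, Finset.mul_sum]
  have hq0 : (0 : ℝ) < q := by positivity
  have hq2 : (2 : ℝ) ≤ q := by exact_mod_cast hq
  refine add_le_add ?_ (Finset.sum_le_sum ?_)
  · have : (tball G v R).filter (fun u => G.dist v u = 0) = {v} := by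
      ext u
      simp only [Finset.mem_filter, mem_tball hT, Finset.mem_singleton]
      constructor
      · rintro ⟨_, h⟩
        exact (tdist_zero hT h).symm
      · rintro rfl
        simp
    rw [this, Finset.sum_singleton]
    exact hg0
  · intro k hk
    have hkR := Finset.mem_range.1 hk
    have hset : (tball G v R).filter (fun u => G.dist v u = k + 1) =
        (tball G v (k + 1)).filter (fun u => G.dist v u = k + 1) := by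
      ext u
      simp only [Finset.mem_filter, mem_tball hT]
      constructor
      · rintro ⟨_, h⟩
        exact ⟨by omega, h⟩
      · rintro ⟨_, h⟩
        exact ⟨by omega, h⟩
    have hcard := card_sphere hT hreg v (k + 1)
    simp only [Nat.succ_ne_zero, if_false, Nat.add_sub_cancel] at hcard
    rw [hset]
    have hqk : (0 : ℝ) < (q : ℝ) ^ (k + 1) := by positivity
    have hle : ∀ u ∈ (tball G v (k + 1)).filter (fun u => G.dist v u = k + 1),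
        g u ≤ Bnd (k + 1) / (q : ℝ) ^ (k + 1) := by
      intro u hu
      have hd := (Finset.mem_filter.1 hu).2
      have h2 := hg u (by omega)
      rw [hd] at h2
      rw [le_div_iff₀ hqk, mul_comm]
      exact h2
    refine (Finset.sum_le_sum hle).trans ?_
    rw [Finset.sum_const, hcard, nsmul_eq_mul]
    push_cast
    have e : ((q : ℝ) + 1) * (q : ℝ) ^ k * (Bnd (k + 1) / (q : ℝ) ^ (k + 1)) =
        (((q : ℝ) + 1) / q) * Bnd (k + 1) := by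
      rw [pow_succ]
      field_simp
    rw [e]
    apply mul_le_mul_of_nonneg_right _ (hBnd _)
    rw [div_le_iff₀ hq0]
    linarith

theorem mul_sqrt_le_one {r y : ℝ} (hr : 0 ≤ r) (hy : 0 < y) (h : r ≤ 1 / y ^ 2) : y * Real.sqrt r ≤ 1 := by
  have h1 := Real.sq_sqrt hr
  have h2 : y ^ 2 * r ≤ 1 := by
    rw [le_div_iff₀ (by positivity)] at h
    linarith
  have h3 := Real.sqrt_nonneg r
  by_contra h4
  push Not at h4
  nlinarith [sq_nonneg (y * Real.sqrt r - 1)]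

theorem aux_nonneg {A B X : ℝ} (hA : 0 < A) (hB : 0 < B) (h : A ≤ B * X) : 0 ≤ X := by
  by_contra h3
  push Not at h3
  nlinarith

theorem aux_sq_diff {m₁ m₂ : ℝ} (h₁ : |m₁| ≤ 1) (h₂ : |m₂| ≤ 1) :
    ((1 - m₁ ^ 2) - (1 - m₂ ^ 2)) ^ 2 ≤ 4 * (m₁ - m₂) ^ 2 := by
  have a1 := abs_le.1 h₁
  have a2 := abs_le.1 h₂
  have e1 : ((1 - m₁ ^ 2) - (1 - m₂ ^ 2)) ^ 2 = (m₁ + m₂) ^ 2 * (m₁ - m₂) ^ 2 := by ring
  rw [e1]
  apply mul_le_mul_of_nonneg_right _ (sq_nonneg _)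
  nlinarith

theorem aux_sq_four {m₁ m₂ : ℝ} (h₁ : |m₁| ≤ 1) (h₂ : |m₂| ≤ 1) : (m₁ - m₂) ^ 2 ≤ 4 := by
  have a1 := abs_le.1 h₁
  have a2 := abs_le.1 h₂
  nlinarith

theorem aux_wsq {z δ C₀ W₀ w : ℝ} (hw : w = |z| + C₀ * δ) (hC₀ : 0 < C₀) (hδ0 : 0 ≤ δ) (hδ : δ ≤ 3 / 4)
    (hz : |z| ≤ 2) (hW₀ : W₀ = 2 + C₀ * (3 / 4)) : w ^ 2 ≤ W₀ * (1 + C₀) * (|z| + δ) := by
  have hW₀0 : 0 < W₀ := by rw [hW₀]; positivity
  have hw0 : 0 ≤ w := by rw [hw]; positivity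
  have h1 : w ≤ W₀ := by
    rw [hw, hW₀]
    have : C₀ * δ ≤ C₀ * (3 / 4) := mul_le_mul_of_nonneg_left hδ hC₀.le
    linarith
  have h2 : w ≤ (1 + C₀) * (|z| + δ) := by
    rw [hw]
    have : 0 ≤ |z| := abs_nonneg z
    nlinarith
  calc w ^ 2 = w * w := by ring
    _ ≤ W₀ * ((1 + C₀) * (|z| + δ)) := mul_le_mul h1 h2 hw0 hW₀0.le
    _ = _ := by ring

theorem aux_final {H a K K₁ K₂ K₃ E₃ W P1 P2 P3 ρA ρ₂ e w2 : ℝ}
    (hK : K = 32 + 2 * K₁ + 2 * K₂ * W + 2 * K₃ * E₃) (hK₁ : 0 ≤ K₁) (hK₂ : 0 ≤ K₂) (hK₃ : 0 ≤ K₃)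
    (hE₃ : 0 ≤ E₃) (hW : 0 ≤ W) (hρA : 0 ≤ ρA) (hρ₂ : 0 ≤ ρ₂) (he : 0 ≤ e) (hP2 : 0 ≤ P2)
    (hfin : H ≤ 4 * a + 2 * (K₁ * ρA + K₂ * w2 * P1 + K₃ * P3))
    (h4a : 4 * a ≤ 32 * ρA) (hw2 : w2 ≤ W * P2) (hP1 : P1 = ρ₂) (hP3 : P3 ≤ E₃ * e) :
    H ≤ K * ρA + K * (ρ₂ * P2) + K * e := by
  subst hP1
  have a2 : K₂ * w2 * P1 ≤ K₂ * W * (P1 * P2) := by
    have : K₂ * w2 ≤ K₂ * (W * P2) := mul_le_mul_of_nonneg_left hw2 hK₂
    calc K₂ * w2 * P1 ≤ K₂ * (W * P2) * P1 := mul_le_mul_of_nonneg_right this hρ₂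
      _ = _ := by ring
  have a3 : K₃ * P3 ≤ K₃ * E₃ * e := by
    calc K₃ * P3 ≤ K₃ * (E₃ * e) := mul_le_mul_of_nonneg_left hP3 hK₃
      _ = _ := by ring
  have hX : 0 ≤ P1 * P2 := mul_nonneg hρ₂ hP2
  have b1 : (32 + 2 * K₁) * ρA ≤ K * ρA := by
    apply mul_le_mul_of_nonneg_right _ hρA
    have : 0 ≤ 2 * K₂ * W + 2 * K₃ * E₃ := by positivity
    rw [hK]; linarith
  have b2 : (2 * K₂ * W) * (P1 * P2) ≤ K * (P1 * P2) := by
    apply mul_le_mul_of_nonneg_right _ hX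
    have : 0 ≤ 32 + 2 * K₁ + 2 * K₃ * E₃ := by positivity
    rw [hK]; linarith
  have b3 : (2 * K₃ * E₃) * e ≤ K * e := by
    apply mul_le_mul_of_nonneg_right _ he
    have : 0 ≤ 32 + 2 * K₁ + 2 * K₂ * W := by positivity
    rw [hK]; linarith
  nlinarith

end TempMainAux

open TempReal TempMainAux

set_option maxHeartbeats 4000000 in
/-- (T3): the final tempered bound on `H`. `p` natural, `≥ 3`. -/
theorem tempered_bound {q : ℕ} (hT : G.IsTree) (hreg : G.IsRegularOfDegree (q + 1)) (hq : 2 ≤ q)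
    (p : ℕ) (hp : 3 ≤ p) :
    ∃ K c t₁ : ℝ, 0 < K ∧ 0 < c ∧ 0 < t₁ ∧ ∀ {θ₁ θ₂ r a : ℝ} {M₁ M₂ : ℝ → V → (V → unitInterval) → ℝ}
      {N₁ N₂ : ℝ → V → V → (V → unitInterval) → ℝ}, CritPar q θ₁ → CritPar q θ₂ →
      IsSol G θ₁ M₁ N₁ → IsSol G θ₂ M₂ N₂ → (∃ n, Dy n r) → 0 < r → r ≤ t₁ →
      1 - q * θ₁ ^ 2 ≤ Real.sqrt (tauL r) → 1 - q * θ₂ ^ 2 ≤ Real.sqrt (tauL r) →
      ∀ (v : V), ∫ ω, (M₁ r v ω - M₂ r v ω) ^ 2 ∂labelMeasure V + (|θ₁ - thetaC q| + |θ₂ - thetaC q|) ^ 2 ≤ a →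
      0 < a → a ≤ 8 →
      ∀ R : ℕ, ∑ u ∈ tball G v R,
        ∫ ω, (covPath G θ₁ (fun w => M₁ r w ω) (fun y x => N₁ r y x ω) v u
          - covPath G θ₂ (fun w => M₂ r w ω) (fun y x => N₂ r y x ω) v u) ^ 2 ∂labelMeasure V
      ≤ K * r ^ (-(1 / 2 + 1 / (p : ℝ))) * a ^ (1 - 2 / (p : ℝ))
        + K * r ^ (-(3 / 2 : ℝ)) * (|psiBar θ₁ r q - psiBar θ₂ r q| + |θ₁ - thetaC q| + |θ₂ - thetaC q|)
        + K * Real.exp (-(c / Real.sqrt r)) := by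
  obtain ⟨c₂, c', hc₂, hc₂1, hc', hchain⟩ := sol_chain hT hreg hq
  obtain ⟨Cx, hCx, hxb⟩ := xBar_le_sqrt (q := q) hq
  obtain ⟨CM, hCM, hmom⟩ := sol_moment hT hreg hq p
  obtain ⟨cb, tb, hcb, htb, hbad⟩ := sol_bad hT hreg hq
  have hp2 : 2 ≤ p := by omega
  have hp0 : (0 : ℝ) < p := by positivity
  have hp3R : (3 : ℝ) ≤ p := by exact_mod_cast hp
  set ι : ℝ := 1 / (p : ℝ) with hι
  have hι0 : 0 < ι := by positivity
  have hι1 : ι ≤ 1 / 2 := by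
    rw [hι]
    apply one_div_le_one_div_of_le <;> linarith
  set s8 : ℝ := Real.sqrt 8 with hs8
  have hs80 : 0 < s8 := Real.sqrt_pos.2 (by norm_num)
  set c₇ : ℝ := c₂ * c' / (8 * s8) with hc₇
  have hc₇0 : 0 < c₇ := by positivity
  set Cσ : ℝ := 36 * (2 * CM) ^ ι * Cx * 4 ^ ι * 240000 ^ (1 - ι) with hCσ
  have hCσ0 : 0 ≤ Cσ := by positivity
  set D₀ : ℝ := 62 * ((q : ℝ) + 2) * Cσ with hD₀
  have hD₀0 : 0 ≤ D₀ := by positivity
  set K₁ : ℝ := (4 * 64 * (32 * (3 * (2 * (2 * ι)) ^ (2 * ι) * c₇ ^ (-(2 * ι + 1)))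
          + D₀ ^ (1 - ι) * (3 * (2 * (1 + ι)) ^ (1 + ι) * c₇ ^ (-(1 + ι + 1))))) with hK₁
  set K₂ : ℝ := (4 * (3 * (2 * (2 : ℝ)) ^ (2 : ℝ) * c₇ ^ (-(2 + 1 : ℝ)))) with hK₂
  set K₃ : ℝ := (8 * (3 * (2 * (1 / 2 : ℝ)) ^ (1 / 2 : ℝ) * c₇ ^ (-(1 / 2 + 1 : ℝ)))) with hK₃
  have hK₁0 : 0 ≤ K₁ := by positivity
  have hK₂0 : 0 ≤ K₂ := by positivity
  have hK₃0 : 0 ≤ K₃ := by positivity
  have hθc := thetaC_pos hq
  set C₀ : ℝ := 2 / thetaC q + 1 with hC₀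
  have hC₀0 : 0 < C₀ := by positivity
  set W₀ : ℝ := 2 + C₀ * (3 / 4) with hW₀
  have hW₀0 : 0 < W₀ := by positivity
  set E₃ : ℝ := (3 : ℝ) ^ (3 / 2 : ℝ) * (cb / 2) ^ (-(3 / 2 : ℝ)) with hE₃
  have hE₃0 : 0 ≤ E₃ := by positivity
  set K : ℝ := 32 + 2 * K₁ + 2 * K₂ * (W₀ * (1 + C₀)) + 2 * K₃ * E₃ with hK
  have hK0 : 0 < K := by positivity
  set y₁ : ℝ := 2 * (p : ℝ) * c' * Cx with hy₁
  have hy₁0 : 0 < y₁ := by positivity
  refine ⟨K, cb / 4, min (1 / 2) (min tb (min (1 / y₁ ^ 2) (1 / c₇ ^ 2))), hK0, by positivity,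
    by positivity, ?_⟩
  intro θ₁ θ₂ r a M₁ M₂ N₁ N₂ h₁ h₂ hS₁ hS₂ hr hr0 hrt hγ₁ hγ₂ v ha ha0 ha8 R
  have hr12 : r ≤ 1 / 2 := hrt.trans (min_le_left _ _)
  have hrb : r ≤ tb := hrt.trans ((min_le_right _ _).trans (min_le_left _ _))
  have hry : r ≤ 1 / y₁ ^ 2 :=
    hrt.trans ((min_le_right _ _).trans ((min_le_right _ _).trans (min_le_left _ _)))
  have hrc : r ≤ 1 / c₇ ^ 2 :=
    hrt.trans ((min_le_right _ _).trans ((min_le_right _ _).trans (min_le_right _ _)))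
  set t := Real.sqrt r with ht
  have ht0 : 0 < t := Real.sqrt_pos.2 hr0
  have hL1 : c₇ * t ≤ 1 := mul_sqrt_le_one hr0.le hc₇0 hrc
  have hyt : y₁ * t ≤ 1 := mul_sqrt_le_one hr0.le hy₁0 hry
  -- bounds on `x̄`
  have hXb : ∀ {θ : ℝ}, CritPar q θ → 1 - q * θ ^ 2 ≤ Real.sqrt (tauL r) →
      c₇ * t ≤ c₂ * c' * xBar θ r q ∧ xBar θ r q ≤ Cx * t := by
    intro θ h hγ
    refine ⟨?_, hxb θ r h hr0.le⟩
    have h1 := xBar_ge hq h hr0.le hγ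
    have h2 : r / 8 ≤ tauL r := tauL_ge hr0.le hr12
    have h3 : t / s8 ≤ Real.sqrt (tauL r) := by
      have := Real.sqrt_le_sqrt h2
      rwa [Real.sqrt_div hr0.le] at this
    have h4 : c₇ * t = c₂ * c' * (t / s8 / 8) := by
      rw [hc₇]
      field_simp
    rw [h4]
    apply mul_le_mul_of_nonneg_left _ (by positivity)
    linarith
  have hdecay : ∀ {θ : ℝ} {M : ℝ → V → (V → unitInterval) → ℝ}
      {N : ℝ → V → V → (V → unitInterval) → ℝ},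
      CritPar q θ → IsSol G θ M N → 1 - q * θ ^ 2 ≤ Real.sqrt (tauL r) →
      ∀ {x : ℕ → V} {k : ℕ}, IsGeo G x k → ∀ e : ℕ, 1 ≤ e → e ≤ p →
      ∫ ω, ((∏ j ∈ Finset.range k, rhoF θ (N r (x (j + 1)) (x j) ω)) ^ 2) ^ e ∂labelMeasure V
        ≤ Real.exp (-((e : ℝ) * (c₇ * t * k))) := by
    intro θ M N h hS hγ x k hx e he1 hep
    obtain ⟨hlow, hup⟩ := hXb h hγ
    have hX0 : 0 ≤ xBar θ r q := aux_nonneg (by positivity) (by positivity) hlow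
    have e1 : ∀ ω, ((∏ j ∈ Finset.range k, rhoF θ (N r (x (j + 1)) (x j) ω)) ^ 2) ^ e =
        ∏ j ∈ Finset.range k, rhoF θ (N r (x (j + 1)) (x j) ω) ^ (2 * e) := by
      intro ω
      rw [← pow_mul, Finset.prod_pow]
    simp only [e1]
    refine (hchain h hS hr hr0 (2 * e) x k hx).trans ?_
    have hee : ((2 * e : ℕ) : ℝ) = 2 * (e : ℝ) := by push_cast; ring
    rw [hee]
    have hepR : (e : ℝ) ≤ p := by exact_mod_cast hep
    have he0 : (0 : ℝ) ≤ e := Nat.cast_nonneg e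
    have hy0 : 0 ≤ 2 * (e : ℝ) * c' * xBar θ r q := by positivity
    have hy1 : 2 * (e : ℝ) * c' * xBar θ r q ≤ 1 := by
      have h1 : 2 * (e : ℝ) * c' * xBar θ r q ≤ 2 * (p : ℝ) * c' * (Cx * t) := by
        have h2 : 2 * (e : ℝ) * c' ≤ 2 * (p : ℝ) * c' := by
          have : 2 * (e : ℝ) ≤ 2 * (p : ℝ) := by linarith
          exact mul_le_mul_of_nonneg_right this hc'.le
        exact mul_le_mul h2 hup hX0 (by positivity)
      have h3 : 2 * (p : ℝ) * c' * (Cx * t) = y₁ * t := by rw [hy₁]; ring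
      linarith
    refine (chain_real hc₂ hc₂1 hy0 hy1 k).trans ?_
    apply Real.exp_le_exp.2
    have hk0 : (0 : ℝ) ≤ k := Nat.cast_nonneg k
    have h1 : (e : ℝ) * (c₇ * t) ≤ (e : ℝ) * (c₂ * c' * xBar θ r q) :=
      mul_le_mul_of_nonneg_left hlow he0
    have h2 := mul_le_mul_of_nonneg_right h1 hk0
    have e2 : c₂ * (2 * (e : ℝ) * c' * xBar θ r q) / 2 * (k : ℝ) =
        (e : ℝ) * (c₂ * c' * xBar θ r q) * k := by ring
    have e3 : (e : ℝ) * (c₇ * t * k) = (e : ℝ) * (c₇ * t) * k := by ring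
    rw [e2, e3]
    linarith
  -- the hypothesis in the form used below
  set δ := |θ₁ - thetaC q| + |θ₂ - thetaC q| with hδ
  have hδ0 : 0 ≤ δ := by positivity
  have hM0 : 0 ≤ ∫ ω, (M₁ r v ω - M₂ r v ω) ^ 2 ∂labelMeasure V :=
    integral_nonneg fun ω => sq_nonneg _
  have hA : ∫ ω, (M₁ r v ω - M₂ r v ω) ^ 2 ∂labelMeasure V ≤ a := by
    have : 0 ≤ δ ^ 2 := sq_nonneg _
    linarith
  have hθθ : (θ₁ - θ₂) ^ 2 ≤ δ ^ 2 := by
    have h1 : |θ₁ - θ₂| ≤ δ := by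
      have := abs_sub_le θ₁ (thetaC q) θ₂
      rw [abs_sub_comm (thetaC q) θ₂] at this
      exact this
    rw [← sq_abs (θ₁ - θ₂)]
    exact pow_le_pow_left₀ (abs_nonneg _) h1 2
  have ha' : ∫ ω, (M₁ r v ω - M₂ r v ω) ^ 2 ∂labelMeasure V + (θ₁ - θ₂) ^ 2 ≤ a := by linarith
  -- the variance of `ψ(N¹) - ψ(N²)`
  set s : ℝ := Cσ * t * a ^ (1 - ι) with hs
  have hs0 : 0 ≤ s := by positivity
  have hvar : ∀ y w, G.Adj y w →
      ∫ ω, (psiC q (N₁ r y w ω) - psiC q (N₂ r y w ω)) ^ 2 ∂labelMeasure V ≤ s := by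
    intro y w hyw
    have hdn := deltaN_sq_le (q := q) hT hreg h₁.good h₂.good hS₁ hS₂ hr hyw ha'
    have hmm : ∀ {θ : ℝ} {M : ℝ → V → (V → unitInterval) → ℝ}
        {N : ℝ → V → V → (V → unitInterval) → ℝ},
        CritPar q θ → IsSol G θ M N → 1 - q * θ ^ 2 ≤ Real.sqrt (tauL r) →
        ∫ ω, N r y w ω ^ (2 * p) ∂labelMeasure V ≤ CM * (Cx * t) ^ p := by
      intro θ M N h hS hγ
      refine (hmom h hS hr hr0 hyw).trans ?_
      obtain ⟨hlow, hup⟩ := hXb h hγ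
      have hX0 : 0 ≤ xBar θ r q := aux_nonneg (by positivity) (by positivity) hlow
      exact mul_le_mul_of_nonneg_left (pow_le_pow_left₀ hX0 hup p) hCM.le
    have h3 := psi_sq_le_abstract (labelMeasure V) hq (hS₁.measN r y w) (hS₂.measN r y w)
      (hS₁.bdN r y w) (hS₂.bdN r y w) p hp2 (CM := CM) (X := Cx * t) (D := 240000 * a) hCM.le
      (by positivity) (hmm h₁ hS₁ hγ₁) (hmm h₂ hS₂ hγ₂) hdn
    refine h3.trans (le_of_eq ?_)
    rw [Real.mul_rpow (by norm_num) ha0.le, hs, hCσ]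
    ring
  -- bad events
  set b' : ℝ := Real.exp (-(cb / t)) with hb'
  have hb'0 : 0 < b' := Real.exp_pos _
  have hb₁ : ∀ y w, G.Adj y w → (labelMeasure V).real {ω | 1 / 2 < |N₁ r y w ω|} ≤ 2 * b' :=
    fun y w h => hbad h₁ hS₁ hr hr0 hrb h
  have hb₂ : ∀ y w, G.Adj y w → (labelMeasure V).real {ω | 1 / 2 < |N₂ r y w ω|} ≤ 2 * b' :=
    fun y w h => hbad h₂ hS₂ hr hr0 hrb h
  -- the bound for each sphere
  set z := psiBar θ₁ r q - psiBar θ₂ r q with hz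
  set w := |z| + C₀ * δ with hw
  have hw0 : 0 ≤ w := by positivity
  set Bnd : ℕ → ℝ := fun κ => 4 * Real.exp (-(c₇ * t * (κ : ℝ))) *
      (((8 + 4 * (κ : ℝ)) ^ 2) ^ ι * (32 * a + D₀ * t * a ^ (1 - ι) * (κ : ℝ)) ^ (1 - ι)
        + (κ : ℝ) ^ 2 * w ^ 2 + ((2 * (κ : ℝ) + 2) * (2 * b')) ^ (1 / 2 : ℝ)) with hBnd
  have hBnd0 : ∀ κ, 0 ≤ Bnd κ := fun κ => by
    simp only [hBnd]
    positivity
  set g : V → ℝ := fun u => ∫ ω, (covPath G θ₁ (fun w => M₁ r w ω) (fun y x => N₁ r y x ω) v u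
          - covPath G θ₂ (fun w => M₂ r w ω) (fun y x => N₂ r y x ω) v u) ^ 2 ∂labelMeasure V with hg
  have hgpath : ∀ u, 1 ≤ G.dist v u → (q : ℝ) ^ G.dist v u * g u ≤ Bnd (G.dist v u) := by
    intro u hu
    have hgeo := isGeo_pathV (G := G) hT v u
    have h3 := sol_path hT hreg hq h₁ h₂ hS₁ hS₂ hr hr0.le hu hgeo p hp2
      (u := c₇ * t * (G.dist v u : ℝ)) (hdecay h₁ hS₁ hγ₁ hgeo) (hdecay h₂ hS₂ hγ₂ hgeo)
      hb₁ hb₂ hs0 hvar hA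
    have e : 62 * ((q : ℝ) + 2) * s * (G.dist v u : ℝ) = D₀ * t * a ^ (1 - ι) * (G.dist v u : ℝ) := by
      rw [hD₀, hs]; ring
    rw [e] at h3
    exact h3
  have hg0 : g v ≤ 4 * a := by
    have e : ∀ ω, covPath G θ₁ (fun w => M₁ r w ω) (fun y x => N₁ r y x ω) v v
          - covPath G θ₂ (fun w => M₂ r w ω) (fun y x => N₂ r y x ω) v v =
          (1 - M₁ r v ω ^ 2) - (1 - M₂ r v ω ^ 2) := by
      intro ω
      simp [covPath]
    simp only [hg, e]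
    have hle : ∀ ω, ((1 - M₁ r v ω ^ 2) - (1 - M₂ r v ω ^ 2)) ^ 2 ≤
        4 * (M₁ r v ω - M₂ r v ω) ^ 2 := fun ω => aux_sq_diff (hS₁.bdM r v ω) (hS₂.bdM r v ω)
    have mm₁ := hS₁.measM r v
    have mm₂ := hS₂.measM r v
    have i1 : Integrable (fun ω => ((1 - M₁ r v ω ^ 2) - (1 - M₂ r v ω ^ 2)) ^ 2) (labelMeasure V) := by
      refine integrable_of_bdd (((measurable_const.sub (mm₁.pow_const 2)).sub
        (measurable_const.sub (mm₂.pow_const 2))).pow_const 2) (C := 4 * 4) fun ω => ?_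
      rw [abs_of_nonneg (sq_nonneg _)]
      refine (hle ω).trans ?_
      have a3 := aux_sq_four (hS₁.bdM r v ω) (hS₂.bdM r v ω)
      linarith
    have i2 : Integrable (fun ω => (M₁ r v ω - M₂ r v ω) ^ 2) (labelMeasure V) := by
      refine integrable_of_bdd ((mm₁.sub mm₂).pow_const 2) (C := 4) fun ω => ?_
      rw [abs_of_nonneg (sq_nonneg _)]
      exact aux_sq_four (hS₁.bdM r v ω) (hS₂.bdM r v ω)
    have h3 := integral_mono i1 (i2.const_mul 4) hle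
    rw [integral_const_mul] at h3
    linarith
  have hH := ball_sum_le hT hreg hq v R g Bnd hg0 hBnd0 hgpath
  have hS : ∑ k ∈ Finset.range R, Bnd (k + 1) ≤ K₁ * a ^ (1 - 2 * ι) * t ^ (-(1 + 2 * ι))
      + K₂ * w ^ 2 * t ^ (-(2 + 1 : ℝ)) + K₃ * b' ^ (1 / 2 : ℝ) * t ^ (-(1 / 2 + 1 : ℝ)) :=
    sum_bnd_le hι0 hι1 ha0 ha8 ht0 hc₇0 hL1 hD₀0 (sq_nonneg w) hb'0.le R
  -- final numerics
  have er1 : t ^ (-(1 + 2 * ι)) = r ^ (-(1 / 2 + ι)) := by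
    rw [ht, Real.sqrt_eq_rpow, ← Real.rpow_mul hr0.le]
    congr 1
    ring
  have er2 : t ^ (-(2 + 1 : ℝ)) = r ^ (-(3 / 2 : ℝ)) := by
    rw [ht, Real.sqrt_eq_rpow, ← Real.rpow_mul hr0.le]
    congr 1
    norm_num
  have eb : b' ^ (1 / 2 : ℝ) = Real.exp (-(cb / (2 * t))) := by
    rw [hb', ← Real.exp_mul]
    congr 1
    field_simp
  have hexp := rpow_neg_mul_exp_le ht0 hcb
  rw [er1, er2, eb] at hS
  have e2p : (2 : ℝ) / (p : ℝ) = 2 * ι := by rw [hι]; ring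
  rw [e2p]
  have hγ0 : 0 < a ^ (1 - 2 * ι) := by positivity
  have hρ₁ : 1 ≤ r ^ (-(1 / 2 + ι)) :=
    Real.one_le_rpow_of_pos_of_le_one_of_nonpos hr0 (by linarith) (by linarith)
  have hρ₂0 : 0 < r ^ (-(3 / 2 : ℝ)) := by positivity
  -- `4 a`
  have h4a : 4 * a ≤ 32 * (r ^ (-(1 / 2 + ι)) * a ^ (1 - 2 * ι)) := by
    have e1 : a = a ^ (2 * ι) * a ^ (1 - 2 * ι) := by
      rw [← Real.rpow_add ha0]
      simp
    have h1 : a ^ (2 * ι) ≤ 8 := by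
      calc a ^ (2 * ι) ≤ 8 ^ (2 * ι) := Real.rpow_le_rpow ha0.le ha8 (by positivity)
        _ ≤ 8 ^ (1 : ℝ) := Real.rpow_le_rpow_of_exponent_le (by norm_num) (by linarith)
        _ = 8 := Real.rpow_one 8
    have h2 : a ≤ 8 * a ^ (1 - 2 * ι) := by
      calc a = a ^ (2 * ι) * a ^ (1 - 2 * ι) := e1
        _ ≤ _ := mul_le_mul_of_nonneg_right h1 hγ0.le
    have h3 : a ^ (1 - 2 * ι) ≤ r ^ (-(1 / 2 + ι)) * a ^ (1 - 2 * ι) :=
      le_mul_of_one_le_left hγ0.le hρ₁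
    linarith
  -- `w²`
  have hψ₁ := psiBar_nonneg_le (t := r) hq h₁.good hr0.le
  have hψ₂ := psiBar_nonneg_le (t := r) hq h₂.good hr0.le
  have hz2 : |z| ≤ 2 := by
    rw [abs_le, hz]
    constructor <;> linarith [hψ₁.1, hψ₁.2, hψ₂.1, hψ₂.2]
  have hδ34 : δ ≤ 3 / 4 := by
    have b1 := critPar_le_thetaC h₁ hq
    have b2 := critPar_half_le h₁ hq
    have b3 := critPar_le_thetaC h₂ hq
    have b4 := critPar_half_le h₂ hq
    have b5 := thetaC_le hq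
    rw [hδ, abs_of_nonpos (by linarith), abs_of_nonpos (by linarith)]
    linarith
  have hwsq : w ^ 2 ≤ (W₀ * (1 + C₀)) * (|z| + δ) := aux_wsq hw hC₀0 hδ0 hδ34 hz2 hW₀
  -- assemble
  have gg : K * r ^ (-(3 / 2 : ℝ)) * (|z| + |θ₁ - thetaC q| + |θ₂ - thetaC q|) =
      K * (r ^ (-(3 / 2 : ℝ)) * (|z| + δ)) := by
    rw [hδ]; ring
  rw [gg]
  have a3 : K * r ^ (-(1 / 2 + ι)) * a ^ (1 - 2 * ι) = K * (r ^ (-(1 / 2 + ι)) * a ^ (1 - 2 * ι)) := by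
    ring
  rw [a3]
  have hfin : ∑ u ∈ tball G v R, g u ≤ 4 * a + 2 * (K₁ * (r ^ (-(1 / 2 + ι)) * a ^ (1 - 2 * ι))
      + K₂ * w ^ 2 * r ^ (-(3 / 2 : ℝ))
      + K₃ * (t ^ (-(1 / 2 + 1 : ℝ)) * Real.exp (-(cb / (2 * t))))) := by
    refine hH.trans ?_
    have e1 : K₁ * (r ^ (-(1 / 2 + ι)) * a ^ (1 - 2 * ι)) = K₁ * a ^ (1 - 2 * ι) * r ^ (-(1 / 2 + ι)) := by
      ring
    have e2 : K₃ * (t ^ (-(1 / 2 + 1 : ℝ)) * Real.exp (-(cb / (2 * t)))) =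
        K₃ * Real.exp (-(cb / (2 * t))) * t ^ (-(1 / 2 + 1 : ℝ)) := by ring
    rw [e1, e2]
    have h2 := mul_le_mul_of_nonneg_left hS (by norm_num : (0 : ℝ) ≤ 2)
    exact add_le_add le_rfl h2
  exact aux_final (W := W₀ * (1 + C₀)) hK hK₁0 hK₂0 hK₃0 hE₃0 (by positivity) (by positivity)
    (by positivity) (Real.exp_pos _).le (by positivity) hfin h4a hwsq rfl hexp

end Crest.Agent.IsingFactor
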