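import Crest.Agent.IsingFactor.TempEdge

/-!
# IsingFactor.TempPath: the bound along one geodesic for a pair of solutions.
-/

set_option autoImplicit false

open MeasureTheory ProbabilityTheory
open Crest.Agent.SRFactor Crest.ProbabilityR.Labels

namespace Crest.Agent.IsingFactor

namespace TempMainAux

open TempReal

variable {V : Type*} [DecidableEq V] {G : SimpleGraph V} [G.LocallyFinite]

/-- Variance is at most the second moment. -/
theorem var_le {Ω : Type*} [MeasurableSpace Ω] (P : Measure Ω) [IsProbabilityMeasure P]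
    {Z : Ω → ℝ} (hZ : Measurable Z) {B : ℝ} (hb : ∀ ω, |Z ω| ≤ B) {z : ℝ} (hz : ∫ ω, Z ω ∂P = z) :
    ∫ ω, (Z ω - z) ^ 2 ∂P ≤ ∫ ω, Z ω ^ 2 ∂P := by
  have i1 : Integrable Z P := integrable_of_bdd hZ hb
  have hB : 0 ≤ B := by
    have hne : Nonempty Ω := nonempty_of_isProbabilityMeasure P
    exact (abs_nonneg _).trans (hb (Classical.arbitrary Ω))
  have i2 : Integrable (fun ω => Z ω ^ 2) P := by
    refine integrable_of_bdd (hZ.pow_const 2) (C := B ^ 2) fun ω => ?_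
    rw [abs_of_nonneg (sq_nonneg _), ← sq_abs]
    exact pow_le_pow_left₀ (abs_nonneg _) (hb ω) 2
  have e : ∀ ω, (Z ω - z) ^ 2 = Z ω ^ 2 - 2 * z * Z ω + z ^ 2 := fun ω => by ring
  simp only [e]
  have i3 : Integrable (fun ω => Z ω ^ 2 - 2 * z * Z ω) P := i2.sub (i1.const_mul _)
  rw [integral_add i3 (integrable_const _), integral_sub i2 (i1.const_mul _), integral_const_mul, hz]
  simp
  nlinarith [sq_nonneg z]

omit [DecidableEq V] [G.LocallyFinite] in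
theorem adj_of_isGeo {x : ℕ → V} {k : ℕ} (hx : IsGeo G x k) {j : ℕ} (hj : j < k) :
    G.Adj (x (j + 1)) (x j) := by
  have h := hx (j + 1) j (by omega) (by omega)
  have h2 : Nat.dist (j + 1) j = 1 := by
    rw [Nat.dist]
    omega
  rw [h2] at h
  exact SimpleGraph.dist_eq_one_iff_adj.1 h

section
variable {q : ℕ} (hT : G.IsTree) (hreg : G.IsRegularOfDegree (q + 1)) (hq : 2 ≤ q)
  {θ₁ θ₂ r : ℝ} {M₁ M₂ : ℝ → V → (V → unitInterval) → ℝ}
  {N₁ N₂ : ℝ → V → V → (V → unitInterval) → ℝ}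

include hT hreg hq in
/-- The second moment of the centered sum of `ψ(N¹) - ψ(N²)` along a geodesic. -/
theorem sum_Z_sq_le (h₁ : CritPar q θ₁) (h₂ : CritPar q θ₂)
    (hS₁ : IsSol G θ₁ M₁ N₁) (hS₂ : IsSol G θ₂ M₂ N₂) (hr : ∃ n, Dy n r) (hr0 : 0 ≤ r)
    {x : ℕ → V} {k : ℕ} (hx : IsGeo G x k) {s : ℝ} (hs0 : 0 ≤ s)
    (hvar : ∀ y w, G.Adj y w →
      ∫ ω, (psiC q (N₁ r y w ω) - psiC q (N₂ r y w ω)) ^ 2 ∂labelMeasure V ≤ s) :
    ∫ ω, (∑ j ∈ Finset.range k, (psiC q (N₁ r (x (j + 1)) (x j) ω) - psiC q (N₂ r (x (j + 1)) (x j) ω)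
        - (psiBar θ₁ r q - psiBar θ₂ r q))) ^ 2 ∂labelMeasure V ≤ 31 * ((q : ℝ) + 2) * s * k := by
  set z := psiBar θ₁ r q - psiBar θ₂ r q with hz
  have hψ₁ := psiBar_nonneg_le (t := r) hq h₁.good hr0
  have hψ₂ := psiBar_nonneg_le (t := r) hq h₂.good hr0
  have hz2 : |z| ≤ 2 := by
    rw [abs_le, hz]
    constructor <;> linarith [hψ₁.1, hψ₁.2, hψ₂.1, hψ₂.2]
  have mpsi : Measurable (psiC q) := (psiC_continuous hq).measurable
  have mZ : ∀ y w : V, Measurable fun ω => psiC q (N₁ r y w ω) - psiC q (N₂ r y w ω) := fun y w =>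
    (mpsi.comp (hS₁.measN r y w)).sub (mpsi.comp (hS₂.measN r y w))
  have bZ : ∀ (y w : V) ω, |psiC q (N₁ r y w ω) - psiC q (N₂ r y w ω)| ≤ 2 := by
    intro y w ω
    have a1 := psiC_nonneg_le hq (hS₁.bdN r y w ω)
    have a2 := psiC_nonneg_le hq (hS₂.bdN r y w ω)
    rw [abs_le]
    constructor <;> linarith [a1.1, a1.2, a2.1, a2.2]
  have hint : ∀ y w : V, G.Adj y w →
      ∫ ω, (psiC q (N₁ r y w ω) - psiC q (N₂ r y w ω)) ∂labelMeasure V = z := by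
    intro y w hyw
    have i1 : Integrable (fun ω => psiC q (N₁ r y w ω)) (labelMeasure V) :=
      integrable_of_bdd (mpsi.comp (hS₁.measN r y w)) (C := 2) fun ω => by
        have a1 := psiC_nonneg_le hq (hS₁.bdN r y w ω)
        rw [abs_of_nonneg a1.1]; exact a1.2
    have i2 : Integrable (fun ω => psiC q (N₂ r y w ω)) (labelMeasure V) :=
      integrable_of_bdd (mpsi.comp (hS₂.measN r y w)) (C := 2) fun ω => by
        have a1 := psiC_nonneg_le hq (hS₂.bdN r y w ω)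
        rw [abs_of_nonneg a1.1]; exact a1.2
    rw [integral_sub i1 i2, sol_psi hT hreg hq h₁ hS₁ hr hyw, sol_psi hT hreg hq h₂ hS₂ hr hyw]
  have hvar' : ∀ y w : V, G.Adj y w →
      ∫ ω, (psiC q (N₁ r y w ω) - psiC q (N₂ r y w ω) - z) ^ 2 ∂labelMeasure V ≤ s := fun y w hyw =>
    (var_le (labelMeasure V) (mZ y w) (bZ y w) (hint y w hyw)).trans (hvar y w hyw)
  have hq2 : (2 : ℝ) ≤ q := by exact_mod_cast hq
  refine sum_sq_le (labelMeasure V)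
    (fun j ω => psiC q (N₁ r (x (j + 1)) (x j) ω) - psiC q (N₂ r (x (j + 1)) (x j) ω) - z)
    (fun j => (mZ _ _).sub measurable_const) (B := 4) ?_ hs0 (by linarith) k
    (fun j hj => hvar' _ _ (adj_of_isGeo hx hj)) ?_
  · intro j ω
    have a1 := abs_le.1 (bZ (x (j + 1)) (x j) ω)
    have a2 := abs_le.1 hz2
    rw [abs_le]
    constructor <;> linarith [a1.1, a1.2, a2.1, a2.2]
  · intro j j' hjj' hj'k
    set l := j' - j + 1 with hl
    set y : ℕ → V := fun i => x (j + i) with hy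
    have hgeo : IsGeo G y l := by
      intro a b ha hb
      have := hx (j + a) (j + b) (by omega) (by omega)
      simp only [hy]
      rw [this]
      simp only [Nat.dist]
      omega
    have h := tempered_sol hT hreg hq h₁ h₂ hS₁ hS₂ hr (x := y) (l := l) (by omega) hgeo
    have e0 : y 0 = x j := by simp [hy]
    have e1 : y 1 = x (j + 1) := rfl
    have e2 : y l = x (j' + 1) := by
      simp only [hy, hl]
      congr 1
      omega
    have e3 : y (l - 1) = x j' := by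
      simp only [hy, hl]
      congr 1
      omega
    have e4 : l - 1 = j' - j := by omega
    simp only [e0, e1, e2, e3] at h
    rw [hint _ _ (adj_of_isGeo hx (by omega : j < k))] at h
    refine h.trans ?_
    have a1 := hvar' _ _ (adj_of_isGeo hx (by omega : j < k))
    have a2 : (Real.sqrt q)⁻¹ ≤ 3 / 4 := thetaC_le hq
    have a3 : 0 ≤ (Real.sqrt q)⁻¹ := by positivity
    have a4 : (l : ℝ) = ((j' - j : ℕ) : ℝ) + 1 := by
      rw [hl]
      push_cast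
      ring
    rw [e4, a4]
    have a5 : (Real.sqrt q)⁻¹ ^ (j' - j) ≤ (3 / 4 : ℝ) ^ (j' - j) := pow_le_pow_left₀ a3 a2 _
    have a6 : 0 ≤ ∫ ω, (psiC q (N₁ r (x (j + 1)) (x j) ω) - psiC q (N₂ r (x (j + 1)) (x j) ω) - z) ^ 2
        ∂labelMeasure V := integral_nonneg fun ω => sq_nonneg _
    have a7 : (0 : ℝ) ≤ (q : ℝ) + 2 := by positivity
    have a8 : (0 : ℝ) ≤ ((j' - j : ℕ) : ℝ) + 1 := by positivity
    gcongr

end

/-- The elementary inequality for the decay along a path. -/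
theorem chain_real {c₂ y : ℝ} (hc₂ : 0 < c₂) (hc₂1 : c₂ ≤ 1) (hy0 : 0 ≤ y) (hy1 : y ≤ 1) (k : ℕ) :
    (1 - c₂ * (1 - Real.exp (-y))) ^ k ≤ Real.exp (-(c₂ * y / 2 * k)) := by
  have h1 : Real.exp (-y) ≤ 1 - y / 2 := by
    have h2 : 1 + y ≤ Real.exp y := by linarith [Real.add_one_le_exp y]
    have h3 : Real.exp (-y) * Real.exp y = 1 := by
      rw [← Real.exp_add]; simp
    have h4 := Real.exp_pos (-y)
    have h5 : Real.exp (-y) * (1 + y) ≤ 1 := by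
      calc _ ≤ Real.exp (-y) * Real.exp y := mul_le_mul_of_nonneg_left h2 h4.le
        _ = 1 := h3
    nlinarith
  have h6 : Real.exp (-y) ≤ 1 := by
    rw [Real.exp_le_one_iff]; linarith
  have h7 : 0 ≤ 1 - c₂ * (1 - Real.exp (-y)) := by nlinarith [Real.exp_pos (-y)]
  have h8 : 1 - c₂ * (1 - Real.exp (-y)) ≤ Real.exp (-(c₂ * y / 2)) := by
    have h9 := Real.add_one_le_exp (-(c₂ * y / 2))
    nlinarith
  calc (1 - c₂ * (1 - Real.exp (-y))) ^ k ≤ Real.exp (-(c₂ * y / 2)) ^ k :=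
        pow_le_pow_left₀ h7 h8 k
    _ = _ := by
        rw [← Real.exp_nat_mul]
        congr 1
        ring

section
variable {q : ℕ} (hT : G.IsTree) (hreg : G.IsRegularOfDegree (q + 1)) (hq : 2 ≤ q)
  {θ₁ θ₂ r : ℝ} {M₁ M₂ : ℝ → V → (V → unitInterval) → ℝ}
  {N₁ N₂ : ℝ → V → V → (V → unitInterval) → ℝ}

include hT hreg hq in
set_option maxHeartbeats 1000000 in
/-- The bound along one geodesic, with the hypotheses on the decay, the bad events and the variance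
still abstract. -/
theorem sol_path (h₁ : CritPar q θ₁) (h₂ : CritPar q θ₂)
    (hS₁ : IsSol G θ₁ M₁ N₁) (hS₂ : IsSol G θ₂ M₂ N₂) (hr : ∃ n, Dy n r) (hr0 : 0 ≤ r)
    {x : ℕ → V} {k : ℕ} (hk : 1 ≤ k) (hx : IsGeo G x k) (p : ℕ) (hp : 2 ≤ p) {u : ℝ}
    (hd₁ : ∀ e : ℕ, 1 ≤ e → e ≤ p →
      ∫ ω, ((∏ j ∈ Finset.range k, rhoF θ₁ (N₁ r (x (j + 1)) (x j) ω)) ^ 2) ^ e ∂labelMeasure V
        ≤ Real.exp (-((e : ℝ) * u)))
    (hd₂ : ∀ e : ℕ, 1 ≤ e → e ≤ p →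
      ∫ ω, ((∏ j ∈ Finset.range k, rhoF θ₂ (N₂ r (x (j + 1)) (x j) ω)) ^ 2) ^ e ∂labelMeasure V
        ≤ Real.exp (-((e : ℝ) * u)))
    {b : ℝ}
    (hb₁ : ∀ y w, G.Adj y w → (labelMeasure V).real {ω | 1 / 2 < |N₁ r y w ω|} ≤ b)
    (hb₂ : ∀ y w, G.Adj y w → (labelMeasure V).real {ω | 1 / 2 < |N₂ r y w ω|} ≤ b)
    {s A : ℝ} (hs0 : 0 ≤ s)
    (hvar : ∀ y w, G.Adj y w →
      ∫ ω, (psiC q (N₁ r y w ω) - psiC q (N₂ r y w ω)) ^ 2 ∂labelMeasure V ≤ s)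
    (hA : ∫ ω, (M₁ r (x 0) ω - M₂ r (x 0) ω) ^ 2 ∂labelMeasure V ≤ A) :
    (q : ℝ) ^ k * ∫ ω, ((1 - M₁ r (x 0) ω ^ 2) * ∏ j ∈ Finset.range k, Gf θ₁ (N₁ r (x (j + 1)) (x j) ω)
        - (1 - M₂ r (x 0) ω ^ 2) * ∏ j ∈ Finset.range k, Gf θ₂ (N₂ r (x (j + 1)) (x j) ω)) ^ 2
          ∂labelMeasure V
     ≤ 4 * Real.exp (-u) * (((8 + 4 * (k : ℝ)) ^ 2) ^ (1 / (p : ℝ))
          * (32 * A + 62 * ((q : ℝ) + 2) * s * k) ^ (1 - 1 / (p : ℝ))
        + (k : ℝ) ^ 2 * (|psiBar θ₁ r q - psiBar θ₂ r q|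
            + (2 / thetaC q + 1) * (|θ₁ - thetaC q| + |θ₂ - thetaC q|)) ^ 2
        + ((2 * (k : ℝ) + 2) * b) ^ (1 / 2 : ℝ)) := by
  set z := psiBar θ₁ r q - psiBar θ₂ r q with hz
  have hψ₁ := psiBar_nonneg_le (t := r) hq h₁.good hr0
  have hψ₂ := psiBar_nonneg_le (t := r) hq h₂.good hr0
  have hz2 : |z| ≤ 2 := by
    rw [abs_le, hz]
    constructor <;> linarith [hψ₁.1, hψ₁.2, hψ₂.1, hψ₂.2]
  set Bad : Set (V → unitInterval) :=
    (⋃ j ∈ Finset.range k, {ω | 1 / 2 < |N₁ r (x (j + 1)) (x j) ω|})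
      ∪ (⋃ j ∈ Finset.range k, {ω | 1 / 2 < |N₂ r (x (j + 1)) (x j) ω|})
      ∪ {ω | 1 / 2 < |N₁ r (x 0) (x 1) ω|} ∪ {ω | 1 / 2 < |N₂ r (x 0) (x 1) ω|} with hBad
  have mset : ∀ {f : (V → unitInterval) → ℝ}, Measurable f → MeasurableSet {ω | 1 / 2 < |f ω|} :=
    fun hf => measurableSet_lt measurable_const hf.abs
  have mBad : MeasurableSet Bad :=
    (((Finset.measurableSet_biUnion _ fun j _ => mset (hS₁.measN _ _ _)).union
      (Finset.measurableSet_biUnion _ fun j _ => mset (hS₂.measN _ _ _))).union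
      (mset (hS₁.measN _ _ _))).union (mset (hS₂.measN _ _ _))
  have h01 : G.Adj (x 0) (x 1) := (adj_of_isGeo hx (j := 0) hk).symm
  have hgood : ∀ᵐ ω ∂labelMeasure V, ω ∉ Bad → |M₁ r (x 0) ω| ≤ 3 / 4 ∧ |M₂ r (x 0) ω| ≤ 3 / 4 ∧
      (∀ j < k, |N₁ r (x (j + 1)) (x j) ω| ≤ 1 / 2) ∧ (∀ j < k, |N₂ r (x (j + 1)) (x j) ω| ≤ 1 / 2) := by
    filter_upwards [hS₁.alg r (x 0) (x 1) hr h01, hS₂.alg r (x 0) (x 1) hr h01] with ω e1 e2 hω
    simp only [hBad, Set.mem_union, Set.mem_iUnion, Set.mem_ofPred_eq, not_or, not_exists, not_lt,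
      Finset.mem_range] at hω
    obtain ⟨⟨⟨a1, a2⟩, a3⟩, a4⟩ := hω
    have b1 : ∀ j < k, |N₁ r (x (j + 1)) (x j) ω| ≤ 1 / 2 := a1
    have b2 : ∀ j < k, |N₂ r (x (j + 1)) (x j) ω| ≤ 1 / 2 := a2
    have c1 : ∀ {θ ν : ℝ}, GoodTheta θ → |ν| ≤ 1 / 2 → |θ * ν| ≤ 3 / 8 := by
      intro θ ν hθ hν
      rw [abs_mul, abs_of_nonneg hθ.nonneg]
      have := hθ.le_three_quarters
      nlinarith [abs_nonneg ν, hθ.nonneg]
    refine ⟨?_, ?_, b1, b2⟩
    · rw [e1]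
      exact abs_mrg_le_three_quarters a3 (c1 h₁.good (b1 0 hk))
    · rw [e2]
      exact abs_mrg_le_three_quarters a4 (c1 h₂.good (b2 0 hk))
  have main := path_abstract (labelMeasure V) hq h₁ h₂ k
    (m₁ := M₁ r (x 0)) (m₂ := M₂ r (x 0))
    (n₁ := fun j => N₁ r (x (j + 1)) (x j)) (n₂ := fun j => N₂ r (x (j + 1)) (x j))
    (hS₁.measM _ _) (hS₂.measM _ _) (fun j => hS₁.measN _ _ _) (fun j => hS₂.measN _ _ _)
    (hS₁.bdM _ _) (hS₂.bdM _ _) (fun j => hS₁.bdN _ _ _) (fun j => hS₂.bdN _ _ _) mBad hgood hz2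
    p hp hd₁ hd₂
  refine main.trans ?_
  have hexp : 0 ≤ 4 * Real.exp (-u) := by positivity
  refine mul_le_mul_of_nonneg_left ?_ hexp
  -- the measure of `Bad`
  have hb0 : 0 ≤ b := by
    have := hb₁ _ _ h01
    exact measureReal_nonneg.trans this
  have hBadM : (labelMeasure V).real Bad ≤ (2 * (k : ℝ) + 2) * b := by
    have s1 : (labelMeasure V).real (⋃ j ∈ Finset.range k, {ω | 1 / 2 < |N₁ r (x (j + 1)) (x j) ω|})
        ≤ k * b := by
      refine (measureReal_biUnion_finset_le _ _).trans ?_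
      refine (Finset.sum_le_sum fun j hj => hb₁ _ _ (adj_of_isGeo hx (Finset.mem_range.1 hj))).trans ?_
      simp
    have s2 : (labelMeasure V).real (⋃ j ∈ Finset.range k, {ω | 1 / 2 < |N₂ r (x (j + 1)) (x j) ω|})
        ≤ k * b := by
      refine (measureReal_biUnion_finset_le _ _).trans ?_
      refine (Finset.sum_le_sum fun j hj => hb₂ _ _ (adj_of_isGeo hx (Finset.mem_range.1 hj))).trans ?_
      simp
    have s3 := hb₁ _ _ h01
    have s4 := hb₂ _ _ h01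
    have u1 := measureReal_union_le (μ := labelMeasure V)
      ((⋃ j ∈ Finset.range k, {ω | 1 / 2 < |N₁ r (x (j + 1)) (x j) ω|})
      ∪ (⋃ j ∈ Finset.range k, {ω | 1 / 2 < |N₂ r (x (j + 1)) (x j) ω|})
      ∪ {ω | 1 / 2 < |N₁ r (x 0) (x 1) ω|}) {ω | 1 / 2 < |N₂ r (x 0) (x 1) ω|}
    have u2 := measureReal_union_le (μ := labelMeasure V)
      ((⋃ j ∈ Finset.range k, {ω | 1 / 2 < |N₁ r (x (j + 1)) (x j) ω|})
      ∪ (⋃ j ∈ Finset.range k, {ω | 1 / 2 < |N₂ r (x (j + 1)) (x j) ω|}))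
      {ω | 1 / 2 < |N₁ r (x 0) (x 1) ω|}
    have u3 := measureReal_union_le (μ := labelMeasure V)
      (⋃ j ∈ Finset.range k, {ω | 1 / 2 < |N₁ r (x (j + 1)) (x j) ω|})
      (⋃ j ∈ Finset.range k, {ω | 1 / 2 < |N₂ r (x (j + 1)) (x j) ω|})
    rw [hBad]
    linarith
  have hBad2 : ((labelMeasure V).real Bad) ^ (1 / 2 : ℝ) ≤ ((2 * (k : ℝ) + 2) * b) ^ (1 / 2 : ℝ) :=
    Real.rpow_le_rpow measureReal_nonneg hBadM (by norm_num)
  -- the second moment of `S`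
  set Y : (V → unitInterval) → ℝ := fun ω => ∑ j ∈ Finset.range k,
    (psiC q (N₁ r (x (j + 1)) (x j) ω) - psiC q (N₂ r (x (j + 1)) (x j) ω) - z) with hY
  have hY2 : ∫ ω, Y ω ^ 2 ∂labelMeasure V ≤ 31 * ((q : ℝ) + 2) * s * k :=
    sum_Z_sq_le hT hreg hq h₁ h₂ hS₁ hS₂ hr hr0 hx hs0 hvar
  have mpsi : Measurable (psiC q) := (psiC_continuous hq).measurable
  have mY : Measurable Y := Finset.measurable_sum _ fun j _ =>
    ((mpsi.comp (hS₁.measN _ _ _)).sub (mpsi.comp (hS₂.measN _ _ _))).sub measurable_const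
  have bY : ∀ ω, |Y ω| ≤ 4 * (k : ℝ) := by
    intro ω
    refine (Finset.abs_sum_le_sum_abs _ _).trans ?_
    have h3 : ∀ j ∈ Finset.range k,
        |psiC q (N₁ r (x (j + 1)) (x j) ω) - psiC q (N₂ r (x (j + 1)) (x j) ω) - z| ≤ 4 := by
      intro j _
      have a1 := psiC_nonneg_le hq (hS₁.bdN r (x (j + 1)) (x j) ω)
      have a2 := psiC_nonneg_le hq (hS₂.bdN r (x (j + 1)) (x j) ω)
      have a3 := abs_le.1 hz2
      rw [abs_le]
      constructor <;> linarith [a1.1, a1.2, a2.1, a2.2, a3.1, a3.2]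
    refine (Finset.sum_le_sum h3).trans ?_
    simp
    linarith
  have iY : Integrable (fun ω => Y ω ^ 2) (labelMeasure V) := by
    refine integrable_of_bdd (mY.pow_const 2) (C := (4 * (k : ℝ)) ^ 2) fun ω => ?_
    rw [abs_of_nonneg (sq_nonneg _), ← sq_abs]
    exact pow_le_pow_left₀ (abs_nonneg _) (bY ω) 2
  have mD : Measurable fun ω => M₁ r (x 0) ω - M₂ r (x 0) ω :=
    (hS₁.measM _ _).sub (hS₂.measM _ _)
  have bD : ∀ ω, |M₁ r (x 0) ω - M₂ r (x 0) ω| ≤ 2 := by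
    intro ω
    have := abs_sub (M₁ r (x 0) ω) (M₂ r (x 0) ω)
    linarith [hS₁.bdM r (x 0) ω, hS₂.bdM r (x 0) ω]
  have iD : Integrable (fun ω => (M₁ r (x 0) ω - M₂ r (x 0) ω) ^ 2) (labelMeasure V) := by
    refine integrable_of_bdd (mD.pow_const 2) (C := 2 ^ 2) fun ω => ?_
    rw [abs_of_nonneg (sq_nonneg _), ← sq_abs]
    exact pow_le_pow_left₀ (abs_nonneg _) (bD ω) 2
  have iS : Integrable (fun ω => (4 * |M₁ r (x 0) ω - M₂ r (x 0) ω| + |Y ω|) ^ 2) (labelMeasure V) := by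
    refine integrable_of_bdd (((mD.abs.const_mul 4).add mY.abs).pow_const 2)
      (C := (8 + 4 * (k : ℝ)) ^ 2) fun ω => ?_
    rw [abs_of_nonneg (sq_nonneg _)]
    have h3 : 4 * |M₁ r (x 0) ω - M₂ r (x 0) ω| + |Y ω| ≤ 8 + 4 * (k : ℝ) := by
      linarith [bD ω, bY ω]
    exact pow_le_pow_left₀ (by positivity) h3 2
  have hSle : ∫ ω, (4 * |M₁ r (x 0) ω - M₂ r (x 0) ω| + |Y ω|) ^ 2 ∂labelMeasure V
      ≤ 32 * A + 62 * ((q : ℝ) + 2) * s * k := by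
    have h3 : ∀ ω, (4 * |M₁ r (x 0) ω - M₂ r (x 0) ω| + |Y ω|) ^ 2 ≤
        32 * (M₁ r (x 0) ω - M₂ r (x 0) ω) ^ 2 + 2 * Y ω ^ 2 := by
      intro ω
      rw [← sq_abs (M₁ r (x 0) ω - M₂ r (x 0) ω), ← sq_abs (Y ω)]
      nlinarith [sq_nonneg (4 * |M₁ r (x 0) ω - M₂ r (x 0) ω| - |Y ω|)]
    have h4 := integral_mono iS ((iD.const_mul 32).add (iY.const_mul 2)) h3
    have e : ∫ ω, (fun ω => 32 * (M₁ r (x 0) ω - M₂ r (x 0) ω) ^ 2)
          ω + (fun ω => 2 * Y ω ^ 2) ω ∂labelMeasure V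
        = 32 * ∫ ω, (M₁ r (x 0) ω - M₂ r (x 0) ω) ^ 2 ∂labelMeasure V
          + 2 * ∫ ω, Y ω ^ 2 ∂labelMeasure V := by
      rw [integral_add (iD.const_mul 32) (iY.const_mul 2), integral_const_mul, integral_const_mul]
    have h5 : ∫ ω, (4 * |M₁ r (x 0) ω - M₂ r (x 0) ω| + |Y ω|) ^ 2 ∂labelMeasure V
        ≤ 32 * ∫ ω, (M₁ r (x 0) ω - M₂ r (x 0) ω) ^ 2 ∂labelMeasure V
          + 2 * ∫ ω, Y ω ^ 2 ∂labelMeasure V := by
      rw [← e]
      exact h4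
    linarith
  have hp2 : (2 : ℝ) ≤ p := by exact_mod_cast hp
  have hβ : 0 ≤ 1 - 1 / (p : ℝ) := by
    have : 1 / (p : ℝ) ≤ 1 / 2 := by
      apply one_div_le_one_div_of_le <;> linarith
    linarith
  have hS0 : 0 ≤ ∫ ω, (4 * |M₁ r (x 0) ω - M₂ r (x 0) ω| + |Y ω|) ^ 2 ∂labelMeasure V :=
    integral_nonneg fun ω => sq_nonneg _
  have hSroot := Real.rpow_le_rpow hS0 hSle hβ
  have hC : 0 ≤ ((8 + 4 * (k : ℝ)) ^ 2) ^ (1 / (p : ℝ)) := by positivity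
  have := mul_le_mul_of_nonneg_left hSroot hC
  linarith

end

end TempMainAux

end Crest.Agent.IsingFactor
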