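import Crest.Agent.IsingFactor.Coherent
import Crest.Agent.IsingFactor.PsiReal

/-!
# IsingFactor.TempPsi (WP IF-TempPsi): the function `ψ`, `psiBar`.

# IsingFactor.Tempered : the small-time bound `H ≲ r^{-1/2-1/p} a^{1-2/p} + forcing` (WP: Temp1, Temp2, Temp3).

(T1) TEMPERED LEMMA (`tempered_of_finite_range`).  Let `Z` be a bounded, `Aut`-invariant, mean zero field on directed
edges, with `E Z_e Z_{e'} = 0` for far apart edges (finite range).  For a geodesic `x₀, …, x_l` put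
`A(l) = |E Z(x₀→x₁) Z(x_l→x_{l-1})|` (edges pointing to each other), `B(l) = |E Z(x₁→x₀) Z(x_l→x_{l-1})|` (same direction),
`σ² = E Z²`.  Cone: fix `(x₀, x₁)`; `S_l = ∑_{w at depth l-1 in T(x₁→x₀)} Z(w → parent w)`: `q^{l-1}` terms, and two distinct
terms with common ancestor at height `j` point to each other at path length `2j`, so (`q^j` points `w'` at height `j`)
`E S_l² ≤ q^{l-1} (σ² + ∑_{1≤j<l} q^j A(2j))`.  Cauchy-Schwarz: `q^{l-1} A(l) = |E Z(x₀→x₁) S_l| ≤ σ √(E S_l²)`, same for `B(l)`.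
With `s = sup_l A(l) q^{(l-1)/2} / l` (finite: finite range): `∑_{j<l} q^j A(2j) ≤ √q s l²`, so `s² ≤ σ⁴ + √q σ² s`, `s ≤ (√q+1) σ²`.
Hence `A(l), B(l) ≤ (q+2) σ² l q^{-(l-1)/2}`.

(T2) It applies to `Z = ψ(N¹) - ψ(N²) - z` by `L²` approximation: Euler on `tball y R`, `msgT` (finite range by independence of labels on
disjoint balls; exact equivariance from `msg_aut`), `wcN`.  So `E (∑_{j<k} (Z_j - z))² ≤ C_q k σ²`, along a geodesic, messages towards `x 0`.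
`ψ = psiC q`: even, convex, `= ℓ_c(ν) = log((1 - ν²/q)/(1 - ν²))` on `|ν| ≤ 1/2`, affine in `|ν|` beyond, `|ψ(a) - ψ(b)| ≤ 3(|a|+|b|)|a-b|`.
Hölder: `σ² ≤ E Z² ≤ 9 E[(|n¹|+|n²|)² Δn²] ≤ C_p x̄ (a + δ²)^{1-1/p}`, `x̄ ≤ C √r` (`sol_moment`, `msg_lip`, `|Δn| ≤ 2`).

(T3) `tempered_bound`.  Fix `k ≥ 1`, a geodesic from `v` to `u`.  `Good` = all `|n^i_j| ≤ 1/2` and `|N^i_{v→x₁}| ≤ 1/2`.  On Good, with
`φ(m)` a Lipschitz truncation of `log(1-m²)`, `log C¹ - log C² = S̃ + O(k δ)`, `S̃ = Δφ_v - ∑_j (Z_j - z) - k z`, `δ = |θ₁-θ_c| + |θ₂-θ_c|`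
(since `log ϱ_θ = -ℓ_θ`, `|ℓ_θ - ℓ_c| ≤ 4 δ ν²`, `|log(θ₁/θ₂)| ≤ C δ`), so `(C¹-C²)² ≤ (C₁²+C₂²)(|S̃| + C k δ)²`.  With `q^k C_i² ≤ ∏ϱ_i²`, `|S̃| ≤ c(k+2)`:
`E[q^k C² S̃²] ≤ (E ∏ϱ^{2p})^{1/p} (‖S̃‖_∞^{2p'-2} E S̃²)^{1/p'} ≤ e^{-c₇ √r k} (c(k+2))^{2/p} (E S̃²)^{1-1/p}` (`sol_chain` with `2p c' x̄ ≤ 1`, `x̄ ≥ √τ/8`),
`E S̃² ≤ 3 E Δφ_v² + 3 C_q k σ² + 3 k² z²`.  Bad event: `E[q^k C²; Bad] ≤ (E∏ϱ⁴)^{1/2} P(Bad)^{1/2}`, `sol_bad`.  Sum over `k` with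
`∑_k (k+2)^α e^{-Lk} ≤ C_α L^{-α-1}`.
Statements may be ADDED; do not change the ones below without posting on chat (topic S0241), other packages use them.
-/

set_option autoImplicit false

open MeasureTheory ProbabilityTheory
open Crest.Agent.SRFactor Crest.ProbabilityR.Labels

namespace Crest.Agent.IsingFactor

variable {V : Type*} [DecidableEq V] {G : SimpleGraph V} [G.LocallyFinite]

/-- The critical parameter. -/
noncomputable def thetaC (q : ℕ) : ℝ := (Real.sqrt q)⁻¹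

theorem psiC_sub_le {q : ℕ} (hq : 2 ≤ q) {a b : ℝ} (_ha : |a| ≤ 1) (_hb : |b| ≤ 1) :
    |psiC q a - psiC q b| ≤ 3 * (|a| + |b|) * |a - b| :=
  psiC_sub_le' hq

theorem psiC_nonneg_le {q : ℕ} (hq : 2 ≤ q) {a : ℝ} (ha : |a| ≤ 1) : 0 ≤ psiC q a ∧ psiC q a ≤ 2 := by
  obtain ⟨h1, h2⟩ := psiC_nonneg_le' hq a
  exact ⟨h1, by linarith⟩

/-- `ψ` is integrable for symmetric laws, with values in `[0,2]`. -/
theorem integrable_psiC {q : ℕ} (hq : 2 ≤ q) {μ : Measure ℝ} (hμ : SymL μ) : Integrable (psiC q) μ := by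
  haveI := hμ.prob
  refine Integrable.mono' (integrable_const (2 : ℝ)) (psiC_continuous hq).aestronglyMeasurable ?_
  filter_upwards [hμ.lt_one] with a ha
  obtain ⟨h1, h2⟩ := psiC_nonneg_le hq ha.le
  rw [Real.norm_eq_abs, abs_of_nonneg h1]
  exact h2

theorem integral_psiC_nonneg_le {q : ℕ} (hq : 2 ≤ q) {μ : Measure ℝ} (hμ : SymL μ) :
    0 ≤ ∫ a, psiC q a ∂μ ∧ ∫ a, psiC q a ∂μ ≤ 2 := by
  haveI := hμ.prob
  constructor
  · apply integral_nonneg_of_ae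
    filter_upwards [hμ.lt_one] with a ha
    exact (psiC_nonneg_le hq ha.le).1
  · have h := integral_mono_ae (integrable_psiC hq hμ) (integrable_const (2 : ℝ)) (by
      filter_upwards [hμ.lt_one] with a ha
      exact (psiC_nonneg_le hq ha.le).2)
    simpa using h

theorem integral_psiC_rhoL_le {q : ℕ} (hq : 2 ≤ q) {θ θ' t t' : ℝ} (hθ : GoodTheta θ)
    (hθ' : GoodTheta θ') (hθθ' : θ ≤ θ') (ht : 0 ≤ t) (htt' : t ≤ t') {n n' : ℕ} (hn : n ≤ n') :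
    ∫ a, psiC q a ∂rhoL θ t q n ≤ ∫ a, psiC q a ∂rhoL θ' t' q n' :=
  cxLE_rhoL hθ hθ' hθθ' ht htt' q hn (psiC q) (psiC_continuous hq) (psiC_even q)
    ((psiC_convex hq).subset (Set.subset_univ _) (convex_Icc _ _))

theorem bddAbove_psiBar {q : ℕ} (hq : 2 ≤ q) {θ t : ℝ} (hθ : GoodTheta θ) (ht : 0 ≤ t) :
    BddAbove (Set.range fun n => ∫ ν, psiC q ν ∂rhoL θ t q n) := by
  refine ⟨2, ?_⟩
  rintro _ ⟨n, rfl⟩
  exact (integral_psiC_nonneg_le hq (symL_rhoL hθ ht q n)).2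

/-- `psiBar`: the limit of the `ψ` moments of the message law.  It is the moment of a solution
(`sol_integral_tendsto`); monotone in `θ` and `t`. -/
noncomputable def psiBar (θ t : ℝ) (q : ℕ) : ℝ := ⨆ n, ∫ ν, psiC q ν ∂rhoL θ t q n

/-- `psiBar` is the `ψ` moment of a solution. -/
theorem sol_psi {q : ℕ} (hT : G.IsTree) (hreg : G.IsRegularOfDegree (q + 1)) (hq : 2 ≤ q)
    {θ r : ℝ} {M : ℝ → V → (V → unitInterval) → ℝ} {N : ℝ → V → V → (V → unitInterval) → ℝ}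
    (hθ : CritPar q θ) (hS : IsSol G θ M N) (hr : ∃ n, Dy n r) {y x : V} (hyx : G.Adj y x) :
    ∫ ω, psiC q (N r y x ω) ∂labelMeasure V = psiBar θ r q := by
  have hr0 : 0 ≤ r := by
    obtain ⟨n, k, rfl⟩ := hr
    unfold hh
    positivity
  have h1 := sol_integral_tendsto hT hreg hq hθ hS hr hyx (psiC_continuous hq)
  have hmono : Monotone fun n => ∫ ν, psiC q ν ∂rhoL θ r q n := fun n n' hn =>
    integral_psiC_rhoL_le hq hθ.good hθ.good le_rfl hr0 le_rfl hn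
  have h2 := tendsto_atTop_ciSup hmono (bddAbove_psiBar hq hθ.good hr0)
  exact tendsto_nhds_unique h1 h2

/-- `psiBar` is monotone, bounded. -/
theorem psiBar_mono {q : ℕ} (hq : 2 ≤ q) {θ θ' t t' : ℝ} (hθ : GoodTheta θ) (hθ' : GoodTheta θ')
    (hθθ' : θ ≤ θ') (ht : 0 ≤ t) (htt' : t ≤ t') : psiBar θ t q ≤ psiBar θ' t' q :=
  ciSup_mono (bddAbove_psiBar hq hθ' (ht.trans htt')) fun _ =>
    integral_psiC_rhoL_le hq hθ hθ' hθθ' ht htt' le_rfl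

theorem psiBar_nonneg_le {q : ℕ} (hq : 2 ≤ q) {θ t : ℝ} (hθ : GoodTheta θ) (ht : 0 ≤ t) :
    0 ≤ psiBar θ t q ∧ psiBar θ t q ≤ 2 := by
  refine ⟨?_, ciSup_le fun n => (integral_psiC_nonneg_le hq (symL_rhoL hθ ht q n)).2⟩
  exact (integral_psiC_nonneg_le hq (symL_rhoL hθ ht q 0)).1.trans
    (le_ciSup (bddAbove_psiBar hq hθ ht) 0)

end Crest.Agent.IsingFactor
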