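import Crest.Agent.IsingFactor.TempCore

/-!
# IsingFactor.TempSol (WP IF-TempSol): the tempered lemma for pairs of solutions (T2), see `TempPsi`.
Statements may be ADDED; do not change the ones below without posting on chat (topic S0241), other packages use them.

Proof: apply (T1) `tempered_of_finite_range` to the centred field
`approxF a b ω - z`, where `approxF a b = ψ(msgT θ₁ (tball a R) …) - ψ(msgT θ₂ (tball a R) …)`,
(exact equivariance by `msg_aut`, `tball_aut`, `xiL_comp`; finite range by independence of the labels on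
disjoint balls), and pass to the limit with `wcN`.
-/

set_option autoImplicit false

open MeasureTheory ProbabilityTheory
open Crest.Agent.SRFactor Crest.ProbabilityR.Labels

namespace Crest.Agent.IsingFactor

namespace TempSolAux

/-! ### The `L²` limit -/

section abstractLimit

variable {Ω : Type*} [MeasurableSpace Ω] {P : Measure Ω} [IsProbabilityMeasure P]

lemma integrable_of_bdd {f : Ω → ℝ} (hf : Measurable f) {B : ℝ} (hb : ∀ ω, |f ω| ≤ B) :
    Integrable f P :=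
  Integrable.of_bound hf.aestronglyMeasurable B (Filter.Eventually.of_forall hb)

lemma abs_integral_le_of_bdd {f : Ω → ℝ} {B : ℝ} (hb : ∀ ω, |f ω| ≤ B) :
    |∫ ω, f ω ∂P| ≤ B := by
  have h := norm_integral_le_of_norm_le_const (μ := P) (f := f) (C := B)
    (Filter.Eventually.of_forall hb)
  simpa using h

/-- `∫ |X| ≤ δ` if `∫ X² ≤ δ²`. -/
lemma integral_abs_le_of_sq {X : Ω → ℝ} (hm : Measurable X) {B : ℝ} (hb : ∀ ω, |X ω| ≤ B)
    {δ : ℝ} (hδ : 0 < δ) (h : ∫ ω, X ω ^ 2 ∂P ≤ δ ^ 2) : ∫ ω, |X ω| ∂P ≤ δ := by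
  have hB : 0 ≤ B := by
    by_contra hB
    have hne : Nonempty Ω := by
      by_contra hne
      rw [not_nonempty_iff] at hne
      have : P = 0 := Measure.eq_zero_of_isEmpty P
      exact IsProbabilityMeasure.ne_zero P this
    obtain ⟨ω⟩ := hne
    exact hB ((abs_nonneg _).trans (hb ω))
  have hi1 : Integrable (fun ω => |X ω|) P :=
    integrable_of_bdd hm.abs (B := B) fun ω => by rw [abs_abs]; exact hb ω
  have hi2 : Integrable (fun ω => X ω ^ 2) P :=
    integrable_of_bdd (B := B ^ 2) (hm.pow_const 2) fun ω => by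
      rw [abs_pow]
      exact pow_le_pow_left₀ (abs_nonneg _) (hb ω) 2
  have hpt : ∀ ω, |X ω| ≤ (X ω ^ 2 / δ + δ) / 2 := by
    intro ω
    have h1 : 0 ≤ (|X ω| - δ) ^ 2 := sq_nonneg _
    have h2 : |X ω| ^ 2 = X ω ^ 2 := sq_abs _
    have h3 : (X ω ^ 2 / δ + δ) / 2 - |X ω| = (|X ω| - δ) ^ 2 / (2 * δ) := by
      field_simp
      rw [← h2]
      ring
    have h4 : 0 ≤ (|X ω| - δ) ^ 2 / (2 * δ) := by positivity
    linarith
  have hint : ∫ ω, (X ω ^ 2 / δ + δ) / 2 ∂P = ((∫ ω, X ω ^ 2 ∂P) / δ + δ) / 2 := by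
    rw [integral_div, integral_add (hi2.div_const δ) (integrable_const δ), integral_div]
    simp
  calc ∫ ω, |X ω| ∂P ≤ ∫ ω, (X ω ^ 2 / δ + δ) / 2 ∂P :=
        integral_mono hi1 (((hi2.div_const δ).add (integrable_const δ)).div_const 2) hpt
    _ = ((∫ ω, X ω ^ 2 ∂P) / δ + δ) / 2 := hint
    _ ≤ δ := by
        have : (∫ ω, X ω ^ 2 ∂P) / δ ≤ δ := by
          rw [div_le_iff₀ hδ]
          nlinarith
        linarith

/-- One step of the limit: the bilinear estimate is stable under `L²` perturbations. -/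
lemma limit_step {A A' Aε A'ε : Ω → ℝ} (hA : Measurable A) (hA' : Measurable A')
    (hAε : Measurable Aε) (hA'ε : Measurable A'ε) {B C δ : ℝ} (hC : 0 ≤ C) (hδ : 0 < δ)
    (hAb : ∀ ω, |A ω| ≤ B) (hA'b : ∀ ω, |A' ω| ≤ B)
    (hAεb : ∀ ω, |Aε ω| ≤ B) (hA'εb : ∀ ω, |A'ε ω| ≤ B)
    (h1 : ∫ ω, (Aε ω - A ω) ^ 2 ∂P ≤ δ ^ 2) (h2 : ∫ ω, (A'ε ω - A' ω) ^ 2 ∂P ≤ δ ^ 2)
    (hT : |∫ ω, (Aε ω - ∫ ω', Aε ω' ∂P) * (A'ε ω - ∫ ω', Aε ω' ∂P) ∂P|
      ≤ C * ∫ ω, (Aε ω - ∫ ω', Aε ω' ∂P) ^ 2 ∂P) :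
    |∫ ω, (A ω - ∫ ω', A ω' ∂P) * (A' ω - ∫ ω', A ω' ∂P) ∂P|
      ≤ C * ∫ ω, (A ω - ∫ ω', A ω' ∂P) ^ 2 ∂P + 8 * B * (1 + C) * δ := by
  have hne : Nonempty Ω := by
    by_contra hne
    rw [not_nonempty_iff] at hne
    exact IsProbabilityMeasure.ne_zero P (Measure.eq_zero_of_isEmpty P)
  obtain ⟨ω₀⟩ := hne
  have hB : 0 ≤ B := (abs_nonneg _).trans (hAb ω₀)
  set z := ∫ ω', A ω' ∂P with hz
  set zε := ∫ ω', Aε ω' ∂P with hzε
  have hzb : |z| ≤ B := abs_integral_le_of_bdd hAb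
  have hzεb : |zε| ≤ B := abs_integral_le_of_bdd hAεb
  have hIA : Integrable A P := integrable_of_bdd hA hAb
  have hIAε : Integrable Aε P := integrable_of_bdd hAε hAεb
  -- the difference of the functions in `L¹`
  have hD : ∫ ω, |Aε ω - A ω| ∂P ≤ δ :=
    integral_abs_le_of_sq (hAε.sub hA) (B := B + B)
      (fun ω => (abs_sub _ _).trans (add_le_add (hAεb ω) (hAb ω))) hδ h1
  have hD' : ∫ ω, |A'ε ω - A' ω| ∂P ≤ δ :=
    integral_abs_le_of_sq (hA'ε.sub hA') (B := B + B)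
      (fun ω => (abs_sub _ _).trans (add_le_add (hA'εb ω) (hA'b ω))) hδ h2
  have hIabs : Integrable (fun ω => |Aε ω - A ω|) P :=
    (hIAε.sub hIA).abs
  have hIabs' : Integrable (fun ω => |A'ε ω - A' ω|) P :=
    ((integrable_of_bdd hA'ε hA'εb).sub (integrable_of_bdd hA' hA'b)).abs
  have hzz : |zε - z| ≤ δ := by
    have : zε - z = ∫ ω, (Aε ω - A ω) ∂P := by
      rw [integral_sub hIAε hIA]
    rw [this]
    exact (abs_integral_le_integral_abs).trans hD
  -- the centred functions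
  set u : Ω → ℝ := fun ω => A ω - z with hu
  set v : Ω → ℝ := fun ω => A' ω - z with hv
  set U : Ω → ℝ := fun ω => Aε ω - zε with hU
  set W : Ω → ℝ := fun ω => A'ε ω - zε with hW
  have hum : Measurable u := hA.sub_const z
  have hvm : Measurable v := hA'.sub_const z
  have hUm : Measurable U := hAε.sub_const zε
  have hWm : Measurable W := hA'ε.sub_const zε
  have hub : ∀ ω, |u ω| ≤ 2 * B := fun ω =>
    (abs_sub _ _).trans (by linarith [hAb ω])
  have hvb : ∀ ω, |v ω| ≤ 2 * B := fun ω =>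
    (abs_sub _ _).trans (by linarith [hA'b ω])
  have hUb : ∀ ω, |U ω| ≤ 2 * B := fun ω =>
    (abs_sub _ _).trans (by linarith [hAεb ω])
  have hWb : ∀ ω, |W ω| ≤ 2 * B := fun ω =>
    (abs_sub _ _).trans (by linarith [hA'εb ω])
  have hUu : ∫ ω, |U ω - u ω| ∂P ≤ 2 * δ := by
    have hpt : ∀ ω, |U ω - u ω| ≤ |Aε ω - A ω| + δ := by
      intro ω
      have : U ω - u ω = (Aε ω - A ω) - (zε - z) := by simp only [hU, hu]; ring
      rw [this]
      exact (abs_sub _ _).trans (by linarith)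
    calc ∫ ω, |U ω - u ω| ∂P ≤ ∫ ω, (|Aε ω - A ω| + δ) ∂P :=
          integral_mono ((integrable_of_bdd hUm hUb |>.sub (integrable_of_bdd hum hub)).abs)
            (hIabs.add (integrable_const δ)) hpt
      _ = ∫ ω, |Aε ω - A ω| ∂P + δ := by
          rw [integral_add hIabs (integrable_const δ)]; simp
      _ ≤ 2 * δ := by linarith
  have hWv : ∫ ω, |W ω - v ω| ∂P ≤ 2 * δ := by
    have hpt : ∀ ω, |W ω - v ω| ≤ |A'ε ω - A' ω| + δ := by
      intro ω
      have : W ω - v ω = (A'ε ω - A' ω) - (zε - z) := by simp only [hW, hv]; ring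
      rw [this]
      exact (abs_sub _ _).trans (by linarith)
    calc ∫ ω, |W ω - v ω| ∂P ≤ ∫ ω, (|A'ε ω - A' ω| + δ) ∂P :=
          integral_mono ((integrable_of_bdd hWm hWb |>.sub (integrable_of_bdd hvm hvb)).abs)
            (hIabs'.add (integrable_const δ)) hpt
      _ = ∫ ω, |A'ε ω - A' ω| ∂P + δ := by
          rw [integral_add hIabs' (integrable_const δ)]; simp
      _ ≤ 2 * δ := by linarith
  have hIuv : Integrable (fun ω => u ω * v ω) P :=
    integrable_of_bdd (hum.mul hvm) (B := 2 * B * (2 * B)) fun ω => by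
      rw [abs_mul]
      exact mul_le_mul (hub ω) (hvb ω) (abs_nonneg _) (by linarith)
  have hIUW : Integrable (fun ω => U ω * W ω) P :=
    integrable_of_bdd (hUm.mul hWm) (B := 2 * B * (2 * B)) fun ω => by
      rw [abs_mul]
      exact mul_le_mul (hUb ω) (hWb ω) (abs_nonneg _) (by linarith)
  have hIu2 : Integrable (fun ω => u ω ^ 2) P :=
    integrable_of_bdd (hum.pow_const 2) (B := (2 * B) ^ 2) fun ω => by
      rw [abs_pow]
      exact pow_le_pow_left₀ (abs_nonneg _) (hub ω) 2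
  have hIU2 : Integrable (fun ω => U ω ^ 2) P :=
    integrable_of_bdd (hUm.pow_const 2) (B := (2 * B) ^ 2) fun ω => by
      rw [abs_pow]
      exact pow_le_pow_left₀ (abs_nonneg _) (hUb ω) 2
  have hIUuabs : Integrable (fun ω => |U ω - u ω|) P :=
    (integrable_of_bdd hUm hUb |>.sub (integrable_of_bdd hum hub)).abs
  have hIWvabs : Integrable (fun ω => |W ω - v ω|) P :=
    (integrable_of_bdd hWm hWb |>.sub (integrable_of_bdd hvm hvb)).abs
  -- the product
  have hprod : |∫ ω, u ω * v ω ∂P - ∫ ω, U ω * W ω ∂P| ≤ 8 * B * δ := by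
    rw [← integral_sub hIuv hIUW]
    refine (abs_integral_le_integral_abs).trans ?_
    have hpt : ∀ ω, |u ω * v ω - U ω * W ω| ≤ 2 * B * |U ω - u ω| + 2 * B * |W ω - v ω| := by
      intro ω
      have : u ω * v ω - U ω * W ω = -((U ω - u ω) * v ω) - U ω * (W ω - v ω) := by ring
      rw [this]
      refine (abs_sub _ _).trans ?_
      rw [abs_neg, abs_mul, abs_mul]
      have h1 : |U ω - u ω| * |v ω| ≤ |U ω - u ω| * (2 * B) :=
        mul_le_mul_of_nonneg_left (hvb ω) (abs_nonneg _)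
      have h2 : |U ω| * |W ω - v ω| ≤ 2 * B * |W ω - v ω| :=
        mul_le_mul_of_nonneg_right (hUb ω) (abs_nonneg _)
      linarith
    calc ∫ ω, |u ω * v ω - U ω * W ω| ∂P
        ≤ ∫ ω, (2 * B * |U ω - u ω| + 2 * B * |W ω - v ω|) ∂P :=
          integral_mono (hIuv.sub hIUW).abs
            ((hIUuabs.const_mul _).add (hIWvabs.const_mul _)) hpt
      _ = 2 * B * ∫ ω, |U ω - u ω| ∂P + 2 * B * ∫ ω, |W ω - v ω| ∂P := by
          rw [integral_add (hIUuabs.const_mul _) (hIWvabs.const_mul _), integral_const_mul,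
            integral_const_mul]
      _ ≤ 8 * B * δ := by nlinarith
  -- the square
  have hsq : |∫ ω, U ω ^ 2 ∂P - ∫ ω, u ω ^ 2 ∂P| ≤ 8 * B * δ := by
    rw [← integral_sub hIU2 hIu2]
    refine (abs_integral_le_integral_abs).trans ?_
    have hpt : ∀ ω, |U ω ^ 2 - u ω ^ 2| ≤ 4 * B * |U ω - u ω| := by
      intro ω
      have : U ω ^ 2 - u ω ^ 2 = (U ω + u ω) * (U ω - u ω) := by ring
      rw [this, abs_mul]
      refine mul_le_mul_of_nonneg_right ?_ (abs_nonneg _)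
      exact (abs_add_le _ _).trans (by linarith [hUb ω, hub ω])
    calc ∫ ω, |U ω ^ 2 - u ω ^ 2| ∂P ≤ ∫ ω, 4 * B * |U ω - u ω| ∂P :=
          integral_mono (hIU2.sub hIu2).abs (hIUuabs.const_mul _) hpt
      _ = 4 * B * ∫ ω, |U ω - u ω| ∂P := integral_const_mul _ _
      _ ≤ 8 * B * δ := by nlinarith
  have hT' : |∫ ω, U ω * W ω ∂P| ≤ C * ∫ ω, U ω ^ 2 ∂P := hT
  have e1 : |∫ ω, u ω * v ω ∂P| ≤ |∫ ω, U ω * W ω ∂P| + 8 * B * δ := by
    have := abs_sub_abs_le_abs_sub (∫ ω, u ω * v ω ∂P) (∫ ω, U ω * W ω ∂P)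
    linarith
  have e2 : ∫ ω, U ω ^ 2 ∂P ≤ ∫ ω, u ω ^ 2 ∂P + 8 * B * δ := by
    have := le_abs_self (∫ ω, U ω ^ 2 ∂P - ∫ ω, u ω ^ 2 ∂P)
    linarith
  have e3 : C * ∫ ω, U ω ^ 2 ∂P ≤ C * (∫ ω, u ω ^ 2 ∂P + 8 * B * δ) :=
    mul_le_mul_of_nonneg_left e2 hC
  change |∫ ω, u ω * v ω ∂P| ≤ C * ∫ ω, u ω ^ 2 ∂P + 8 * B * (1 + C) * δ
  nlinarith

end abstractLimit

/-! ### Equivariance, locality, measurability of the approximants -/

variable {V : Type*} [DecidableEq V] {G : SimpleGraph V}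

/-- Equivariance of the Euler scheme under automorphisms. -/
lemma euler_aut {θ : ℝ} (hθ : GoodTheta θ) (g : G ≃g G) (W : Finset V) (h : ℝ) (y : ℕ → V → ℝ)
    (k : ℕ) : ∀ e, euler (isingW G θ (W.image g)) (W.image g) h y k (g e) =
      euler (isingW G θ W) W h (fun j e => y j (g e)) k e := by
  induction k with
  | zero => intro e; rfl
  | succ k ih =>
    intro e
    by_cases he : e ∈ W
    · have he' : g e ∈ W.image g := Finset.mem_image_of_mem _ he
      rw [euler_succ_of_mem _ _ _ _ _ he', euler_succ_of_mem _ _ _ _ _ he,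
        post_isingW hθ _ _ he', post_isingW hθ _ _ he, magn_aut, ih e]
      have : (fun i => euler (isingW G θ (W.image g)) (W.image g) h y k (g i) - (k : ℝ) * h / 2) =
          fun i => euler (isingW G θ W) W h (fun j e => y j (g e)) k i - (k : ℝ) * h / 2 := by
        funext i
        rw [ih i]
      rw [this]
    · have he' : g e ∉ W.image g := by
        intro hmem
        obtain ⟨e', he', hee⟩ := Finset.mem_image.1 hmem
        exact he (g.injective hee ▸ he')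
      rw [euler_of_not_mem _ _ _ _ _ he', euler_of_not_mem _ _ _ _ _ he]

lemma lamI_aut {θ : ℝ} (hθ : GoodTheta θ) (g : G ≃g G) (W : Finset V) (n : ℕ) (ξ : Noise V)
    (k : ℕ) (e : V) :
    lamI G θ (W.image g) n ξ k (g e) = lamI G θ W n (fun e' => ξ (g e')) k e := by
  unfold lamI eulerI
  rw [euler_aut hθ g W _ _ k e]
  rfl

lemma msgT_aut (hT : G.IsTree) {θ : ℝ} (hθ : GoodTheta θ) (g : G ≃g G) (W : Finset V) (n : ℕ)
    (r : ℝ) (ξ : Noise V) (y x : V) :
    msgT G θ (W.image g) n r ξ (g y) (g x) = msgT G θ W n r (fun e => ξ (g e)) y x := by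
  unfold msgT
  rw [msg_aut hT]
  congr 1
  funext i
  exact lamI_aut hθ g W n ξ _ i

lemma measurable_magn' (θ : ℝ) (W : Finset V) (v : V) :
    Measurable (fun l : V → ℝ => magn G θ W l v) := by
  unfold magn gAvg Zf
  have hexp : ∀ S : Finset V, Measurable (fun l : V → ℝ => Real.exp (∑ i ∈ S, l i)) := fun S =>
    Real.measurable_exp.comp (Finset.measurable_sum _ fun i _ => measurable_pi_apply i)
  refine Measurable.div ?_ ?_
  · exact Finset.measurable_sum _ fun S _ => ((hexp S).const_mul _).mul_const _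
  · exact Finset.measurable_sum _ fun S _ => (hexp S).const_mul _

omit [DecidableEq V] in
lemma integral_comp_aut (g : G ≃g G) (H : (V → unitInterval) → ℝ) :
    ∫ ω, H (ω ∘ g) ∂labelMeasure V = ∫ ω, H ω ∂labelMeasure V :=
  (measurePreserving_comp_perm g.toEquiv).integral_comp (measurableEmbedding_comp_perm g.toEquiv) H

/-- Independence of functions of disjoint sets of labels. -/
lemma integral_mul_of_disjoint (S T : Finset V) (hST : Disjoint S T)
    {F F' : (V → unitInterval) → ℝ} (hF : Measurable F) (hF' : Measurable F')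
    (hdS : ∀ ω ω' : V → unitInterval, (∀ i ∈ S, ω i = ω' i) → F ω = F ω')
    (hdT : ∀ ω ω' : V → unitInterval, (∀ i ∈ T, ω i = ω' i) → F' ω = F' ω') :
    ∫ ω, F ω * F' ω ∂labelMeasure V =
      (∫ ω, F ω ∂labelMeasure V) * ∫ ω, F' ω ∂labelMeasure V := by
  classical
  let ext (A : Finset V) (u : A → unitInterval) : V → unitInterval :=
    fun v => if h : v ∈ A then u ⟨v, h⟩ else 0
  have hext : ∀ A, Measurable (ext A) := fun A => measurable_pi_lambda _ fun v => by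
    by_cases h : v ∈ A
    · simp only [ext, h, dif_pos]
      exact measurable_pi_apply _
    · simp only [ext, h, dif_neg, not_false_eq_true]
      exact measurable_const
  have hI : iIndepFun (fun (i : V) (ω : V → unitInterval) => ω i) (labelMeasure V) :=
    iIndepFun_infinitePi (X := fun _ x => x) (fun _ => measurable_id)
  have hi := hI.indepFun_finset S T hST (fun i => measurable_pi_apply i)
  have hcomp := hi.comp (hF.comp (hext S)) (hF'.comp (hext T))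
  have eF : (F ∘ ext S) ∘ (fun (ω : V → unitInterval) (i : S) => ω i) = F := by
    funext ω
    refine hdS _ _ fun i hi => ?_
    simp [ext, hi]
  have eF' : (F' ∘ ext T) ∘ (fun (ω : V → unitInterval) (i : T) => ω i) = F' := by
    funext ω
    refine hdT _ _ fun i hi => ?_
    simp [ext, hi]
  rw [eF, eF'] at hcomp
  exact hcomp.integral_mul_eq_mul_integral hF.aestronglyMeasurable hF'.aestronglyMeasurable

lemma dy_mono {n m : ℕ} {r : ℝ} (h : Dy n r) (hnm : n ≤ m) : Dy m r := by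
  obtain ⟨k, rfl⟩ := h
  refine ⟨k * 2 ^ (m - n), ?_⟩
  unfold hh
  push_cast
  obtain ⟨d, rfl⟩ := Nat.exists_eq_add_of_le hnm
  have : (1 / 2 : ℝ) ^ n = 2 ^ d * (1 / 2) ^ (n + d) := by
    rw [pow_add, mul_comm, mul_assoc, ← mul_pow]
    norm_num
  rw [this, Nat.add_sub_cancel_left]
  ring

omit [DecidableEq V] in
lemma isGeo_pair {a b : V} (h : G.Adj a b) : IsGeo G (fun i => if i = 0 then a else b) 1 := by
  intro i j hi hj
  have hab : G.dist a b = 1 := SimpleGraph.dist_eq_one_iff_adj.2 h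
  have hba : G.dist b a = 1 := SimpleGraph.dist_eq_one_iff_adj.2 h.symm
  interval_cases i <;> interval_cases j <;> simp [Nat.dist, hab, hba]

section approximants

variable [G.LocallyFinite]

/-- The message of the Euler scheme on the ball of radius `R` around `a`. -/
noncomputable def apMsg (G : SimpleGraph V) [G.LocallyFinite] (θ : ℝ) (R n : ℕ) (r : ℝ) (a b : V)
    (ω : V → unitInterval) : ℝ :=
  msgT G θ (tball G a R) n r (xiL ω) a b

lemma apMsg_aut (hT : G.IsTree) {θ : ℝ} (hθ : GoodTheta θ) (g : G ≃g G) (R n : ℕ) (r : ℝ) (a b : V)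
    (ω : V → unitInterval) : apMsg G θ R n r (g a) (g b) ω = apMsg G θ R n r a b (ω ∘ g) := by
  unfold apMsg
  rw [tball_aut, msgT_aut hT hθ]
  rfl

lemma apMsg_abs_le {θ : ℝ} (hθ : GoodTheta θ) (R n : ℕ) (r : ℝ) (a b : V)
    (ω : V → unitInterval) : |apMsg G θ R n r a b ω| ≤ 1 :=
  abs_msg_le_one hθ _ _ _ _

lemma measurable_apMsg [Countable V] (θ : ℝ) (R n : ℕ) (r : ℝ) (a b : V) :
    Measurable (apMsg G θ R n r a b) := by
  have h1 : Measurable (fun ω : V → unitInterval => levelNoise (xiL ω) n) :=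
    measurable_pi_lambda _ fun j => measurable_pi_lambda _ fun e =>
      (isDyadicNoise_xiL (V := V)).meas e n j
  have h2 : Measurable
      (fun ω : V → unitInterval => lamI G θ (tball G a R) n (xiL ω) (stepOf r n)) :=
    measurable_pi_lambda _ fun i => ((measurable_euler _ _ _ _ i).comp h1).sub_const _
  exact (measurable_magn' θ _ a).comp h2

lemma apMsg_congr (θ : ℝ) (R n : ℕ) (r : ℝ) (a b : V) {ω ω' : V → unitInterval}
    (h : ∀ i ∈ tball G a R, ω i = ω' i) : apMsg G θ R n r a b ω = apMsg G θ R n r a b ω' := by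
  unfold apMsg msgT lamI eulerI
  congr 1
  funext i
  rw [euler_congr _ _ _ _ (fun l _ e he => ?_) i]
  change labelN (ω e) n l = labelN (ω' e) n l
  rw [h e he]

/-- The difference of the `ψ`'s of the messages of the two approximate schemes. -/
noncomputable def apF (G : SimpleGraph V) [G.LocallyFinite] (q : ℕ) (θ₁ θ₂ : ℝ) (R n : ℕ) (r : ℝ)
    (a b : V) (ω : V → unitInterval) : ℝ :=
  psiC q (apMsg G θ₁ R n r a b ω) - psiC q (apMsg G θ₂ R n r a b ω)

lemma psi_diff_abs_le {q : ℕ} (hq : 2 ≤ q) {a b : ℝ} (ha : |a| ≤ 1) (hb : |b| ≤ 1) :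
    |psiC q a - psiC q b| ≤ 2 := by
  obtain ⟨h1, h2⟩ := psiC_nonneg_le hq ha
  obtain ⟨h3, h4⟩ := psiC_nonneg_le hq hb
  rw [abs_le]
  constructor <;> linarith

/-- (T1) for the approximants. -/
lemma tempered_apF {q : ℕ} (hT : G.IsTree) (hreg : G.IsRegularOfDegree (q + 1)) (hq : 2 ≤ q)
    {θ₁ θ₂ r : ℝ} (hθ₁ : GoodTheta θ₁) (hθ₂ : GoodTheta θ₂) (R n : ℕ) {x : ℕ → V} {l : ℕ}
    (hl : 1 ≤ l) (hx : IsGeo G x l) :
    |∫ ω, (apF G q θ₁ θ₂ R n r (x 1) (x 0) ω - ∫ ω', apF G q θ₁ θ₂ R n r (x 1) (x 0) ω' ∂labelMeasure V)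
        * (apF G q θ₁ θ₂ R n r (x l) (x (l - 1)) ω
          - ∫ ω', apF G q θ₁ θ₂ R n r (x 1) (x 0) ω' ∂labelMeasure V) ∂labelMeasure V|
      ≤ (q + 2) * (∫ ω, (apF G q θ₁ θ₂ R n r (x 1) (x 0) ω
          - ∫ ω', apF G q θ₁ θ₂ R n r (x 1) (x 0) ω' ∂labelMeasure V) ^ 2 ∂labelMeasure V) * l
          * (Real.sqrt q)⁻¹ ^ (l - 1) := by
  have : Countable V := countable_of_isTree hT
  set A := apF G q θ₁ θ₂ R n r with hA
  set z := ∫ ω', A (x 1) (x 0) ω' ∂labelMeasure V with hz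
  have hψ := (psiC_continuous hq).measurable
  have hAm : ∀ a b, Measurable (A a b) := fun a b =>
    (hψ.comp (measurable_apMsg θ₁ R n r a b)).sub (hψ.comp (measurable_apMsg θ₂ R n r a b))
  have hAb : ∀ a b ω, |A a b ω| ≤ 2 := fun a b ω =>
    psi_diff_abs_le hq (apMsg_abs_le hθ₁ _ _ _ _ _ _) (apMsg_abs_le hθ₂ _ _ _ _ _ _)
  have hAaut : ∀ (g : G ≃g G) a b ω, A (g a) (g b) ω = A a b (ω ∘ g) := by
    intro g a b ω
    simp only [hA, apF, apMsg_aut hT hθ₁, apMsg_aut hT hθ₂]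
  have hAcongr : ∀ a b (ω ω' : V → unitInterval), (∀ i ∈ tball G a R, ω i = ω' i) →
      A a b ω = A a b ω' := by
    intro a b ω ω' h
    simp only [hA, apF, apMsg_congr θ₁ R n r a b h, apMsg_congr θ₂ R n r a b h]
  have hx10 : G.Adj (x 1) (x 0) := by
    have := hx 1 0 hl (Nat.zero_le _)
    rw [show Nat.dist 1 0 = 1 by simp [Nat.dist]] at this
    exact SimpleGraph.dist_eq_one_iff_adj.mp this
  have hmean : ∀ a b, G.Adj a b → ∫ ω, A a b ω ∂labelMeasure V = z := by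
    intro a b hab
    obtain ⟨g, hg⟩ := exists_aut_of_geo hT hreg (isGeo_pair hx10) (isGeo_pair hab)
    have h0 : g (x 1) = a := by simpa using hg 0 (Nat.zero_le _)
    have h1 : g (x 0) = b := by simpa using hg 1 le_rfl
    rw [← h0, ← h1]
    simp only [hAaut]
    exact integral_comp_aut g (A (x 1) (x 0))
  have hIA : ∀ a b, Integrable (A a b) (labelMeasure V) := fun a b =>
    integrable_of_bdd (hAm a b) (hAb a b)
  refine tempered_of_finite_range hT hreg hq (labelMeasure V) (fun a b ω => A a b ω - z)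
    (fun a b => (hAm a b).sub_const z) (B := 2 + |z|) ?_ ?_ (R := 2 * R) ?_ hl hx
  · intro a b ω
    exact (abs_sub _ _).trans (add_le_add (hAb a b ω) le_rfl)
  · intro g a b c d
    simp only [hAaut]
    exact integral_comp_aut g (fun ω => (A a b ω - z) * (A c d ω - z))
  · intro a b c d hab hcd hdist
    have hdisj : Disjoint (tball G a R) (tball G c R) := by
      rw [Finset.disjoint_left]
      intro w hw hw'
      rw [mem_tball hT] at hw hw'
      have htri := hT.connected.dist_triangle (u := a) (v := w) (w := c)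
      rw [SimpleGraph.dist_comm (u := w) (v := c)] at htri
      omega
    have hi := integral_mul_of_disjoint _ _ hdisj ((hAm a b).sub_const z) ((hAm c d).sub_const z)
      (fun ω ω' h => by simp only [hAcongr a b ω ω' h])
      (fun ω ω' h => by simp only [hAcongr c d ω ω' h])
    rw [hi]
    have : ∫ ω, (A a b ω - z) ∂labelMeasure V = 0 := by
      rw [integral_sub (hIA a b) (integrable_const z), hmean a b hab]
      simp
    rw [this, zero_mul]

/-- `L²` closeness of `ψ`-differences from `L²` closeness of the messages. -/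
lemma close_of_close {Ω : Type*} [MeasurableSpace Ω] {P : Measure Ω} [IsProbabilityMeasure P]
    {q : ℕ} (hq : 2 ≤ q) {p₁ p₂ P₁ P₂ : Ω → ℝ} (hp₁ : Measurable p₁) (hp₂ : Measurable p₂)
    (hP₁ : Measurable P₁) (hP₂ : Measurable P₂) (bp₁ : ∀ ω, |p₁ ω| ≤ 1) (bp₂ : ∀ ω, |p₂ ω| ≤ 1)
    (bP₁ : ∀ ω, |P₁ ω| ≤ 1) (bP₂ : ∀ ω, |P₂ ω| ≤ 1) {ε : ℝ}
    (h₁ : ∫ ω, (p₁ ω - P₁ ω) ^ 2 ∂P ≤ ε) (h₂ : ∫ ω, (p₂ ω - P₂ ω) ^ 2 ∂P ≤ ε) :
    ∫ ω, (psiC q (p₁ ω) - psiC q (p₂ ω) - (psiC q (P₁ ω) - psiC q (P₂ ω))) ^ 2 ∂P ≤ 144 * ε := by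
  have hψ := (psiC_continuous hq).measurable
  have hsq : ∀ {f g : Ω → ℝ}, Measurable f → Measurable g → (∀ ω, |f ω| ≤ 1) → (∀ ω, |g ω| ≤ 1) →
      Integrable (fun ω => (f ω - g ω) ^ 2) P := by
    intro f g hf hg bf bg
    refine integrable_of_bdd (((hf.sub hg)).pow_const 2) (B := 2 ^ 2) fun ω => ?_
    rw [abs_pow]
    refine pow_le_pow_left₀ (abs_nonneg _) ?_ 2
    exact (abs_sub _ _).trans (by linarith [bf ω, bg ω])
  have hpt : ∀ ω, (psiC q (p₁ ω) - psiC q (p₂ ω) - (psiC q (P₁ ω) - psiC q (P₂ ω))) ^ 2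
      ≤ 72 * (p₁ ω - P₁ ω) ^ 2 + 72 * (p₂ ω - P₂ ω) ^ 2 := by
    intro ω
    have key : ∀ a b : ℝ, |a| ≤ 1 → |b| ≤ 1 → (psiC q a - psiC q b) ^ 2 ≤ 36 * (a - b) ^ 2 := by
      intro a b ha hb
      have h := psiC_sub_le hq ha hb
      have h2 : |psiC q a - psiC q b| ≤ 6 * |a - b| := by
        refine h.trans ?_
        have : 3 * (|a| + |b|) ≤ 6 := by linarith
        exact mul_le_mul_of_nonneg_right this (abs_nonneg _)
      have h3 := pow_le_pow_left₀ (abs_nonneg _) h2 2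
      rw [sq_abs, mul_pow, sq_abs] at h3
      linarith
    have k1 := key _ _ (bp₁ ω) (bP₁ ω)
    have k2 := key _ _ (bp₂ ω) (bP₂ ω)
    nlinarith [sq_nonneg ((psiC q (p₁ ω) - psiC q (P₁ ω)) + (psiC q (p₂ ω) - psiC q (P₂ ω)))]
  have hI₁ := hsq hp₁ hP₁ bp₁ bP₁
  have hI₂ := hsq hp₂ hP₂ bp₂ bP₂
  have hb2 : ∀ a b : ℝ, |a| ≤ 1 → |b| ≤ 1 → |psiC q a - psiC q b| ≤ 2 :=
    fun a b ha hb => psi_diff_abs_le hq ha hb
  have hIL : Integrable (fun ω => (psiC q (p₁ ω) - psiC q (p₂ ω) - (psiC q (P₁ ω) - psiC q (P₂ ω))) ^ 2) P := by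
    refine integrable_of_bdd (B := 4 ^ 2) ((((hψ.comp hp₁).sub (hψ.comp hp₂)).sub
      ((hψ.comp hP₁).sub (hψ.comp hP₂))).pow_const 2) fun ω => ?_
    rw [abs_pow]
    refine pow_le_pow_left₀ (abs_nonneg _) ?_ 2
    exact (abs_sub _ _).trans (by
      linarith [hb2 _ _ (bp₁ ω) (bp₂ ω), hb2 _ _ (bP₁ ω) (bP₂ ω)])
  calc _ ≤ ∫ ω, (72 * (p₁ ω - P₁ ω) ^ 2 + 72 * (p₂ ω - P₂ ω) ^ 2) ∂P :=
        integral_mono hIL ((hI₁.const_mul _).add (hI₂.const_mul _)) hpt
    _ = 72 * ∫ ω, (p₁ ω - P₁ ω) ^ 2 ∂P + 72 * ∫ ω, (p₂ ω - P₂ ω) ^ 2 ∂P := by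
        rw [integral_add (hI₁.const_mul _) (hI₂.const_mul _), integral_const_mul,
          integral_const_mul]
    _ ≤ 144 * ε := by linarith

end approximants

end TempSolAux

open TempSolAux in
/-- (T2): the same for a pair of solutions, in the limit. -/
theorem tempered_sol {V : Type*} [DecidableEq V] {G : SimpleGraph V} [G.LocallyFinite]
    {q : ℕ} (hT : G.IsTree) (hreg : G.IsRegularOfDegree (q + 1)) (hq : 2 ≤ q)
    {θ₁ θ₂ r : ℝ} {M₁ M₂ : ℝ → V → (V → unitInterval) → ℝ} {N₁ N₂ : ℝ → V → V → (V → unitInterval) → ℝ}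
    (hθ₁ : CritPar q θ₁) (hθ₂ : CritPar q θ₂) (hS₁ : IsSol G θ₁ M₁ N₁) (hS₂ : IsSol G θ₂ M₂ N₂)
    (hr : ∃ n, Dy n r) {x : ℕ → V} {l : ℕ} (hl : 1 ≤ l) (hx : IsGeo G x l) :
    let Z : V → V → (V → unitInterval) → ℝ := fun a b ω => psiC q (N₁ r a b ω) - psiC q (N₂ r a b ω)
    let z : ℝ := ∫ ω, Z (x 1) (x 0) ω ∂labelMeasure V
    |∫ ω, (Z (x 1) (x 0) ω - z) * (Z (x l) (x (l - 1)) ω - z) ∂labelMeasure V|
      ≤ (q + 2) * (∫ ω, (Z (x 1) (x 0) ω - z) ^ 2 ∂labelMeasure V) * l * (Real.sqrt q)⁻¹ ^ (l - 1) := by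
  intro Z z
  have : Countable V := countable_of_isTree hT
  have hg₁ := hθ₁.good
  have hg₂ := hθ₂.good
  have hψ := (psiC_continuous hq).measurable
  set C : ℝ := (q + 2) * l * (Real.sqrt q)⁻¹ ^ (l - 1) with hC
  have hC0 : 0 ≤ C := by positivity
  have hgoal : (q + 2) * (∫ ω, (Z (x 1) (x 0) ω - z) ^ 2 ∂labelMeasure V) * l * (Real.sqrt q)⁻¹ ^ (l - 1)
      = C * ∫ ω, (Z (x 1) (x 0) ω - z) ^ 2 ∂labelMeasure V := by
    rw [hC]; ring
  rw [hgoal]
  refine le_of_forall_pos_le_add fun η hη => ?_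
  -- the mesh of the approximation
  set δ : ℝ := η / (16 * (1 + C)) with hδdef
  have hδ : 0 < δ := by positivity
  have hηδ : 8 * 2 * (1 + C) * δ = η := by
    rw [hδdef]; field_simp; ring
  set ε : ℝ := δ ^ 2 / 144 with hεdef
  have hε : 0 < ε := by positivity
  have hε144 : 144 * ε = δ ^ 2 := by rw [hεdef]; ring
  obtain ⟨R₁, hR₁⟩ := hS₁.wcN r ε hε
  obtain ⟨R₂, hR₂⟩ := hS₂.wcN r ε hε
  set R := max R₁ R₂ with hR
  have hsub : ∀ (c : V) {R' : ℕ}, R' ≤ R → tball G c R' ⊆ tball G c R := by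
    intro c R' hR' w hw
    rw [mem_tball hT] at hw ⊢
    omega
  -- closeness on every edge
  have hclose : ∀ a b : V, G.Adj a b → ∃ n₀ : ℕ, ∀ n ≥ n₀, Dy n r →
      ∫ ω, (apF G q θ₁ θ₂ R n r a b ω - Z a b ω) ^ 2 ∂labelMeasure V ≤ δ ^ 2 := by
    intro a b hab
    obtain ⟨n₁, h₁⟩ := hR₁ (tball G a R) a b (conv_tball hT a R) hab (hsub a (le_max_left _ _))
    obtain ⟨n₂, h₂⟩ := hR₂ (tball G a R) a b (conv_tball hT a R) hab (hsub a (le_max_right _ _))
    refine ⟨max n₁ n₂, fun n hn hd => ?_⟩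
    have h₁' := h₁ n ((le_max_left _ _).trans hn) r hd le_rfl
    have h₂' := h₂ n ((le_max_right _ _).trans hn) r hd le_rfl
    have := close_of_close (P := labelMeasure V) hq (measurable_apMsg θ₁ R n r a b)
      (measurable_apMsg θ₂ R n r a b) (hS₁.measN r a b) (hS₂.measN r a b)
      (apMsg_abs_le hg₁ R n r a b) (apMsg_abs_le hg₂ R n r a b) (hS₁.bdN r a b) (hS₂.bdN r a b)
      h₁' h₂'
    rw [hε144] at this
    exact this
  have hx10 : G.Adj (x 1) (x 0) := by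
    have := hx 1 0 hl (Nat.zero_le _)
    rw [show Nat.dist 1 0 = 1 by simp [Nat.dist]] at this
    exact SimpleGraph.dist_eq_one_iff_adj.mp this
  have hxl : G.Adj (x l) (x (l - 1)) := by
    have := hx l (l - 1) le_rfl (Nat.sub_le _ _)
    rw [show Nat.dist l (l - 1) = 1 by simp only [Nat.dist]; omega] at this
    exact SimpleGraph.dist_eq_one_iff_adj.mp this
  obtain ⟨m₁, hm₁⟩ := hclose _ _ hx10
  obtain ⟨m₂, hm₂⟩ := hclose _ _ hxl
  obtain ⟨m₃, hm₃⟩ := hr
  set n := max (max m₁ m₂) m₃ with hn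
  have hdy : Dy n r := dy_mono hm₃ (le_max_right _ _)
  have c1 := hm₁ n ((le_max_left _ _).trans (le_max_left _ _)) hdy
  have c2 := hm₂ n ((le_max_right _ _).trans (le_max_left _ _)) hdy
  have hT1 := tempered_apF (r := r) hT hreg hq hg₁ hg₂ R n hl hx
  have hZm : ∀ a b, Measurable (Z a b) := fun a b =>
    (hψ.comp (hS₁.measN r a b)).sub (hψ.comp (hS₂.measN r a b))
  have hZb : ∀ a b ω, |Z a b ω| ≤ 2 := fun a b ω =>
    psi_diff_abs_le hq (hS₁.bdN r a b ω) (hS₂.bdN r a b ω)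
  have hFm : ∀ a b, Measurable (apF G q θ₁ θ₂ R n r a b) := fun a b =>
    (hψ.comp (measurable_apMsg θ₁ R n r a b)).sub (hψ.comp (measurable_apMsg θ₂ R n r a b))
  have hFb : ∀ a b ω, |apF G q θ₁ θ₂ R n r a b ω| ≤ 2 := fun a b ω =>
    psi_diff_abs_le hq (apMsg_abs_le hg₁ _ _ _ _ _ _) (apMsg_abs_le hg₂ _ _ _ _ _ _)
  have hT1' : |∫ ω, (apF G q θ₁ θ₂ R n r (x 1) (x 0) ω - ∫ ω', apF G q θ₁ θ₂ R n r (x 1) (x 0) ω' ∂labelMeasure V)
        * (apF G q θ₁ θ₂ R n r (x l) (x (l - 1)) ω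
          - ∫ ω', apF G q θ₁ θ₂ R n r (x 1) (x 0) ω' ∂labelMeasure V) ∂labelMeasure V|
      ≤ C * ∫ ω, (apF G q θ₁ θ₂ R n r (x 1) (x 0) ω
          - ∫ ω', apF G q θ₁ θ₂ R n r (x 1) (x 0) ω' ∂labelMeasure V) ^ 2 ∂labelMeasure V := by
    refine hT1.trans (le_of_eq ?_)
    rw [hC]; ring
  have hfin := limit_step (P := labelMeasure V) (hZm (x 1) (x 0)) (hZm (x l) (x (l - 1)))
    (hFm (x 1) (x 0)) (hFm (x l) (x (l - 1))) hC0 hδ (hZb _ _) (hZb _ _) (hFb _ _) (hFb _ _)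
    c1 c2 hT1'
  rw [hηδ] at hfin
  exact hfin

end Crest.Agent.IsingFactor
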