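import Mathlib

/-!
# Automorphisms of regular trees

Any two geodesics of equal length in a `d`-regular tree are related by a graph automorphism.
No countability or cardinality assumption on `V` beyond connectedness is used.
-/

set_option autoImplicit false

namespace Crest.Agent.IsingFactor.TreeAut

open SimpleGraph

variable {V : Type*} {G : SimpleGraph V}

/-- The children of `v` in the tree rooted at `r`. -/
def children (G : SimpleGraph V) (r v : V) : Set V := {w | G.Adj v w ∧ G.dist r w = G.dist r v + 1}

lemma parent_unique (hT : G.IsTree) {r a b v : V} (ha : G.Adj a v) (hb : G.Adj b v)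
    (hda : G.dist r v = G.dist r a + 1) (hdb : G.dist r v = G.dist r b + 1) : a = b := by
  classical
  obtain ⟨p, hp, hpl⟩ := hT.connected.exists_path_of_dist r a
  obtain ⟨q, hq, hql⟩ := hT.connected.exists_path_of_dist r b
  have hvp : v ∉ p.support := by
    intro hv
    have h1 : G.dist r v ≤ (p.takeUntil v hv).length := dist_le _
    have h2 := p.length_takeUntil_le_length hv
    omega
  have hvq : v ∉ q.support := by
    intro hv
    have h1 : G.dist r v ≤ (q.takeUntil v hv).length := dist_le _
    have h2 := q.length_takeUntil_le_length hv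
    omega
  have hP : (p.concat ha).IsPath := hp.concat hvp ha
  have hQ : (q.concat hb).IsPath := hq.concat hvq hb
  have := (hT.isAcyclic.subsingleton_path r v).elim ⟨_, hP⟩ ⟨_, hQ⟩
  have heq : p.concat ha = q.concat hb := congrArg Subtype.val this
  have h := congrArg (fun w : G.Walk r v => w.penultimate) heq
  simpa using h

lemma exists_parent (hT : G.IsTree) (r : V) {v : V} (hv : v ≠ r) :
    ∃ a, G.Adj a v ∧ G.dist r v = G.dist r a + 1 := by
  obtain ⟨p, hpl⟩ := hT.connected.exists_walk_length_eq_dist r v
  have hnn : ¬ p.Nil := by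
    intro hn
    exact hv (hn.eq).symm
  refine ⟨p.penultimate, p.adj_penultimate hnn, ?_⟩
  have hadj : G.Adj p.penultimate v := p.adj_penultimate hnn
  have h1 : G.dist r p.penultimate ≤ p.dropLast.length := dist_le _
  have h2 : p.dropLast.length + 1 = p.length := by
    have := p.length_dropLast_add_one hnn
    simpa using this
  have h3 := hT.dist_eq_dist_add_one_of_adj r hadj
  omega

/-- The parent of `v` in the tree rooted at `r` (and `r` itself for the root). -/
noncomputable def par (hT : G.IsTree) (r v : V) : V :=
  open Classical in if hv : v = r then r else (exists_parent hT r hv).choose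

lemma par_root (hT : G.IsTree) (r : V) : par hT r r = r := by simp [par]

lemma par_adj (hT : G.IsTree) {r v : V} (hv : v ≠ r) : G.Adj (par hT r v) v := by
  simp only [par, hv, dif_neg, not_false_eq_true]
  exact (exists_parent hT r hv).choose_spec.1

lemma par_dist (hT : G.IsTree) {r v : V} (hv : v ≠ r) :
    G.dist r v = G.dist r (par hT r v) + 1 := by
  simp only [par, hv, dif_neg, not_false_eq_true]
  exact (exists_parent hT r hv).choose_spec.2

lemma par_eq (hT : G.IsTree) {r a v : V} (ha : G.Adj a v)
    (hd : G.dist r v = G.dist r a + 1) : par hT r v = a := by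
  have hv : v ≠ r := by
    rintro rfl
    simp at hd
  exact parent_unique hT (par_adj hT hv) ha (par_dist hT hv) hd

lemma dist_eq_zero_iff' (hT : G.IsTree) {r v : V} : G.dist r v = 0 ↔ v = r := by
  rw [hT.connected.dist_eq_zero_iff]
  exact eq_comm

lemma mem_children_of_par (hT : G.IsTree) {r v : V} (hv : v ≠ r) :
    v ∈ children G r (par hT r v) :=
  ⟨par_adj hT hv, par_dist hT hv⟩

lemma par_of_mem_children (hT : G.IsTree) {r v w : V} (h : w ∈ children G r v) :
    par hT r w = v := par_eq hT h.1 h.2

section Card

variable [G.LocallyFinite] {d : ℕ}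

omit [G.LocallyFinite] in
lemma children_root (r : V) : children G r r = G.neighborSet r := by
  ext w
  simp only [children, Set.mem_ofPred_eq, mem_neighborSet, dist_self, zero_add, and_iff_left_iff_imp]
  intro h
  exact dist_eq_one_iff_adj.mpr h

omit [G.LocallyFinite] in
lemma children_nonroot (hT : G.IsTree) {r v : V} (hv : v ≠ r) :
    children G r v = G.neighborSet v \ {par hT r v} := by
  ext w
  simp only [children, Set.mem_ofPred_eq, Set.mem_sdiff, mem_neighborSet, Set.mem_singleton_iff]
  constructor
  · rintro ⟨h1, h2⟩
    refine ⟨h1, ?_⟩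
    rintro rfl
    have := par_dist hT hv
    omega
  · rintro ⟨h1, h2⟩
    refine ⟨h1, ?_⟩
    rcases hT.dist_eq_dist_add_one_of_adj r h1 with h | h
    · exact absurd (par_eq hT h1.symm h).symm h2
    · exact h

lemma ncard_children_root (hT : G.IsTree) (hreg : G.IsRegularOfDegree d) (r : V) :
    (children G r r).ncard = d := by
  classical
  rw [children_root, Set.ncard_eq_toFinset_card']
  have : (G.neighborSet r).toFinset = G.neighborFinset r := by
    ext; simp
  rw [this, card_neighborFinset_eq_degree]
  exact hreg r

lemma ncard_children_nonroot (hT : G.IsTree) (hreg : G.IsRegularOfDegree d) {r v : V} (hv : v ≠ r) :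
    (children G r v).ncard = d - 1 := by
  classical
  rw [children_nonroot hT hv, Set.ncard_sdiff_singleton_of_mem (by simpa using (par_adj hT hv).symm),
    Set.ncard_eq_toFinset_card']
  have : (G.neighborSet v).toFinset = G.neighborFinset v := by
    ext; simp
  rw [this, card_neighborFinset_eq_degree, hreg v]

lemma finite_children (r v : V) : (children G r v).Finite :=
  (Set.toFinite (G.neighborSet v)).subset fun _ h => h.1

/-- Children sets at equal depth are equinumerous, with one prescribed value. -/
lemma exists_equiv_children (hT : G.IsTree) (hreg : G.IsRegularOfDegree d) {r r' v v' : V}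
    (hd : G.dist r v = G.dist r' v') :
    Nonempty (children G r v ≃ children G r' v') := by
  have hfin1 := (finite_children (G := G) r v).to_subtype
  have hfin2 := (finite_children (G := G) r' v').to_subtype
  have hcard : Nat.card (children G r v) = Nat.card (children G r' v') := by
    rw [Nat.card_coe_set_eq, Nat.card_coe_set_eq]
    by_cases hv : v = r
    · subst hv
      have hv' : v' = r' := by
        rw [← dist_eq_zero_iff' hT]
        simpa using hd.symm
      subst hv'
      rw [ncard_children_root hT hreg, ncard_children_root hT hreg]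
    · have hv' : v' ≠ r' := by
        rintro rfl
        apply hv
        rw [← dist_eq_zero_iff' hT]
        simpa using hd
      rw [ncard_children_nonroot hT hreg hv, ncard_children_nonroot hT hreg hv']
  haveI := Fintype.ofFinite (children G r v)
  haveI := Fintype.ofFinite (children G r' v')
  rw [Nat.card_eq_fintype_card, Nat.card_eq_fintype_card] at hcard
  exact ⟨Fintype.equivOfCardEq hcard⟩

end Card

/-- Build the map from child data. -/
noncomputable def aux (hT : G.IsTree) (r r' : V) (E : V → V → V → V) : ℕ → V → V
  | 0, _ => r'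
  | n + 1, v => E (par hT r v) (aux hT r r' E n (par hT r v)) v

/-- The tree map determined by roots and child data. -/
noncomputable def tmap (hT : G.IsTree) (r r' : V) (E : V → V → V → V) (v : V) : V :=
  aux hT r r' E (G.dist r v) v

lemma tmap_root (hT : G.IsTree) (r r' : V) (E : V → V → V → V) : tmap hT r r' E r = r' := by
  simp [tmap, aux]

lemma tmap_step (hT : G.IsTree) (r r' : V) (E : V → V → V → V) {v : V} (hv : v ≠ r) :
    tmap hT r r' E v = E (par hT r v) (tmap hT r r' E (par hT r v)) v := by
  simp only [tmap]
  rw [par_dist hT hv]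
  simp only [aux]

/-- Child data maps children at matched depth to children. -/
def GoodData (G : SimpleGraph V) (r r' : V) (E : V → V → V → V) : Prop :=
  ∀ v v' w, G.dist r v = G.dist r' v' → w ∈ children G r v → E v v' w ∈ children G r' v'

lemma tmap_dist (hT : G.IsTree) {r r' : V} {E : V → V → V → V} (hE : GoodData G r r' E) (v : V) :
    G.dist r' (tmap hT r r' E v) = G.dist r v := by
  induction' hn : G.dist r v using Nat.strong_induction_on with n ih generalizing v
  by_cases hv : v = r
  · subst hv
    simp [tmap_root] at hn ⊢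
    omega
  · have hp := par_dist hT hv
    have ih' := ih (G.dist r (par hT r v)) (by omega) (par hT r v) rfl
    rw [tmap_step hT r r' E hv]
    have := hE (par hT r v) (tmap hT r r' E (par hT r v)) v ih'.symm (mem_children_of_par hT hv)
    rw [this.2, ih', ← hn, hp]

lemma tmap_mem_children (hT : G.IsTree) {r r' : V} {E : V → V → V → V} (hE : GoodData G r r' E)
    {v : V} (hv : v ≠ r) :
    tmap hT r r' E v ∈ children G r' (tmap hT r r' E (par hT r v)) := by
  rw [tmap_step hT r r' E hv]
  exact hE _ _ _ (tmap_dist hT hE _).symm (mem_children_of_par hT hv)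

lemma tmap_adj (hT : G.IsTree) {r r' : V} {E : V → V → V → V} (hE : GoodData G r r' E)
    {u w : V} (h : G.Adj u w) : G.Adj (tmap hT r r' E u) (tmap hT r r' E w) := by
  rcases hT.dist_eq_dist_add_one_of_adj r h with h1 | h1
  · -- `w` is the parent of `u`
    have hp : par hT r u = w := par_eq hT h.symm h1
    have hu : u ≠ r := by
      rintro rfl
      simp at h1
    have := tmap_mem_children hT hE hu
    rw [hp] at this
    exact this.1.symm
  · have hp : par hT r w = u := par_eq hT h h1
    have hw : w ≠ r := by
      rintro rfl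
      simp at h1
    have := tmap_mem_children hT hE hw
    rw [hp] at this
    exact this.1

lemma tmap_left_inv (hT : G.IsTree) {r r' : V} {E E' : V → V → V → V} (hE : GoodData G r r' E)
    (hinv : ∀ v v' w, G.dist r v = G.dist r' v' → w ∈ children G r v → E' v' v (E v v' w) = w)
    (v : V) : tmap hT r' r E' (tmap hT r r' E v) = v := by
  induction' hn : G.dist r v using Nat.strong_induction_on with n ih generalizing v
  by_cases hv : v = r
  · subst hv
    rw [tmap_root, tmap_root]
  · have hp := par_dist hT hv
    have ih' := ih (G.dist r (par hT r v)) (by omega) (par hT r v) rfl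
    have hmem := tmap_mem_children hT hE hv
    have hne : tmap hT r r' E v ≠ r' := by
      intro h0
      have h1 := tmap_dist hT hE v
      rw [h0, dist_self] at h1
      omega
    rw [tmap_step hT r' r E' hne, par_of_mem_children hT hmem, ih', tmap_step hT r r' E hv]
    exact hinv _ _ _ (tmap_dist hT hE _).symm (mem_children_of_par hT hv)

/-- Main theorem: geodesics of equal length from `r`, `r'` are related by an automorphism. -/
theorem exists_aut_of_geodesic [G.LocallyFinite] {d : ℕ} (hT : G.IsTree)
    (hreg : G.IsRegularOfDegree d) (k : ℕ) (p p' : ℕ → V)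
    (hp : ∀ i < k, G.Adj (p i) (p (i + 1))) (hp' : ∀ i < k, G.Adj (p' i) (p' (i + 1)))
    (hd : ∀ i ≤ k, G.dist (p 0) (p i) = i) (hd' : ∀ i ≤ k, G.dist (p' 0) (p' i) = i) :
    ∃ φ : G ≃g G, ∀ i ≤ k, φ (p i) = p' i := by
  classical
  set r := p 0 with hr
  set r' := p' 0 with hr'
  -- prescribed bijections on children
  have hchoice : ∀ v v', G.dist r v = G.dist r' v' →
      ∃ e : children G r v ≃ children G r' v',
        ∀ i (hi : i < k) (hv : v = p i) (hv' : v' = p' i)
          (h1 : p (i + 1) ∈ children G r v) (h2 : p' (i + 1) ∈ children G r' v'),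
          (e ⟨p (i + 1), h1⟩ : V) = p' (i + 1) := by
    intro v v' hdv
    obtain ⟨e0⟩ := exists_equiv_children hT hreg hdv
    by_cases hex : ∃ i, i < k ∧ v = p i ∧ v' = p' i ∧
        p (i + 1) ∈ children G r v ∧ p' (i + 1) ∈ children G r' v'
    · obtain ⟨i, hi, hv, hv', h1, h2⟩ := hex
      refine ⟨e0.trans (Equiv.swap (e0 ⟨p (i + 1), h1⟩) ⟨p' (i + 1), h2⟩), ?_⟩
      intro j hj hvj hvj' h1' h2'
      have hji : j = i := by
        have h3 := hd j hj.le
        have h4 := hd i hi.le
        rw [← hvj] at h3
        rw [← hv] at h4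
        omega
      subst hji
      simp
    · refine ⟨e0, ?_⟩
      intro i hi hv hv' h1 h2
      exact absurd ⟨i, hi, hv, hv', h1, h2⟩ hex
  choose e he using hchoice
  -- total functions
  let E : V → V → V → V := fun v v' w =>
    if h : G.dist r v = G.dist r' v' ∧ w ∈ children G r v then (e v v' h.1 ⟨w, h.2⟩ : V) else w
  let E' : V → V → V → V := fun v' v w =>
    if h : G.dist r v = G.dist r' v' ∧ w ∈ children G r' v' then
      ((e v v' h.1).symm ⟨w, h.2⟩ : V) else w
  have hE : GoodData G r r' E := by
    intro v v' w hdv hw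
    have : E v v' w = (e v v' hdv ⟨w, hw⟩ : V) := by simp [E, hdv, hw]
    rw [this]
    exact (e v v' hdv ⟨w, hw⟩).2
  have hE' : GoodData G r' r E' := by
    intro v' v w hdv hw
    have : E' v' v w = ((e v v' hdv.symm).symm ⟨w, hw⟩ : V) := by simp [E', hdv.symm, hw]
    rw [this]
    exact ((e v v' hdv.symm).symm ⟨w, hw⟩).2
  have hinv : ∀ v v' w, G.dist r v = G.dist r' v' → w ∈ children G r v →
      E' v' v (E v v' w) = w := by
    intro v v' w hdv hw
    have h1 : E v v' w = (e v v' hdv ⟨w, hw⟩ : V) := by simp [E, hdv, hw]
    have h2 : (e v v' hdv ⟨w, hw⟩ : V) ∈ children G r' v' := (e v v' hdv ⟨w, hw⟩).2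
    rw [h1]
    have : E' v' v (e v v' hdv ⟨w, hw⟩ : V) =
        ((e v v' hdv).symm ⟨(e v v' hdv ⟨w, hw⟩ : V), h2⟩ : V) := by
      simp only [E', hdv, true_and, h2, dif_pos]
    rw [this]
    simp
  have hinv' : ∀ v' v w, G.dist r' v' = G.dist r v → w ∈ children G r' v' →
      E v v' (E' v' v w) = w := by
    intro v' v w hdv hw
    have h1 : E' v' v w = ((e v v' hdv.symm).symm ⟨w, hw⟩ : V) := by simp [E', hdv.symm, hw]
    have h2 : ((e v v' hdv.symm).symm ⟨w, hw⟩ : V) ∈ children G r v :=
      ((e v v' hdv.symm).symm ⟨w, hw⟩).2
    rw [h1]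
    have : E v v' ((e v v' hdv.symm).symm ⟨w, hw⟩ : V) =
        (e v v' hdv.symm ⟨((e v v' hdv.symm).symm ⟨w, hw⟩ : V), h2⟩ : V) := by
      simp only [E, hdv.symm, true_and, h2, dif_pos]
    rw [this]
    simp
  let φ : V ≃ V :=
    { toFun := tmap hT r r' E
      invFun := tmap hT r' r E'
      left_inv := tmap_left_inv hT hE hinv
      right_inv := tmap_left_inv hT hE' hinv' }
  have hadj : ∀ u w, G.Adj (φ u) (φ w) ↔ G.Adj u w := by
    intro u w
    constructor
    · intro h
      have := tmap_adj hT hE' h
      have hu : tmap hT r' r E' (φ u) = u := φ.left_inv u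
      have hw : tmap hT r' r E' (φ w) = w := φ.left_inv w
      rwa [hu, hw] at this
    · exact fun h => tmap_adj hT hE h
  refine ⟨⟨φ, fun {a b} => hadj a b⟩, ?_⟩
  intro i hi
  show tmap hT r r' E (p i) = p' i
  induction' i with i ih
  · exact tmap_root hT r r' E
  · have hi' : i < k := by omega
    have ih' := ih hi'.le
    have h1 : p (i + 1) ∈ children G r (p i) := by
      refine ⟨hp i hi', ?_⟩
      rw [hd _ hi, hd _ hi'.le]
    have h2 : p' (i + 1) ∈ children G r' (p' i) := by
      refine ⟨hp' i hi', ?_⟩
      rw [hd' _ hi, hd' _ hi'.le]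
    have hne : p (i + 1) ≠ r := by
      intro h0
      have := hd _ hi
      rw [h0, dist_self] at this
      omega
    rw [tmap_step hT r r' E hne, par_of_mem_children hT h1, ih']
    have hdv : G.dist r (p i) = G.dist r' (p' i) := by
      rw [hd _ hi'.le, hd' _ hi'.le]
    have : E (p i) (p' i) (p (i + 1)) = (e (p i) (p' i) hdv ⟨p (i + 1), h1⟩ : V) := by
      simp [E, hdv, h1]
    rw [this]
    exact he _ _ hdv i hi' rfl rfl h1 h2

/-- The vertices along a shortest walk are at the expected distance from the start. -/
lemma dist_getVert_of_geodesic (hT : G.IsTree) {u v : V} (w : G.Walk u v)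
    (hw : w.length = G.dist u v) {i : ℕ} (hi : i ≤ w.length) : G.dist u (w.getVert i) = i := by
  have h1 : G.dist u (w.getVert i) ≤ (w.take i).length := dist_le _
  have h2 : G.dist (w.getVert i) v ≤ (w.drop i).length := dist_le _
  have h3 : (w.take i).length = i := by simp [hi]
  have h4 : (w.drop i).length = w.length - i := by simp
  have h5 := hT.connected.dist_triangle (u := u) (v := w.getVert i) (w := v)
  omega

/-- Two-point homogeneity. -/
theorem exists_aut_of_dist_eq [G.LocallyFinite] {d : ℕ} (hT : G.IsTree)
    (hreg : G.IsRegularOfDegree d) {u v u' v' : V} (h : G.dist u v = G.dist u' v') :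
    ∃ φ : G ≃g G, φ u = u' ∧ φ v = v' := by
  obtain ⟨w, hw⟩ := hT.connected.exists_walk_length_eq_dist u v
  obtain ⟨w', hw'⟩ := hT.connected.exists_walk_length_eq_dist u' v'
  have hl : w.length = w'.length := by omega
  obtain ⟨φ, hφ⟩ := exists_aut_of_geodesic hT hreg w.length w.getVert w'.getVert
    (fun i hi => w.adj_getVert_succ hi)
    (fun i hi => w'.adj_getVert_succ (hl ▸ hi))
    (fun i hi => by simpa using dist_getVert_of_geodesic hT w hw hi)
    (fun i hi => by simpa using dist_getVert_of_geodesic hT w' hw' (hl ▸ hi))
  refine ⟨φ, ?_, ?_⟩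
  · simpa using hφ 0 (Nat.zero_le _)
  · have h1 := hφ w.length le_rfl
    have h2 : w.getVert w.length = v := w.getVert_length
    have h3 : w'.getVert w.length = v' := by rw [hl]; exact w'.getVert_length
    rw [h2, h3] at h1
    exact h1

end Crest.Agent.IsingFactor.TreeAut
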