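import Crest.Agent.IsingFactor.TreeBall
import Crest.Agent.IsingFactor.TreeAutCore

/-!
# IsingFactor.TreeAut (WP IF-TreeAut): homogeneity of the regular tree and automorphism invariance of the constructions.
Proof idea for `exists_aut_of_geo`: back and forth on the countable set `V` (or level by level from `x 0`): a finite isometry between convex
sets extends by one vertex: a new vertex adjacent to `a ∈ A` is sent to a neighbour of `f a` outside `B`; `a` and `f a` have the same number
of neighbours outside `A`, `B`.  Zorn on partial isometries between convex (maybe infinite) sets is also fine.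
Statements may be ADDED; do not change the ones below without posting on chat (topic S0241), other packages use them.
-/

set_option autoImplicit false

namespace Crest.Agent.IsingFactor

variable {V : Type*} [DecidableEq V] {G : SimpleGraph V}

section regular
variable {q : ℕ} (hT : G.IsTree) [G.LocallyFinite] (hreg : G.IsRegularOfDegree (q + 1))
include hT hreg

/-- Homogeneity: the automorphism group is transitive on geodesic paths of a given length. -/
theorem exists_aut_of_geo {x y : ℕ → V} {k : ℕ} (hx : IsGeo G x k) (hy : IsGeo G y k) :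
    ∃ g : G ≃g G, ∀ i ≤ k, g (x i) = y i := by
  have hadj : ∀ {z : ℕ → V}, IsGeo G z k → ∀ i < k, G.Adj (z i) (z (i + 1)) := by
    intro z hz i hi
    have := hz i (i + 1) (by omega) (by omega)
    rw [show Nat.dist i (i + 1) = 1 by simp [Nat.dist]] at this
    exact SimpleGraph.dist_eq_one_iff_adj.mp this
  have hd : ∀ {z : ℕ → V}, IsGeo G z k → ∀ i ≤ k, G.dist (z 0) (z i) = i := by
    intro z hz i hi
    have := hz 0 i (by omega) hi
    rwa [show Nat.dist 0 i = i by simp [Nat.dist]] at this
  exact TreeAut.exists_aut_of_geodesic hT hreg k x y (hadj hx) (hadj hy) (hd hx) (hd hy)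

/-- Every geodesic path can be prolonged. -/
theorem exists_prolong {x : ℕ → V} {k : ℕ} (hx : IsGeo G x k) (hq : 1 ≤ q) :
    ∃ y : ℕ → V, IsGeo G y (k + 1) ∧ ∀ i ≤ k, y i = x i := by
  -- a neighbour of `x k` different from the previous vertex
  have hdeg : 2 ≤ (G.neighborFinset (x k)).card := by
    rw [SimpleGraph.card_neighborFinset_eq_degree, hreg (x k)]
    omega
  obtain ⟨z, hz, hz'⟩ : ∃ z ∈ G.neighborFinset (x k), ∀ m, k = m + 1 → z ≠ x m := by
    by_cases hn : ∃ m, k = m + 1
    · obtain ⟨m, rfl⟩ := hn
      have : 0 < ((G.neighborFinset (x (m + 1))).erase (x m)).card := by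
        have := Finset.pred_card_le_card_erase (s := G.neighborFinset (x (m + 1))) (a := x m)
        omega
      obtain ⟨z, hz⟩ := Finset.card_pos.mp this
      refine ⟨z, (Finset.mem_erase.mp hz).2, ?_⟩
      intro m' hm'
      have : m' = m := by omega
      subst this
      exact (Finset.mem_erase.mp hz).1
    · have : 0 < (G.neighborFinset (x k)).card := by omega
      obtain ⟨z, hz⟩ := Finset.card_pos.mp this
      exact ⟨z, hz, fun m hm => absurd ⟨m, hm⟩ hn⟩
  have hzadj : G.Adj (x k) z := by simpa using hz
  have hadjx : ∀ i < k, G.Adj (x i) (x (i + 1)) := by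
    intro i hi
    have := hx i (i + 1) (by omega) (by omega)
    rw [show Nat.dist i (i + 1) = 1 by simp [Nat.dist]] at this
    exact SimpleGraph.dist_eq_one_iff_adj.mp this
  -- distance from `x i` to `z`
  have hdist : ∀ i ≤ k, G.dist (x i) z = k + 1 - i := by
    intro i hi
    rcases hT.dist_eq_dist_add_one_of_adj (x i) hzadj with h | h
    · exfalso
      have h1 : G.dist (x i) (x k) = k - i := by
        rw [hx i k hi le_rfl]
        simp only [Nat.dist]
        omega
      have hik : i < k := by
        by_contra hc
        have : i = k := by omega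
        subst this
        simp only [SimpleGraph.dist_self] at h
        omega
      obtain ⟨m, rfl⟩ : ∃ m, k = m + 1 := ⟨k - 1, by omega⟩
      have h2 : G.dist (x i) (x m) = m - i := by
        rw [hx i m hi (by omega)]
        simp only [Nat.dist]
        omega
      have e1 : TreeAut.par hT (x i) (x (m + 1)) = z :=
        TreeAut.par_eq hT hzadj.symm h
      have e2 : TreeAut.par hT (x i) (x (m + 1)) = x m :=
        TreeAut.par_eq hT (hadjx m (by omega)) (by omega)
      exact hz' m rfl (e1.symm.trans e2)
    · have h1 : G.dist (x i) (x k) = k - i := by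
        rw [hx i k hi le_rfl]
        simp only [Nat.dist]
        omega
      omega
  refine ⟨Function.update x (k + 1) z, ?_, ?_⟩
  · have key : ∀ i ≤ k, Function.update x (k + 1) z i = x i := fun i hi =>
      Function.update_of_ne (by omega) _ _
    have top : Function.update x (k + 1) z (k + 1) = z := Function.update_self _ _ _
    intro i j hi hj
    rcases Nat.lt_or_ge i (k + 1) with hi' | hi' <;> rcases Nat.lt_or_ge j (k + 1) with hj' | hj'
    · rw [key i (by omega), key j (by omega)]
      exact hx i j (by omega) (by omega)
    · have : j = k + 1 := by omega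
      subst this
      rw [key i (by omega), top, hdist i (by omega)]
      simp only [Nat.dist]
      omega
    · have : i = k + 1 := by omega
      subst this
      rw [key j (by omega), top, SimpleGraph.dist_comm, hdist j (by omega)]
      simp only [Nat.dist]
      omega
    · have h1 : i = k + 1 := by omega
      have h2 : j = k + 1 := by omega
      subst h1
      subst h2
      simp [Nat.dist]
  · intro i hi
    exact Function.update_of_ne (by omega) _ _

end regular

section aut
variable [G.LocallyFinite] (g : G ≃g G)

omit [DecidableEq V] [G.LocallyFinite] in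
/-- Distances cannot increase under an isomorphism. -/
private lemma dist_aut_le (g : G ≃g G) (a b : V) : G.dist (g a) (g b) ≤ G.dist a b := by
  by_cases h : G.Reachable a b
  · obtain ⟨w, hw⟩ := h.exists_walk_length_eq_dist
    have := SimpleGraph.dist_le (w.map g.toHom)
    rw [SimpleGraph.Walk.length_map, hw] at this
    exact this
  · have h' : ¬ G.Reachable (g a) (g b) := by
      intro hr
      apply h
      have hr' := hr.map g.symm.toHom
      simpa using hr'
    rw [SimpleGraph.dist_eq_zero_of_not_reachable h']
    exact Nat.zero_le _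

omit [DecidableEq V] [G.LocallyFinite] in
theorem dist_aut (a b : V) : G.dist (g a) (g b) = G.dist a b := by
  apply le_antisymm (dist_aut_le g a b)
  have := dist_aut_le g.symm (g a) (g b)
  simpa using this

omit [DecidableEq V] in
private lemma mem_neighbor_aut (w z : V) :
    z ∈ G.neighborFinset (g w) ↔ g.symm z ∈ G.neighborFinset w := by
  simp only [SimpleGraph.mem_neighborFinset]
  rw [← g.map_adj_iff (v := w) (w := g.symm z)]
  simp

theorem tball_aut (c : V) (r : ℕ) : tball G (g c) r = (tball G c r).image g := by
  induction' r with r ih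
  · simp [tball]
  · simp only [tball]
    ext z
    simp only [Finset.mem_union, Finset.mem_biUnion, Finset.mem_image, ih]
    constructor
    · rintro (⟨a, ha, rfl⟩ | ⟨w, ⟨a, ha, rfl⟩, hz⟩)
      · exact ⟨a, Or.inl ha, rfl⟩
      · refine ⟨g.symm z, Or.inr ⟨a, ha, (mem_neighbor_aut g a z).mp hz⟩, by simp⟩
    · rintro ⟨a, ha | ⟨w, hw, hwa⟩, rfl⟩
      · exact Or.inl ⟨a, ha, rfl⟩
      · refine Or.inr ⟨g w, ⟨w, hw, rfl⟩, ?_⟩
        rw [mem_neighbor_aut]
        simpa using hwa

theorem tsub_aut (y x : V) (n : ℕ) : tsub G (g y) (g x) n = (tsub G y x n).image g := by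
  simp only [tsub, sideF, tball_aut]
  ext z
  simp only [Finset.mem_filter, Finset.mem_image]
  constructor
  · rintro ⟨⟨a, ha, rfl⟩, h⟩
    rw [dist_aut, dist_aut] at h
    exact ⟨a, ⟨ha, h⟩, rfl⟩
  · rintro ⟨a, ⟨ha, h⟩, rfl⟩
    refine ⟨⟨a, ha, rfl⟩, ?_⟩
    rw [dist_aut, dist_aut]
    exact h

omit [G.LocallyFinite] in
private lemma stepTo_aut (hT : G.IsTree) {u w : V} (h : w ≠ u) :
    stepTo G (g u) (g w) = g (stepTo G u w) := by
  have hne : g w ≠ g u := fun he => h (g.injective he)
  obtain ⟨h1, h2⟩ := stepTo_spec hT hne
  obtain ⟨h3, h4⟩ := stepTo_spec hT h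
  have h5 : G.Adj (g w) (g (stepTo G u w)) := g.map_adj_iff.mpr h3
  have h6 : G.dist (g (stepTo G u w)) (g u) + 1 = G.dist (g w) (g u) := by
    rw [dist_aut, dist_aut]; exact h4
  rcases adj_cases hT h5 with ⟨_, h7⟩ | h7
  · exact h7.symm
  · omega

omit [G.LocallyFinite] in
theorem pathV_aut (hT : G.IsTree) (v u : V) (j : ℕ) (hj : j ≤ G.dist v u) :
    pathV G (g v) (g u) j = g (pathV G v u j) := by
  induction' j with j ih
  · rfl
  · have hj' : j ≤ G.dist v u := by omega
    have h1 := ih hj'
    have hne : pathV G v u j ≠ u := by
      intro he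
      have h2 := isGeo_pathV hT v u j (G.dist v u) hj' le_rfl
      rw [pathV_end hT, he, SimpleGraph.dist_self] at h2
      simp only [Nat.dist] at h2
      omega
    have e1 : ∀ (a b : V) (n : ℕ), pathV G a b (n + 1) = stepTo G b (pathV G a b n) := by
      intro a b n
      simp only [pathV, Function.iterate_succ_apply']
    rw [e1, h1, stepTo_aut g hT hne, e1]

end aut

end Crest.Agent.IsingFactor
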