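import Crest.Agent.IsingFactor.TreeBasic

/-!
# IsingFactor.TreeBall (WP IF-TreeBall): balls, regular subtrees, children, sphere counts.
Statements may be ADDED; do not change the ones below without posting on chat (topic S0241), other packages use them.
-/

set_option autoImplicit false
set_option linter.unusedSectionVars false

namespace Crest.Agent.IsingFactor

variable {V : Type*} [DecidableEq V] {G : SimpleGraph V}

section basic
variable (hT : G.IsTree)
include hT

theorem mem_tball [G.LocallyFinite] {c w : V} {r : ℕ} : w ∈ tball G c r ↔ G.dist c w ≤ r := by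
  induction r generalizing w with
  | zero =>
    simp only [tball, Finset.mem_singleton, Nat.le_zero]
    constructor
    · rintro rfl
      simp
    · intro h
      exact (tdist_zero hT h).symm
  | succ r ih =>
    simp only [tball, Finset.mem_union, Finset.mem_biUnion, SimpleGraph.mem_neighborFinset, ih]
    constructor
    · rintro (h | ⟨a, ha, hadj⟩)
      · omega
      · have h1 := ttri hT c a w
        have h2 := tdist_one hT hadj
        omega
    · intro h
      by_cases h1 : G.dist c w ≤ r
      · exact Or.inl h1
      · right
        have hne : w ≠ c := by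
          rintro rfl
          simp at h1
        obtain ⟨h2, h3⟩ := stepTo_spec hT hne
        refine ⟨stepTo G c w, ?_, h2.symm⟩
        rw [tdc c (stepTo G c w)]
        rw [tdc c w] at h h1
        omega

/-- Connected locally finite graphs are countable. -/
theorem countable_of_isTree [G.LocallyFinite] : Countable V := by
  obtain ⟨c⟩ := hT.connected.nonempty
  have h : (Set.univ : Set V) = ⋃ r : ℕ, (tball G c r : Set V) := by
    ext w
    simp only [Set.mem_univ, Set.mem_iUnion, Finset.mem_coe, true_iff]
    exact ⟨_, (mem_tball hT).2 le_rfl⟩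
  have hc : (Set.univ : Set V).Countable := by
    rw [h]
    exact Set.countable_iUnion (fun r => (tball G c r).countable_toSet)
  exact Set.countable_univ_iff.1 hc

theorem conv_tball [G.LocallyFinite] (c : V) (r : ℕ) : Conv G (tball G c r) := by
  intro a ha b hb w hw
  rw [mem_tball hT] at ha hb ⊢
  by_contra hc
  have hne : w ≠ c := by
    rintro rfl
    simp at hc
  obtain ⟨h1, h2⟩ := stepTo_spec hT hne
  have e1 := tdc (G := G) c (stepTo G c w)
  have e2 := tdc (G := G) c w
  have side : ∀ z, G.dist c z ≤ r → G.dist z (stepTo G c w) < G.dist z w := by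
    intro z hz
    by_contra h
    have h' : G.dist z w < G.dist z (stepTo G c w) := by
      rcases dist_adj_cases hT h1 z with h3 | h3 <;> omega
    have h4 := dist_across hT h1.symm (x := c) (y := z) (by omega) h'
    omega
  have ha' := side a ha
  have hb' := side b hb
  have h3 := dist_adj_cases hT h1 a
  have h4 := dist_adj_cases hT h1 b
  have h5 := ttri hT a (stepTo G c w) b
  have e3 := tdc (G := G) w b
  have e4 := tdc (G := G) (stepTo G c w) b
  omega

theorem conv_tsub [G.LocallyFinite] {y x : V} (hyx : G.Adj y x) (n : ℕ) :
    Conv G (tsub G y x n) :=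
  conv_sideF hT (conv_tball hT y n) hyx

theorem mem_tsub [G.LocallyFinite] {y x w : V} {n : ℕ} :
    w ∈ tsub G y x n ↔ G.dist y w ≤ n ∧ G.dist w y < G.dist w x := by
  simp only [tsub, sideF, Finset.mem_filter, mem_tball hT]

/-- `sideF` of a ball on an edge pointing towards its centre is a regular subtree. -/
theorem sideF_tball_eq_tsub [G.LocallyFinite] {y x : V} (hyx : G.Adj y x) (n : ℕ) :
    sideF G (tball G x (n + 1)) y x = tsub G y x n := by
  ext w
  rw [mem_tsub hT]
  simp only [sideF, Finset.mem_filter, mem_tball hT]
  have e1 := tdc (G := G) x w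
  have e2 := tdc (G := G) y w
  have h := dist_adj_cases hT hyx w
  constructor
  · rintro ⟨h1, h2⟩
    exact ⟨by omega, h2⟩
  · rintro ⟨h1, h2⟩
    exact ⟨by omega, h2⟩

theorem tparent_uniq2 {w y s s' : V} (hs : G.Adj y s) (hs' : G.Adj y s')
    (h : G.dist w s < G.dist w y) (h' : G.dist w s' < G.dist w y) : s = s' := by
  have h1 := dist_adj_cases hT hs w
  have h2 := dist_adj_cases hT hs' w
  exact TreeAut.parent_unique hT (r := w) hs.symm hs'.symm (by omega) (by omega)

/-- Children decomposition of a subtree. -/
theorem tsub_succ [G.LocallyFinite] {y x : V} (hyx : G.Adj y x) (n : ℕ) :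
    tsub G y x (n + 1) = {y} ∪ (childF G y x).biUnion (fun s => tsub G s y n) := by
  ext w
  simp only [Finset.mem_union, Finset.mem_singleton, Finset.mem_biUnion, mem_tsub hT, mem_childF]
  have hyx1 := tdist_one hT hyx
  constructor
  · rintro ⟨h1, h2⟩
    by_cases hw : w = y
    · exact Or.inl hw
    · right
      have hne : y ≠ w := fun h => hw h.symm
      obtain ⟨h3, h4⟩ := stepTo_spec hT hne
      have e1 := tdc (G := G) y w
      have e2 := tdc (G := G) w (stepTo G w y)
      refine ⟨stepTo G w y, ⟨?_, h3⟩, by omega, by omega⟩
      intro h5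
      rw [h5] at h4 e2
      have e3 := tdc (G := G) x w
      omega
  · rintro (rfl | ⟨s, ⟨h1, h2⟩, h3, h4⟩)
    · have : G.dist w x ≠ 0 := by
        rw [hyx1]
        omega
      simp only [SimpleGraph.dist_self]
      omega
    · have e1 := tdc (G := G) y w
      have e2 := tdc (G := G) s w
      have h5 := dist_adj_cases hT h2 w
      refine ⟨by omega, ?_⟩
      by_contra h6
      have h7 := dist_adj_cases hT hyx w
      exact h1 (tparent_uniq2 hT h2 hyx h4 (by omega))

theorem tsub_disjoint [G.LocallyFinite] {y x s s' : V} (hyx : G.Adj y x) (hs : s ∈ childF G y x)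
    (hs' : s' ∈ childF G y x) (hne : s ≠ s') (n n' : ℕ) :
    Disjoint (tsub G s y n) (tsub G s' y n') := by
  rw [Finset.disjoint_left]
  intro w hw hw'
  rw [mem_tsub hT] at hw hw'
  exact hne (tparent_uniq2 hT (mem_childF.1 hs).2 (mem_childF.1 hs').2 hw.2 hw'.2)

theorem notMem_tsub_child [G.LocallyFinite] {y x s : V} (hs : s ∈ childF G y x) (n : ℕ) :
    y ∉ tsub G s y n := by
  rw [mem_tsub hT]
  simp

theorem mem_tsub_self [G.LocallyFinite] {y x : V} (hyx : G.Adj y x) (n : ℕ) : y ∈ tsub G y x n := by
  rw [mem_tsub hT]
  have hyx1 := tdist_one hT hyx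
  simp [hyx1]

/-- The only edges between `y` and the child subtrees are `{y, s}`; between two child subtrees there
are none. -/
theorem adj_tsub_child [G.LocallyFinite] {y x s w : V} (hs : s ∈ childF G y x) {n : ℕ}
    (hw : w ∈ tsub G s y n) (h : G.Adj y w) : w = s := by
  rw [mem_tsub hT] at hw
  have h1 := tdist_one hT h.symm
  exact tdist_zero hT (by omega)

theorem not_adj_tsub_child [G.LocallyFinite] {y x s s' w w' : V} (hs : s ∈ childF G y x)
    (hs' : s' ∈ childF G y x) (hne : s ≠ s') {n n' : ℕ} (hw : w ∈ tsub G s y n)
    (hw' : w' ∈ tsub G s' y n') : ¬ G.Adj w w' := by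
  intro hadj
  have hw2 := hw
  have hw2' := hw'
  rw [mem_tsub hT] at hw2 hw2'
  have hsy := (mem_childF.1 hs).2.symm
  have h1 : G.dist w' y < G.dist w' s := by
    by_contra h
    have h2 := dist_adj_cases hT hsy w'
    exact hne (tparent_uniq2 hT hsy.symm (mem_childF.1 hs').2 (by omega) hw2'.2)
  obtain ⟨_, h3⟩ := adj_across hT hsy hw2.2 h1 hadj
  rw [h3] at hw'
  exact notMem_tsub_child hT hs' _ hw'

end basic

section regular
variable {q : ℕ} (hT : G.IsTree) [G.LocallyFinite] (hreg : G.IsRegularOfDegree (q + 1))
include hT hreg

theorem card_childF {y x : V} (hyx : G.Adj y x) : (childF G y x).card = q := by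
  unfold childF
  rw [Finset.card_erase_of_mem (by simpa using hyx), SimpleGraph.card_neighborFinset_eq_degree,
    hreg.degree_eq y]
  rfl

/-- Number of vertices at depth `k` in `T(y → x)`. -/
theorem card_sphere_side {y x : V} (hyx : G.Adj y x) (k : ℕ) :
    ((tsub G y x k).filter (fun w => G.dist y w = k)).card = q ^ k := by
  induction k generalizing y x with
  | zero =>
    have : (tsub G y x 0).filter (fun w => G.dist y w = 0) = {y} := by
      ext w
      simp only [Finset.mem_filter, mem_tsub hT, Finset.mem_singleton]
      constructor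
      · rintro ⟨_, h⟩
        exact (tdist_zero hT h).symm
      · rintro rfl
        have hyx1 := tdist_one hT hyx
        simp [hyx1]
    rw [this]
    simp
  | succ k ih =>
    have h : (tsub G y x (k + 1)).filter (fun w => G.dist y w = k + 1) =
        (childF G y x).biUnion (fun s => (tsub G s y k).filter (fun w => G.dist s w = k)) := by
      ext w
      simp only [Finset.mem_filter, Finset.mem_biUnion]
      constructor
      · rintro ⟨h1, h2⟩
        rw [tsub_succ hT hyx] at h1
        simp only [Finset.mem_union, Finset.mem_singleton, Finset.mem_biUnion] at h1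
        rcases h1 with rfl | ⟨s, hs, hw⟩
        · simp at h2
        · refine ⟨s, hs, hw, ?_⟩
          have hw2 := (mem_tsub hT).1 hw
          have h3 := dist_adj_cases hT (mem_childF.1 hs).2 w
          have e1 := tdc (G := G) y w
          have e2 := tdc (G := G) s w
          omega
      · rintro ⟨s, hs, hw, h2⟩
        refine ⟨?_, ?_⟩
        · rw [tsub_succ hT hyx]
          simp only [Finset.mem_union, Finset.mem_singleton, Finset.mem_biUnion]
          exact Or.inr ⟨s, hs, hw⟩
        · have hw2 := (mem_tsub hT).1 hw
          have h3 := dist_adj_cases hT (mem_childF.1 hs).2 w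
          have e1 := tdc (G := G) y w
          have e2 := tdc (G := G) s w
          omega
    rw [h, Finset.card_biUnion]
    · have : ∀ s ∈ childF G y x, ((tsub G s y k).filter (fun w => G.dist s w = k)).card = q ^ k :=
        fun s hs => ih (mem_childF.1 hs).2.symm
      rw [Finset.sum_congr rfl this, Finset.sum_const, card_childF hT hreg hyx, smul_eq_mul,
        pow_succ]
      ring
    · intro s hs s' hs' hne
      exact (tsub_disjoint hT hyx hs hs' hne k k).mono (Finset.filter_subset _ _)
        (Finset.filter_subset _ _)

/-- Number of vertices at distance `k` from `v`. -/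
theorem card_sphere (v : V) (k : ℕ) :
    ((tball G v k).filter (fun w => G.dist v w = k)).card = if k = 0 then 1 else (q + 1) * q ^ (k - 1) := by
  cases k with
  | zero =>
    have : (tball G v 0).filter (fun w => G.dist v w = 0) = {v} := by
      ext w
      simp only [Finset.mem_filter, mem_tball hT, Finset.mem_singleton]
      constructor
      · rintro ⟨_, h⟩
        exact (tdist_zero hT h).symm
      · rintro rfl
        simp
    rw [this]
    simp
  | succ k =>
    obtain ⟨x, hx⟩ : ∃ x, G.Adj v x := by
      have h : 0 < G.degree v := by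
        rw [hreg.degree_eq v]
        omega
      exact (G.degree_pos_iff_exists_adj v).1 h
    have h : (tball G v (k + 1)).filter (fun w => G.dist v w = k + 1) =
        (tsub G v x (k + 1)).filter (fun w => G.dist v w = k + 1) ∪
          (tsub G x v k).filter (fun w => G.dist x w = k) := by
      ext w
      simp only [Finset.mem_filter, Finset.mem_union, mem_tball hT, mem_tsub hT]
      have h1 := dist_adj_cases hT hx w
      have e1 := tdc (G := G) v w
      have e2 := tdc (G := G) x w
      constructor
      · rintro ⟨h2, h3⟩
        rcases h1 with h1 | h1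
        · right
          omega
        · left
          omega
      · rintro (⟨⟨h2, h3⟩, h4⟩ | ⟨⟨h2, h3⟩, h4⟩)
        · omega
        · omega
    rw [h, Finset.card_union_of_disjoint, card_sphere_side hT hreg hx,
      card_sphere_side hT hreg hx.symm]
    · simp only [Nat.succ_ne_zero, if_false, Nat.add_sub_cancel, pow_succ]
      ring
    · rw [Finset.disjoint_left]
      intro w hw hw'
      have h1 := ((mem_tsub hT).1 (Finset.mem_filter.1 hw).1).2
      have h2 := ((mem_tsub hT).1 (Finset.mem_filter.1 hw').1).2
      omega

end regular

end Crest.Agent.IsingFactor
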