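import Crest.Agent.IsingFactor.Defs
import Crest.Agent.IsingFactor.TreeAutCore

/-!
# IsingFactor.TreeBasic (WP IF-TreeBasic): distances, steps, geodesics and convex sets in a tree.
Statements may be ADDED; do not change the ones below without posting on chat (topic S0241), other packages use them.
-/

set_option autoImplicit false
set_option linter.unusedSectionVars false

namespace Crest.Agent.IsingFactor

variable {V : Type*} [DecidableEq V] {G : SimpleGraph V}

/-- `x 0, …, x k` is a geodesic path. -/
def IsGeo (G : SimpleGraph V) (x : ℕ → V) (k : ℕ) : Prop :=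
  ∀ i j, i ≤ k → j ≤ k → G.dist (x i) (x j) = Nat.dist i j

/-- The neighbours of `y` other than `x` (the children of `y` when `x` is its parent). -/
noncomputable def childF (G : SimpleGraph V) [G.LocallyFinite] (y x : V) : Finset V :=
  (G.neighborFinset y).erase x

theorem pathV_zero (v u : V) : pathV G v u 0 = v := rfl

theorem pathV_succ (v u : V) (j : ℕ) : pathV G v u (j + 1) = stepTo G u (pathV G v u j) :=
  Function.iterate_succ_apply' _ _ _

theorem pathV_succ' (v u : V) (j : ℕ) : pathV G v u (j + 1) = pathV G (stepTo G u v) u j :=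
  Function.iterate_succ_apply _ _ _

theorem mem_childF [G.LocallyFinite] {y x s : V} :
    s ∈ childF G y x ↔ s ≠ x ∧ G.Adj y s := by
  simp [childF]

theorem tdc (a b : V) : G.dist a b = G.dist b a := SimpleGraph.dist_comm

section basic
variable (hT : G.IsTree)
include hT

theorem ttri (a b c : V) : G.dist a c ≤ G.dist a b + G.dist b c :=
  hT.connected.dist_triangle

theorem tdist_zero {a b : V} (h : G.dist a b = 0) : a = b :=
  hT.connected.dist_eq_zero_iff.1 h

theorem tdist_one {a b : V} (h : G.Adj a b) : G.dist a b = 1 :=
  SimpleGraph.dist_eq_one_iff_adj.2 h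

/-- For adjacent `a, b` every vertex is one step closer to one of them. -/
theorem dist_adj_cases {a b : V} (hab : G.Adj a b) (w : V) :
    G.dist w a = G.dist w b + 1 ∨ G.dist w b = G.dist w a + 1 :=
  hT.dist_eq_dist_add_one_of_adj w hab

/-- The step towards `u`. -/
theorem stepTo_spec {u w : V} (h : w ≠ u) :
    G.Adj w (stepTo G u w) ∧ G.dist (stepTo G u w) u + 1 = G.dist w u := by
  classical
  obtain ⟨a, ha, hd⟩ := TreeAut.exists_parent hT u h
  have hex : ∃ w', G.Adj w w' ∧ G.dist w' u + 1 = G.dist w u :=
    ⟨a, ha.symm, by rw [tdc a u, tdc w u]; omega⟩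
  unfold stepTo
  rw [dif_pos hex]
  exact hex.choose_spec

/-- Parents are unique (distance form, `r` on the right). -/
theorem tparent_uniq {r a b v : V} (ha : G.Adj v a) (hb : G.Adj v b)
    (hda : G.dist a r + 1 = G.dist v r) (hdb : G.dist b r + 1 = G.dist v r) : a = b :=
  TreeAut.parent_unique hT (r := r) ha.symm hb.symm
    (by rw [tdc r v, tdc r a]; omega) (by rw [tdc r v, tdc r b]; omega)

/-- A neighbour of `w` is either the step towards `u`, or one step further from `u`. -/
theorem adj_cases {u w w' : V} (h : G.Adj w w') :
    (w ≠ u ∧ w' = stepTo G u w) ∨ G.dist w' u = G.dist w u + 1 := by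
  rcases dist_adj_cases hT h u with h1 | h1
  · left
    have hne : w ≠ u := by
      rintro rfl
      simp at h1
    refine ⟨hne, ?_⟩
    obtain ⟨h2, h3⟩ := stepTo_spec hT hne
    exact tparent_uniq hT (r := u) h h2 (by rw [tdc w' u, tdc w u]; omega) h3
  · right
    rw [tdc w' u, tdc w u]; exact h1

private lemma dist_pathV_right (v u : V) (j : ℕ) (hj : j ≤ G.dist v u) :
    G.dist (pathV G v u j) u + j = G.dist v u := by
  induction j with
  | zero => simp [pathV_zero]
  | succ j ih =>
    have h := ih (by omega)
    have hne : pathV G v u j ≠ u := by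
      intro he
      rw [he] at h
      simp at h
      omega
    obtain ⟨_, h3⟩ := stepTo_spec hT hne
    rw [pathV_succ]
    omega

theorem adj_pathV {v u : V} {j : ℕ} (hj : j < G.dist v u) :
    G.Adj (pathV G v u j) (pathV G v u (j + 1)) := by
  have h := dist_pathV_right hT v u j hj.le
  have hne : pathV G v u j ≠ u := by
    intro he
    rw [he] at h
    simp at h
    omega
  rw [pathV_succ]
  exact (stepTo_spec hT hne).1

/-- A sequence with adjacent steps that approaches the end at unit speed is a geodesic. -/
theorem isGeo_of_adj {x : ℕ → V} {k : ℕ} (hadj : ∀ j < k, G.Adj (x j) (x (j + 1)))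
    (hd : ∀ j ≤ k, G.dist (x j) (x k) + j = k) : IsGeo G x k := by
  have up : ∀ i m, i + m ≤ k → G.dist (x i) (x (i + m)) ≤ m := by
    intro i m
    induction m with
    | zero => intro _; simp
    | succ m ih =>
      intro h
      have h1 := ih (by omega)
      have h2 := tdist_one hT (hadj (i + m) (by omega))
      have h3 := ttri hT (x i) (x (i + m)) (x (i + m + 1))
      rw [← add_assoc]
      omega
  have key : ∀ i j, i ≤ j → j ≤ k → G.dist (x i) (x j) = j - i := by
    intro i j hij hj
    have h1 := up i (j - i) (by omega)
    rw [show i + (j - i) = j by omega] at h1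
    have h2 := ttri hT (x i) (x j) (x k)
    have h3 := hd i (by omega)
    have h4 := hd j hj
    omega
  intro i j hi hj
  rcases le_total i j with h | h
  · rw [key i j h hj, Nat.dist]
    omega
  · rw [tdc, key j i h hi, Nat.dist]
    omega

theorem isGeo_pathV (v u : V) : IsGeo G (pathV G v u) (G.dist v u) := by
  refine isGeo_of_adj hT (fun j hj => adj_pathV hT hj) (fun j hj => ?_)
  have h := dist_pathV_right hT v u (G.dist v u) le_rfl
  have h0 : G.dist (pathV G v u (G.dist v u)) u = 0 := by omega
  have he := tdist_zero hT h0
  rw [he]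
  exact dist_pathV_right hT v u j hj

theorem pathV_end (v u : V) : pathV G v u (G.dist v u) = u := by
  have h := dist_pathV_right hT v u (G.dist v u) le_rfl
  exact tdist_zero hT (by omega)

/-- A geodesic path is the `pathV` of its endpoints. -/
theorem isGeo_eq_pathV {x : ℕ → V} {k : ℕ} (hx : IsGeo G x k) {j : ℕ} (hj : j ≤ k) :
    x j = pathV G (x 0) (x k) j := by
  induction j with
  | zero => rfl
  | succ j ih =>
    rw [pathV_succ, ← ih (by omega)]
    have h1 := hx j (j + 1) (by omega) hj
    have h2 : Nat.dist j (j + 1) = 1 := by rw [Nat.dist]; omega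
    rw [h2] at h1
    have hadj : G.Adj (x j) (x (j + 1)) := SimpleGraph.dist_eq_one_iff_adj.1 h1
    rcases adj_cases hT (u := x k) hadj with ⟨_, h⟩ | h
    · exact h
    · exfalso
      have h3 := hx (j + 1) k hj le_rfl
      have h4 := hx j k (by omega) le_rfl
      rw [Nat.dist] at h3 h4
      omega

/-- The geodesic from `v` to `u` passes through `w` iff distances add. -/
theorem dist_add_eq_iff_mem_path {v u w : V} :
    G.dist v w + G.dist w u = G.dist v u ↔ ∃ j ≤ G.dist v u, w = pathV G v u j := by
  constructor
  · intro h
    have key : ∀ n (v : V), G.dist v w = n → G.dist v w + G.dist w u = G.dist v u →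
        ∃ j ≤ G.dist v u, w = pathV G v u j := by
      intro n
      induction n with
      | zero =>
        intro v hn _
        have := tdist_zero hT hn
        subst this
        exact ⟨0, Nat.zero_le _, rfl⟩
      | succ n ih =>
        intro v hn h
        have hne : v ≠ w := by
          rintro rfl
          simp at hn
        obtain ⟨h1, h2⟩ := stepTo_spec hT hne
        have hne' : v ≠ u := by
          have h0 : G.dist v u ≠ 0 := by omega
          intro he
          rw [he] at h0
          simp at h0
        have h5 := ttri hT (stepTo G w v) w u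
        have hs : stepTo G w v = stepTo G u v := by
          rcases adj_cases hT (u := u) h1 with ⟨_, h3⟩ | h3
          · exact h3
          · exfalso
            omega
        rw [hs] at h2 h5
        obtain ⟨h3, h4⟩ := stepTo_spec hT hne'
        obtain ⟨j, hj, hw⟩ := ih (stepTo G u v) (by omega) (by omega)
        refine ⟨j + 1, by omega, ?_⟩
        rw [pathV_succ']
        exact hw
    exact key _ v rfl h
  · rintro ⟨j, hj, rfl⟩
    have h1 := isGeo_pathV hT v u 0 j (Nat.zero_le _) hj
    have h2 := dist_pathV_right hT v u j hj
    rw [pathV_zero, Nat.dist] at h1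
    omega

/-- Only one edge crosses between the two sides of `{a, b}`. -/
theorem adj_across {a b x y : V} (hab : G.Adj a b) (hx : G.dist x a < G.dist x b)
    (hy : G.dist y b < G.dist y a) (hxy : G.Adj x y) : x = a ∧ y = b := by
  have hy' : G.dist y a = G.dist y b + 1 := by
    rcases dist_adj_cases hT hab y with h | h <;> omega
  have hx' : G.dist x b = G.dist x a + 1 := by
    rcases dist_adj_cases hT hab x with h | h <;> omega
  have hxy1 := tdist_one hT hxy
  rcases dist_adj_cases hT hxy a with h | h
  · exfalso
    have h1 := ttri hT x y b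
    rw [tdc a x, tdc a y] at h
    omega
  · by_cases hyb : y = b
    · subst hyb
      refine ⟨?_, rfl⟩
      have h1 := tdist_one hT hab
      exact TreeAut.parent_unique hT (r := a) hxy hab (by omega) (by simp [h1])
    · exfalso
      obtain ⟨h1, h2⟩ := stepTo_spec hT hyb
      have h3 := ttri hT a b (stepTo G b y)
      have h4 := tdist_one hT hab
      rw [tdc b (stepTo G b y)] at h3
      have h5 : G.dist a y = G.dist a (stepTo G b y) + 1 := by
        rcases dist_adj_cases hT h1 a with h6 | h6
        · exact h6
        · rw [tdc a y] at h6 h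
          rw [tdc a y] at *
          omega
      have h6 : x = stepTo G b y :=
        TreeAut.parent_unique hT (r := a) hxy h1.symm (by omega) (by omega)
      rw [← h6] at h2 h5
      rw [tdc a x, tdc a y] at h5
      omega

/-- Removing the edge `{a, b}` separates: a path from the `a` side to the `b` side uses it. -/
theorem dist_across {a b x y : V} (hab : G.Adj a b) (hx : G.dist x a < G.dist x b)
    (hy : G.dist y b < G.dist y a) : G.dist x y = G.dist x a + 1 + G.dist b y := by
  classical
  obtain ⟨k, hk⟩ : ∃ k, k = G.dist x y := ⟨_, rfl⟩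
  have hend : pathV G x y k = y := by rw [hk]; exact pathV_end hT x y
  have hgeo := isGeo_pathV hT x y
  rw [← hk] at hgeo
  have hex : ∃ m, G.dist (pathV G x y m) b < G.dist (pathV G x y m) a :=
    ⟨k, by rw [hend]; exact hy⟩
  obtain ⟨m, hm1, hmin⟩ : ∃ m, G.dist (pathV G x y m) b < G.dist (pathV G x y m) a ∧
      ∀ l < m, ¬ G.dist (pathV G x y l) b < G.dist (pathV G x y l) a :=
    ⟨Nat.find hex, Nat.find_spec hex, fun l hl => Nat.find_min hex hl⟩
  have hmk : m ≤ k := by
    by_contra hc
    exact hmin k (by omega) (by rw [hend]; exact hy)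
  have hm0 : m ≠ 0 := by
    intro h0
    rw [h0, pathV_zero] at hm1
    omega
  obtain ⟨l, hl⟩ := Nat.exists_eq_succ_of_ne_zero hm0
  have hm2 := hmin l (by omega)
  have hm3 : G.dist (pathV G x y l) a < G.dist (pathV G x y l) b := by
    rcases dist_adj_cases hT hab (pathV G x y l) with h | h <;> omega
  rw [hl] at hm1
  have hadj : G.Adj (pathV G x y l) (pathV G x y (l + 1)) := adj_pathV hT (by omega)
  obtain ⟨h1, h2⟩ := adj_across hT hab hm3 hm1 hadj
  have h3 := hgeo 0 l (Nat.zero_le _) (by omega)
  have h4 := hgeo (l + 1) k (by omega) le_rfl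
  rw [pathV_zero, h1, Nat.dist] at h3
  rw [h2, hend, Nat.dist] at h4
  omega

/-- Any walk between `a` and `b` visits every vertex of the geodesic. -/
private lemma mem_support_of_dist_add {a b : V} (p : G.Walk a b) {w : V}
    (h : G.dist a w + G.dist w b = G.dist a b) : w ∈ p.support := by
  induction p with
  | @nil u =>
    have h0 : G.dist u w = 0 := by
      rw [SimpleGraph.dist_self] at h
      omega
    have := tdist_zero hT h0
    simp [this]
  | @cons a c b hac q ih =>
    rw [SimpleGraph.Walk.support_cons, List.mem_cons]
    have hac1 := tdist_one hT hac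
    have e1 := tdc (G := G) a w
    have e2 := tdc (G := G) c w
    have e3 := tdc (G := G) a b
    have e4 := tdc (G := G) c b
    have e5 := tdc (G := G) a c
    rcases dist_adj_cases hT hac b with h1 | h1
    · -- `b` on the `c` side
      rcases dist_adj_cases hT hac w with h2 | h2
      · right
        apply ih
        omega
      · left
        have h3 := dist_across hT hac (x := w) (y := b) (by omega) (by omega)
        have : G.dist w a = 0 := by omega
        exact tdist_zero hT this
    · right
      apply ih
      have h3 := ttri hT c a w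
      have h4 := ttri hT c w b
      omega

/-- Connected finite sets are geodesically convex. -/
theorem conv_of_connected {W : Finset V} (h : (G.induce (W : Set V)).Connected) : Conv G W := by
  intro a ha b hb w hw
  obtain ⟨p⟩ := h.preconnected ⟨a, ha⟩ ⟨b, hb⟩
  have hm := mem_support_of_dist_add hT (p.map (SimpleGraph.Embedding.induce (W : Set V)).toHom) hw
  rw [SimpleGraph.Walk.support_map, List.mem_map] at hm
  obtain ⟨z, _, hz⟩ := hm
  have : w = z.1 := hz.symm
  rw [this]
  exact z.2

theorem conv_sideF {W : Finset V} (h : Conv G W) {y x : V} (hyx : G.Adj y x) :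
    Conv G (sideF G W y x) := by
  intro a ha b hb w hw
  simp only [sideF, Finset.mem_filter] at ha hb ⊢
  refine ⟨h a ha.1 b hb.1 w hw, ?_⟩
  by_contra hc
  have hc' : G.dist w x < G.dist w y := by
    rcases dist_adj_cases hT hyx w with h1 | h1 <;> omega
  have h1 := dist_across hT hyx (x := a) (y := w) ha.2 hc'
  have h2 := dist_across hT hyx (x := b) (y := w) hb.2 hc'
  have h3 := ttri hT a y b
  rw [tdc w b, tdc y b, tdc x w] at *
  omega

/-- Convex sets are connected. -/
theorem connected_of_conv {W : Finset V} (h : Conv G W) (hne : W.Nonempty) :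
    (G.induce (W : Set V)).Connected := by
  have : Nonempty (W : Set V) := by
    obtain ⟨a, ha⟩ := hne
    exact ⟨⟨a, ha⟩⟩
  refine ⟨?_⟩
  have key : ∀ n (a b : V) (ha : a ∈ W) (hb : b ∈ W), G.dist a b = n →
      (G.induce (W : Set V)).Reachable ⟨a, ha⟩ ⟨b, hb⟩ := by
    intro n
    induction n with
    | zero =>
      intro a b ha hb hd
      have := tdist_zero hT hd
      subst this
      exact SimpleGraph.Reachable.refl _
    | succ n ih =>
      intro a b ha hb hd
      have hne : a ≠ b := by
        rintro rfl
        simp at hd
      obtain ⟨h1, h2⟩ := stepTo_spec hT hne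
      have h3 := tdist_one hT h1
      have hs : stepTo G b a ∈ W := h a ha b hb _ (by omega)
      have hadj : (G.induce (W : Set V)).Adj ⟨a, ha⟩ ⟨stepTo G b a, hs⟩ := by
        simpa using h1
      exact hadj.reachable.trans (ih _ _ hs hb (by omega))
  rintro ⟨a, ha⟩ ⟨b, hb⟩
  exact key _ a b ha hb rfl

/-- Subtrees of a subtree: a message pointing away from the edge is computed in the same set. -/
theorem sideF_sideF {W : Finset V} {a b y x : V} (hab : G.Adj a b) (hyx : G.Adj y x)
    (hy : G.dist y b < G.dist y a) (hx : G.dist x b < G.dist x a)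
    (hd : G.dist y b = G.dist x b + 1) :
    sideF G (sideF G W b a) y x = sideF G W y x := by
  ext w
  simp only [sideF, Finset.mem_filter]
  constructor
  · rintro ⟨⟨h1, _⟩, h2⟩
    exact ⟨h1, h2⟩
  · rintro ⟨h1, h2⟩
    refine ⟨⟨h1, ?_⟩, h2⟩
    by_contra h
    have h' : G.dist w a < G.dist w b := by
      rcases dist_adj_cases hT hab w with h3 | h3 <;> omega
    have h4 := dist_across hT hab (x := w) (y := x) h' hx
    have h5 := dist_across hT hab (x := w) (y := y) h' hy
    have e1 := tdc (G := G) b x
    have e2 := tdc (G := G) b y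
    omega

end basic

end Crest.Agent.IsingFactor
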