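import Crest.Agent.IsingFactor.Gibbs
import Crest.Agent.IsingFactor.MergeLaw
import Crest.Agent.SRFactor.Bayes

/-!
# IsingFactor.WLawBasic (WP IF-WLawBasic): planted expectations, edge split.

# IsingFactor.WindowLaw : planted expectations on tree windows (WP: WLaw1, WLaw2).

`plE θ W t F = ∑_S mass(S) ∫ F(Zt W t S g - t/2) dγ(g)`.

THE KEY (`plE_edgeSplit`).  If `W = A ⊔ B` is split by the edge `{a,b}`: `mass_W (S_A ∪ S_B) =
mass_A S_A mass_B S_B (1 + θ σ_a σ_b)`, Gaussians on `A` and `B` are independent, and under the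
planted law on `A` (resp. `B`) one has the Nishimori identity `E[Φ(l) σ_a] = E[Φ(l) magn_A(l) a]`
(`SRFactor.bayes_single`), so `σ_a σ_b` may be replaced by `magn_A a * magn_B b`:
`plE W F = plE A (l₁ ↦ plE B (l₂ ↦ F(glue l₁ l₂) (1 + θ magn_A l₁ a magn_B l₂ b)))`.

All the recursions follow by adding children one at a time:
`R₀ = {y}`, `R_{i+1} = R_i ⊔ T_n(s_i → y)`, with `magn_{R_{i+1}} y = magn_{R_i} y ⊕ θ magn_{T_n(s_i)} s_i`.
* `tsub_law`: the law of `magn_{T_n(y→x)} y` under the planted law on `T_n(y → x)` is `rhoL θ t q n`.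
* `plE_kernel_step`: the Markov chain along a path directed to the root.
* `plE_prod_children`: functions of the child subtrees that are even under the flip are independent:
  in the merge, `E[F(l₂) magn_B l₂ b] = 0` by flip symmetry for `F` even.
Statements may be ADDED; do not change the ones below without posting on chat (topic S0241), other packages use them.
-/

set_option autoImplicit false
set_option linter.unusedSectionVars false
set_option linter.unusedVariables false
set_option linter.unusedSimpArgs false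

open MeasureTheory ProbabilityTheory
open Crest.Agent.SRFactor

namespace Crest.Agent.IsingFactor

variable {V : Type*} [DecidableEq V] {G : SimpleGraph V}

/-- `F` depends only on the coordinates in `A`. -/
def DepOn (A : Finset V) (F : (V → ℝ) → ℝ) : Prop :=
  ∀ l l' : V → ℝ, (∀ i ∈ A, l i = l' i) → F l = F l'

/-- The flip of a tilt on a window. -/
def flipOn (A : Finset V) (l : V → ℝ) : V → ℝ := fun i => if i ∈ A then - l i else l i


/-! ### Auxiliary lemmas -/

section wl_aux

lemma wl_measurable_tilt (W : Finset V) (t : ℝ) (S : Finset V) :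
    Measurable (fun g : W → ℝ => fun i => Zt W t S g i - t / 2) := by
  refine measurable_pi_lambda _ fun i => ?_
  exact ((measurable_pi_apply i).comp (measurable_Zt W t S)).sub_const _

lemma wl_integrable (W : Finset V) (t : ℝ) (S : Finset V) {F : (V → ℝ) → ℝ} (hF : Measurable F)
    {C : ℝ} (hC : ∀ x, |F x| ≤ C) :
    Integrable (fun g : W → ℝ => F (fun i => Zt W t S g i - t / 2)) (gaussVec W) :=
  integrable_of_bdd (hF.comp (wl_measurable_tilt W t S)) (fun y => hC _)

lemma wl_mass_self (θ : ℝ) (W : Finset V) {S : Finset V} (hS : S ⊆ W) :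
    (isingW G θ W).mass W S = wtS G (clampθ θ) W S / wtTot G θ W := by
  show (∑ S' ∈ W.powerset.filter (fun S' => S' ∩ W = S), wtS G (clampθ θ) W S') / wtTot G θ W = _
  congr 1
  have : W.powerset.filter (fun S' => S' ∩ W = S) = {S} := by
    ext S'
    simp only [Finset.mem_filter, Finset.mem_powerset, Finset.mem_singleton]
    constructor
    · rintro ⟨h1, h2⟩
      rwa [Finset.inter_eq_left.2 h1] at h2
    · rintro rfl
      exact ⟨hS, Finset.inter_eq_left.2 hS⟩
  rw [this, Finset.sum_singleton]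

lemma wl_wtS_compl (θ : ℝ) (W : Finset V) {S : Finset V} :
    wtS G θ W (W \ S) = wtS G θ W S := by
  unfold wtS
  refine Finset.prod_congr rfl fun e he => ?_
  have hew : e ∈ W.sym2 := by
    simp only [edgesIn, Finset.mem_filter] at he
    exact he.1
  induction e using Sym2.ind with
  | _ a b =>
    have ha : a ∈ W := (Finset.mk_mem_sym2_iff.1 hew).1
    have hb : b ∈ W := (Finset.mk_mem_sym2_iff.1 hew).2
    unfold edgeWt
    have h : (Sym2.map (fun v => decide (v ∈ W \ S)) s(a, b)).IsDiag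
        ↔ (Sym2.map (fun v => decide (v ∈ S)) s(a, b)).IsDiag := by
      simp only [Sym2.map_mk, Prod.map_apply, Sym2.mk_isDiag_iff, decide_eq_decide, Finset.mem_sdiff, ha, hb,
        true_and]
      tauto
    simp only [h]

lemma wl_mass_compl (θ : ℝ) (W : Finset V) {S : Finset V} (hS : S ⊆ W) :
    (isingW G θ W).mass W (W \ S) = (isingW G θ W).mass W S := by
  rw [wl_mass_self θ W Finset.sdiff_subset, wl_mass_self θ W hS, wl_wtS_compl]

lemma wl_gauss_map_neg {ι : Type*} [Fintype ι] :
    (gaussVec ι).map (fun g i => - g i) = gaussVec ι := by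
  unfold gaussVec
  have h := Measure.pi_map_pi (μ := fun _ : ι => gaussianReal 0 1) (f := fun _ (x : ℝ) => -x)
    (hμ := by
      intro i
      rw [gaussianReal_map_neg]
      infer_instance)
    (fun _ => measurable_neg.aemeasurable)
  rw [h]
  simp only [gaussianReal_map_neg, neg_zero]

lemma wl_integral_neg {ι : Type*} [Fintype ι] (f : (ι → ℝ) → ℝ) :
    ∫ g, f (fun i => - g i) ∂gaussVec ι = ∫ g, f g ∂gaussVec ι := by
  have hm : MeasurePreserving (MeasurableEquiv.neg (ι → ℝ)) (gaussVec ι) (gaussVec ι) := by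
    refine ⟨(MeasurableEquiv.neg (ι → ℝ)).measurable, ?_⟩
    have : ((MeasurableEquiv.neg (ι → ℝ)) : (ι → ℝ) → (ι → ℝ)) = fun g i => - g i := by
      funext g i; rfl
    rw [this]
    exact wl_gauss_map_neg
  have := hm.integral_comp' f
  exact this

end wl_aux


section wl_aux2

lemma wl_measurable_exp_sum (S : Finset V) :
    Measurable (fun l : V → ℝ => Real.exp (∑ i ∈ S, l i)) :=
  Real.measurable_exp.comp (Finset.measurable_sum _ fun i _ => measurable_pi_apply i)

lemma wl_measurable_gAvg (θ : ℝ) (W : Finset V) (f : Finset V → ℝ) :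
    Measurable (fun l : V → ℝ => gAvg G θ W l f) := by
  unfold gAvg Zf
  refine Measurable.div ?_ ?_
  · exact Finset.measurable_sum _ fun S _ => ((wl_measurable_exp_sum S).const_mul _).mul_const _
  · exact Finset.measurable_sum _ fun S _ => (wl_measurable_exp_sum S).const_mul _

lemma wl_measurable_magn (θ : ℝ) (W : Finset V) (v : V) :
    Measurable (fun l : V → ℝ => magn G θ W l v) :=
  wl_measurable_gAvg θ W _

lemma wl_measurable_glue (A : Finset V) :
    Measurable (fun p : (V → ℝ) × (V → ℝ) => fun i => if i ∈ A then p.1 i else p.2 i) := by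
  refine measurable_pi_lambda _ fun i => ?_
  by_cases h : i ∈ A
  · simp only [h, if_true]
    exact (measurable_pi_apply i).comp measurable_fst
  · simp only [h, if_false]
    exact (measurable_pi_apply i).comp measurable_snd

lemma wl_abs_integral_le {ι : Type*} [Fintype ι] {f : (ι → ℝ) → ℝ} {C : ℝ} (hC : ∀ g, |f g| ≤ C) :
    |∫ g, f g ∂gaussVec ι| ≤ C := by
  have := norm_integral_le_of_norm_le_const (μ := gaussVec ι) (f := f) (C := C)
    (Filter.Eventually.of_forall fun g => by simpa using hC g)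
  simpa using this

lemma wl_abs_plE_le (θ t : ℝ) (W : Finset V) {F : (V → ℝ) → ℝ} {C : ℝ} (hC : ∀ l, |F l| ≤ C) :
    |plE G θ W t F| ≤ C := by
  unfold plE
  calc |∑ S ∈ W.powerset, (isingW G θ W).mass W S * ∫ g, F (fun i => Zt W t S g i - t / 2) ∂gaussVec W|
      ≤ ∑ S ∈ W.powerset, (isingW G θ W).mass W S * C := by
        refine (Finset.abs_sum_le_sum_abs _ _).trans (Finset.sum_le_sum fun S _ => ?_)
        rw [abs_mul, abs_of_nonneg ((isingW G θ W).nonneg _ _)]
        exact mul_le_mul_of_nonneg_left (wl_abs_integral_le fun g => hC _) ((isingW G θ W).nonneg _ _)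
    _ = C := by rw [← Finset.sum_mul, (isingW G θ W).sum_one W, one_mul]

lemma wl_measurable_plE_param {X : Type*} [MeasurableSpace X] (θ t : ℝ) (W : Finset V)
    {H : X → (V → ℝ) → ℝ} (hH : Measurable (fun p : X × (V → ℝ) => H p.1 p.2)) :
    Measurable (fun x => plE G θ W t (H x)) := by
  unfold plE
  refine Finset.measurable_sum _ fun S _ => Measurable.const_mul ?_ _
  have hm : Measurable (fun p : X × (W → ℝ) => H p.1 (fun i => Zt W t S p.2 i - t / 2)) :=
    hH.comp (measurable_fst.prodMk ((wl_measurable_tilt W t S).comp measurable_snd))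
  exact hm.stronglyMeasurable.integral_prod_right'.measurable

lemma wl_sum_powerset_union {A B : Finset V} (hd : Disjoint A B) (f : Finset V → ℝ) :
    ∑ S ∈ (A ∪ B).powerset, f S = ∑ SA ∈ A.powerset, ∑ SB ∈ B.powerset, f (SA ∪ SB) := by
  rw [← Finset.sum_product']
  refine Finset.sum_nbij' (fun S => (S ∩ A, S ∩ B)) (fun p => p.1 ∪ p.2) ?_ ?_ ?_ ?_ ?_
  · intro S _
    simp only [Finset.mem_product, Finset.mem_powerset]
    exact ⟨Finset.inter_subset_right, Finset.inter_subset_right⟩
  · rintro ⟨SA, SB⟩ h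
    simp only [Finset.mem_product, Finset.mem_powerset] at h
    exact Finset.mem_powerset.2 (Finset.union_subset_union h.1 h.2)
  · intro S hS
    have hS' := Finset.mem_powerset.1 hS
    show S ∩ A ∪ S ∩ B = S
    rw [← Finset.inter_union_distrib_left, Finset.inter_eq_left.2 hS']
  · rintro ⟨SA, SB⟩ h
    simp only [Finset.mem_product, Finset.mem_powerset] at h
    have h1 : SB ∩ A = ∅ := by
      rw [Finset.inter_comm]
      exact Finset.disjoint_iff_inter_eq_empty.1 (Finset.disjoint_of_subset_right h.2 hd)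
    have h2 : SA ∩ B = ∅ :=
      Finset.disjoint_iff_inter_eq_empty.1 (Finset.disjoint_of_subset_left h.1 hd)
    simp only [Prod.mk.injEq]
    constructor
    · rw [Finset.union_inter_distrib_right, h1, Finset.union_empty, Finset.inter_eq_left.2 h.1]
    · rw [Finset.union_inter_distrib_right, h2, Finset.empty_union, Finset.inter_eq_left.2 h.2]
  · intro S hS
    have hS' := Finset.mem_powerset.1 hS
    show f S = f (S ∩ A ∪ S ∩ B)
    rw [← Finset.inter_union_distrib_left, Finset.inter_eq_left.2 hS']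

lemma wl_integral_split {A B : Finset V} (hd : Disjoint A B) (t : ℝ) (S : Finset V)
    {F : (V → ℝ) → ℝ} (hF : Measurable F) {C : ℝ} (hC : ∀ x, |F x| ≤ C) :
    ∫ g, F (fun i => Zt (A ∪ B) t S g i - t / 2) ∂gaussVec ↥(A ∪ B)
      = ∫ g₁ : A → ℝ, ∫ g₂ : B → ℝ, F (fun i => if i ∈ A then Zt A t (S ∩ A) g₁ i - t / 2
          else Zt B t (S ∩ B) g₂ i - t / 2) ∂gaussVec B ∂gaussVec A := by
  have hmp : MeasurePreserving (MeasurableEquiv.piFinsetUnion (fun _ : V => ℝ) hd)
      ((gaussVec A).prod (gaussVec B)) (gaussVec ↥(A ∪ B)) :=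
    measurePreserving_piFinsetUnion (α := fun _ : V => ℝ) hd (fun _ => gaussianReal 0 1)
  have h1 := hmp.integral_comp' (fun g => F (fun i => Zt (A ∪ B) t S g i - t / 2))
  rw [← h1]
  have hpt : ∀ p : (A → ℝ) × (B → ℝ),
      F (fun i => Zt (A ∪ B) t S (MeasurableEquiv.piFinsetUnion (fun _ : V => ℝ) hd p) i - t / 2)
      = F (fun i => if i ∈ A then Zt A t (S ∩ A) p.1 i - t / 2
          else Zt B t (S ∩ B) p.2 i - t / 2) := by
    rintro ⟨g₁, g₂⟩
    congr 1
    funext i
    by_cases hA : i ∈ A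
    · have hU : i ∈ A ∪ B := Finset.mem_union_left _ hA
      have : (MeasurableEquiv.piFinsetUnion (fun _ : V => ℝ) hd (g₁, g₂)) ⟨i, hU⟩ = g₁ ⟨i, hA⟩ :=
        Equiv.piFinsetUnion_left (fun _ : V => ℝ) hd hA hU
      simp only [Zt, dif_pos hA, dif_pos hU, if_pos hA, this]
      have hi : ind (S ∩ A) i = ind S i := by
        unfold ind
        simp [hA]
      rw [hi]
    · by_cases hB : i ∈ B
      · have hU : i ∈ A ∪ B := Finset.mem_union_right _ hB
        have : (MeasurableEquiv.piFinsetUnion (fun _ : V => ℝ) hd (g₁, g₂)) ⟨i, hU⟩ = g₂ ⟨i, hB⟩ :=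
          Equiv.piFinsetUnion_right (fun _ : V => ℝ) hd hB hU
        simp only [Zt, dif_pos hB, dif_pos hU, if_neg hA, this]
        have hi : ind (S ∩ B) i = ind S i := by
          unfold ind
          simp [hB]
        rw [hi]
      · have hU : i ∉ A ∪ B := by simp [hA, hB]
        simp only [Zt, dif_neg hB, dif_neg hU, if_neg hA]
  simp only [hpt]
  have hm : Measurable (fun p : (A → ℝ) × (B → ℝ) =>
      F (fun i => if i ∈ A then Zt A t (S ∩ A) p.1 i - t / 2 else Zt B t (S ∩ B) p.2 i - t / 2)) :=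
    hF.comp ((wl_measurable_glue A).comp
      (((wl_measurable_tilt A t (S ∩ A)).comp measurable_fst).prodMk
        ((wl_measurable_tilt B t (S ∩ B)).comp measurable_snd)))
  rw [integral_prod]
  exact Integrable.of_bound hm.aestronglyMeasurable C
    (Filter.Eventually.of_forall fun p => by simpa using hC _)

end wl_aux2

section
variable {θ t : ℝ} (hθ : GoodTheta θ) (ht : 0 ≤ t)
include hθ ht

theorem plE_const (W : Finset V) (c : ℝ) : plE G θ W t (fun _ => c) = c := by
  unfold plE
  simp only [integral_const, probReal_univ, one_smul]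
  rw [← Finset.sum_mul, (isingW G θ W).sum_one W, one_mul]

theorem plE_congr {W : Finset V} {F F' : (V → ℝ) → ℝ}
    (h : ∀ l, (∀ i ∉ W, l i = -(t / 2)) → F l = F' l) : plE G θ W t F = plE G θ W t F' := by
  unfold plE
  refine Finset.sum_congr rfl fun S _ => ?_
  congr 1
  refine integral_congr_ae (Filter.Eventually.of_forall fun g => ?_)
  refine h _ fun i hi => ?_
  simp [Zt, hi]

theorem plE_mono {W : Finset V} {F F' : (V → ℝ) → ℝ} (hF : Measurable F) (hF' : Measurable F')
    (hb : ∃ C, ∀ x, |F x| ≤ C) (hb' : ∃ C, ∀ x, |F' x| ≤ C) (h : ∀ l, F l ≤ F' l) :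
    plE G θ W t F ≤ plE G θ W t F' := by
  obtain ⟨C, hC⟩ := hb
  obtain ⟨C', hC'⟩ := hb'
  unfold plE
  refine Finset.sum_le_sum fun S _ => mul_le_mul_of_nonneg_left ?_ ((isingW G θ W).nonneg _ _)
  exact integral_mono (wl_integrable W t S hF hC) (wl_integrable W t S hF' hC') (fun g => h _)

theorem plE_add {W : Finset V} {F F' : (V → ℝ) → ℝ} (hF : Measurable F) (hF' : Measurable F')
    (hb : ∃ C, ∀ x, |F x| ≤ C) (hb' : ∃ C, ∀ x, |F' x| ≤ C) :
    plE G θ W t (fun l => F l + F' l) = plE G θ W t F + plE G θ W t F' := by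
  obtain ⟨C, hC⟩ := hb
  obtain ⟨C', hC'⟩ := hb'
  unfold plE
  rw [← Finset.sum_add_distrib]
  refine Finset.sum_congr rfl fun S _ => ?_
  rw [integral_add (wl_integrable W t S hF hC) (wl_integrable W t S hF' hC'), mul_add]

theorem plE_mul_const {W : Finset V} (c : ℝ) (F : (V → ℝ) → ℝ) :
    plE G θ W t (fun l => c * F l) = c * plE G θ W t F := by
  unfold plE
  rw [Finset.mul_sum]
  refine Finset.sum_congr rfl fun S _ => ?_
  rw [integral_const_mul]
  ring

/-- Flip symmetry of the planted law. -/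
theorem plE_flip (hT : G.IsTree) {W : Finset V} (hW : Conv G W) {F : (V → ℝ) → ℝ} (hFdep : DepOn W F) :
    plE G θ W t (fun l => F (flipOn W l)) = plE G θ W t F := by
  unfold plE
  refine Finset.sum_nbij' (fun S => W \ S) (fun S => W \ S) ?_ ?_ ?_ ?_ ?_
  · intro S hS
    exact Finset.mem_powerset.2 Finset.sdiff_subset
  · intro S hS
    exact Finset.mem_powerset.2 Finset.sdiff_subset
  · intro S hS
    exact Finset.sdiff_sdiff_eq_self (Finset.mem_powerset.1 hS)
  · intro S hS
    exact Finset.sdiff_sdiff_eq_self (Finset.mem_powerset.1 hS)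
  · intro S hS
    have hS' := Finset.mem_powerset.1 hS
    rw [wl_mass_compl θ W hS']
    congr 1
    rw [← wl_integral_neg (fun g : W → ℝ => F (fun i => Zt W t (W \ S) g i - t / 2))]
    refine integral_congr_ae (Filter.Eventually.of_forall fun g => ?_)
    refine hFdep _ _ fun i hi => ?_
    have hind : ind (W \ S) i = 1 - ind S i := by
      unfold ind
      by_cases h : i ∈ S <;> simp [h, hi]
    simp only [flipOn, if_pos hi, Zt, dif_pos hi, hind]
    ring

/-- Nishimori: the spin may be replaced by the magnetisation. -/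
theorem plE_nishimori {W : Finset V} {F : (V → ℝ) → ℝ} (hF : Measurable F) (hb : ∃ C, ∀ x, |F x| ≤ C)
    {v : V} (hv : v ∈ W) :
    ∑ S ∈ W.powerset, (isingW G θ W).mass W S * sgnS S v *
        ∫ g, F (fun i => Zt W t S g i - t / 2) ∂gaussVec W
      = plE G θ W t (fun l => F l * magn G θ W l v) := by
  obtain ⟨C, hC⟩ := hb
  have hm : Measurable (fun x : V → ℝ => F (fun i => x i - t / 2)) :=
    hF.comp (measurable_pi_lambda _ fun i => (measurable_pi_apply i).sub_const _)
  have hb1 := bayes_single (isingW G θ W) W ht v hm (C := C) (fun x => hC _)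
  have hsgn : ∀ S : Finset V, sgnS S v = 2 * ind S v - 1 := by
    intro S
    unfold sgnS ind
    split_ifs <;> norm_num
  have hpost : ∀ x : V → ℝ, phiP (isingW G θ W) W v t x = (magn G θ W (fun i => x i - t / 2) v + 1) / 2 := by
    intro x
    exact post_isingW hθ W _ hv
  have hmag : Measurable (fun x : V → ℝ => magn G θ W (fun i => x i - t / 2) v) := by
    have := (measurable_phiP (isingW G θ W) W v t)
    have h2 : (fun x : V → ℝ => magn G θ W (fun i => x i - t / 2) v)
        = fun x => 2 * phiP (isingW G θ W) W v t x - 1 := by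
      funext x
      rw [hpost]
      ring
    rw [h2]
    exact (this.const_mul 2).sub_const 1
  have hint1 : ∀ S, Integrable (fun g : W → ℝ => F (fun i => Zt W t S g i - t / 2)) (gaussVec W) :=
    fun S => wl_integrable W t S hF hC
  have hint2 : ∀ S, Integrable (fun g : W → ℝ => phiP (isingW G θ W) W v t (Zt W t S g)
      * F (fun i => Zt W t S g i - t / 2)) (gaussVec W) := by
    intro S
    refine integrable_of_bdd (C := 1 * C) (((measurable_phiP _ W v t).comp (measurable_Zt W t S)).mul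
      (hF.comp (wl_measurable_tilt W t S))) fun y => ?_
    rw [abs_mul]
    exact mul_le_mul (abs_phiP_le _ _ _ _ _) (hC _) (abs_nonneg _) zero_le_one
  have lhs : ∑ S ∈ W.powerset, (isingW G θ W).mass W S * sgnS S v *
        ∫ g, F (fun i => Zt W t S g i - t / 2) ∂gaussVec W
      = 2 * (∑ S ∈ W.powerset, (isingW G θ W).mass W S * ind S v *
          ∫ g, F (fun i => Zt W t S g i - t / 2) ∂gaussVec W)
        - ∑ S ∈ W.powerset, (isingW G θ W).mass W S *
          ∫ g, F (fun i => Zt W t S g i - t / 2) ∂gaussVec W := by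
    rw [Finset.mul_sum, ← Finset.sum_sub_distrib]
    refine Finset.sum_congr rfl fun S _ => ?_
    rw [hsgn]
    ring
  rw [lhs, hb1]
  unfold plE
  rw [Finset.mul_sum, ← Finset.sum_sub_distrib]
  refine Finset.sum_congr rfl fun S _ => ?_
  have : ∫ g, F (fun i => Zt W t S g i - t / 2) * magn G θ W (fun i => Zt W t S g i - t / 2) v ∂gaussVec W
      = 2 * ∫ g, phiP (isingW G θ W) W v t (Zt W t S g) * F (fun i => Zt W t S g i - t / 2) ∂gaussVec W
        - ∫ g, F (fun i => Zt W t S g i - t / 2) ∂gaussVec W := by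
    rw [← integral_const_mul, ← integral_sub ((hint2 S).const_mul 2) (hint1 S)]
    refine integral_congr_ae (Filter.Eventually.of_forall fun g => ?_)
    show _ = 2 * (phiP (isingW G θ W) W v t (Zt W t S g) * _) - _
    rw [hpost]
    ring
  rw [this]
  ring

/-- The edge split of the planted law. -/
theorem plE_edgeSplit {W A B : Finset V} {a b : V} (hs : EdgeSplit G W A B a b)
    {F : (V → ℝ) → ℝ} (hF : Measurable F) (hb : ∃ C, ∀ x, |F x| ≤ C) :
    plE G θ W t F = plE G θ A t (fun l₁ => plE G θ B t (fun l₂ =>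
      F (fun i => if i ∈ A then l₁ i else l₂ i) * (1 + θ * magn G θ A l₁ a * magn G θ B l₂ b))) := by
  obtain ⟨C, hC⟩ := hb
  have hU := hs.union
  have hd := hs.disj
  subst hU
  -- the glued integrand
  set H : (V → ℝ) → (V → ℝ) → ℝ := fun l₁ l₂ => F (fun i => if i ∈ A then l₁ i else l₂ i) with hHdef
  have hHm : Measurable (fun p : (V → ℝ) × (V → ℝ) => H p.1 p.2) := hF.comp (wl_measurable_glue A)
  have hHb : ∀ l₁ l₂, |H l₁ l₂| ≤ C := fun _ _ => hC _
  have hC0 : 0 ≤ C := (abs_nonneg _).trans (hC (fun _ => 0))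
  set mA : (V → ℝ) → ℝ := fun l => magn G θ A l a with hmA
  set mB : (V → ℝ) → ℝ := fun l => magn G θ B l b with hmB
  have hmAm : Measurable mA := wl_measurable_magn θ A a
  have hmBm : Measurable mB := wl_measurable_magn θ B b
  have hmAb : ∀ l, |mA l| ≤ 1 := fun l => abs_magn_le_one hθ A l a
  have hmBb : ∀ l, |mB l| ≤ 1 := fun l => abs_magn_le_one hθ B l b
  -- inner functions
  set P : (V → ℝ) → ℝ := fun l₁ => plE G θ B t (H l₁) with hP
  set Q : (V → ℝ) → ℝ := fun l₁ => plE G θ B t (fun l₂ => H l₁ l₂ * mB l₂) with hQ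
  have hQJm : Measurable (fun p : (V → ℝ) × (V → ℝ) => H p.1 p.2 * mB p.2) :=
    hHm.mul (hmBm.comp measurable_snd)
  have hPm : Measurable P := wl_measurable_plE_param θ t B hHm
  have hQm : Measurable Q := wl_measurable_plE_param θ t B hQJm
  have hQJb : ∀ l₁ l₂, |H l₁ l₂ * mB l₂| ≤ C := fun l₁ l₂ => by
    rw [abs_mul]
    calc |H l₁ l₂| * |mB l₂| ≤ C * 1 := mul_le_mul (hHb _ _) (hmBb _) (abs_nonneg _) hC0
      _ = C := mul_one C
  have hPb : ∀ l₁, |P l₁| ≤ C := fun l₁ => wl_abs_plE_le θ t B (hHb l₁)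
  have hQb : ∀ l₁, |Q l₁| ≤ C := fun l₁ => wl_abs_plE_le θ t B (hQJb l₁)
  have hinner : ∀ l₁, plE G θ B t (fun l₂ =>
      F (fun i => if i ∈ A then l₁ i else l₂ i) * (1 + θ * magn G θ A l₁ a * magn G θ B l₂ b))
      = P l₁ + θ * (Q l₁ * mA l₁) := by
    intro l₁
    have h1 : (fun l₂ => F (fun i => if i ∈ A then l₁ i else l₂ i) *
          (1 + θ * magn G θ A l₁ a * magn G θ B l₂ b))
        = fun l₂ => H l₁ l₂ + (θ * mA l₁) * (H l₁ l₂ * mB l₂) := by
      funext l₂
      simp only [hHdef, hmA, hmB]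
      ring
    rw [h1]
    have hm1 : Measurable (H l₁) := hHm.comp (measurable_const.prodMk measurable_id)
    have hm2 : Measurable (fun l₂ => H l₁ l₂ * mB l₂) := hm1.mul hmBm
    have hm3 : Measurable (fun l₂ => (θ * mA l₁) * (H l₁ l₂ * mB l₂)) := hm2.const_mul _
    rw [plE_add hθ ht hm1 hm3 ⟨C, hHb l₁⟩ ⟨|θ * mA l₁| * C, fun l₂ => by
      rw [abs_mul]
      exact mul_le_mul_of_nonneg_left (hQJb _ _) (abs_nonneg _)⟩,
      plE_mul_const hθ ht]
    simp only [hP, hQ]
    ring
  simp only [hinner]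
  -- the outer integral
  have hQA : Measurable (fun l₁ => Q l₁ * mA l₁) := hQm.mul hmAm
  have hQAb : ∀ l₁, |Q l₁ * mA l₁| ≤ C := fun l₁ => by
    rw [abs_mul]
    calc |Q l₁| * |mA l₁| ≤ C * 1 := mul_le_mul (hQb _) (hmAb _) (abs_nonneg _) hC0
      _ = C := mul_one C
  rw [plE_add hθ ht hPm (hQA.const_mul θ) ⟨C, hPb⟩ ⟨|θ| * C, fun l₁ => by
      rw [abs_mul]
      exact mul_le_mul_of_nonneg_left (hQAb _) (abs_nonneg _)⟩,
    plE_mul_const hθ ht]
  have hnA := plE_nishimori (G := G) hθ ht (W := A) (F := Q) hQm ⟨C, hQb⟩ (v := a) hs.ha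
  rw [← hnA]
  -- the double integrals
  set I : Finset V → Finset V → ℝ := fun SA SB => ∫ g₁ : A → ℝ, ∫ g₂ : B → ℝ,
      H (fun i => Zt A t SA g₁ i - t / 2) (fun i => Zt B t SB g₂ i - t / 2) ∂gaussVec B ∂gaussVec A
    with hI
  have hInner : ∀ SB (l₁ : V → ℝ), Integrable (fun g₂ : B → ℝ =>
      H l₁ (fun i => Zt B t SB g₂ i - t / 2)) (gaussVec B) := fun SB l₁ =>
    wl_integrable B t SB (hHm.comp (measurable_const.prodMk measurable_id)) (hHb l₁)
  have hJ : ∀ SA SB, Measurable (fun g₁ : A → ℝ => ∫ g₂ : B → ℝ,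
      H (fun i => Zt A t SA g₁ i - t / 2) (fun i => Zt B t SB g₂ i - t / 2) ∂gaussVec B) := by
    intro SA SB
    have hm : Measurable (fun p : (A → ℝ) × (B → ℝ) =>
        H (fun i => Zt A t SA p.1 i - t / 2) (fun i => Zt B t SB p.2 i - t / 2)) :=
      hHm.comp (((wl_measurable_tilt A t SA).comp measurable_fst).prodMk
        ((wl_measurable_tilt B t SB).comp measurable_snd))
    exact hm.stronglyMeasurable.integral_prod_right'.measurable
  have hJb : ∀ SA SB (g₁ : A → ℝ), |∫ g₂ : B → ℝ,
      H (fun i => Zt A t SA g₁ i - t / 2) (fun i => Zt B t SB g₂ i - t / 2) ∂gaussVec B| ≤ C :=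
    fun SA SB g₁ => wl_abs_integral_le fun g₂ => hHb _ _
  have hJint : ∀ SA SB, Integrable (fun g₁ : A → ℝ => ∫ g₂ : B → ℝ,
      H (fun i => Zt A t SA g₁ i - t / 2) (fun i => Zt B t SB g₂ i - t / 2) ∂gaussVec B) (gaussVec A) :=
    fun SA SB => integrable_of_bdd (hJ SA SB) (hJb SA SB)
  -- `P`
  have hPexp : ∀ SA, ∫ g₁ : A → ℝ, P (fun i => Zt A t SA g₁ i - t / 2) ∂gaussVec A
      = ∑ SB ∈ B.powerset, (isingW G θ B).mass B SB * I SA SB := by
    intro SA
    simp only [hP, plE]
    rw [integral_finsetSum _ fun SB _ => (hJint SA SB).const_mul _]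
    refine Finset.sum_congr rfl fun SB _ => ?_
    rw [integral_const_mul]
  -- `Q`
  have hQexp : ∀ (SA : Finset V), ∫ g₁ : A → ℝ, Q (fun i => Zt A t SA g₁ i - t / 2) ∂gaussVec A
      = ∑ SB ∈ B.powerset, (isingW G θ B).mass B SB * sgnS SB b * I SA SB := by
    intro SA
    have h1 : ∀ l₁ : V → ℝ, Q l₁ = ∑ SB ∈ B.powerset, (isingW G θ B).mass B SB * sgnS SB b *
        ∫ g₂ : B → ℝ, H l₁ (fun i => Zt B t SB g₂ i - t / 2) ∂gaussVec B := by
      intro l₁
      have := plE_nishimori (G := G) hθ ht (W := B) (F := H l₁)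
        (hHm.comp (measurable_const.prodMk measurable_id)) ⟨C, hHb l₁⟩ (v := b) hs.hb
      exact this.symm
    simp only [h1]
    rw [integral_finsetSum _ fun SB _ => (hJint SA SB).const_mul _]
    refine Finset.sum_congr rfl fun SB _ => ?_
    rw [integral_const_mul]
  -- the left-hand side
  have hLHS : plE G θ (A ∪ B) t F = ∑ SA ∈ A.powerset, ∑ SB ∈ B.powerset,
      (isingW G θ A).mass A SA * (isingW G θ B).mass B SB * (1 + θ * sgnS SA a * sgnS SB b) * I SA SB := by
    unfold plE
    rw [wl_sum_powerset_union hd]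
    refine Finset.sum_congr rfl fun SA hSA => Finset.sum_congr rfl fun SB hSB => ?_
    have hSA' := Finset.mem_powerset.1 hSA
    have hSB' := Finset.mem_powerset.1 hSB
    rw [mass_split hθ hs hSA' hSB', wl_integral_split hd t (SA ∪ SB) hF hC]
    have h1 : SB ∩ A = ∅ := by
      rw [Finset.inter_comm]
      exact Finset.disjoint_iff_inter_eq_empty.1 (Finset.disjoint_of_subset_right hSB' hd)
    have h2 : SA ∩ B = ∅ :=
      Finset.disjoint_iff_inter_eq_empty.1 (Finset.disjoint_of_subset_left hSA' hd)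
    have e1 : (SA ∪ SB) ∩ A = SA := by
      rw [Finset.union_inter_distrib_right, h1, Finset.union_empty, Finset.inter_eq_left.2 hSA']
    have e2 : (SA ∪ SB) ∩ B = SB := by
      rw [Finset.union_inter_distrib_right, h2, Finset.empty_union, Finset.inter_eq_left.2 hSB']
    rw [e1, e2]
  rw [hLHS]
  unfold plE
  simp only [hPexp, hQexp]
  rw [Finset.mul_sum, ← Finset.sum_add_distrib]
  refine Finset.sum_congr rfl fun SA _ => ?_
  rw [Finset.mul_sum, Finset.mul_sum, Finset.mul_sum, ← Finset.sum_add_distrib]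
  refine Finset.sum_congr rfl fun SB _ => ?_
  ring

/-- Marginals: a function of the coordinates in the convex set `A ⊆ W`. -/
theorem plE_marginal (hT : G.IsTree) {A W : Finset V} (hA : Conv G A) (hW : Conv G W) (hAW : A ⊆ W)
    (hne : A.Nonempty) {F : (V → ℝ) → ℝ} (hF : Measurable F) (hb : ∃ C, ∀ x, |F x| ≤ C)
    (hdep : DepOn A F) : plE G θ W t F = plE G θ A t F := by
  obtain ⟨C, hC⟩ := hb
  have hφ : Measurable (fun x : V → ℝ => F (fun i => x i - t / 2)) :=
    hF.comp (measurable_pi_lambda _ fun i => (measurable_pi_apply i).sub_const _)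
  have hdep' : ∀ x x' : V → ℝ, (∀ i ∈ A, x i = x' i) →
      F (fun i => x i - t / 2) = F (fun i => x' i - t / 2) :=
    fun x x' h => hdep _ _ fun i hi => by simp only [h i hi]
  have h1 := marginal_window (isingW G θ W) hAW t hφ hdep' (fun _ => 1)
  simp only [mul_one] at h1
  unfold plE
  rw [h1]
  refine Finset.sum_congr rfl fun T' hT' => ?_
  rw [isingW_marginal hT hθ hA hW hAW hne (Finset.mem_powerset.1 hT')]

end

end Crest.Agent.IsingFactor
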