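import Crest.Agent.IsingFactor.WLawBasic

/-!
# IsingFactor.WLawRec (WP IF-WLawRec): recursions on regular subtrees.  See `WLawBasic`.
Statements may be ADDED; do not change the ones below without posting on chat (topic S0241), other packages use them.
-/

set_option autoImplicit false
set_option linter.unusedSectionVars false
set_option linter.unusedVariables false
set_option linter.unusedSimpArgs false

open MeasureTheory ProbabilityTheory
open Crest.Agent.SRFactor

namespace Crest.Agent.IsingFactor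

variable {V : Type*} [DecidableEq V] {G : SimpleGraph V}

section wl_rec
variable [G.LocallyFinite]

/-- The part `{y} ∪ ⋃_{s ∈ C} T_n(s → y)` of a subtree. -/
noncomputable def wlR (G : SimpleGraph V) [G.LocallyFinite] (y : V) (C : Finset V) (n : ℕ) : Finset V :=
  {y} ∪ C.biUnion (fun s => tsub G s y n)

lemma wl_childF_adj {y x s : V} (hs : s ∈ childF G y x) : G.Adj y s := by
  have := (Finset.mem_erase.1 hs).2
  simpa using this

lemma wl_edgeSplit_R (hT : G.IsTree) {y x : V} (hyx : G.Adj y x) {C : Finset V} (hC : C ⊆ childF G y x)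
    {s : V} (hs : s ∈ childF G y x) (hsC : s ∉ C) (n : ℕ) :
    EdgeSplit G (wlR G y (insert s C) n) (wlR G y C n) (tsub G s y n) y s := by
  have hys := wl_childF_adj hs
  refine ⟨?_, ?_, ?_, ?_, hys, ?_⟩
  · unfold wlR
    rw [Finset.biUnion_insert]
    ext w
    simp only [Finset.mem_union]
    tauto
  · unfold wlR
    rw [Finset.disjoint_union_left]
    constructor
    · exact Finset.disjoint_singleton_left.2 (notMem_tsub_child hT hs n)
    · rw [Finset.disjoint_biUnion_left]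
      intro s' hs'
      exact tsub_disjoint hT hyx (hC hs') hs (fun h => hsC (h ▸ hs')) n n
  · exact Finset.mem_union_left _ (Finset.mem_singleton_self y)
  · exact mem_tsub_self hT hys.symm n
  · intro x' hx' y' hy' hadj
    rcases Finset.mem_union.1 hx' with h | h
    · have hxy : x' = y := Finset.mem_singleton.1 h
      subst hxy
      exact ⟨rfl, adj_tsub_child hT hs hy' hadj⟩
    · obtain ⟨s', hs', hx''⟩ := Finset.mem_biUnion.1 h
      exact absurd hadj (not_adj_tsub_child hT (hC hs') hs (fun h => hsC (h ▸ hs')) hx'' hy')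

lemma wl_wlR_childF (hT : G.IsTree) {y x : V} (hyx : G.Adj y x) (n : ℕ) :
    wlR G y (childF G y x) n = tsub G y x (n + 1) :=
  (tsub_succ hT hyx n).symm

lemma wl_wlR_empty (y : V) (n : ℕ) : wlR G y ∅ n = {y} := by
  simp [wlR]

lemma wl_glue_left {A B : Finset V} (l₁ l₂ : V → ℝ) :
    ∀ i ∈ A, (fun i => if i ∈ A then l₁ i else l₂ i) i = l₁ i := fun i hi => by simp [hi]

lemma wl_glue_right {A B : Finset V} (hd : Disjoint A B) (l₁ l₂ : V → ℝ) :
    ∀ i ∈ B, (fun i => if i ∈ A then l₁ i else l₂ i) i = l₂ i := fun i hi => by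
  simp [Finset.disjoint_right.1 hd hi]

lemma wl_measurable_mrg : Measurable (fun p : ℝ × ℝ => mrg p.1 p.2) := by
  unfold mrg
  exact (measurable_fst.add measurable_snd).div
    (measurable_const.add (measurable_fst.mul measurable_snd))

/-- The integrand of the merge, with the second variable scaled by `θ`. -/
noncomputable def wlG (θ : ℝ) (f : ℝ → ℝ) (a n : ℝ) : ℝ := f (mrg a (θ * n)) * (1 + a * (θ * n))

lemma wl_measurable_wlG (θ : ℝ) {f : ℝ → ℝ} (hf : Measurable f) :
    Measurable (fun p : ℝ × ℝ => wlG θ f p.1 p.2) := by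
  unfold wlG
  have h1 : Measurable (fun p : ℝ × ℝ => f (mrg p.1 (θ * p.2))) :=
    hf.comp (wl_measurable_mrg.comp (measurable_fst.prodMk (measurable_snd.const_mul θ)))
  have h2 : Measurable (fun p : ℝ × ℝ => 1 + p.1 * (θ * p.2)) :=
    measurable_const.add (measurable_fst.mul (measurable_snd.const_mul θ))
  exact h1.mul h2

lemma wl_abs_wlG_le {θ : ℝ} (hθ : GoodTheta θ) {f : ℝ → ℝ} {C : ℝ} (hC : ∀ u, |u| ≤ 1 → |f u| ≤ C)
    {a n : ℝ} (ha : |a| ≤ 1) (hn : |n| ≤ 1) : |wlG θ f a n| ≤ C * 2 := by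
  have hθ1 : |θ * n| < 1 := by
    rw [abs_mul, abs_of_nonneg hθ.nonneg]
    calc θ * |n| ≤ θ * 1 := mul_le_mul_of_nonneg_left hn hθ.nonneg
      _ < 1 := by simpa using hθ.lt_one
  have hm := abs_mrg_le_one ha hθ1
  unfold wlG
  rw [abs_mul]
  have hC0 : 0 ≤ C := (abs_nonneg _).trans (hC 0 (by simp))
  refine mul_le_mul (hC _ hm) ?_ (abs_nonneg _) hC0
  have h1 : |a * (θ * n)| ≤ 1 := by
    rw [abs_mul]
    calc |a| * |θ * n| ≤ 1 * 1 := mul_le_mul ha hθ1.le (abs_nonneg _) zero_le_one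
      _ = 1 := one_mul 1
  have := abs_add_le (1 : ℝ) (a * (θ * n))
  rw [abs_one] at this
  linarith

/-- The function `ψ a = ∫ν, g(a,ν) dρ`. -/
noncomputable def wlPsi (θ : ℝ) (f : ℝ → ℝ) (ρ : Measure ℝ) (a : ℝ) : ℝ := ∫ ν, wlG θ f a ν ∂ρ

lemma wl_measurable_wlPsi (θ : ℝ) {f : ℝ → ℝ} (hf : Measurable f) (ρ : Measure ℝ) [SFinite ρ] :
    Measurable (wlPsi θ f ρ) :=
  (wl_measurable_wlG θ hf).stronglyMeasurable.integral_prod_right'.measurable

lemma wl_abs_wlPsi_le {θ : ℝ} (hθ : GoodTheta θ) {f : ℝ → ℝ} {C : ℝ} (hC : ∀ u, |u| ≤ 1 → |f u| ≤ C)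
    {ρ : Measure ℝ} (hρ : SymL ρ) {a : ℝ} (ha : |a| ≤ 1) : |wlPsi θ f ρ a| ≤ C * 2 := by
  have := hρ.prob
  have := norm_integral_le_of_norm_le_const (μ := ρ) (f := fun ν => wlG θ f a ν) (C := C * 2)
    (hρ.lt_one.mono fun ν hν => by simpa using wl_abs_wlG_le hθ hC ha hν.le)
  unfold wlPsi
  simpa using this

lemma wl_edgesIn_singleton (y : V) : edgesIn G {y} = ∅ := by
  ext e
  simp only [edgesIn, Finset.mem_filter, Finset.notMem_empty, iff_false, not_and]
  intro he
  rw [Finset.sym2_singleton, Finset.mem_singleton] at he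
  subst he
  simp

lemma wl_mass_singleton (θ : ℝ) (y : V) {S : Finset V} (hS : S ⊆ {y}) :
    (isingW G θ {y}).mass {y} S = 1 / 2 := by
  rw [wl_mass_self θ {y} hS]
  have h1 : ∀ S : Finset V, wtS G (clampθ θ) {y} S = 1 := by
    intro S
    unfold wtS
    rw [wl_edgesIn_singleton, Finset.prod_empty]
  rw [h1]
  unfold wtTot
  simp only [h1]
  simp

lemma wl_integral_eval {y : V} {φ : ℝ → ℝ} (hφ : Measurable φ) :
    ∫ g : ({y} : Finset V) → ℝ, φ (g ⟨y, Finset.mem_singleton_self y⟩) ∂gaussVec ({y} : Finset V)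
      = ∫ x, φ x ∂gaussianReal 0 1 := by
  have hmp := measurePreserving_eval (μ := fun _ : ({y} : Finset V) => gaussianReal 0 1)
    ⟨y, Finset.mem_singleton_self y⟩
  have h := integral_map (μ := gaussVec ({y} : Finset V)) hmp.measurable.aemeasurable (f := φ)
    hφ.aestronglyMeasurable
  unfold gaussVec at h ⊢
  rw [hmp.map_eq] at h
  exact h.symm

/-- The law of the root magnetisation of a single site. -/
lemma wl_law_singleton {θ t : ℝ} (hθ : GoodTheta θ) (ht : 0 ≤ t) (y : V) {f : ℝ → ℝ}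
    (hf : Measurable f) (hb : ∃ C, ∀ u, |u| ≤ 1 → |f u| ≤ C) :
    plE G θ {y} t (fun l => f (magn G θ {y} l y)) = ∫ ν, f ν ∂A0 t := by
  obtain ⟨C, hC⟩ := hb
  unfold plE
  have hps : ({y} : Finset V).powerset = {∅, {y}} := by
    ext S
    simp [Finset.subset_singleton_iff]
  have hy : y ∈ ({y} : Finset V) := Finset.mem_singleton_self y
  rw [hps, Finset.sum_pair (Finset.singleton_ne_empty y).symm, integral_A0 hf ⟨C, hC⟩,
    wl_mass_singleton θ y (Finset.empty_subset _), wl_mass_singleton θ y subset_rfl]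
  have hφ : ∀ c : ℝ, Measurable (fun x : ℝ => f (Real.tanh ((c + Real.sqrt t * x) / 2))) := by
    intro c
    have htanh : Measurable Real.tanh := by
      have : Real.tanh = fun x => Real.sinh x / Real.cosh x := funext Real.tanh_eq_sinh_div_cosh
      rw [this]
      exact Real.measurable_sinh.div Real.measurable_cosh
    exact hf.comp (htanh.comp ((measurable_const.add (measurable_id.const_mul _)).div_const _))
  have h0 : ∫ g, f (magn G θ {y} (fun i => Zt ({y} : Finset V) t (∅ : Finset V) g i - t / 2) y) ∂gaussVec ({y} : Finset V)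
      = ∫ x, f (Real.tanh ((-(t / 2) + Real.sqrt t * x) / 2)) ∂gaussianReal 0 1 := by
    rw [← wl_integral_eval (y := y) (hφ _)]
    refine integral_congr_ae (Filter.Eventually.of_forall fun g => ?_)
    show f (magn G θ {y} _ y) = _
    rw [magn_singleton]
    have e : Zt ({y} : Finset V) t (∅ : Finset V) g y - t / 2 = -(t / 2) + Real.sqrt t * g ⟨y, hy⟩ := by
      rw [Zt, dif_pos hy]
      have : ind (∅ : Finset V) y = 0 := by simp [ind]
      rw [this]
      ring
    rw [e]
  have h1 : ∫ g, f (magn G θ {y} (fun i => Zt {y} t {y} g i - t / 2) y) ∂gaussVec ({y} : Finset V)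
      = ∫ x, f (Real.tanh ((t / 2 + Real.sqrt t * x) / 2)) ∂gaussianReal 0 1 := by
    rw [← wl_integral_eval (y := y) (hφ _)]
    refine integral_congr_ae (Filter.Eventually.of_forall fun g => ?_)
    show f (magn G θ {y} _ y) = _
    rw [magn_singleton]
    have e : Zt ({y} : Finset V) t {y} g y - t / 2 = t / 2 + Real.sqrt t * g ⟨y, hy⟩ := by
      rw [Zt, dif_pos hy]
      have : ind ({y} : Finset V) y = 1 := by simp [ind]
      rw [this]
      ring
    rw [e]
  rw [h0, h1]
  ring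

/-- The law of the root magnetisation of `{y} ∪ ⋃_{s ∈ C} T_n(s → y)`. -/
lemma wl_law_R {θ t : ℝ} (hθ : GoodTheta θ) (ht : 0 ≤ t) (hT : G.IsTree) {y x : V} (hyx : G.Adj y x)
    {n : ℕ} {ρ : Measure ℝ} (hρ : SymL ρ)
    (IH : ∀ s ∈ childF G y x, ∀ {f : ℝ → ℝ}, Measurable f → (∃ C, ∀ u, |u| ≤ 1 → |f u| ≤ C) →
      plE G θ (tsub G s y n) t (fun l => f (magn G θ (tsub G s y n) l s)) = ∫ ν, f ν ∂ρ)
    (C : Finset V) (hC : C ⊆ childF G y x) :
    ∀ {f : ℝ → ℝ}, Measurable f → (∃ C, ∀ u, |u| ≤ 1 → |f u| ≤ C) →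
      plE G θ (wlR G y C n) t (fun l => f (magn G θ (wlR G y C n) l y))
        = ∫ ν, f ν ∂mergePow (A0 t) (scaleL θ ρ) C.card := by
  have hρ' := hρ.prob
  have hθ1 : |θ| ≤ 1 := by
    rw [abs_of_nonneg hθ.nonneg]
    exact hθ.lt_one.le
  have hS : SymL (scaleL θ ρ) := symL_scale hθ1 hρ
  induction C using Finset.induction_on with
  | empty =>
    intro f hf hb
    rw [wl_wlR_empty, Finset.card_empty]
    exact wl_law_singleton hθ ht y hf hb
  | insert s C hsC ih =>
    intro f hf hb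
    have hC' : C ⊆ childF G y x := fun w hw => hC (Finset.mem_insert_of_mem hw)
    have hs : s ∈ childF G y x := hC (Finset.mem_insert_self s C)
    obtain ⟨D, hD⟩ := hb
    have hs' := wl_edgeSplit_R hT hyx hC' hs hsC n
    have hbF : ∀ l, |f (magn G θ (wlR G y (insert s C) n) l y)| ≤ D :=
      fun l => hD _ (abs_magn_le_one hθ _ l y)
    have hFm : Measurable (fun l => f (magn G θ (wlR G y (insert s C) n) l y)) :=
      hf.comp (wl_measurable_magn θ _ y)
    rw [plE_edgeSplit hθ ht hs' hFm ⟨D, hbF⟩]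
    have hglue : ∀ l₁ l₂ : V → ℝ,
        f (magn G θ (wlR G y (insert s C) n)
            (fun i => if i ∈ wlR G y C n then l₁ i else l₂ i) y)
          * (1 + θ * magn G θ (wlR G y C n) l₁ y * magn G θ (tsub G s y n) l₂ s)
        = wlG θ f (magn G θ (wlR G y C n) l₁ y) (magn G θ (tsub G s y n) l₂ s) := by
      intro l₁ l₂
      rw [magn_split_left hθ hs',
        magn_congr (lam := fun i => if i ∈ wlR G y C n then l₁ i else l₂ i) (lam' := l₁)
          (wl_glue_left (B := tsub G s y n) l₁ l₂) y,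
        magn_congr (lam := fun i => if i ∈ wlR G y C n then l₁ i else l₂ i) (lam' := l₂)
          (wl_glue_right hs'.disj l₁ l₂) s]
      unfold wlG
      ring_nf
    simp only [hglue]
    have hmA : ∀ l, |magn G θ (wlR G y C n) l y| ≤ 1 := fun l => abs_magn_le_one hθ _ l y
    have h1 : ∀ l₁ : V → ℝ, plE G θ (tsub G s y n) t
        (fun l₂ => wlG θ f (magn G θ (wlR G y C n) l₁ y) (magn G θ (tsub G s y n) l₂ s))
        = wlPsi θ f ρ (magn G θ (wlR G y C n) l₁ y) := by
      intro l₁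
      refine IH s hs (f := fun ν => wlG θ f (magn G θ (wlR G y C n) l₁ y) ν) ?_ ?_
      · exact (wl_measurable_wlG θ hf).comp (measurable_const.prodMk measurable_id)
      · exact ⟨D * 2, fun u hu => wl_abs_wlG_le hθ hD (hmA _) hu⟩
    simp only [h1]
    rw [ih hC' (wl_measurable_wlPsi θ hf ρ) ⟨D * 2, fun u hu => wl_abs_wlPsi_le hθ hD hρ hu⟩,
      Finset.card_insert_of_notMem hsC]
    show _ = ∫ ν, f ν ∂mergeL (mergePow (A0 t) (scaleL θ ρ) C.card) (scaleL θ ρ)
    rw [integral_mergeL (symL_mergePow (symL_A0 ht) hS _) hS hf ⟨D, hD⟩]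
    refine integral_congr_ae (Filter.Eventually.of_forall fun a => ?_)
    show ∫ ν, wlG θ f a ν ∂ρ = ∫ b, f (mrg a b) * (1 + a * b) ∂scaleL θ ρ
    have hm : Measurable (fun b : ℝ => f (mrg a b) * (1 + a * b)) :=
      (hf.comp (wl_measurable_mrg.comp (measurable_const.prodMk measurable_id))).mul
        (measurable_const.add (measurable_const.mul measurable_id))
    rw [integral_scaleL hm]
    rfl

lemma wl_plE_comm (θ t : ℝ) (W₁ W₂ : Finset V) {H : (V → ℝ) → (V → ℝ) → ℝ}
    (hH : Measurable (fun p : (V → ℝ) × (V → ℝ) => H p.1 p.2)) {C : ℝ} (hb : ∀ l₁ l₂, |H l₁ l₂| ≤ C) :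
    plE G θ W₁ t (fun l₁ => plE G θ W₂ t (fun l₂ => H l₁ l₂))
      = plE G θ W₂ t (fun l₂ => plE G θ W₁ t (fun l₁ => H l₁ l₂)) := by
  have hJ : ∀ S₁ S₂, Measurable (fun g₁ : W₁ → ℝ => ∫ g₂ : W₂ → ℝ,
      H (fun i => Zt W₁ t S₁ g₁ i - t / 2) (fun i => Zt W₂ t S₂ g₂ i - t / 2) ∂gaussVec W₂) := by
    intro S₁ S₂
    have hm : Measurable (fun p : (W₁ → ℝ) × (W₂ → ℝ) =>
        H (fun i => Zt W₁ t S₁ p.1 i - t / 2) (fun i => Zt W₂ t S₂ p.2 i - t / 2)) :=
      hH.comp (((wl_measurable_tilt W₁ t S₁).comp measurable_fst).prodMk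
        ((wl_measurable_tilt W₂ t S₂).comp measurable_snd))
    exact hm.stronglyMeasurable.integral_prod_right'.measurable
  have hJ' : ∀ S₁ S₂, Measurable (fun g₂ : W₂ → ℝ => ∫ g₁ : W₁ → ℝ,
      H (fun i => Zt W₁ t S₁ g₁ i - t / 2) (fun i => Zt W₂ t S₂ g₂ i - t / 2) ∂gaussVec W₁) := by
    intro S₁ S₂
    have hm : Measurable (fun p : (W₂ → ℝ) × (W₁ → ℝ) =>
        H (fun i => Zt W₁ t S₁ p.2 i - t / 2) (fun i => Zt W₂ t S₂ p.1 i - t / 2)) :=
      hH.comp (((wl_measurable_tilt W₁ t S₁).comp measurable_snd).prodMk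
        ((wl_measurable_tilt W₂ t S₂).comp measurable_fst))
    exact hm.stronglyMeasurable.integral_prod_right'.measurable
  have hJint : ∀ S₁ S₂, Integrable (fun g₁ : W₁ → ℝ => ∫ g₂ : W₂ → ℝ,
      H (fun i => Zt W₁ t S₁ g₁ i - t / 2) (fun i => Zt W₂ t S₂ g₂ i - t / 2) ∂gaussVec W₂) (gaussVec W₁) :=
    fun S₁ S₂ => integrable_of_bdd (hJ S₁ S₂) (fun g₁ => wl_abs_integral_le fun g₂ => hb _ _)
  have hJint' : ∀ S₁ S₂, Integrable (fun g₂ : W₂ → ℝ => ∫ g₁ : W₁ → ℝ,
      H (fun i => Zt W₁ t S₁ g₁ i - t / 2) (fun i => Zt W₂ t S₂ g₂ i - t / 2) ∂gaussVec W₁) (gaussVec W₂) :=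
    fun S₁ S₂ => integrable_of_bdd (hJ' S₁ S₂) (fun g₂ => wl_abs_integral_le fun g₁ => hb _ _)
  unfold plE
  have hL : ∀ S₁, ∫ g₁ : W₁ → ℝ, ∑ S₂ ∈ W₂.powerset, (isingW G θ W₂).mass W₂ S₂ * ∫ g₂ : W₂ → ℝ,
      H (fun i => Zt W₁ t S₁ g₁ i - t / 2) (fun i => Zt W₂ t S₂ g₂ i - t / 2) ∂gaussVec W₂ ∂gaussVec W₁
      = ∑ S₂ ∈ W₂.powerset, (isingW G θ W₂).mass W₂ S₂ * ∫ g₁ : W₁ → ℝ, ∫ g₂ : W₂ → ℝ,
      H (fun i => Zt W₁ t S₁ g₁ i - t / 2) (fun i => Zt W₂ t S₂ g₂ i - t / 2) ∂gaussVec W₂ ∂gaussVec W₁ := by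
    intro S₁
    rw [integral_finsetSum _ fun S₂ _ => (hJint S₁ S₂).const_mul _]
    exact Finset.sum_congr rfl fun S₂ _ => integral_const_mul _ _
  have hR : ∀ S₂, ∫ g₂ : W₂ → ℝ, ∑ S₁ ∈ W₁.powerset, (isingW G θ W₁).mass W₁ S₁ * ∫ g₁ : W₁ → ℝ,
      H (fun i => Zt W₁ t S₁ g₁ i - t / 2) (fun i => Zt W₂ t S₂ g₂ i - t / 2) ∂gaussVec W₁ ∂gaussVec W₂
      = ∑ S₁ ∈ W₁.powerset, (isingW G θ W₁).mass W₁ S₁ * ∫ g₂ : W₂ → ℝ, ∫ g₁ : W₁ → ℝ,
      H (fun i => Zt W₁ t S₁ g₁ i - t / 2) (fun i => Zt W₂ t S₂ g₂ i - t / 2) ∂gaussVec W₁ ∂gaussVec W₂ := by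
    intro S₂
    rw [integral_finsetSum _ fun S₁ _ => (hJint' S₁ S₂).const_mul _]
    exact Finset.sum_congr rfl fun S₁ _ => integral_const_mul _ _
  simp only [hL, hR]
  simp only [Finset.mul_sum]
  rw [Finset.sum_comm]
  refine Finset.sum_congr rfl fun S₂ _ => Finset.sum_congr rfl fun S₁ _ => ?_
  have hswap : ∫ g₁ : W₁ → ℝ, ∫ g₂ : W₂ → ℝ,
      H (fun i => Zt W₁ t S₁ g₁ i - t / 2) (fun i => Zt W₂ t S₂ g₂ i - t / 2) ∂gaussVec W₂ ∂gaussVec W₁
      = ∫ g₂ : W₂ → ℝ, ∫ g₁ : W₁ → ℝ,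
      H (fun i => Zt W₁ t S₁ g₁ i - t / 2) (fun i => Zt W₂ t S₂ g₂ i - t / 2) ∂gaussVec W₁ ∂gaussVec W₂ := by
    refine integral_integral_swap ?_
    have hm : Measurable (fun p : (W₁ → ℝ) × (W₂ → ℝ) =>
        H (fun i => Zt W₁ t S₁ p.1 i - t / 2) (fun i => Zt W₂ t S₂ p.2 i - t / 2)) :=
      hH.comp (((wl_measurable_tilt W₁ t S₁).comp measurable_fst).prodMk
        ((wl_measurable_tilt W₂ t S₂).comp measurable_snd))
    exact Integrable.of_bound hm.aestronglyMeasurable C
      (Filter.Eventually.of_forall fun p => by simpa [Function.uncurry] using hb _ _)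
  rw [hswap]
  ring

end wl_rec

section recursion
variable [G.LocallyFinite] {q : ℕ} (hT : G.IsTree) (hreg : G.IsRegularOfDegree (q + 1))
  {θ t : ℝ} (hθ : GoodTheta θ) (ht : 0 ≤ t)
include hT hreg hθ ht

/-- The law of the root message. -/
theorem tsub_law {y x : V} (hyx : G.Adj y x) (n : ℕ) {f : ℝ → ℝ} (hf : Measurable f)
    (hb : ∃ C, ∀ u, |u| ≤ 1 → |f u| ≤ C) :
    plE G θ (tsub G y x n) t (fun l => f (magn G θ (tsub G y x n) l y)) = ∫ ν, f ν ∂rhoL θ t q n := by
  induction n generalizing y x f with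
  | zero =>
    have h0 : tsub G y x 0 = {y} := by
      simp [tsub, sideF, tball, Finset.filter_singleton, SimpleGraph.dist_eq_one_iff_adj.2 hyx]
    rw [h0]
    exact wl_law_singleton hθ ht y hf hb
  | succ n ih =>
    have hρ := symL_rhoL hθ ht q n
    have h := wl_law_R hθ ht hT hyx hρ (fun s hs _ hf hb => ih (wl_childF_adj hs).symm hf hb)
      (childF G y x) subset_rfl hf hb
    rw [wl_wlR_childF hT hyx n, card_childF hT hreg hyx] at h
    exact h

/-- One step of the Markov chain along a path directed to the root. `1 ≤ q`. -/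
theorem plE_kernel_step {y x s : V} (hyx : G.Adj y x) (hs : s ∈ childF G y x) (m : ℕ) {f : ℝ → ℝ}
    (hf : Measurable f) (hb : ∃ C, ∀ u, |u| ≤ 1 → |f u| ≤ C) {F : (V → ℝ) → ℝ} (hF : Measurable F)
    (hFb : ∃ C, ∀ l, |F l| ≤ C) (hdep : DepOn (tsub G s y m) F) :
    plE G θ (tsub G y x (m + 1)) t (fun l => f (magn G θ (tsub G y x (m + 1)) l y) * F l) =
      plE G θ (tsub G s y m) t (fun l => kerT θ t q m f (magn G θ (tsub G s y m) l s) * F l) := by
  obtain ⟨D, hD⟩ := hb
  obtain ⟨E, hE⟩ := hFb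
  have hE0 : 0 ≤ E := (abs_nonneg _).trans (hE (fun _ => 0))
  have hD0 : 0 ≤ D := (abs_nonneg _).trans (hD 0 (by simp))
  have hsC : s ∉ (childF G y x).erase s := Finset.notMem_erase s _
  have hCsub : (childF G y x).erase s ⊆ childF G y x := Finset.erase_subset _ _
  have hins : insert s ((childF G y x).erase s) = childF G y x := Finset.insert_erase hs
  have hs' := wl_edgeSplit_R hT hyx hCsub hs hsC m
  rw [hins, wl_wlR_childF hT hyx m] at hs'
  have hcard : ((childF G y x).erase s).card = q - 1 := by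
    rw [Finset.card_erase_of_mem hs, card_childF hT hreg hyx]
  set A := wlR G y ((childF G y x).erase s) m with hA
  set B := tsub G s y m with hB
  have hFm : Measurable (fun l => f (magn G θ (tsub G y x (m + 1)) l y) * F l) :=
    (hf.comp (wl_measurable_magn θ _ y)).mul hF
  have hFbb : ∀ l, |f (magn G θ (tsub G y x (m + 1)) l y) * F l| ≤ D * E := fun l => by
    rw [abs_mul]
    exact mul_le_mul (hD _ (abs_magn_le_one hθ _ l y)) (hE l) (abs_nonneg _) hD0
  rw [plE_edgeSplit hθ ht hs' hFm ⟨D * E, hFbb⟩]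
  have hglue : ∀ l₁ l₂ : V → ℝ,
      f (magn G θ (tsub G y x (m + 1)) (fun i => if i ∈ A then l₁ i else l₂ i) y)
        * F (fun i => if i ∈ A then l₁ i else l₂ i)
        * (1 + θ * magn G θ A l₁ y * magn G θ B l₂ s)
      = wlG θ f (magn G θ A l₁ y) (magn G θ B l₂ s) * F l₂ := by
    intro l₁ l₂
    rw [magn_split_left hθ hs',
      magn_congr (lam := fun i => if i ∈ A then l₁ i else l₂ i) (lam' := l₁)
        (wl_glue_left (B := B) l₁ l₂) y,
      magn_congr (lam := fun i => if i ∈ A then l₁ i else l₂ i) (lam' := l₂)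
        (wl_glue_right hs'.disj l₁ l₂) s,
      hdep _ _ (wl_glue_right hs'.disj l₁ l₂)]
    unfold wlG
    ring_nf
  simp only [hglue]
  have hmA : ∀ l, |magn G θ A l y| ≤ 1 := fun l => abs_magn_le_one hθ _ l y
  have hmB : ∀ l, |magn G θ B l s| ≤ 1 := fun l => abs_magn_le_one hθ _ l s
  have hJm : Measurable (fun p : (V → ℝ) × (V → ℝ) =>
      wlG θ f (magn G θ A p.1 y) (magn G θ B p.2 s) * F p.2) := by
    refine ((wl_measurable_wlG θ hf).comp
      (((wl_measurable_magn θ A y).comp measurable_fst).prodMk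
        ((wl_measurable_magn θ B s).comp measurable_snd))).mul (hF.comp measurable_snd)
  have hJb : ∀ l₁ l₂ : V → ℝ, |wlG θ f (magn G θ A l₁ y) (magn G θ B l₂ s) * F l₂| ≤ D * 2 * E := by
    intro l₁ l₂
    rw [abs_mul]
    exact mul_le_mul (wl_abs_wlG_le hθ hD (hmA _) (hmB _)) (hE _) (abs_nonneg _) (by positivity)
  rw [wl_plE_comm θ t A B hJm hJb]
  have hρ := symL_rhoL hθ ht q m
  have hIH : ∀ s' ∈ childF G y x, ∀ {f : ℝ → ℝ}, Measurable f → (∃ C, ∀ u, |u| ≤ 1 → |f u| ≤ C) →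
      plE G θ (tsub G s' y m) t (fun l => f (magn G θ (tsub G s' y m) l s')) = ∫ ν, f ν ∂rhoL θ t q m :=
    fun s' hs' _ hf hb => tsub_law hT hreg hθ ht (wl_childF_adj hs').symm m hf hb
  have hout : ∀ l₂ : V → ℝ, plE G θ A t
      (fun l₁ => wlG θ f (magn G θ A l₁ y) (magn G θ B l₂ s) * F l₂)
      = kerT θ t q m f (magn G θ B l₂ s) * F l₂ := by
    intro l₂
    have h2 : (fun l₁ => wlG θ f (magn G θ A l₁ y) (magn G θ B l₂ s) * F l₂)
        = fun l₁ => F l₂ * wlG θ f (magn G θ A l₁ y) (magn G θ B l₂ s) := by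
      funext l₁
      ring
    rw [h2, plE_mul_const hθ ht, mul_comm]
    congr 1
    have hm : Measurable (fun a : ℝ => wlG θ f a (magn G θ B l₂ s)) :=
      (wl_measurable_wlG θ hf).comp (measurable_id.prodMk measurable_const)
    have hh := wl_law_R hθ ht hT hyx hρ hIH ((childF G y x).erase s) hCsub hm
      ⟨D * 2, fun u hu => wl_abs_wlG_le hθ hD hu (hmB _)⟩
    rw [hcard] at hh
    rw [hh]
    unfold kerT Bl wlG
    refine integral_congr_ae (Filter.Eventually.of_forall fun a => ?_)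
    show _ = _
    ring_nf
  simp only [hout]

/-- Independence of flip-even functions of the child subtrees. -/
theorem plE_prod_children {y x : V} (hyx : G.Adj y x) (n : ℕ) (F : V → (V → ℝ) → ℝ)
    (hF : ∀ s, Measurable (F s)) (hb : ∀ s, ∃ C, ∀ l, |F s l| ≤ C)
    (hdep : ∀ s ∈ childF G y x, DepOn (tsub G s y n) (F s))
    (heven : ∀ s ∈ childF G y x, ∀ l, F s (flipOn (tsub G s y n) l) = F s l) :
    plE G θ (tsub G y x (n + 1)) t (fun l => ∏ s ∈ childF G y x, F s l) =
      ∏ s ∈ childF G y x, plE G θ (tsub G s y n) t (F s) := by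
  choose D hD using hb
  have hD0 : ∀ s, 0 ≤ D s := fun s => (abs_nonneg _).trans (hD s (fun _ => 0))
  have key : ∀ C : Finset V, C ⊆ childF G y x →
      plE G θ (wlR G y C n) t (fun l => ∏ s ∈ C, F s l) = ∏ s ∈ C, plE G θ (tsub G s y n) t (F s) := by
    intro C
    induction C using Finset.induction_on with
    | empty =>
      intro _
      simp only [Finset.prod_empty]
      exact plE_const hθ ht _ 1
    | insert s C hsC ih =>
      intro hC
      have hC' : C ⊆ childF G y x := fun w hw => hC (Finset.mem_insert_of_mem hw)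
      have hs : s ∈ childF G y x := hC (Finset.mem_insert_self s C)
      have hsy := (wl_childF_adj hs).symm
      have hs' := wl_edgeSplit_R hT hyx hC' hs hsC n
      have hprodm : Measurable (fun l => ∏ s' ∈ C, F s' l) :=
        Finset.measurable_prod _ fun s' _ => hF s'
      have hprodb : ∀ l, |∏ s' ∈ C, F s' l| ≤ ∏ s' ∈ C, D s' := fun l => by
        rw [Finset.abs_prod]
        exact Finset.prod_le_prod (fun _ _ => abs_nonneg _) fun s' _ => hD s' l
      have hprod0 : 0 ≤ ∏ s' ∈ C, D s' := Finset.prod_nonneg fun s' _ => hD0 s'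
      simp only [Finset.prod_insert hsC]
      have hFF : Measurable (fun l => F s l * ∏ s' ∈ C, F s' l) := (hF s).mul hprodm
      rw [plE_edgeSplit hθ ht hs' hFF ⟨D s * ∏ s' ∈ C, D s', fun l => by
        show |F s l * ∏ s' ∈ C, F s' l| ≤ _
        rw [abs_mul]
        exact mul_le_mul (hD s l) (hprodb l) (abs_nonneg _) (hD0 s)⟩]
      set A := wlR G y C n with hA
      set B := tsub G s y n with hB
      have hglue : ∀ l₁ l₂ : V → ℝ,
          F s (fun i => if i ∈ A then l₁ i else l₂ i)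
            * (∏ s' ∈ C, F s' (fun i => if i ∈ A then l₁ i else l₂ i))
            * (1 + θ * magn G θ A l₁ y * magn G θ B l₂ s)
          = (∏ s' ∈ C, F s' l₁) * (F s l₂ + (θ * magn G θ A l₁ y) * (F s l₂ * magn G θ B l₂ s)) := by
        intro l₁ l₂
        rw [hdep s hs _ l₂ (wl_glue_right hs'.disj l₁ l₂)]
        have : ∏ s' ∈ C, F s' (fun i => if i ∈ A then l₁ i else l₂ i) = ∏ s' ∈ C, F s' l₁ := by
          refine Finset.prod_congr rfl fun s' hs'C => ?_
          refine hdep s' (hC' hs'C) _ _ fun i hi => ?_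
          have hiA : i ∈ A := Finset.mem_union_right _ (Finset.mem_biUnion.2 ⟨s', hs'C, hi⟩)
          simp [hiA]
        rw [this]
        ring
      simp only [hglue]
      have hmB : ∀ l, |magn G θ B l s| ≤ 1 := fun l => abs_magn_le_one hθ _ l s
      have hmBm : Measurable (fun l => magn G θ B l s) := wl_measurable_magn θ B s
      have hFB : ∀ l, |F s l * magn G θ B l s| ≤ D s := fun l => by
        rw [abs_mul]
        calc |F s l| * |magn G θ B l s| ≤ D s * 1 := mul_le_mul (hD s l) (hmB l) (abs_nonneg _) (hD0 s)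
          _ = D s := mul_one _
      -- the flip
      have hzero : plE G θ B t (fun l => F s l * magn G θ B l s) = 0 := by
        have hdep' : DepOn B (fun l => F s l * magn G θ B l s) := by
          intro l l' h
          show F s l * magn G θ B l s = F s l' * magn G θ B l' s
          rw [hdep s hs l l' h, magn_congr h s]
        have h1 := plE_flip (G := G) hθ ht hT (conv_tsub hT hsy n) hdep'
        have h2 : (fun l => F s (flipOn B l) * magn G θ B (flipOn B l) s)
            = fun l => (-1 : ℝ) * (F s l * magn G θ B l s) := by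
          funext l
          rw [heven s hs l]
          have h3 : magn G θ B (flipOn B l) s = magn G θ B (fun i => - l i) s :=
            magn_congr (fun i hi => by simp [flipOn, hi]) s
          rw [h3, magn_neg hθ B l (mem_tsub_self hT hsy n)]
          ring
        rw [h2, plE_mul_const hθ ht] at h1
        linarith
      have hinner : ∀ l₁ : V → ℝ, plE G θ B t (fun l₂ => (∏ s' ∈ C, F s' l₁) *
          (F s l₂ + (θ * magn G θ A l₁ y) * (F s l₂ * magn G θ B l₂ s)))
          = (∏ s' ∈ C, F s' l₁) * plE G θ B t (F s) := by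
        intro l₁
        rw [plE_mul_const hθ ht]
        congr 1
        have hm3 : Measurable (fun l₂ => (θ * magn G θ A l₁ y) * (F s l₂ * magn G θ B l₂ s)) :=
          ((hF s).mul hmBm).const_mul _
        rw [plE_add hθ ht (hF s) hm3 ⟨D s, hD s⟩
          ⟨|θ * magn G θ A l₁ y| * D s, fun l₂ => by
            rw [abs_mul]
            exact mul_le_mul_of_nonneg_left (hFB l₂) (abs_nonneg _)⟩,
          plE_mul_const hθ ht, hzero]
        ring
      simp only [hinner]
      have h4 : (fun l₁ => (∏ s' ∈ C, F s' l₁) * plE G θ B t (F s))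
          = fun l₁ => plE G θ B t (F s) * ∏ s' ∈ C, F s' l₁ := by
        funext l₁
        ring
      rw [h4, plE_mul_const hθ ht, ih hC']
  have h := key (childF G y x) subset_rfl
  rwa [wl_wlR_childF hT hyx n] at h

end recursion

section tree_msgs
variable [G.LocallyFinite] (hT : G.IsTree)
include hT

/-- A message directed to the centre of a ball is the root magnetisation of a regular subtree. -/
theorem msg_tball_eq {θ : ℝ} {c y x : V} (hyx : G.Adj y x) (hd : G.dist c y = G.dist c x + 1)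
    {k : ℕ} (hk : G.dist c y ≤ k) (l : V → ℝ) :
    msg G θ (tball G c k) l y x = magn G θ (tsub G y x (k - G.dist c y)) l y := by
  unfold msg
  congr 1
  ext w
  simp only [tsub, sideF, Finset.mem_filter, mem_tball hT]
  constructor
  · rintro ⟨h1, h2⟩
    have h3 := dist_across hT hyx.symm (x := c) (y := w) (by omega) h2
    exact ⟨by omega, h2⟩
  · rintro ⟨h1, h2⟩
    have h3 := dist_across hT hyx.symm (x := c) (y := w) (by omega) h2
    exact ⟨by omega, h2⟩

/-- A message inside a subtree, directed to its root. -/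
theorem msg_tsub_eq {θ : ℝ} {y x w p : V} (hyx : G.Adj y x) (hwp : G.Adj w p)
    (hd : G.dist y w = G.dist y p + 1) (hw : G.dist w x = G.dist w y + 1) {k : ℕ}
    (hk : G.dist y w ≤ k) (l : V → ℝ) :
    msg G θ (tsub G y x k) l w p = magn G θ (tsub G w p (k - G.dist y w)) l w := by
  unfold msg
  congr 1
  ext u
  simp only [tsub, sideF, Finset.mem_filter, mem_tball hT]
  constructor
  · rintro ⟨⟨h1, h2⟩, h3⟩
    have h4 := dist_across hT hwp.symm (x := y) (y := u) (by omega) h3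
    exact ⟨by omega, h3⟩
  · rintro ⟨h1, h3⟩
    have h4 := dist_across hT hwp.symm (x := y) (y := u) (by omega) h3
    refine ⟨⟨by omega, ?_⟩, h3⟩
    -- `u` is on the `y` side of `{y, x}`
    by_contra hcon
    have hc : G.dist u x < G.dist u y := by
      have := dist_adj_cases hT hyx u
      omega
    have h5 := dist_across hT hyx (x := w) (y := u) (by omega) hc
    have h6 := dist_across hT hyx (x := y) (y := u) (by simp [SimpleGraph.dist_eq_one_iff_adj.2 hyx]) hc
    rw [SimpleGraph.dist_comm (u := w) (v := y)] at h5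
    simp only [SimpleGraph.dist_self] at h6
    omega

end tree_msgs

end Crest.Agent.IsingFactor
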